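import Mathlib.GroupTheory.SpecificGroups.Alternating
import Mathlib.GroupTheory.SpecificGroups.Alternating.Centralizer
import Mathlib.GroupTheory.Perm.Centralizer
import Mathlib.Tactic.Linarith
import Mathlib.Tactic.Ring

/-!
P180: isomorphisms between alternating groups of degree at least 7 are induced by bijections
of the points.
-/

namespace Vale.Agent.P180.R2.H471

open Equiv Equiv.Perm Nat

variable {α β : Type*} [Fintype α] [DecidableEq α] [Fintype β] [DecidableEq β]

/-! ### numerical estimate -/

theorem num0 : ∀ j : ℕ, 2 ≤ j → 2 * (3 ^ j * (j + 1)!) < (3 * j)!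
  | 0, h => absurd h (by decide)
  | 1, h => absurd h (by decide)
  | 2, _ => by decide
  | j + 3, _ => by
    have ih := num0 (j + 2) (by lia)
    have e1 : (3 * (j + 3))! = (3 * j + 9) * ((3 * j + 8) * ((3 * j + 7) * (3 * (j + 2))!)) := by
      have : 3 * (j + 3) = (3 * (j + 2)) + 1 + 1 + 1 := by ring
      rw [this, Nat.factorial_succ, Nat.factorial_succ, Nat.factorial_succ]
      ring
    have e2 : (j + 3 + 1)! = (j + 4) * (j + 2 + 1)! := by
      rw [Nat.factorial_succ]
    rw [e1, e2, pow_succ]
    have hpos : 0 < (j + 2 + 1)! := Nat.factorial_pos _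
    calc 2 * (3 ^ (j + 2) * 3 * ((j + 4) * (j + 2 + 1)!))
        = (3 * (j + 4)) * (2 * (3 ^ (j + 2) * (j + 2 + 1)!)) := by ring
      _ < ((3 * j + 9) * ((3 * j + 8) * (3 * j + 7))) * (3 * (j + 2))! := by
          apply Nat.mul_lt_mul_of_le_of_lt _ ih (by positivity)
          calc 3 * (j + 4) ≤ (3 * j + 9) * 2 := by lia
            _ ≤ _ := Nat.mul_le_mul_left _ (by nlinarith)
      _ = _ := by ring

theorem num1 (j m : ℕ) (hj : 1 ≤ j) (hm : 4 ≤ m) (h : 3 * j ≤ m) :
    2 * (3 ^ j * (j + 1)! * (m - 3 * j)!) < m ! := by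
  have key : 2 * (3 ^ j * (j + 1)!) < m.descFactorial (3 * j) := by
    rcases Nat.lt_or_ge j 2 with h2 | h2
    · have : j = 1 := by lia
      subst this
      have h4 : Nat.descFactorial 4 3 ≤ m.descFactorial 3 := Nat.descFactorial_le _ hm
      have : Nat.descFactorial 4 3 = 24 := by decide
      have h5 : 2 * (3 ^ 1 * (1 + 1)!) = 12 := by decide
      rw [h5]
      simp only [mul_one]
      lia
    · calc 2 * (3 ^ j * (j + 1)!) < (3 * j)! := num0 j h2
        _ = (3 * j).descFactorial (3 * j) := (Nat.descFactorial_self _).symm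
        _ ≤ m.descFactorial (3 * j) := Nat.descFactorial_le _ h
  calc 2 * (3 ^ j * (j + 1)! * (m - 3 * j)!) = (2 * (3 ^ j * (j + 1)!)) * (m - 3 * j)! := by ring
    _ < m.descFactorial (3 * j) * (m - 3 * j)! :=
        Nat.mul_lt_mul_of_pos_right key (Nat.factorial_pos _)
    _ = m ! := by rw [mul_comm, Nat.factorial_mul_descFactorial h]

theorem num (k n : ℕ) (hk : 2 ≤ k) (hn : 7 ≤ n) (h : 3 * k ≤ n) :
    2 * ((n - 3 * k)! * 3 ^ k * k !) < (n - 3)! * 3 := by
  obtain ⟨j, rfl⟩ : ∃ j, k = j + 1 := ⟨k - 1, by lia⟩
  have := num1 j (n - 3) (by lia) (by lia) (by lia)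
  have e : n - 3 - 3 * j = n - 3 * (j + 1) := by lia
  rw [e] at this
  calc 2 * ((n - 3 * (j + 1))! * 3 ^ (j + 1) * (j + 1)!)
      = (2 * (3 ^ j * (j + 1)! * (n - 3 * (j + 1))!)) * 3 := by ring
    _ < (n - 3)! * 3 := Nat.mul_lt_mul_of_pos_right this (by decide)

/-! ### centralizers -/

theorem card_cent_equiv (g : alternatingGroup α) :
    Nat.card (Subgroup.centralizer {g}) =
      Nat.card ((alternatingGroup α).subgroupOf (Subgroup.centralizer {(g : Perm α)})) := by
  refine Nat.card_congr
    { toFun := fun x => ⟨⟨(x.1 : Perm α), ?_⟩, ?_⟩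
      invFun := fun x => ⟨⟨(x.1 : Perm α), ?_⟩, ?_⟩
      left_inv := fun x => rfl
      right_inv := fun x => rfl }
  · have := x.2
    rw [Subgroup.mem_centralizer_singleton_iff] at this ⊢
    exact congrArg Subtype.val this
  · exact x.1.2
  · exact x.2
  · have := x.1.2
    rw [Subgroup.mem_centralizer_singleton_iff] at this ⊢
    exact Subtype.ext this

theorem card_cent_le (g : alternatingGroup α) :
    Nat.card (Subgroup.centralizer {g}) ≤ Nat.card (Subgroup.centralizer {(g : Perm α)}) := by
  rw [card_cent_equiv]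
  exact Nat.le_of_dvd Nat.card_pos (Subgroup.card_subgroup_dvd_card _)

theorem card_cent_ge [Nontrivial α] (g : alternatingGroup α) :
    Nat.card (Subgroup.centralizer {(g : Perm α)}) ≤ 2 * Nat.card (Subgroup.centralizer {g}) := by
  rw [card_cent_equiv]
  have h1 := Subgroup.card_mul_index
    ((alternatingGroup α).subgroupOf (Subgroup.centralizer {(g : Perm α)}))
  have h2 : ((alternatingGroup α).subgroupOf (Subgroup.centralizer {(g : Perm α)})).index ∣ 2 := by
    have := Subgroup.relIndex_dvd_index_of_normal (alternatingGroup α)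
      (Subgroup.centralizer {(g : Perm α)})
    rwa [alternatingGroup.index_eq_two] at this
  have h3 := Nat.le_of_dvd (by decide) h2
  rw [← h1, mul_comm]
  exact Nat.mul_le_mul_right _ h3

theorem card_cent_map {G H : Type*} [Group G] [Group H] (f : G ≃* H) (g : G) :
    Nat.card (Subgroup.centralizer {g}) = Nat.card (Subgroup.centralizer {f g}) := by
  refine Nat.card_congr
    { toFun := fun x => ⟨f x.1, ?_⟩
      invFun := fun x => ⟨f.symm x.1, ?_⟩
      left_inv := fun x => by simp
      right_inv := fun x => by simp }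
  · have := x.2
    rw [Subgroup.mem_centralizer_singleton_iff] at this ⊢
    rw [← map_mul, ← map_mul, this]
  · have := x.2
    rw [Subgroup.mem_centralizer_singleton_iff] at this ⊢
    apply f.injective
    simpa using this

theorem card_eq_of_equiv (ha : 2 ≤ Fintype.card α) (hb : 2 ≤ Fintype.card β)
    (f : alternatingGroup α ≃* alternatingGroup β) : Fintype.card α = Fintype.card β := by
  have : Nontrivial α := Fintype.one_lt_card_iff_nontrivial.1 ha
  have : Nontrivial β := Fintype.one_lt_card_iff_nontrivial.1 hb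
  have h1 := two_mul_card_alternatingGroup (α := α)
  have h2 := two_mul_card_alternatingGroup (α := β)
  have h3 : Fintype.card (alternatingGroup α) = Fintype.card (alternatingGroup β) :=
    Fintype.card_congr f.toEquiv
  rw [Fintype.card_perm] at h1 h2
  have h4 : (Fintype.card α)! = (Fintype.card β)! := by rw [← h1, ← h2, h3]
  exact (Nat.factorial_inj (by lia)).1 h4

theorem three_of_three (ha : 7 ≤ Fintype.card α) (hb : 7 ≤ Fintype.card β)
    (f : alternatingGroup α ≃* alternatingGroup β) (g : alternatingGroup α)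
    (hg : IsThreeCycle (g : Perm α)) : IsThreeCycle (f g : Perm β) := by
  have hcard := card_eq_of_equiv (by lia) (by lia) f
  have : Nontrivial α := Fintype.one_lt_card_iff_nontrivial.1 (by lia)
  have hp : Nat.Prime 3 := Nat.prime_three
  have : Fact (Nat.Prime 3) := ⟨hp⟩
  have hg3 : (g : Perm α) ^ 3 = 1 := by
    rw [← hg.orderOf]; exact pow_orderOf_eq_one _
  have hf3 : (f g : Perm β) ^ 3 = 1 := by
    have h1 : g ^ 3 = 1 := Subtype.ext (by simpa using hg3)
    have h2 : (f g) ^ 3 = 1 := by rw [← map_pow, h1, map_one]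
    simpa using congrArg Subtype.val h2
  have hne : (f g : Perm β) ≠ 1 := by
    intro h
    have h1 : f g = 1 := Subtype.ext (by simpa using h)
    have h2 : g = 1 := by simpa using h1
    exact hg.ne_one (by rw [h2]; rfl)
  have hct := cycleType_of_pow_prime_eq_one hf3
  set k := Multiset.card (f g : Perm β).cycleType with hk
  have hk0 : k ≠ 0 := by
    intro h0
    rw [h0] at hct
    exact hne (cycleType_eq_zero.1 (by simpa using hct))
  rcases Nat.lt_or_ge k 2 with h2 | h2
  · have : k = 1 := by lia
    rw [this] at hct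
    simpa [IsThreeCycle] using hct
  · exfalso
    have hsum : (f g : Perm β).cycleType.sum = 3 * k := by
      rw [hct]; simp [mul_comm]
    have hle : 3 * k ≤ Fintype.card β := by
      rw [← hsum, sum_cycleType]; exact Finset.card_le_univ _
    have e1 := nat_card_centralizer (f g : Perm β)
    have e2 := nat_card_centralizer (g : Perm α)
    rw [hsum] at e1
    have e3 : (f g : Perm β).cycleType.prod = 3 ^ k := by
      rw [hct]; simp
    have e4 : (∏ n ∈ (f g : Perm β).cycleType.toFinset,
        ((f g : Perm β).cycleType.count n)!) = k ! := by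
      have : (f g : Perm β).cycleType.toFinset = {3} := by
        rw [hct, Multiset.toFinset_replicate, if_neg hk0]
      rw [this, Finset.prod_singleton, hct, Multiset.count_replicate_self]
    rw [e3, e4] at e1
    rw [hg.cycleType] at e2
    simp only [Multiset.sum_singleton, Multiset.prod_singleton, Multiset.toFinset_singleton,
      Finset.prod_singleton, Multiset.count_singleton_self, Nat.factorial_one, mul_one] at e2
    have l1 := card_cent_ge g
    have l2 := card_cent_map f g
    have l3 := card_cent_le (f g)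
    rw [e1] at l3
    rw [e2, l2] at l1
    have l4 := num k (Fintype.card β) h2 hb hle
    rw [hcard] at l1
    lia

/-! ### 3-cycles -/

theorem three_apply {s : Perm α} (hs : IsThreeCycle s) (x : α) : s (s (s x)) = x := by
  have : s ^ 3 = 1 := by rw [← hs.orderOf]; exact pow_orderOf_eq_one _
  have h := congrArg (fun q : Perm α => q x) this
  simpa [pow_succ] using h

theorem three_ne {s : Perm α} (hs : IsThreeCycle s) {x : α} (hx : s x ≠ x) : s (s x) ≠ x := by
  intro h
  have := three_apply hs x
  rw [h] at this
  exact hx this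

theorem three_supp {s : Perm α} (hs : IsThreeCycle s) {x y : α} (hx : s x ≠ x) (hy : s y ≠ y) :
    y = x ∨ y = s x ∨ y = s (s x) := by
  have h := hs.support_eq_iff_mem_support.2 (mem_support.2 hx)
  have : y ∈ s.support := mem_support.2 hy
  rw [h] at this
  simpa using this

/-- two 3-cycles whose product is an involution share a directed edge -/
theorem common {s t : Perm α} (hs : IsThreeCycle s) (ht : IsThreeCycle t)
    (h2 : (s * t) * (s * t) = 1) (h1 : s * t ≠ 1) : ∃ u, s u = t u ∧ s u ≠ u := by
  have key : ∀ x, s (t (s (t x))) = x := fun x => by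
    have := congrArg (fun q : Perm α => q x) h2
    simpa using this
  by_cases hT : ∃ x, t x ≠ x ∧ s x = x
  · obtain ⟨x, htx, hsx⟩ := hT
    refine ⟨t x, ?_, ?_⟩
    · have h3 : t (s (t x)) = x := by
        apply s.injective
        rw [key x, hsx]
      have h4 : t (t (t x)) = x := three_apply ht x
      exact t.injective (h3.trans h4.symm)
    · have h3 : t (s (t x)) = x := by
        apply s.injective
        rw [key x, hsx]
      intro h5
      rw [h5] at h3
      exact three_ne ht htx h3
  · exfalso
    push Not at hT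
    -- support of t is contained in the support of s, hence equal
    have hsub : t.support ⊆ s.support := by
      intro x hx
      rw [mem_support] at hx ⊢
      intro h
      exact hT x hx h
    have heq : t.support = s.support :=
      Finset.eq_of_subset_of_card_le hsub (by rw [hs.card_support, ht.card_support])
    apply h1
    ext x
    simp only [coe_mul, Function.comp_apply, one_apply]
    by_cases hx : t x = x
    · have : x ∉ t.support := by rw [notMem_support]; exact hx
      rw [heq, notMem_support] at this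
      rw [hx, this]
    · have hxs : s x ≠ x := by
        have : x ∈ t.support := mem_support.2 hx
        rw [heq] at this
        exact mem_support.1 this
      have htxs : s (t x) ≠ t x := by
        have : t x ∈ t.support := by rw [apply_mem_support]; exact mem_support.2 hx
        rw [heq] at this
        exact mem_support.1 this
      rcases three_supp hs hxs htxs with h | h | h
      · exact absurd h hx
      · exfalso
        -- t x = s x ; then s (t (s (s x))) = x so t (s (s x)) = s (s x)
        have h3 := key x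
        rw [h] at h3
        have h4 : t (s (s x)) = s (s x) := by
          apply s.injective
          rw [h3, three_apply hs]
        have h5 : s (s x) ∈ s.support := by
          rw [apply_mem_support, apply_mem_support]; exact mem_support.2 hxs
        rw [← heq] at h5
        exact mem_support.1 h5 h4
      · rw [h, three_apply hs]

/-- a third 3-cycle sharing a directed edge with both shares the same one -/
theorem common_third {s t r : Perm α} (hs : IsThreeCycle s) (ht : IsThreeCycle t)
    (hr : IsThreeCycle r) {u : α} (hu : s u = t u) (hu' : s u ≠ u) (hst : s ≠ t)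
    (hsr : ∃ u, s u = r u ∧ s u ≠ u) (htr : ∃ u, t u = r u ∧ t u ≠ u) : r u = s u := by
  obtain ⟨v, hv⟩ : ∃ v, v = s u := ⟨_, rfl⟩
  obtain ⟨w, hw⟩ : ∃ w, w = s v := ⟨_, rfl⟩
  obtain ⟨z, hz⟩ : ∃ z, z = t v := ⟨_, rfl⟩
  have hut : t u ≠ u := by rw [← hu]; exact hu'
  have hsw : s w = u := by rw [hw, hv]; exact three_apply hs u
  have htz : t z = u := by rw [hz, hv, hu]; exact three_apply ht u
  have hvu : v ≠ u := by rw [hv]; exact hu'
  have hwu : w ≠ u := by rw [hw, hv]; exact three_ne hs hu'
  have hzu : z ≠ u := by rw [hz, hv, hu]; exact three_ne ht hut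
  have hwv : w ≠ v := by
    rw [hw]; intro h; apply hvu; apply s.injective; rw [h, hv]
  have hzv : z ≠ v := by
    rw [hz]; intro h; apply hvu; apply t.injective; rw [h, hv, hu]
  have hwz : w ≠ z := by
    intro h
    apply hst
    rw [hs.eq_swap_mul_swap_iff_mem_support.2 (mem_support.2 hu'),
      ht.eq_swap_mul_swap_iff_mem_support.2 (mem_support.2 hut), ← hu, ← hv, ← hw, ← hz, h]
  obtain ⟨a, ha, ha'⟩ := hsr
  obtain ⟨b, hb, hb'⟩ := htr
  have hA := three_supp hs hu' ha'
  have hB := three_supp ht hut hb'
  rw [← hv, ← hw] at hA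
  rw [← hu, ← hv, ← hz] at hB
  have card3 : ∀ x y : α, r x ≠ x → r y ≠ y → (y = x ∨ y = r x ∨ y = r (r x)) :=
    fun x y hx hy => three_supp hr hx hy
  rcases hA with rfl | rfl | rfl
  · exact ha.symm
  · rcases hB with rfl | rfl | rfl
    · rw [← hb, hu]
    · exact absurd (by rw [hw, hz, ha, hb]) hwz
    · -- r a = w , r b = u  (a = v, b = z)
      exfalso
      have h1 : r a = w := by rw [← ha, hw]
      have h2 : r b = u := by rw [← hb, htz]
      rcases card3 a b (by rw [h1]; exact hwv) (by rw [h2]; exact hzu.symm) with h | h | h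
      · exact hzv h
      · rw [h1] at h; exact hwz h.symm
      · -- b = r w, so r b = r r w
        have h3 := three_apply hr a
        rw [h1] at h h3
        rw [← h, h2] at h3
        exact hvu h3.symm
  · rcases hB with rfl | rfl | rfl
    · rw [← hb, hu]
    · exfalso
      have h1 : r b = z := by rw [← hb, hz]
      have h2 : r a = u := by rw [← ha, hsw]
      rcases card3 b a (by rw [h1]; exact hzv) (by rw [h2]; exact hwu.symm) with h | h | h
      · exact hwv h
      · rw [h1] at h; exact hwz h
      · have h3 := three_apply hr b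
        rw [h1] at h h3
        rw [← h, h2] at h3
        exact hvu h3.symm
    · exfalso
      apply hwz
      apply r.injective
      rw [← ha, ← hb, hsw, htz]

/-! ### generation by a star of 3-cycles -/

omit [Fintype α] in
theorem tri_mul {a b c d : α} (hab : a ≠ b) (hac : a ≠ c) (hbc : b ≠ c) :
    (swap a b * swap b c) * (swap a b * swap b d) = swap a c * swap b d := by
  ext p
  simp only [coe_mul, Function.comp_apply, swap_apply_def]
  grind

omit [Fintype α] in
theorem tri_inv {a b c : α} (hab : a ≠ b) (hac : a ≠ c) (hbc : b ≠ c) :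
    (swap a b * swap b c)⁻¹ = swap a b * swap a c := by
  rw [mul_inv_rev, swap_inv, swap_inv]
  ext p
  simp only [coe_mul, Function.comp_apply, swap_apply_def]
  grind

theorem tri_three {a b c : α} (hab : a ≠ b) (hac : a ≠ c) (hbc : b ≠ c) :
    IsThreeCycle (swap a b * swap b c) := by
  rw [swap_comm a b]
  exact isThreeCycle_swap_mul_swap_same hab.symm hbc hac

theorem star_gen (a b : α) (hab : a ≠ b) (K : Subgroup (Perm α))
    (hK : ∀ c, c ≠ a → c ≠ b → swap a b * swap b c ∈ K) : alternatingGroup α ≤ K := by
  have h1 : ∀ q, q ≠ a → swap a b * swap a q ∈ K := by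
    intro q hq
    by_cases hqb : q = b
    · rw [hqb]; simp
    · rw [← tri_inv hab (Ne.symm hq) (Ne.symm hqb)]
      exact K.inv_mem (hK q hq hqb)
  have h2 : ∀ p q, p ≠ a → q ≠ a → swap a p * swap a q ∈ K := by
    intro p q hp hq
    have := K.mul_mem (K.inv_mem (h1 p hp)) (h1 q hq)
    have e : (swap a b * swap a p)⁻¹ * (swap a b * swap a q) = swap a p * swap a q := by
      rw [mul_inv_rev, swap_inv, swap_inv, mul_assoc, ← mul_assoc (swap a b) (swap a b),
        swap_mul_self, one_mul]
    rwa [e] at this
  rw [← closure_three_cycles_eq_alternating, Subgroup.closure_le]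
  intro g hg
  rw [Set.mem_ofPred_eq] at hg
  by_cases ha : a ∈ g.support
  · rw [SetLike.mem_coe, hg.eq_swap_mul_swap_iff_mem_support.2 ha]
    have hn := hg.nodup_iff_mem_support.2 ha
    simp only [List.nodup_cons, List.mem_cons, List.not_mem_nil, or_false, not_or,
      not_false_eq_true, List.nodup_nil, and_true] at hn
    rw [← inv_inv (swap a (g a) * swap (g a) (g (g a))), tri_inv hn.1.1 hn.1.2 hn.2]
    exact K.inv_mem (h2 _ _ (Ne.symm hn.1.1) (Ne.symm hn.1.2))
  · obtain ⟨x, hx⟩ := hg.isCycle.nonempty_support
    rw [SetLike.mem_coe, hg.eq_swap_mul_swap_iff_mem_support.2 hx]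
    have hn := hg.nodup_iff_mem_support.2 hx
    simp only [List.nodup_cons, List.mem_cons, List.not_mem_nil, or_false, not_or,
      not_false_eq_true, List.nodup_nil, and_true] at hn
    have hxa : x ≠ a := fun h => ha (h ▸ hx)
    have hya : g x ≠ a := fun h => ha (h ▸ apply_mem_support.2 hx)
    have hza : g (g x) ≠ a := fun h => ha (h ▸ apply_mem_support.2 (apply_mem_support.2 hx))
    obtain ⟨⟨hxy, hxz⟩, hyz⟩ := hn
    generalize g (g x) = z at *
    generalize g x = y at *
    have e1 : swap x y = swap a x * swap a y * swap a x := by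
      ext p
      simp only [coe_mul, Function.comp_apply, swap_apply_def]
      grind
    have e2 : swap y z = swap a y * swap a z * swap a y := by
      ext p
      simp only [coe_mul, Function.comp_apply, swap_apply_def]
      grind
    have e3 : swap x y * swap y z =
        (swap a x * swap a y) * ((swap a x * swap a y) * (swap a z * swap a y)) := by
      rw [e1, e2]; simp only [mul_assoc]
    rw [e3]
    exact K.mul_mem (h2 _ _ hxa hya) (K.mul_mem (h2 _ _ hxa hya) (h2 _ _ hza hya))

/-! ### the theorem -/

omit [Fintype α] [Fintype β] in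
theorem permCongr_swap (e : α ≃ β) (a b : α) :
    e.permCongr (swap a b) = swap (e a) (e b) := by
  rw [Equiv.permCongr_def, Equiv.symm_trans_swap_trans]

omit [Fintype α] [Fintype β] [DecidableEq α] [DecidableEq β] in
theorem permCongr_mul (e : α ≃ β) (s t : Perm α) :
    e.permCongr (s * t) = e.permCongr s * e.permCongr t := by
  ext x; simp [Equiv.permCongr_apply]

omit [DecidableEq α] in
theorem exists_notMem (s : Finset α) (hs : s.card + 1 ≤ Fintype.card α) :
    ∃ x, x ∉ s := by
  by_contra h
  push Not at h
  have : s = Finset.univ := Finset.eq_univ_iff_forall.2 h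
  rw [this, Finset.card_univ] at hs
  lia

omit [Fintype β] in
/-- uniqueness of the bijection inducing a given map on even permutations -/
theorem equiv_unique (hα : 4 ≤ Fintype.card α) (e e' : α ≃ β)
    (h : ∀ g : alternatingGroup α, e.permCongr (g : Perm α) = e'.permCongr (g : Perm α)) :
    e = e' := by
  ext x
  by_contra hne
  obtain ⟨x', hx'⟩ : ∃ x', x' = e.symm (e' x) := ⟨_, rfl⟩
  have hx1 : e x' = e' x := by rw [hx']; simp
  have hxx : x' ≠ x := by
    intro h1; rw [h1] at hx1; exact hne hx1
  obtain ⟨y, hy⟩ := exists_notMem ({x, x'} : Finset α)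
    (by have := Finset.card_le_two (a := x) (b := x'); lia)
  obtain ⟨z, hz⟩ := exists_notMem ({x, x', y} : Finset α)
    (by have := Finset.card_le_three (a := x) (b := x') (c := y); lia)
  simp only [Finset.mem_insert, Finset.mem_singleton, not_or] at hy hz
  have hg : swap x y * swap y z ∈ alternatingGroup α :=
    (tri_three (Ne.symm hy.1) (Ne.symm hz.1) (Ne.symm hz.2.2)).mem_alternatingGroup
  have h1 := congrArg (fun q : Perm β => q (e' x)) (h ⟨_, hg⟩)
  simp only [Equiv.permCongr_apply, Equiv.symm_apply_apply, coe_mul, Function.comp_apply] at h1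
  rw [← hx', swap_apply_of_ne_of_ne (Ne.symm hy.2) (Ne.symm hz.2.1),
    swap_apply_of_ne_of_ne hxx (Ne.symm hy.2), hx1,
    swap_apply_of_ne_of_ne (Ne.symm hy.1) (Ne.symm hz.1), swap_apply_left] at h1
  exact hy.1 (e'.injective h1).symm

/-- **Isomorphisms between alternating groups of degree at least seven are induced by a unique
bijection of the points.** -/
theorem alt_equiv_induced (hα : 7 ≤ Fintype.card α) (hβ : 7 ≤ Fintype.card β)
    (f : alternatingGroup α ≃* alternatingGroup β) :
    ∃! e : α ≃ β, ∀ g : alternatingGroup α, (f g : Perm β) = e.permCongr (g : Perm α) := by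
  have hcard := card_eq_of_equiv (by lia) (by lia) f
  obtain ⟨a, ha⟩ := exists_notMem (α := α) ∅ (by simp; lia)
  obtain ⟨b, hb⟩ := exists_notMem (α := α) {a} (by simp; lia)
  obtain ⟨c₁, hc₁⟩ := exists_notMem ({a, b} : Finset α)
    (by have := Finset.card_le_two (a := a) (b := b); lia)
  obtain ⟨c₂, hc₂⟩ := exists_notMem ({a, b, c₁} : Finset α)
    (by have := Finset.card_le_three (a := a) (b := b) (c := c₁); lia)
  simp only [Finset.mem_insert, Finset.mem_singleton, not_or] at hb hc₁ hc₂
  have hab : a ≠ b := Ne.symm hb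
  -- the star of 3-cycles
  let X : {c : α // c ≠ a ∧ c ≠ b} → alternatingGroup α := fun c =>
    ⟨swap a b * swap b c.1,
      (tri_three hab (Ne.symm c.2.1) (Ne.symm c.2.2)).mem_alternatingGroup⟩
  let Y : {c : α // c ≠ a ∧ c ≠ b} → Perm β := fun c => (f (X c) : Perm β)
  have hX3 : ∀ c, IsThreeCycle (X c : Perm α) := fun c =>
    tri_three hab (Ne.symm c.2.1) (Ne.symm c.2.2)
  have hY3 : ∀ c, IsThreeCycle (Y c) := fun c => three_of_three hα hβ f _ (hX3 c)
  have hXX : ∀ c d, c ≠ d → (X c * X d) * (X c * X d) = 1 ∧ X c * X d ≠ 1 := by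
    intro c d hcd
    have hcd' : c.1 ≠ d.1 := fun h => hcd (Subtype.ext h)
    have h1 : ((X c * X d : alternatingGroup α) : Perm α) = swap a c.1 * swap b d.1 :=
      tri_mul hab (Ne.symm c.2.1) (Ne.symm c.2.2)
    constructor
    · apply Subtype.ext
      rw [Subgroup.coe_mul, h1]
      have hac := c.2
      have had := d.2
      ext p
      simp only [coe_mul, Function.comp_apply, swap_apply_def, Subgroup.coe_one, one_apply]
      grind
    · intro h2
      have h3 := congrArg (fun q : alternatingGroup α => (q : Perm α) a) h2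
      simp only [h1, coe_mul, Function.comp_apply, Subgroup.coe_one, one_apply] at h3
      rw [swap_apply_of_ne_of_ne hab (Ne.symm d.2.1), swap_apply_left] at h3
      exact c.2.1 h3
  have hYY : ∀ c d, c ≠ d → ∃ u, Y c u = Y d u ∧ Y c u ≠ u := by
    intro c d hcd
    obtain ⟨h1, h2⟩ := hXX c d hcd
    apply common (hY3 c) (hY3 d)
    · have h3 := congrArg (fun q => (f q : Perm β)) h1
      simpa [Y] using h3
    · intro h3
      apply h2
      apply f.injective
      apply Subtype.ext
      simpa [Y] using h3
  have hYinj : Function.Injective Y := by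
    intro c d h
    have h1 : X c = X d := f.injective (Subtype.ext h)
    have h2 := congrArg (fun q : alternatingGroup α => (q : Perm α) b) h1
    simp only [X, coe_mul, Function.comp_apply, swap_apply_left] at h2
    rw [swap_apply_of_ne_of_ne c.2.1 c.2.2, swap_apply_of_ne_of_ne d.2.1 d.2.2] at h2
    exact Subtype.ext h2
  let C₁ : {c : α // c ≠ a ∧ c ≠ b} := ⟨c₁, hc₁⟩
  let C₂ : {c : α // c ≠ a ∧ c ≠ b} := ⟨c₂, hc₂.1, hc₂.2.1⟩
  have hC : C₁ ≠ C₂ := fun h => hc₂.2.2 (congrArg Subtype.val h).symm
  obtain ⟨u, hu1, hu2⟩ := hYY C₁ C₂ hC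
  obtain ⟨v, hv⟩ : ∃ v, v = Y C₁ u := ⟨_, rfl⟩
  have hYu : ∀ c, Y c u = v := by
    intro c
    by_cases h1 : c = C₁
    · rw [h1, hv]
    by_cases h2 : c = C₂
    · rw [h2, hv, hu1]
    · rw [hv]
      exact common_third (hY3 C₁) (hY3 C₂) (hY3 c) hu1 hu2 (fun h => hC (hYinj h))
        (hYY C₁ c (Ne.symm h1)) (hYY C₂ c (Ne.symm h2))
  have hvu : v ≠ u := by rw [hv]; exact hu2
  have hYmov : ∀ c, Y c u ≠ u := fun c => by rw [hYu]; exact hvu
  have hYeq : ∀ c, Y c = swap u v * swap v (Y c v) := fun c => by
    have := (hY3 c).eq_swap_mul_swap_iff_mem_support.2 (mem_support.2 (hYmov c))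
    rwa [hYu c] at this
  have hYvu : ∀ c, Y c v ≠ u := fun c => by
    have := three_ne (hY3 c) (hYmov c)
    rwa [hYu c] at this
  have hYvv : ∀ c, Y c v ≠ v := fun c h => by
    apply hvu
    apply (Y c).injective
    rw [h, hYu c]
  -- the bijection
  let e₀ : α → β := fun p =>
    if h : p ≠ a ∧ p ≠ b then Y ⟨p, h⟩ v else if p = a then u else v
  have e₀a : e₀ a = u := by simp [e₀]
  have e₀b : e₀ b = v := by simp [e₀, hb]
  have e₀c : ∀ c : {c : α // c ≠ a ∧ c ≠ b}, e₀ c.1 = Y c v := fun c => by
    simp only [e₀]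
    rw [dif_pos c.2]
  have hinj : Function.Injective e₀ := by
    intro p q hpq
    by_cases hp : p ≠ a ∧ p ≠ b
    · by_cases hq : q ≠ a ∧ q ≠ b
      · rw [e₀c ⟨p, hp⟩, e₀c ⟨q, hq⟩] at hpq
        have : Y ⟨p, hp⟩ = Y ⟨q, hq⟩ := by
          rw [hYeq ⟨p, hp⟩, hYeq ⟨q, hq⟩, hpq]
        exact congrArg Subtype.val (hYinj this)
      · exfalso
        rw [e₀c ⟨p, hp⟩] at hpq
        by_cases hqa : q = a
        · rw [hqa, e₀a] at hpq; exact hYvu _ hpq
        · have hqb : q = b := by
            by_contra h; exact hq ⟨hqa, h⟩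
          rw [hqb, e₀b] at hpq; exact hYvv _ hpq
    · by_cases hq : q ≠ a ∧ q ≠ b
      · exfalso
        rw [e₀c ⟨q, hq⟩] at hpq
        by_cases hpa : p = a
        · rw [hpa, e₀a] at hpq; exact hYvu _ hpq.symm
        · have hpb : p = b := by
            by_contra h; exact hp ⟨hpa, h⟩
          rw [hpb, e₀b] at hpq; exact hYvv _ hpq.symm
      · by_cases hpa : p = a
        · by_cases hqa : q = a
          · rw [hpa, hqa]
          · exfalso
            have hqb : q = b := by
              by_contra h; exact hq ⟨hqa, h⟩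
            rw [hpa, hqb, e₀a, e₀b] at hpq; exact hvu hpq.symm
        · have hpb : p = b := by
            by_contra h; exact hp ⟨hpa, h⟩
          by_cases hqa : q = a
          · exfalso
            rw [hpb, hqa, e₀a, e₀b] at hpq; exact hvu hpq
          · have hqb : q = b := by
              by_contra h; exact hq ⟨hqa, h⟩
            rw [hpb, hqb]
  let e : α ≃ β := Equiv.ofBijective e₀ ((Fintype.bijective_iff_injective_and_card e₀).2
    ⟨hinj, hcard⟩)
  have hea : ∀ x, e x = e₀ x := fun x => rfl
  have main : ∀ g : alternatingGroup α, (f g : Perm β) = e.permCongr (g : Perm α) := by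
    -- the two homomorphisms agree on the star
    let F : alternatingGroup α →* Perm β := (alternatingGroup β).subtype.comp f.toMonoidHom
    let F' : alternatingGroup α →* Perm β :=
      { toFun := fun g => e.permCongr (g : Perm α)
        map_one' := by ext x; simp [Equiv.permCongr_apply]
        map_mul' := fun g h => by rw [Subgroup.coe_mul, permCongr_mul] }
    have hle := star_gen a b hab ((F.eqLocus F').map (alternatingGroup α).subtype) (by
      intro c hca hcb
      refine ⟨X ⟨c, hca, hcb⟩, ?_, rfl⟩
      change F (X ⟨c, hca, hcb⟩) = F' (X ⟨c, hca, hcb⟩)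
      have h1 : F (X ⟨c, hca, hcb⟩) = Y ⟨c, hca, hcb⟩ := rfl
      have h2 : F' (X ⟨c, hca, hcb⟩) = e.permCongr (swap a b * swap b c) := rfl
      rw [h1, h2, permCongr_mul, permCongr_swap, permCongr_swap, hea, hea, hea, e₀a, e₀b,
        e₀c ⟨c, hca, hcb⟩]
      exact hYeq _)
    intro g
    obtain ⟨g', hg', hgg⟩ := hle g.2
    have : g' = g := Subtype.ext hgg
    rw [this] at hg'
    exact hg'
  refine ⟨e, main, fun e' he' => ?_⟩
  symm
  apply equiv_unique (by lia)
  intro g
  rw [← main g, he' g]

end Vale.Agent.P180.R2.H471
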