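import Mathlib.GroupTheory.SpecificGroups.Alternating.Simple
import Mathlib.GroupTheory.GroupAction.ConjAct
import Vale.Agent.P180.R2.H471.AltAut
import Vale.Agent.P180.R2.H47.AltStr

/-!
P180: automorphisms of direct products of nonabelian simple groups permute the factors;
automorphisms of direct products of alternating groups of degree at least seven are induced by
permutations of the disjoint union of the sets of points.
-/

namespace Vale.Agent.P180.R2.H471

open Equiv Equiv.Perm

section Prod

variable {J : Type*} [DecidableEq J] {S : J → Type*} [∀ j, Group (S j)]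

theorem conj_single (z : ∀ j, S j) (j : J) (b : S j) :
    z * Pi.mulSingle j b * z⁻¹ = Pi.mulSingle j (z j * b * (z j)⁻¹) := by
  funext l
  by_cases h : l = j
  · subst h; simp
  · simp [Pi.mulSingle_eq_of_ne h]

/-- the image of a factor under an automorphism is a factor -/
theorem exists_factor (hs : ∀ j, IsSimpleGroup (S j)) (hc : ∀ j, ∃ a b : S j, a * b ≠ b * a)
    (θ : (∀ j, S j) ≃* (∀ j, S j)) (j : J) :
    ∃ k, (∀ a l, l ≠ k → θ (Pi.mulSingle j a) l = 1) ∧
      Function.Bijective (fun a : S j => θ (Pi.mulSingle j a) k) := by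
  let h : ∀ l, S j →* S l := fun l =>
    (Pi.evalMonoidHom S l).comp (θ.toMonoidHom.comp (MonoidHom.mulSingle S j))
  have hh : ∀ l a, h l a = θ (Pi.mulSingle j a) l := fun l a => rfl
  have hconj : ∀ l (z : ∀ j, S j) a, θ z l * h l a * (θ z l)⁻¹ = h l (z j * a * (z j)⁻¹) := by
    intro l z a
    rw [hh, hh, ← conj_single, map_mul, map_mul, map_inv]
    rfl
  have hker : ∀ l, (∃ a, h l a ≠ 1) → Function.Injective (h l) := by
    intro l ⟨a, ha⟩
    rcases (hs j).eq_bot_or_eq_top_of_normal (h l).ker inferInstance with h1 | h1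
    · exact (MonoidHom.ker_eq_bot_iff _).1 h1
    · exfalso
      have : a ∈ (h l).ker := by rw [h1]; trivial
      exact ha (by simpa [MonoidHom.mem_ker] using this)
  have hran : ∀ l, (∃ a, h l a ≠ 1) → Function.Surjective (h l) := by
    intro l ⟨a, ha⟩
    have hn : (h l).range.Normal := by
      constructor
      rintro _ ⟨a, rfl⟩ y
      have := hconj l (θ.symm (Pi.mulSingle l y)) a
      rw [MulEquiv.apply_symm_apply, Pi.mulSingle_eq_same] at this
      rw [this]
      exact ⟨_, rfl⟩
    rcases (hs l).eq_bot_or_eq_top_of_normal (h l).range hn with h1 | h1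
    · exfalso
      have : h l a ∈ (h l).range := ⟨a, rfl⟩
      rw [h1, Subgroup.mem_bot] at this
      exact ha this
    · exact MonoidHom.range_eq_top.1 h1
  obtain ⟨k, a₀, hk⟩ : ∃ k a, h k a ≠ 1 := by
    obtain ⟨a, b, hab⟩ := hc j
    have ha : a ≠ 1 := by rintro rfl; exact hab (by simp)
    by_contra hcon
    push Not at hcon
    apply ha
    have h1 : θ (Pi.mulSingle j a) = 1 := by
      funext l; exact hcon l a
    have h2 : Pi.mulSingle j a = (1 : ∀ j, S j) := by
      rw [← map_one θ] at h1; exact θ.injective h1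
    have h3 := congrFun h2 j
    simpa using h3
  have hkS := hran k ⟨a₀, hk⟩
  refine ⟨k, ?_, hker k ⟨a₀, hk⟩, hkS⟩
  intro a l hl
  by_contra hla
  have hlI := hker l ⟨a, hla⟩
  obtain ⟨c, d, hcd⟩ := hc k
  obtain ⟨b, hb⟩ := hkS d
  -- commutator of `θ⁻¹ (single k c)` with `single j b`
  obtain ⟨z, hz⟩ : ∃ z, θ z = Pi.mulSingle k c :=
    ⟨θ.symm (Pi.mulSingle k c), θ.apply_symm_apply _⟩
  have e1 := hconj l z b
  rw [hz, Pi.mulSingle_eq_of_ne hl, one_mul, inv_one, mul_one] at e1
  have e2 := hlI e1
  have e3 := hconj k z b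
  rw [hz, Pi.mulSingle_eq_same, ← e2, hb] at e3
  exact hcd (by rw [← mul_inv_eq_iff_eq_mul]; exact e3)

/-- automorphisms of a finite direct product of nonabelian simple groups permute the factors -/
theorem prod_aut [Finite J] (hs : ∀ j, IsSimpleGroup (S j))
    (hc : ∀ j, ∃ a b : S j, a * b ≠ b * a) (θ : (∀ j, S j) ≃* (∀ j, S j)) :
    ∃ (π : Perm J) (f : ∀ j, S j ≃* S (π j)), ∀ x j, θ x (π j) = f j (x j) := by
  choose π h1 h2 using exists_factor hs hc θ
  let F : ∀ j, S j ≃* S (π j) := fun j => MulEquiv.ofBijective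
    ((Pi.evalMonoidHom S (π j)).comp (θ.toMonoidHom.comp (MonoidHom.mulSingle S j))) (h2 j)
  have hF : ∀ j a, F j a = θ (Pi.mulSingle j a) (π j) := fun j a => rfl
  have hsingle : ∀ j a, θ (Pi.mulSingle j a) = Pi.mulSingle (π j) (F j a) := by
    intro j a
    funext l
    by_cases hl : l = π j
    · subst hl; rw [Pi.mulSingle_eq_same, hF]
    · rw [Pi.mulSingle_eq_of_ne hl, h1 j a l hl]
  have hinj : Function.Injective π := by
    intro j j' hjj
    by_contra hne
    obtain ⟨c, d, hcd⟩ := hc (π j)
    obtain ⟨a, ha⟩ := (h2 j).2 c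
    obtain ⟨b, hb⟩ : ∃ b : S j', θ (Pi.mulSingle j' b) (π j) = d := by
      obtain ⟨b, hb⟩ := (h2 j').2 (hjj ▸ d)
      refine ⟨b, ?_⟩
      have : ∀ (k : J) (hk : π j = k) (w : ∀ j, S j), w k = hk ▸ d → w (π j) = d := by
        intro k hk w hw
        subst hk
        exact hw
      exact this _ hjj _ hb
    have hcomm : (Pi.mulSingle j a : ∀ j, S j) * Pi.mulSingle j' b =
        Pi.mulSingle j' b * Pi.mulSingle j a := Pi.mulSingle_commute hne a b
    have := congrArg (fun w => θ w (π j)) hcomm
    simp only [map_mul, Pi.mul_apply] at this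
    rw [hb] at this
    simp only at ha
    rw [ha] at this
    exact hcd this
  let Pm : Perm J := Equiv.ofBijective π (Finite.injective_iff_bijective.1 hinj)
  refine ⟨Pm, F, fun x j => ?_⟩
  change θ x (π j) = F j (x j)
  -- split off the coordinate `j`
  have hx : x = Pi.mulSingle j (x j) * Function.update x j 1 := by
    funext l
    by_cases hl : l = j
    · subst hl; simp
    · simp [Pi.mulSingle_eq_of_ne hl, Function.update_of_ne hl]
  have hcen : ∀ d : S (π j), θ (Function.update x j 1) (π j) * d =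
      d * θ (Function.update x j 1) (π j) := by
    intro d
    obtain ⟨b, hb⟩ := (h2 j).2 d
    simp only at hb
    have hcomm : Function.update x j 1 * (Pi.mulSingle j b : ∀ j, S j) =
        Pi.mulSingle j b * Function.update x j 1 := by
      funext l
      by_cases hl : l = j
      · subst hl; simp
      · simp [Pi.mulSingle_eq_of_ne hl]
    have := congrArg (fun w => θ w (π j)) hcomm
    simp only [map_mul, Pi.mul_apply] at this
    rwa [hb] at this
  have h3 : θ (Function.update x j 1) (π j) = 1 := by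
    have hm : θ (Function.update x j 1) (π j) ∈ Subgroup.center (S (π j)) :=
      Subgroup.mem_center_iff.2 fun d => (hcen d).symm
    rcases (hs (π j)).eq_bot_or_eq_top_of_normal (Subgroup.center (S (π j))) inferInstance
      with h4 | h4
    · rwa [h4, Subgroup.mem_bot] at hm
    · exfalso
      obtain ⟨c, d, hcd⟩ := hc (π j)
      have : c ∈ Subgroup.center (S (π j)) := by rw [h4]; trivial
      exact hcd (Subgroup.mem_center_iff.1 this d).symm
  conv_lhs => rw [hx]
  rw [map_mul, Pi.mul_apply, h3, mul_one]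
  rfl

end Prod

/-! ### alternating groups -/

theorem alt_simple {n : ℕ} (hn : 5 ≤ n) : IsSimpleGroup (alternatingGroup (Fin n)) :=
  alternatingGroup.isSimpleGroup (by simpa using hn)

theorem alt_noncomm {n : ℕ} (hn : 5 ≤ n) :
    ∃ a b : alternatingGroup (Fin n), a * b ≠ b * a := by
  by_contra h
  push Not at h
  have h1 : Subgroup.center (alternatingGroup (Fin n)) = ⊤ := by
    rw [eq_top_iff]
    intro a _
    exact Subgroup.mem_center_iff.2 fun b => (h a b).symm
  rw [alternatingGroup.center_eq_bot (by simp; lia)] at h1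
  have := alt_simple hn
  exact bot_ne_top h1

section Act

variable {J : Type*} {N : J → ℕ}

/-- the action of the product on the disjoint union of the sets of points -/
def act (x : ∀ j, alternatingGroup (Fin (N j))) : Perm (Σ j, Fin (N j)) :=
  Equiv.Perm.sigmaCongrRight fun j => (x j : Perm (Fin (N j)))

theorem act_apply (x : ∀ j, alternatingGroup (Fin (N j))) (j : J) (p : Fin (N j)) :
    act x ⟨j, p⟩ = ⟨j, (x j : Perm (Fin (N j))) p⟩ := rfl

theorem act_mul (x y : ∀ j, alternatingGroup (Fin (N j))) : act (x * y) = act x * act y := by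
  ext ⟨j, p⟩ <;> rfl

theorem act_one : act (1 : ∀ j, alternatingGroup (Fin (N j))) = 1 := by
  ext ⟨j, p⟩ <;> rfl

theorem act_inj : Function.Injective (act (N := N)) := by
  intro x y h
  funext j
  apply Subtype.ext
  ext p
  have := congrArg (fun q : Perm (Σ j, Fin (N j)) => q ⟨j, p⟩) h
  simp only [act_apply] at this
  rw [eq_of_heq (Sigma.mk.inj this).2]

/-- a permutation commuting with the action of the whole product is trivial -/
theorem act_centralizer [DecidableEq J] (hN : ∀ j, 4 ≤ N j) (σ : Perm (Σ j, Fin (N j)))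
    (h : ∀ x, σ * act x = act x * σ) : σ = 1 := by
  ext1 ⟨j, p⟩
  rw [one_apply]
  by_contra hne
  obtain ⟨⟨k, q⟩, hq⟩ : ∃ y, y = σ ⟨j, p⟩ := ⟨_, rfl⟩
  rw [← hq] at hne
  -- an element moving `p` and fixing `⟨k, q⟩`
  obtain ⟨x, hx1, hx2⟩ : ∃ x : ∀ j, alternatingGroup (Fin (N j)),
      act x ⟨j, p⟩ ≠ ⟨j, p⟩ ∧ act x ⟨k, q⟩ = ⟨k, q⟩ := by
    by_cases hjk : k = j
    · subst hjk
      have hpq : q ≠ p := by rintro rfl; exact hne rfl
      obtain ⟨y, hy⟩ := exists_notMem ({p, q} : Finset (Fin (N k)))
        (by have := Finset.card_le_two (a := p) (b := q); have := hN k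
            rw [Fintype.card_fin]; lia)
      obtain ⟨z, hz⟩ := exists_notMem ({p, q, y} : Finset (Fin (N k)))
        (by have := Finset.card_le_three (a := p) (b := q) (c := y); have := hN k
            rw [Fintype.card_fin]; lia)
      simp only [Finset.mem_insert, Finset.mem_singleton, not_or] at hy hz
      refine ⟨Pi.mulSingle k ⟨swap p y * swap y z,
        (tri_three (Ne.symm hy.1) (Ne.symm hz.1) (Ne.symm hz.2.2)).mem_alternatingGroup⟩,
        ?_, ?_⟩
      · rw [act_apply, Pi.mulSingle_eq_same]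
        simp only [coe_mul, Function.comp_apply]
        rw [swap_apply_of_ne_of_ne (Ne.symm hy.1) (Ne.symm hz.1), swap_apply_left]
        intro h1
        exact hy.1 (eq_of_heq (Sigma.mk.inj h1).2)
      · rw [act_apply, Pi.mulSingle_eq_same]
        simp only [coe_mul, Function.comp_apply]
        rw [swap_apply_of_ne_of_ne (Ne.symm hy.2) (Ne.symm hz.2.1),
          swap_apply_of_ne_of_ne hpq (Ne.symm hy.2)]
    · obtain ⟨y, hy⟩ := exists_notMem ({p} : Finset (Fin (N j)))
        (by have := hN j; rw [Fintype.card_fin, Finset.card_singleton]; lia)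
      obtain ⟨z, hz⟩ := exists_notMem ({p, y} : Finset (Fin (N j)))
        (by have := Finset.card_le_two (a := p) (b := y); have := hN j
            rw [Fintype.card_fin]; lia)
      simp only [Finset.mem_insert, Finset.mem_singleton, not_or] at hy hz
      refine ⟨Pi.mulSingle j ⟨swap p y * swap y z,
        (tri_three (Ne.symm hy) (Ne.symm hz.1) (Ne.symm hz.2)).mem_alternatingGroup⟩,
        ?_, ?_⟩
      · rw [act_apply, Pi.mulSingle_eq_same]
        simp only [coe_mul, Function.comp_apply]
        rw [swap_apply_of_ne_of_ne (Ne.symm hy) (Ne.symm hz.1), swap_apply_left]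
        intro h1
        exact hy (eq_of_heq (Sigma.mk.inj h1).2)
      · rw [act_apply, Pi.mulSingle_eq_of_ne hjk]
        rfl
  have h1 := congrArg (fun q : Perm (Σ j, Fin (N j)) => q ⟨j, p⟩) (h x)
  simp only [coe_mul, Function.comp_apply] at h1
  rw [← hq, hx2, hq] at h1
  exact hx1 (σ.injective h1)

/-- automorphisms of a direct product of alternating groups come from permutations of the
points -/
theorem alt_prod_aut [Finite J] (hN : ∀ j, 7 ≤ N j)
    (θ : (∀ j, alternatingGroup (Fin (N j))) ≃* (∀ j, alternatingGroup (Fin (N j)))) :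
    ∃ σ : Perm (Σ j, Fin (N j)), (∀ x, act (θ x) = σ * act x * σ⁻¹) ∧
      ∀ j p q, (σ ⟨j, p⟩).1 = (σ ⟨j, q⟩).1 := by
  classical
  obtain ⟨π, f, hf⟩ := prod_aut (fun j => alt_simple (by have := hN j; lia))
    (fun j => alt_noncomm (by have := hN j; lia)) θ
  have he := fun j => (alt_equiv_induced (by rw [Fintype.card_fin]; exact hN j)
    (by rw [Fintype.card_fin]; exact hN (π j)) (f j)).exists
  choose e he using he
  refine ⟨Equiv.sigmaCongr π e, fun x => ?_, fun j p q => rfl⟩
  rw [eq_mul_inv_iff_mul_eq]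
  ext1 ⟨j, p⟩
  change act (θ x) ⟨π j, e j p⟩ = Equiv.sigmaCongr π e ⟨j, (x j : Perm (Fin (N j))) p⟩
  rw [act_apply, hf x j, he j (x j)]
  simp only [Equiv.permCongr_apply, Equiv.symm_apply_apply]
  rfl

end Act

/-! ### the structure on a group with a normal direct product of alternating groups -/

section Str

variable {G : Type} [Group G] {r : ℕ} {N : Fin r → ℕ}

/-- conjugation by `g`, transported to the abstract product -/
noncomputable def cjAut (ι : (∀ j, alternatingGroup (Fin (N j))) →* G)
    (hι : Function.Injective ι) (hn : ι.range.Normal) (g : G) :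
    (∀ j, alternatingGroup (Fin (N j))) ≃* (∀ j, alternatingGroup (Fin (N j))) :=
  haveI := hn
  ((MonoidHom.ofInjective hι).trans (MulAut.conjNormal g)).trans (MonoidHom.ofInjective hι).symm

theorem cjAut_spec (ι : (∀ j, alternatingGroup (Fin (N j))) →* G)
    (hι : Function.Injective ι) (hn : ι.range.Normal) (g : G)
    (x : ∀ j, alternatingGroup (Fin (N j))) : ι (cjAut ι hι hn g x) = g * ι x * g⁻¹ := by
  have := hn
  have h1 : (MonoidHom.ofInjective hι (cjAut ι hι hn g x) : G) = g * ι x * g⁻¹ := by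
    rw [cjAut, MulEquiv.trans_apply, MulEquiv.apply_symm_apply, MulEquiv.trans_apply,
      MulAut.conjNormal_apply, MonoidHom.ofInjective_apply]
  rwa [MonoidHom.ofInjective_apply] at h1

theorem exists_rho (hN : ∀ j, 7 ≤ N j) (ι : (∀ j, alternatingGroup (Fin (N j))) →* G)
    (hι : Function.Injective ι) (hn : ι.range.Normal) :
    ∃ ρ : G →* Perm (Σ j, Fin (N j)), (∀ g x, ∃ y, ι y = g * ι x * g⁻¹ ∧
        act y = ρ g * act x * (ρ g)⁻¹) ∧ (∀ x, ρ (ι x) = act x) ∧
      (∀ g j p q, (ρ g ⟨j, p⟩).1 = (ρ g ⟨j, q⟩).1) ∧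
      ρ.ker = Subgroup.centralizer (ι.range : Set G) := by
  classical
  choose s hs1 hs2 using fun g => alt_prod_aut hN (cjAut ι hι hn g)
  have huniq : ∀ σ τ : Perm (Σ j, Fin (N j)),
      (∀ x, σ * act x * σ⁻¹ = τ * act x * τ⁻¹) → σ = τ := by
    intro σ τ h
    have h1 : τ⁻¹ * σ = 1 := by
      apply act_centralizer (fun j => by have := hN j; lia)
      intro x
      have h2 := h x
      calc τ⁻¹ * σ * act x = τ⁻¹ * (σ * act x * σ⁻¹) * σ := by group
        _ = τ⁻¹ * (τ * act x * τ⁻¹) * σ := by rw [h2]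
        _ = act x * (τ⁻¹ * σ) := by group
    exact (inv_mul_eq_one.1 h1).symm
  have hmul : ∀ g h x, cjAut ι hι hn (g * h) x = cjAut ι hι hn g (cjAut ι hι hn h x) := by
    intro g h x
    apply hι
    rw [cjAut_spec, cjAut_spec, cjAut_spec]
    group
  let ρ : G →* Perm (Σ j, Fin (N j)) := MonoidHom.mk' s (by
    intro g h
    apply huniq
    intro x
    rw [← hs1 (g * h) x, hmul, hs1 g, hs1 h]
    group)
  have hρ : ∀ g, ρ g = s g := fun g => rfl
  refine ⟨ρ, fun g x => ⟨cjAut ι hι hn g x, cjAut_spec ι hι hn g x, hs1 g x⟩, ?_, hs2, ?_⟩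
  · intro x
    rw [hρ]
    apply huniq
    intro y
    rw [← hs1 (ι x) y]
    have : cjAut ι hι hn (ι x) y = x * y * x⁻¹ := by
      apply hι
      rw [cjAut_spec, map_mul, map_mul, map_inv]
    have h1 : act x⁻¹ = (act x)⁻¹ := by
      rw [eq_inv_iff_mul_eq_one, ← act_mul, inv_mul_cancel, act_one]
    rw [this, act_mul, act_mul, h1]
  · ext g
    rw [MonoidHom.mem_ker, Subgroup.mem_centralizer_iff]
    constructor
    · rintro h _ ⟨x, rfl⟩
      have h1 := hs1 g x
      rw [← hρ, h, one_mul, inv_one, mul_one] at h1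
      have h2 := act_inj h1
      have h3 := cjAut_spec ι hι hn g x
      rw [h2] at h3
      exact (mul_inv_eq_iff_eq_mul.1 h3.symm).symm
    · intro h
      rw [hρ]
      apply huniq
      intro x
      rw [← hs1 g x, one_mul, inv_one, mul_one]
      congr 1
      apply hι
      rw [cjAut_spec, mul_inv_eq_iff_eq_mul]
      exact (h _ ⟨x, rfl⟩).symm

/-- the structure `AltStr` on a group with a normal direct product of alternating groups of
degrees at least seven -/
theorem exists_altStr (hN : ∀ j, 7 ≤ N j) (ι : (∀ j, alternatingGroup (Fin (N j))) →* G)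
    (hι : Function.Injective ι) (hn : ι.range.Normal) :
    ∃ A : H47.AltStr G, ∃ h : A.r = r, (∀ j, A.N j = N (Fin.cast h j)) ∧
      A.ι.range = ι.range ∧ A.ρ.ker = Subgroup.centralizer (ι.range : Set G) := by
  obtain ⟨ρ, -, h2, h3, h4⟩ := exists_rho hN ι hι hn
  exact ⟨⟨r, N, ι, ρ, h2, h3, hn, fun j => le_trans (by decide) (hN j)⟩, rfl, fun j => rfl, rfl,
    h4⟩

end Str

end Vale.Agent.P180.R2.H471
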