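import Vale.Agent.P180.R2.H471.Fac

/-!
P180: transport of fixed points, traces, blocks and the Brauer map along injective homomorphisms.
-/

set_option linter.unusedSectionVars false

namespace Vale.Agent.P180.R2.H471

open Vale.Agent.P180 Vale.Agent.P180.H768.Gd Vale.Agent.P180.R2.H365

variable {k : Type*} [Field k] {H G : Type*} [Group H] [Group G] [Finite H] [Finite G]
variable {φ : H →* G}

theorem mp_cj (φ : H →* G) (x : H) (a : MonoidAlgebra k H) :
    mp k φ (cj k H x a) = cj k G (φ x) (mp k φ a) := by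
  rw [cj_eq, cj_eq, map_mul, map_mul, mp_single, mp_single, φ.map_inv]

theorem mp_inj (hφ : Function.Injective φ) : Function.Injective (mp k φ) :=
  MonoidAlgebra.mapDomain_injective hφ

theorem mp_coeff (hφ : Function.Injective φ) (a : MonoidAlgebra k H) (x : H) :
    (mp k φ a).coeff (φ x) = a.coeff x := by
  classical
  induction a using MonoidAlgebra.induction_linear with
  | zero => simp
  | add b d hb hd =>
    rw [map_add, MonoidAlgebra.coeff_add, MonoidAlgebra.coeff_add, Finsupp.add_apply,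
      Finsupp.add_apply, hb, hd]
  | single g r =>
    rw [mp_single, MonoidAlgebra.coeff_single, MonoidAlgebra.coeff_single, Finsupp.single_apply,
      Finsupp.single_apply]
    simp only [hφ.eq_iff]

theorem mp_coeff_not (a : MonoidAlgebra k H) (u : G) (hu : u ∉ φ.range) :
    (mp k φ a).coeff u = 0 := by
  classical
  induction a using MonoidAlgebra.induction_linear with
  | zero => simp
  | add b d hb hd =>
    rw [map_add, MonoidAlgebra.coeff_add, Finsupp.add_apply, hb, hd, add_zero]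
  | single g r =>
    rw [mp_single, MonoidAlgebra.coeff_single, Finsupp.single_apply, if_neg]
    rintro rfl
    exact hu ⟨g, rfl⟩

theorem mp_mem (φ : H →* G) (a : MonoidAlgebra k H) : mp k φ a ∈ SubAlg k φ.range := by
  intro u hu
  by_contra h
  exact hu (mp_coeff_not a u h)

theorem mp_mem_map (φ : H →* G) {K : Subgroup H} {a : MonoidAlgebra k H} (ha : a ∈ SubAlg k K) :
    mp k φ a ∈ SubAlg k (K.map φ) := by
  refine SuppIn.induction (P := fun a => mp k φ a ∈ SubAlg k (K.map φ)) ha ?_ ?_ ?_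
  · rw [map_zero]; exact Subalgebra.zero_mem _
  · intro x y hx hy
    rw [map_add]; exact Subalgebra.add_mem _ hx hy
  · intro x hx c
    rw [map_smul, mp_single]
    exact Subalgebra.smul_mem _ (single_mem_SubAlg (Subgroup.mem_map_of_mem _ hx) 1) c

theorem exists_mp (φ : H →* G) {a : MonoidAlgebra k G} (ha : a ∈ SubAlg k φ.range) :
    ∃ a', mp k φ a' = a := by
  refine SuppIn.induction (P := fun a => ∃ a', mp k φ a' = a) ha ⟨0, map_zero _⟩ ?_ ?_
  · rintro _ _ ⟨x, rfl⟩ ⟨y, rfl⟩
    exact ⟨x + y, map_add _ _ _⟩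
  · rintro _ ⟨x, rfl⟩ c
    refine ⟨c • MonoidAlgebra.single x 1, ?_⟩
    rw [map_smul, mp_single]

theorem mp_mem_Fix_iff (hφ : Function.Injective φ) {R : Subgroup H} {a : MonoidAlgebra k H} :
    mp k φ a ∈ Fix (cj k G) (R.map φ) ↔ a ∈ Fix (cj k H) R := by
  constructor
  · intro h x hx
    apply mp_inj (k := k) hφ
    rw [mp_cj]
    exact h _ (Subgroup.mem_map_of_mem _ hx)
  · rintro h _ ⟨x, hx, rfl⟩
    rw [← mp_cj, h x hx]

theorem mp_tr (hφ : Function.Injective φ) {R K : Subgroup H} {a : MonoidAlgebra k H}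
    (ha : a ∈ Fix (cj k H) R) :
    mp k φ (tr (cj k H) R K a) = tr (cj k G) (R.map φ) (K.map φ) (mp k φ a) := by
  have _ := Fintype.ofFinite (K ⧸ R.subgroupOf K)
  rw [tr_def, map_sum]
  rw [tr_eq_sum' (ι := K ⧸ R.subgroupOf K) ((mp_mem_Fix_iff hφ).mpr ha)
    (fun q => φ ((q.out : K) : H) : _ → G)]
  · exact Finset.sum_congr rfl fun q _ => mp_cj φ _ a
  · intro q
    exact ⟨_, (q.out : K).2, rfl⟩
  · intro q r hqr
    obtain ⟨y, hy, hyx⟩ := hqr
    rw [← QuotientGroup.out_eq' q, ← QuotientGroup.out_eq' r, QuotientGroup.eq,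
      Subgroup.mem_subgroupOf]
    have : y = ((((q.out : K)⁻¹ * (r.out : K) : K)) : H) := by
      apply hφ
      rw [hyx, Subgroup.coe_mul, Subgroup.coe_inv, φ.map_mul, φ.map_inv]
    rwa [← this]
  · rintro _ ⟨x, hx, rfl⟩
    refine ⟨((⟨x, hx⟩ : K) : K ⧸ R.subgroupOf K), ?_⟩
    have h1 : ((((⟨x, hx⟩ : K) : K ⧸ R.subgroupOf K).out : K) : K ⧸ R.subgroupOf K) =
        ((⟨x, hx⟩ : K) : K ⧸ R.subgroupOf K) := QuotientGroup.out_eq' _
    rw [QuotientGroup.eq, Subgroup.mem_subgroupOf] at h1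
    refine ⟨_, h1, ?_⟩
    rw [Subgroup.coe_mul, Subgroup.coe_inv, φ.map_mul, φ.map_inv]

theorem mp_br (hφ : Function.Injective φ) (R : Subgroup H) (a : MonoidAlgebra k H) :
    mp k φ (br R a) = br (R.map φ) (mp k φ a) := by
  classical
  apply MonoidAlgebra.coeff_injective
  ext u
  by_cases hu : u ∈ φ.range
  · obtain ⟨x, rfl⟩ := hu
    rw [mp_coeff hφ, br_coeff, br_coeff, mp_coeff hφ]
    have : φ x ∈ Subgroup.centralizer ((R.map φ : Subgroup G) : Set G) ↔
        x ∈ Subgroup.centralizer (R : Set H) := by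
      rw [mem_cent, mem_cent]
      constructor
      · intro h d hd
        apply hφ
        rw [φ.map_mul, φ.map_mul, φ.map_inv]
        exact h _ (Subgroup.mem_map_of_mem _ hd)
      · rintro h _ ⟨d, hd, rfl⟩
        rw [← φ.map_inv, ← φ.map_mul, ← φ.map_mul, h d hd]
    simp only [this]
  · rw [mp_coeff_not _ _ hu, br_coeff, mp_coeff_not _ _ hu, ite_self]

theorem isBlockOf_top_of_mp (hφ : Function.Injective φ) {e : MonoidAlgebra k H}
    (h : IsBlockOf φ.range (mp k φ e)) : IsBlockOf ⊤ e := by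
  have hz : ∀ c : MonoidAlgebra k H, c ∈ ZAlg k (⊤ : Subgroup H) →
      mp k φ c ∈ ZAlg k φ.range := by
    intro c hc
    refine ⟨mp_mem φ c, ?_⟩
    rw [MonoidHom.range_eq_map]
    exact (mp_mem_Fix_iff hφ).mpr hc.2
  refine ⟨⟨SubAlg_top _, ?_⟩, ?_, ?_, ?_⟩
  · have h1 := h.mem.2
    rw [MonoidHom.range_eq_map] at h1
    exact (mp_mem_Fix_iff hφ).mp h1
  · apply mp_inj (k := k) hφ
    change mp k φ (e * e) = mp k φ e
    rw [map_mul]
    exact h.idem
  · rintro rfl
    exact h.ne_zero (map_zero _)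
  · intro c hc hcc hce
    rcases h.primitive (mp k φ c) (hz c hc) (by
        change mp k φ c * mp k φ c = mp k φ c
        rw [← map_mul]
        exact congrArg _ hcc) (by rw [← map_mul, hce]) with h1 | h1
    · left
      apply mp_inj (k := k) hφ
      rw [h1, map_zero]
    · right
      exact mp_inj hφ h1

end Vale.Agent.P180.R2.H471
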