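import Mathlib.GroupTheory.NoncommPiCoprod
import Vale.Agent.P180.R2.H471.HomT
import Vale.Agent.P180.R2.H365.Loc

/-!
P180: the dimension of the corner of a block of a direct product of alternating groups.
-/

set_option linter.unusedSectionVars false

namespace Vale.Agent.P180.R2.H471

open Vale.Agent.P180 Vale.Agent.P180.H768.Gd Vale.Agent.P180.R2.H365 Vale.Agent.P180.R2.H47
open Vale.Agent.P180.R2.H799

section Pi

variable {J : Type} [DecidableEq J] [Fintype J] {B : J → Type} [∀ j, Group (B j)]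
  [∀ j, Finite (B j)]

theorem dirFac (B : J → Type) [∀ j, Group (B j)] (j : J) :
    DirFac (MonoidHom.mulSingle B j) (Pi.evalMonoidHom B j) where
  sec a := by simp
  com a y hy := by
    funext l
    by_cases hl : l = j
    · subst hl
      have hy' : y l = 1 := hy
      simp [hy']
    · simp [Pi.mulSingle_eq_of_ne hl]

theorem single_comm (B : J → Type) [∀ j, Group (B j)] (i j : J) (hij : i ≠ j) :
    ∀ a ∈ (MonoidHom.mulSingle B i).range, ∀ b ∈ (MonoidHom.mulSingle B j).range,
      a * b = b * a := by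
  rintro _ ⟨x, rfl⟩ _ ⟨y, rfl⟩
  exact (Pi.mulSingle_commute (f := B) hij x y).eq

theorem iSup_single (l : List J) (hl : ∀ j, j ∈ l) :
    (⨆ i ∈ l, (MonoidHom.mulSingle B i).range) = ⊤ := by
  rw [eq_top_iff]
  intro x _
  rw [← Finset.noncommProd_mulSingle x]
  refine Subgroup.noncommProd_mem _ _ fun j _ => ?_
  exact Subgroup.mem_iSup_of_mem j (Subgroup.mem_iSup_of_mem (hl j) ⟨x j, rfl⟩)

end Pi

section Corner

universe u

variable (k : Type u) [Field k] [IsAlgClosed k] (p : ℕ) [Fact p.Prime] [CharP k p]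

/-- the bound for one alternating group -/
def CornerProp (CC : ℕ → ℕ → ℕ) : Prop :=
  ∀ (α : Type) [Fintype α] [DecidableEq α] (F : Finset α) (P : Subgroup (alternatingGroup α)),
    IsPGroup p P → (∀ h ∈ P, ∀ x ∈ F, (h : Equiv.Perm α) x = x) →
    ∀ b f a : MonoidAlgebra k (alternatingGroup α), IsBlockOf ⊤ b → a ∈ Fix (cj k _) P →
      b = tr (cj k _) P ⊤ a → OneF F f → br P (f * b) ≠ 0 →
      Module.finrank k (NN (⊤ : Subalgebra k (MonoidAlgebra k (alternatingGroup α)))
        (b * f) (b * f)) ≤ CC (Nat.card P) Fᶜ.card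

variable {k p}

theorem altF_comm {α : Type} [Fintype α] [DecidableEq α] {F : Finset α}
    {h σ : alternatingGroup α} (hh : ∀ x ∈ F, (h : Equiv.Perm α) x = x) (hσ : σ ∈ altF F) :
    h * σ * h⁻¹ = σ := by
  have h1 : Equiv.Perm.Disjoint (h : Equiv.Perm α) (σ : Equiv.Perm α) := by
    intro x
    by_cases hx : x ∈ F
    · exact Or.inl (hh x hx)
    · exact Or.inr (hσ x hx)
  have h2 : h * σ = σ * h := Subtype.ext h1.commute.eq
  rw [h2, mul_inv_cancel_right]

theorem fix_of_altF {α : Type} [Fintype α] [DecidableEq α] {F : Finset α}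
    {P : Subgroup (alternatingGroup α)} (hP : ∀ h ∈ P, ∀ x ∈ F, (h : Equiv.Perm α) x = x)
    {f : MonoidAlgebra k (alternatingGroup α)} (hf : f ∈ SubAlg k (altF F)) :
    f ∈ Fix (cj k _) P := by
  refine SuppIn.induction (P := fun f => f ∈ Fix (cj k _) P) hf (Subalgebra.zero_mem _)
    (fun a b => Subalgebra.add_mem _) ?_
  intro x hx c
  refine Subalgebra.smul_mem _ ?_ c
  intro d hd
  rw [cj_single, altF_comm (hP d hd) hx]

variable {G : Type} [Group G]

theorem up_eq [Finite G] (𝒜 : AltStr G) (j : Fin 𝒜.r)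
    (a : MonoidAlgebra k (alternatingGroup (Fin (𝒜.N j)))) :
    up k 𝒜 j a = mp k 𝒜.ι (mp k (MonoidHom.mulSingle
      (fun j => alternatingGroup (Fin (𝒜.N j))) j) a) := by
  induction a using MonoidAlgebra.induction_linear with
  | zero => simp
  | add a b ha hb => simp only [map_add, ha, hb]
  | single x r =>
    have h1 : up k 𝒜 j (MonoidAlgebra.single x r) = MonoidAlgebra.single (emb 𝒜 j x) r := by
      simp [up]
    rw [h1, mp_single, mp_single]
    rfl

/-- **Interface I3**: the corner of a block of a direct product of alternating groups. -/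
theorem i3 {CC CC' : ℕ → ℕ → ℕ} (hC : CornerProp k p CC)
    (hCC : ∀ s n m, s ≤ n → CC s m ≤ CC' n m) : I3 k p CC' := by
  classical
  intro G _ _ 𝒜 Q e z F f hinj hQ hQp he hz hzQ hez hFF hf hbr
  set φ := 𝒜.ι with hφ
  let B : Fin 𝒜.r → Type := fun j => alternatingGroup (Fin (𝒜.N j))
  let s : ∀ j, B j →* (∀ j, B j) := fun j => MonoidHom.mulSingle B j
  have hs : ∀ j, DirFac (s j) (Pi.evalMonoidHom B j) := fun j => dirFac B j
  -- pull back everything to the product
  obtain ⟨e', rfl⟩ := exists_mp φ he.mem.1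
  obtain ⟨z', rfl⟩ := exists_mp φ hz
  set Q' : Subgroup (∀ j, B j) := Q.comap φ with hQ'
  have hQmap : Q'.map φ = Q := by
    rw [hQ', Subgroup.map_comap_eq, inf_eq_right]
    exact hQ
  have hQ'p : IsPGroup p Q' := hQp.comap_of_injective φ hinj
  have hQcard : Nat.card Q' = Nat.card Q := by
    rw [← hQmap]
    exact (Nat.card_congr (Q'.equivMapOfInjective φ hinj).toEquiv)
  have he' : IsBlockOf ⊤ e' := isBlockOf_top_of_mp hinj he
  have hz'F : z' ∈ Fix (cj k _) Q' := by
    rw [← mp_mem_Fix_iff hinj, hQmap]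
    exact hzQ
  have hez' : e' = tr (cj k _) Q' ⊤ z' := by
    apply mp_inj (k := k) hinj
    rw [mp_tr hinj hz'F, hQmap, ← MonoidHom.range_eq_map]
    exact hez
  let prH : MonoidAlgebra k (∀ j, B j) :=
    ((List.finRange 𝒜.r).map fun j => mp k (s j) (f j)).prod
  have hpr : pr 𝒜 f = mp k φ prH := by
    unfold pr
    rw [map_list_prod, List.map_map]
    congr 1
    refine List.map_congr_left fun j _ => ?_
    exact up_eq 𝒜 j (f j)
  have hbr' : br Q' (prH * e') ≠ 0 := by
    intro h
    apply hbr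
    rw [hpr, ← map_mul, ← hQmap, ← mp_br hinj, h, map_zero]
  -- the projections of `Q'`
  have hP : ∀ j, ∀ h ∈ Q'.map (Pi.evalMonoidHom B j), ∀ x ∈ F j,
      ((h : B j) : Equiv.Perm (Fin (𝒜.N j))) x = x := by
    rintro j _ ⟨q, hq, rfl⟩ x hx
    have h1 := 𝒜.ρι q
    have h2 : 𝒜.ρ (φ q) ⟨j, x⟩ = ⟨j, ((q j : B j) : Equiv.Perm (Fin (𝒜.N j))) x⟩ := by
      rw [h1]; rfl
    have h3 := hFF (φ q) hq j x hx (by rw [h2])
    rw [h2] at h3
    exact eq_of_heq (Sigma.mk.inj h3).2
  have hfP : ∀ j, f j ∈ Fix (cj k _) (Q'.map (Pi.evalMonoidHom B j)) := fun j =>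
    fix_of_altF (hP j) (hf j).1
  have hfQ : ∀ j, mp k (s j) (f j) ∈ Fix (cj k _) Q' := by
    intro j x hx
    rw [(hs j).cj_mp, hfP j _ ⟨x, hx, rfl⟩]
  have hlist : ∀ l : List (Fin 𝒜.r), (l.map fun j => mp k (s j) (f j)).prod ∈
      Fix (cj k _) Q' := by
    intro l
    refine Subalgebra.list_prod_mem _ ?_
    intro x hx
    obtain ⟨j, -, rfl⟩ := List.mem_map.mp hx
    exact hfQ j
  have hscomm : ∀ i j, i ≠ j → ∀ (a : MonoidAlgebra k (B i)) (b : MonoidAlgebra k (B j)),
      mp k (s i) a * mp k (s j) b = mp k (s j) b * mp k (s i) a := fun i j hij a b =>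
    comm_SubAlg (single_comm B i j hij) (mp_mem _ a) (mp_mem _ b)
  have hprF : prH ∈ Fix (cj k _) Q' := hlist _
  have hprI : prH * prH = prH :=
    (finrank_NN_list (fun j => (s j).range) (single_comm B) (fun j => mp k (s j) (f j))
      (fun j => by rw [← map_mul, (hf j).2.1]) (fun j => mp_mem _ _) _
      (List.nodup_finRange _)).1
  obtain ⟨w, hw, -, hew⟩ := gen he' hQ'p hz'F hez' hprF hprI hbr'
  have he'c : ∀ y : MonoidAlgebra k (∀ j, B j), y * e' = e' * y := fun y =>
    commute_of_mem (SubAlg_top y) he'.mem.2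
  -- the factors
  have key : ∀ j, ∃ ej : MonoidAlgebra k (B j), IsBlockOf ⊤ ej ∧ e' * mp k (s j) ej = e' ∧
      Module.finrank k (NN (⊤ : Subalgebra k (MonoidAlgebra k (B j))) (ej * f j) (ej * f j)) ≤
        CC' (Nat.card Q) (F j)ᶜ.card := by
    intro j
    obtain ⟨ej, hej, hle⟩ := exists_factor_block (hs j) he'
    refine ⟨ej, hej, hle, ?_⟩
    -- split off the factor `f j`
    have hsplit : prH = mp k (s j) (f j) *
        (((List.finRange 𝒜.r).erase j).map fun j => mp k (s j) (f j)).prod := by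
      have hperm : ((List.finRange 𝒜.r).map fun j => mp k (s j) (f j)).Perm
          ((j :: (List.finRange 𝒜.r).erase j).map fun j => mp k (s j) (f j)) :=
        (List.perm_cons_erase (List.mem_finRange j)).map _
      have h1 := hperm.prod_eq' (by
        rw [List.pairwise_map]
        refine (List.nodup_finRange 𝒜.r).imp ?_
        intro a b hab
        exact hscomm a b hab _ _)
      rw [List.map_cons, List.prod_cons] at h1
      exact h1
    have hew' : e' = tr (cj k _) Q' ⊤ (mp k (s j) (f j) *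
        ((((List.finRange 𝒜.r).erase j).map fun j => mp k (s j) (f j)).prod * w)) := by
      rw [← mul_assoc, ← hsplit]
      exact hew
    obtain ⟨wj, hwj, hejw⟩ := factor_trace (hs j) he'.ne_zero he'.idem.eq hej hle (hfP j)
      (Subalgebra.mul_mem _ (hlist _) hw) hew'
    obtain ⟨Qj, hQj, ⟨aj, haj, heja⟩, hbrj⟩ := exists_min_pt hej (hfP j) (hf j).2.1 hwj hejw
    have hPp : IsPGroup p (Q'.map (Pi.evalMonoidHom B j)) := hQ'p.map _
    have hcard : Nat.card Qj ≤ Nat.card Q := by
      calc Nat.card Qj ≤ Nat.card (Q'.map (Pi.evalMonoidHom B j)) :=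
            Nat.card_le_card_of_injective _ (Subgroup.inclusion_injective hQj)
        _ ≤ Nat.card Q' := Nat.card_le_card_of_surjective _
            ((Pi.evalMonoidHom B j).subgroupMap_surjective Q')
        _ = Nat.card Q := hQcard
    exact (hC (Fin (𝒜.N j)) (F j) Qj (hPp.to_le hQj) (fun h hh => hP j h (hQj hh)) ej (f j) aj
      hej haj heja (hf j) hbrj).trans (hCC _ _ _ hcard)
  choose ej hej hle hdim using key
  -- the product of the corners
  let α : Fin 𝒜.r → MonoidAlgebra k (∀ j, B j) := fun j => mp k (s j) (ej j * f j)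
  have hef : ∀ j, (ej j * f j) * (ej j * f j) = ej j * f j := by
    intro j
    have h1 : f j * ej j = ej j * f j := commute_of_mem (SubAlg_top _) (hej j).mem.2
    rw [mul_assoc, ← mul_assoc (f j), h1, mul_assoc (ej j), (hf j).2.1, ← mul_assoc,
      (hej j).idem.eq]
  obtain ⟨hα1, -, hα3⟩ := finrank_NN_list (fun j => (s j).range) (single_comm B) α
    (fun j => by
      change mp k (s j) _ * mp k (s j) _ = mp k (s j) _
      rw [← map_mul, hef]) (fun j => mp_mem _ _) (List.finRange 𝒜.r) (List.nodup_finRange _)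
  rw [iSup_single _ List.mem_finRange] at hα3
  set Al := ((List.finRange 𝒜.r).map α).prod with hAl
  have heAl : e' * Al = e' * prH := by
    have h1 : Al = ((List.finRange 𝒜.r).map fun j => mp k (s j) (ej j)).prod * prH := by
      rw [hAl, list_prod_mul_prod (fun j => mp k (s j) (ej j)) (fun j => mp k (s j) (f j))
        (fun i j hij => (hscomm i j hij _ _)) _ (List.nodup_finRange _)]
      congr 1
      refine List.map_congr_left fun j _ => ?_
      exact map_mul _ _ _
    have h2 : ∀ l : List (Fin 𝒜.r), e' * (l.map fun j => mp k (s j) (ej j)).prod = e' := by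
      intro l
      induction l with
      | nil => simp
      | cons j l ih => rw [List.map_cons, List.prod_cons, ← mul_assoc, hle j, ih]
    rw [h1, ← mul_assoc, h2]
  have hNN : NN (⊤ : Subalgebra k (MonoidAlgebra k (∀ j, B j))) (e' * prH) (e' * prH) ≤
      NN (SubAlg k ⊤) Al Al := by
    rintro x ⟨-, h1, h2⟩
    rw [← heAl] at h1 h2
    refine ⟨SubAlg_top _, ?_, ?_⟩
    · calc Al * x = Al * (e' * Al * x) := by rw [h1]
        _ = (Al * e') * (Al * x) := by simp only [mul_assoc]
        _ = e' * (Al * Al) * x := by rw [he'c]; simp only [mul_assoc]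
        _ = x := by rw [hα1, h1]
    · calc x * Al = (x * (e' * Al)) * Al := by rw [h2]
        _ = x * (e' * (Al * Al)) := by simp only [mul_assoc]
        _ = x := by rw [hα1, h2]
  have hfin : FiniteDimensional k (MonoidAlgebra k (∀ j, B j)) :=
    Module.Finite.equiv (MonoidAlgebra.coeffLinearEquiv k (M := ∀ j, B j) (S := k)).symm
  rw [hpr, ← map_mul, finrank_NN_hom hinj]
  refine (Submodule.finrank_mono hNN).trans (hα3.trans ?_)
  rw [← List.ofFn_eq_map, List.prod_ofFn]
  refine Finset.prod_le_prod' fun j _ => ?_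
  rw [finrank_NN_hom (hs j).inj]
  exact hdim j

end Corner

end Vale.Agent.P180.R2.H471
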