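import Vale.Agent.P180.R2.H471.Hc10
import Mathlib.NumberTheory.Cyclotomic.Basic

/-! Special linear groups of degree less than `p`. -/

set_option linter.all false

namespace Vale.Agent.P180.R2.H471.Hc

open Module Subgroup Vale.Agent.P180 Vale.Agent.P180.H768.Gd Vale.Agent.P180.R2.H799
  Vale.Agent.P180.R2.H854 Vale.Agent.P180.R2.H954 Vale.Agent.P180.R2.H954.Hc

universe u

/-- The `p`-subgroups of `SL_d(K)` are abelian if `d < p` and `p` does not divide `|K|`. -/
theorem comm_of_lt {p : ℕ} [Fact p.Prime] {K : Type} [Field K] [Finite K] {d : ℕ}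
    (hpK : ¬ p ∣ Nat.card K) (hd : d < p) {Q : Subgroup (SpecialLinearGroup K (Fin d → K))}
    (hQ : IsPGroup p Q) : ∀ x ∈ Q, ∀ y ∈ Q, x * y = y * x := by
  classical
  have hp : p.Prime := Fact.out
  have hp0 : (p : K) ≠ 0 := by
    intro h
    obtain ⟨r, hr⟩ := CharP.exists K
    have _ := Fintype.ofFinite K
    obtain ⟨n, hrp, hn⟩ := FiniteField.card K r
    have h1 : r ∣ p := (CharP.cast_eq_zero_iff K r p).mp h
    have h2 : r = p := (Nat.prime_dvd_prime_iff_eq hrp hp).mp h1
    apply hpK
    rw [Nat.card_eq_fintype_card, hn, h2]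
    exact dvd_pow_self p n.ne_zero
  haveI : NeZero (p : K) := ⟨hp0⟩
  let K' := CyclotomicField p K
  have hfinK' : Finite K' := by
    have : Module.Finite K K' := IsCyclotomicExtension.finite {p} K K'
    exact Module.finite_of_finite K
  have hp1 : p ∣ Nat.card K' - 1 := by
    have _ := Fintype.ofFinite K'
    have hζ := IsCyclotomicExtension.zeta_spec p K K'
    set ζ := IsCyclotomicExtension.zeta p K K' with hζd
    have hζ0 : ζ ≠ 0 := hζ.ne_zero hp.ne_zero
    have h1 : orderOf (Units.mk0 ζ hζ0) = p := by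
      rw [← orderOf_units]
      exact hζ.eq_orderOf.symm
    have h2 := orderOf_dvd_natCard (Units.mk0 ζ hζ0)
    rwa [h1, Nat.card_eq_fintype_card, Fintype.card_units, ← Nat.card_eq_fintype_card] at h2
  let ψ : SpecialLinearGroup K (Fin d → K) →* SpecialLinearGroup K' (Fin d → K') :=
    ((Matrix.SpecialLinearGroup.toLin'_equiv (n := Fin d) (R := K')).toMonoidHom.comp
      (Matrix.SpecialLinearGroup.map (algebraMap K K'))).comp
      (Matrix.SpecialLinearGroup.toLin'_equiv (n := Fin d) (R := K)).symm.toMonoidHom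
  have hψ : Function.Injective ψ := by
    intro x y hxy
    have h1 := (Matrix.SpecialLinearGroup.toLin'_equiv (n := Fin d) (R := K')).injective hxy
    apply (Matrix.SpecialLinearGroup.toLin'_equiv (n := Fin d) (R := K)).symm.injective
    apply Subtype.ext
    ext i j
    have h2 := congrArg (fun A : Matrix.SpecialLinearGroup (Fin d) K' => (A : Matrix _ _ K') i j) h1
    exact (algebraMap K K').injective h2
  have hQ' : IsPGroup p (Q.map ψ) := hQ.map ψ
  have hlt : finrank K' (Fin d → K') < p := by rw [Module.finrank_fin_fun]; exact hd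
  have hc := BN.comm_of_span (BN.span_EV_of_lt hQ' hp1 hlt)
  intro x hx y hy
  apply hψ
  rw [map_mul, map_mul]
  exact hc _ ⟨x, hx, rfl⟩ _ ⟨y, hy, rfl⟩

/-- `L` is a central quotient of a special linear group of dimension at most `m` over a finite field
`K` with `p` not dividing `|K| (|K| - 1)`, and the dimension is less than `p` or `D ∩ L` is
abelian. -/
def NonsplitSL' (p m : ℕ) {G : Type} [Group G] (D L : Subgroup G) : Prop :=
  ∃ (K : Type) (_ : Field K) (_ : Finite K) (d : ℕ)
    (π : SpecialLinearGroup K (Fin d → K) →* L), Function.Surjective π ∧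
      π.ker ≤ Subgroup.center _ ∧ d ≤ m ∧ ¬ p ∣ Nat.card K ∧ ¬ p ∣ Nat.card K - 1 ∧
      (d < p ∨ ∀ x ∈ D, x ∈ L → ∀ y ∈ D, y ∈ L → x * y = y * x)

theorem NonsplitSL'.nonsplitSL {p m : ℕ} [Fact p.Prime] {G : Type} [Group G] [Finite G]
    {D L : Subgroup G} (hD : IsPGroup p D) (h : NonsplitSL' p m D L) : NonsplitSL p m D L := by
  obtain ⟨K, _, _, d, π, hπ, hk, hd, hpK, hpK1, hab⟩ := h
  refine ⟨K, inferInstance, inferInstance, d, π, hπ, hk, hd, hpK, hpK1, ?_⟩
  rcases hab with hlt | hab
  · intro x hxD hxL y hyD hyL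
    have hDL : IsPGroup p (D.subgroupOf L) :=
      hD.comap_of_injective L.subtype L.subtype_injective
    have hfG : Finite (SpecialLinearGroup K (Fin d → K)) := BN.finite_sl
    obtain ⟨Q, hQ, hQD⟩ := BN.exists_lift (p := p) π hπ hDL
    have hx : (⟨x, hxL⟩ : L) ∈ Q.map π := by rw [hQD]; exact hxD
    have hy : (⟨y, hyL⟩ : L) ∈ Q.map π := by rw [hQD]; exact hyD
    obtain ⟨x', hx', hxe⟩ := hx
    obtain ⟨y', hy', hye⟩ := hy
    have h1 := congrArg π (comm_of_lt hpK hlt hQ x' hx' y' hy')
    rw [map_mul, map_mul, hxe, hye] at h1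
    exact congrArg Subtype.val h1
  · exact hab

/-- **The corner property** of special linear groups of bounded rank. -/
theorem corP_nonsplit' {k : Type u} [Field k] [IsAlgClosed k] {p m n : ℕ} [Fact p.Prime]
    [CharP k p] {G : Type} [Group G] [Finite G] {D L : Subgroup G} (hD : IsPGroup p D)
    (hDn : Nat.card D ≤ n) (h : NonsplitSL' p m D L)
    (hin : D ⊓ Subgroup.normalizer (L : Set G) ≤ L ⊔ Subgroup.centralizer (L : Set G))
    (b : MonoidAlgebra k G) : H365.CorP p (bdSL p m n) b D L :=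
  corP_nonsplit hD hDn (h.nonsplitSL hD) hin b

end Vale.Agent.P180.R2.H471.Hc
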