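import Vale.Agent.P180.R2.H471.Cyc6

/-! The final count. -/

namespace Vale.Agent.P180.R2.H471.Cyc

universe u

section
variable {k : Type u} [Field k] {A : Type u} [Ring A] [Algebra k A] [Module.Finite k A]
variable {e ι N : A} {q T : ℕ} {J : Type} [Fintype J] {a b : J → A}

variable (k) (ι) in
/-- a family of pairwise non-isomorphic simple modules not killed by `ι` -/
def Fam (S : Finset (Submodule A A)) : Prop :=
  (∀ L ∈ S, IsCoatom L ∧ ∃ x : A ⧸ L, ι • x ≠ 0) ∧
    ∀ L ∈ S, ∀ L' ∈ S, Nonempty ((A ⧸ L) ≃ₗ[A] (A ⧸ L')) → L = L'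

theorem Fam.sum_le (H : Hyp k e ι N q T a b) {S : Finset (Submodule A A)} (hS : Fam ι S) :
    ∑ L ∈ S, tau k ι N q (A ⧸ L) ≤ q * T :=
  sum_tau_le_mul H S (fun L hL => (simple_data H (hS.1 L hL).1 (hS.1 L hL).2).1)
    (fun L hL => (simple_data H (hS.1 L hL).1 (hS.1 L hL).2).2.1) hS.2

theorem Fam.card_le (H : Hyp k e ι N q T a b) {S : Finset (Submodule A A)} (hS : Fam ι S) :
    S.card ≤ q * T := by
  have h1 := hS.sum_le H
  have h2 : ∑ L ∈ S, (1 : ℤ) ≤ ∑ L ∈ S, tau k ι N q (A ⧸ L) :=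
    Finset.sum_le_sum fun L hL => (simple_data H (hS.1 L hL).1 (hS.1 L hL).2).2.2.1
  rw [Finset.sum_const, nsmul_eq_mul, mul_one] at h2
  have h3 : (S.card : ℤ) ≤ q * T := h2.trans h1
  exact_mod_cast h3

/-- a maximal family -/
theorem exists_fam (H : Hyp k e ι N q T a b) : ∃ S : Finset (Submodule A A), Fam ι S ∧
    ∀ L : Submodule A A, IsCoatom L → (∃ x : A ⧸ L, ι • x ≠ 0) →
      ∃ L' ∈ S, Nonempty ((A ⧸ L) ≃ₗ[A] (A ⧸ L')) := by
  classical
  have h0 : ∃ n, ∃ S : Finset (Submodule A A), Fam ι S ∧ S.card = n := ⟨0, ∅, by simp [Fam], rfl⟩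
  let P : ℕ → Prop := fun n => ∃ S : Finset (Submodule A A), Fam ι S ∧ S.card = n
  have hmax := Nat.findGreatest_spec (P := P) (n := q * T) (m := 0) (Nat.zero_le _)
    ⟨∅, by simp [Fam], rfl⟩
  obtain ⟨S, hS, hcard⟩ := hmax
  refine ⟨S, hS, ?_⟩
  intro L hL hLι
  by_contra hcon
  push Not at hcon
  have hLS : L ∉ S := fun h => (hcon L h).false (LinearEquiv.refl A _)
  have hF : Fam ι (insert L S) := by
    refine ⟨?_, ?_⟩
    · intro M hM
      rcases Finset.mem_insert.mp hM with rfl | hM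
      · exact ⟨hL, hLι⟩
      · exact hS.1 M hM
    · intro M₁ h₁ M₂ h₂ hiso
      rcases Finset.mem_insert.mp h₁ with r₁ | r₁
      · rcases Finset.mem_insert.mp h₂ with r₂ | r₂
        · rw [r₁, r₂]
        · exfalso
          rw [r₁] at hiso
          obtain ⟨w⟩ := hiso
          exact (hcon M₂ r₂).false w
      · rcases Finset.mem_insert.mp h₂ with r₂ | r₂
        · exfalso
          rw [r₂] at hiso
          obtain ⟨w⟩ := hiso
          exact (hcon M₁ r₁).false w.symm
        · exact hS.2 M₁ r₁ M₂ r₂ hiso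
  have h1 : P (insert L S).card := ⟨_, hF, rfl⟩
  have h2 := Nat.le_findGreatest (hF.card_le H) h1
  rw [Finset.card_insert_of_notMem hLS, hcard] at h2
  omega

/-- the weight of an idempotent -/
noncomputable def wt (k : Type u) [Field k] {A : Type u} [Ring A] [Algebra k A]
    (S : Finset (Submodule A A)) (f : A) : ℕ :=
  ∑ L ∈ S, Module.finrank k (EE k f (A ⧸ L))

theorem wt_pos {S : Finset (Submodule A A)} (hS : ∀ L : Submodule A A, IsCoatom L →
      (∃ x : A ⧸ L, ι • x ≠ 0) → ∃ L' ∈ S, Nonempty ((A ⧸ L) ≃ₗ[A] (A ⧸ L')))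
    {f : A} (hff : f * f = f) (hf0 : f ≠ 0) (hιf : ι * f = f) : 1 ≤ wt k S f := by
  classical
  have hnoe : IsNoetherian A A := isNoetherian_of_tower k inferInstance
  have h1 : LL f ≠ ⊤ := by
    intro h
    apply hf0
    have : (1 : A) ∈ LL f := by rw [h]; trivial
    rw [mem_LL hff, one_mul] at this
    exact this
  obtain ⟨L, hL1, hL2⟩ := (eq_top_or_exists_le_coatom (LL f)).resolve_left h1
  have hfL : f ∉ L := by
    intro h
    apply hL1.1
    rw [eq_top_iff]
    intro x _
    have h2 : (1 : A) ∈ L := by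
      have h3 : (1 - f) ∈ L := hL2 (Submodule.mem_span_singleton_self _)
      have := L.add_mem h3 h
      rwa [sub_add_cancel] at this
    have := L.smul_mem x h2
    rwa [smul_eq_mul, mul_one] at this
  have h3 : f • (Submodule.Quotient.mk f : A ⧸ L) ≠ 0 := by
    rw [← Submodule.Quotient.mk_smul, smul_eq_mul, hff]
    intro h
    rw [Submodule.Quotient.mk_eq_zero] at h
    exact hfL h
  obtain ⟨L', hL', ⟨w⟩⟩ := hS L hL1 ⟨Submodule.Quotient.mk f, by
    rw [← Submodule.Quotient.mk_smul, smul_eq_mul, hιf]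
    intro h
    rw [Submodule.Quotient.mk_eq_zero] at h
    exact hfL h⟩
  have h4 : 1 ≤ Module.finrank k (EE k f (A ⧸ L')) := by
    have : Nontrivial (EE k f (A ⧸ L')) := by
      refine ⟨⟨⟨f • w (Submodule.Quotient.mk f), ⟨_, rfl⟩⟩, 0, ?_⟩⟩
      intro h
      have h5 : f • w (Submodule.Quotient.mk f) = 0 := congrArg Subtype.val h
      rw [← map_smul] at h5
      exact h3 (w.injective (by rw [h5, map_zero]))
    exact Module.finrank_pos
  exact h4.trans (Finset.single_le_sum (f := fun L => Module.finrank k (EE k f (A ⧸ L)))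
    (fun _ _ => Nat.zero_le _) hL')

theorem wt_add {S : Finset (Submodule A A)} {f g : A} (hf : f * f = f)
    (hgf : g * f = g) (hfg : f * g = g) (hgg : g * g = g) :
    wt k S g + wt k S (f - g) ≤ wt k S f := by
  unfold wt
  rw [← Finset.sum_add_distrib]
  refine Finset.sum_le_sum fun L _ => ?_
  have hd : Disjoint (EE k g (A ⧸ L)) (EE k (f - g) (A ⧸ L)) := by
    rw [Submodule.disjoint_def]
    rintro x ⟨y, hy⟩ ⟨z, hz⟩
    have h1 : g • x = x := by rw [← hy, smul_smul, hgg]
    have h2 : g • x = 0 := by rw [← hz, smul_smul, mul_sub, hgf, hgg, sub_self, zero_smul]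
    rw [← h1, h2]
  have h1 := Submodule.finrank_add_finrank_le_of_disjoint hd
  have h2 : EE k g (A ⧸ L) ⊔ EE k (f - g) (A ⧸ L) ≤ EE k f (A ⧸ L) := by
    apply sup_le
    · rintro x ⟨y, rfl⟩
      exact ⟨g • y, by rw [smul_smul, hfg]⟩
    · rintro x ⟨y, rfl⟩
      exact ⟨(f - g) • y, by rw [smul_smul, mul_sub, hf, hfg]⟩
  have h3 := Submodule.finrank_mono h2
  have h4 := Submodule.finrank_sup_add_finrank_inf_eq (EE k g (A ⧸ L)) (EE k (f - g) (A ⧸ L))
  rw [hd.eq_bot, finrank_bot] at h4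
  omega

theorem wt_ι_le (H : Hyp k e ι N q T a b) {S : Finset (Submodule A A)} (hS : Fam ι S) :
    wt k S ι ≤ q * (q * T) := by
  have h1 : ((wt k S ι : ℕ) : ℤ) ≤ q * (q * T) := by
    unfold wt
    push_cast
    calc ∑ L ∈ S, (Module.finrank k (EE k ι (A ⧸ L)) : ℤ)
        ≤ ∑ L ∈ S, (q * tau k ι N q (A ⧸ L) : ℤ) :=
          Finset.sum_le_sum fun L hL => (simple_data H (hS.1 L hL).1 (hS.1 L hL).2).2.2.2
      _ = q * ∑ L ∈ S, tau k ι N q (A ⧸ L) := by rw [Finset.mul_sum]
      _ ≤ q * (q * T) := mul_le_mul_of_nonneg_left (hS.sum_le H) (by positivity)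
  exact_mod_cast h1

theorem main_count (H : Hyp k e ι N q T a b) {S : Finset (Submodule A A)}
    (hS : ∀ L : Submodule A A, IsCoatom L →
      (∃ x : A ⧸ L, ι • x ≠ 0) → ∃ L' ∈ S, Nonempty ((A ⧸ L) ≃ₗ[A] (A ⧸ L'))) :
    ∀ n, ∀ f : A, f * f = f → ι * f = f → wt k S f ≤ n →
      Module.finrank k (EE k ι (A ⧸ LL f)) ≤ wt k S f * ((q * T + 1) * (q * (q * T))) := by
  classical
  intro n
  induction n with
  | zero =>
    intro f hff hιf hn
    by_cases hf0 : f = 0
    · have h1 : LL f = ⊤ := by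
        rw [eq_top_iff]
        intro x _
        rw [mem_LL hff, hf0, mul_zero]
      have : Subsingleton (A ⧸ LL f) := Submodule.Quotient.subsingleton_iff.mpr h1
      rw [Module.finrank_zero_of_subsingleton]
      exact Nat.zero_le _
    · have := wt_pos (k := k) hS hff hf0 hιf
      omega
  | succ n ih =>
    intro f hff hιf hn
    by_cases hf0 : f = 0
    · have h1 : LL f = ⊤ := by
        rw [eq_top_iff]
        intro x _
        rw [mem_LL hff, hf0, mul_zero]
      have : Subsingleton (A ⧸ LL f) := Submodule.Quotient.subsingleton_iff.mpr h1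
      rw [Module.finrank_zero_of_subsingleton]
      exact Nat.zero_le _
    by_cases hp : Prim f
    · have h1 := wt_pos (k := k) hS hff hf0 hιf
      have h2 := finrank_EE_local H hp hιf
      calc Module.finrank k (EE k ι (A ⧸ LL f)) ≤ 1 * ((q * T + 1) * (q * (q * T))) := by
            rw [one_mul]; exact h2
        _ ≤ _ := Nat.mul_le_mul_right _ h1
    · unfold Prim at hp
      push Not at hp
      obtain ⟨g, hgg, hfg, hgf, hg0, hgne⟩ := hp hff hf0
      have hιg : ι * g = g := by rw [← hfg, ← mul_assoc, hιf]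
      have hh : (f - g) * (f - g) = f - g := by
        rw [mul_sub, sub_mul, sub_mul, hff, hgf, hfg, hgg]
        abel
      have hιh : ι * (f - g) = f - g := by rw [mul_sub, hιf, hιg]
      have hh0 : f - g ≠ 0 := fun h => hgne (sub_eq_zero.mp h).symm
      have h1 := wt_pos (k := k) hS hgg hg0 hιg
      have h2 := wt_pos (k := k) hS hh hh0 hιh
      have h3 := wt_add (k := k) (S := S) hff hgf hfg hgg
      have h4 := ih g hgg hιg (by omega)
      have h5 := ih (f - g) hh hιh (by omega)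
      -- exact sequence
      let j : (A ⧸ LL g) →ₗ[A] (A ⧸ LL f) :=
        Submodule.liftQ (LL g) (LinearMap.toSpanSingleton A (A ⧸ LL f)
          (Submodule.Quotient.mk g)) (by
          intro c hc
          rw [mem_LL hgg] at hc
          rw [LinearMap.mem_ker, LinearMap.toSpanSingleton_apply, ← Submodule.Quotient.mk_smul,
            smul_eq_mul, hc]
          rfl)
      have hle : LL f ≤ LL (f - g) := by
        intro c hc
        rw [mem_LL hff] at hc
        rw [mem_LL hh]
        have h6 : f - g = f * (f - g) := by rw [mul_sub, hff, hfg]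
        rw [h6, ← mul_assoc, hc, zero_mul]
      let p : (A ⧸ LL f) →ₗ[A] (A ⧸ LL (f - g)) := Submodule.mapQ _ _ LinearMap.id hle
      have h6 := finrank_EE_le (k := k) ι H.ιι j p (by
        intro y hy
        obtain ⟨y, rfl⟩ := Submodule.Quotient.mk_surjective _ y
        have h7 : (Submodule.Quotient.mk y : A ⧸ LL (f - g)) = 0 := hy
        rw [Submodule.Quotient.mk_eq_zero, mem_LL hh, mul_sub, sub_eq_zero] at h7
        refine ⟨Submodule.Quotient.mk y, ?_⟩
        change y • (Submodule.Quotient.mk g : A ⧸ LL f) = _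
        rw [← Submodule.Quotient.mk_smul, smul_eq_mul, mk_LL hff, mul_assoc, hgf, h7])
      calc Module.finrank k (EE k ι (A ⧸ LL f))
          ≤ Module.finrank k (EE k ι (A ⧸ LL g)) + Module.finrank k (EE k ι (A ⧸ LL (f - g))) := h6
        _ ≤ wt k S g * ((q * T + 1) * (q * (q * T))) +
            wt k S (f - g) * ((q * T + 1) * (q * (q * T))) := Nat.add_le_add h4 h5
        _ = (wt k S g + wt k S (f - g)) * ((q * T + 1) * (q * (q * T))) := (add_mul _ _ _).symm
        _ ≤ _ := Nat.mul_le_mul_right _ h3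

/-- **Abstract corner bound.** -/
theorem corner_bound (H : Hyp k e ι N q T a b) :
    Module.finrank k (LinearMap.range (LinearMap.mulLeft k ι ∘ₗ LinearMap.mulRight k ι)) ≤
      (q * (q * T)) * ((q * T + 1) * (q * (q * T))) := by
  obtain ⟨S, hS1, hS2⟩ := exists_fam H
  have h1 := main_count H hS2 (wt k S ι) ι H.ιι H.ιι (le_refl _)
  have h2 := wt_ι_le H hS1
  have h3 : Module.finrank k (EE k ι (A ⧸ LL ι)) ≤
      (q * (q * T)) * ((q * T + 1) * (q * (q * T))) :=
    h1.trans (Nat.mul_le_mul_right _ h2)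
  refine le_trans ?_ h3
  let j : (A ⧸ LL ι) →ₗ[A] A :=
    Submodule.liftQ (LL ι) (LinearMap.toSpanSingleton A A ι) (by
      intro c hc
      rw [mem_LL H.ιι] at hc
      exact hc)
  have h4 : LinearMap.range (LinearMap.mulLeft k ι ∘ₗ LinearMap.mulRight k ι) ≤
      (EE k ι (A ⧸ LL ι)).map (j.restrictScalars k) := by
    rintro _ ⟨x, rfl⟩
    refine ⟨ι • Submodule.Quotient.mk x, ⟨_, rfl⟩, ?_⟩
    change j (ι • Submodule.Quotient.mk x) = ι * (x * ι)
    rw [← Submodule.Quotient.mk_smul]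
    change (ι * x) * ι = ι * (x * ι)
    rw [mul_assoc]
  exact (Submodule.finrank_mono h4).trans (Submodule.finrank_map_le _ _)

end

end Vale.Agent.P180.R2.H471.Cyc
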