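import Vale.Agent.P180.R2.H471.Hc6
import Vale.Agent.P180.R2.H954.CycFin
import Vale.Agent.P180.R2.H365.Src

/-! Blocks of a subgroup `L` containing `C_G(Q)`, for a block of `G` which is a relative trace
from `Q`. -/

set_option linter.all false

namespace Vale.Agent.P180.R2.H471.Hc

open Subgroup Vale.Agent.P180 Vale.Agent.P180.H768.Gd Vale.Agent.P180.R2.H365
  Vale.Agent.P180.R2.H799 Vale.Agent.P180.R2.H954 Vale.Agent.P180.R2.H12

section

variable {k : Type*} [Field k] {p : ℕ} [Fact p.Prime] [CharP k p] {G : Type} [Group G] [Finite G]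

/-- A block of `kL` not killed by `w`. -/
theorem exists_block_br (L Q : Subgroup G) {w : MonoidAlgebra k G} (hw : w ≠ 0) :
    ∃ f : MonoidAlgebra k G, IsBlockOf L f ∧ w * br Q f ≠ 0 := by
  have hfin : FiniteDimensional k (MonoidAlgebra k G) :=
    Module.Finite.equiv (MonoidAlgebra.coeffLinearEquiv k (M := G) (S := k)).symm
  obtain ⟨m, f, hf, h1⟩ := exists_prim_decomp (ZAlg k L) _ 1 (Subalgebra.one_mem _) (one_mul 1)
    le_rfl
  have h2 : w = ∑ l, w * br Q (f l) := by
    rw [← Finset.mul_sum, ← br_sum, ← h1, br_one, mul_one]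
  obtain ⟨l, -, hl⟩ := Finset.exists_ne_zero_of_sum_ne_zero (by rw [← h2]; exact hw)
  refine ⟨f l, ⟨(hf l).1.mem, (hf l).1.idem, (hf l).1.ne_zero, ?_⟩, hl⟩
  intro c hc hcc hce
  exact (hf l).1.prim c hc hcc hce (by rw [ZAlg_comm _ (hf l).1.mem _ hc, hce])

/-- Moving a relative trace to a given subgroup. -/
theorem tr_move {N P Q : Subgroup G} (hPN : P ≤ N) (hQN : Q ≤ N) (hQ : IsPGroup p Q)
    (hcard : Nat.card P ≤ Nat.card Q) {f z : MonoidAlgebra k G} (hf : f ∈ Fix (cj k G) N)
    (hz : z ∈ SubAlg k N) (hzF : z ∈ Fix (cj k G) P) (hfz : f = tr (cj k G) P N z)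
    (hbr : br Q f ≠ 0) :
    ∃ z' ∈ SubAlg k N, z' ∈ Fix (cj k G) Q ∧ f = tr (cj k G) Q N z' := by
  obtain ⟨c, hc, hec⟩ := exists_coeff_of_br hbr
  obtain ⟨x, hxN, hx⟩ := exists_conj_of_coeff hPN hQN hQ hzF hfz hc hec
  have h3 : Q ≤ conjS x P := fun v hv => mem_conjS.mpr (hx v hv)
  have h4 : Nat.card (conjS x P) = Nat.card P :=
    Subgroup.card_map_of_injective (MulAut.conj x).injective
  have h5 : conjS x P = Q := by
    refine (Subgroup.eq_of_le_of_card_ge h3 ?_).symm
    rw [h4]; exact hcard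
  have h6 : conjS x N = N := by
    ext y
    rw [mem_conjS]
    constructor
    · intro hy
      have h7 : y = x * (x⁻¹ * y * x) * x⁻¹ := by group
      rw [h7]
      exact N.mul_mem (N.mul_mem hxN hy) (N.inv_mem hxN)
    · intro hy
      exact N.mul_mem (N.mul_mem (N.inv_mem hxN) hy) hxN
  refine ⟨cj k G x z, ?_, ?_, ?_⟩
  · exact SuppIn.conj hz x fun s hs => N.mul_mem (N.mul_mem hxN hs) (N.inv_mem hxN)
  · rw [← h5]
    exact conj_mem_Fix hzF x fun h hh => mem_conjS.mp hh
  · have h7 := cj_tr (k := k) x (K := N) hzF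
    rw [← hfz, hf x hxN, h5, h6] at h7
    exact h7

/-- projection to the group algebra of a subgroup -/
theorem resS_coeff [Fintype G] (L : Subgroup G) (a : MonoidAlgebra k G) {x : G} (hx : x ∈ L) :
    (resS L a).coeff x = a.coeff x := by
  classical
  change (H954.Hc.res L (fun y => a.coeff y)).coeff x = _
  rw [H954.Hc.res_coeff, if_pos hx]

theorem resS_coeff' [Fintype G] (L : Subgroup G) (a : MonoidAlgebra k G) {x : G} (hx : x ∉ L) :
    (resS L a).coeff x = 0 := by
  classical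
  change (H954.Hc.res L (fun y => a.coeff y)).coeff x = _
  rw [H954.Hc.res_coeff, if_neg hx]

theorem resS_cj [Fintype G] {L : Subgroup G} {g : G} (hg : g ∈ L) (a : MonoidAlgebra k G) :
    resS L (cj k G g a) = cj k G g (resS L a) := by
  apply MonoidAlgebra.coeff_injective
  ext x
  rw [cj_coeff]
  by_cases hx : x ∈ L
  · rw [resS_coeff L _ hx, cj_coeff, resS_coeff L _ (L.mul_mem (L.mul_mem (L.inv_mem hg) hx) hg)]
  · have hx' : g⁻¹ * x * g ∉ L := by
      intro h
      apply hx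
      have h7 : x = g * (g⁻¹ * x * g) * g⁻¹ := by group
      rw [h7]
      exact L.mul_mem (L.mul_mem hg h) (L.inv_mem hg)
    rw [resS_coeff' L _ hx, resS_coeff' L _ hx']

theorem resS_tr [Fintype G] {L R : Subgroup G} (a : MonoidAlgebra k G) :
    resS L (tr (cj k G) R L a) = tr (cj k G) R L (resS L a) := by
  let _ := Fintype.ofFinite (L ⧸ R.subgroupOf L)
  rw [tr_def, tr_def, map_sum]
  exact Finset.sum_congr rfl fun q _ => resS_cj (q.out : L).2 a

theorem resS_mem_Fix [Fintype G] {L R : Subgroup G} (hRL : R ≤ L) {a : MonoidAlgebra k G}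
    (ha : a ∈ Fix (cj k G) R) : resS L a ∈ Fix (cj k G) R := by
  intro x hx
  rw [← resS_cj (hRL hx), ha x hx]

theorem br_resS [Fintype G] {L Q : Subgroup G} (hC : centralizer (Q : Set G) ≤ L)
    (a : MonoidAlgebra k G) : br Q (resS L a) = br Q a := by
  classical
  apply MonoidAlgebra.coeff_injective
  ext x
  rw [br_coeff, br_coeff]
  split_ifs with hx
  · exact resS_coeff L a (hC hx)
  · rfl

theorem nilp_sum {N : Subgroup G} {ι : Type*} (s : Finset ι) (t : ι → MonoidAlgebra k G)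
    (ht : ∀ i ∈ s, t i ∈ ZAlg k N ∧ IsNilpotent (t i)) :
    ∑ i ∈ s, t i ∈ ZAlg k N ∧ IsNilpotent (∑ i ∈ s, t i) := by
  classical
  induction s using Finset.induction_on with
  | empty => exact ⟨by simp, by simp⟩
  | insert i s hi ih =>
    rw [Finset.sum_insert hi]
    obtain ⟨h1, h2⟩ := ih fun j hj => ht j (Finset.mem_insert_of_mem hj)
    obtain ⟨h3, h4⟩ := ht i (Finset.mem_insert_self i s)
    exact ⟨(ZAlg k N).add_mem h3 h1, Commute.isNilpotent_add (ZAlg_comm _ h3 _ h1) h4 h2⟩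

/-- **Descent of the defect group to a subgroup containing the centraliser.** -/
theorem tr_of_br {L Q : Subgroup G} (hQL : Q ≤ L) (hQ : IsPGroup p Q)
    (hC : centralizer (Q : Set G) ≤ L) {e a f : MonoidAlgebra k G} (hee : e * e = e)
    (ha : a ∈ Fix (cj k G) Q) (hea : e = tr (cj k G) Q ⊤ a) (hf : IsBlockOf L f)
    (hne : br Q e * br Q f ≠ 0) :
    ∃ z ∈ SubAlg k L, z ∈ Fix (cj k G) Q ∧ f = tr (cj k G) Q L z := by
  classical
  have _ := Fintype.ofFinite G
  have hfin : FiniteDimensional k (MonoidAlgebra k G) :=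
    Module.Finite.equiv (MonoidAlgebra.coeffLinearEquiv k (M := G) (S := k)).symm
  obtain ⟨m, x, hx⟩ := Vale.Agent.P180.mackey L ha
  have heT : e ∈ Fix (cj k G) ⊤ := by rw [hea]; exact tr_mem_Fix ha
  have hec : ∀ y : MonoidAlgebra k G, y * e = e * y := fun y => commute_of_mem (SubAlg_top y) heT
  let P : Fin m → Subgroup G := fun i => L ⊓ conjS (x i) Q
  let y : Fin m → MonoidAlgebra k G := fun i => f * resS L (cj k G (x i) a)
  have hPL : ∀ i, P i ≤ L := fun i => inf_le_left
  have hfL : f ∈ SubAlg k L := hf.mem.1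
  have hfF : f ∈ Fix (cj k G) L := hf.mem.2
  have hyF : ∀ i, y i ∈ Fix (cj k G) (P i) := by
    intro i
    refine Subalgebra.mul_mem _ (Fix_mono _ (hPL i) hfF) (resS_mem_Fix (hPL i) ?_)
    refine conj_mem_Fix ha (x i) ?_
    intro h hh
    exact mem_conjS.mp hh.2
  have hyS : ∀ i, y i ∈ SubAlg k L := fun i => Subalgebra.mul_mem _ hfL (resS_mem L _)
  have hfy : ∀ i, f * y i = y i := by
    intro i
    change f * (f * _) = _
    rw [← mul_assoc, hf.idem.eq]
  have hsum : f * resS L e = ∑ i, tr (cj k G) (P i) L (y i) := by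
    rw [hea, hx, map_sum, Finset.mul_sum]
    refine Finset.sum_congr rfl fun i _ => ?_
    rw [resS_tr]
    exact mul_tr hfF _
  have htZ : ∀ i, tr (cj k G) (P i) L (y i) ∈ ZAlg k L := by
    intro i
    refine ⟨?_, tr_mem_Fix (hyF i)⟩
    let _ := Fintype.ofFinite (L ⧸ (P i).subgroupOf L)
    rw [tr_def]
    refine Subalgebra.sum_mem _ fun q _ => ?_
    exact SuppIn.conj (hyS i) _ fun s hs => L.mul_mem (L.mul_mem q.out.2 hs) (L.inv_mem q.out.2)
  have htf : ∀ i, tr (cj k G) (P i) L (y i) * f = tr (cj k G) (P i) L (y i) := by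
    intro i
    rw [ZAlg_comm _ (htZ i) _ hf.mem, mul_tr hfF, hfy]
  -- one of the terms is invertible
  have hex : ∃ i, ∃ w ∈ ZAlg k L, tr (cj k G) (P i) L (y i) * w = f := by
    by_contra hcon
    push Not at hcon
    have hnil : ∀ i, IsNilpotent (tr (cj k G) (P i) L (y i)) := by
      intro i
      rcases hf.dichotomy ZAlg_comm (htZ i) (htf i) with h | ⟨w, hw, _, hzw⟩
      · exact h
      · exact absurd hzw (hcon i w hw)
    obtain ⟨-, n, hn⟩ := nilp_sum (N := L) Finset.univ
      (fun i => tr (cj k G) (P i) L (y i)) (fun i _ => ⟨htZ i, hnil i⟩)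
    rw [← hsum] at hn
    have hfQ : f ∈ Fix (cj k G) Q := Fix_mono _ hQL hfF
    have heQ : e ∈ Fix (cj k G) Q := Fix_mono _ le_top heT
    have hreQ : resS L e ∈ Fix (cj k G) Q := resS_mem_Fix hQL heQ
    have h1 : br Q (f * resS L e) = br Q (f * e) := by
      rw [br_mul hQ hfQ hreQ, br_resS hC, ← br_mul hQ hfQ heQ]
    have hpow : ∀ m : ℕ, br Q ((f * resS L e) ^ m) = (br Q (f * e)) ^ m := by
      intro m
      induction m with
      | zero => rw [pow_zero, pow_zero]; exact br_one Q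
      | succ m ih =>
        rw [pow_succ, pow_succ, br_mul hQ (Subalgebra.pow_mem _
          (Subalgebra.mul_mem _ hfQ hreQ) m) (Subalgebra.mul_mem _ hfQ hreQ), ih, h1]
    have hidem : (f * e) * (f * e) = f * e := by
      rw [mul_assoc, ← mul_assoc e f, ← hec f, mul_assoc f e e, hee, ← mul_assoc, hf.idem.eq]
    have hbi : br Q (f * e) * br Q (f * e) = br Q (f * e) := by
      rw [← br_mul hQ (Subalgebra.mul_mem _ hfQ heQ) (Subalgebra.mul_mem _ hfQ heQ), hidem]
    have h2 : ∀ m : ℕ, (br Q (f * e)) ^ (m + 1) = br Q (f * e) := by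
      intro m
      induction m with
      | zero => rw [zero_add, pow_one]
      | succ m ih => rw [pow_succ, ih, hbi]
    apply hne
    rw [← br_mul hQ heQ hfQ, ← hec, ← h2 n, ← hpow, pow_succ, hn, zero_mul]
    exact br_zero Q
  obtain ⟨i, w, hw, hzw⟩ := hex
  have hbrf : br Q f ≠ 0 := fun h => hne (by rw [h, mul_zero])
  refine tr_move (P := P i) (hPL i) hQL hQ ?_ hfF
    (z := y i * w) (Subalgebra.mul_mem _ (hyS i) hw.1) ?_ ?_ hbrf
  · have h4 : Nat.card (conjS (x i) Q) = Nat.card Q :=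
      Subgroup.card_map_of_injective (MulAut.conj (x i)).injective
    rw [← h4]
    exact Nat.card_le_card_of_injective _ (Subgroup.inclusion_injective (inf_le_right :
      P i ≤ conjS (x i) Q))
  · exact Subalgebra.mul_mem _ (hyF i) (Fix_mono _ (hPL i) hw.2)
  · rw [← tr_mul hw.2, hzw]

end

end Vale.Agent.P180.R2.H471.Hc
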