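import Vale.Agent.P180.R2.H954.CycCor
import Vale.Agent.P180.R2.H365.Src
import Vale.Agent.P180.R2.H365.LocC
import Vale.Agent.P180.R2.H589.Cov.Qt
import Vale.Agent.P180.R2.H799.BNQ

/-! The corner property from one idempotent of the block of a factor; central quotients. -/

set_option linter.all false

namespace Vale.Agent.P180.R2.H471.Hc

open Subgroup Vale.Agent.P180 Vale.Agent.P180.H768.Gd Vale.Agent.P180.R2.H365
  Vale.Agent.P180.R2.H799 Vale.Agent.P180.R2.H954 Vale.Agent.P180.R2.H12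

universe u

/-- Each block of `kH` which is a relative trace from `Q` and is not killed by the Brauer
homomorphism has an idempotent fixed by `Q`, not killed by the Brauer homomorphism, with a corner
of dimension at most `C`. -/
def OneBd (k : Type u) [Field k] {H : Type} [Group H] [Finite H] (Q : Subgroup H) (C : ℕ) :
    Prop :=
  ∀ e a : MonoidAlgebra k H, IsBlockOf (⊤ : Subgroup H) e → a ∈ Fix (cj k H) Q →
    e = tr (cj k H) Q ⊤ a → br Q e ≠ 0 →
    ∃ i ∈ Fix (cj k H) Q, i * i = i ∧ e * i = i ∧ br Q i ≠ 0 ∧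
      Module.finrank k (NN (⊤ : Subalgebra k (MonoidAlgebra k H)) i i) ≤ C

section

variable {k : Type u} [Field k] {p : ℕ} [Fact p.Prime] [CharP k p]

/-- the corner property from one idempotent, inner action -/
theorem cor_of_one {G : Type} [Group G] [Finite G] {S R : Subgroup G} (hR : IsPGroup p R)
    (hn : ∀ x ∈ R, ∀ s ∈ S, x * s * x⁻¹ ∈ S)
    (hin : ∀ r ∈ R, ∃ s ∈ S, ∃ c ∈ Subgroup.centralizer (S : Set G), r = s * c)
    {e z : MonoidAlgebra k G} (he : IsBlockOf S e) (heR : e ∈ Fix (cj k G) R)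
    (hbr : br R e ≠ 0) (hz : z ∈ SubAlg k S)
    (hzF : z ∈ Fix (cj k G) (S ⊓ R)) (hez : e = tr (cj k G) (S ⊓ R) S z)
    (hez' : ∃ z ∈ SubAlg k S, z ∈ Fix (cj k G) R ∧ e = tr (cj k G) R (S ⊔ R) z) {C : ℕ}
    (hCB : OneBd k (R.subgroupOf S) C) : Cor C S R e := by
  classical
  obtain ⟨c, hc, hec⟩ := exists_coeff_of_br hbr
  have hcS : c ∈ S := he.mem.1 c hec
  have hinn := inner_of_coeff hR hin hzF hez hcS hc hec
  have heS : e ∈ SubAlg k S := he.mem.1
  obtain ⟨e', hee'⟩ := exists_incl S he.mem.1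
  obtain ⟨z', hzz'⟩ := exists_incl S hz
  set Q : Subgroup S := R.subgroupOf S with hQ
  have hmap : Q.map S.subtype = S ⊓ R := by
    rw [hQ, Subgroup.subgroupOf_map_subtype, inf_comm]
  have hz'F : z' ∈ Fix (cj k S) Q := by
    rw [← incl_mem_Fix_iff, hmap, hzz']; exact hzF
  have he' : IsBlockOf (⊤ : Subgroup S) e' := by
    unfold IsBlockOf
    rw [ZAlg_top]
    exact (isBlockOf_incl_iff S e').mp (by rw [hee']; exact he)
  have he'z : e' = tr (cj k S) Q ⊤ z' := by
    apply incl_injective (k := k) S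
    rw [incl_tr S Q hz'F, hmap, hee', hzz']
    exact hez
  have hbr' : br Q e' ≠ 0 := by
    refine br_ne_zero_of_coeff (c := ⟨c, hcS⟩) ?_ ?_
    · intro r hr
      apply Subtype.ext
      exact hc r hr
    · rw [← H799.incl_coeff, hee']
      exact hec
  obtain ⟨i, hiF, hii, hei, hbi, hdim⟩ := hCB e' z' he' hz'F he'z hbr'
  -- the elements of `kS` fixed by `Q` are fixed by `R`
  have hfixR : ∀ a : MonoidAlgebra k S, a ∈ Fix (cj k S) Q → incl k S a ∈ Fix (cj k G) R := by
    intro a ha r hr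
    obtain ⟨q, hq, hrq⟩ := hinn r hr
    have h1 : cj k G r (incl k S a) = cj k G q (incl k S a) := by
      refine SuppIn.induction (P := fun x => cj k G r x = cj k G q x) (incl_mem S a)
        (by rw [map_zero, map_zero]) ?_ ?_
      · intro x y hx hy; rw [map_add, map_add, hx, hy]
      · intro x hx c
        rw [map_smul, map_smul, cj_single, cj_single, hrq x hx]
    rw [h1]
    have h2 : incl k S a ∈ Fix (cj k G) (S ⊓ R) := by
      rw [← hmap, incl_mem_Fix_iff]; exact ha
    exact h2 q hq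
  refine H365.Src.cor_of_source hR hn he heR hez' (i := incl k S i) (incl_mem S i) (hfixR i hiF)
    (by rw [← map_mul, hii]) (by rw [← hee', ← map_mul, hei]) ?_ ?_
  · obtain ⟨d, hd, hid⟩ := exists_coeff_of_br hbi
    refine br_ne_zero_of_coeff (c := (d : G)) ?_ ?_
    · intro r hr
      obtain ⟨q, hq, hrq⟩ := hinn r hr
      rw [hrq (d : G) d.2]
      have h1 := hd ⟨q, hq.1⟩ hq.2
      exact congrArg Subtype.val h1
    · rw [H799.incl_coeff]
      exact hid
  · have h1 := finrank_NN_hom (k := k) (φ := S.subtype) S.subtype_injective i i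
    rw [Subgroup.range_subtype] at h1
    have h2 : Module.finrank k (NN (SubAlg k S) (incl k S i) (incl k S i)) =
      Module.finrank k (NN (⊤ : Subalgebra k (MonoidAlgebra k S)) i i) := h1
    rw [h2]
    exact hdim

/-- The corner property of components from `OneBd`, if `N_D(L)` acts by inner automorphisms. -/
theorem corP_of_one {G : Type} [Group G] [Finite G] {D L : Subgroup G} (hD : IsPGroup p D)
    (hin : D ⊓ Subgroup.normalizer (L : Set G) ≤ L ⊔ Subgroup.centralizer (L : Set G)) {C : ℕ}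
    (hB : ∀ Q : Subgroup L, Q ≤ D.subgroupOf L → OneBd k Q C) (b : MonoidAlgebra k G) :
    CorP p C b D L := by
  rintro R hRD hn e he heR hbr ⟨z, hz, hzF, hez⟩ hez'
  have hR : IsPGroup p R := hD.to_le hRD
  have hin' : ∀ r ∈ R, ∃ s ∈ L, ∃ c ∈ Subgroup.centralizer (L : Set G), r = s * c := by
    intro r hr
    have h1 : r ∈ L ⊔ Subgroup.centralizer (L : Set G) := by
      refine hin (Subgroup.mem_inf.mpr ⟨hRD hr, ?_⟩)
      rw [Subgroup.mem_normalizer_iff]
      intro s
      constructor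
      · exact hn r hr s
      · intro hs
        have := hn r⁻¹ (R.inv_mem hr) _ hs
        simpa [mul_assoc] using this
    obtain ⟨s, hs, c, hc, h⟩ := mem_sup_of_commute
      (fun s hs c hc => Subgroup.mem_centralizer_iff.mp hc s hs) h1
    exact ⟨s, hs, c, hc, h.symm⟩
  exact cor_of_one hR hn hin' he.block heR hbr hz hzF hez hez' (hB _ fun x hx => hRD hx)

end

section Quot

open Vale.Agent.P180.R2.H589

variable {k : Type u} [Field k] {p : ℕ} [Fact p.Prime] [CharP k p]
variable {S L : Type} [Group S] [Finite S] [Group L] [Finite L]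

/-- `OneBd` passes to central quotients of order prime to `p`. -/
theorem oneBd_quot {q : S →* L} (hq : Function.Surjective q)
    (hc : ∀ x, q x = 1 → ∀ g, x * g = g * x) (hp : ¬ p ∣ Nat.card q.ker) {Q' : Subgroup S}
    (hQ' : IsPGroup p Q') {C : ℕ} (h : OneBd k Q' C) : OneBd k (Q'.map q) C := by
  classical
  have hp' : (Nat.card q.ker : k) ≠ 0 := fun h0 => hp ((CharP.cast_eq_zero_iff k p _).mp h0)
  intro e a he ha hea hbr
  -- the block of `kS`
  have h0 : IsBlockOf (⊤ : Subgroup S) (sq q e) := by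
    refine ⟨⟨SubAlg_top _, ?_⟩, ?_, ?_, ?_⟩
    · intro g _
      rw [sq_cj, he.mem.2 (q g) trivial]
    · change sq q e * sq q e = _
      rw [← sq_mul hp' hq, he.idem.eq]
    · intro h1
      apply he.ne_zero
      rw [← tm_sq hp' hq e, h1, map_zero]
    · intro c hcZ hcc hce
      have h1 : sq q 1 * c = c := by
        conv_lhs => rw [← hce]
        rw [← mul_assoc, sq_one_comm, mul_assoc, one_sq_mul hp' hq, hce]
      have h2 : sq q (tm (RingHom.id k) q c) = c := by rw [sq_tm, h1]
      have h3 : tm (RingHom.id k) q c ∈ ZAlg k (⊤ : Subgroup L) := by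
        refine ⟨SubAlg_top _, ?_⟩
        intro x _
        obtain ⟨g, rfl⟩ := hq x
        rw [← tm_cj, hcZ.2 g trivial]
      rcases he.primitive _ h3
        (by
          change tm (RingHom.id k) q c * tm (RingHom.id k) q c = _
          rw [← map_mul, hcc.eq])
        (by
          conv_lhs => rw [← tm_sq hp' hq e]
          rw [← map_mul, hce]) with h4 | h4
      · left
        rw [← h2, h4, sq_zero]
      · right
        rw [← h2, h4]
  -- the relative trace
  have hkQ : ∀ x ∈ (Q'.map q).comap q, ∃ y ∈ Q', ∃ z, q z = 1 ∧ x = y * z := by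
    rintro x ⟨y, hy, hxy⟩
    refine ⟨y, hy, y⁻¹ * x, ?_, by group⟩
    rw [map_mul, map_inv, hxy, inv_mul_cancel]
  set T : Subgroup S := (Q'.map q).comap q with hT
  have hQT : Q' ≤ T := Subgroup.le_comap_map q Q'
  have haT : sq q a ∈ Fix (cj k S) T := by
    intro x hx
    rw [sq_cj, ha (q x) hx]
  have htrT : sq q e = tr (cj k S) T ⊤ (sq q a) := by
    have _ := Fintype.ofFinite (L ⧸ Q'.map q)
    have hlin : ∀ f : (L ⧸ Q'.map q) → MonoidAlgebra k L, sq q (∑ i, f i) = ∑ i, sq q (f i) := by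
      intro f
      let Φ : MonoidAlgebra k L →ₗ[k] MonoidAlgebra k S :=
        { toFun := sq q, map_add' := sq_add, map_smul' := sq_smul }
      exact map_sum Φ f Finset.univ
    choose s hs using hq
    conv_lhs => rw [hea, tr_top_eq_sum ha, hlin]
    rw [tr_eq_sum' (ι := L ⧸ Q'.map q) haT (fun i => s i.out) (fun _ => Subgroup.mem_top _)]
    · refine Finset.sum_congr rfl fun i _ => ?_
      rw [sq_cj, hs]
    · intro i j hij
      rw [hT, Subgroup.mem_comap, map_mul, map_inv, hs, hs] at hij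
      rw [← QuotientGroup.out_eq' i, ← QuotientGroup.out_eq' j, QuotientGroup.eq]
      exact hij
    · intro x _
      refine ⟨((q x : L) : L ⧸ Q'.map q), ?_⟩
      rw [hT, Subgroup.mem_comap, map_mul, map_inv, hs, ← QuotientGroup.eq, QuotientGroup.out_eq']
  have hidx : ((Nat.card (T ⧸ Q'.subgroupOf T) : ℕ) : k) ≠ 0 := by
    intro h0
    have h1 : p ∣ Nat.card (T ⧸ Q'.subgroupOf T) := (CharP.cast_eq_zero_iff k p _).mp h0
    apply hp
    refine h1.trans ?_
    -- the kernel maps onto the quotient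
    have hkT : q.ker ≤ T := fun x hx => by
      rw [hT, Subgroup.mem_comap, MonoidHom.mem_ker.mp hx]
      exact Subgroup.one_mem _
    have hnorm : (Q'.subgroupOf T).Normal := by
      constructor
      intro y hy g
      obtain ⟨y', hy', z, hz, hg⟩ := hkQ g.1 g.2
      rw [Subgroup.mem_subgroupOf] at hy ⊢
      change (g : S) * (y : S) * (g : S)⁻¹ ∈ Q'
      rw [hg]
      have h2 : y' * z * (y : S) * (y' * z)⁻¹ = y' * y * y'⁻¹ := by
        have h3 := hc z hz (y : S)
        calc y' * z * (y : S) * (y' * z)⁻¹ = y' * (z * y) * z⁻¹ * y'⁻¹ := by group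
          _ = y' * (y * z) * z⁻¹ * y'⁻¹ := by rw [h3]
          _ = y' * y * y'⁻¹ := by group
      rw [h2]
      exact Q'.mul_mem (Q'.mul_mem hy' hy) (Q'.inv_mem hy')
    let φ : q.ker →* T ⧸ Q'.subgroupOf T :=
      (QuotientGroup.mk' (Q'.subgroupOf T)).comp (Subgroup.inclusion hkT)
    have hφ : Function.Surjective φ := by
      intro x
      obtain ⟨g, rfl⟩ := QuotientGroup.mk_surjective x
      obtain ⟨y', hy', z, hz, hg⟩ := hkQ g.1 g.2
      refine ⟨⟨z, hz⟩, ?_⟩
      change ((⟨z, _⟩ : T) : T ⧸ Q'.subgroupOf T) = (g : T ⧸ Q'.subgroupOf T)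
      rw [QuotientGroup.eq, Subgroup.mem_subgroupOf]
      change z⁻¹ * (g : S) ∈ Q'
      have h3 := hc z hz (z⁻¹ * y')
      have h4 : z⁻¹ * (g : S) = y' := by
        rw [hg]
        calc z⁻¹ * (y' * z) = z⁻¹ * y' * z := by group
          _ = z * (z⁻¹ * y') := h3.symm
          _ = y' := by group
      rw [h4]
      exact hy'
    exact Subgroup.card_dvd_of_surjective φ hφ
  have htr : sq q e = tr (cj k S) Q' ⊤
      (((Nat.card (T ⧸ Q'.subgroupOf T) : ℕ) : k)⁻¹ • sq q a) := by
    have h1 : ((Nat.card (T ⧸ Q'.subgroupOf T) : ℕ) : k)⁻¹ • sq q a ∈ Fix (cj k S) Q' :=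
      Subalgebra.smul_mem _ (Fix_mono _ hQT haT) _
    rw [← tr_tr h1 hQT le_top, htrT]
    congr 1
    have _ := Fintype.ofFinite (T ⧸ Q'.subgroupOf T)
    rw [tr_def]
    have h2 : ∀ x : T ⧸ Q'.subgroupOf T, cj k S ((x.out : T) : S)
        (((Nat.card (T ⧸ Q'.subgroupOf T) : ℕ) : k)⁻¹ • sq q a) =
        ((Nat.card (T ⧸ Q'.subgroupOf T) : ℕ) : k)⁻¹ • sq q a := by
      intro x
      rw [map_smul, haT _ (x.out : T).2]
    rw [Finset.sum_congr rfl fun x _ => h2 x, Finset.sum_const, Finset.card_univ,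
      ← Nat.card_eq_fintype_card, ← Nat.cast_smul_eq_nsmul k, smul_smul, mul_inv_cancel₀ hidx,
      one_smul]
  have hbr' : br Q' (sq q e) ≠ 0 := by
    rw [br_sq hp' hc hQ']
    intro h1
    apply hbr
    rw [← tm_sq hp' hq (br (Q'.map q) e), h1, map_zero]
  obtain ⟨i, hiF, hii, hei, hbi, hdim⟩ := h (sq q e) _ h0
    (Subalgebra.smul_mem _ (Fix_mono _ hQT haT) _) htr hbr'
  have h1i : sq q 1 * i = i := by
    conv_lhs => rw [← hei]
    rw [← mul_assoc, one_sq_mul hp' hq, hei]
  have hsi : sq q (tm (RingHom.id k) q i) = i := by rw [sq_tm, h1i]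
  refine ⟨tm (RingHom.id k) q i, ?_, ?_, ?_, ?_, ?_⟩
  · rintro _ ⟨x, hx, rfl⟩
    rw [← tm_cj, hiF x hx]
  · rw [← map_mul, hii]
  · conv_lhs => rw [← tm_sq hp' hq e]
    rw [← map_mul, hei]
  · intro h1
    apply hbi
    rw [← hsi, br_sq hp' hc hQ', h1, sq_zero]
  · refine le_trans ?_ hdim
    have hfin : FiniteDimensional k (MonoidAlgebra k S) :=
      Module.Finite.equiv (MonoidAlgebra.coeffLinearEquiv k (M := S) (S := k)).symm
    have hL : ∀ x, tm (RingHom.id k) q i * x = x → i * sq q x = sq q x := by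
      intro x hx
      conv_lhs => rw [← hsi]
      rw [← sq_mul hp' hq, hx]
    have hR : ∀ x, x * tm (RingHom.id k) q i = x → sq q x * i = sq q x := by
      intro x hx
      conv_lhs => rw [← hsi]
      rw [← sq_mul hp' hq, hx]
    let Φ : NN (⊤ : Subalgebra k (MonoidAlgebra k L)) (tm (RingHom.id k) q i)
        (tm (RingHom.id k) q i) →ₗ[k] NN (⊤ : Subalgebra k (MonoidAlgebra k S)) i i :=
      { toFun := fun x => ⟨sq q x.1, Algebra.mem_top, hL x.1 x.2.2.1, hR x.1 x.2.2.2⟩
        map_add' := fun x y => Subtype.ext (sq_add _ _)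
        map_smul' := fun c x => Subtype.ext (sq_smul _ _) }
    refine LinearMap.finrank_le_finrank_of_injective (f := Φ) ?_
    intro x y hxy
    apply Subtype.ext
    exact sq_injective hp' hq (congrArg Subtype.val hxy)

end Quot

end Vale.Agent.P180.R2.H471.Hc
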