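import Vale.Agent.P180.R2.H471.He3
import Vale.Agent.P180.R2.H365.LocC
import Vale.Agent.P180.R2.H259.Cyc.Final

/-! `p`-groups acting on a subgroup through a cyclic group. -/

set_option linter.all false

namespace Vale.Agent.P180.R2.H471.He

open Subgroup Vale.Agent.P180 Vale.Agent.P180.H768.Gd Vale.Agent.P180.R2.H365
  Vale.Agent.P180.R2.H799 Vale.Agent.P180.R2.H954 Vale.Agent.P180.R2.H12
  Vale.Agent.P180.R2.H259.Cyc

universe u

/-- `Q` acts on `A` through a cyclic group which contains the image of `Q ∩ A`: there are an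
injective homomorphism `ψ` of `A` and a homomorphism `ρ` of `Q` with cyclic image to the same group,
which agree on `Q ∩ A` and which are compatible with the action of `Q` on `A`. -/
def CycOn {G : Type} [Group G] (Q A : Subgroup G) : Prop :=
  ∃ (H : Type) (_ : Group H) (ψ : A →* H) (ρ : Q →* H), Function.Injective ψ ∧
    IsCyclic ρ.range ∧
    (∀ (r : Q) (s s' : A), (s' : G) = r * s * (r : G)⁻¹ → ψ s' = ρ r * ψ s * (ρ r)⁻¹) ∧
    ∀ (x : G) (hA : x ∈ A) (hQ : x ∈ Q), ψ ⟨x, hA⟩ = ρ ⟨x, hQ⟩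

theorem CycOn.comap {G G' : Type} [Group G] [Group G'] {Q A : Subgroup G} (h : CycOn Q A)
    {φ : G' →* G} (hφ : Function.Injective φ) {Q' A' : Subgroup G'} (hQ : Q' ≤ Q.comap φ)
    (hA : A' ≤ A.comap φ) : CycOn Q' A' := by
  obtain ⟨H, _, ψ, ρ, h1, h2, h3, h4⟩ := h
  let α : A' →* A := (φ.comp A'.subtype).codRestrict A fun x => hA x.2
  let β : Q' →* Q := (φ.comp Q'.subtype).codRestrict Q fun x => hQ x.2
  refine ⟨H, inferInstance, ψ.comp α, ρ.comp β, ?_, ?_, ?_, ?_⟩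
  · refine h1.comp ?_
    intro x y hxy
    exact Subtype.ext (hφ (congrArg Subtype.val hxy))
  · have hle : (ρ.comp β).range ≤ ρ.range := by
      rintro _ ⟨x, rfl⟩
      exact ⟨β x, rfl⟩
    exact isCyclic_of_injective (Subgroup.inclusion hle) (Subgroup.inclusion_injective hle)
  · intro r s s' hs
    refine h3 (β r) (α s) (α s') ?_
    change φ (s' : G') = φ r * φ s * (φ r)⁻¹
    rw [hs, map_mul, map_mul, map_inv]
  · intro x hxA hxQ
    exact h4 (φ x) (hA hxA) (hQ hxQ)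

section

variable {k : Type u} [Field k] [IsAlgClosed k] {p : ℕ} [Fact p.Prime] [CharP k p]

theorem cor_of_cycOn {G : Type} [Group G] [Finite G] {S R : Subgroup G} (hR : IsPGroup p R)
    (h : CycOn R S) (hn : ∀ x ∈ R, ∀ s ∈ S, x * s * x⁻¹ ∈ S) {e : MonoidAlgebra k G}
    (he : IsBlockOf S e) (heR : e ∈ Fix (cj k G) R) (hbr : br R e ≠ 0)
    (hz1 : ∃ z ∈ SubAlg k S, z ∈ Fix (cj k G) (S ⊓ R) ∧ e = tr (cj k G) (S ⊓ R) S z)
    (hz2 : ∃ z ∈ SubAlg k S, z ∈ Fix (cj k G) R ∧ e = tr (cj k G) R (S ⊔ R) z) :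
    Cor (cycB p (Nat.card R)) S R e := by
  obtain ⟨H, _, ψ, ρ, h1, h2, h3, h4⟩ := h
  have h5 : Cor (cycB p (Nat.card ρ.range)) S R e :=
    cor_of_cyc hR hn he heR hbr hz1 hz2 h1 h2 h3 h4
  have h6 : Nat.card ρ.range ≤ Nat.card R :=
    Nat.card_le_card_of_surjective _ ρ.rangeRestrict_surjective
  obtain ⟨m, f, hf, hsp⟩ := h5
  exact ⟨m, f, fun l => ⟨(hf l).1, (hf l).2.1, (hf l).2.2.1,
    (hf l).2.2.2.trans (cycB_mono h6)⟩, hsp⟩

/-- **The corner property** of a subgroup `L` on which `N_D(L)` acts through a cyclic group. -/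
theorem corP_cycOn {n : ℕ} {G : Type} [Group G] [Finite G] {D L : Subgroup G}
    (hD : IsPGroup p D) (hDn : Nat.card D ≤ n)
    (h : CycOn (D ⊓ Subgroup.normalizer (L : Set G)) L) (b : MonoidAlgebra k G) :
    H365.CorP p (cycB p n) b D L := by
  intro R hRD hn e he heR hbr h1 h2
  have hRN : R ≤ D ⊓ Subgroup.normalizer (L : Set G) := by
    refine le_inf hRD fun r hr => ?_
    rw [Subgroup.mem_normalizer_iff]
    intro s
    constructor
    · exact hn r hr s
    · intro hs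
      have := hn r⁻¹ (R.inv_mem hr) _ hs
      simpa [mul_assoc] using this
  have h3 : CycOn R L := h.comap (φ := MonoidHom.id G) Function.injective_id hRN le_rfl
  obtain ⟨m, f, hf, hsp⟩ := cor_of_cycOn (hD.to_le hRD) h3 hn he.block heR hbr h1 h2
  have h4 : Nat.card R ≤ n :=
    (Nat.card_le_card_of_injective _ (Subgroup.inclusion_injective hRD)).trans hDn
  exact ⟨m, f, fun l => ⟨(hf l).1, (hf l).2.1, (hf l).2.2.1,
    (hf l).2.2.2.trans (cycB_mono h4)⟩, hsp⟩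

end

/-- A criterion: there is a subgroup `M` of `N_D(L)` which centralises `L` and meets `L` trivially
such that `N_D(L)` is generated by `M` and one element. -/
theorem cycOn_of_ker {G : Type} [Group G] {N L M : Subgroup G} (hNL : ∀ x ∈ N, ∀ s ∈ L, x * s * x⁻¹ ∈ L)
    (hNM : ∀ x ∈ N, ∀ m ∈ M, x * m * x⁻¹ ∈ M) (hML : ∀ m ∈ M, ∀ s ∈ L, m * s = s * m)
    (hinf : ∀ x ∈ M, x ∈ L → x = 1) {c : G} (hc : c ∈ N)
    (hN : ∀ x ∈ N, ∃ i : ℤ, ∃ m ∈ M, x = c ^ i * m) (hMN : M ≤ N) : CycOn N L := by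
  classical
  -- the group `L N`
  let T : Subgroup G :=
    { carrier := {x | ∃ s ∈ L, ∃ r ∈ N, x = s * r}
      mul_mem' := by
        rintro _ _ ⟨s, hs, r, hr, rfl⟩ ⟨s', hs', r', hr', rfl⟩
        exact ⟨s * (r * s' * r⁻¹), L.mul_mem hs (hNL r hr s' hs'), r * r', N.mul_mem hr hr',
          by group⟩
      one_mem' := ⟨1, L.one_mem, 1, N.one_mem, by simp⟩
      inv_mem' := by
        rintro _ ⟨s, hs, r, hr, rfl⟩
        refine ⟨r⁻¹ * s⁻¹ * r, ?_, r⁻¹, N.inv_mem hr, by group⟩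
        have := hNL r⁻¹ (N.inv_mem hr) s⁻¹ (L.inv_mem hs)
        simpa using this }
  have hLT : L ≤ T := fun s hs => ⟨s, hs, 1, N.one_mem, by simp⟩
  have hNT : N ≤ T := fun r hr => ⟨1, L.one_mem, r, hr, by simp⟩
  have hnorm : (M.subgroupOf T).Normal := by
    constructor
    rintro ⟨m, hm'⟩ hm ⟨x, s, hs, r, hr, rfl⟩
    rw [Subgroup.mem_subgroupOf] at hm ⊢
    change s * r * m * (s * r)⁻¹ ∈ M
    have h1 : r * m * r⁻¹ ∈ M := hNM r hr m hm
    have h2 : s * r * m * (s * r)⁻¹ = r * m * r⁻¹ := by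
      have h3 := hML _ h1 s hs
      calc s * r * m * (s * r)⁻¹ = (s * (r * m * r⁻¹)) * s⁻¹ := by group
        _ = (r * m * r⁻¹) * s * s⁻¹ := by rw [h3]
        _ = _ := by group
    rw [h2]
    exact h1
  let q : T →* T ⧸ M.subgroupOf T := QuotientGroup.mk' _
  refine ⟨T ⧸ M.subgroupOf T, inferInstance, q.comp (Subgroup.inclusion hLT),
    q.comp (Subgroup.inclusion hNT), ?_, ?_, ?_, ?_⟩
  · rw [injective_iff_map_eq_one]
    intro s hs
    have h1 : (Subgroup.inclusion hLT s) ∈ M.subgroupOf T := by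
      rwa [MonoidHom.comp_apply, QuotientGroup.mk'_apply, QuotientGroup.eq_one_iff] at hs
    exact Subtype.ext (hinf s h1 s.2)
  · have hcy : ∀ x : (q.comp (Subgroup.inclusion hNT)).range, ∃ i : ℤ,
        (⟨q (Subgroup.inclusion hNT ⟨c, hc⟩), ⟨⟨c, hc⟩, rfl⟩⟩ :
          (q.comp (Subgroup.inclusion hNT)).range) ^ i = x := by
      rintro ⟨_, x, rfl⟩
      obtain ⟨i, m, hm, hx⟩ := hN x x.2
      refine ⟨i, Subtype.ext ?_⟩
      have h1 : Subgroup.inclusion hNT x = (Subgroup.inclusion hNT ⟨c, hc⟩) ^ i *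
          Subgroup.inclusion hNT ⟨m, hMN hm⟩ := Subtype.ext hx
      have h2 : q (Subgroup.inclusion hNT ⟨m, hMN hm⟩) = 1 :=
        (QuotientGroup.eq_one_iff _).mpr hm
      change (q (Subgroup.inclusion hNT ⟨c, hc⟩)) ^ i = q (Subgroup.inclusion hNT x)
      rw [h1, map_mul, map_zpow, h2, mul_one]
    exact ⟨⟨_, hcy⟩⟩
  · intro r s s' hs
    have h1 : Subgroup.inclusion hLT s' = Subgroup.inclusion hNT r *
        Subgroup.inclusion hLT s * (Subgroup.inclusion hNT r)⁻¹ := Subtype.ext hs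
    change q _ = q _ * q _ * (q _)⁻¹
    rw [h1, map_mul, map_mul, map_inv]
  · intro x hA hQ
    rfl

end Vale.Agent.P180.R2.H471.He
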