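import Vale.Agent.P180.R2.H259.Cyc.Zero
import Vale.Agent.P180.Bdl.B1

/-! Small corners in a subgroup `L` containing `C_G(Q)` which is, up to a bounded index and central
elements, generated by `Q` and commuting subgroups on which `Q` acts through cyclic groups. -/

set_option linter.all false

namespace Vale.Agent.P180.R2.H471.He

open Vale.Agent.P180 Vale.Agent.P180.H768.Gd

universe u

section Cent

variable {k : Type u} [Field k] {p : ℕ} [Fact p.Prime] [CharP k p]

/-- Central `p`-elements lie in each subgroup `Q` from which a nonzero element is a trace. -/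
theorem mem_of_central {G : Type} [Group G] [Finite G] {Q L : Subgroup G} (hQ : IsPGroup p Q)
    (hQL : Q ≤ L) {f z : MonoidAlgebra k G} (hz : z ∈ SubAlg k L) (hzF : z ∈ Fix (cj k G) Q)
    (hf : f = tr (cj k G) Q L z) (hf0 : f ≠ 0) {x : G} (hx : x ∈ L)
    (hxc : ∀ g ∈ L, x * g = g * x) {m : ℕ} (hxm : x ^ p ^ m = 1) : x ∈ Q := by
  classical
  by_contra hxQ
  apply hf0
  set T : Subgroup G := Q ⊔ Subgroup.zpowers x with hT
  have hQT : Q ≤ T := le_sup_left
  have hxT : x ∈ T := Subgroup.mem_sup_right (Subgroup.mem_zpowers x)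
  have hxzL : Subgroup.zpowers x ≤ L := by
    rw [Subgroup.zpowers_le]; exact hx
  have hTL : T ≤ L := sup_le hQL hxzL
  have hxp : IsPGroup p (Subgroup.zpowers x) := by
    rintro ⟨_, i, rfl⟩
    refine ⟨m, Subtype.ext ?_⟩
    change (x ^ i) ^ p ^ m = 1
    rw [← zpow_natCast, ← zpow_mul, mul_comm, zpow_mul, zpow_natCast, hxm, one_zpow]
  have hTp : IsPGroup p T := by
    refine IsPGroup.to_sup_of_normal_right' hQ hxp ?_
    intro q hq
    rw [Subgroup.mem_normalizer_iff]
    intro y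
    have h1 : ∀ y : G, ∀ i : ℤ, x ^ i = y → q * y * q⁻¹ = y := by
      rintro y i rfl
      have h2 : Commute x q := hxc q (hQL hq)
      rw [← (h2.zpow_left i).eq, mul_inv_cancel_right]
    constructor
    · rintro ⟨i, hi⟩
      rw [h1 y i hi]
      exact ⟨i, hi⟩
    · rintro ⟨i, hi⟩
      refine ⟨i, ?_⟩
      have h2 : Commute x q := hxc q (hQL hq)
      have h3 : q * x ^ i * q⁻¹ = x ^ i := h1 _ i rfl
      change x ^ i = q * y * q⁻¹ at hi
      rw [hi] at h3
      have h4 : q * (q * y * q⁻¹) * q⁻¹ = q * y * q⁻¹ := h3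
      have h5 : q * y * q⁻¹ = y := mul_left_cancel (mul_right_cancel h4)
      change x ^ i = y
      rw [hi, h5]
  have hzT : z ∈ Fix (cj k G) T := by
    have h1 : T ≤ stabE z := by
      refine sup_le (fun q hq => mem_stabE.mpr (hzF q hq)) ?_
      rw [Subgroup.zpowers_le, mem_stabE]
      refine SuppIn.induction (P := fun z => cj k G x z = z) hz (map_zero _) ?_ ?_
      · intro u v hu hv; rw [map_add, hu, hv]
      · intro g hg c
        rw [map_smul, cj_single, hxc g hg, mul_inv_cancel_right]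
    exact fun t ht => mem_stabE.mp (h1 ht)
  have hidx : p ∣ Nat.card (T ⧸ Q.subgroupOf T) := by
    obtain ⟨l, hl⟩ := hTp.index (Q.subgroupOf T)
    rw [Subgroup.index] at hl
    rw [hl]
    refine dvd_pow_self p ?_
    rintro rfl
    rw [pow_zero] at hl
    apply hxQ
    have h3 : Q.subgroupOf T = ⊤ := Subgroup.index_eq_one.mp hl
    have h4 : (⟨x, hxT⟩ : T) ∈ Q.subgroupOf T := by rw [h3]; trivial
    exact Subgroup.mem_subgroupOf.mp h4
  have h1 : tr (cj k G) Q T z = 0 := by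
    have _ := Fintype.ofFinite (T ⧸ Q.subgroupOf T)
    rw [tr_def]
    have h2 : ∀ q : T ⧸ Q.subgroupOf T, cj k G ((q.out : T) : G) z = z := fun q =>
      hzT _ (q.out : T).2
    rw [Finset.sum_congr rfl fun q _ => h2 q, Finset.sum_const, Finset.card_univ,
      ← Nat.card_eq_fintype_card, ← Nat.cast_smul_eq_nsmul k, (CharP.cast_eq_zero_iff k p _).mpr hidx,
      zero_smul]
  rw [hf, ← tr_tr hzF hQT hTL, h1]
  have _ := Fintype.ofFinite (L ⧸ T.subgroupOf L)
  rw [tr_def]
  exact Finset.sum_eq_zero fun q _ => map_zero _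

/-- The `p'`-part of a central subgroup. -/
theorem exists_pprime {G : Type} [Group G] [Finite G] {Z L : Subgroup G}
    (hZL : Z ≤ L) (hZc : ∀ z ∈ Z, ∀ g ∈ L, z * g = g * z) (p : ℕ) [Fact p.Prime] :
    ∃ Z' ≤ Z, ¬ p ∣ Nat.card Z' ∧ ∀ z ∈ Z, ∃ u ∈ Z', ∃ v ∈ Z, (∃ m : ℕ, v ^ p ^ m = 1) ∧
      z = u * v := by
  classical
  have hp : p.Prime := Fact.out
  obtain ⟨a, m, hpm, hcard⟩ := Nat.exists_eq_pow_mul_and_not_dvd (Nat.card_pos (α := Z)).ne' p
    hp.ne_one
  let Z' : Subgroup G :=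
    { carrier := {z | z ∈ Z ∧ z ^ m = 1}
      mul_mem' := by
        rintro x y ⟨hx, hx'⟩ ⟨hy, hy'⟩
        refine ⟨Z.mul_mem hx hy, ?_⟩
        have h1 : Commute x y := hZc x hx y (hZL hy)
        rw [h1.mul_pow, hx', hy', one_mul]
      one_mem' := ⟨Z.one_mem, one_pow _⟩
      inv_mem' := by
        rintro x ⟨hx, hx'⟩
        exact ⟨Z.inv_mem hx, by rw [inv_pow, hx', inv_one]⟩ }
  have hZ' : ∀ z, z ∈ Z' ↔ z ∈ Z ∧ z ^ m = 1 := fun _ => Iff.rfl
  refine ⟨Z', fun z hz => hz.1, ?_, ?_⟩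
  · intro hd
    obtain ⟨x, hx⟩ := exists_prime_orderOf_dvd_card' p hd
    apply hpm
    rw [← hx, ← orderOf_injective Z'.subtype Z'.subtype_injective x]
    exact orderOf_dvd_of_pow_eq_one ((hZ' _).mp x.2).2
  · intro z hz
    have hcop : Nat.Coprime (p ^ a) m :=
      Nat.Coprime.pow_left a ((Nat.Prime.coprime_iff_not_dvd hp).mpr hpm)
    have hz1 : z ^ Nat.card Z = 1 := by
      have h1 : (⟨z, hz⟩ : Z) ^ Nat.card Z = 1 := pow_card_eq_one'
      exact congrArg Subtype.val h1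
    have hbez := Nat.gcd_eq_gcd_ab (p ^ a) m
    rw [hcop.gcd_eq_one] at hbez
    set s := (p ^ a).gcdA m
    set t := (p ^ a).gcdB m
    refine ⟨z ^ ((p ^ a : ℤ) * s), ⟨Z.zpow_mem hz _, ?_⟩, z ^ ((m : ℤ) * t),
      Z.zpow_mem hz _, ⟨a, ?_⟩, ?_⟩
    · have h1 : (z ^ ((p ^ a : ℤ) * s)) ^ m = (z ^ Nat.card Z) ^ s := by
        rw [← zpow_natCast, ← zpow_natCast, ← zpow_mul, ← zpow_mul, hcard]
        congr 1
        push_cast
        ring
      rw [h1, hz1, one_zpow]
    · have h1 : (z ^ ((m : ℤ) * t)) ^ p ^ a = (z ^ Nat.card Z) ^ t := by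
        rw [← zpow_natCast, ← zpow_natCast, ← zpow_mul, ← zpow_mul, hcard]
        congr 1
        push_cast
        ring
      rw [h1, hz1, one_zpow]
    · rw [← zpow_add]
      have h1 : (p ^ a : ℤ) * s + (m : ℤ) * t = 1 := by
        have := hbez.symm
        push_cast at this
        exact this
      rw [h1, zpow_one]

end Cent

end Vale.Agent.P180.R2.H471.He
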