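import Vale.Agent.P180.R2.H471.He6
import Vale.Agent.P180.R2.H471.He7
import Vale.Agent.P180.R2.H954.Hc4a
import Vale.Agent.P180.R2.H954.Hc4b
import Vale.Agent.P180.R2.H954.U1a

/-! Small corners in a subgroup `L` containing `C_G(Q)` which is, up to a bounded index and central
elements, generated by `Q` and commuting subgroups on which `Q` acts through cyclic groups. -/

set_option linter.all false

namespace Vale.Agent.P180.R2.H471.He

open Vale.Agent.P180 Vale.Agent.P180.H768.Gd Vale.Agent.P180.R2.H799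
  Vale.Agent.P180.R2.H12 Vale.Agent.P180.R2.H47 Vale.Agent.P180.R2.H954
  Vale.Agent.P180.R2.H954.Hc
open Vale.Agent.P180.R2.H259.Cyc (cycB cycB_mono)

universe u

section

variable {k : Type u} [Field k] [IsAlgClosed k] {p : ℕ} [Fact p.Prime] [CharP k p]

theorem exists_jr {G : Type} [Group G] [Finite G] {n β r : ℕ} {Q L Z : Subgroup G}
    {A : Fin r → Subgroup G} (hQ : IsPGroup p Q) (hQn : Nat.card Q ≤ n) (hQL : Q ≤ L)
    (hC : Subgroup.centralizer (Q : Set G) ≤ L) (hAL : ∀ j, A j ≤ L)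
    (hAn : ∀ j, ∀ g ∈ L, ∀ h ∈ A j, g * h * g⁻¹ ∈ A j)
    (hcomm : ∀ i j, i ≠ j → ∀ g ∈ A i, ∀ h ∈ A j, g * h = h * g)
    (hinf : ∀ i j, i ≠ j → ∀ g ∈ A i, g ∈ A j → g = 1)
    (hcyc : ∀ j, CycOn Q (A j))
    (hLQ : ∀ g ∈ L, ∀ q ∈ Q, g * q * g⁻¹ ∈ (⨆ j, A j) ⊔ Q)
    (hZL : Z ≤ L) (hZc : ∀ z ∈ Z, ∀ g ∈ L, z * g = g * z)
    (hidx : (Z ⊔ ⨆ j, A j).relIndex L ≤ β)
    {e a : MonoidAlgebra k G} (hee : e * e = e) (ha : a ∈ Fix (cj k G) Q)
    (hea : e = tr (cj k G) Q ⊤ a) (hbr : br Q e ≠ 0) :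
    ∃ j ∈ SubAlg k L, j ∈ Fix (cj k G) Q ∧ j * j = j ∧ br Q j * br Q e ≠ 0 ∧
      Module.finrank k (NN (SubAlg k L) j j) ≤
        β * (n * (max 1 (cycB p n)) ^ r) ^ 2 := by
  classical
  set Y : Subgroup G := ⨆ j, A j with hY
  have hYL : Y ≤ L := iSup_le hAL
  set X : Subgroup G := Y ⊔ Q with hX
  have hXL : X ≤ L := sup_le hYL hQL
  have hQX : Q ≤ X := le_sup_right
  have hYX : Y ≤ X := le_sup_left
  have hYn : ∀ x ∈ L, ∀ s ∈ Y, x * s * x⁻¹ ∈ Y := by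
    intro x hx s hs
    have h1 : Y ≤ Y.comap (MulAut.conj x).toMonoidHom := by
      conv_lhs => rw [hY]
      refine iSup_le fun j y hy => ?_
      exact (le_iSup A j) (hAn j x hx y hy)
    exact h1 hs
  have hnorm : ∀ x ∈ L, ∀ s ∈ X, x * s * x⁻¹ ∈ X := by
    intro x hx s hs
    have h1 : X ≤ X.comap (MulAut.conj x).toMonoidHom := by
      conv_lhs => rw [hX]
      refine sup_le (fun y hy => hYX (hYn x hx y hy)) fun q hq => hLQ x hx q hq
    exact h1 hs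
  have heT : e ∈ Fix (cj k G) ⊤ := by rw [hea]; exact tr_mem_Fix ha
  have heF : ∀ S : Subgroup G, e ∈ Fix (cj k G) S := fun S => Fix_mono _ le_top heT
  have hec : ∀ z : MonoidAlgebra k G, z * e = e * z := fun z =>
    commute_of_mem (SubAlg_top z) heT
  have hcomme : ∀ y ∈ Fix (cj k G) Q, br Q y * br Q e = br Q e * br Q y := by
    intro y hy
    rw [← br_mul hQ hy (heF Q), ← br_mul hQ (heF Q) hy, hec]
  -- the block of `L`
  obtain ⟨f, hf, hfe⟩ := exists_br_block (L := L) (Q := Q) hbr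
  obtain ⟨z, hzL, hzF, hfz⟩ := block_of_sub hQ (hQX.trans hXL) hC hee ha hea hf hfe
  -- the central elements
  obtain ⟨Z', hZ'Z, hZ'p, hZ'⟩ := exists_pprime hZL hZc p
  have hZX : Z ≤ Z' ⊔ X := by
    intro x hx
    obtain ⟨u, hu, v, hv, ⟨m, hm⟩, rfl⟩ := hZ' x hx
    exact Subgroup.mul_mem_sup hu (hQX (mem_of_central hQ hQL hzL hzF hfz hf.ne_zero (hZL hv)
      (hZc v hv) hm))
  have hidx' : (Z' ⊔ X).relIndex L ≤ β := by
    have h1 : Z ⊔ Y ≤ Z' ⊔ X := sup_le hZX (hYX.trans le_sup_right)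
    exact (Nat.le_of_dvd (Nat.pos_of_ne_zero Subgroup.index_ne_zero_of_finite)
      (Subgroup.relIndex_dvd_of_le_left L h1)).trans hidx
  -- the block of `X`
  obtain ⟨g, hg, hgfe⟩ := exists_br_block (L := X) (Q := Q) hfe
  have hgf : br Q g * br Q f ≠ 0 := by
    intro h
    apply hgfe
    rw [← mul_assoc, h, zero_mul]
  obtain ⟨w₀, hw₀X, hw₀F, hgw₀⟩ := block_of_normal hQ hQX hXL hnorm hf hzL hzF hfz hg hgf
  have hbrg : br Q g ≠ 0 := by
    intro h
    apply hgf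
    rw [h, zero_mul]
  have hgF : g ∈ Fix (cj k G) Q := Fix_mono _ hQX hg.mem.2
  have hfF : f ∈ Fix (cj k G) Q := Fix_mono _ (hQX.trans hXL) hf.mem.2
  have hge : br Q g * br Q e ≠ 0 := by
    intro h
    apply hgfe
    rw [hcomme f hfF, ← mul_assoc, h, zero_mul]
  obtain ⟨j, hjX, hjF, hjj, hgj, hbrj, hjn⟩ := exists_Xr (k := k) hQ hQn hY hX
    (fun j g hg h hh => hAn j g (hXL hg) h hh) hcomm hinf hcyc hg hw₀X hw₀F hgw₀ hbrg
  -- fullness
  have hjg : j * g = j := by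
    rw [commute_of_mem hjX hg.mem.2, hgj]
  obtain ⟨w, hwX, hwF, -, hgw⟩ := gen_sub hQX hQ hg hw₀X hw₀F hgw₀ hjX hjF hjj
    (by rw [hjg]; exact hbrj)
  have hje : br Q j * br Q e ≠ 0 := by
    intro h
    apply hge
    have h1 : br Q g = tr (cj k G) Q (X ⊓ Subgroup.normalizer (Q : Set G)) (br Q j * br Q w) := by
      rw [← br_mul hQ hjF hwF, ← br_tr_rel hQ hQX (Subalgebra.mul_mem _ hjF hwF)]
      exact congrArg (br Q) hgw
    have h2 : br Q e ∈ Fix (cj k G) (X ⊓ Subgroup.normalizer (Q : Set G)) :=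
      Fix_mono _ inf_le_right (br_fix_of_le le_rfl (heF _))
    rw [h1, tr_mul h2, mul_assoc, hcomme w hwF, ← mul_assoc, h, zero_mul]
    have _ := Fintype.ofFinite ((X ⊓ Subgroup.normalizer (Q : Set G) : Subgroup G) ⧸
      Q.subgroupOf (X ⊓ Subgroup.normalizer (Q : Set G)))
    rw [tr_def]
    exact Finset.sum_eq_zero fun q _ => map_zero _
  obtain ⟨f', hf', hf'je⟩ := exists_br_block (L := L) (Q := Q) hje
  have hjL : j ∈ SubAlg k L := SubAlg_mono hXL hjX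
  have hf'j : f' * j = j * f' := (commute_of_mem hjL hf'.mem.2).symm
  have hf'F : f' ∈ Fix (cj k G) Q := Fix_mono _ (hQX.trans hXL) hf'.mem.2
  refine ⟨f' * j, Subalgebra.mul_mem _ hf'.mem.1 hjL, Subalgebra.mul_mem _ hf'F hjF, ?_, ?_, ?_⟩
  · calc f' * j * (f' * j) = f' * (j * f') * j := by simp only [mul_assoc]
      _ = (f' * f') * (j * j) := by rw [← hf'j]; simp only [mul_assoc]
      _ = _ := by rw [hf'.idem.eq, hjj]
  · rw [br_mul hQ hf'F hjF, mul_assoc]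
    exact hf'je
  · have h1 := finrank_rel_le (b := f') (e := g) (f := j) hXL hnorm (hZ'Z.trans hZL)
      (fun z hz => hZc z (hZ'Z hz)) hf'.idem.eq hf'.mem
      (fun z hz => central_smul_rel hf' (hZ'Z.trans hZL) (fun z hz => hZc z (hZ'Z hz)) hZ'p hz)
      hidx' hg hjj hjX hgj (by rw [hgw]; exact tr_mem_span hwX) hjn
    rwa [← sq] at h1

end

end Vale.Agent.P180.R2.H471.He
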