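import Vale.Agent.P180.R2.H471.Oq2
import Vale.Agent.P180.R2.H259.Par.Def
import Vale.Agent.P180.R2.H854.TX
import Vale.Agent.P180.R2.H854.FormCor

set_option linter.all false

/-!
P180: orthogonal groups in characteristic two: the split parabolic system.
-/

namespace Vale.Agent.P180.R2.H471.Oq

open Module Vale.Agent.P180 Vale.Agent.P180.R2.H799 Vale.Agent.P180.R2.H799.BN
  Vale.Agent.P180.R2.H854 Vale.Agent.P180.R2.H259.Loc

/-- the flag `F` has a singular basis -/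
def SqBasis {K E : Type*} [Field K] [AddCommGroup E] [Module K E] (Φ : HForm K E) (q : E → K)
    (F : Flag K E) : Prop :=
  ∃ (N : ℕ) (ι : Type) (_ : Fintype ι) (b : Basis ι K E) (α : ι → ℕ),
    0 < N ∧ F N = ⊤ ∧ (∀ i ≤ N, Φ.perp (F i) = F (N - i)) ∧ Adapted b α F ∧
    (∀ l m, α l + α m + 1 ≠ N → Φ.B (b l) (b m) = 0) ∧ ∀ l, 2 * α l + 1 ≠ N → q (b l) = 0

section

variable {K : Type*} {E : Type*} [Field K] [AddCommGroup E] [Module K E] {Φ : HForm K E}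
  {q : E → K} (hq : QF Φ q) [FiniteDimensional K E] [Finite K]
  {X : Subgroup (SpecialLinearGroup K E)}

include hq in
theorem dg_mem_XQ (hXq : X ≤ IsoQ q) (hV : ∀ F, CQ Φ q F → VF F ⊓ IsoQ q ≤ X) {F : Flag K E}
    {ι : Type*} {b : Basis ι K E} {α : ι → ℕ} (hb : Adapted b α F)
    {N : ℕ} (h0 : 0 < N) (hN : F N = ⊤) (hF : ∀ i ≤ N, Φ.perp (F i) = F (N - i))
    (hB : ∀ l m, α l + α m + 1 ≠ N → Φ.B (b l) (b m) = 0)
    (hb0 : ∀ l, 2 * α l + 1 ≠ N → q (b l) = 0)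
    (l g : SpecialLinearGroup K E) (hg : g ∈ X) (hgF : g ∈ PF F)
    (e : toEnd l = dg b α (toEnd g)) : l ∈ X := by
  have hS := sing_of_basis hq hb hB hb0
  have hlI := dg_mem_IsoQ hq hb hN hF hS hB hb0 (hXq hg) hgF e
  obtain ⟨u, hu, hue⟩ := exists_dg hb hgF
  have h1 : l = g * u := toEnd_injective (e.trans hue.symm)
  have h2 : u ∈ IsoQ q := by
    have : u = g⁻¹ * l := by rw [h1, inv_mul_cancel_left]
    rw [this]
    exact (IsoQ q).mul_mem ((IsoQ q).inv_mem (hXq hg)) hlI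
  rw [h1]
  exact X.mul_mem hg (hV F ⟨N, h0, hN, hF, hS⟩ ⟨hu, h2⟩)

include hq in
/-- The Levi property. -/
theorem hasLeviQ {p : ℕ} (hp : p.Prime) (hKp : ¬ p ∣ Nat.card K)
    (hgeo : FlagGeo X (CQ Φ q)) (hXq : X ≤ IsoQ q)
    (hV : ∀ F, CQ Φ q F → VF F ⊓ IsoQ q ≤ X)
    (hodd : ∀ g ∈ IsoQ q, ∀ m, Odd m → g ^ m = 1 → g ∈ X)
    (hbas : ∀ F, CQ Φ q F → SqBasis Φ q F) (hp2 : Odd p)
    {ζ : K} (hζ : ζ ^ p = 1) (hζ1 : ζ ≠ 1) : (hgeo.sys p hp hKp).HasLevi := by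
  have _ : Fact p.Prime := ⟨hp⟩
  rintro _ ⟨_, ⟨F, hFS, rfl⟩, rfl⟩
  obtain ⟨N, ι, _, b, α, h0, hN, hF, hb, hB, hb0⟩ := hbas F hFS
  have hc := Φ.cent_Zd_iso hp2 hb hN hF hB hζ hζ1 (hq.th ζ)
  have hZX : Zd p b α ⊓ Φ.Iso ≤ X := by
    intro z hz
    refine hodd z (Zd_le_IsoQ hq hb hN hB hb0 hz) p hp2 ?_
    obtain ⟨⟨c, hc, hcz⟩, hzI⟩ := hz
    refine sl_ext b fun l => ?_
    rw [pow_apply_eigen (hcz l), hc, one_smul]
    rfl
  refine ⟨(Zd p b α ⊓ Φ.Iso).subgroupOf X, ?_, ?_,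
    hgeo.levi hFS hb (dg_mem_XQ hq hXq hV hb h0 hN hF hB hb0) hZX hc⟩
  · have h1 : IsPGroup p (Zd p b α ⊓ Φ.Iso : Subgroup (SpecialLinearGroup K E)) :=
      (Zd_isPGroup (p := p) (b := b) (α := α)).to_le inf_le_left
    rintro ⟨x, hx⟩
    obtain ⟨k, hk⟩ := h1 ⟨x.1, hx⟩
    refine ⟨k, ?_⟩
    have h2 : x.1 ^ p ^ k = 1 := congrArg Subtype.val hk
    apply Subtype.ext
    apply Subtype.ext
    exact h2
  · intro x hx y hy
    apply Subtype.ext
    exact Zd_comm (p := p) x.1 hx.1 y.1 hy.1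

include hq in
/-- Levi pairs of diagonalisable `p`-groups of isometries. -/
theorem exists_pairQ {p : ℕ} (hp : p.Prime) (hgeo : FlagGeo X (CQ Φ q)) (hXq : X ≤ IsoQ q)
    (hV : ∀ F, CQ Φ q F → VF F ⊓ IsoQ q ≤ X) (hp2 : Odd p)
    {A : Subgroup (SpecialLinearGroup K E)} (hAX : A ≤ X) (hAp : IsPGroup p A)
    (h : Submodule.span K (EV A) = ⊤) :
    ∃ F : Flag K E, CQ Φ q F ∧ IsLeviPair ((VF F).subgroupOf X) (A.subgroupOf X) := by
  obtain ⟨F, N, ι, _, b, α, h0, hN, hF, hb, hB, hb0, hc⟩ :=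
    exists_sq_pair hq hp hp2 (hAX.trans hXq) hAp h
  have hFS : CQ Φ q F := ⟨N, h0, hN, hF, sing_of_basis hq hb hB hb0⟩
  exact ⟨F, hFS, hgeo.levi hFS hb (dg_mem_XQ hq hXq hV hb h0 hN hF hB hb0) hAX hc⟩

end

variable {K E : Type} [Field K] [AddCommGroup E] [Module K E] {Φ : HForm K E}
  {q : E → K} (hq : QF Φ q) [FiniteDimensional K E] [Finite K]
  {X : Subgroup (SpecialLinearGroup K E)}

include hq in
/-- **The split parabolic system of an orthogonal group in characteristic two.** -/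
theorem parPairQ {p : ℕ} [Fact p.Prime] (hp2 : Odd p) {ζ : K} (hζ : ζ ^ p = 1) (hζ1 : ζ ≠ 1)
    (hgeo : FlagGeo X (CQ Φ q)) (hXq : X ≤ IsoQ q)
    (hV : ∀ F, CQ Φ q F → VF F ⊓ IsoQ q ≤ X)
    (hodd : ∀ g ∈ IsoQ q, ∀ m, Odd m → g ^ m = 1 → g ∈ X)
    (hbas : ∀ F, CQ Φ q F → SqBasis Φ q F)
    {L : Type} [Group L] (π : X →* L) (hπ : Function.Surjective π)
    (hcen : ∀ x : X, π x ∈ Subgroup.center L → x.1 ∈ Subgroup.center (SpecialLinearGroup K E))
    {A : Subgroup L}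
    (hdiag : finrank K E < p ∨
      ((∀ x y : X, (∃ i, x ^ (p ^ i) = 1) → (∃ i, y ^ (p ^ i) = 1) → π x ∈ A → π y ∈ A →
        x * y = y * x) ∧ ∀ x : X, (∃ i, x ^ (p ^ i) = 1) → π x ∈ A → x ^ (Nat.card K - 1) = 1)) :
    ParPair p L A := by
  have hp : p.Prime := Fact.out
  have hfG : Finite (SpecialLinearGroup K E) := HForm.finite_SL
  have hq1 : 1 < Nat.card K := Finite.one_lt_card
  have hζ0 : ζ ≠ 0 := by
    rintro rfl
    rw [zero_pow hp.ne_zero] at hζ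
    exact zero_ne_one hζ
  have hp1 : p ∣ Nat.card K - 1 := by
    have h1 : orderOf (Units.mk0 ζ hζ0) = p := by
      apply orderOf_eq_prime
      · ext
        simpa using hζ
      · intro h
        exact hζ1 (by simpa using congrArg Units.val h)
    rw [← Nat.card_units, ← h1]
    exact orderOf_dvd_natCard _
  have hKp : ¬ p ∣ Nat.card K := by
    intro hd
    have h1 := Nat.dvd_sub hd hp1
    rw [Nat.sub_sub_self hq1.le, Nat.dvd_one] at h1
    exact hp.one_lt.ne' h1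
  have hZX : (Subgroup.center X).map X.subtype ≤
      Subgroup.center (SpecialLinearGroup K E) := by
    rintro _ ⟨x, hx, rfl⟩
    refine hcen x ?_
    rw [Subgroup.mem_center_iff]
    intro l
    obtain ⟨y, rfl⟩ := hπ l
    rw [← map_mul, ← map_mul, Subgroup.mem_center_iff.mp hx y]
  have hcardZ : Nat.card (Subgroup.center X) = Nat.card ((Subgroup.center X).map X.subtype) :=
    (Subgroup.card_map_of_injective X.subtype_injective).symm
  refine ⟨X, inferInstance, inferInstance, hgeo.sys p hp hKp, π, hπ,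
    hasLeviQ hq hp hKp hgeo hXq hV hodd hbas hp2 hζ hζ1, ?_, ?_, ?_, ?_⟩
  · intro hd
    obtain ⟨x, hx⟩ := exists_prime_orderOf_dvd_card' p hd
    have h1 : x.1.1 ^ p ^ 1 = 1 := by
      have h2 : x ^ p = 1 := by
        rw [← hx]
        exact pow_orderOf_eq_one x
      rw [pow_one]
      exact congrArg (fun w : Subgroup.center X => w.1.1) h2
    have h3 := Φ.scalar_eq_one hp hp2 hζ hζ1 (hq.th ζ) (hq.le (hXq x.1.2))
      (hZX ⟨x.1, x.2, rfl⟩) h1
    have h4 : x = 1 := Subtype.ext (Subtype.ext h3)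
    rw [h4, orderOf_one] at hx
    exact hp.one_lt.ne hx
  · rintro _ ⟨_, ⟨F, hF, rfl⟩, rfl⟩
    have h1 : Nat.card ((VF F).subgroupOf X) ∣ Nat.card (VF F) := by
      have e : Nat.card ((VF F).subgroupOf X) =
          Nat.card (VF F ⊓ X : Subgroup (SpecialLinearGroup K E)) := by
        rw [← map_subgroupOf_eq]
        exact (Subgroup.card_map_of_injective X.subtype_injective).symm
      rw [e]
      exact Subgroup.card_dvd_of_le inf_le_left
    rw [hcardZ]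
    exact Nat.Coprime.coprime_dvd_left h1 (coprime_center hZX F)
  · intro x hx
    rw [Subgroup.mem_center_iff]
    intro y
    exact Subtype.ext (Subgroup.mem_center_iff.mp (hcen x hx) y.1)
  · intro Q hQ hQA
    set Q' := Q.map X.subtype with hQ'
    have hQ'p : IsPGroup p Q' := hQ.map _
    have hQ'X : Q' ≤ X := by
      rintro _ ⟨x, -, rfl⟩
      exact x.2
    have hQ'Q : Q'.subgroupOf X = Q := by
      apply Subgroup.map_injective X.subtype_injective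
      rw [map_subgroupOf_eq, inf_eq_left.mpr hQ'X]
    have hpow : ∀ x ∈ Q, ∃ i, x ^ (p ^ i) = 1 := by
      intro x hx
      obtain ⟨j, hj⟩ := hQ ⟨x, hx⟩
      exact ⟨j, congrArg Subtype.val hj⟩
    have hspan : Submodule.span K (EV Q') = ⊤ := by
      rcases hdiag with h | ⟨h1, h2⟩
      · exact span_EV_of_lt hQ'p hp1 h
      · refine span_EV_of_comm ?_ ?_
        · rintro _ ⟨x, hx, rfl⟩ _ ⟨y, hy, rfl⟩
          exact congrArg Subtype.val (h1 x y (hpow x hx) (hpow y hy) (hQA ⟨x, hx, rfl⟩)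
            (hQA ⟨y, hy, rfl⟩))
        · rintro _ ⟨g, hg, rfl⟩
          exact congrArg Subtype.val (h2 g (hpow g hg) (hQA ⟨g, hg, rfl⟩))
    constructor
    · intro x hx y hy
      exact Subtype.ext (comm_of_span hspan x.1 ⟨x, hx, rfl⟩ y.1 ⟨y, hy, rfl⟩)
    · obtain ⟨F, hF, hpX⟩ := exists_pairQ hq hp hgeo hXq hV hp2 hQ'X hQ'p hspan
      rw [hQ'Q] at hpX
      exact ⟨_, ⟨VF F, ⟨F, hF, rfl⟩, rfl⟩, hpX⟩

end Vale.Agent.P180.R2.H471.Oq
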