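import Vale.Agent.P180.R2.H471.Au13

/-! The second case: `R ∩ L = 1`; the corner property. -/

set_option linter.all false

namespace Vale.Agent.P180.R2.H471.Au

open Module Subgroup Vale.Agent.P180 Vale.Agent.P180.H768.Gd Vale.Agent.P180.R2.H799
  Vale.Agent.P180.R2.H954 Vale.Agent.P180.R2.H365
open Vale.Agent.P180.R2.H589.Sch (Pel pel_unique)
open Vale.Agent.P180.R2.H47.PairP (orderOf_center_dvd exists_lift_elt center_of_map)
open Vale.Agent.P180.R2.H471.He (CycOn cycOn_of_ker cor_of_cycOn)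
open Vale.Agent.P180.R2.H259.Cyc (cycB cycB_mono)

section

variable {k : Type*} [Field k] {p : ℕ} [hp : Fact p.Prime] [CharP k p]
variable {K : Type} [Field K] [Finite K] {d : ℕ} {G : Type} [Group G] [Finite G]
variable {L R : Subgroup G} {π : SpecialLinearGroup K (Fin d → K) →* L}

/-- **Second case**: `R ∩ L = 1`. -/
theorem cyc_of_bot (hR : IsPGroup p R) (hp2 : p ≠ 2)
    (hn : ∀ x ∈ R, ∀ s ∈ L, x * s * x⁻¹ ∈ L) (hd : 3 ≤ d)
    (hcop : ¬ (p ∣ d ∧ p ∣ Nat.card K - 1)) (hπ : Function.Surjective π)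
    (hk : π.ker ≤ Subgroup.center _)
    {e z : MonoidAlgebra k G} (heL : e ∈ SubAlg k L)
    (hbr : br R e ≠ 0) (hzF : z ∈ Fix (cj k G) (L ⊓ R)) (hez : e = tr (cj k G) (L ⊓ R) L z)
    (hbot : L ⊓ R = ⊥) : CycOn R L := by
  classical
  obtain ⟨c₀, hc₀, hec₀⟩ := exists_coeff_of_br hbr
  have hc₀L : c₀ ∈ L := heL c₀ hec₀
  -- elements which act by inner automorphisms act trivially
  have htriv : ∀ r ∈ R, (∃ s ∈ L, ∃ c ∈ Subgroup.centralizer (L : Set G), r = s * c) →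
      ∀ l ∈ L, r * l * r⁻¹ = l := by
    intro r hr hs l hl
    let R' : Subgroup G := R ⊓ (L ⊔ Subgroup.centralizer (L : Set G))
    have hR'R : R' ≤ R := inf_le_left
    have hLR' : L ⊓ R' = L ⊓ R := by
      rw [hbot, eq_bot_iff, ← hbot]
      exact inf_le_inf_left _ hR'R
    have hin : ∀ r ∈ R', ∃ s ∈ L, ∃ c ∈ Subgroup.centralizer (L : Set G), r = s * c := by
      intro r hr
      have h1 : r ∈ L ⊔ Subgroup.centralizer (L : Set G) := hr.2
      obtain ⟨s, hs, c, hc, h⟩ := mem_sup_of_commute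
        (fun s hs c hc => Subgroup.mem_centralizer_iff.mp hc s hs) h1
      exact ⟨s, hs, c, hc, h.symm⟩
    have h1 := inner_of_coeff (S := L) (R := R') (hR.to_le hR'R) hin (e := e) (z := z)
      (by rw [hLR']; exact hzF) (by rw [hLR']; exact hez) hc₀L
      (fun r hr => hc₀ r (hR'R hr)) hec₀
    have hrR' : r ∈ R' := by
      refine ⟨hr, ?_⟩
      obtain ⟨s, hs, c, hc, rfl⟩ := hs
      exact Subgroup.mul_mem _ (Subgroup.mem_sup_left hs) (Subgroup.mem_sup_right hc)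
    obtain ⟨q, hq, h2⟩ := h1 r hrR'
    have h3 : q = 1 := by
      rw [hLR', hbot] at hq
      exact Subgroup.mem_bot.mp hq
    rw [h2 l hl, h3, one_mul, inv_one, mul_one]
  have hpow : ∀ r ∈ R, ∃ s, r ^ p ^ s = 1 := by
    intro r hr
    obtain ⟨s, hs⟩ := hR ⟨r, hr⟩
    exact ⟨s, congrArg Subtype.val hs⟩
  have hex : ∀ r : R, ∃ (σ : RingAut K) (g : Equiv.Perm (Fin d → K)), Acts π (r : G) σ g := by
    rintro ⟨r, hr⟩
    obtain ⟨s, hs⟩ := hpow r hr
    exact exists_acts hd hπ hk (mem_normalizer_of hn hr) (odd_pow hp2 s) hs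
  choose σ g hA using hex
  have huniq : ∀ (r : R) {σ' : RingAut K} {g' : Equiv.Perm (Fin d → K)},
      Acts π (r : G) σ' g' → σ r = σ' := by
    intro r σ' g' h
    obtain ⟨s, hs⟩ := hpow r r.2
    exact (hA r).unique (by omega) hk (pow_pos hp.out.pos s) hs h
  let F : R →* RingAut K :=
    { toFun := σ
      map_one' := huniq 1 acts_one
      map_mul' := fun r r' => huniq (r * r') ((hA r).mul (hA r')) }
  haveI : IsCyclic (RingAut K) := cyclic_ringAut
  haveI : IsCyclic F.range := inferInstance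
  obtain ⟨⟨_, c, rfl⟩, hc⟩ := IsCyclic.exists_generator (α := F.range)
  have hker : ∀ r : R, F r = 1 → ∀ l ∈ L, (r : G) * l * (r : G)⁻¹ = l := by
    intro r hr
    have h1 := hA r
    have h2 : σ r = 1 := hr
    rw [h2] at h1
    obtain ⟨s, hs⟩ := hpow r r.2
    obtain ⟨s₀, hs₀⟩ := h1.inner (by omega) hk hcop hs
    obtain ⟨c, hc, hrc⟩ := mem_sup_of_inner (s₀ := π s₀) hπ hs₀
    exact htriv r r.2 ⟨_, (π s₀).2, c, hc, hrc⟩
  refine cycOn_of_ker (N := R) (L := L) (M := R ⊓ Subgroup.centralizer (L : Set G)) hn ?_ ?_ ?_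
    (c := (c : G)) c.2 ?_ inf_le_left
  · rintro x hx m ⟨hmR, hmC⟩
    refine ⟨R.mul_mem (R.mul_mem hx hmR) (R.inv_mem hx), ?_⟩
    refine Subgroup.mem_centralizer_iff.mpr fun l hl => ?_
    have h1 : x⁻¹ * l * x ∈ L := by
      have := hn x⁻¹ (R.inv_mem hx) l hl
      rwa [inv_inv] at this
    have h2 := Subgroup.mem_centralizer_iff.mp hmC _ h1
    calc l * (x * m * x⁻¹) = x * ((x⁻¹ * l * x) * m) * x⁻¹ := by group
      _ = x * (m * (x⁻¹ * l * x)) * x⁻¹ := by rw [h2]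
      _ = x * m * x⁻¹ * l := by group
  · rintro m ⟨-, hmC⟩ s hs
    exact (Subgroup.mem_centralizer_iff.mp hmC s hs).symm
  · rintro x ⟨hxR, -⟩ hxL
    have h1 : x ∈ L ⊓ R := ⟨hxL, hxR⟩
    rw [hbot] at h1
    exact Subgroup.mem_bot.mp h1
  · intro x hx
    obtain ⟨i, hi⟩ := Subgroup.mem_zpowers_iff.mp (hc ⟨F ⟨x, hx⟩, ⟨⟨x, hx⟩, rfl⟩⟩)
    have hi' : (F c) ^ i = F ⟨x, hx⟩ := congrArg (fun t : F.range => (t : RingAut K)) hi
    have h1 : F ((c ^ i)⁻¹ * ⟨x, hx⟩) = 1 := by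
      rw [map_mul, map_inv, map_zpow, hi', inv_mul_cancel]
    refine ⟨i, ((c ^ i)⁻¹ * ⟨x, hx⟩ : R), ⟨Subtype.property _, ?_⟩, ?_⟩
    · refine Subgroup.mem_centralizer_iff.mpr fun l hl => ?_
      have h2 := hker _ h1 l hl
      rw [mul_inv_eq_iff_eq_mul] at h2
      exact h2.symm
    · change x = (c : G) ^ i * (((c : G) ^ i)⁻¹ * x)
      rw [mul_inv_cancel_left]

end

universe u

/-- `L` is a central quotient of `SL(d, K)`, `K` a finite field, `d ≥ 3`, `p` divides neither `|K|`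
nor both `d` and `|K| - 1`. -/
def IsSLc (p : ℕ) (L : Type) [Group L] : Prop :=
  ∃ (K : Type) (_ : Field K) (_ : Finite K) (d : ℕ) (π : SpecialLinearGroup K (Fin d → K) →* L),
    3 ≤ d ∧ ¬ p ∣ Nat.card K ∧ ¬ (p ∣ d ∧ p ∣ Nat.card K - 1) ∧ Function.Surjective π ∧
      π.ker ≤ Subgroup.center _

/-- **The corner property of central quotients of `SL(d, K)`**, if `N_D(L)` acts trivially on
`D ∩ L` modulo the centre; no condition on field automorphisms. -/
theorem corP_ab {k : Type u} [Field k] [IsAlgClosed k] {p C n : ℕ} [Fact p.Prime] [CharP k p]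
    {G : Type} [Group G] [Finite G] {D L : Subgroup G} (hD : IsPGroup p D)
    (hDn : Nat.card D ≤ n) (hp2 : p ≠ 2) (hL : IsSLc p L)
    (hcc : ∀ x ∈ D, x ∈ Subgroup.normalizer (L : Set G) → ∀ y ∈ D, y ∈ L → ∀ l ∈ L,
      (x * y * x⁻¹ * y⁻¹) * l = l * (x * y * x⁻¹ * y⁻¹))
    (b : MonoidAlgebra k G)
    (hB : ∀ R : Subgroup G, R ≤ D → R ≤ L ⊔ Subgroup.centralizer (L : Set G) →
      H365.CorP p C b R L) : H365.CorP p (max C (cycB p n)) b D L := by
  obtain ⟨K, _, _, d, π, hd, hpK, hcop, hπ, hk⟩ := hL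
  haveI : Finite (SpecialLinearGroup K (Fin d → K)) := BN.finite_sl
  rintro R hRD hn e he heR hbr ⟨z, hz, hzF, hez⟩ hez'
  have hR : IsPGroup p R := hD.to_le hRD
  have heL : e ∈ SubAlg k L := he.block.mem.1
  have heF : e ∈ Fix (cj k G) L := he.block.mem.2
  have hee : e * e = e := he.block.idem
  have hcc' : ∀ x ∈ R, ∀ y ∈ R, y ∈ L → ∀ l ∈ L,
      (x * y * x⁻¹ * y⁻¹) * l = l * (x * y * x⁻¹ * y⁻¹) := fun x hx y hy hyL =>
    hcc x (hRD hx) (mem_normalizer_of hn hx) y (hRD hy) hyL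
  obtain ⟨Q, hQp, hQR⟩ : ∃ Q : Subgroup (SpecialLinearGroup K (Fin d → K)), IsPGroup p Q ∧
      Q.map π = R.subgroupOf L := BN.exists_lift (p := p) π hπ
    (hR.comap_of_injective L.subtype L.subtype_injective : IsPGroup p (R.subgroupOf L))
  by_cases hQ1 : Q = ⊥
  · have hbot : L ⊓ R = ⊥ := by
      rw [hQ1, Subgroup.map_bot] at hQR
      rw [eq_bot_iff]
      rintro x ⟨hxL, hxR⟩
      have h1 : (⟨x, hxL⟩ : L) ∈ R.subgroupOf L := hxR
      rw [← hQR, Subgroup.mem_bot] at h1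
      exact Subgroup.mem_bot.mpr (congrArg Subtype.val h1)
    have h1 := cyc_of_bot hR hp2 hn hd hcop hπ hk heL hbr hzF hez hbot
    obtain ⟨m, f, hf, hsp⟩ := cor_of_cycOn hR h1 hn he.block heR hbr ⟨z, hz, hzF, hez⟩ hez'
    have h4 : Nat.card R ≤ n :=
      (Nat.card_le_card_of_injective _ (Subgroup.inclusion_injective hRD)).trans hDn
    exact ⟨m, f, fun j => ⟨(hf j).1, (hf j).2.1, (hf j).2.2.1,
      ((hf j).2.2.2.trans (cycB_mono h4)).trans (le_max_right _ _)⟩, hsp⟩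
  · have h1 := inner_of_ne hR hp2 hn hd hpK hcop hπ hk hcc' heL heF hee hbr hzF hez hQp hQR hQ1
    have h2 : R ≤ L ⊔ Subgroup.centralizer (L : Set G) := by
      intro r hr
      obtain ⟨s, hs, c, hc, rfl⟩ := h1 r hr
      exact Subgroup.mul_mem _ (Subgroup.mem_sup_left hs) (Subgroup.mem_sup_right hc)
    obtain ⟨m, f, hf, hsp⟩ := hB R hRD h2 R le_rfl hn e he heR hbr ⟨z, hz, hzF, hez⟩ hez'
    exact ⟨m, f, fun j => ⟨(hf j).1, (hf j).2.1, (hf j).2.2.1,
      (hf j).2.2.2.trans (le_max_left _ _)⟩, hsp⟩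

end Vale.Agent.P180.R2.H471.Au
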