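import Mathlib.Algebra.Group.Subgroup.Basic

/-! The condition on the action of `N_D(L)` on `D ∩ L`. -/

namespace Vale.Agent.P180.R2.H471.El

/-- `N_D(L)` acts trivially on `D ∩ L` modulo the centre of `L`, or `D ∩ L` is elementary abelian
modulo the centre of `L`. -/
def AbEl (p : ℕ) {G : Type} [Group G] (D L : Subgroup G) : Prop :=
  (∀ x ∈ D, x ∈ Subgroup.normalizer (L : Set G) → ∀ y ∈ D, y ∈ L → ∀ l ∈ L,
    (x * y * x⁻¹ * y⁻¹) * l = l * (x * y * x⁻¹ * y⁻¹)) ∨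
  ((∀ x ∈ D, x ∈ L → ∀ y ∈ D, y ∈ L → ∀ l ∈ L,
    (x * y * x⁻¹ * y⁻¹) * l = l * (x * y * x⁻¹ * y⁻¹)) ∧
    ∀ y ∈ D, y ∈ L → ∀ l ∈ L, y ^ p * l = l * y ^ p)

theorem AbEl.ab {p : ℕ} {G : Type} [Group G] {D L : Subgroup G} (h : AbEl p D L) :
    ∀ x ∈ D, x ∈ L → ∀ y ∈ D, y ∈ L → ∀ l ∈ L,
      (x * y * x⁻¹ * y⁻¹) * l = l * (x * y * x⁻¹ * y⁻¹) := by
  rcases h with h | h
  · exact fun x hx hxL => h x hx (Subgroup.le_normalizer hxL)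
  · exact h.1

end Vale.Agent.P180.R2.H471.El
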