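import Mathlib.GroupTheory.Index
import Vale.Agent.P180.R2.H471.AltProd

/-!
P180: the index of `C_G(X) X` in `G` for a normal direct product `X` of `r` alternating groups is at
most `r! 2^r`.
-/

namespace Vale.Agent.P180.R2.H471

open Equiv Equiv.Perm

variable {G : Type} [Group G]

/-- the permutation of the blocks induced by a group element -/
def bp (A : H47.AltStr G) (g : G) (j : Fin A.r) : Fin A.r :=
  (A.ρ g ⟨j, ⟨0, lt_of_lt_of_le (by decide) (A.big j)⟩⟩).1

theorem bp_eq (A : H47.AltStr G) (g : G) (j : Fin A.r) (x : Fin (A.N j)) :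
    (A.ρ g ⟨j, x⟩).1 = bp A g j := A.blk g j _ _

theorem bp_one (A : H47.AltStr G) (j : Fin A.r) : bp A 1 j = j := by
  simp [bp]

theorem bp_mul (A : H47.AltStr G) (g h : G) (j : Fin A.r) : bp A (g * h) j = bp A g (bp A h j) := by
  unfold bp
  rw [map_mul, coe_mul, Function.comp_apply]
  exact A.blk g _ _ _

/-- the action on the blocks -/
def bpHom (A : H47.AltStr G) : G →* Perm (Fin A.r) where
  toFun g :=
    { toFun := bp A g
      invFun := bp A g⁻¹
      left_inv := fun j => by rw [← bp_mul, inv_mul_cancel, bp_one]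
      right_inv := fun j => by rw [← bp_mul, mul_inv_cancel, bp_one] }
  map_one' := by ext j; simp [bp_one]
  map_mul' g h := by ext j; simp [bp_mul]

theorem bpHom_apply (A : H47.AltStr G) (g : G) (j : Fin A.r) : bpHom A g j = bp A g j := rfl

theorem mem_range_sigma {J : Type*} {B : J → Type*} (σ : Perm (Σ j, B j))
    (h : ∀ j x, (σ ⟨j, x⟩).1 = j) : ∃ F : ∀ j, Perm (B j), Equiv.Perm.sigmaCongrRight F = σ := by
  have h' : ∀ j x, (σ.symm ⟨j, x⟩).1 = j := fun j x => by
    have h1 := h (σ.symm ⟨j, x⟩).1 (σ.symm ⟨j, x⟩).2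
    simpa using h1.symm
  refine ⟨fun j =>
    { toFun := fun x => (h j x) ▸ (σ ⟨j, x⟩).2
      invFun := fun x => (h' j x) ▸ (σ.symm ⟨j, x⟩).2
      left_inv := ?_
      right_inv := ?_ }, ?_⟩
  · intro x
    have key : ∀ (y : Σ j, B j) (hy : y.1 = j),
        (σ.symm ⟨j, hy ▸ y.2⟩) = σ.symm y := by
      rintro ⟨k, y⟩ hy
      cases hy
      rfl
    have h1 := key (σ ⟨j, x⟩) (h j x)
    rw [symm_apply_apply] at h1
    have h2 : ∀ (w : Σ j, B j) (hw : w.1 = j), w = ⟨j, x⟩ → (hw ▸ w.2 : B j) = x := by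
      rintro ⟨k, y⟩ hy hyx
      cases hy
      exact eq_of_heq (Sigma.mk.inj hyx).2
    exact h2 _ _ h1
  · intro x
    have key : ∀ (y : Σ j, B j) (hy : y.1 = j),
        (σ ⟨j, hy ▸ y.2⟩) = σ y := by
      rintro ⟨k, y⟩ hy
      cases hy
      rfl
    have h1 := key (σ.symm ⟨j, x⟩) (h' j x)
    rw [apply_symm_apply] at h1
    have h2 : ∀ (w : Σ j, B j) (hw : w.1 = j), w = ⟨j, x⟩ → (hw ▸ w.2 : B j) = x := by
      rintro ⟨k, y⟩ hy hyx
      cases hy
      exact eq_of_heq (Sigma.mk.inj hyx).2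
    exact h2 _ _ h1
  · ext1 ⟨j, x⟩
    change (⟨j, (h j x) ▸ (σ ⟨j, x⟩).2⟩ : Σ j, B j) = σ ⟨j, x⟩
    have : ∀ (w : Σ j, B j) (hw : w.1 = j), (⟨j, (hw ▸ w.2 : B j)⟩ : Σ j, B j) = w := by
      rintro ⟨k, y⟩ hy
      cases hy
      rfl
    exact this _ _

theorem index_le [Finite G] (A : H47.AltStr G) :
    (A.ρ.ker ⊔ A.ι.range).index ≤ (A.r).factorial * 2 ^ A.r := by
  classical
  -- sign homomorphism on the product of the symmetric groups
  let sg : (∀ j, Perm (Fin (A.N j))) →* (Fin A.r → ℤˣ) :=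
    MonoidHom.pi fun j => (sign : Perm (Fin (A.N j)) →* ℤˣ).comp (Pi.evalMonoidHom _ j)
  have hsg : ∀ F j, sg F j = sign (F j) := fun F j => rfl
  let S := sigmaCongrRightHom (fun j : Fin A.r => Fin (A.N j))
  have hS : Function.Injective S := sigmaCongrRightHom_injective
  let Q : Subgroup (Perm (Σ j, Fin (A.N j))) := sg.ker.map S
  let K := (bpHom A).ker
  have hK : K.index ≤ (A.r).factorial := by
    change (bpHom A).ker.index ≤ _
    rw [Subgroup.index_ker]
    calc Nat.card (bpHom A).range ≤ Nat.card (Perm (Fin A.r)) :=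
          Nat.card_le_card_of_injective _ Subtype.val_injective
      _ = _ := by rw [Nat.card_eq_fintype_card, Fintype.card_perm, Fintype.card_fin]
  have hsgi : sg.ker.index ≤ 2 ^ A.r := by
    rw [Subgroup.index_ker]
    calc Nat.card sg.range ≤ Nat.card (Fin A.r → ℤˣ) :=
          Nat.card_le_card_of_injective _ Subtype.val_injective
      _ = _ := by
        rw [Nat.card_eq_fintype_card, Fintype.card_fun, Fintype.card_units_int, Fintype.card_fin]
  have hQ : Q.relIndex (S.range) = sg.ker.index := by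
    change (sg.ker.map S).relIndex _ = _
    rw [MonoidHom.range_eq_map, Subgroup.relIndex_map_map_of_injective _ _ hS,
      Subgroup.relIndex_top_right]
  have hKS : K.map A.ρ ≤ S.range := by
    rintro _ ⟨g, hg, rfl⟩
    obtain ⟨F, hF⟩ := mem_range_sigma (A.ρ g) (fun j x => by
      rw [bp_eq, ← bpHom_apply, (MonoidHom.mem_ker.1 hg : bpHom A g = 1), one_apply])
    exact ⟨F, hF⟩
  let L := Q.comap A.ρ
  have hL : L ≤ A.ρ.ker ⊔ A.ι.range := by
    intro g hg
    obtain ⟨F, hF1, hF2⟩ := hg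
    have hF3 : ∀ j, F j ∈ alternatingGroup (Fin (A.N j)) := fun j => by
      rw [mem_alternatingGroup, ← hsg, MonoidHom.mem_ker.1 hF1, Pi.one_apply]
    have hx := A.ρι (fun j => ⟨F j, hF3 j⟩)
    have hx' : A.ρ (A.ι fun j => ⟨F j, hF3 j⟩) = A.ρ g := hx.trans hF2
    have h1 : g * (A.ι fun j => ⟨F j, hF3 j⟩)⁻¹ ∈ A.ρ.ker := by
      rw [MonoidHom.mem_ker, map_mul, map_inv, hx', mul_inv_cancel]
    have h2 : g = (g * (A.ι fun j => ⟨F j, hF3 j⟩)⁻¹) * (A.ι fun j => ⟨F j, hF3 j⟩) := by group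
    rw [h2]
    exact Subgroup.mul_mem_sup h1 ⟨_, rfl⟩
  have hLK : L.relIndex K ≤ 2 ^ A.r := by
    change (Q.comap A.ρ).relIndex K ≤ _
    rw [Subgroup.relIndex_comap]
    refine le_trans ?_ hsgi
    rw [← hQ]
    refine Subgroup.relIndex_le_of_le_right hKS ?_
    exact Subgroup.index_ne_zero_of_finite
  calc (A.ρ.ker ⊔ A.ι.range).index ≤ (L ⊓ K).index :=
        Nat.le_of_dvd (Nat.pos_of_ne_zero Subgroup.index_ne_zero_of_finite)
          (Subgroup.index_dvd_of_le (inf_le_left.trans hL))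
    _ = (L ⊓ K).relIndex K * K.index := (Subgroup.relIndex_mul_index inf_le_right).symm
    _ = L.relIndex K * K.index := by rw [Subgroup.inf_relIndex_right]
    _ ≤ 2 ^ A.r * (A.r).factorial := Nat.mul_le_mul hLK hK
    _ = _ := mul_comm _ _

end Vale.Agent.P180.R2.H471
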