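import Mathlib.GroupTheory.NoncommPiCoprod
import Vale.Agent.P180.R2.H47.SS
import Vale.Agent.P180.R2.H471.AltIndex

/-!
P180: from `SSP QA X` (a normal subgroup generated by alternating groups of degree at least seven,
normal in it) to the structure `AltStr`.
-/

namespace Vale.Agent.P180.R2.H471

open Vale.Agent.P180.R2.H47

/-- the class of alternating groups of degree at least seven -/
def QA (S : Type) [Group S] : Prop :=
  ∃ d : ℕ, 7 ≤ d ∧ Nonempty (S ≃* alternatingGroup (Fin d))

theorem QA_isoInv : IsoInv QA := by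
  rintro S T _ _ ⟨e⟩ ⟨d, hd, ⟨f⟩⟩
  exact ⟨d, hd, ⟨e.symm.trans f⟩⟩

variable {G : Type} [Group G] [Finite G] {X : Subgroup G}

/-- a normal subgroup generated by its alternating normal subgroups is a direct product -/
theorem exists_iota (hX : SSP QA X) :
    ∃ (N : Fin (Nat.card (simps QA X)) → ℕ) (ι : (∀ j, alternatingGroup (Fin (N j))) →* G),
      (∀ j, 7 ≤ N j) ∧ Function.Injective ι ∧ ι.range = X := by
  classical
  let e : Fin (Nat.card (simps QA X)) ≃ simps QA X := (Finite.equivFin _).symm
  have hQ : ∀ j, QA (e j : Subgroup G) := fun j => (e j).2.2.2.2.2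
  choose N hN hf using hQ
  let f : ∀ j, (e j : Subgroup G) ≃* alternatingGroup (Fin (N j)) := fun j => (hf j).some
  let φ : ∀ j, alternatingGroup (Fin (N j)) →* G := fun j =>
    ((e j : Subgroup G).subtype).comp (f j).symm.toMonoidHom
  have hφr : ∀ j, (φ j).range = (e j : Subgroup G) := by
    intro j
    ext x
    constructor
    · rintro ⟨y, rfl⟩
      exact ((f j).symm y).2
    · intro hx
      refine ⟨f j ⟨x, hx⟩, ?_⟩
      change (((f j).symm (f j ⟨x, hx⟩) : (e j : Subgroup G)) : G) = x
      rw [(f j).symm_apply_apply]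
  have hφm : ∀ j y, φ j y ∈ (e j : Subgroup G) := fun j y => ((f j).symm y).2
  have hcomm : Pairwise fun i j => ∀ x y, Commute (φ i x) (φ j y) := by
    intro i j hij x y
    exact simps_comm (e i).2 (e j).2 (fun h => hij (e.injective (Subtype.ext h)))
      (hφm i x) (hφm j y)
  refine ⟨N, MonoidHom.noncommPiCoprod φ hcomm, hN, ?_, ?_⟩
  · apply MonoidHom.injective_noncommPiCoprod_of_iSupIndep
    · intro i
      rw [Subgroup.disjoint_def]
      intro x hx hx'
      beta_reduce at hx hx'
      rw [hφr] at hx
      apply simps_center (e i).2 hx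
      intro y hy
      have hle : (⨆ j, ⨆ (_ : j ≠ i), (φ j).range) ≤ Subgroup.centralizer {y} := by
        refine iSup_le fun j => iSup_le fun hj => ?_
        rw [hφr]
        intro z hz
        rw [Subgroup.mem_centralizer_singleton_iff]
        exact simps_comm (e j).2 (e i).2 (fun h => hj (e.injective (Subtype.ext h))) hz hy
      exact Subgroup.mem_centralizer_singleton_iff.1 (hle hx')
    · intro j
      exact (Subgroup.subtype_injective _).comp (f j).symm.injective
  · rw [MonoidHom.noncommPiCoprod_range]
    apply le_antisymm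
    · refine iSup_le fun j => ?_
      rw [hφr]
      exact (e j).2.1
    · refine hX.trans (sSup_le fun S hS => ?_)
      have h1 : (φ (e.symm ⟨S, hS⟩)).range = S := by
        rw [hφr, e.apply_symm_apply]
      rw [← h1]
      exact le_iSup (fun j => (φ j).range) (e.symm ⟨S, hS⟩)

/-- **R3**: the structure `AltStr` on a group with a normal direct product of alternating groups of
degrees at least seven, with the index bound. -/
theorem exists_alt (hX : SSP QA X) [hXn : X.Normal] :
    ∃ A : AltStr G, A.r = Nat.card (simps QA X) ∧ (∀ j, 7 ≤ A.N j) ∧ Function.Injective A.ι ∧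
      A.ι.range = X ∧ A.ρ.ker = Subgroup.centralizer (X : Set G) ∧
      (X ⊔ Subgroup.centralizer (X : Set G)).index ≤ (A.r).factorial * 2 ^ A.r := by
  obtain ⟨N, ι, hN, hι, hr⟩ := exists_iota hX
  have hn : ι.range.Normal := by rw [hr]; exact hXn
  obtain ⟨ρ, -, h2, h3, h4⟩ := exists_rho hN ι hι hn
  rw [hr] at h4
  let A : AltStr G := ⟨_, N, ι, ρ, h2, h3, hn, fun j => le_trans (by decide) (hN j)⟩
  refine ⟨A, rfl, hN, hι, hr, h4, ?_⟩
  have h5 := index_le A
  have h6 : A.ρ.ker = Subgroup.centralizer (X : Set G) := h4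
  have h7 : A.ι.range = X := hr
  rw [h6, h7, sup_comm] at h5
  exact h5

end Vale.Agent.P180.R2.H471
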