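import Vale.Agent.P180.R2.H471.Hd4
import Vale.Agent.P180.R2.H954.Hf7

/-! The corner property of the classical groups of bounded rank in odd characteristic, for linear
primes: central quotients and components. -/

set_option linter.all false

namespace Vale.Agent.P180.R2.H471.Hd

open Module Subgroup Vale.Agent.P180 Vale.Agent.P180.H768.Gd Vale.Agent.P180.R2.H799
  Vale.Agent.P180.R2.H854 Vale.Agent.P180.R2.H954 Vale.Agent.P180.R2.H954.Hc
  Vale.Agent.P180.R2.H471.Hc

universe u

/-- lifting abelian `p`-subgroups through a central `p'`-extension -/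
theorem oneBd_lift {k : Type u} [Field k] [IsAlgClosed k] {p : ℕ} [Fact p.Prime] [CharP k p]
    {H : Type} [Group H] [Finite H] {L : Type} [Group L] [Finite L] (π : H →* L)
    (hπ : Function.Surjective π) (hk : ∀ x, π x = 1 → ∀ g, x * g = g * x)
    (hkp : ¬ p ∣ Nat.card π.ker) {D : Subgroup L}
    (hD : IsPGroup p D) {n : ℕ} (hDn : Nat.card D ≤ n) {C : ℕ}
    (hab : ∀ x ∈ D, ∀ y ∈ D, x * y = y * x)
    (h : ∀ Q : Subgroup H, IsPGroup p Q → Nat.card Q ≤ n → (∀ x ∈ Q, ∀ y ∈ Q, x * y = y * x) →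
      OneBd k Q C) : OneBd k D C := by
  have hp : p.Prime := Fact.out
  obtain ⟨Q, hQ, rfl⟩ := BN.exists_lift (p := p) π hπ hD
  have hker : ∀ x ∈ Q, π x = 1 → x = 1 := by
    intro x hx h1
    have h2 : orderOf x ∣ Nat.card π.ker := by
      have h3 := orderOf_dvd_natCard (⟨x, h1⟩ : π.ker)
      rwa [show orderOf (⟨x, h1⟩ : π.ker) = orderOf x from
        (orderOf_injective π.ker.subtype π.ker.subtype_injective _).symm] at h3
    obtain ⟨m, hm⟩ := hQ ⟨x, hx⟩
    have hm' : x ^ p ^ m = 1 := congrArg Subtype.val hm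
    obtain ⟨j, -, hj⟩ := (Nat.dvd_prime_pow hp).mp (orderOf_dvd_of_pow_eq_one hm')
    rw [hj] at h2
    rcases Nat.eq_zero_or_pos j with h0 | h0
    · rw [h0, pow_zero] at hj
      exact orderOf_eq_one_iff.mp hj
    · exact absurd ((dvd_pow_self p h0.ne').trans h2) hkp
  have hinj : Function.Injective (fun x : Q => (⟨π x, ⟨x, x.2, rfl⟩⟩ : Q.map π)) := by
    intro x y hxy
    have h1 : π x = π y := congrArg Subtype.val hxy
    apply Subtype.ext
    have h2 := hker ((x : H) * (y : H)⁻¹)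
      (Q.mul_mem x.2 (Q.inv_mem y.2)) (by rw [map_mul, map_inv, h1, mul_inv_cancel])
    exact mul_inv_eq_one.mp h2
  have hQn : Nat.card Q ≤ n := (Nat.card_le_card_of_injective _ hinj).trans hDn
  have hQab : ∀ x ∈ Q, ∀ y ∈ Q, x * y = y * x := by
    intro x hx y hy
    have h3 := hab _ ⟨x, hx, rfl⟩ _ ⟨y, hy, rfl⟩
    have h4 : x * y * x⁻¹ * y⁻¹ = 1 := by
      refine hker _ (Q.mul_mem (Q.mul_mem (Q.mul_mem hx hy) (Q.inv_mem hx)) (Q.inv_mem hy)) ?_
      rw [map_mul, map_mul, map_mul, map_inv, map_inv, h3]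
      group
    calc x * y = (x * y * x⁻¹ * y⁻¹) * (y * x) := by group
      _ = y * x := by rw [h4, one_mul]
  exact oneBd_quot hπ hk hkp hQ (h Q hQ hQn hQab)

/-- from `OneBd` for all abelian subgroups to the corner property -/
theorem corP_of_oneBd {k : Type u} [Field k] [IsAlgClosed k] {p n : ℕ} [Fact p.Prime] [CharP k p]
    {G : Type} [Group G] [Finite G] {D L : Subgroup G} (hD : IsPGroup p D)
    (hDn : Nat.card D ≤ n) (hab : ∀ x ∈ D, x ∈ L → ∀ y ∈ D, y ∈ L → x * y = y * x)
    (hin : D ⊓ Subgroup.normalizer (L : Set G) ≤ L ⊔ Subgroup.centralizer (L : Set G)) {C : ℕ}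
    (h : ∀ Q : Subgroup L, IsPGroup p Q → Nat.card Q ≤ n → (∀ x ∈ Q, ∀ y ∈ Q, x * y = y * x) →
      OneBd k Q C) (b : MonoidAlgebra k G) : H365.CorP p C b D L := by
  refine corP_of_one hD hin (fun Q hQ => ?_) b
  have hQp : IsPGroup p Q := (hD.comap_of_injective L.subtype L.subtype_injective).to_le hQ
  have hQn : Nat.card Q ≤ n := by
    refine le_trans ?_ hDn
    refine (Nat.card_le_card_of_injective
      (fun x : Q => (⟨((x : L) : G), hQ x.2⟩ : D)) ?_)
    intro x y hxy
    have h' : ((x : L) : G) = ((y : L) : G) := congrArg (fun w : D => (w : G)) hxy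
    exact Subtype.ext (Subtype.ext h')
  exact h Q hQp hQn (fun x hx y hy => Subtype.ext (hab x (hQ hx) x.2 y (hQ hy) y.2))

section Quot

variable {K E : Type} [Field K] [AddCommGroup E] [Module K E] [FiniteDimensional K E] [Finite K]

theorem ker_central {X : Subgroup (SpecialLinearGroup K E)} {L : Type} [Group L] {π : X →* L}
    (hk : π.ker.map X.subtype ≤ Subgroup.center (SpecialLinearGroup K E)) :
    ∀ x, π x = 1 → ∀ g, x * g = g * x := by
  intro z hz g
  have h1 : z.1 ∈ Subgroup.center (SpecialLinearGroup K E) := hk ⟨z, hz, rfl⟩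
  exact Subtype.ext (Subgroup.mem_center_iff.mp h1 g.1).symm

theorem ker_coprime {p : ℕ} [Fact p.Prime] (hn : ¬ p ∣ Nat.card K - 1)
    {X : Subgroup (SpecialLinearGroup K E)} {L : Type} [Group L] {π : X →* L}
    (hk : π.ker.map X.subtype ≤ Subgroup.center (SpecialLinearGroup K E)) :
    ¬ p ∣ Nat.card π.ker := by
  have h1 := not_dvd_center' hn hk
  rwa [Subgroup.card_map_of_injective X.subtype_injective] at h1

end Quot


section Rk

variable {K E : Type} [Field K] [AddCommGroup E] [Module K E] [FiniteDimensional K E] [Finite K]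

theorem rkCond {Φ : HForm K E} {X : Subgroup (SpecialLinearGroup K E)} (hK : Odd (Nat.card K))
    (hXI : X ≤ Φ.Iso) (hX2 : X.relIndex Φ.Iso ∣ 2) : RkCond Φ X :=
  ⟨rkX Φ X, fun Z => rkX_le Z, fun F H hF hH h =>
    rkX_lt_odd hK hXI hX2 (Φ.normCond hK) ⟨F, hF, rfl⟩ ⟨H, hH, rfl⟩ h⟩

end Rk

/-- `L` is a central quotient (modulo scalars) of a subgroup `X` of index one or two in the special
isometry group of a nondegenerate alternating, symmetric or hermitian form on `K ^ d`, `d ≤ m`, `K` a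
finite field of odd order, `p` does not divide `|K| (|K| - 1)` and is linear for the form: `p` does
not divide `r ^ j + 1` whenever the field automorphism `θ` of the form is `c ↦ c ^ (r ^ j)`, `r` the
characteristic of `K` (for `θ = 1` and `q = |K|` this means that the order of `q` modulo `p` is odd;
for `|K| = q ^ 2`, `θ` of order two, that the order of `-q` modulo `p` is even), and the dimension is
less than `p` or `D ∩ L` is abelian. -/
def NonsplitIso (p m : ℕ) {G : Type} [Group G] (D L : Subgroup G) : Prop :=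
  ∃ (K : Type) (_ : Field K) (_ : Finite K) (d : ℕ) (Φ : HForm K (Fin d → K))
    (X : Subgroup (SpecialLinearGroup K (Fin d → K))) (π : X →* L),
      Odd (Nat.card K) ∧ X ≤ Φ.Iso ∧ X.relIndex Φ.Iso ∣ 2 ∧ Function.Surjective π ∧
      π.ker.map X.subtype ≤ Subgroup.center _ ∧ d ≤ m ∧
      ¬ p ∣ Nat.card K ∧ ¬ p ∣ Nat.card K - 1 ∧
      (∀ j : ℕ, (∀ c, Φ.θ c = c ^ (ringChar K ^ j)) → ¬ p ∣ ringChar K ^ j + 1) ∧
      (d < p ∨ ∀ x ∈ D, x ∈ L → ∀ y ∈ D, y ∈ L → x * y = y * x)

/-- **The corner property** of the classical groups of bounded rank in odd characteristic, for linear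
primes. -/
theorem corP_nonsplit_iso {k : Type u} [Field k] [IsAlgClosed k] {p m n : ℕ} [Fact p.Prime]
    [CharP k p] {G : Type} [Group G] [Finite G] {D L : Subgroup G} (hD : IsPGroup p D)
    (hDn : Nat.card D ≤ n) (h : NonsplitIso p m D L)
    (hin : D ⊓ Subgroup.normalizer (L : Set G) ≤ L ⊔ Subgroup.centralizer (L : Set G))
    (b : MonoidAlgebra k G) : H365.CorP p (bdF p m n) b D L := by
  obtain ⟨K, _, _, d, Φ, X, π, hK, hXI, hX2, hπ, hk, hd, hpK, hpK1, hlin, hab⟩ := h
  have hfG : Finite (SpecialLinearGroup K (Fin d → K)) := BN.finite_sl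
  have hkc := ker_central hk
  have hkp := ker_coprime hpK1 hk
  have hab' : ∀ x ∈ D, x ∈ L → ∀ y ∈ D, y ∈ L → x * y = y * x := by
    rcases hab with hlt | hab
    · intro x hxD hxL y hyD hyL
      have hDL : IsPGroup p (D.subgroupOf L) :=
        hD.comap_of_injective L.subtype L.subtype_injective
      obtain ⟨Q, hQ, hQD⟩ := BN.exists_lift (p := p) π hπ hDL
      have hx : (⟨x, hxL⟩ : L) ∈ Q.map π := by rw [hQD]; exact hxD
      have hy : (⟨y, hyL⟩ : L) ∈ Q.map π := by rw [hQD]; exact hyD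
      obtain ⟨x', hx', hxe⟩ := hx
      obtain ⟨y', hy', hye⟩ := hy
      have h0 : x' * y' = y' * x' := Subtype.ext (comm_of_lt hpK hlt (hQ.map X.subtype) x'.1
        ⟨x', hx', rfl⟩ y'.1 ⟨y', hy', rfl⟩)
      have h1 := congrArg π h0
      rw [map_mul, map_mul, hxe, hye] at h1
      exact congrArg Subtype.val h1
    · exact hab
  refine corP_of_oneBd hD hDn hab' hin (fun Q hQ hQn hQab => ?_) b
  refine oneBd_lift π hπ hkc hkp hQ hQn hQab fun R hR hRn hRab => ?_
  exact oneBd_form hK hXI hX2 hpK hpK1 hlin (rkCond hK hXI hX2)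
    (by rw [Module.finrank_fin_fun]; exact hd) hR hRn hRab

end Vale.Agent.P180.R2.H471.Hd
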