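import Vale.Agent.P180.R2.H259.Iso.F4
import Vale.Agent.P180.R2.H854.TD4

/-!
P180: the corner property of the central quotients of the isometry groups in unbounded dimension,
for `D ∩ L` abelian, if the field contains a `p`-th root of unity fixed by the automorphism.
-/

set_option linter.all false

namespace Vale.Agent.P180.R2.H471.Co

open Module Subgroup Vale.Agent.P180 Vale.Agent.P180.H768.Gd Vale.Agent.P180.R2.H799
  Vale.Agent.P180.R2.H854 Vale.Agent.P180.R2.H954 Vale.Agent.P180.R2.H954.Hc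
  Vale.Agent.P180.R2.H471.Hc Vale.Agent.P180.R2.H471.Hd

universe u

/-- **The corner property** of the central quotients of the isometry groups. -/
theorem corP_isoE {k : Type u} [Field k] [IsAlgClosed k] {p n : ℕ} [Fact p.Prime]
    [CharP k p] {G : Type} [Group G] [Finite G] {D L : Subgroup G} (hD : IsPGroup p D)
    (hDn : Nat.card D ≤ n) {K : Type} [Field K] [Finite K] {d : ℕ} {Φ : HForm K (Fin d → K)}
    {X : Subgroup (SpecialLinearGroup K (Fin d → K))} {π : X →* L}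
    (hK : Φ.GoodX X) (hXI : X ≤ Φ.Iso) (hX2 : X.relIndex Φ.Iso ∣ 2)
    (hπ : Function.Surjective π) (hk : π.ker.map X.subtype ≤ Subgroup.center _)
    (hpK : ¬ p ∣ Nat.card K) (hp2 : Odd p) (hζ : ∃ ζ : K, ζ ^ p = 1 ∧ ζ ≠ 1 ∧ Φ.θ ζ = ζ)
    (hab : ∀ x ∈ D, x ∈ L → ∀ y ∈ D, y ∈ L → x * y = y * x)
    (hin : D ⊓ Subgroup.normalizer (L : Set G) ≤ L ⊔ Subgroup.centralizer (L : Set G))
    (b : MonoidAlgebra k G) : H365.CorP p (H259.Iso.isoEB p n) b D L := by
  have hp : p.Prime := Fact.out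
  have hp2' : p ≠ 2 := by
    rintro rfl
    exact (Nat.not_even_iff_odd.mpr hp2) even_two
  obtain ⟨ζ, h1, h2, h3⟩ := hζ
  have hlin := H259.Iso.lin_of_root hp hp2' h1 h2 h3
  have hfG : Finite (SpecialLinearGroup K (Fin d → K)) := BN.finite_sl
  have hkc := ker_central hk
  have hkp := H854.TD.ker_coprime_lin hpK hlin hXI hk
  refine corP_of_oneBd hD hDn hab hin (fun Q hQ hQn hQab => ?_) b
  refine oneBd_lift π hπ hkc hkp hQ hQn hQab fun R hR hRn hRab => ?_
  have hV : ∀ F, Φ.SD F → VF F ⊓ Φ.Iso ≤ X := fun F _ => hK.hV hX2 F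
  have hT := Φ.trT hK.or3
  have hnorm := Φ.normCondT hK.or3
  exact H259.Iso.oneBd_isoE hpK hT hnorm hXI hX2 hV hp2 h1 h2 h3 hR hRn hRab

end Vale.Agent.P180.R2.H471.Co
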