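import Vale.Agent.P180.R2.H471.He9
import Vale.Agent.P180.R2.H471.Hd5

/-! Special linear groups of bounded rank, components: the corner property for abelian `D ∩ L`. -/

set_option linter.all false

namespace Vale.Agent.P180.R2.H471.He

open Module Subgroup Vale.Agent.P180 Vale.Agent.P180.H768.Gd Vale.Agent.P180.R2.H799
  Vale.Agent.P180.R2.H854 Vale.Agent.P180.R2.H954 Vale.Agent.P180.R2.H954.Hc
  Vale.Agent.P180.R2.H471.Hc Vale.Agent.P180.R2.H471.Hd

universe u

/-- `L` is the quotient of a special linear group of dimension at most `m` over a finite field `K`,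
`p` not dividing `|K|`, by a central subgroup of order prime to `p`, and `D ∩ L` is abelian. -/
def AbSL (p m : ℕ) {G : Type} [Group G] (D L : Subgroup G) : Prop :=
  ∃ (K : Type) (_ : Field K) (_ : Finite K) (d : ℕ)
    (π : SpecialLinearGroup K (Fin d → K) →* L), Function.Surjective π ∧
      π.ker ≤ Subgroup.center _ ∧ d ≤ m ∧ ¬ p ∣ Nat.card K ∧ ¬ p ∣ Nat.card π.ker ∧
      (∀ x ∈ D, x ∈ L → ∀ y ∈ D, y ∈ L → x * y = y * x)

/-- **The corner property** of special linear groups of bounded rank, `D ∩ L` abelian. -/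
theorem corP_abSL {k : Type u} [Field k] [IsAlgClosed k] {p m n : ℕ} [Fact p.Prime] [CharP k p]
    {G : Type} [Group G] [Finite G] {D L : Subgroup G} (hD : IsPGroup p D)
    (hDn : Nat.card D ≤ n) (h : AbSL p m D L)
    (hin : D ⊓ Subgroup.normalizer (L : Set G) ≤ L ⊔ Subgroup.centralizer (L : Set G))
    (b : MonoidAlgebra k G) : H365.CorP p (bdA p m n) b D L := by
  obtain ⟨K, _, _, d, π, hπ, hk, hd, hpK, hkp, hab⟩ := h
  have hfG : Finite (SpecialLinearGroup K (Fin d → K)) := BN.finite_sl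
  have hfd : finrank K (Fin d → K) ≤ m := by rw [Module.finrank_fin_fun]; exact hd
  have hk' : ∀ x, π x = 1 → ∀ g, x * g = g * x := fun x hx g =>
    (Subgroup.mem_center_iff.mp (hk hx) g).symm
  exact corP_of_oneBd hD hDn hab hin (fun Q hQ hQn hQab =>
    oneBd_lift π hπ hk' hkp hQ hQn hQab (fun Q' hQ' hQ'n hQ'ab =>
      oneBd_slA hpK hfd hQ' hQ'n hQ'ab)) b

end Vale.Agent.P180.R2.H471.He
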