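import Vale.Agent.P180.R2.H471.Hc6
import Vale.Agent.P180.R2.H799.BN3
import Vale.Agent.P180.R2.H799.Nilp2

/-! The small idempotent from a parabolic subgroup; counting double cosets. -/

set_option linter.all false

namespace Vale.Agent.P180.R2.H471.Hc

open Subgroup Vale.Agent.P180 Vale.Agent.P180.H768.Gd Vale.Agent.P180.R2.H799

universe u

section Count

variable {G : Type} [Group G] [Finite G]

/-- Burnside form of the number of double cosets. -/
theorem sum_inter_le (D : Subgroup G) : ∑ᶠ w : G, Nat.card (D ⊓ cjS D w : Subgroup G) ≤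
    Nat.card (DoubleCoset.Quotient (D : Set G) (D : Set G)) * Nat.card D ^ 2 := by
  classical
  have _ := Fintype.ofFinite G
  rw [finsum_eq_sum_of_fintype]
  have hrep : ∀ w : G, ∃ ab : D × D, w = (ab.1 : G) *
      (DoubleCoset.mk D D w).out * (ab.2 : G) := by
    intro w
    have h1 := DoubleCoset.mk_out_eq_mul D D w
    obtain ⟨h, l, hh, hl, he⟩ := h1
    refine ⟨(⟨h⁻¹, D.inv_mem hh⟩, ⟨l⁻¹, D.inv_mem hl⟩), ?_⟩
    change w = h⁻¹ * _ * l⁻¹
    rw [he]
    group
  choose ab hab using hrep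
  have hsum : ∑ w : G, Nat.card (D ⊓ cjS D w : Subgroup G) =
      Nat.card (Σ w : G, (D ⊓ cjS D w : Subgroup G)) := by
    rw [Nat.card_sigma]
  rw [hsum, pow_two, ← Nat.card_prod, ← Nat.card_prod]
  let f : (Σ w : G, (D ⊓ cjS D w : Subgroup G)) →
      DoubleCoset.Quotient (D : Set G) (D : Set G) × (D × D) := fun x =>
    (DoubleCoset.mk D D x.1,
      (⟨x.1 * (x.2 : G) * x.1⁻¹, x.2.2.2⟩)⁻¹ * (ab x.1).1,
      (ab x.1).2 * ⟨(x.2 : G), x.2.2.1⟩)
  have hfq : Finite (DoubleCoset.Quotient (D : Set G) (D : Set G)) :=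
    Quotient.finite _
  refine Nat.card_le_card_of_injective f ?_
  rintro ⟨w, y⟩ ⟨w', y'⟩ h
  have h1 : DoubleCoset.mk D D w = DoubleCoset.mk D D w' :=
    congrArg Prod.fst h
  have h2 : (w * (y : G) * w⁻¹)⁻¹ * ((ab w).1 : G) = (w' * (y' : G) * w'⁻¹)⁻¹ * ((ab w').1 : G) :=
    congrArg (fun z => (z.2.1 : G)) h
  have h3 : ((ab w).2 : G) * (y : G) = ((ab w').2 : G) * (y' : G) :=
    congrArg (fun z => (z.2.2 : G)) h
  have e1 : ∀ (w : G) (y : G), (w * y * w⁻¹)⁻¹ * ((ab w).1 : G) *
      (DoubleCoset.mk D D w).out * (((ab w).2 : G) * y) = w := by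
    intro w y
    have h4 := hab w
    calc (w * y * w⁻¹)⁻¹ * ((ab w).1 : G) *
      (DoubleCoset.mk D D w).out * (((ab w).2 : G) * y)
        = (w * y * w⁻¹)⁻¹ * (((ab w).1 : G) *
      (DoubleCoset.mk D D w).out * ((ab w).2 : G)) * y := by group
      _ = (w * y * w⁻¹)⁻¹ * w * y := by rw [← h4]
      _ = w := by group
  have hw : w = w' := by
    rw [← e1 w y, ← e1 w' y', h2, h3, h1]
  subst hw
  have hy : y = y' := Subtype.ext (mul_left_cancel h3)
  subst hy
  rfl

end Count

section Levi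

variable {k : Type u} [Field k] [IsAlgClosed k] {p : ℕ} [Fact p.Prime] [CharP k p]
variable {G : Type} [Group G] [Finite G]

/-- The corner of `e_U j` in the group algebra of the normaliser of `U`. -/
theorem finrank_NN_av {U L : Subgroup G} (hpU : ¬ p ∣ Nat.card U)
    (hLU : L ≤ normalizer (U : Set G)) (hsup : U ⊔ L = normalizer (U : Set G))
    {j : MonoidAlgebra k G} (hj : j ∈ SubAlg k L) (hjj : j * j = j) :
    Module.finrank k (NN (SubAlg k (normalizer (U : Set G))) (BN.av k U * j) (BN.av k U * j)) ≤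
      Module.finrank k (NN (SubAlg k L) j j) := by
  classical
  have hfin : FiniteDimensional k (MonoidAlgebra k G) :=
    Module.Finite.equiv (MonoidAlgebra.coeffLinearEquiv k (M := G) (S := k)).symm
  have hU0 : ((Nat.card U : ℕ) : k) ≠ 0 := fun h => hpU ((CharP.cast_eq_zero_iff k p _).mp h)
  have hcomm : ∀ x ∈ SubAlg k L, x * BN.av k U = BN.av k U * x := fun x hx => BN.av_comm hLU hx
  have hle : NN (SubAlg k (normalizer (U : Set G))) (BN.av k U * j) (BN.av k U * j) ≤
      (NN (SubAlg k L) j j).map (LinearMap.mulLeft k (BN.av k U)) := by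
    intro x hx
    have hx' : x = (BN.av k U * j) * x * (BN.av k U * j) := by rw [hx.2.1, hx.2.2]
    rw [hx']
    have h1 : x ∈ SubAlg k (normalizer (U : Set G)) := hx.1
    clear hx' hx
    refine SuppIn.induction (P := fun x => (BN.av k U * j) * x * (BN.av k U * j) ∈
      (NN (SubAlg k L) j j).map (LinearMap.mulLeft k (BN.av k U))) h1 ?_ ?_ ?_
    · rw [mul_zero, zero_mul]; exact Submodule.zero_mem _
    · intro x y hx hy
      rw [mul_add, add_mul]; exact Submodule.add_mem _ hx hy
    · intro g hg c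
      rw [mul_smul_comm, smul_mul_assoc]
      refine Submodule.smul_mem _ _ ?_
      have hg' : g ∈ U ⊔ L := by rw [hsup]; exact hg
      obtain ⟨u, hu, l, hl, rfl⟩ := mem_sup_norm hLU hg'
      refine ⟨j * MonoidAlgebra.single l 1 * j, mul_mul_mem_NN hjj hjj hj hj
        (single_mem_SubAlg hl 1), ?_⟩
      rw [LinearMap.mulLeft_apply]
      have h2 : MonoidAlgebra.single (u * l) (1 : k) =
          MonoidAlgebra.single u 1 * MonoidAlgebra.single l 1 := by
        rw [MonoidAlgebra.single_mul_single, one_mul]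
      have h3 : MonoidAlgebra.single l (1 : k) ∈ SubAlg k L := single_mem_SubAlg hl 1
      have h4 : BN.av k U * BN.av k U = BN.av k U := BN.av_idem hU0
      have h5 : BN.av k U * MonoidAlgebra.single u (1 : k) = BN.av k U := BN.av_right U hu
      rw [h2]
      symm
      calc BN.av k U * j * (MonoidAlgebra.single u (1 : k) * MonoidAlgebra.single l 1) *
            (BN.av k U * j)
          = (BN.av k U * j) * MonoidAlgebra.single u (1 : k) * (MonoidAlgebra.single l 1 *
            BN.av k U) * j := by simp only [mul_assoc]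
        _ = (j * BN.av k U) * MonoidAlgebra.single u (1 : k) * (BN.av k U *
            MonoidAlgebra.single l 1) * j := by rw [hcomm _ h3, ← hcomm _ hj]
        _ = j * (BN.av k U * MonoidAlgebra.single u (1 : k)) * BN.av k U *
            MonoidAlgebra.single l 1 * j := by simp only [mul_assoc]
        _ = j * (BN.av k U * BN.av k U) * MonoidAlgebra.single l 1 * j := by
            rw [h5]; simp only [mul_assoc]
        _ = (j * BN.av k U) * MonoidAlgebra.single l 1 * j := by rw [h4]
        _ = BN.av k U * (j * MonoidAlgebra.single l 1 * j) := by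
            rw [hcomm _ hj]; simp only [mul_assoc]
  exact (Submodule.finrank_mono hle).trans (Submodule.finrank_map_le _ _)

/-- **The small idempotent** of a block from an idempotent of a Levi subgroup. -/
theorem exists_small {𝒱 : Sys G} {rk : Subgroup G → ℕ} {c : ℕ} (hc1 : 1 ≤ c)
    (hrk : ∀ Z ∈ 𝒱.car, ∀ Y ∈ 𝒱.car, Z < Y → rk Y < rk Z)
    (hc : ∀ Z ∈ 𝒱.car, ∑ᶠ w : G, Nat.card ((normalizer (Z : Set G)) ⊓
      cjS (normalizer (Z : Set G)) w : Subgroup G) ≤
        c * (Nat.card (normalizer (Z : Set G))) ^ 2)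
    (hbot : (⊥ : Subgroup G) ∈ 𝒱.car) {U L Q : Subgroup G} (hU : U ∈ 𝒱.car)
    (hpU : ¬ p ∣ Nat.card U) (hLU : L ≤ normalizer (U : Set G))
    (hsup : U ⊔ L = normalizer (U : Set G)) (hQ : IsPGroup p Q) (hQL : Q ≤ L)
    (hCU : U ⊓ centralizer (Q : Set G) = ⊥) {e j : MonoidAlgebra k G} (hee : e * e = e)
    (heF : e ∈ Fix (cj k G) ⊤) (hj : j ∈ SubAlg k L) (hjQ : j ∈ Fix (cj k G) Q)
    (hjj : j * j = j) (hbr : br Q j * br Q e ≠ 0) {B : ℕ}
    (hB : Module.finrank k (NN (SubAlg k L) j j) ≤ B) :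
    ∃ i ∈ Fix (cj k G) Q, i * i = i ∧ e * i = i ∧ br Q i ≠ 0 ∧
      Module.finrank k (NN (⊤ : Subalgebra k (MonoidAlgebra k G)) i i) ≤
        c ^ (rk U + 1) * B := by
  classical
  have hfin : FiniteDimensional k (MonoidAlgebra k G) :=
    Module.Finite.equiv (MonoidAlgebra.coeffLinearEquiv k (M := G) (S := k)).symm
  have hU0 : ((Nat.card U : ℕ) : k) ≠ 0 := fun h => hpU ((CharP.cast_eq_zero_iff k p _).mp h)
  have hec : ∀ z : MonoidAlgebra k G, z * e = e * z := fun z => commute_of_mem (SubAlg_top z) heF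
  have hjc : j * BN.av k U = BN.av k U * j := BN.av_comm hLU hj
  have hUN : U ≤ normalizer (U : Set G) := le_norm U
  have hQN : Q ≤ normalizer (U : Set G) := hQL.trans hLU
  have havN : BN.av k U ∈ SubAlg k (normalizer (U : Set G)) := SubAlg_mono hUN (BN.av_mem U)
  have hvN : BN.av k U * j ∈ SubAlg k (normalizer (U : Set G)) :=
    Subalgebra.mul_mem _ havN (SubAlg_mono hLU hj)
  have haa : BN.av k U * BN.av k U = BN.av k U := BN.av_idem hU0
  have hvv : (BN.av k U * j) * (BN.av k U * j) = BN.av k U * j := by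
    calc (BN.av k U * j) * (BN.av k U * j) = BN.av k U * (j * BN.av k U) * j := by simp only [mul_assoc]
      _ = (BN.av k U * BN.av k U) * (j * j) := by rw [hjc]; simp only [mul_assoc]
      _ = BN.av k U * j := by rw [haa, hjj]
  have hvU : ∀ z ∈ U, MonoidAlgebra.single z (1 : k) * (BN.av k U * j) = BN.av k U * j := by
    intro z hz
    rw [← mul_assoc, BN.av_left U hz]
  have haQ : BN.av k U ∈ Fix (cj k G) Q := by
    intro x hx
    rw [BN.cj_av, BN.conjS_eq_of_mem_Nm (hQN hx)]
  have hvQ : BN.av k U * j ∈ Fix (cj k G) Q := Subalgebra.mul_mem _ haQ hjQ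
  have heQ : e ∈ Fix (cj k G) Q := Fix_mono _ le_top heF
  refine ⟨e * (BN.av k U * j), Subalgebra.mul_mem _ heQ hvQ, ?_, ?_, ?_, ?_⟩
  · calc e * (BN.av k U * j) * (e * (BN.av k U * j))
        = e * ((BN.av k U * j) * e) * (BN.av k U * j) := by simp only [mul_assoc]
      _ = (e * e) * ((BN.av k U * j) * (BN.av k U * j)) := by rw [hec]; simp only [mul_assoc]
      _ = e * (BN.av k U * j) := by rw [hee, hvv]
  · rw [← mul_assoc, hee]
  · have h1 : br Q (BN.av k U) = ((Nat.card U : ℕ) : k)⁻¹ • 1 := by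
      refine BN.br_av hQ hpU ?_
      intro x hx hxc
      have h2 : x ∈ U ⊓ centralizer (Q : Set G) := ⟨hx, hxc⟩
      rwa [hCU, Subgroup.mem_bot] at h2
    rw [← hec, br_mul hQ hvQ heQ, br_mul hQ haQ hjQ, h1, smul_mul_assoc, one_mul,
      smul_mul_assoc]
    exact smul_ne_zero (inv_ne_zero hU0) hbr
  · have hbotN : normalizer ((⊥ : Subgroup G) : Set G) = ⊤ := by
      rw [eq_top_iff]
      intro x _
      rw [mem_normalizer_iff]
      intro y
      rw [Subgroup.mem_bot, Subgroup.mem_bot]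
      constructor
      · rintro rfl
        rw [mul_one, mul_inv_cancel]
      · intro h
        have : y = x⁻¹ * (x * y * x⁻¹) * x := by group
        rw [this, h]
        group
    have h1 := norm_bound_k (k := k) hc1 hrk hc hbot hU bot_le hpU (by rw [hbotN]; exact le_top)
      hvN hvv hvU
    have hNtop : SubAlg k (normalizer ((⊥ : Subgroup G) : Set G)) =
        (⊤ : Subalgebra k (MonoidAlgebra k G)) := by
      rw [hbotN]
      exact eq_top_iff.mpr fun x _ => SubAlg_top x
    rw [hNtop] at h1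
    have h2 : NN (⊤ : Subalgebra k (MonoidAlgebra k G)) (e * (BN.av k U * j)) (e * (BN.av k U * j)) ≤
        NN (⊤ : Subalgebra k (MonoidAlgebra k G)) (BN.av k U * j) (BN.av k U * j) := by
      rintro x ⟨h3, h4, h5⟩
      refine ⟨h3, ?_, ?_⟩
      · conv_lhs => rw [← h4]
        rw [← mul_assoc, ← mul_assoc, hec (BN.av k U * j), mul_assoc e, hvv, h4]
      · conv_lhs => rw [← h5]
        rw [mul_assoc x, mul_assoc e, hvv, h5]
    refine (Submodule.finrank_mono h2).trans (h1.trans (Nat.mul_le_mul_left _ ?_))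
    exact (finrank_NN_av hpU hLU hsup hj hjj).trans hB

end Levi

end Vale.Agent.P180.R2.H471.Hc
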