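import Vale.Agent.P180.R2.H471.Hc8
import Vale.Agent.P180.R2.H471.Hc9
import Vale.Agent.P180.R2.H954.Hc3d
import Vale.Agent.P180.R2.H954.Hc3c
import Vale.Agent.P180.R2.H954.Hc4d
import Vale.Agent.P180.R2.H854.FlagOrb
import Vale.Agent.P180.R2.H799.BNQ
import Vale.Agent.P180.R2.H799.BNL5

/-! Special linear groups of bounded rank: the corner property for abelian defect groups, when the
prime does not divide `|K| - 1`. -/

set_option linter.all false

namespace Vale.Agent.P180.R2.H471.Hc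

open Module Subgroup Vale.Agent.P180 Vale.Agent.P180.H768.Gd Vale.Agent.P180.R2.H799
  Vale.Agent.P180.R2.H854 Vale.Agent.P180.R2.H954 Vale.Agent.P180.R2.H954.Hc

universe u

section Sys

variable {K E : Type} [Field K] [AddCommGroup E] [Module K E] [FiniteDimensional K E]

/-- The parabolic system of a parabolic system with a prime. -/
def sysOf {p : ℕ} {G : Type} [Group G] (𝒮 : ParSys p G) : Sys G where
  car := 𝒮.car
  conj := by
    intro V hV g
    have h1 := 𝒮.conj V hV g⁻¹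
    have h2 : V.map (MulAut.conj g⁻¹).toMonoidHom = cjS V g := by
      ext x
      constructor
      · rintro ⟨y, hy, rfl⟩
        change g * (g⁻¹ * y * g⁻¹⁻¹) * g⁻¹ ∈ V
        have h3 : g * (g⁻¹ * y * g⁻¹⁻¹) * g⁻¹ = y := by group
        rw [h3]
        exact hy
      · intro hx
        refine ⟨g * x * g⁻¹, hx, ?_⟩
        change g⁻¹ * (g * x * g⁻¹) * g⁻¹⁻¹ = x
        group
    rwa [h2] at h1
  star := 𝒮.star
  norm := 𝒮.norm

open Classical in
/-- the number of missing members of a flag -/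
noncomputable def rkF (K E : Type) [Field K] [AddCommGroup E] [Module K E] [FiniteDimensional K E]
    (Y : Subgroup (SpecialLinearGroup K E)) : ℕ :=
  if h : ∃ F : Flag K E, VF F = Y then finrank K E + 1 - h.choose.mem.ncard else 0

theorem rkF_VF (F : Flag K E) : rkF K E (VF F) = finrank K E + 1 - F.mem.ncard := by
  classical
  have h : ∃ F' : Flag K E, VF F' = VF F := ⟨F, rfl⟩
  unfold rkF
  rw [dif_pos h]
  have h1 : h.choose.mem = F.mem := (VF_eq_iff _ _).mp h.choose_spec
  rw [h1]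

theorem rkF_le (Y : Subgroup (SpecialLinearGroup K E)) : rkF K E Y ≤ finrank K E + 1 := by
  classical
  unfold rkF
  split_ifs
  · exact Nat.sub_le _ _
  · exact Nat.zero_le _

theorem rkF_lt {Z Y : Subgroup (SpecialLinearGroup K E)} (hZ : Z ∈ Set.range (VF (K := K) (E := E)))
    (hY : Y ∈ Set.range (VF (K := K) (E := E))) (h : Z < Y) : rkF K E Y < rkF K E Z := by
  obtain ⟨F, rfl⟩ := hZ
  obtain ⟨H, rfl⟩ := hY
  rw [rkF_VF, rkF_VF]
  have h1 := ncard_lt_of_lt h
  have h2 := ncard_mem_le H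
  omega

/-- the trivial flag -/
noncomputable def flag0 (K E : Type) [Field K] [AddCommGroup E] [Module K E] : Flag K E where
  car i := if i = 0 then ⊥ else ⊤
  mono := by
    intro i j hij
    change (if i = 0 then (⊥ : Submodule K E) else ⊤) ≤ if j = 0 then ⊥ else ⊤
    split_ifs with h1 h2
    · exact le_rfl
    · exact bot_le
    · omega
    · exact le_rfl
  zero := if_pos rfl
  top := ⟨1, if_neg one_ne_zero⟩

theorem VF_flag0 : VF (flag0 K E) = ⊥ := by
  rw [eq_bot_iff]
  intro g hg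
  rw [Subgroup.mem_bot]
  have h1 : ∀ x : E, g x = x := by
    intro x
    have h2 : g x - x ∈ (flag0 K E) 0 := hg 0 x (by
      change x ∈ (if (0 + 1 : ℕ) = 0 then (⊥ : Submodule K E) else ⊤)
      rw [if_neg (by omega)]
      trivial)
    have h3 : g x - x ∈ (⊥ : Submodule K E) := h2
    exact sub_eq_zero.mp ((Submodule.mem_bot K).mp h3)
  ext x
  exact h1 x

end Sys

/-- the number of double cosets -/
def cSL (m : ℕ) : ℕ := (m + 1) ^ (m + 1) ^ 2

/-- the bound -/
noncomputable def bdSL (p m n : ℕ) : ℕ :=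
  cSL m ^ (m + 2) * (m ^ m * ((max 1 (H259.Cyc.cycB p n)) ^ m) ^ 2)

theorem cSL_pos (m : ℕ) : 1 ≤ cSL m := Nat.one_le_iff_ne_zero.mpr (by unfold cSL; positivity)

theorem cSL_mono {m m' : ℕ} (h : m ≤ m') : cSL m ≤ cSL m' := by
  unfold cSL
  calc (m + 1) ^ (m + 1) ^ 2 ≤ (m' + 1) ^ (m + 1) ^ 2 :=
        Nat.pow_le_pow_left (by omega) _
    _ ≤ (m' + 1) ^ (m' + 1) ^ 2 :=
        Nat.pow_le_pow_right (by omega) (Nat.pow_le_pow_left (by omega) 2)

/-- **The special linear groups**: a small idempotent for the blocks with an abelian defect group. -/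
theorem oneBd_sl {k : Type u} [Field k] [IsAlgClosed k] {p : ℕ} [Fact p.Prime] [CharP k p]
    {K E : Type} [Field K] [Finite K] [AddCommGroup E] [Module K E] [FiniteDimensional K E]
    [Finite (SpecialLinearGroup K E)]
    (hpK : ¬ p ∣ Nat.card K) (hpK1 : ¬ p ∣ Nat.card K - 1) {m n : ℕ} (hm : finrank K E ≤ m)
    {Q : Subgroup (SpecialLinearGroup K E)} (hQ : IsPGroup p Q) (hQn : Nat.card Q ≤ n)
    (hab : ∀ x ∈ Q, ∀ y ∈ Q, x * y = y * x) : OneBd k Q (bdSL p m n) := by
  classical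
  intro e a he ha hea hbr
  have hp : p.Prime := Fact.out
  obtain ⟨l, hl⟩ := IsPGroup.iff_card.mp hQ
  have hcop : (Nat.card K).Coprime (Nat.card Q) := by
    rw [hl]
    exact (Nat.Coprime.pow_left l ((Nat.Prime.coprime_iff_not_dvd hp).mpr hpK)).symm
  have hcop1 : (Nat.card Q).Coprime (Nat.card K - 1) := by
    rw [hl]
    exact Nat.Coprime.pow_left l ((Nat.Prime.coprime_iff_not_dvd hp).mpr hpK1)
  obtain ⟨D⟩ := exists_dec Q hcop hab
  -- the idempotent of the Levi subgroup
  have hK1 : Nat.card K - 1 ≠ 0 := fun h => hpK1 (by rw [h]; exact dvd_zero p)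
  have hZp : ¬ p ∣ Nat.card D.Z := fun h => hpK1 (hp.dvd_of_dvd_pow (h.trans D.card_Z_dvd))
  obtain ⟨j, hjL, hjQ, hjj, hjb, hjd⟩ := exists_j (n := n)
    (β := finrank K E ^ finrank K E) (A := D.A) hQ hQn
    (D.Q_le_iSup hab hcop1) D.cent_le D.A_le_L (fun j g hg h hh => D.A_conj hg hh)
    (fun i j hij g hg h hh => D.A_comm hij hg hh)
    (fun i j hij g hg hg' => D.A_inf hij hg hg') D.cyclic_inf D.Z_le
    (fun z hz g hg => D.Z_comm hz hg) hZp (D.relIndex_le.trans D.prod_n_le) he.idem.eq ha hea hbr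
  -- the parabolic system
  set 𝒱 : Sys (SpecialLinearGroup K E) := sysOf (slSys K E p hp hpK) with h𝒱
  have hcar : 𝒱.car = Set.range VF := rfl
  have hU : VF D.flag ∈ 𝒱.car := ⟨_, rfl⟩
  have hpU : ¬ p ∣ Nat.card (VF D.flag) := (slSys K E p hp hpK).card _ ⟨_, rfl⟩
  have hNU : normalizer ((VF D.flag : Subgroup (SpecialLinearGroup K E)) : Set _) = PF D.flag :=
    normalizer_VF _
  obtain ⟨i, h1, h2, h3, h4, h5⟩ := exists_small (k := k) (𝒱 := 𝒱) (rk := rkF K E) (c := cSL m)
    (cSL_pos m) (fun Z hZ Y hY h => rkF_lt hZ hY h)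
    (fun Z hZ => (sum_inter_le _).trans (Nat.mul_le_mul_right _
      ((card_doubleCoset_normalizer_le hZ hZ).trans (cSL_mono hm))))
    (by rw [hcar, ← VF_flag0]; exact ⟨_, rfl⟩) hU hpU (by rw [hNU]; exact D.L_le_PF)
    (by rw [hNU]; exact D.VF_sup_L) hQ (D.Q_le hab) D.VF_inf_cent he.idem.eq he.mem.2 hjL hjQ hjj
    hjb hjd
  refine ⟨i, h1, h2, h3, h4, h5.trans ?_⟩
  unfold bdSL
  have hd : finrank K E ^ finrank K E ≤ m ^ m := by
    rcases Nat.eq_zero_or_pos m with h0 | h0
    · subst h0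
      have : finrank K E = 0 := by omega
      rw [this]
    · exact (Nat.pow_le_pow_left hm _).trans (Nat.pow_le_pow_right h0 hm)
  refine Nat.mul_le_mul (Nat.pow_le_pow_right (cSL_pos m) ?_) (Nat.mul_le_mul hd
    (Nat.pow_le_pow_left (Nat.pow_le_pow_right (lt_of_lt_of_le Nat.one_pos (le_max_left _ _))
      (D.r_le.trans hm)) 2))
  have := rkF_le (K := K) (E := E) (VF D.flag)
  omega

theorem bdSL_mono {p m n n' : ℕ} (h : n ≤ n') : bdSL p m n ≤ bdSL p m n' := by
  unfold bdSL
  exact Nat.mul_le_mul_left _ (Nat.mul_le_mul_left _ (Nat.pow_le_pow_left (Nat.pow_le_pow_left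
    (max_le_max le_rfl (H259.Cyc.cycB_mono h)) _) 2))

theorem not_dvd_center' {p : ℕ} [Fact p.Prime] {K E : Type} [Field K] [Finite K]
    [AddCommGroup E] [Module K E] [FiniteDimensional K E] (hn : ¬ p ∣ Nat.card K - 1)
    {Z : Subgroup (SpecialLinearGroup K E)} (hZ : Z ≤ Subgroup.center _) : ¬ p ∣ Nat.card Z := by
  classical
  intro hd
  have _ := Fintype.ofFinite K
  have h1 := hd.trans (Subgroup.card_dvd_of_le hZ)
  rw [Nat.card_congr (SpecialLinearGroup.centerEquivRootsOfUnity (R := K) (V := E)).toEquiv] at h1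
  obtain ⟨x, hx⟩ := exists_prime_orderOf_dvd_card' p h1
  have h2 : orderOf (x : Kˣ) = p := by
    rw [← hx]
    exact orderOf_injective (Subgroup.subtype _) (Subgroup.subtype_injective _) x
  have h3 := orderOf_dvd_natCard (x : Kˣ)
  rw [h2, Nat.card_eq_fintype_card, Fintype.card_units, ← Nat.card_eq_fintype_card] at h3
  exact hn h3

/-- central quotients of special linear groups -/
theorem oneBd_sl_quot {k : Type u} [Field k] [IsAlgClosed k] {p : ℕ} [Fact p.Prime] [CharP k p]
    {K E : Type} [Field K] [Finite K] [AddCommGroup E] [Module K E] [FiniteDimensional K E]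
    (hpK : ¬ p ∣ Nat.card K) (hpK1 : ¬ p ∣ Nat.card K - 1) {m n : ℕ} (hm : finrank K E ≤ m)
    {L : Type} [Group L] [Finite L] (π : SpecialLinearGroup K E →* L)
    (hπ : Function.Surjective π) (hk : π.ker ≤ Subgroup.center _) {D : Subgroup L}
    (hD : IsPGroup p D) (hDn : Nat.card D ≤ n) (hab : ∀ x ∈ D, ∀ y ∈ D, x * y = y * x) :
    OneBd k D (bdSL p m n) := by
  have hp : p.Prime := Fact.out
  have hfG : Finite (SpecialLinearGroup K E) := BN.finite_sl
  have hkp : ¬ p ∣ Nat.card π.ker := not_dvd_center' hpK1 hk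
  obtain ⟨Q, hQ, rfl⟩ := BN.exists_lift (p := p) π hπ hD
  have hker : ∀ x ∈ Q, π x = 1 → x = 1 := by
    intro x hx h1
    have h2 : orderOf x ∣ Nat.card π.ker := by
      have h3 := orderOf_dvd_natCard (⟨x, h1⟩ : π.ker)
      rwa [show orderOf (⟨x, h1⟩ : π.ker) = orderOf x from
        (orderOf_injective π.ker.subtype π.ker.subtype_injective _).symm] at h3
    obtain ⟨m, hm⟩ := hQ ⟨x, hx⟩
    have hm' : x ^ p ^ m = 1 := congrArg Subtype.val hm
    obtain ⟨j, -, hj⟩ := (Nat.dvd_prime_pow hp).mp (orderOf_dvd_of_pow_eq_one hm')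
    rw [hj] at h2
    rcases Nat.eq_zero_or_pos j with h0 | h0
    · rw [h0, pow_zero] at hj
      exact orderOf_eq_one_iff.mp hj
    · exact absurd ((dvd_pow_self p h0.ne').trans h2) hkp
  have hinj : Function.Injective (fun x : Q => (⟨π x, ⟨x, x.2, rfl⟩⟩ : Q.map π)) := by
    intro x y hxy
    have h1 : π x = π y := congrArg Subtype.val hxy
    apply Subtype.ext
    have h2 := hker ((x : SpecialLinearGroup K E) * (y : SpecialLinearGroup K E)⁻¹)
      (Q.mul_mem x.2 (Q.inv_mem y.2)) (by rw [map_mul, map_inv, h1, mul_inv_cancel])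
    exact mul_inv_eq_one.mp h2
  have hQn : Nat.card Q ≤ n := (Nat.card_le_card_of_injective _ hinj).trans hDn
  have hQab : ∀ x ∈ Q, ∀ y ∈ Q, x * y = y * x := by
    intro x hx y hy
    have h3 := hab _ ⟨x, hx, rfl⟩ _ ⟨y, hy, rfl⟩
    have h4 : x * y * x⁻¹ * y⁻¹ = 1 := by
      refine hker _ (Q.mul_mem (Q.mul_mem (Q.mul_mem hx hy) (Q.inv_mem hx)) (Q.inv_mem hy)) ?_
      rw [map_mul, map_mul, map_mul, map_inv, map_inv, h3]
      group
    calc x * y = (x * y * x⁻¹ * y⁻¹) * (y * x) := by group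
      _ = y * x := by rw [h4, one_mul]
  refine oneBd_quot hπ ?_ hkp hQ (oneBd_sl hpK hpK1 hm hQ hQn hQab)
  intro x hx g
  exact (Subgroup.mem_center_iff.mp (hk hx) g).symm

/-- `L` is a central quotient of a special linear group of dimension at most `m` over a finite field
`K` with `p` not dividing `|K| (|K| - 1)`, and `D ∩ L` is abelian. -/
def NonsplitSL (p m : ℕ) {G : Type} [Group G] (D L : Subgroup G) : Prop :=
  ∃ (K : Type) (_ : Field K) (_ : Finite K) (d : ℕ)
    (π : SpecialLinearGroup K (Fin d → K) →* L), Function.Surjective π ∧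
      π.ker ≤ Subgroup.center _ ∧ d ≤ m ∧ ¬ p ∣ Nat.card K ∧ ¬ p ∣ Nat.card K - 1 ∧
      (∀ x ∈ D, x ∈ L → ∀ y ∈ D, y ∈ L → x * y = y * x)

/-- **The corner property** of special linear groups of bounded rank. -/
theorem corP_nonsplit {k : Type u} [Field k] [IsAlgClosed k] {p m n : ℕ} [Fact p.Prime] [CharP k p]
    {G : Type} [Group G] [Finite G] {D L : Subgroup G} (hD : IsPGroup p D)
    (hDn : Nat.card D ≤ n) (h : NonsplitSL p m D L)
    (hin : D ⊓ Subgroup.normalizer (L : Set G) ≤ L ⊔ Subgroup.centralizer (L : Set G))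
    (b : MonoidAlgebra k G) : H365.CorP p (bdSL p m n) b D L := by
  obtain ⟨K, _, _, d, π, hπ, hk, hd, hpK, hpK1, hab⟩ := h
  refine corP_of_one hD hin (fun Q hQ => ?_) b
  have hQp : IsPGroup p Q := (hD.comap_of_injective L.subtype L.subtype_injective).to_le hQ
  have hQn : Nat.card Q ≤ n := by
    refine le_trans ?_ hDn
    refine (Nat.card_le_card_of_injective
      (fun x : Q => (⟨((x : L) : G), hQ x.2⟩ : D)) ?_)
    intro x y hxy
    have h' : ((x : L) : G) = ((y : L) : G) := congrArg (fun w : D => (w : G)) hxy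
    exact Subtype.ext (Subtype.ext h')
  have hfd : finrank K (Fin d → K) ≤ m := by rw [Module.finrank_fin_fun]; exact hd
  exact oneBd_sl_quot hpK hpK1 hfd π hπ hk hQp hQn
    (fun x hx y hy => Subtype.ext (hab x (hQ hx) x.2 y (hQ hy) y.2))

end Vale.Agent.P180.R2.H471.Hc
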