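import Vale.Agent.P180.R2.H471.Hd3
import Vale.Agent.P180.R2.H471.Hc11
import Vale.Agent.P180.R2.H954.Hf6
import Vale.Agent.P180.R2.H854.FormP

/-! The corner property of the classical groups of bounded rank in odd characteristic, for linear
primes. -/

set_option linter.all false

namespace Vale.Agent.P180.R2.H471.Hd

open Module Subgroup Vale.Agent.P180 Vale.Agent.P180.H768.Gd Vale.Agent.P180.R2.H799
  Vale.Agent.P180.R2.H854 Vale.Agent.P180.R2.H954 Vale.Agent.P180.R2.H954.Hc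
  Vale.Agent.P180.R2.H471.Hc

universe u

section Gen

/-- Double cosets in a subgroup of index at most two. -/
theorem card_dc_sub {G : Type*} [Group G] {X I P : Subgroup G} (hXI : X ≤ I)
    (hX2 : X.relIndex I ∣ 2) {c : ℕ}
    [Finite (DoubleCoset.Quotient ((P.subgroupOf I : Subgroup I) : Set I)
      (P.subgroupOf I : Subgroup I))]
    (hc : Nat.card (DoubleCoset.Quotient ((P.subgroupOf I : Subgroup I) : Set I)
      (P.subgroupOf I : Subgroup I)) ≤ c) :
    Nat.card (DoubleCoset.Quotient ((P.subgroupOf X : Subgroup X) : Set X)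
      (P.subgroupOf X : Subgroup X)) ≤ c * 4 := by
  classical
  have key : ∀ a b : I, ((a : G) ∈ X ↔ (b : G) ∈ X) → (a : G) * (b : G)⁻¹ ∈ X := by
    intro a b hab
    have h1 : (X.subgroupOf I).index ∣ 2 := hX2
    rcases (Nat.dvd_prime Nat.prime_two).mp h1 with h1 | h1
    · rw [Subgroup.index_eq_one] at h1
      have h3 : a * b⁻¹ ∈ X.subgroupOf I := by rw [h1]; trivial
      exact h3
    · have h3 : a * b⁻¹ ∈ X.subgroupOf I := by
        rw [Subgroup.mul_mem_iff_of_index_two h1, Subgroup.inv_mem_iff]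
        exact hab
      exact h3
  have key' : ∀ a b : I, ((a : G) ∈ X ↔ (b : G) ∈ X) → (a : G)⁻¹ * (b : G) ∈ X := by
    intro a b hab
    have h3 := key a⁻¹ b⁻¹ (by
      change (a : G)⁻¹ ∈ X ↔ (b : G)⁻¹ ∈ X
      rw [Subgroup.inv_mem_iff, Subgroup.inv_mem_iff]
      exact hab)
    have h4 : ((a⁻¹ : I) : G) * ((b⁻¹ : I) : G)⁻¹ = (a : G)⁻¹ * (b : G) := by
      change (a : G)⁻¹ * ((b : G)⁻¹)⁻¹ = _
      rw [inv_inv]
    rwa [h4] at h3
  have hex : ∀ g : I, ∃ a ∈ P.subgroupOf I, ∃ b ∈ P.subgroupOf I, g = a *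
      (DoubleCoset.mk (P.subgroupOf I) (P.subgroupOf I) g).out * b := by
    intro g
    exact (DoubleCoset.eq _ _ _ _).mp (DoubleCoset.out_eq' (P.subgroupOf I) (P.subgroupOf I)
      (DoubleCoset.mk (P.subgroupOf I) (P.subgroupOf I) g))
  choose a ha b hb hab using hex
  let i : X → I := fun x => ⟨x.1, hXI x.2⟩
  let f : DoubleCoset.Quotient ((P.subgroupOf X : Subgroup X) : Set X)
      (P.subgroupOf X : Subgroup X) →
      (DoubleCoset.Quotient ((P.subgroupOf I : Subgroup I) : Set I)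
        (P.subgroupOf I : Subgroup I)) × (Bool × Bool) := fun q =>
    (DoubleCoset.mk (P.subgroupOf I) (P.subgroupOf I) (i q.out),
      (decide ((a (i q.out) : G) ∈ X), decide ((b (i q.out) : G) ∈ X)))
  have hf : Function.Injective f := by
    intro q q' h
    have e1 : DoubleCoset.mk (P.subgroupOf I) (P.subgroupOf I) (i q.out) =
      DoubleCoset.mk (P.subgroupOf I) (P.subgroupOf I) (i q'.out) := congrArg Prod.fst h
    have e2 : ((a (i q.out) : G) ∈ X ↔ (a (i q'.out) : G) ∈ X) :=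
      decide_eq_decide.mp (congrArg (fun x => x.2.1) h)
    have e3 : ((b (i q.out) : G) ∈ X ↔ (b (i q'.out) : G) ∈ X) :=
      decide_eq_decide.mp (congrArg (fun x => x.2.2) h)
    have h1 : (q.out : G) = a (i q.out) * ((DoubleCoset.mk (P.subgroupOf I) (P.subgroupOf I)
        (i q.out)).out : I) * b (i q.out) := congrArg Subtype.val (hab (i q.out))
    have h2 : (q'.out : G) = a (i q'.out) * ((DoubleCoset.mk (P.subgroupOf I) (P.subgroupOf I)
        (i q'.out)).out : I) * b (i q'.out) := congrArg Subtype.val (hab (i q'.out))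
    rw [← e1] at h2
    have h3 : ((a (i q'.out) : G)) * (a (i q.out) : G)⁻¹ ∈ X := key _ _ e2.symm
    have h4 : ((b (i q.out) : G))⁻¹ * (b (i q'.out) : G) ∈ X := key' _ _ e3
    have h5 : ((a (i q'.out) : G)) * (a (i q.out) : G)⁻¹ ∈ P :=
      P.mul_mem (ha _) (P.inv_mem (ha _))
    have h6 : ((b (i q.out) : G))⁻¹ * (b (i q'.out) : G) ∈ P :=
      P.mul_mem (P.inv_mem (hb _)) (hb _)
    rw [← DoubleCoset.out_eq' _ _ q, ← DoubleCoset.out_eq' _ _ q']
    refine (DoubleCoset.eq _ _ _ _).mpr ⟨⟨_, h3⟩, h5, ⟨_, h4⟩, h6, ?_⟩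
    apply Subtype.ext
    change (q'.out : G) = (a (i q'.out) : G) * (a (i q.out) : G)⁻¹ * q.out *
      ((b (i q.out) : G)⁻¹ * (b (i q'.out) : G))
    rw [h1, h2]
    group
  refine (Nat.card_le_card_of_injective f hf).trans ?_
  rw [Nat.card_prod, Nat.card_prod]
  have h7 : Nat.card Bool = 2 := by rw [Nat.card_eq_fintype_card, Fintype.card_bool]
  rw [h7]
  exact Nat.mul_le_mul_right _ hc

end Gen

variable {K E : Type} [Field K] [AddCommGroup E] [Module K E] [FiniteDimensional K E] [Finite K]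

/-- the number of double cosets -/
def cIsoM (m : ℕ) : ℕ := cIso m * 4

theorem cIso_mono {m m' : ℕ} (h : m ≤ m') : cIso m ≤ cIso m' := by
  unfold cIso
  have h1 : (m + 1) ^ m ≤ (m' + 1) ^ m' :=
    (Nat.pow_le_pow_left (by omega) _).trans (Nat.pow_le_pow_right (by omega) h)
  have h2 : (5 ^ m) ^ m ≤ (5 ^ m') ^ m' := by
    rw [← pow_mul, ← pow_mul]
    exact Nat.pow_le_pow_right (by norm_num) (Nat.mul_le_mul h h)
  exact Nat.mul_le_mul_right _ (Nat.mul_le_mul h1 (Nat.mul_le_mul h1 h2))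

theorem cIsoM_pos (m : ℕ) : 1 ≤ cIsoM m :=
  Nat.one_le_iff_ne_zero.mpr (by unfold cIsoM cIso; positivity)

theorem cIsoM_mono {m m' : ℕ} (h : m ≤ m') : cIsoM m ≤ cIsoM m' :=
  Nat.mul_le_mul_right _ (cIso_mono h)

/-- the bound -/
noncomputable def bdF (p m n : ℕ) : ℕ :=
  cIsoM m ^ (m + 2) * ((2 ^ (m + 1) * m ^ m) * ((max 1 (H259.Cyc.cycB p n)) ^ m) ^ 2)

theorem bdF_mono {p m n n' : ℕ} (h : n ≤ n') : bdF p m n ≤ bdF p m n' := by
  unfold bdF
  exact Nat.mul_le_mul_left _ (Nat.mul_le_mul_left _ (Nat.pow_le_pow_left (Nat.pow_le_pow_left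
    (max_le_max le_rfl (H259.Cyc.cycB_mono h)) _) 2))

/-- The rank condition. -/
def RkCond (Φ : HForm K E) (X : Subgroup (SpecialLinearGroup K E)) : Prop :=
  ∃ rk : Subgroup X → ℕ, (∀ Z, rk Z ≤ finrank K E + 1) ∧
    ∀ F H : Flag K E, Φ.SD F → Φ.SD H → (VF F).subgroupOf X < (VF H).subgroupOf X →
      rk ((VF H).subgroupOf X) < rk ((VF F).subgroupOf X)

omit [FiniteDimensional K E] [Finite K] in
theorem flag0_one : (flag0 K E) 1 = ⊤ := by
  change (if (1 : ℕ) = 0 then (⊥ : Submodule K E) else ⊤) = ⊤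
  rw [if_neg one_ne_zero]

theorem SD_flag0 (Φ : HForm K E) : Φ.SD (flag0 K E) := by
  refine ⟨1, Nat.one_pos, flag0_one, fun i hi => ?_⟩
  have h0 : (flag0 K E) 0 = ⊥ := (flag0 K E).zero
  interval_cases i
  · change Φ.perp ((flag0 K E) 0) = (flag0 K E) 1
    rw [h0, flag0_one, Φ.perp_bot]
  · change Φ.perp ((flag0 K E) 1) = (flag0 K E) 0
    rw [h0, flag0_one, Φ.perp_top]

/-- **The special isometry groups**: a small idempotent for the blocks with an abelian defect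
group. -/
theorem oneBd_form {k : Type u} [Field k] [IsAlgClosed k] {p : ℕ} [Fact p.Prime] [CharP k p]
    {Φ : HForm K E} {X : Subgroup (SpecialLinearGroup K E)} [Finite (SpecialLinearGroup K E)]
    (hK : Odd (Nat.card K)) (hXI : X ≤ Φ.Iso) (hX2 : X.relIndex Φ.Iso ∣ 2)
    (hpK : ¬ p ∣ Nat.card K) (hpK1 : ¬ p ∣ Nat.card K - 1)
    (hlin : ∀ j : ℕ, (∀ c, Φ.θ c = c ^ (ringChar K ^ j)) → ¬ p ∣ ringChar K ^ j + 1)
    (hrk : RkCond Φ X) {m n : ℕ} (hm : finrank K E ≤ m)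
    {Q : Subgroup X} (hQ : IsPGroup p Q) (hQn : Nat.card Q ≤ n)
    (hab : ∀ x ∈ Q, ∀ y ∈ Q, x * y = y * x) : OneBd k Q (bdF p m n) := by
  classical
  intro e a he ha hea hbr
  have hp : p.Prime := Fact.out
  obtain ⟨D⟩ := exists_leviD hp Φ hXI hX2 (fun F _ => Φ.VF_iso_le hK hX2 F) hpK hpK1 hlin hQ hab
  -- the idempotent of the Levi subgroup
  obtain ⟨j, hjL, hjQ, hjj, hjb, hjd⟩ := exists_j (n := n)
    (β := 2 ^ (finrank K E + 1) * finrank K E ^ finrank K E) (A := D.A) hQ hQn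
    D.Q_le_iSup D.cent_le D.A_le D.A_conj D.A_comm D.A_inf D.cyclic D.Z_le D.Z_comm D.Z_card
    D.index he.idem.eq ha hea hbr
  -- the parabolic system
  set S := Φ.sysX p hp hpK hK (Φ.normCond hK) hXI hX2 with hS
  set 𝒱 : Sys X := sysOf S with h𝒱
  have hmem : ∀ V, V ∈ 𝒱.car ↔ ∃ F : Flag K E, Φ.SD F ∧ (VF F).subgroupOf X = V := by
    intro V
    constructor
    · rintro ⟨_, ⟨F, hF, rfl⟩, rfl⟩
      exact ⟨F, hF, rfl⟩
    · rintro ⟨F, hF, rfl⟩
      exact ⟨VF F, ⟨F, hF, rfl⟩, rfl⟩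
  have hN : ∀ F : Flag K E, Φ.SD F →
      normalizer (((VF F).subgroupOf X : Subgroup X) : Set X) = (PF F).subgroupOf X := by
    intro F hF
    rw [normalizer_subgroupOf_eq (Φ.normalizer_inf_le hK hXI hX2 (Φ.normCond hK) hF),
      normalizer_VF]
  have hU : (VF D.F).subgroupOf X ∈ 𝒱.car := (hmem _).mpr ⟨_, D.sd, rfl⟩
  have hpU : ¬ p ∣ Nat.card ((VF D.F).subgroupOf X) := S.card _ hU
  have hNU := hN D.F D.sd
  obtain ⟨rk, hrk1, hrk2⟩ := hrk
  have hfI : Finite Φ.Iso := inferInstance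
  obtain ⟨i, h1, h2, h3, h4, h5⟩ := exists_small (k := k) (𝒱 := 𝒱) (rk := rk)
    (c := cIsoM m) (cIsoM_pos m)
    (fun Z hZ Y hY h => by
      obtain ⟨F, hF, rfl⟩ := (hmem Z).mp hZ
      obtain ⟨H, hH, rfl⟩ := (hmem Y).mp hY
      exact hrk2 F H hF hH h)
    (fun Z hZ => (sum_inter_le _).trans (Nat.mul_le_mul_right _ (by
      obtain ⟨F, hF, rfl⟩ := (hmem Z).mp hZ
      rw [hN F hF]
      have _ : Finite (DoubleCoset.Quotient (((PF F).subgroupOf Φ.Iso : Subgroup Φ.Iso) :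
        Set Φ.Iso) ((PF F).subgroupOf Φ.Iso : Subgroup Φ.Iso)) := Quotient.finite _
      exact (card_dc_sub hXI hX2 (card_dc_iso Φ hK hF)).trans (cIsoM_mono hm))))
    ((hmem _).mpr ⟨flag0 K E, SD_flag0 Φ, by rw [VF_flag0, Subgroup.bot_subgroupOf]⟩)
    hU hpU (by rw [hNU]; exact D.le_PF)
    (by rw [hNU]; exact D.sup_eq) hQ D.Q_le D.inf_eq he.idem.eq he.mem.2 hjL hjQ hjj
    hjb hjd
  refine ⟨i, h1, h2, h3, h4, h5.trans ?_⟩
  unfold bdF
  have hd : finrank K E ^ finrank K E ≤ m ^ m := by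
    rcases Nat.eq_zero_or_pos m with h0 | h0
    · subst h0
      have : finrank K E = 0 := by omega
      rw [this]
    · exact (Nat.pow_le_pow_left hm _).trans (Nat.pow_le_pow_right h0 hm)
  refine Nat.mul_le_mul (Nat.pow_le_pow_right (cIsoM_pos m) ?_) (Nat.mul_le_mul
    (Nat.mul_le_mul (Nat.pow_le_pow_right two_pos (by omega)) hd)
    (Nat.pow_le_pow_left (Nat.pow_le_pow_right (lt_of_lt_of_le Nat.one_pos (le_max_left _ _))
      (D.r_le.trans hm)) 2))
  have := hrk1 ((VF D.F).subgroupOf X)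
  omega

end Vale.Agent.P180.R2.H471.Hd
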