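import Vale.Agent.P180.R2.H471.Oq4
import Vale.Agent.P180.R2.H471.Hd4

set_option linter.all false

/-!
P180: the number of double cosets of the stabiliser of a singular flag in the isometry group of a
quadratic form in characteristic two.
-/

namespace Vale.Agent.P180.R2.H471.Oq

open Module Vale.Agent.P180.R2.H854 Vale.Agent.P180.R2.H259.Loc Vale.Agent.P180.R2.H471.Hd

/-- the two flags have a common singular basis -/
def SqBasis2 {K E : Type*} [Field K] [AddCommGroup E] [Module K E] (Φ : HForm K E) (q : E → K)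
    (F H : Flag K E) : Prop :=
  ∃ (N M : ℕ) (ι : Type) (_ : Fintype ι) (b : Basis ι K E) (α β : ι → ℕ),
    F N = ⊤ ∧ H M = ⊤ ∧ Adapted b α F ∧ Adapted b β H ∧
    (∀ l m, ¬ (α l + α m + 1 = N ∧ β l + β m + 1 = M) → Φ.B (b l) (b m) = 0) ∧
    ∀ l, ¬ (2 * α l + 1 = N ∧ 2 * β l + 1 = M) → q (b l) = 0

variable {K E : Type*} [Field K] [AddCommGroup E] [Module K E] {Φ : HForm K E}
  {q : E → K} (hq : QF Φ q) [FiniteDimensional K E] [Finite K]

include hq in
/-- A basis adapted to two singular flags with Gram matrix and values in a finite set. -/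
theorem exists_gram_pairQ {F H : Flag K E} (hb : SqBasis2 Φ q F H) {a0 : K}
    (ha0 : ∀ a : K, ∃ t : K, a + t + t ^ 2 = 0 ∨ a + t + t ^ 2 = a0) :
    ∃ (v : Basis (Fin (finrank K E)) K E) (α β : Fin (finrank K E) → ℕ), Adapted v α F ∧
      Adapted v β H ∧ (∀ i j, Φ.B (v i) (v j) ∈ ({0, 1, a0} : Set K)) ∧
      ∀ i, q (v i) ∈ ({0, 1, a0} : Set K) := by
  classical
  obtain ⟨N, M, ι, _, b, α₀, β₀, hN, hM, hbF, hbH, hB, hb0⟩ := hb
  have hαN : ∀ l, α₀ l < N := fun l => hbF.self_mem_iff.mp (by rw [hN]; trivial)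
  have hβM : ∀ l, β₀ l < M := fun l => hbH.self_mem_iff.mp (by rw [hM]; trivial)
  let lab₀ : ι → Fin N × Fin M := fun l => (⟨α₀ l, hαN l⟩, ⟨β₀ l, hβM l⟩)
  have hB' : ∀ l m, Φ.B (b l) (b m) ≠ 0 →
      lab₀ m = ((Fin.rev (lab₀ l).1, Fin.rev (lab₀ l).2) : Fin N × Fin M) := by
    intro l m hlm
    have h1 : α₀ l + α₀ m + 1 = N ∧ β₀ l + β₀ m + 1 = M := by
      by_contra hcon
      exact hlm (hB l m hcon)
    apply Prod.ext
    · apply Fin.ext
      rw [Fin.val_rev]
      change α₀ m = N - (α₀ l + 1)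
      omega
    · apply Fin.ext
      rw [Fin.val_rev]
      change β₀ m = M - (β₀ l + 1)
      omega
  let 𝒢 : Grad Φ (Fin N × Fin M) := gradOf Φ b lab₀
    (fun x => (Fin.rev x.1, Fin.rev x.2)) (fun x => by simp) hB'
  have hsing : ∀ l, 𝒢.s l ≠ l → ∀ x, 𝒢.π l x = x → q x = 0 := by
    intro l hl x hx
    have hx' : x ∈ Submodule.span K (b '' {i | lab₀ i = l}) := by
      rw [Basis.mem_span_image]
      intro i hi
      have h1 : b.repr x i ≠ 0 := Finsupp.mem_support_iff.mp hi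
      have h2 := repr_prj b lab₀ l x i
      have h3 : prj b lab₀ l x = x := hx
      by_contra h4
      have h5 : ¬ lab₀ i = l := h4
      rw [h3, if_neg h5] at h2
      exact h1 h2
    have hne : ∀ i j, lab₀ i = l → lab₀ j = l → Φ.B (b i) (b j) = 0 := by
      intro i j hi hj
      by_contra h
      have h1 := hB' i j h
      rw [hj, hi] at h1
      exact hl h1.symm
    refine sing_span hq (b := b) (S := {i | lab₀ i = l}) (fun i hi => ?_)
      (fun i hi j hj => hne i j hi hj) _ hx'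
    apply hb0
    rintro ⟨h1, h2⟩
    apply hl
    have hi' : lab₀ i = l := hi
    rw [← hi']
    apply Prod.ext
    · apply Fin.ext
      change ((Fin.rev (lab₀ i).1 : Fin N) : ℕ) = α₀ i
      rw [Fin.val_rev]
      change N - (α₀ i + 1) = α₀ i
      omega
    · apply Fin.ext
      change ((Fin.rev (lab₀ i).2 : Fin M) : ℕ) = β₀ i
      rw [Fin.val_rev]
      change M - (β₀ i + 1) = β₀ i
      omega
  obtain ⟨k, v, lab, h1, h2, h3, h4, h5⟩ := exists_gramQ hq 𝒢 inferInstance inferInstance ha0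
    hsing (fun x => by change (Fin.rev (Fin.rev x.1), Fin.rev (Fin.rev x.2)) = x; simp)
    (finrank K E) ⊤ (finrank_top K E) (fun _ _ _ => trivial)
    (fun x _ hx => Φ.nondeg x fun y => hx y trivial)
  have hk : k = finrank K E := by
    have := finrank_span_eq_card (R := K) h2
    rw [h3, finrank_top, Fintype.card_fin] at this
    exact this.symm
  subst hk
  let w : Basis (Fin (finrank K E)) K E := Basis.mk h2 h3.ge
  have hw : ∀ i, w i = v i := fun i => Basis.mk_apply h2 h3.ge i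
  have hhom : ∀ i, prj b lab₀ (lab i) (w i) = w i := by
    intro i
    rw [hw]
    exact h1 i
  refine ⟨w, fun i => (lab i).1, fun i => (lab i).2,
    adapted_of_hom hhom (fun x => (x.1 : ℕ)) hbF, adapted_of_hom hhom (fun x => (x.2 : ℕ)) hbH,
    ?_, ?_⟩
  · intro i j
    rw [hw, hw]
    rcases h4 i j with h | h
    · left; exact h
    · right; left; exact h
  · intro i
    rw [hw]
    exact h5 i

/-- the number of double cosets -/
def cIsoQ (n : ℕ) : ℕ := (n + 1) ^ n * ((n + 1) ^ n * ((3 ^ n) ^ n * 3 ^ n))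

theorem rel_of_isoQ {F : Flag K E} (g g' a : IsoQ q) (haF : ∀ i, ∀ x ∈ F i, a.1 x ∈ F i)
    (haH : ∀ i, ∀ x ∈ mapF g.1.1 F i, a.1 x ∈ mapF g'.1.1 F i) :
    ∃ a ∈ (PF F).subgroupOf (IsoQ q), ∃ b ∈ (PF F).subgroupOf (IsoQ q), g' = a * g * b := by
  have h3 : g'.1⁻¹ * a.1 * g.1 ∈ PF F := by
    intro j x hx
    have h2 : g.1 x ∈ mapF g.1.1 F j := by
      rw [mem_mapF, inv_apply_self']
      exact hx
    have h3 := haH j _ h2
    rw [mem_mapF] at h3
    exact h3
  have h4 : g'⁻¹ * a * g ∈ (PF F).subgroupOf (IsoQ q) := Subgroup.mem_subgroupOf.mpr h3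
  exact ⟨a, Subgroup.mem_subgroupOf.mpr haF, (g'⁻¹ * a * g)⁻¹, Subgroup.inv_mem _ h4, by group⟩

include hq in
/-- isometries from bases with the same Gram matrix and the same values -/
theorem exists_isoQ_of_data {F F' H H' : Flag K E} {n : ℕ} (v v' : Basis (Fin n) K E)
    {α β : Fin n → ℕ} (h1 : Adapted v α F) (h2 : Adapted v β H)
    (h1' : Adapted v' α F') (h2' : Adapted v' β H')
    (hG : ∀ i j, Φ.B (v i) (v j) = Φ.B (v' i) (v' j)) (hv : ∀ i, q (v i) = q (v' i)) :
    ∃ a ∈ IsoQ q, (∀ i, ∀ x ∈ F i, a x ∈ F' i) ∧ ∀ i, ∀ x ∈ H i, a x ∈ H' i := by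
  classical
  obtain ⟨T, hTv, h3⟩ : ∃ T : E →ₗ[K] E, (∀ i, T (v i) = v' i) ∧
      LinearMap.det T * Φ.θ (LinearMap.det T) = 1 :=
    ⟨(v.equiv v' (Equiv.refl _) : E →ₗ[K] E), fun i => v.equiv_apply i v' (Equiv.refl _),
      norm_det Φ v v' hG⟩
  have hdet : LinearMap.det T = 1 := by
    rw [hq.th] at h3
    have h4 : (LinearMap.det T - 1) * (LinearMap.det T - 1) = 0 := by
      have h5 : (LinearMap.det T - 1) * (LinearMap.det T - 1) =
        LinearMap.det T * LinearMap.det T + 1 - 2 * LinearMap.det T := by ring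
      have h6 : (1 : K) + 1 = 2 := by norm_num
      rw [h5, h3, hq.two, zero_mul, sub_zero, h6, hq.two]
    exact sub_eq_zero.mp (mul_self_eq_zero.mp h4)
  obtain ⟨a, ha⟩ : ∃ a : SpecialLinearGroup K E, toEnd a = T := ⟨mkSL T hdet, toEnd_mkSL T hdet⟩
  have hav : ∀ i, a (v i) = v' i := fun i => by
    have h5 := congrArg (fun f : End K E => f (v i)) ha
    exact h5.trans (hTv i)
  refine ⟨a, ?_, ?_, ?_⟩
  · refine mem_IsoQ_of_basis hq v ?_ fun m => by rw [hav, hv]
    rw [Φ.mem_Iso_iff, ha]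
    apply Φ.ext_basis v
    intro l m
    rw [End.mul_apply, ← Φ.adj_right, End.one_apply, hTv, hTv, hG]
  · intro i
    have h5 := h1.forall_mem (a := toEnd a) (i := i) (W := F' i) (by
      intro l hl
      change a (v l) ∈ F' i
      rw [hav, h1'.self_mem_iff]
      exact hl)
    exact h5
  · intro i
    have h5 := h2.forall_mem (a := toEnd a) (i := i) (W := H' i) (by
      intro l hl
      change a (v l) ∈ H' i
      rw [hav, h2'.self_mem_iff]
      exact hl)
    exact h5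

include hq in
theorem rel_of_dataQ {F : Flag K E} (g g' : IsoQ q) {n : ℕ} (v v' : Basis (Fin n) K E)
    {α β : Fin n → ℕ} (h1 : Adapted v α F) (h2 : Adapted v β (mapF g.1.1 F))
    (h1' : Adapted v' α F) (h2' : Adapted v' β (mapF g'.1.1 F))
    (hG : ∀ i j, Φ.B (v i) (v j) = Φ.B (v' i) (v' j)) (hv : ∀ i, q (v i) = q (v' i)) :
    ∃ a ∈ (PF F).subgroupOf (IsoQ q), ∃ b ∈ (PF F).subgroupOf (IsoQ q), g' = a * g * b := by
  obtain ⟨a, ha, haF, haH⟩ := exists_isoQ_of_data hq v v' h1 h2 h1' h2' hG hv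
  exact rel_of_isoQ g g' ⟨a, ha⟩ haF haH

include hq in
theorem card_dc_isoQ {F : Flag K E} (hF : ∀ g ∈ IsoQ q, SqBasis2 Φ q F (mapF g.1 F)) :
    Nat.card (DoubleCoset.Quotient (((PF F).subgroupOf (IsoQ q) : Subgroup (IsoQ q)) :
      Set (IsoQ q)) ((PF F).subgroupOf (IsoQ q) : Subgroup (IsoQ q))) ≤
        cIsoQ (finrank K E) := by
  classical
  obtain ⟨a0, ha0⟩ := exists_a0 hq.two
  set n := finrank K E with hn
  set A : Finset K := {0, 1, a0} with hA
  have hAc : A.card ≤ 3 := Finset.card_le_three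
  have hex : ∀ g : IsoQ q, _ := fun g => exists_gram_pairQ hq (hF g.1 g.2) ha0
  choose v α β h1 h2 h3 h4 using hex
  have h3' : ∀ g i j, Φ.B (v g i) (v g j) ∈ A := by
    intro g i j
    have := h3 g i j
    rw [hA]
    simpa using this
  have h4' : ∀ g i, q (v g i) ∈ A := by
    intro g i
    have := h4 g i
    rw [hA]
    simpa using this
  let t : IsoQ q → (Fin n → Fin (n + 1)) × (Fin n → Fin (n + 1)) × (Fin n → Fin n → A) ×
      (Fin n → A) :=
    fun g => ⟨fun l => ⟨finrank K (F (α g l)), Nat.lt_succ_of_le (Submodule.finrank_le _)⟩,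
      fun l => ⟨finrank K (F (β g l)), Nat.lt_succ_of_le (Submodule.finrank_le _)⟩,
      fun i j => ⟨_, h3' g i j⟩, fun i => ⟨_, h4' g i⟩⟩
  have ht : ∀ g g', t g = t g' → α g = α g' ∧ β g = β g' ∧
      (∀ i j, Φ.B (v g i) (v g j) = Φ.B (v g' i) (v g' j)) ∧ ∀ i, q (v g i) = q (v g' i) := by
    intro g g' h
    have e1 := congrArg Prod.fst h
    have e2 := congrArg (fun x => x.2.1) h
    have e3 := congrArg (fun x => x.2.2.1) h
    have e4 := congrArg (fun x => x.2.2.2) h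
    refine ⟨level_eq (h1 g) (h1 g') fun l => congrArg Fin.val (congrFun e1 l), ?_, ?_, ?_⟩
    · -- transport to `F` by `g`
      have key : ∀ {u : E} {i j : ℕ}, u ∉ F i → u ∈ F (i + 1) → i < j →
          finrank K (F i) < finrank K (F j) := by
        intro u i j h1 h2 hij
        apply Submodule.finrank_lt_finrank_of_lt
        refine lt_of_le_of_ne (F.mono hij.le) fun h3 => h1 ?_
        rw [h3]
        exact F.mono hij h2
      have hne : ∀ g l, ((g : IsoQ q).1⁻¹ (v g l) : E) ∉ F (β g l) ∧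
          (g.1⁻¹ (v g l) : E) ∈ F (β g l + 1) := by
        intro g l
        refine ⟨fun h5 => ?_, ?_⟩
        · exact lt_irrefl _ ((h2 g).self_mem_iff.mp (mem_mapF.mpr h5))
        · exact mem_mapF.mp ((h2 g).self_mem_iff.mpr (Nat.lt_succ_self _))
      funext l
      have hd : finrank K (F (β g l)) = finrank K (F (β g' l)) :=
        congrArg Fin.val (congrFun e2 l)
      rcases lt_trichotomy (β g l) (β g' l) with h5 | h5 | h5
      · exact absurd hd (key (hne g l).1 (hne g l).2 h5).ne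
      · exact h5
      · exact absurd hd.symm (key (hne g' l).1 (hne g' l).2 h5).ne
    · intro i j
      exact congrArg Subtype.val (congrFun (congrFun e3 i) j)
    · intro i
      exact congrArg Subtype.val (congrFun e4 i)
  let f : DoubleCoset.Quotient (((PF F).subgroupOf (IsoQ q) : Subgroup (IsoQ q)) :
      Set (IsoQ q)) ((PF F).subgroupOf (IsoQ q) : Subgroup (IsoQ q)) →
      ((Fin n → Fin (n + 1)) × (Fin n → Fin (n + 1)) × (Fin n → Fin n → A) × (Fin n → A)) :=
    fun x => t x.out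
  have hf : Function.Injective f := by
    intro x x' h
    obtain ⟨e1, e2, e3, e4⟩ := ht _ _ h
    have h5 := rel_of_dataQ hq x.out x'.out (v x.out) (v x'.out) (h1 x.out) (h2 x.out)
      (by rw [e1]; exact h1 x'.out) (by rw [e2]; exact h2 x'.out) e3 e4
    rw [← DoubleCoset.out_eq' _ _ x, ← DoubleCoset.out_eq' _ _ x']
    exact (DoubleCoset.eq _ _ _ _).mpr h5
  refine (Nat.card_le_card_of_injective f hf).trans ?_
  simp only [Nat.card_prod, Nat.card_fun, Nat.card_fin, Nat.card_eq_fintype_card (α := A),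
    Fintype.card_coe]
  unfold cIsoQ
  gcongr

theorem cIsoQ_le {n : ℕ} (hn : 3 ≤ n) : cIsoQ n ≤ cIso n := by
  unfold cIsoQ cIso
  have h1 : 3 ^ (n + 1) ≤ 5 ^ n := by
    induction n, hn using Nat.le_induction with
    | base => norm_num
    | succ k hk ih =>
      calc 3 ^ (k + 1 + 1) = 3 ^ (k + 1) * 3 := pow_succ _ _
        _ ≤ 5 ^ k * 5 := Nat.mul_le_mul ih (by norm_num)
        _ = 5 ^ (k + 1) := (pow_succ _ _).symm
  have h2 : (3 ^ n) ^ n * 3 ^ n ≤ (5 ^ n) ^ n := by
    calc (3 ^ n) ^ n * 3 ^ n = (3 ^ (n + 1)) ^ n := by rw [← mul_pow, pow_succ]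
      _ ≤ (5 ^ n) ^ n := Nat.pow_le_pow_left h1 n
  calc (n + 1) ^ n * ((n + 1) ^ n * ((3 ^ n) ^ n * 3 ^ n)) ≤
        (n + 1) ^ n * ((n + 1) ^ n * (5 ^ n) ^ n) :=
      Nat.mul_le_mul_left _ (Nat.mul_le_mul_left _ h2)
    _ ≤ (n + 1) ^ n * ((n + 1) ^ n * (5 ^ n) ^ n) * 2 := Nat.le_mul_of_pos_right _ (by norm_num)

end Vale.Agent.P180.R2.H471.Oq
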