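import Vale.Agent.P180.R2.H471.Oq3
import Vale.Agent.P180.R2.H471.Oq5
import Vale.Agent.P180.R2.H471.Oq9
import Vale.Agent.P180.R2.H799.CB5

set_option linter.all false

/-!
P180: the orthogonal groups in characteristic two and their central extensions of order prime to `p`
and to the characteristic: small parabolic systems, for the linear primes not dividing `|K| - 1`.
-/

namespace Vale.Agent.P180.R2.H471.Oq

open Module Vale.Agent.P180 Vale.Agent.P180.R2.H799 Vale.Agent.P180.R2.H854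
  Vale.Agent.P180.R2.H954.Hc Vale.Agent.P180.R2.H799.CA Vale.Agent.P180.R2.H854.TD
  Vale.Agent.P180.R2.H471.Hd Vale.Agent.P180.R2.H471.Hc Vale.Agent.P180.R2.H799.CB
  Vale.Agent.P180.R2.H259.Loc

variable {K E : Type} [Field K] [AddCommGroup E] [Module K E] [FiniteDimensional K E]
  [Finite K]

/-- **Orthogonal groups in characteristic two**: the pairs `LevZ`, for the linear primes which do
not divide `|K| - 1`. -/
theorem levZ_Q {p : ℕ} [Fact p.Prime] (hp2 : Odd p) {Φ : HForm K E} {q : E → K} (hq : QF Φ q)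
    {X : Subgroup (SpecialLinearGroup K E)} (hXq : X ≤ IsoQ q) (hX2 : X.relIndex (IsoQ q) ∣ 2)
    (hgeo : FlagGeo X (CQ Φ q)) (hV : ∀ F : Flag K E, CQ Φ q F → VF F ⊓ IsoQ q ≤ X)
    (h0 : CQ Φ q (flag0 K E)) (hbas2 : ∀ F H : Flag K E, CQ Φ q F → CQ Φ q H → SqBasis2 Φ q F H)
    (hconj : ∀ F, CQ Φ q F → ∀ g ∈ IsoQ q, CQ Φ q (mapF g.1 F))
    (hd3 : 3 ≤ finrank K E) (hpK : ¬ p ∣ Nat.card K) (hK1 : ¬ p ∣ Nat.card K - 1)
    (hK3 : 3 < Nat.card K)
    (hlin : ∀ j : ℕ, (∀ c, Φ.θ c = c ^ (ringChar K ^ j)) → ¬ p ∣ ringChar K ^ j + 1)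
    {L : Type} [Group L] (π : X →* L) (hπ : Function.Surjective π)
    (hcen : ∀ x : X, π x ∈ Subgroup.center L → x.1 ∈ Subgroup.center (SpecialLinearGroup K E))
    {z : ℕ} (hz : (Nat.card K).Coprime z) {A : Subgroup L}
    (hab : ∀ Q : Subgroup X, IsPGroup p Q → Q.map π ≤ A → ∀ x ∈ Q, ∀ y ∈ Q, x * y = y * x)
    {m : ℕ} (hm : lvM (finrank K E) ≤ m) :
    LevZ p m z L A := by
  have hp : p.Prime := Fact.out
  have hfG : Finite (SpecialLinearGroup K E) := BN.finite_sl
  have hXI : X ≤ Φ.Iso := hXq.trans hq.le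
  have hm0 : cIsoM (finrank K E) ≤ m := (le_max_left _ _).trans hm
  have hm1 : finrank K E + 2 ≤ m := ((le_max_left _ _).trans (le_max_right _ _)).trans hm
  have hdc : ∀ F, CQ Φ q F → Nat.card (DoubleCoset.Quotient (((PF F).subgroupOf X :
      Subgroup X) : Set X) ((PF F).subgroupOf X : Subgroup X)) ≤ m := by
    intro F hF
    have hfI : Finite (IsoQ q) := inferInstance
    have _ : Finite (DoubleCoset.Quotient (((PF F).subgroupOf (IsoQ q) : Subgroup (IsoQ q)) :
      Set (IsoQ q)) ((PF F).subgroupOf (IsoQ q) : Subgroup (IsoQ q))) := Quotient.finite _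
    refine (card_dc_sub hXq hX2 (card_dc_isoQ hq fun g hg =>
      hbas2 F _ hF (hconj F hF g hg))).trans (le_trans ?_ hm0)
    exact Nat.mul_le_mul_right _ (cIsoQ_le hd3)
  have hZX : (Subgroup.center X).map X.subtype ≤
      Subgroup.center (SpecialLinearGroup K E) := by
    rintro _ ⟨x, hx, rfl⟩
    refine hcen x ?_
    rw [Subgroup.mem_center_iff]
    intro l
    obtain ⟨y, rfl⟩ := hπ l
    rw [← map_mul, ← map_mul, Subgroup.mem_center_iff.mp hx y]
  refine ⟨X, inferInstance, inferInstance, hgeo.sys p hp hpK, π,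
    smallSys_C hp hpK hgeo h0 hm1 hdc, hπ, ?_, ?_, ?_, ?_⟩
  · intro hd
    obtain ⟨x, hx⟩ := exists_prime_orderOf_dvd_card' p hd
    have h1 : x.1.1 ^ p ^ 1 = 1 := by
      have h2 : x ^ p = 1 := by
        rw [← hx]
        exact pow_orderOf_eq_one x
      rw [pow_one]
      exact congrArg (fun w : Subgroup.center X => w.1.1) h2
    have h3 := scalar_eq_one_lin hp hpK Φ hlin (hXI x.1.2) (hZX ⟨x.1, x.2, rfl⟩) h1
    have h4 : x = 1 := Subtype.ext (Subtype.ext h3)
    rw [h4, orderOf_one] at hx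
    exact hp.one_lt.ne hx
  · rintro _ ⟨_, ⟨F, hF, rfl⟩, rfl⟩
    have h1 : Nat.card ((VF F).subgroupOf X) ∣ Nat.card (VF F) := by
      have e : Nat.card ((VF F).subgroupOf X) =
          Nat.card (VF F ⊓ X : Subgroup (SpecialLinearGroup K E)) := by
        rw [← map_subgroupOf_eq]
        exact (Subgroup.card_map_of_injective X.subtype_injective).symm
      rw [e]
      exact Subgroup.card_dvd_of_le inf_le_left
    refine Nat.Coprime.coprime_dvd_left h1 ?_
    rw [card_VF]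
    exact Nat.Coprime.pow_left _ hz
  · intro x hx
    rw [Subgroup.mem_center_iff]
    intro y
    exact Subtype.ext (Subgroup.mem_center_iff.mp (hcen x hx) y.1)
  · intro Q hQ hQA
    obtain ⟨F, hF, M, hM⟩ := levSubP_Q hp hp2 hq hXq hX2 hV (fun F hF => normalizer_C hgeo hF)
      hpK hK1 hK3 hlin hQ (hab Q hQ hQA) hm
    exact ⟨_, ⟨VF F, ⟨F, hF, rfl⟩, rfl⟩, M, hM⟩

end Vale.Agent.P180.R2.H471.Oq
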