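import Vale.Agent.P180.R2.H259.Oq.B0
import Vale.Agent.P180.R2.H471.Oq5

set_option linter.all false

/-!
P180: common bases of two singular flags, quadratic forms in characteristic two: the values of the
quadratic form vanish outside the middle of both levels.
-/

namespace Vale.Agent.P180.R2.H471.Or

open Module Vale.Agent.P180.R2.H854 Vale.Agent.P180 Vale.Agent.P180.R2.H259.Loc
  Vale.Agent.P180.R2.H259.Oq

universe v

variable {K : Type*} {E : Type v} [Field K] [AddCommGroup E] [Module K E] {Φ : HForm K E}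
  {Q : E → K} (hQ : QF Φ Q) [FiniteDimensional K E] [Finite K]

include hQ in
/-- **Common adapted bases** with singular vectors outside the middle of both levels. -/
theorem exists_sq_basis2 {F H : Flag K E} {N M : ℕ} (hN : F N = ⊤)
    (hF : ∀ i ≤ N, Φ.perp (F i) = F (N - i)) (m0 : 0 < M) (hM : H M = ⊤)
    (hH : ∀ i ≤ M, Φ.perp (H i) = H (M - i))
    (hFs : ∀ j, 2 * j ≤ N → ∀ x ∈ F j, Q x = 0)
    (hHs : ∀ j, 2 * j ≤ M → ∀ x ∈ H j, Q x = 0) :
    ∃ b : Basis (Idx F H N M) K E, Adapted b (fun l => l.1.1) F ∧ Adapted b (fun l => l.1.2) H ∧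
      (∀ l m : Idx F H N M, ¬ ((l.1.1 : ℕ) + m.1.1 + 1 = N ∧ (l.1.2 : ℕ) + m.1.2 + 1 = M) →
        Φ.B (b l) (b m) = 0) ∧
      ∀ l : Idx F H N M, ¬ (2 * (l.1.1 : ℕ) + 1 = N ∧ 2 * (l.1.2 : ℕ) + 1 = M) →
        Q (b l) = 0 := by
  classical
  obtain ⟨b, hbF, hbH, hB⟩ := Φ.exists_sd_basis2T (Or.inr hQ.alt) hN hF m0 hM hH
  have h2 := QF.hypt hQ
  set α : Idx F H N M → ℕ := fun l => l.1.1 with hα
  set β : Idx F H N M → ℕ := fun l => l.1.2 with hβ
  have hαN : ∀ l, α l < N := fun l => l.1.1.2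
  have hβM : ∀ l, β l < M := fun l => l.1.2.2
  obtain ⟨hW, hS⟩ := Φ.starN_perp hN hF m0 hH
  have hbS := adapted_starN hbF hbH M hM m0
  -- the positions above the middle
  let P : Idx F H N M → Prop := fun l => N < 2 * α l + 1 ∨ (2 * α l + 1 = N ∧ M < 2 * β l + 1)
  have hPS : ∀ l, P l → N * M ≤ 2 * (α l * M + β l) := by
    intro l h
    rcases h with h | ⟨h, h'⟩
    · have h3 : N * M ≤ 2 * α l * M := Nat.mul_le_mul_right M (by omega)
      nlinarith
    · have h9 : N * M = (2 * α l + 1) * M := congrArg (fun t => t * M) h.symm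
      have h8 : (2 * α l + 1) * M = 2 * (α l * M) + M := by ring
      omega
  obtain ⟨Z, hZ⟩ := Φ.exists_gram b (fun l m => if l = m ∧ P l then Q (b l) else 0)
  have hZ1 : ∀ l m, l ≠ m → Φ.B (b l) (Z (b m)) = 0 := by
    intro l m h
    rw [hZ, if_neg (fun e => h e.1)]
  have hZ2 : ∀ m, ¬ P m → Z (b m) = 0 := by
    intro m h
    apply Φ.eq_zero_of_right
    intro x
    have h3 : Φ.fn (Z (b m)) = 0 := b.ext fun l => by
      rw [Φ.fn_apply, LinearMap.zero_apply, hZ]
      refine if_neg ?_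
      rintro ⟨rfl, h'⟩
      exact h h'
    exact congrArg (fun f : E →ₗ[K] K => f x) h3
  have hZ3 : ∀ m, P m → Φ.B (b m) (Z (b m)) = Q (b m) := by
    intro m h
    rw [hZ, if_pos ⟨rfl, h⟩]
  -- `Z (b m)` lies opposite to `b m`
  have hopp : ∀ {S : Flag K E} {w : Idx F H N M → ℕ} {W : ℕ}, Adapted b w S →
      (∀ i ≤ W, Φ.perp (S i) = S (W - i)) → (∀ l, w l < W) →
      ∀ m, Z (b m) ∈ S (W - w m) := by
    intro S w W hb hS hw m
    rw [← hS _ (hw m).le, Φ.mem_perp']
    intro y hy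
    rw [hb (w m)] at hy
    have hle : Submodule.span K (b '' {l | w l < w m}) ≤ LinearMap.ker (Φ.fn (Z (b m))) := by
      rw [Submodule.span_le]
      rintro _ ⟨l, hl, rfl⟩
      have hl' : w l < w m := hl
      rw [SetLike.mem_coe, LinearMap.mem_ker, Φ.fn_apply]
      exact hZ1 l m fun e => by rw [e] at hl'; exact lt_irrefl _ hl'
    exact hle hy
  have hSN : ∀ l, α l * M + β l < N * M := fun l => hbS.self_mem_iff.mp (by rw [hW]; trivial)
  have hZF4 : ∀ m, Z (b m) ∈ F (N - α m) := hopp hbF hF hαN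
  have hZH4 : ∀ m, Z (b m) ∈ H (M - β m) := hopp hbH hH hβM
  have hZS4 : ∀ m, Z (b m) ∈ starN F H M m0 (N * M - (α m * M + β m)) := hopp hbS hS hSN
  have hZJ : Z ∈ Jr (starN F H M m0) := by
    rw [← Jk_one]
    refine (Φ.mem_Jk_iff hbS hW hS).mpr fun l m hlm => ?_
    rw [hZ]
    refine if_neg ?_
    rintro ⟨rfl, h⟩
    have := hPS l h
    omega
  have hZF : Z ∈ Pa F := (Φ.mem_Jk_iff (k := 0) hbF hN hF).mpr fun l m hlm => by
    rw [hZ]
    refine if_neg ?_
    rintro ⟨rfl, h⟩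
    have hlm' : α l + (α l + 1 - 0) < N := hlm
    rcases h with h | ⟨h, -⟩ <;> omega
  have hZH : Z ∈ Pa H := (Φ.mem_Jk_iff (k := 0) hbH hM hH).mpr fun l m hlm => by
    rw [hZ]
    split_ifs with h
    · obtain ⟨rfl, -⟩ := h
      have hlm' : β l + (β l + 1 - 0) < M := hlm
      exact hHs (β l + 1) (by omega) _ (hbH.self_mem_iff.mpr (Nat.lt_succ_self _))
    · rfl
  set r := oneAdd Z hZJ with hr
  have hrE : toEnd r = 1 + Z := toEnd_oneAdd Z hZJ
  have hrx : ∀ x, r.1 x = x + Z x := by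
    intro x
    change toEnd r x = _
    rw [hrE]
    rfl
  have hrF : r ∈ PF F := by
    rw [mem_PF_iff, hrE]
    exact (Pa F).add_mem (one_mem_Pa F) hZF
  have hrH : r ∈ PF H := by
    rw [mem_PF_iff, hrE]
    exact (Pa H).add_mem (one_mem_Pa H) hZH
  refine ⟨b.map r.1, ?_, ?_, ?_, ?_⟩
  · intro i
    have h1 : mapF r.1 F i = F i := by rw [mapF_eq_of_mem hrF]
    rw [← h1, mapF_apply, hbF i, Submodule.map_span, ← Set.image_comp]
    congr 1
  · intro i
    have h1 : mapF r.1 H i = H i := by rw [mapF_eq_of_mem hrH]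
    rw [← h1, mapF_apply, hbH i, Submodule.map_span, ← Set.image_comp]
    congr 1
  · intro l m hlm
    rw [Basis.map_apply, Basis.map_apply, hrx, hrx, Φ.add_left, Φ.add_right, Φ.add_right,
      hB l m hlm, hQ.sym (b m) (Z (b l)), hZ l m, hZ m l]
    have e1 : Φ.B (Z (b l)) (Z (b m)) = 0 := by
      by_cases h3 : P l
      · by_cases h4 : P m
        · have h5 : Z (b m) ∈ Φ.perp (starN F H M m0 (α m * M + β m)) := by
            rw [hS _ (hSN m).le]
            exact hZS4 m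
          have h6 := hPS l h3
          have h7 := hPS m h4
          exact (Φ.mem_perp'.mp h5) _ ((starN F H M m0).mono (by omega) (hZS4 l))
        · rw [hZ2 m h4, Φ.zero_right]
      · rw [hZ2 l h3, Φ.zero_left]
    rw [e1, zero_add, add_zero]
    by_cases h3 : l = m
    · subst h3
      split_ifs
      · exact h2 _
      · exact add_zero _
    · rw [if_neg (fun e => h3 e.1), if_neg (fun e => h3 e.1.symm), add_zero]
  · intro m hm
    have hm' : ¬ (2 * α m + 1 = N ∧ 2 * β m + 1 = M) := hm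
    rw [Basis.map_apply, hrx, hQ.add]
    by_cases h3 : P m
    · have h4 : Q (Z (b m)) = 0 := by
        rcases h3 with h | ⟨h, h'⟩
        · exact hFs (N - α m) (by omega) _ (hZF4 m)
        · exact hHs (M - β m) (by omega) _ (hZH4 m)
      rw [hZ3 m h3, h4, add_zero]
      exact h2 _
    · have h4 : Q (b m) = 0 := by
        have h5 : ¬ (N < 2 * α m + 1 ∨ (2 * α m + 1 = N ∧ M < 2 * β m + 1)) := h3
        by_cases h6 : 2 * α m + 1 = N
        · exact hHs (β m + 1) (by omega) _ (hbH.self_mem_iff.mpr (Nat.lt_succ_self _))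
        · exact hFs (α m + 1) (by omega) _ (hbF.self_mem_iff.mpr (Nat.lt_succ_self _))
      rw [hZ2 m h3, hQ.zero, Φ.zero_right, h4, add_zero, add_zero]

include hQ in
/-- **Two singular flags have a common singular basis.** -/
theorem sqBasis2 {F H : Flag K E} (hF : Oq.CQ Φ Q F) (hH : Oq.CQ Φ Q H) :
    Oq.SqBasis2 Φ Q F H := by
  obtain ⟨N, h0, hN, hF, hFs⟩ := hF
  obtain ⟨M, m0, hM, hH, hHs⟩ := hH
  obtain ⟨b, hb, hb', hB, hbQ⟩ := exists_sq_basis2 hQ hN hF m0 hM hH hFs hHs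
  exact ⟨N, M, _, FiniteDimensional.fintypeBasisIndex b, b, _, _, hN, hM, hb, hb', hB, hbQ⟩

omit [Finite K] in
include hQ in
theorem conj_mem {F : Flag K E} (hF : Oq.CQ Φ Q F) {g : SpecialLinearGroup K E}
    (hg : g ∈ IsoQ Q) : Oq.CQ Φ Q (mapF g.1 F) := by
  obtain ⟨N, h0, hN, hF, hFs⟩ := hF
  obtain ⟨N', h0', hN', hF'⟩ := Φ.SD_mapF ⟨N, h0, hN, hF⟩ (hQ.le hg)
  refine ⟨N, h0, ?_, ?_, ?_⟩
  · rw [mapF_apply, hN, Submodule.map_top, LinearMap.range_eq_top]
    exact g.1.surjective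
  · intro i hi
    have h1 := hF i hi
    rw [mapF_apply, mapF_apply, ← h1]
    ext x
    rw [Φ.mem_perp']
    constructor
    · intro h
      refine ⟨g.1.symm x, ?_, g.1.apply_symm_apply x⟩
      rw [SetLike.mem_coe, Φ.mem_perp']
      intro y hy
      have h3 := h (g.1 y) ⟨y, hy, rfl⟩
      have h4 := (hQ.le hg) y (g.1.symm x)
      have h5 : g (g.1.symm x) = x := g.1.apply_symm_apply x
      rw [h5] at h4
      exact h4.symm.trans h3
    · rintro ⟨z, hz, rfl⟩ y ⟨y, hy, rfl⟩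
      have h3 := (Φ.mem_perp'.mp hz) y hy
      exact ((hQ.le hg) y z).trans h3
  · rintro i hi x hx
    rw [mapF_apply] at hx
    obtain ⟨x, hx, rfl⟩ := hx
    exact (hg x).trans (hFs i hi x hx)

end Vale.Agent.P180.R2.H471.Or
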