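import Vale.Agent.P180.R2.H259.Oq.B0

set_option linter.all false

/-!
P180: quadratic forms in characteristic two: the index of `Ω(Q)` in the isometry group divides two.
-/

namespace Vale.Agent.P180.R2.H471.Or

open Module Vale.Agent.P180.R2.H854 Vale.Agent.P180 Vale.Agent.P180.R2.H259.Loc
  Vale.Agent.P180.R2.H259.Oq

variable {K E : Type*} [Field K] [AddCommGroup E] [Module K E] {Φ : HForm K E}
  {Q : E → K} (hQ : QF Φ Q) [FiniteDimensional K E] [Finite K]

include hQ in
/-- orthogonal transvections -/
theorem exists_tv {v : E} (hv : Q v ≠ 0) :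
    ∃ t : SpecialLinearGroup K E, t ∈ IsoQ Q ∧ ∀ x, t x = x + ((Q v)⁻¹ * Φ.B x v) • v := by
  classical
  have hiso : Submodule.span K {v} ≤ Φ.perp (Submodule.span K {v}) := by
    intro x hx y hy
    obtain ⟨a, rfl⟩ := Submodule.mem_span_singleton.mp hx
    obtain ⟨b, rfl⟩ := Submodule.mem_span_singleton.mp hy
    rw [Φ.smul_left, hQ.smul_r, hQ.alt, mul_zero, mul_zero]
  let f : E →ₗ[K] K := Φ.fn v
  let N : End K E := ((Q v)⁻¹ • f).smulRight v
  have hNx : ∀ x, N x = ((Q v)⁻¹ * Φ.B x v) • v := fun x => rfl
  have hN : N ∈ Jr (flag2 hiso) := by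
    intro i x hx
    rcases i with _ | _ | i
    · have h1 : x ∈ Submodule.span K {v} := hx
      obtain ⟨a, rfl⟩ := Submodule.mem_span_singleton.mp h1
      rw [hNx, Φ.smul_left, hQ.alt, mul_zero, mul_zero, zero_smul]
      exact Submodule.zero_mem _
    · have h1 : x ∈ Φ.perp (Submodule.span K {v}) := hx
      have h2 : Φ.B x v = 0 := h1 v (Submodule.mem_span_singleton_self v)
      rw [hNx, h2, mul_zero, zero_smul]
      exact Submodule.zero_mem _
    · refine (flag2 hiso).mono (show 1 ≤ i + 1 + 1 by omega) ?_
      change N x ∈ Submodule.span K {v}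
      rw [hNx]
      exact Submodule.smul_mem _ _ (Submodule.mem_span_singleton_self v)
  have ht : ∀ x, oneAdd N hN x = x + ((Q v)⁻¹ * Φ.B x v) • v := fun x => rfl
  refine ⟨oneAdd N hN, ?_, ht⟩
  intro x
  rw [ht, hQ.add, hQ.smul, hQ.smul_r]
  have h2 : Φ.B x v * (Φ.B x v) + Φ.B x v * Φ.B x v = 0 := QF.hypt hQ _
  have h3 : ((Q v)⁻¹ * Φ.B x v) ^ 2 * Q v = (Q v)⁻¹ * (Φ.B x v * Φ.B x v) := by
    field_simp
  rw [h3]
  linear_combination (Q v)⁻¹ * h2

omit [FiniteDimensional K E] [Finite K] in
theorem mem_ker' {g : SpecialLinearGroup K E} {x : E} :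
    x ∈ LinearMap.ker (toEnd g - 1) ↔ g x = x := by
  rw [LinearMap.mem_ker]
  exact sub_eq_zero

include hQ in
/-- multiplication by an orthogonal transvection changes the parity of the rank -/
theorem rank_tv {v : E} (hv : Q v ≠ 0) {t g : SpecialLinearGroup K E}
    (ht : ∀ x, t x = x + ((Q v)⁻¹ * Φ.B x v) • v) (hg : g ∈ IsoQ Q) :
    finrank K (LinearMap.ker (toEnd g - 1)) = finrank K (LinearMap.ker (toEnd (t * g) - 1)) + 1 ∨
      finrank K (LinearMap.ker (toEnd (t * g) - 1)) =
        finrank K (LinearMap.ker (toEnd g - 1)) + 1 := by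
  classical
  have hv0 : v ≠ 0 := by
    rintro rfl
    exact hv hQ.zero
  have hI : ∀ x y, Φ.B (g x) (g y) = Φ.B x y := hQ.le hg
  have hadd : ∀ x y : E, g (x + y) = g x + g y := fun x y => map_add (g : E ≃ₗ[K] E) x y
  have hsub : ∀ x y : E, g (x - y) = g x - g y := fun x y => map_sub (g : E ≃ₗ[K] E) x y
  have hsm : ∀ (c : K) (x : E), g (c • x) = c • g x := fun c x => map_smul (g : E ≃ₗ[K] E) c x
  have hfix : ∀ x, (t * g) x = x ↔ g x + ((Q v)⁻¹ * Φ.B (g x) v) • v = x := by
    intro x
    rw [mul_apply', ht]
  by_cases hU : v ∈ LinearMap.range (toEnd g - 1)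
  · right
    obtain ⟨z, hz⟩ := hU
    have hz' : g z = z + v := by
      have h1 : g z - z = v := hz
      rw [← h1]; abel
    -- the value of the form
    have hBv : Φ.B z v = Q v := by
      have h1 : Q (g z) = Q z := hg z
      rw [hz', hQ.add] at h1
      have h2 : Q v + Φ.B z v = 0 := by linear_combination h1
      have h3 := QF.hypt hQ (Q v)
      linear_combination h2 - h3
    have hker : LinearMap.ker (toEnd (t * g) - 1) =
        LinearMap.ker (toEnd g - 1) ⊔ Submodule.span K {z} := by
      apply le_antisymm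
      · intro x hx
        have h1 := (hfix x).mp (mem_ker'.mp hx)
        set a := (Q v)⁻¹ * Φ.B (g x) v with ha
        have h2 : x - (-a) • z ∈ LinearMap.ker (toEnd g - 1) := by
          rw [mem_ker', hsub, hsm, hz', smul_add]
          have h3 : g x = x - a • v := by
            rw [eq_sub_iff_add_eq]
            exact h1
          rw [h3, neg_smul, neg_smul]
          abel
        have h3 : x = (x - (-a) • z) + (-a) • z := by abel
        rw [h3]
        exact Submodule.add_mem_sup h2
          (Submodule.smul_mem _ _ (Submodule.mem_span_singleton_self z))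
      · refine sup_le ?_ ?_
        · intro x hx
          have h1 := mem_ker'.mp hx
          rw [mem_ker', hfix, h1]
          have h2 : Φ.B x v = 0 := by
            have h3 := hI x z
            rw [h1, hz', Φ.add_right] at h3
            linear_combination h3
          rw [h2, mul_zero, zero_smul, add_zero]
        · rw [Submodule.span_singleton_le_iff_mem, mem_ker', hfix, hz', Φ.add_left, hQ.alt,
            add_zero, hBv, inv_mul_cancel₀ hv, one_smul, add_assoc]
          have h1 : v + v = 0 := by
            have h2 : (1 : K) + 1 = 0 := QF.hypt hQ 1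
            calc v + v = ((1 : K) + 1) • v := by rw [add_smul, one_smul]
              _ = 0 := by rw [h2, zero_smul]
          rw [h1, add_zero]
    have hz0 : z ≠ 0 := by
      rintro rfl
      rw [show g 0 = 0 from map_zero (g : E ≃ₗ[K] E), zero_add] at hz'
      exact hv0 hz'.symm
    have hdis : LinearMap.ker (toEnd g - 1) ⊓ Submodule.span K {z} = ⊥ := by
      rw [eq_bot_iff]
      rintro x ⟨h1, h2⟩
      obtain ⟨a, rfl⟩ := Submodule.mem_span_singleton.mp h2
      have h3 := mem_ker'.mp h1
      rw [hsm, hz', smul_add] at h3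
      have h4 : a • v = 0 := by
        have := add_eq_left.mp h3
        exact this
      rcases smul_eq_zero.mp h4 with h5 | h5
      · rw [h5, zero_smul]
        exact Submodule.zero_mem _
      · exact absurd h5 hv0
    have h1 := Submodule.finrank_sup_add_finrank_inf_eq (LinearMap.ker (toEnd g - 1))
      (Submodule.span K {z})
    rw [hdis, finrank_bot, finrank_span_singleton hz0, add_zero] at h1
    rw [hker, h1]
  · left
    have hker : LinearMap.ker (toEnd (t * g) - 1) =
        LinearMap.ker (toEnd g - 1) ⊓ LinearMap.ker (Φ.fn v) := by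
      apply le_antisymm
      · intro x hx
        have h1 := (hfix x).mp (mem_ker'.mp hx)
        have h2 : Φ.B (g x) v = 0 := by
          by_contra h3
          apply hU
          have h4 : (Q v)⁻¹ * Φ.B (g x) v ≠ 0 := mul_ne_zero (inv_ne_zero hv) h3
          refine ⟨(-((Q v)⁻¹ * Φ.B (g x) v)⁻¹) • x, ?_⟩
          have h5 : (toEnd g - 1) x = -(((Q v)⁻¹ * Φ.B (g x) v) • v) := by
            change g x - x = _
            have h6 : x = g x + ((Q v)⁻¹ * Φ.B (g x) v) • v := h1.symm
            rw [eq_neg_iff_add_eq_zero]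
            calc g x - x + ((Q v)⁻¹ * Φ.B (g x) v) • v
                = (g x + ((Q v)⁻¹ * Φ.B (g x) v) • v) - x := by abel
              _ = 0 := by rw [← h6, sub_self]
          rw [map_smul, h5, smul_neg, neg_smul, neg_neg, smul_smul, inv_mul_cancel₀ h4, one_smul]
        have h3 : g x = x := by
          rw [h2, mul_zero, zero_smul, add_zero] at h1
          exact h1
        refine ⟨mem_ker'.mpr h3, ?_⟩
        rw [SetLike.mem_coe, LinearMap.mem_ker, Φ.fn_apply]
        rwa [h3] at h2
      · rintro x ⟨h1, h2⟩
        rw [SetLike.mem_coe, LinearMap.mem_ker, Φ.fn_apply] at h2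
        have h3 := mem_ker'.mp h1
        rw [mem_ker', hfix, h3, h2, mul_zero, zero_smul, add_zero]
    -- a fixed vector which is not orthogonal to `v`
    obtain ⟨k, hk, hkv⟩ : ∃ k ∈ LinearMap.ker (toEnd g - 1), Φ.fn v k ≠ 0 := by
      by_contra hcon
      push Not at hcon
      apply hU
      have hr : Φ.perp (LinearMap.range (toEnd g - 1)) ≤ LinearMap.ker (toEnd g - 1) := by
        intro x hx
        rw [mem_ker']
        have h1 : ∀ z, Φ.B (g x - x) (g z) = 0 := by
          intro z
          have h2 : Φ.B x (g z - z) = 0 := hx _ ⟨z, rfl⟩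
          rw [Φ.sub_left, hI]
          rw [Φ.sub_right] at h2
          linear_combination -h2
        have h2 : g x - x = 0 := by
          apply Φ.nondeg
          intro z
          have h3 := h1 (g⁻¹ z)
          rwa [apply_inv_self'] at h3
        exact sub_eq_zero.mp h2
      have h1 := Φ.perp_anti hr
      rw [Φ.perp_perp] at h1
      apply h1
      intro y hy
      have h2 := hcon y hy
      rw [Φ.fn_apply] at h2
      exact Φ.eq_zero_comm h2
    rw [hker]
    have h1 := LinearMap.finrank_range_add_finrank_ker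
      ((Φ.fn v).domRestrict (LinearMap.ker (toEnd g - 1)))
    have h2 : LinearMap.range ((Φ.fn v).domRestrict (LinearMap.ker (toEnd g - 1))) = ⊤ := by
      rw [LinearMap.range_eq_top]
      intro c
      refine ⟨(c * (Φ.fn v k)⁻¹) • ⟨k, hk⟩, ?_⟩
      rw [map_smul]
      change (c * (Φ.fn v k)⁻¹) • (Φ.fn v k) = c
      rw [smul_eq_mul, mul_assoc, inv_mul_cancel₀ hkv, mul_one]
    have h3 : finrank K (LinearMap.ker
        ((Φ.fn v).domRestrict (LinearMap.ker (toEnd g - 1)))) =
        finrank K (LinearMap.ker (toEnd g - 1) ⊓ LinearMap.ker (Φ.fn v) : Submodule K E) := by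
      rw [LinearMap.ker_domRestrict, ← Submodule.finrank_map_subtype_eq,
        Submodule.map_comap_subtype]
    rw [h2, finrank_top, finrank_self, h3] at h1
    omega

include hQ in
/-- **The index of `Ω(Q)` in the isometry group divides two.** -/
theorem relIndex_dvd {X : Subgroup (SpecialLinearGroup K E)} (hX : OmX Q X) :
    X.relIndex (IsoQ Q) ∣ 2 := by
  classical
  have hrk : ∀ g : SpecialLinearGroup K E, finrank K (LinearMap.range (toEnd g - 1)) +
      finrank K (LinearMap.ker (toEnd g - 1)) = finrank K E :=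
    fun g => LinearMap.finrank_range_add_finrank_ker _
  by_cases hv : ∃ v : E, Q v ≠ 0
  · obtain ⟨v, hv⟩ := hv
    obtain ⟨t, htQ, ht⟩ := exists_tv hQ hv
    have h1 : (X.subgroupOf (IsoQ Q)).index = 2 := by
      rw [Subgroup.index_eq_two_iff']
      refine ⟨⟨t, htQ⟩, fun b => ?_⟩
      rw [Subgroup.mem_subgroupOf, Subgroup.mem_subgroupOf, hX, hX]
      have h2 := rank_tv hQ hv ht b.2
      have h3 := hrk b.1
      have h4 := hrk (t * b.1)
      have h5 : (t * b.1) ∈ IsoQ Q := (IsoQ Q).mul_mem htQ b.2
      have h6 : Even (finrank K (LinearMap.range (toEnd (t * b.1) - 1))) ↔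
          ¬ Even (finrank K (LinearMap.range (toEnd b.1 - 1))) := by
        rcases h2 with h2 | h2
        · have e : finrank K (LinearMap.range (toEnd (t * b.1) - 1)) =
            finrank K (LinearMap.range (toEnd b.1 - 1)) + 1 := by omega
          rw [e, Nat.even_add_one]
        · have e : finrank K (LinearMap.range (toEnd b.1 - 1)) =
            finrank K (LinearMap.range (toEnd (t * b.1) - 1)) + 1 := by omega
          rw [e, Nat.even_add_one, not_not]
      by_cases h7 : Even (finrank K (LinearMap.range (toEnd b.1 - 1)))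
      · right
        exact ⟨⟨b.2, h7⟩, fun h => (h6.mp h.2) h7⟩
      · left
        exact ⟨⟨h5, h6.mpr h7⟩, fun h => h7 h.2⟩
    rw [Subgroup.relIndex, h1]
  · push Not at hv
    have hE : ∀ x : E, x = 0 := by
      intro x
      apply Φ.nondeg
      intro y
      have h1 := hQ.add x y
      rw [hv, hv, hv, zero_add, zero_add] at h1
      exact h1.symm
    have h1 : IsoQ Q ≤ X := by
      intro g hg
      refine (hX g).mpr ⟨hg, ?_⟩
      have h2 : LinearMap.range (toEnd g - 1) = ⊥ := by
        rw [eq_bot_iff]
        intro x _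
        rw [hE x]
        exact Submodule.zero_mem _
      rw [h2, finrank_bot]
      exact ⟨0, rfl⟩
    rw [Subgroup.relIndex_eq_one.mpr h1]
    exact one_dvd 2

end Vale.Agent.P180.R2.H471.Or
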