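import Vale.Agent.P180.R2.H259.Oq.B4
import Vale.Agent.P180.R2.H471.Or1
import Vale.Agent.P180.R2.H471.Or2
import Vale.Agent.P180.R2.H471.Oq10
import Vale.Agent.P180.R2.H799.CC1

set_option linter.all false

/-!
P180: the groups `Ω(Q)` in characteristic two and their perfect central extensions: small parabolic
systems, for the linear primes not dividing `|K| - 1`.
-/

namespace Vale.Agent.P180.R2.H471.Or

open Module Vale.Agent.P180 Vale.Agent.P180.R2.H799 Vale.Agent.P180.R2.H854
  Vale.Agent.P180.R2.H259.Loc Vale.Agent.P180.R2.H259.Oq Vale.Agent.P180.R2.H471.Hd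
  Vale.Agent.P180.R2.H799.CB Vale.Agent.P180.R2.H799.CA Vale.Agent.P180.R2.H471.Hc

variable {K E : Type} [Field K] [AddCommGroup E] [Module K E] [FiniteDimensional K E]
  [Finite K] {Φ : HForm K E} {Q : E → K} (hq : QF Φ Q)
  {X : Subgroup (SpecialLinearGroup K E)} (hX : OmX Q X)

include hq in
theorem cq_flag0 : Oq.CQ Φ Q (flag0 K E) := by
  obtain ⟨N, h0, hN, hF⟩ := SD_flag0 Φ
  refine ⟨1, one_pos, rfl, ?_, ?_⟩
  · intro i hi
    interval_cases i
    · exact Φ.perp_bot
    · exact Φ.perp_top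
  · intro i hi x hx
    have h1 : i = 0 := by omega
    subst h1
    have h2 : x = 0 := by
      have h3 : (flag0 K E).car 0 = ⊥ := (flag0 K E).zero
      rw [h3] at hx
      exact (Submodule.mem_bot K).mp hx
    rw [h2, hq.zero]

/-- a finite field with more than two elements -/
theorem exists_sq_ne (hK : 2 < Nat.card K) : ∃ c : K, c ^ 2 ≠ c := by
  classical
  by_contra hcon
  push Not at hcon
  have h1 : ∀ c : K, c = 0 ∨ c = 1 := by
    intro c
    have h2 : c * (c - 1) = 0 := by linear_combination hcon c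
    rcases mul_eq_zero.mp h2 with h | h
    · exact Or.inl h
    · exact Or.inr (sub_eq_zero.mp h)
  have h2 : Nat.card K ≤ 2 := by
    have hinj : Function.Injective (fun c : K => (decide (c = 0) : Bool)) := by
      intro a b hab
      have hab' : a = 0 ↔ b = 0 := by
        by_cases ha : a = 0 <;> by_cases hb : b = 0 <;> simp_all
      rcases h1 a with ha | ha
      · rw [ha, hab'.mp ha]
      · rcases h1 b with hb | hb
        · exact absurd (hab'.mpr hb) (by rw [ha]; exact one_ne_zero)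
        · rw [ha, hb]
    have h3 := Nat.card_le_card_of_injective _ hinj
    simpa using h3
  omega

include hq hX in
/-- **The groups `Ω(Q)`**, `|K|` even: the pairs `LevZ`, for the linear primes not dividing
`|K| - 1`. -/
theorem levZ_omega {p : ℕ} [Fact p.Prime] (hp2 : Odd p) (hd3 : 3 ≤ finrank K E)
    (hpK : ¬ p ∣ Nat.card K) (hK1 : ¬ p ∣ Nat.card K - 1) (hK3 : 3 < Nat.card K)
    (hlin : ∀ j : ℕ, (∀ c, Φ.θ c = c ^ (ringChar K ^ j)) → ¬ p ∣ ringChar K ^ j + 1)
    {L : Type} [Group L] (π : X →* L) (hπ : Function.Surjective π)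
    (hcen : ∀ x : X, π x ∈ Subgroup.center L → x.1 ∈ Subgroup.center (SpecialLinearGroup K E))
    {z : ℕ} (hz : (Nat.card K).Coprime z) {A : Subgroup L}
    (hab : ∀ Q : Subgroup X, IsPGroup p Q → Q.map π ≤ A → ∀ x ∈ Q, ∀ y ∈ Q, x * y = y * x)
    {m : ℕ} (hm : lvM (finrank K E) ≤ m) :
    LevZ p m z L A := by
  have hc : ∃ c : K, c ^ 2 ≠ c := exists_sq_ne (by omega)
  have h1 := flagGeo hq hX hc
  have h2 : ∀ F, CQ Φ Q F → VF F ⊓ IsoQ Q ≤ X := fun F hF => VF_le_X hq hX hF
  rw [CQ_eq hq] at h1 h2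
  exact Oq.levZ_Q hp2 hq (fun g hg => ((hX g).mp hg).1) (relIndex_dvd hq hX) h1 h2 (cq_flag0 hq)
    (fun F H hF hH => sqBasis2 hq hF hH) (fun F hF g hg => conj_mem hq hF hg) hd3 hpK hK1 hK3 hlin
    π hπ hcen hz hab hm

include hq hX in
/-- **Perfect central extensions of the groups `Ω(Q)`** modulo scalars, dimension less than `p`:
small parabolic systems, for the linear primes not dividing `|K| - 1`. -/
theorem levPair_omega {p : ℕ} [Fact p.Prime] (hd3 : 3 ≤ finrank K E) (hd : finrank K E < p)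
    (hpK : ¬ p ∣ Nat.card K) (hK1 : ¬ p ∣ Nat.card K - 1) (hK3 : 3 < Nat.card K)
    (hlin : ∀ j : ℕ, (∀ c, Φ.θ c = c ^ (ringChar K ^ j)) → ¬ p ∣ ringChar K ^ j + 1)
    {L : Type} [Group L] [Finite L] (hL : commutator L = ⊤)
    (π : X →* L ⧸ Subgroup.center L) (hπ : Function.Surjective π)
    (hker : ∀ x : X, π x = 1 → x.1 ∈ Subgroup.center (SpecialLinearGroup K E))
    (hrk : (Nat.card K).Coprime (Nat.card (Subgroup.center L))) (A : Subgroup L)
    {m : ℕ} (hm : lvM (finrank K E) ≤ m) : LevPair p m L A := by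
  have hp : p.Prime := Fact.out
  have hp2 : Odd p := hp.odd_of_ne_two (by omega)
  have hkk : (QuotientGroup.mk' (Subgroup.center L)).ker = Subgroup.center L :=
    QuotientGroup.ker_mk' _
  have hpk : ¬ p ∣ Nat.card (Subgroup.center L) :=
    not_dvd_centerQ' hq hX hpK hK1 hlin hd hL (QuotientGroup.mk'_surjective (Subgroup.center L))
      hkk.le π hπ
  have hcen := CC.center_quot hL
  refine levPair_lift (QuotientGroup.mk'_surjective (Subgroup.center L)) hkk.le
    (by rw [hkk]; exact hpk) (levZ_omega hq hX hp2 hd3 hpK hK1 hK3 hlin π hπ (fun x hx => ?_)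
      (by rw [hkk]; exact hrk) ?_ hm)
  · rw [hcen, Subgroup.mem_bot] at hx
    exact hker x hx
  · intro P hP _ x hx y hy
    exact Subtype.ext (H259.Cen.comm_of_lt' hpK hd (hP.map X.subtype) x.1 ⟨x, hx, rfl⟩ y.1 ⟨y, hy, rfl⟩)

end Vale.Agent.P180.R2.H471.Or
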