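import Vale.Agent.P180.R2.H259.Oq.C1
import Vale.Agent.P180.R2.H471.Or3
import Vale.Agent.P180.R2.H667.O2.D

set_option linter.all false

/-!
P180: the perfect central extensions of the groups `Ω(Q)` in characteristic two have small parabolic
systems, for all linear primes `p` greater than the dimension.
-/

namespace Vale.Agent.P180.R2.H471.Or

open Module Vale.Agent.P180 Vale.Agent.P180.R2.H799 Vale.Agent.P180.R2.H854
  Vale.Agent.P180.R2.H259.Loc Vale.Agent.P180.R2.H259.Oq Vale.Agent.P180.R2.H799.CB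

variable {K E : Type} [Field K] [AddCommGroup E] [Module K E] [FiniteDimensional K E]
  [Finite K] {Φ : HForm K E} {Q : E → K} (hq : QF Φ Q)
  {X : Subgroup (SpecialLinearGroup K E)} (hX : OmX Q X)

include hq hX in
/-- **Perfect central extensions of the groups `Ω(Q)`** modulo scalars, `|K| > 4` even, dimension
less than `p`, have small parabolic systems, for all linear primes `p`. -/
theorem pair_omega {p : ℕ} [Fact p.Prime] (hK : 4 < Nat.card K) (hd3 : 3 ≤ finrank K E)
    (hd : finrank K E < p) (hpK : ¬ p ∣ Nat.card K)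
    (hlin : ∀ j : ℕ, (∀ c, Φ.θ c = c ^ (ringChar K ^ j)) → ¬ p ∣ ringChar K ^ j + 1)
    {L : Type} [Group L] [Finite L] (hL : commutator L = ⊤)
    (π : X →* L ⧸ Subgroup.center L) (hπ : Function.Surjective π)
    (hker : ∀ x : X, π x = 1 → x.1 ∈ Subgroup.center (SpecialLinearGroup K E))
    (A : Subgroup L) : ParPair p L A ∨ LevPair p (lvM p) L A := by
  have hp : p.Prime := Fact.out
  have hp2 : Odd p := hp.odd_of_ne_two (by omega)
  have hrk := H667.O2.coprime_OmX hq hK hX hL π hπ hker
  have hcen := CC.center_quot hL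
  by_cases hp1 : p ∣ Nat.card K - 1
  · obtain ⟨ζ, hζ, hζ1⟩ : ∃ ζ : K, ζ ^ p = 1 ∧ ζ ≠ 1 := by
      rw [← Nat.card_units] at hp1
      obtain ⟨u, hu⟩ := exists_prime_orderOf_dvd_card' p hp1
      refine ⟨u, ?_, ?_⟩
      · rw [← Units.val_pow_eq_pow_val, ← hu, pow_orderOf_eq_one, Units.val_one]
      · intro h
        have h1 : u = 1 := Units.ext h
        rw [h1, orderOf_one] at hu
        exact hp.one_lt.ne hu
    exact Or.inl (parPair_cover hq hX hp2 hζ hζ1 hd hL π hπ hcen hker hrk A)
  · exact Or.inr (levPair_omega hq hX hd3 hd hpK hp1 (by omega) hlin hL π hπ hker hrk A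
      (CC.lvM_mono hd.le))

end Vale.Agent.P180.R2.H471.Or
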