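import Vale.Agent.P180.R2.H471.Cu7
import Vale.Agent.P180.R2.H589.Un.Main

/-!
P180: finite perfect groups `L` with `L/Z(L) ≅ PSU(d, K)`.
-/

set_option linter.all false

namespace Vale.Agent.P180.R2.H471.Cu

open Subgroup Module
open Vale.Agent.P180.R2.H589
open Vale.Agent.P180.R2.H589.Sch
open Vale.Agent.P180.R2.H589.Un

variable {K : Type} [Field K] [Finite K] {V : Type} [AddCommGroup V] [Module K V]
  [Module.Finite K V] {θ : K ≃+* K} {h : V → V → K} (hθ : Iv θ)

include hθ in
theorem smallU (hF : 4 < Nat.card (FF θ)) : SmallU θ := by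
  intro p _ _ V _ _ _ h hB hd
  exact copU_small hθ hF hB hd

include hθ in
/-- **The Schur multiplier of `SU(d, K)` is trivial**: every finite perfect `L` with
`L/Z(L) ≅ PSU(d, K)` is a quotient of `SU(d, K)` by scalars. -/
theorem exists_surj_un (hB : Hm θ h) (hF : 18 < Nat.card (FF θ))
    {X : Subgroup (SpecialLinearGroup K V)}
    (hX : ∀ g : SpecialLinearGroup K V, g ∈ X ↔ ∀ x y, h (g x) (g y) = h x y)
    {T : Type*} [Group T] {π : X →* T} (hπ : Function.Surjective π)
    (hker : ∀ x : X, π x = 1 ↔ (x : SpecialLinearGroup K V) ∈ center (SpecialLinearGroup K V))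
    {L : Type} [Group L] [Finite L] (hL : commutator L = ⊤) (e : L ⧸ center L ≃* T) :
    ∃ π' : X →* L, Function.Surjective π' ∧ ∀ x : X, π' x ∈ center L ↔
      (x : SpecialLinearGroup K V) ∈ center (SpecialLinearGroup K V) :=
  exists_surj_un' hθ hB hF (smallU hθ (by omega)) hX hπ hker hL e

end Vale.Agent.P180.R2.H471.Cu
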