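import Vale.Agent.P180.R2.H471.Au5

/-! Elements of odd order of the normaliser of a central quotient of `SL(d, K)`, `d ≥ 3`. -/

set_option linter.all false

namespace Vale.Agent.P180.R2.H471.Au

open Matrix Subgroup Module
open Vale.Agent.P180.R2.H589.Sch Vale.Agent.P180.R2.H589.Bt

theorem exists_semi {K : Type*} [Field K] [Finite K] {N : ℕ}
    {X Y : Matrix (Fin N) (Fin N) K} (hXY : X * Y = 1) (σ : K →+* K) :
    ∃ (σ' : K ≃+* K) (g : (Fin N → K) ≃+ (Fin N → K)), (∀ (c : K) v, g (c • v) = σ' c • g v) ∧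
      ∀ (x : GS N K) (v : Fin N → K), g ((x : Matrix (Fin N) (Fin N) K) *ᵥ v) =
        ((CJ hXY (Matrix.SpecialLinearGroup.map σ x) : GS N K) : Matrix (Fin N) (Fin N) K) *ᵥ
          (g v) := by
  have hYX : Y * X = 1 := mul_eq_one_comm.mp hXY
  let σ' : K ≃+* K := RingEquiv.ofBijective σ
    ⟨σ.injective, Finite.surjective_of_injective σ.injective⟩
  have hσ : ∀ c, σ' c = σ c := fun c => rfl
  let f : (Fin N → K) → (Fin N → K) := fun v => X *ᵥ (fun i => σ (v i))
  have hmap : ∀ (M : Matrix (Fin N) (Fin N) K) (v : Fin N → K),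
      (fun i => σ ((M *ᵥ v) i)) = (σ.mapMatrix M) *ᵥ (fun i => σ (v i)) := by
    intro M v
    funext i
    rw [Matrix.mulVec, Matrix.mulVec, dotProduct, dotProduct, map_sum]
    refine Finset.sum_congr rfl fun j _ => ?_
    rw [map_mul]
    rfl
  refine ⟨σ', AddEquiv.mk' ⟨f, fun w => fun i => σ'.symm ((Y *ᵥ w) i), fun v => ?_, fun w => ?_⟩
    fun v w => ?_, fun c v => ?_, fun x v => ?_⟩
  · funext i
    change σ'.symm ((Y *ᵥ (X *ᵥ (fun i => σ (v i)))) i) = v i
    rw [mulVec_mulVec, hYX, one_mulVec]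
    exact σ'.symm_apply_apply (v i)
  · change X *ᵥ (fun i => σ (σ'.symm ((Y *ᵥ w) i))) = w
    have h1 : (fun i => σ (σ'.symm ((Y *ᵥ w) i))) = Y *ᵥ w := by
      funext i
      exact σ'.apply_symm_apply _
    rw [h1, mulVec_mulVec, hXY, one_mulVec]
  · change X *ᵥ (fun i => σ ((v + w) i)) = X *ᵥ (fun i => σ (v i)) + X *ᵥ (fun i => σ (w i))
    rw [← mulVec_add]
    congr 1
    funext i
    exact map_add σ _ _
  · change X *ᵥ (fun i => σ ((c • v) i)) = σ c • (X *ᵥ (fun i => σ (v i)))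
    rw [← mulVec_smul]
    congr 1
    funext i
    exact map_mul σ _ _
  · change X *ᵥ (fun i => σ (((x : Matrix (Fin N) (Fin N) K) *ᵥ v) i)) =
      (X * (σ.mapMatrix (x : Matrix (Fin N) (Fin N) K)) * Y) *ᵥ (X *ᵥ (fun i => σ (v i)))
    rw [hmap, mulVec_mulVec, mulVec_mulVec, mul_assoc, mul_assoc, hYX, mul_one]

/-- **The semilinear form of the elements of odd order of `N_G(L)`**, `L` a central quotient of
`SL(d, K)`, `d ≥ 3`. -/
theorem semi_conj {K : Type*} [Field K] [Finite K] {d : ℕ} (hd : 3 ≤ d) {G : Type*} [Group G]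
    {L : Subgroup G} {π : _root_.SpecialLinearGroup K (Fin d → K) →* L}
    (hπ : Function.Surjective π) (hk : π.ker ≤ center _) {r : G}
    (hr : r ∈ normalizer (L : Set G)) {m : ℕ} (hm : Odd m) (h : r ^ m = 1) :
    ∃ (σ : K ≃+* K) (g : (Fin d → K) ≃+ (Fin d → K)), (∀ (c : K) v, g (c • v) = σ c • g v) ∧
      ∀ x y : _root_.SpecialLinearGroup K (Fin d → K), (∀ v, g (x v) = y (g v)) →
        r * (π x : G) * r⁻¹ = π y := by
  obtain ⟨n, rfl⟩ : ∃ n, d = n + 1 := ⟨d - 1, by omega⟩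
  let ι := Matrix.SpecialLinearGroup.toLin'_equiv (R := K) (n := Fin (n + 1))
  have hι : ∀ (x : GS (n + 1) K) (v : Fin (n + 1) → K),
      (ι x) v = (x : Matrix (Fin (n + 1)) (Fin (n + 1)) K) *ᵥ v := fun x v => rfl
  let π' : GS (n + 1) K →* L := π.comp ι.toMonoidHom
  have hπ' : Function.Surjective π' := hπ.comp ι.surjective
  have hk' : π'.ker ≤ center (GS (n + 1) K) := by
    intro x hx
    have h1 : ι x ∈ center (_root_.SpecialLinearGroup K (Fin (n + 1) → K)) := hk hx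
    rw [mem_center_iff] at h1 ⊢
    intro y
    apply ι.injective
    rw [map_mul, map_mul]
    exact h1 (ι y)
  let α : MulAut L := L.normalizerMonoidHom ⟨r, hr⟩
  have hα : ∀ l : L, ((α l : L) : G) = r * l * r⁻¹ := fun l => rfl
  have hα1 : α ^ m = 1 := by
    have h1 : (⟨r, hr⟩ : normalizer (L : Set G)) ^ m = 1 := Subtype.ext h
    change (L.normalizerMonoidHom ⟨r, hr⟩) ^ m = 1
    rw [← map_pow, h1, map_one]
  obtain ⟨X, Y, hXY, σ, hg⟩ := semi_of_odd (by omega) hπ' hk' α hm hα1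
  obtain ⟨σ', g, h1, h2⟩ := exists_semi hXY σ
  refine ⟨σ', g, h1, fun x y hxy => ?_⟩
  obtain ⟨x, rfl⟩ := ι.surjective x
  obtain ⟨y, rfl⟩ := ι.surjective y
  have h3 : CJ hXY (Matrix.SpecialLinearGroup.map σ x) = y := by
    apply ext_mulVec
    intro w
    obtain ⟨v, rfl⟩ := g.surjective w
    rw [← h2, ← hι, ← hι]
    exact hxy v
  rw [← h3]
  have h4 := congrArg (fun l : L => (l : G)) (hg x)
  exact h4

end Vale.Agent.P180.R2.H471.Au
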