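import Vale.Agent.P180.R2.H471.Is4
import Vale.Agent.P180.R2.H471.Au14
import Vale.Agent.P180.R2.H47.PairB
import Vale.Agent.P180.R2.H799.BT8

/-! The second case: `R ∩ L = 1`; the corner property. -/

set_option linter.all false

namespace Vale.Agent.P180.R2.H471.Is

open Module Subgroup Vale.Agent.P180 Vale.Agent.P180.H768.Gd Vale.Agent.P180.R2.H799
  Vale.Agent.P180.R2.H954 Vale.Agent.P180.R2.H854 Vale.Agent.P180.R2.H799.BS
  Vale.Agent.P180.R2.H854.TD Vale.Agent.P180.R2.H365 Vale.Agent.P180.R2.H47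
open Vale.Agent.P180.R2.H954.Hc (odd_of_lin)
open Vale.Agent.P180.R2.H471.Au (mem_normalizer_of mem_sup_of_inner)
open Vale.Agent.P180.R2.H471.He (CycOn cycOn_of_ker cor_of_cycOn)
open Vale.Agent.P180.R2.H259.Cyc (cycB cycB_mono)

section

variable {k : Type*} [Field k] {p : ℕ} [hp : Fact p.Prime] [CharP k p]
variable {K E : Type} [Field K] [Finite K] [AddCommGroup E] [Module K E] [FiniteDimensional K E]
variable {G : Type} [Group G] [Finite G]
variable {L R : Subgroup G} {X : Subgroup (SpecialLinearGroup K E)} {π : X →* L} {Φ : HForm K E}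

/-- **Second case**: `R ∩ L = 1`. -/
theorem cyc_of_bot (hR : IsPGroup p R)
    (hn : ∀ x ∈ R, ∀ s ∈ L, x * s * x⁻¹ ∈ L) (h1 : 1 ≤ finrank K E) (hpK : ¬ p ∣ Nat.card K)
    (hlin : ∀ j : ℕ, (∀ c : K, Φ.θ c = c ^ (ringChar K ^ j)) → ¬ p ∣ ringChar K ^ j + 1)
    (hX2 : X.relIndex Φ.Iso ∣ 2) (hV : ∀ F, Φ.SD F → VF F ⊓ Φ.Iso ≤ X)
    (hL : Lines Φ) (hπ : Function.Surjective π)
    (hk : π.ker.map X.subtype ≤ center (SpecialLinearGroup K E))
    (hact : ∀ r ∈ R, ∃ σ g, ActX Φ π r σ g)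
    {e z : MonoidAlgebra k G} (heL : e ∈ SubAlg k L)
    (hbr : br R e ≠ 0) (hzF : z ∈ Fix (cj k G) (L ⊓ R)) (hez : e = tr (cj k G) (L ⊓ R) L z)
    (hbot : L ⊓ R = ⊥) : CycOn R L := by
  classical
  obtain ⟨c₀, hc₀, hec₀⟩ := exists_coeff_of_br hbr
  have hc₀L : c₀ ∈ L := heL c₀ hec₀
  -- elements which act by inner automorphisms act trivially
  have htriv : ∀ r ∈ R, (∃ s ∈ L, ∃ c ∈ Subgroup.centralizer (L : Set G), r = s * c) →
      ∀ l ∈ L, r * l * r⁻¹ = l := by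
    intro r hr hs l hl
    let R' : Subgroup G := R ⊓ (L ⊔ Subgroup.centralizer (L : Set G))
    have hR'R : R' ≤ R := inf_le_left
    have hLR' : L ⊓ R' = L ⊓ R := by
      rw [hbot, eq_bot_iff, ← hbot]
      exact inf_le_inf_left _ hR'R
    have hin : ∀ r ∈ R', ∃ s ∈ L, ∃ c ∈ Subgroup.centralizer (L : Set G), r = s * c := by
      intro r hr
      have h1 : r ∈ L ⊔ Subgroup.centralizer (L : Set G) := hr.2
      obtain ⟨s, hs, c, hc, h⟩ := mem_sup_of_commute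
        (fun s hs c hc => Subgroup.mem_centralizer_iff.mp hc s hs) h1
      exact ⟨s, hs, c, hc, h.symm⟩
    have h1 := inner_of_coeff (S := L) (R := R') (hR.to_le hR'R) hin (e := e) (z := z)
      (by rw [hLR']; exact hzF) (by rw [hLR']; exact hez) hc₀L
      (fun r hr => hc₀ r (hR'R hr)) hec₀
    have hrR' : r ∈ R' := by
      refine ⟨hr, ?_⟩
      obtain ⟨s, hs, c, hc, rfl⟩ := hs
      exact Subgroup.mul_mem _ (Subgroup.mem_sup_left hs) (Subgroup.mem_sup_right hc)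
    obtain ⟨q, hq, h2⟩ := h1 r hrR'
    have h3 : q = 1 := by
      rw [hLR', hbot] at hq
      exact Subgroup.mem_bot.mp hq
    rw [h2 l hl, h3, one_mul, inv_one, mul_one]
  have hpow : ∀ r ∈ R, ∃ s, r ^ p ^ s = 1 := by
    intro r hr
    obtain ⟨s, hs⟩ := hR ⟨r, hr⟩
    exact ⟨s, congrArg Subtype.val hs⟩
  obtain ⟨c, hcR, hc⟩ := exists_cycX (R := R) hact
  refine cycOn_of_ker (N := R) (L := L) (M := R ⊓ Subgroup.centralizer (L : Set G)) hn ?_ ?_ ?_
    (c := c) hcR ?_ inf_le_left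
  · rintro x hx m ⟨hmR, hmC⟩
    refine ⟨R.mul_mem (R.mul_mem hx hmR) (R.inv_mem hx), ?_⟩
    refine Subgroup.mem_centralizer_iff.mpr fun l hl => ?_
    have h1 : x⁻¹ * l * x ∈ L := by
      have := hn x⁻¹ (R.inv_mem hx) l hl
      rwa [inv_inv] at this
    have h2 := Subgroup.mem_centralizer_iff.mp hmC _ h1
    calc l * (x * m * x⁻¹) = x * ((x⁻¹ * l * x) * m) * x⁻¹ := by group
      _ = x * (m * (x⁻¹ * l * x)) * x⁻¹ := by rw [h2]
      _ = x * m * x⁻¹ * l := by group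
  · rintro m ⟨-, hmC⟩ s hs
    exact (Subgroup.mem_centralizer_iff.mp hmC s hs).symm
  · rintro x ⟨hxR, -⟩ hxL
    have h1 : x ∈ L ⊓ R := ⟨hxL, hxR⟩
    rw [hbot] at h1
    exact Subgroup.mem_bot.mp h1
  · intro x hx
    obtain ⟨i, g, hA⟩ := hc x hx
    have hm : (c ^ i)⁻¹ * x ∈ R := R.mul_mem (R.inv_mem (R.zpow_mem hcR i)) hx
    obtain ⟨s, hs⟩ := hpow _ hm
    have h2 := htriv _ hm (linear hpK hlin h1 hX2 hV hL hk hπ hA hs)
    refine ⟨i, (c ^ i)⁻¹ * x, ⟨hm, ?_⟩, ?_⟩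
    · refine Subgroup.mem_centralizer_iff.mpr fun l hl => ?_
      have h3 := h2 l hl
      rw [mul_inv_eq_iff_eq_mul] at h3
      exact h3.symm
    · rw [mul_inv_cancel_left]

end

universe u

/-- `L` is a central quotient (modulo scalars) of a subgroup `X` of index one or two in the special
isometry group of a nondegenerate alternating, symmetric or hermitian form on `K ^ d`, `3 ≤ d`,
`4 ≤ d` if the form is not hermitian, `K` a finite field, `p` a linear prime, and the elements of `D`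
which normalise `L` act on `L` by semilinear similitudes. -/
def IsoSim (p : ℕ) {G : Type} [Group G] (D L : Subgroup G) : Prop :=
  ∃ (K : Type) (_ : Field K) (_ : Finite K) (d : ℕ) (Φ : HForm K (Fin d → K))
    (X : Subgroup (SpecialLinearGroup K (Fin d → K))) (π : X →* L),
      Φ.GoodX X ∧ ¬ p ∣ Nat.card K ∧
      (∀ j : ℕ, (∀ c, Φ.θ c = c ^ (ringChar K ^ j)) → ¬ p ∣ ringChar K ^ j + 1) ∧
      X ≤ Φ.Iso ∧ X.relIndex Φ.Iso ∣ 2 ∧ Function.Surjective π ∧
      (∀ x : X, π x ∈ center L → (x : SpecialLinearGroup K (Fin d → K)) ∈ center _) ∧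
      (4 ≤ d ∨ (3 ≤ d ∧ ∃ a, Φ.θ a ≠ a)) ∧
      ∀ r ∈ D, (∀ s ∈ L, r * s * r⁻¹ ∈ L) →
        ∃ (σ : K ≃+* K) (g : (Fin d → K) → (Fin d → K)), ActX Φ π r σ g

/-- **The corner property of central quotients of groups of isometries**, if `N_D(L)` acts
trivially on `D ∩ L` modulo the centre and by semilinear similitudes; no condition on field
automorphisms. -/
theorem corP_ab {k : Type u} [Field k] [IsAlgClosed k] {p C n : ℕ} [Fact p.Prime] [CharP k p]
    {G : Type} [Group G] [Finite G] {D L : Subgroup G} (hD : IsPGroup p D)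
    (hDn : Nat.card D ≤ n) (h : IsoSim p D L)
    (hcc : ∀ x ∈ D, x ∈ Subgroup.normalizer (L : Set G) → ∀ y ∈ D, y ∈ L → ∀ l ∈ L,
      (x * y * x⁻¹ * y⁻¹) * l = l * (x * y * x⁻¹ * y⁻¹))
    (b : MonoidAlgebra k G)
    (hB : ∀ R : Subgroup G, R ≤ D → R ≤ L ⊔ Subgroup.centralizer (L : Set G) →
      H365.CorP p C b R L) : H365.CorP p (max C (cycB p n)) b D L := by
  obtain ⟨K, _, _, d, Φ, X, π, hK, hpK, hlin, hXI, hX2, hπ, hc, hd4, hact⟩ := h
  haveI : Finite (SpecialLinearGroup K (Fin d → K)) := BN.finite_sl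
  have hfd : finrank K (Fin d → K) = d := by rw [Module.finrank_fin_fun]
  have hd3 : 3 ≤ d := by
    rcases hd4 with h | h
    · omega
    · exact h.1
  have hL : Lines Φ := by
    refine lines_of_form Φ (Φ.trT hK.or3) (by rw [hfd]; exact hd3) ?_
      (exists_isotropic Φ (by rw [hfd]; exact hd3))
    rw [hfd]
    rcases hd4 with h | h
    · exact Or.inl h
    · exact Or.inr h.2
  have hV : ∀ F, Φ.SD F → VF F ⊓ Φ.Iso ≤ X := fun F _ => hK.hV hX2 F
  have hk : π.ker.map X.subtype ≤ center (SpecialLinearGroup K (Fin d → K)) := by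
    rintro _ ⟨x, hx, rfl⟩
    apply hc
    rw [MonoidHom.mem_ker.mp hx]
    exact one_mem _
  rintro R hRD hn e he heR hbr ⟨z, hz, hzF, hez⟩ hez'
  have hR : IsPGroup p R := hD.to_le hRD
  have heL : e ∈ SubAlg k L := he.block.mem.1
  have heF : e ∈ Fix (cj k G) L := he.block.mem.2
  have hee : e * e = e := he.block.idem
  have hact' : ∀ r ∈ R, ∃ σ g, ActX Φ π r σ g := fun r hr => hact r (hRD hr) (hn r hr)
  have hcc' : ∀ x ∈ R, ∀ y ∈ R, y ∈ L → ∀ l ∈ L,
      (x * y * x⁻¹ * y⁻¹) * l = l * (x * y * x⁻¹ * y⁻¹) := fun x hx y hy hyL =>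
    hcc x (hRD hx) (mem_normalizer_of hn hx) y (hRD hy) hyL
  obtain ⟨Q, hQp, hQR⟩ : ∃ Q : Subgroup X, IsPGroup p Q ∧
      Q.map π = R.subgroupOf L := BN.exists_lift (p := p) π hπ
    (hR.comap_of_injective L.subtype L.subtype_injective : IsPGroup p (R.subgroupOf L))
  by_cases hQ1 : Q = ⊥
  · have hbot : L ⊓ R = ⊥ := by
      rw [hQ1, Subgroup.map_bot] at hQR
      rw [eq_bot_iff]
      rintro x ⟨hxL, hxR⟩
      have h1 : (⟨x, hxL⟩ : L) ∈ R.subgroupOf L := hxR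
      rw [← hQR, Subgroup.mem_bot] at h1
      exact Subgroup.mem_bot.mpr (congrArg Subtype.val h1)
    have h1 := cyc_of_bot hR hn (by rw [hfd]; omega) hpK hlin hX2 hV hL hπ hk hact' heL hbr hzF
      hez hbot
    obtain ⟨m, f, hf, hsp⟩ := cor_of_cycOn hR h1 hn he.block heR hbr ⟨z, hz, hzF, hez⟩ hez'
    have h4 : Nat.card R ≤ n :=
      (Nat.card_le_card_of_injective _ (Subgroup.inclusion_injective hRD)).trans hDn
    exact ⟨m, f, fun j => ⟨(hf j).1, (hf j).2.1, (hf j).2.2.1,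
      ((hf j).2.2.2.trans (cycB_mono h4)).trans (le_max_right _ _)⟩, hsp⟩
  · have h1 := inner_of_ne hR hn (by rw [hfd]; omega) hpK hlin hXI hX2 hV hL hπ hc hact' hcc' heL
      heF hee hbr hzF hez hQp hQR hQ1
    have h2 : R ≤ L ⊔ Subgroup.centralizer (L : Set G) := by
      intro r hr
      obtain ⟨s, hs, c, hc, rfl⟩ := h1 r hr
      exact Subgroup.mul_mem _ (Subgroup.mem_sup_left hs) (Subgroup.mem_sup_right hc)
    obtain ⟨m, f, hf, hsp⟩ := hB R hRD h2 R le_rfl hn e he heR hbr ⟨z, hz, hzF, hez⟩ hez'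
    exact ⟨m, f, fun j => ⟨(hf j).1, (hf j).2.1, (hf j).2.2.1,
      (hf j).2.2.2.trans (le_max_left _ _)⟩, hsp⟩

end Vale.Agent.P180.R2.H471.Is
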