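import Vale.Agent.P180.R2.H471.El4
import Vale.Agent.P180.R2.H259.Tg.G5

/-! The corner property of tame pairs `(L, D ∩ L)`, `L` a central quotient of `SL(d, K)`, without a
condition on outer automorphisms, also for `p = 2`: `N_D(L)` acts trivially on `D ∩ L` modulo the
centre, or `D ∩ L` is elementary abelian modulo the centre. -/

set_option linter.all false

namespace Vale.Agent.P180.R2.H471.El

open Module Subgroup Vale.Agent.P180 Vale.Agent.P180.H768.Gd Vale.Agent.P180.R2.H799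
  Vale.Agent.P180.R2.H954 Vale.Agent.P180.R2.H365 Vale.Agent.P180.R2.H47
open Vale.Agent.P180.R2.H471.Au
open Vale.Agent.P180.R2.H259.Tg (IsSLd inf_eq_of_tr)

universe u

/-- `p = 2`: if `4` divides `|K| - 1` and `d` is odd then `D ∩ L` is not elementary abelian modulo
the centre. -/
theorem corP_two_el {k : Type u} [Field k] [IsAlgClosed k] {C : ℕ} [CharP k 2]
    {G : Type} [Group G] [Finite G] {D L : Subgroup G} (hD : IsPGroup 2 D)
    {K : Type} [Field K] [Finite K] {d : ℕ} {π : SpecialLinearGroup K (Fin d → K) →* L}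
    (hd : 3 ≤ d) (h2d : ¬ 2 ∣ d) (h4 : 4 ∣ Nat.card K - 1) (hpK : ¬ 2 ∣ Nat.card K)
    (hπ : Function.Surjective π) (hk : π.ker ≤ Subgroup.center _)
    (hab : ∀ x ∈ D, x ∈ L → ∀ y ∈ D, y ∈ L → ∀ l ∈ L,
      (x * y * x⁻¹ * y⁻¹) * l = l * (x * y * x⁻¹ * y⁻¹))
    (hel : ∀ y ∈ D, y ∈ L → ∀ l ∈ L, y ^ 2 * l = l * y ^ 2)
    (hr : ∃ x ∈ D, x ∈ L ∧ ¬ ∀ y ∈ L, x * y = y * x)
    {b : MonoidAlgebra k G} (hbF : b ∈ Fix (cj k G) ⊤) (hb : br D b ≠ 0) :
    H365.CorP 2 C b D L := by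
  haveI : Fact (Nat.Prime 2) := ⟨Nat.prime_two⟩
  haveI : Finite (SpecialLinearGroup K (Fin d → K)) := BN.finite_sl
  rintro R hRD hn e he heR hbr ⟨z, hz, hzF, hez⟩ hez'
  exfalso
  have hR : IsPGroup 2 R := hD.to_le hRD
  have heL : e ∈ SubAlg k L := he.block.mem.1
  have heF : e ∈ Fix (cj k G) L := he.block.mem.2
  have hee : e * e = e := he.block.idem
  obtain ⟨Q, hQp, hQR⟩ : ∃ Q : Subgroup (SpecialLinearGroup K (Fin d → K)), IsPGroup 2 Q ∧
      Q.map π = R.subgroupOf L := BN.exists_lift (p := 2) π hπ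
    (hR.comap_of_injective L.subtype L.subtype_injective : IsPGroup 2 (R.subgroupOf L))
  have hQ1 : Q ≠ ⊥ := by
    intro hQ1
    have hbot : L ⊓ R = ⊥ := by
      rw [hQ1, Subgroup.map_bot] at hQR
      rw [eq_bot_iff]
      rintro x ⟨hxL, hxR⟩
      have h1 : (⟨x, hxL⟩ : L) ∈ R.subgroupOf L := hxR
      rw [← hQR, Subgroup.mem_bot] at h1
      exact Subgroup.mem_bot.mpr (congrArg Subtype.val h1)
    rw [inf_eq_of_tr hD hRD hbF hb he hzF hez] at hbot
    obtain ⟨x, hxD, hxL, hx⟩ := hr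
    apply hx
    have h1 : x ∈ L ⊓ D := ⟨hxL, hxD⟩
    rw [hbot, Subgroup.mem_bot] at h1
    intro y _
    rw [h1, one_mul, mul_one]
  obtain ⟨hQC, hel'⟩ := pclosed_of_ab hR hn hd hpK (fun h => h2d h.1) hπ hk
    (fun x hx hxL y hy hyL => hab x (hRD hx) hxL y (hRD hy) hyL)
    (fun y hy hyL => hel y (hRD hy) hyL) heL heF hee hbr hzF hez hQp hQR
  exact two_false h4 (by rw [Module.finrank_fin_fun]; exact h2d) hQp hQ1 hQC hel'

/-- **The corner property of tame pairs**, `L` a central quotient of `SL(d, K)` as in `IsSLd`. -/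
theorem corP_sld {k : Type u} [Field k] [IsAlgClosed k] {p m n : ℕ} [Fact p.Prime] [CharP k p]
    {G : Type} [Group G] [Finite G] {D L : Subgroup G} (hD : IsPGroup p D)
    (hDn : Nat.card D ≤ n) (hL : IsSLd p L) (hc : AbEl p D L)
    (h : TamePair p m L (D.subgroupOf L))
    (hr : ∃ x ∈ D, x ∈ L ∧ ¬ ∀ y ∈ L, x * y = y * x)
    {b : MonoidAlgebra k G} (hbF : b ∈ Fix (cj k G) ⊤) (hb : br D b ≠ 0) :
    H365.CorP p (abP p n m) b D L := by
  rcases hc with hc | hc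
  · exact H259.Tg.corP_abTame hD hDn hL hc h hr hbF hb
  · obtain ⟨K, _, _, d, π, hd, hpK, hcop, h2, hπ, hk⟩ := hL
    by_cases hp2 : p = 2
    · subst hp2
      have h4 : 4 ∣ Nat.card K - 1 := h2.resolve_left fun h => h rfl
      exact corP_two_el hD hd (fun h => hcop ⟨h, (by norm_num : (2 : ℕ) ∣ 4).trans h4⟩) h4 hpK hπ
        hk hc.1 hc.2 hr hbF hb
    · exact corP_elTame hD hDn hp2 ⟨K, inferInstance, inferInstance, d, π, hd, hpK, hcop, hπ, hk⟩
        hc.1 hc.2 h b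

end Vale.Agent.P180.R2.H471.El
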