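import Vale.Agent.P180.R2.H471.Os5
import Vale.Agent.P180.R2.H471.Or3
import Vale.Agent.P180.R2.H799.CC1
import Vale.Agent.P180.R2.H667.O2.D

/-!
P180: the perfect central extensions `L` of the orthogonal groups modulo scalars, `p` not a divisor
of `|Z(L)|`, have small parabolic systems, for all linear primes: for the `p`-subgroups of `L` which
are abelian modulo `Z(L)`.
-/

set_option linter.all false

namespace Vale.Agent.P180.R2.H471.Os

open Module Vale.Agent.P180 Vale.Agent.P180.R2.H799 Vale.Agent.P180.R2.H854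
  Vale.Agent.P180.R2.H954.Hc Vale.Agent.P180.R2.H799.CA Vale.Agent.P180.R2.H854.TD
  Vale.Agent.P180.R2.H471.Hd Vale.Agent.P180.R2.H471.Hc Vale.Agent.P180.R2.H799.CB

section Form

variable {K E : Type} [Field K] [AddCommGroup E] [Module K E] [FiniteDimensional K E]
  [Finite K]

/-- The `p`-subgroups of `X` with image in a subgroup which is abelian modulo the centre. -/
theorem comm_modZ {p : ℕ} (hp : p.Prime) (hpK : ¬ p ∣ Nat.card K) (Φ : HForm K E)
    (hlin : ∀ j : ℕ, (∀ c, Φ.θ c = c ^ (ringChar K ^ j)) → ¬ p ∣ ringChar K ^ j + 1)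
    {X : Subgroup (SpecialLinearGroup K E)} (hXI : X ≤ Φ.Iso) {L : Type} [Group L]
    (π : X →* L ⧸ Subgroup.center L)
    (hker : ∀ x : X, π x = 1 → x.1 ∈ Subgroup.center (SpecialLinearGroup K E)) {A : Subgroup L}
    (hab : ∀ x ∈ A, ∀ y ∈ A, x * y * x⁻¹ * y⁻¹ ∈ Subgroup.center L) (Q : Subgroup X)
    (hQ : IsPGroup p Q) (hQA : Q.map π ≤ A.map (QuotientGroup.mk' (Subgroup.center L))) :
    ∀ x ∈ Q, ∀ y ∈ Q, x * y = y * x := by
  intro x hx y hy
  have hc : x * y * x⁻¹ * y⁻¹ ∈ Q :=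
    Q.mul_mem (Q.mul_mem (Q.mul_mem hx hy) (Q.inv_mem hx)) (Q.inv_mem hy)
  obtain ⟨a, ha, hax⟩ := hQA ⟨x, hx, rfl⟩
  obtain ⟨b, hb, hby⟩ := hQA ⟨y, hy, rfl⟩
  have h1 : π (x * y * x⁻¹ * y⁻¹) = 1 := by
    rw [map_mul, map_mul, map_mul, map_inv, map_inv, ← hax, ← hby, ← map_inv, ← map_inv,
      ← map_mul, ← map_mul, ← map_mul]
    exact (QuotientGroup.eq_one_iff _).mpr (hab a ha b hb)
  obtain ⟨i, hi⟩ := hQ ⟨_, hc⟩
  have h2 : (x * y * x⁻¹ * y⁻¹ : X).1 ^ p ^ i = 1 :=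
    congrArg (fun w : Q => (w.1 : SpecialLinearGroup K E)) hi
  have h3 := scalar_eq_one_lin hp hpK Φ hlin (hXI (x * y * x⁻¹ * y⁻¹).2) (hker _ h1) h2
  have h4 : x * y * x⁻¹ * y⁻¹ = 1 := Subtype.ext h3
  calc x * y = (x * y * x⁻¹ * y⁻¹) * (y * x) := by group
    _ = y * x := by rw [h4, one_mul]

/-- **Perfect central extensions of isometry groups**, `p` not a divisor of `|Z(L)|`, have small
parabolic systems, for all linear primes. -/
theorem lev_odd {p : ℕ} [Fact p.Prime] (Φ : HForm K E)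
    {X : Subgroup (SpecialLinearGroup K E)} (hgood : Φ.GoodX X) (hXI : X ≤ Φ.Iso)
    (hX2 : X.relIndex Φ.Iso ∣ 2) (hpK : ¬ p ∣ Nat.card K) (hK3 : 3 < Nat.card K)
    (hlin : ∀ j : ℕ, (∀ c, Φ.θ c = c ^ (ringChar K ^ j)) → ¬ p ∣ ringChar K ^ j + 1)
    {L : Type} [Group L] [Finite L] (hL : commutator L = ⊤)
    (π : X →* L ⧸ Subgroup.center L) (hπ : Function.Surjective π)
    (hker : ∀ x : X, π x = 1 → x.1 ∈ Subgroup.center (SpecialLinearGroup K E))
    (hpk : ¬ p ∣ Nat.card (Subgroup.center L))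
    (hrk : (Nat.card K).Coprime (Nat.card (Subgroup.center L))) {A : Subgroup L}
    (hab : ∀ x ∈ A, ∀ y ∈ A, x * y * x⁻¹ * y⁻¹ ∈ Subgroup.center L)
    {m : ℕ} (hm : lvM (finrank K E) ≤ m) : LevPair p m L A := by
  have hp : p.Prime := Fact.out
  have hp2 : Odd p := odd_of_lin hp hpK Φ.θ hlin
  have hkk : (QuotientGroup.mk' (Subgroup.center L)).ker = Subgroup.center L :=
    QuotientGroup.ker_mk' _
  have hcen := H799.CC.center_quot hL
  refine levPairR_lift (QuotientGroup.mk'_surjective (Subgroup.center L)) hkk.le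
    (by rw [hkk]; exact hpk) (levZR_form hp2 Φ hgood hXI hX2 hpK hK3 hlin π hπ (fun x hx => ?_)
      (by rw [hkk]; exact hrk) (comm_modZ hp hpK Φ hlin hXI π hker hab) hm)
  rw [hcen, Subgroup.mem_bot] at hx
  exact hker x hx

end Form

section Two

open Vale.Agent.P180.R2.H259.Loc Vale.Agent.P180.R2.H471.Oq Vale.Agent.P180.R2.H259.Oq
  Vale.Agent.P180.R2.H471.Or

variable {K E : Type} [Field K] [AddCommGroup E] [Module K E] [FiniteDimensional K E]
  [Finite K] {Φ : HForm K E} {Q : E → K} (hq : QF Φ Q)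
  {X : Subgroup (SpecialLinearGroup K E)} (hX : OmX Q X)

include hq hX in
/-- **Perfect central extensions of the groups `Ω(Q)`** modulo scalars, `|K|` even, `p` not a
divisor of `|Z(L)|`, have small parabolic systems, for all linear primes. -/
theorem lev_even {p : ℕ} [Fact p.Prime] (hd3 : 3 ≤ finrank K E)
    (hpK : ¬ p ∣ Nat.card K) (hK3 : 3 < Nat.card K)
    (hlin : ∀ j : ℕ, (∀ c, Φ.θ c = c ^ (ringChar K ^ j)) → ¬ p ∣ ringChar K ^ j + 1)
    {L : Type} [Group L] [Finite L] (hL : commutator L = ⊤)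
    (π : X →* L ⧸ Subgroup.center L) (hπ : Function.Surjective π)
    (hker : ∀ x : X, π x = 1 → x.1 ∈ Subgroup.center (SpecialLinearGroup K E))
    (hpk : ¬ p ∣ Nat.card (Subgroup.center L))
    (hrk : (Nat.card K).Coprime (Nat.card (Subgroup.center L))) {A : Subgroup L}
    (hab : ∀ x ∈ A, ∀ y ∈ A, x * y * x⁻¹ * y⁻¹ ∈ Subgroup.center L)
    {m : ℕ} (hm : lvM (finrank K E) ≤ m) : LevPair p m L A := by
  have hp : p.Prime := Fact.out
  have hp2 : Odd p := odd_of_lin hp hpK Φ.θ hlin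
  have hkk : (QuotientGroup.mk' (Subgroup.center L)).ker = Subgroup.center L :=
    QuotientGroup.ker_mk' _
  have hcen := H799.CC.center_quot hL
  have hc : ∃ c : K, c ^ 2 ≠ c := exists_sq_ne (by omega)
  have h1 := flagGeo hq hX hc
  have h2 : ∀ F, H259.Oq.CQ Φ Q F → VF F ⊓ IsoQ Q ≤ X := fun F hF => VF_le_X hq hX hF
  have hXI : X ≤ Φ.Iso := le_trans (fun g hg => ((hX g).mp hg).1) hq.le
  rw [CQ_eq hq] at h1 h2
  refine levPairR_lift (QuotientGroup.mk'_surjective (Subgroup.center L)) hkk.le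
    (by rw [hkk]; exact hpk) (levZR_Q hp2 hq (fun g hg => ((hX g).mp hg).1) (relIndex_dvd hq hX)
      h1 h2 (cq_flag0 hq) (fun F H hF hH => sqBasis2 hq hF hH)
      (fun F hF g hg => conj_mem hq hF hg) hd3 hpK hK3 hlin π hπ (fun x hx => ?_)
      (by rw [hkk]; exact hrk) (comm_modZ hp hpK Φ hlin hXI π hker hab) hm)
  rw [hcen, Subgroup.mem_bot] at hx
  exact hker x hx

include hq hX in
/-- **Perfect central extensions of the groups `Ω(Q)`** modulo scalars, `|K| > 4` even, `p` not a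
divisor of `|Z(L)|`: the pairs for the `p`-subgroups which are abelian modulo the centre. -/
theorem pairZ_even {p : ℕ} [Fact p.Prime] (hd3 : 3 ≤ finrank K E)
    (hpK : ¬ p ∣ Nat.card K) (hK4 : 4 < Nat.card K)
    (hlin : ∀ j : ℕ, (∀ c, Φ.θ c = c ^ (ringChar K ^ j)) → ¬ p ∣ ringChar K ^ j + 1)
    {L : Type} [Group L] [Finite L] (hL : commutator L = ⊤)
    (π : X →* L ⧸ Subgroup.center L) (hπ : Function.Surjective π)
    (hker : ∀ x : X, π x = 1 → x.1 ∈ Subgroup.center (SpecialLinearGroup K E))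
    (hpk : ¬ p ∣ Nat.card (Subgroup.center L)) {m : ℕ} (hm : finrank K E ≤ m) (A : Subgroup L)
    (hA : IsPGroup p A) (hab : ∀ x ∈ A, ∀ y ∈ A, x * y * x⁻¹ * y⁻¹ ∈ Subgroup.center L) :
    ParPair p L A ∨ LevPair p (lvM m) L A :=
  Or.inr (lev_even hq hX hd3 hpK (by omega) hlin hL π hπ hker hpk
    (H667.O2.coprime_OmX hq hK4 hX hL π hπ hker) hab (H799.CC.lvM_mono hm))

end Two

section Odd

open Vale.Agent.P180.R2.H365

variable {K : Type} [Field K] [Finite K] {d : ℕ}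

/-- **Perfect central extensions of orthogonal groups** modulo scalars, `|K| > 9` odd, `p` not a
divisor of `|Z(L)|`: the pairs for the `p`-subgroups which are abelian modulo the centre. -/
theorem pairZ_odd {p : ℕ} [Fact p.Prime] (hpK : ¬ p ∣ Nat.card K) (hodd : Odd (Nat.card K))
    (hK9 : 9 < Nat.card K) (hlin : LinPr p (RingHom.id K))
    {B : (Fin d → K) → (Fin d → K) → K} {X : Subgroup (SpecialLinearGroup K (Fin d → K))}
    (hB : FormOn B (RingHom.id K) 1) (hX : IsoOn B X)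
    {L : Type} [Group L] [Finite L] (hL : commutator L = ⊤)
    (π : X →* L ⧸ Subgroup.center L) (hπ : Function.Surjective π)
    (hker : ∀ x : X, π x = 1 →
      (x : SpecialLinearGroup K (Fin d → K)) ∈ Subgroup.center (SpecialLinearGroup K (Fin d → K)))
    (hpk : ¬ p ∣ Nat.card (Subgroup.center L)) {m : ℕ} (hm : d ≤ m) (A : Subgroup L)
    (hA : IsPGroup p A) (hab : ∀ x ∈ A, ∀ y ∈ A, x * y * x⁻¹ * y⁻¹ ∈ Subgroup.center L) :
    ParPair p L A ∨ LevPair p (lvM m) L A := by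
  obtain ⟨f1, f2, -, -, f3', f4⟩ := hB
  obtain ⟨f5, f6, -⟩ := hX
  have f3 : ∀ x y, B y x = B x y := fun x y =>
    (f3' x y).trans (by rw [RingHom.id_apply, one_mul])
  let Φ : HForm K (Fin d → K) :=
    { B := B, θ := RingHom.id K, ε := 1, add_left := f1, smul_left := f2, θθ := fun _ => rfl
      εε := by rw [map_one, mul_one]
      symm := fun x y => by rw [RingHom.id_apply, one_mul, f3]
      nondeg := f4 }
  have hXI : X ≤ Φ.Iso := f5
  have hX2 : X.relIndex Φ.Iso ∣ 2 :=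
    H799.CC.relIndex_of_two fun g hg g' hg' hgX hgX' => f6 g g' hgX hgX' hg hg'
  have hgood : Φ.GoodX X := Or.inl hodd
  have hsq : ∀ g : SpecialLinearGroup K (Fin d → K), (∀ x y, B (g x) (g y) = B x y) →
      g ^ 2 ∈ X := by
    intro g hg
    rw [sq]
    by_cases hgX : g ∈ X
    · exact X.mul_mem hgX hgX
    · exact f6 g g hgX hgX hg hg
  have hrk := H589.Or.coprime_center hodd hK9 f1 f2 f3 f4 f5 hsq hL π hπ hker
  refine Or.inr (lev_odd Φ hgood hXI hX2 hpK (by omega) hlin hL π hπ hker hpk hrk hab ?_)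
  rw [Module.finrank_fin_fun]
  exact H799.CC.lvM_mono hm

end Odd

end Vale.Agent.P180.R2.H471.Os
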