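import Vale.Agent.P180.R2.H589.Bt.Out3

/-! Transvections in the special linear group, as rank one perturbations of the identity. -/

set_option linter.all false

namespace Vale.Agent.P180.R2.H471.Au

open Matrix
open Vale.Agent.P180.R2.H589.Sch Vale.Agent.P180.R2.H589.Bt

variable {K : Type*} [Field K] {n : ℕ}

/-- rank one matrices -/
abbrev N (v φ : Fin n → K) : Matrix (Fin n) (Fin n) K := vecMulVec v φ

theorem N_mul (v φ w ψ : Fin n → K) : N v φ * N w ψ = (φ ⬝ᵥ w) • N v ψ := by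
  rw [vecMulVec_mul_vecMulVec, vecMulVec_smul]

theorem N_mulVec (v φ w : Fin n → K) : N v φ *ᵥ w = (φ ⬝ᵥ w) • v := by
  rw [vecMulVec_mulVec]
  ext i
  simp [mul_comm]

theorem vecMul_N (χ v φ : Fin n → K) : χ ᵥ* N v φ = (χ ⬝ᵥ v) • φ := vecMul_vecMulVec _ _ _

/-- A transvection. -/
def T (v φ : Fin n → K) (h : φ ⬝ᵥ v = 0) : GS n K :=
  ⟨1 + N v φ, by
    rw [N, vecMulVec_eq Unit, det_one_add_replicateCol_mul_replicateRow, h, add_zero]⟩

theorem coe_T (v φ : Fin n → K) (h : φ ⬝ᵥ v = 0) :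
    ((T v φ h : GS n K) : Matrix (Fin n) (Fin n) K) = 1 + N v φ := rfl

theorem T_mulVec (v φ : Fin n → K) (h : φ ⬝ᵥ v = 0) (x : Fin n → K) :
    ((T v φ h : GS n K) : Matrix (Fin n) (Fin n) K) *ᵥ x = x + (φ ⬝ᵥ x) • v := by
  rw [coe_T, add_mulVec, one_mulVec, N_mulVec]

theorem nat_T (v φ : Fin n → K) (h : φ ⬝ᵥ v = 0) (x : Fin n → K) :
    nat n K (T v φ h) x = x + (φ ⬝ᵥ x) • v := T_mulVec v φ h x

theorem expand (A B : Matrix (Fin n) (Fin n) K) : (1 + A) * (1 + B) = 1 + A + B + A * B := by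
  rw [mul_add, mul_one, add_mul, one_mul, add_assoc (1 + A)]

theorem T_mul' (v w φ : Fin n → K) (h : φ ⬝ᵥ v = 0) (h' : φ ⬝ᵥ w = 0) :
    T v φ h * T w φ h' = T (v + w) φ (by rw [dotProduct_add, h, h', add_zero]) := by
  apply Subtype.ext
  change (1 + N v φ) * (1 + N w φ) = 1 + N (v + w) φ
  rw [expand, N_mul, h', zero_smul, add_zero, N, N, N, add_vecMulVec, add_assoc]

theorem T_inv (v φ : Fin n → K) (h : φ ⬝ᵥ v = 0) :
    (T v φ h)⁻¹ = T (-v) φ (by rw [dotProduct_neg, h, neg_zero]) := by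
  rw [inv_eq_iff_mul_eq_one]
  apply Subtype.ext
  change (1 + N v φ) * (1 + N (-v) φ) = 1
  rw [expand, N_mul, dotProduct_neg, h, neg_zero, zero_smul, add_zero, N, N, neg_vecMulVec]
  abel

/-- conjugates of transvections -/
theorem conj_T (g : GS n K) (v φ : Fin n → K) (h : φ ⬝ᵥ v = 0) :
    ∃ h', g * T v φ h * g⁻¹ = T ((g : Matrix (Fin n) (Fin n) K) *ᵥ v)
      (φ ᵥ* ((g⁻¹ : GS n K) : Matrix (Fin n) (Fin n) K)) h' := by
  have hg : ((g⁻¹ : GS n K) : Matrix (Fin n) (Fin n) K) * (g : Matrix (Fin n) (Fin n) K) = 1 := by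
    have := congrArg Subtype.val (inv_mul_cancel g)
    exact this
  have hg' : (g : Matrix (Fin n) (Fin n) K) * ((g⁻¹ : GS n K) : Matrix (Fin n) (Fin n) K) = 1 := by
    have := congrArg Subtype.val (mul_inv_cancel g)
    exact this
  refine ⟨?_, ?_⟩
  · rw [dotProduct_mulVec, vecMul_vecMul, hg, vecMul_one, h]
  · apply Subtype.ext
    change (g : Matrix (Fin n) (Fin n) K) * (1 + N v φ) *
      ((g⁻¹ : GS n K) : Matrix (Fin n) (Fin n) K) = 1 + N _ _
    rw [mul_add, mul_one, add_mul, hg', N, N, mul_vecMulVec, vecMulVec_mul]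

theorem T_congr {v w φ ψ : Fin n → K} (hv : v = w) (hφ : φ = ψ) (h : φ ⬝ᵥ v = 0)
    (h' : ψ ⬝ᵥ w = 0) : T v φ h = T w ψ h' := by subst hv; subst hφ; rfl

theorem T_eq_iff {v w φ ψ : Fin n → K} (h : φ ⬝ᵥ v = 0) (h' : ψ ⬝ᵥ w = 0) :
    T v φ h = T w ψ h' ↔ N v φ = N w ψ := by
  constructor
  · intro h1
    exact add_left_cancel (congrArg Subtype.val h1 : (1 : Matrix (Fin n) (Fin n) K) + N v φ =
      1 + N w ψ)
  · intro h1
    apply Subtype.ext
    change 1 + N v φ = 1 + N w ψ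
    rw [h1]

theorem N_eq_zero {v φ : Fin n → K} : N v φ = 0 ↔ v = 0 ∨ φ = 0 := vecMulVec_eq_zero

theorem T_zero (φ : Fin n → K) (h : φ ⬝ᵥ (0 : Fin n → K) = 0) : T 0 φ h = 1 := by
  apply Subtype.ext
  change 1 + N 0 φ = 1
  rw [N_eq_zero.mpr (Or.inl rfl), add_zero]

theorem T_left_injective {v w φ : Fin n → K} (hφ : φ ≠ 0) {h : φ ⬝ᵥ v = 0} {h' : φ ⬝ᵥ w = 0}
    (he : T v φ h = T w φ h') : v = w := by
  have h1 := (T_eq_iff h h').mp he
  have h2 : N (v - w) φ = 0 := by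
    rw [N, sub_vecMulVec, sub_eq_zero]
    exact h1
  rcases N_eq_zero.mp h2 with h3 | h3
  · exact sub_eq_zero.mp h3
  · exact absurd h3 hφ

theorem tv_eq_T {i j : Fin n} (hij : i ≠ j) (c : K) :
    tv hij c = T (Pi.single i c) (Pi.single j 1) (by
      rw [dotProduct_single, Pi.single_eq_of_ne hij, zero_mul]) := by
  apply Subtype.ext
  change (1 : Matrix (Fin n) (Fin n) K) + Matrix.single i j c = 1 + N _ _
  congr 1
  ext a b
  rw [N, vecMulVec_apply, Matrix.single_apply]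
  by_cases ha : i = a
  · by_cases hb : j = b
    · subst ha; subst hb
      rw [if_pos ⟨rfl, rfl⟩, Pi.single_eq_same, Pi.single_eq_same, mul_one]
    · rw [if_neg (fun h => hb h.2), Pi.single_eq_of_ne (Ne.symm hb), mul_zero]
  · rw [if_neg (fun h => ha h.1), Pi.single_eq_of_ne (Ne.symm ha), zero_mul]

theorem T_pow_char (p : ℕ) [CharP K p] (v φ : Fin n → K) (h : φ ⬝ᵥ v = 0) :
    (T v φ h) ^ p = 1 := by
  have key : ∀ m : ℕ, (T v φ h) ^ m = T ((m : K) • v) φ (by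
      rw [dotProduct_smul, h, smul_zero]) := by
    intro m
    induction m with
    | zero =>
      rw [pow_zero]
      symm
      apply Subtype.ext
      change 1 + N _ _ = 1
      rw [Nat.cast_zero, zero_smul, N_eq_zero.mpr (Or.inl rfl), add_zero]
    | succ m ih =>
      rw [pow_succ, ih, T_mul']
      refine T_congr ?_ rfl _ _
      push_cast
      rw [add_smul, one_smul]
  rw [key]
  apply Subtype.ext
  change 1 + N _ _ = 1
  rw [CharP.cast_eq_zero, zero_smul, N_eq_zero.mpr (Or.inl rfl), add_zero]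

theorem pel_T (p : ℕ) [CharP K p] (v φ : Fin n → K) (h : φ ⬝ᵥ v = 0) : Pel p (T v φ h) :=
  ⟨1, by rw [pow_one]; exact T_pow_char p v φ h⟩

/-- The element `1 + x ↦ ...` of `RW ⟨v⟩ ∩ RW (ker φ)` are transvections. -/
theorem exists_T_of_mem {v φ : Fin n → K} (hφ : φ ≠ 0) {g : GS n K}
    (h1 : ∀ x, ∃ c : K, nat n K g x - x = c • v)
    (h2 : ∀ x, φ ⬝ᵥ x = 0 → nat n K g x = x) :
    ∃ (c : K), φ ⬝ᵥ (c • v) = 0 ∧ ∃ h, g = T (c • v) φ h := by
  obtain ⟨i, hi⟩ : ∃ i, φ i ≠ 0 := by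
    by_contra hcon
    push Not at hcon
    exact hφ (funext hcon)
  set u : Fin n → K := Pi.single i (φ i)⁻¹ with hu
  have hφu : φ ⬝ᵥ u = 1 := by rw [hu, dotProduct_single, mul_inv_cancel₀ hi]
  obtain ⟨c, hc⟩ := h1 u
  have h3 : ∀ x, nat n K g x = x + (φ ⬝ᵥ x) • (c • v) := by
    intro x
    have h4 : φ ⬝ᵥ (x - (φ ⬝ᵥ x) • u) = 0 := by
      rw [dotProduct_sub, dotProduct_smul, hφu, smul_eq_mul, mul_one, sub_self]
    have h5 := h2 _ h4
    rw [map_sub, map_smul, sub_eq_iff_eq_add] at h5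
    rw [h5, eq_add_of_sub_eq hc]
    rw [smul_add]
    abel
  have h4 : φ ⬝ᵥ (c • v) = 0 := by
    by_contra hne
    -- then `g` has determinant `1 + φ (c v) ≠ 1`
    have h5 : (g : Matrix (Fin n) (Fin n) K) = 1 + N (c • v) φ := by
      apply Matrix.ext_of_mulVec_single
      intro j
      have h6 := h3 (Pi.single j 1)
      rw [nat_apply] at h6
      rw [h6, add_mulVec, one_mulVec, N_mulVec]
    have h6 : (1 + N (c • v) φ).det = 1 := by
      rw [← h5]
      exact g.2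
    rw [N, vecMulVec_eq Unit, det_one_add_replicateCol_mul_replicateRow] at h6
    exact hne (by simpa using h6)
  refine ⟨c, h4, h4, ?_⟩
  apply nat_injective
  apply LinearEquiv.ext
  intro x
  rw [h3, nat_T]

end Vale.Agent.P180.R2.H471.Au
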