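import Vale.Agent.P180.R2.H471.Au9
import Mathlib.RingTheory.Polynomial.Cyclotomic.Basic

/-! No proper field automorphisms: `p` divides `|K| - 1`. -/

set_option linter.all false

namespace Vale.Agent.P180.R2.H471.Au

open Polynomial Module

variable {K : Type*} [Field K] {V : Type*} [AddCommGroup V] [Module K V]
variable [FiniteDimensional K V] [Finite K] {p : ℕ} [Fact p.Prime]

/-- automorphisms of `p`-power order fix the roots of unity of order `p` -/
theorem fix_root {σ : RingAut K} {s : ℕ} (hσ : σ ^ p ^ s = 1) {ζ : K} (hζ : ζ ^ p = 1) :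
    σ ζ = ζ := by
  have hp : p.Prime := Fact.out
  by_cases h1 : ζ = 1
  · rw [h1, map_one]
  have hprim : IsPrimitiveRoot ζ p := by
    rw [← orderOf_eq_prime hζ h1]
    exact IsPrimitiveRoot.orderOf ζ
  haveI : NeZero p := ⟨hp.ne_zero⟩
  obtain ⟨i, hi, hiζ⟩ := hprim.eq_pow_of_pow_eq_one (ξ := σ ζ) (by rw [← map_pow, hζ, map_one])
  have hk : ∀ k : ℕ, (σ ^ k) ζ = ζ ^ (i ^ k) := by
    intro k
    induction k with
    | zero => rw [pow_zero, pow_zero, pow_one]; rfl
    | succ k ih =>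
      have h2 : (σ ^ (k + 1)) ζ = σ ((σ ^ k) ζ) := by rw [pow_succ']; rfl
      rw [h2, ih, map_pow, ← hiζ, ← pow_mul, pow_succ', mul_comm]
  have h2 := hk (p ^ s)
  rw [hσ] at h2
  have h3 : ζ ^ 1 = ζ ^ (i ^ p ^ s) := by rw [pow_one]; exact h2
  have hζ0 : ζ ≠ 0 := by
    rintro rfl
    rw [zero_pow hp.ne_zero] at hζ
    exact zero_ne_one hζ
  have h4 : 1 ≡ i ^ p ^ s [MOD p] := by
    have h5 : (Units.mk0 ζ hζ0) ^ 1 = (Units.mk0 ζ hζ0) ^ (i ^ p ^ s) := by
      apply Units.ext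
      rw [Units.val_pow_eq_pow_val, Units.val_pow_eq_pow_val, Units.val_mk0]
      exact h3
    have h6 := pow_eq_pow_iff_modEq.mp h5
    rw [← orderOf_units, Units.val_mk0, orderOf_eq_prime hζ h1] at h6
    exact h6
  have h5 : (i : ZMod p) = 1 := by
    have h6 : ((i ^ p ^ s : ℕ) : ZMod p) = ((1 : ℕ) : ZMod p) :=
      (ZMod.natCast_eq_natCast_iff _ _ _).mpr h4.symm
    push_cast at h6
    have h7 : ∀ k : ℕ, (i : ZMod p) ^ p ^ k = i := by
      intro k
      induction k with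
      | zero => rw [pow_zero, pow_one]
      | succ k ih => rw [pow_succ, pow_mul, ih, ZMod.pow_card]
    rwa [h7] at h6
  have h6 : i = 1 := by
    have h7 : ((i : ℕ) : ZMod p) = ((1 : ℕ) : ZMod p) := by rw [h5, Nat.cast_one]
    have h8 := (ZMod.natCast_eq_natCast_iff _ _ _).mp h7
    exact Nat.ModEq.eq_of_lt_of_lt h8 hi hp.one_lt
  rw [← hiζ, h6, pow_one]

/-- `p` divides `|K| - 1` and does not divide the dimension. -/
theorem sigma_case2 (hpK : (p : K) ≠ 0) (hp1 : p ∣ Nat.card K - 1) (hpd : ¬ p ∣ finrank K V)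
    {Q : Subgroup (SpecialLinearGroup K V)} (hQp : IsPGroup p Q) (hQ1 : Q ≠ ⊥)
    (hQ : PClosed p Q) {σ : RingAut K} {g : V ≃+ V} (hg : ∀ (c : K) v, g (c • v) = σ c • g v)
    (hgQ : ∀ w ∈ Q, ∀ v, g (w v) = w (g v)) {s : ℕ} (hσ : σ ^ p ^ s = 1) : σ = 1 := by
  classical
  have hp : p.Prime := Fact.out
  have hcop : ¬ (p ∣ finrank K V ∧ p ∣ Nat.card K - 1) := fun h => hpd h.1
  obtain ⟨u, hu, hup, hu1⟩ := exists_order_p hQp hQ1
  have hup' : en u ^ p = 1 := by rw [← en_pow, hup]; rfl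
  -- a primitive root of unity
  obtain ⟨z, hz⟩ : ∃ z : Kˣ, orderOf z = p := by
    obtain ⟨γ, hγ⟩ := IsCyclic.exists_ofOrder_eq_natCard (α := Kˣ)
    rw [← Nat.card_units] at hp1
    obtain ⟨c, hc⟩ := hp1
    have hc0 : c ≠ 0 := by
      rintro rfl
      rw [mul_zero] at hc
      exact Nat.card_pos.ne' hc
    refine ⟨γ ^ c, ?_⟩
    rw [orderOf_pow' _ hc0, hγ, hc, Nat.gcd_mul_left_left, Nat.mul_div_cancel _
      (Nat.pos_of_ne_zero hc0)]
  have hzp : (z : K) ^ p = 1 := by
    rw [← Units.val_pow_eq_pow_val, ← hz, pow_orderOf_eq_one, Units.val_one]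
  have hz1 : (z : K) ≠ 1 := by
    intro h
    have h1 : z = 1 := Units.ext h
    rw [h1, orderOf_one] at hz
    exact hp.one_lt.ne hz
  have hprim : IsPrimitiveRoot (z : K) p := by
    rw [← orderOf_eq_prime hzp hz1]
    exact IsPrimitiveRoot.orderOf _
  -- irreducible factors are linear
  have hlin : ∀ f : K[X], f.Monic → Irreducible f → f ∣ X ^ p - 1 →
      ∃ c : K, c ^ p = 1 ∧ f = X - C c := by
    intro f hf hfi hfd
    rw [X_pow_sub_one_eq_prod hp.pos hprim] at hfd
    obtain ⟨c, hc, hfc⟩ := (hfi.prime.dvd_finset_prod_iff _).mp hfd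
    refine ⟨c, (mem_nthRootsFinset hp.pos 1).mp hc, ?_⟩
    exact Polynomial.eq_of_monic_of_associated hf (monic_X_sub_C c)
      (hfi.associated_of_dvd (irreducible_X_sub_C c) hfc)
  set μ := minpoly K (en u) with hμ
  have hint : IsIntegral K (en u) := Algebra.IsIntegral.isIntegral _
  have hμd : μ ∣ X ^ p - 1 := by
    apply minpoly.dvd
    rw [map_sub, map_pow, aeval_X, map_one, hup', sub_self]
  have hsep : (X ^ p - 1 : K[X]).Separable := (X_pow_sub_one_separable_iff).mpr hpK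
  have hsq : Squarefree (X ^ p - 1 : K[X]) := hsep.squarefree
  have hμu : ¬ IsUnit μ := by
    intro h
    have h1 : μ = 1 := (minpoly.monic hint).eq_one_of_isUnit h
    have h2 := minpoly.aeval K (en u)
    rw [← hμ, h1, map_one] at h2
    apply hu1
    apply en_inj
    apply LinearMap.ext
    intro v
    have h3 := LinearMap.congr_fun h2 v
    have h4 : v = 0 := h3
    rw [h4, map_zero, map_zero]
  -- `u` is not a scalar
  have hns : ∀ c : K, c ^ p = 1 → aeval (en u) (X - C c) ≠ 0 := by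
    intro c hc h
    rw [map_sub, aeval_X, aeval_C, sub_eq_zero] at h
    have h1 : LinearMap.det (en u) = 1 := by
      have h2 := congrArg Units.val u.2
      rw [LinearEquiv.coe_det] at h2
      exact h2
    have h2 : en u = c • (1 : Module.End K V) := by
      rw [h, Algebra.algebraMap_eq_smul_one]
    rw [h2, LinearMap.det_smul, map_one, mul_one] at h1
    have h3 : c = 1 := by
      have h4 : orderOf c ∣ p := orderOf_dvd_of_pow_eq_one hc
      have h5 : orderOf c ∣ finrank K V := orderOf_dvd_of_pow_eq_one h1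
      rcases (Nat.dvd_prime hp).mp h4 with h6 | h6
      · exact orderOf_eq_one_iff.mp h6
      · rw [h6] at h5
        exact absurd h5 hpd
    rw [h3, one_smul] at h2
    exact hu1 (en_inj h2)
  obtain ⟨f, hf, hfi, hfμ⟩ := Polynomial.exists_monic_irreducible_factor μ hμu
  obtain ⟨c₁, hc₁, rfl⟩ := hlin f hf hfi (hfμ.trans hμd)
  obtain ⟨f₂, hf₂, hf₂i, hf₂μ, hf₂X⟩ := exists_factor (μ := μ) (q₀ := X - C c₁)
    (hsq.squarefree_of_dvd hμd) hμu (irreducible_X_sub_C c₁) (by
      rintro ⟨R, hR⟩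
      apply hns c₁ hc₁
      rw [hR, map_mul, hμ, minpoly.aeval, zero_mul])
  obtain ⟨c₂, hc₂, rfl⟩ := hlin f₂ hf₂ hf₂i (hf₂μ.trans hμd)
  obtain ⟨f', a, b, hff, hab⟩ := exists_H hpK (hfμ.trans hμd)
  have hf₂f' : X - C c₂ ∣ f' := by
    have h2 : X - C c₂ ∣ (X - C c₁) * f' := by rw [← hff]; exact hf₂μ.trans hμd
    rcases hf₂i.prime.dvd_or_dvd h2 with h3 | h3
    · exact absurd (Polynomial.eq_of_monic_of_associated hf₂ hf
        (hf₂i.associated_of_dvd hfi h3)) hf₂X
    · exact h3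
  have hf₂0 : f'.eval c₂ = 0 := by
    obtain ⟨R, hR⟩ := hf₂f'
    rw [hR, eval_mul, eval_sub, eval_X, eval_C, sub_self, zero_mul]
  have hab₁ : b.eval c₁ * f'.eval c₁ = 1 := by
    have h1 := congrArg (fun P : K[X] => P.eval c₁) hab
    have h2 : (a * (X - C c₁) + b * f').eval c₁ = (1 : K[X]).eval c₁ := h1
    rw [eval_add, eval_mul, eval_sub, eval_X, eval_C, sub_self, mul_zero, zero_add, eval_mul,
      eval_one] at h2
    exact h2
  have hab₂ : a.eval c₂ * (c₂ - c₁) = 1 := by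
    have h1 := congrArg (fun P : K[X] => P.eval c₂) hab
    have h2 : (a * (X - C c₁) + b * f').eval c₂ = (1 : K[X]).eval c₂ := h1
    rw [eval_add, eval_mul, eval_sub, eval_X, eval_C, eval_mul, hf₂0, mul_zero, add_zero,
      eval_one] at h2
    exact h2
  -- all elements of `p`-power order are fixed
  have hfix : ∀ ω : K, (∃ j, ω ^ p ^ j = 1) → σ ω = ω := by
    rintro ω ⟨j, hj⟩
    set H : K[X] := C ω * (b * f') + a * (X - C c₁) with hH
    have h1 : X - C c₁ ∣ H ^ p ^ j - 1 := by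
      rw [Polynomial.dvd_iff_isRoot, IsRoot.def, eval_sub, eval_pow, hH, eval_add, eval_mul,
        eval_mul, eval_mul, eval_sub, eval_X, eval_C, eval_C, sub_self, mul_zero, add_zero, hab₁,
        mul_one, hj, eval_one, sub_self]
    have h2 : f' ∣ H ^ p ^ j - 1 := by
      have h3 : f' ∣ H - 1 := by
        have h4 : H - 1 = f' * (C ω * b - b) := by
          rw [hH]
          linear_combination hab
        rw [h4]
        exact dvd_mul_right _ _
      have h5 := sub_dvd_pow_sub_pow H 1 (p ^ j)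
      rw [one_pow] at h5
      exact h3.trans h5
    have h3 := aeval_pow_eq_one hup' hff ⟨a, b, hab⟩ h1 h2
    obtain ⟨l, hl, h4⟩ := main_dvd hcop hQ hu hg hgQ h3
    have e1 : H.eval c₁ = ω := by
      rw [hH, eval_add, eval_mul, eval_mul, eval_mul, eval_sub, eval_X, eval_C, eval_C, sub_self,
        mul_zero, add_zero, hab₁, mul_one]
    have e2 : H.eval c₂ = 1 := by
      rw [hH, eval_add, eval_mul, eval_mul, eval_mul, eval_sub, eval_X, eval_C, eval_C, hf₂0,
        mul_zero, mul_zero, zero_add, hab₂]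
    have e3 : ∀ c : K, c ^ p = 1 → (H.map (σ : K →+* K)).eval c = σ (H.eval c) := by
      intro c hc
      have h5 := Polynomial.eval_map_apply (σ : K →+* K) (p := H) c
      have h6 : ((σ : K →+* K) c) = c := fix_root hσ hc
      rw [h6] at h5
      exact h5
    have e4 : ∀ c : K, c ^ p = 1 → X - C c ∣ μ →
        σ (l : K) * σ (H.eval c) = l * H.eval c := by
      intro c hc hcd
      have h5 := hcd.trans h4
      rw [Polynomial.dvd_iff_isRoot, IsRoot.def, eval_sub, eval_mul, eval_mul, eval_C, eval_C,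
        e3 c hc, sub_eq_zero] at h5
      exact h5
    have e5 := e4 c₁ hc₁ hfμ
    have e6 := e4 c₂ hc₂ hf₂μ
    rw [e1] at e5
    rw [e2, map_one, mul_one, mul_one] at e6
    rw [e6] at e5
    exact mul_left_cancel₀ l.ne_zero e5
  exact aut_eq_one hσ hzp hz1 hfix

/-- **No proper field automorphisms.** -/
theorem sigma_eq_one (hpK : (p : K) ≠ 0) (hcop : ¬ (p ∣ finrank K V ∧ p ∣ Nat.card K - 1))
    {Q : Subgroup (SpecialLinearGroup K V)} (hQp : IsPGroup p Q) (hQ1 : Q ≠ ⊥)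
    (hQ : PClosed p Q) {σ : RingAut K} {g : V ≃+ V} (hg : ∀ (c : K) v, g (c • v) = σ c • g v)
    (hgQ : ∀ w ∈ Q, ∀ v, g (w v) = w (g v)) {s : ℕ} (hσ : σ ^ p ^ s = 1) : σ = 1 := by
  by_cases hp1 : p ∣ Nat.card K - 1
  · exact sigma_case2 hpK hp1 (fun h => hcop ⟨h, hp1⟩) hQp hQ1 hQ hg hgQ hσ
  · exact sigma_case1 hpK hp1 hQp hQ1 hQ hg hgQ hσ

end Vale.Agent.P180.R2.H471.Au
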