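import Vale.Agent.P180.R2.H471.Au6

/-! Semilinear actions on central quotients of special linear groups: uniqueness, linear actions
are inner. -/

set_option linter.all false

namespace Vale.Agent.P180.R2.H471.Au

open Subgroup Module
open Vale.Agent.P180.R2.H589.Sch Vale.Agent.P180.R2.H589.Bt

variable {K : Type*} [Field K] {d : ℕ} {G : Type*} [Group G] {L : Subgroup G}
variable {π : _root_.SpecialLinearGroup K (Fin d → K) →* L}

/-- `r` acts on `L` through the `σ`-semilinear bijection `g`. -/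
def Acts (π : _root_.SpecialLinearGroup K (Fin d → K) →* L) (r : G) (σ : RingAut K)
    (g : Equiv.Perm (Fin d → K)) : Prop :=
  (∀ v w, g (v + w) = g v + g w) ∧ (∀ (c : K) v, g (c • v) = σ c • g v) ∧
  (∀ x : _root_.SpecialLinearGroup K (Fin d → K), ∃ y : _root_.SpecialLinearGroup K (Fin d → K),
    ∀ v, g (x v) = y (g v)) ∧
  ∀ x y : _root_.SpecialLinearGroup K (Fin d → K), (∀ v, g (x v) = y (g v)) →
    r * (π x : G) * r⁻¹ = π y

theorem Acts.mul {r r' : G} {σ σ' : RingAut K} {g g' : Equiv.Perm (Fin d → K)} (h : Acts π r σ g)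
    (h' : Acts π r' σ' g') : Acts π (r * r') (σ * σ') (g * g') := by
  refine ⟨fun v w => ?_, fun c v => ?_, fun x => ?_, fun x y hxy => ?_⟩
  · rw [Equiv.Perm.mul_apply, Equiv.Perm.mul_apply, Equiv.Perm.mul_apply, h'.1, h.1]
  · rw [Equiv.Perm.mul_apply, Equiv.Perm.mul_apply, h'.2.1, h.2.1]
    rfl
  · obtain ⟨y, hy⟩ := h'.2.2.1 x
    obtain ⟨z, hz⟩ := h.2.2.1 y
    refine ⟨z, fun v => ?_⟩
    rw [Equiv.Perm.mul_apply, Equiv.Perm.mul_apply, hy, hz]
  · obtain ⟨z, hz⟩ := h'.2.2.1 x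
    obtain ⟨w, hw⟩ := h.2.2.1 z
    have h1 : w = y := by
      apply Subtype.ext
      apply LinearEquiv.ext
      intro v
      obtain ⟨v, rfl⟩ := (g * g').surjective v
      have h2 := hxy v
      rw [Equiv.Perm.mul_apply, Equiv.Perm.mul_apply, hz, hw] at h2
      exact h2
    have h2 := h'.2.2.2 x z hz
    have h3 := h.2.2.2 z w hw
    rw [h1] at h3
    rw [← h3, ← h2]
    group

theorem acts_one : Acts π 1 1 1 := by
  refine ⟨fun v w => rfl, fun c v => rfl, fun x => ⟨x, fun v => rfl⟩, fun x y hxy => ?_⟩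
  have h1 : x = y := Subtype.ext (LinearEquiv.ext fun v => hxy v)
  rw [h1, one_mul, inv_one, mul_one]

theorem Acts.pow {r : G} {σ : RingAut K} {g : Equiv.Perm (Fin d → K)} (h : Acts π r σ g) (m : ℕ) :
    Acts π (r ^ m) (σ ^ m) (g ^ m) := by
  induction m with
  | zero => rw [pow_zero, pow_zero, pow_zero]; exact acts_one
  | succ m ih => rw [pow_succ, pow_succ, pow_succ]; exact ih.mul h

/-- existence -/
theorem exists_acts [Finite K] (hd : 3 ≤ d) (hπ : Function.Surjective π) (hk : π.ker ≤ center _)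
    {r : G} (hr : r ∈ normalizer (L : Set G)) {m : ℕ} (hm : Odd m) (h : r ^ m = 1) :
    ∃ (σ : RingAut K) (g : Equiv.Perm (Fin d → K)), Acts π r σ g := by
  obtain ⟨n, rfl⟩ : ∃ n, d = n + 1 := ⟨d - 1, by omega⟩
  let ι := Matrix.SpecialLinearGroup.toLin'_equiv (R := K) (n := Fin (n + 1))
  have hι : ∀ (x : GS (n + 1) K) (v : Fin (n + 1) → K),
      (ι x) v = Matrix.mulVec (x : Matrix (Fin (n + 1)) (Fin (n + 1)) K) v := fun x v => rfl
  let π' : GS (n + 1) K →* L := π.comp ι.toMonoidHom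
  have hπ' : Function.Surjective π' := hπ.comp ι.surjective
  have hk' : π'.ker ≤ center (GS (n + 1) K) := by
    intro x hx
    have h1 : ι x ∈ center (_root_.SpecialLinearGroup K (Fin (n + 1) → K)) := hk hx
    rw [mem_center_iff] at h1 ⊢
    intro y
    apply ι.injective
    rw [map_mul, map_mul]
    exact h1 (ι y)
  let α : MulAut L := L.normalizerMonoidHom ⟨r, hr⟩
  have hα : ∀ l : L, ((α l : L) : G) = r * l * r⁻¹ := fun l => rfl
  have hα1 : α ^ m = 1 := by
    have h1 : (⟨r, hr⟩ : normalizer (L : Set G)) ^ m = 1 := Subtype.ext h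
    change (L.normalizerMonoidHom ⟨r, hr⟩) ^ m = 1
    rw [← map_pow, h1, map_one]
  obtain ⟨X, Y, hXY, σ, hg⟩ := semi_of_odd (by omega) hπ' hk' α hm hα1
  obtain ⟨σ', g, h1, h2⟩ := exists_semi hXY σ
  refine ⟨σ', g.toEquiv, g.map_add, h1, fun x => ?_, fun x y hxy => ?_⟩
  · obtain ⟨x, rfl⟩ := ι.surjective x
    exact ⟨ι (CJ hXY (Matrix.SpecialLinearGroup.map σ x)), fun v => h2 x v⟩
  obtain ⟨x, rfl⟩ := ι.surjective x
  obtain ⟨y, rfl⟩ := ι.surjective y
  have h3 : CJ hXY (Matrix.SpecialLinearGroup.map σ x) = y := by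
    apply ext_mulVec
    intro w
    obtain ⟨v, rfl⟩ := g.surjective w
    rw [← h2, ← hι, ← hι]
    exact hxy v
  rw [← h3]
  have h4 := congrArg (fun l : L => (l : G)) (hg x)
  exact h4

/-- iterates -/
theorem semi_pow {g : Equiv.Perm (Fin d → K)} {x y : _root_.SpecialLinearGroup K (Fin d → K)}
    (h : ∀ v, g (x v) = y (g v)) (m : ℕ) : ∀ v, g ((x ^ m) v) = (y ^ m) (g v) := by
  induction m with
  | zero => intro v; rfl
  | succ m ih =>
    intro v
    have e1 : (x ^ (m + 1)) v = (x ^ m) (x v) := by rw [pow_succ]; rfl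
    have e2 : (y ^ (m + 1)) (g v) = (y ^ m) (y (g v)) := by rw [pow_succ]; rfl
    rw [e1, e2, ih, h]

theorem pow_eq_one_of_semi {g : Equiv.Perm (Fin d → K)} {x y : _root_.SpecialLinearGroup K (Fin d → K)}
    (h : ∀ v, g (x v) = y (g v)) {m : ℕ} (hx : x ^ m = 1) : y ^ m = 1 := by
  apply Subtype.ext
  apply LinearEquiv.ext
  intro w
  obtain ⟨v, rfl⟩ := g.surjective w
  have h1 := semi_pow h m v
  rw [hx] at h1
  exact h1.symm

/-- **Uniqueness.** -/
theorem Acts.eq_one [Finite K] (hd : 2 ≤ d) (hk : π.ker ≤ center _) {r : G}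
    (hr : ∀ l ∈ L, r * l * r⁻¹ = l) {σ : RingAut K} {g : Equiv.Perm (Fin d → K)}
    (h : Acts π r σ g) : σ = 1 ∧ ∃ a : Kˣ, ∀ v, g v = (a : K) • v := by
  classical
  obtain ⟨n, rfl⟩ : ∃ n, d = n + 1 := ⟨d - 1, by omega⟩
  haveI hp : Fact (ringChar K).Prime := ⟨CharP.char_is_prime K (ringChar K)⟩
  let ι := Matrix.SpecialLinearGroup.toLin'_equiv (R := K) (n := Fin (n + 1))
  let π' : GS (n + 1) K →* L := π.comp ι.toMonoidHom
  have hk' : π'.ker ≤ center (GS (n + 1) K) := by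
    intro x hx
    have h1 : ι x ∈ center (_root_.SpecialLinearGroup K (Fin (n + 1) → K)) := hk hx
    rw [mem_center_iff] at h1 ⊢
    intro y
    apply ι.injective
    rw [map_mul, map_mul]
    exact h1 (ι y)
  have hcomm : ∀ (i j : Fin (n + 1)) (hij : i ≠ j) (c : K) (v : Fin (n + 1) → K),
      g (v + Pi.single i (c * v j)) = g v + Pi.single i (c * (g v) j) := by
    intro i j hij c v
    obtain ⟨y, hy⟩ := h.2.2.1 (ι (tv hij c))
    have h1 := h.2.2.2 _ y hy
    rw [hr _ (π (ι (tv hij c))).2] at h1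
    obtain ⟨y, rfl⟩ := ι.surjective y
    have h2 : Pel (ringChar K) (tv hij c) := by
      rw [tv_eq_T]
      exact pel_T _ _ _ _
    have h3 : Pel (ringChar K) y := by
      obtain ⟨m, hm⟩ := h2
      refine ⟨m, ι.injective ?_⟩
      rw [map_pow, map_one]
      exact pow_eq_one_of_semi hy (by rw [← map_pow, hm, map_one])
    have h4 : tv hij c = y := pel_unique (p := ringChar K) hk' (not_dvd_of_le _ hk') h2 h3
      (Subtype.ext h1)
    have h5 := hy v
    rw [← h4] at h5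
    have h6 : ∀ w : Fin (n + 1) → K, (ι (tv hij c)) w = w + Pi.single i (c * w j) :=
      fun w => tv_mulVec hij c w
    rw [h6, h6] at h5
    exact h5
  have e1 : ∀ (i j : Fin (n + 1)), i ≠ j → ∀ c : K,
      g (Pi.single i c) = Pi.single i (c * (g (Pi.single j 1)) j) := by
    intro i j hij c
    have h1 := hcomm i j hij c (Pi.single j 1)
    rw [Pi.single_eq_same, mul_one, h.1] at h1
    exact add_left_cancel h1
  have e2 : ∀ i j : Fin (n + 1), (g (Pi.single i 1)) i = (g (Pi.single j 1)) j := by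
    intro i j
    by_cases hij : i = j
    · rw [hij]
    · rw [e1 i j hij 1, Pi.single_eq_same, one_mul]
  set a := (g (Pi.single 0 1)) 0 with ha
  have e3 : ∀ (i : Fin (n + 1)) (c : K), g (Pi.single i c) = Pi.single i (c * a) := by
    intro i c
    obtain ⟨j, hj⟩ : ∃ j : Fin (n + 1), i ≠ j := by
      by_cases hi : i = 0
      · exact ⟨⟨1, by omega⟩, by rw [hi]; exact fun h => by simpa using congrArg Fin.val h⟩
      · exact ⟨0, hi⟩
    rw [e1 i j hj c, e2 j 0]
  have hg0 : g 0 = 0 := by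
    have h1 := h.1 0 0
    rw [add_zero] at h1
    exact left_eq_add.mp h1
  have ha0 : a ≠ 0 := by
    intro h0
    have h1 := e3 0 1
    rw [h0, mul_zero, Pi.single_zero] at h1
    have h2 : (Pi.single 0 1 : Fin (n + 1) → K) = 0 := g.injective (by rw [h1, hg0])
    have h3 := congrFun h2 0
    rw [Pi.single_eq_same] at h3
    exact one_ne_zero h3
  refine ⟨?_, Units.mk0 a ha0, fun v => ?_⟩
  · apply RingEquiv.ext
    intro c
    have h1 := h.2.1 c (Pi.single 0 1)
    rw [← Pi.single_smul', smul_eq_mul, mul_one, e3, e3, one_mul, ← Pi.single_smul'] at h1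
    have h2 := congrFun h1 0
    rw [Pi.single_eq_same, Pi.single_eq_same, smul_eq_mul] at h2
    exact (mul_right_cancel₀ ha0 h2).symm
  · have h1 : v = ∑ i, (Pi.single i (v i) : Fin (n + 1) → K) := by
      rw [Finset.univ_sum_single]
    have h2 : g (∑ i, (Pi.single i (v i) : Fin (n + 1) → K)) =
        ∑ i, (Pi.single i (v i * a) : Fin (n + 1) → K) := by
      let g' : (Fin (n + 1) → K) →+ (Fin (n + 1) → K) := AddMonoidHom.mk' g h.1
      have h3 : g' (∑ i, (Pi.single i (v i) : Fin (n + 1) → K)) =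
          ∑ i, g' (Pi.single i (v i) : Fin (n + 1) → K) := map_sum g' _ _
      exact h3.trans (Finset.sum_congr rfl fun i _ => e3 i (v i))
    rw [← h1] at h2
    rw [h2]
    funext j
    rw [Finset.sum_apply, Finset.sum_eq_single j]
    · rw [Pi.single_eq_same, Units.val_mk0, Pi.smul_apply, smul_eq_mul, mul_comm]
    · intro b _ hb
      rw [Pi.single_eq_of_ne (Ne.symm hb)]
    · intro hj
      exact absurd (Finset.mem_univ j) hj

/-- the field automorphism of an element of finite order has the same order at most -/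
theorem Acts.pow_eq_one [Finite K] (hd : 2 ≤ d) (hk : π.ker ≤ center _) {r : G} {m : ℕ}
    (hr : r ^ m = 1) {σ : RingAut K} {g : Equiv.Perm (Fin d → K)} (h : Acts π r σ g) :
    σ ^ m = 1 := by
  have h1 := h.pow m
  rw [hr] at h1
  exact (h1.eq_one hd hk fun l _ => by rw [one_mul, inv_one, mul_one]).1

theorem Acts.unique [Finite K] (hd : 2 ≤ d) (hk : π.ker ≤ center _) {r : G} {m : ℕ} (hm : 0 < m)
    (hr : r ^ m = 1) {σ σ' : RingAut K} {g g' : Equiv.Perm (Fin d → K)} (h : Acts π r σ g)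
    (h' : Acts π r σ' g') : σ = σ' := by
  have h1 := (h.pow (m - 1)).mul h
  have h2 := (h.pow (m - 1)).mul h'
  have h3 : r ^ (m - 1) * r = 1 := by rw [← pow_succ, Nat.sub_add_cancel hm, hr]
  rw [h3] at h1 h2
  have h4 := (h1.eq_one hd hk fun l _ => by rw [one_mul, inv_one, mul_one]).1
  have h5 := (h2.eq_one hd hk fun l _ => by rw [one_mul, inv_one, mul_one]).1
  exact mul_left_cancel (h4.trans h5.symm)

theorem exists_root [Finite K] {p s d : ℕ} [Fact p.Prime]
    (hcop : ¬ (p ∣ d ∧ p ∣ Nat.card K - 1)) {δ a : Kˣ} (h : δ ^ p ^ s = a ^ d) :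
    ∃ μ : Kˣ, μ ^ d = δ := by
  have hp : p.Prime := Fact.out
  by_cases hd : p ∣ d
  · have h1 : ¬ p ∣ Nat.card Kˣ := by
      rw [Nat.card_units]
      exact fun h => hcop ⟨hd, h⟩
    have h2 : IsCoprime (((p ^ s : ℕ)) : ℤ) ((Nat.card Kˣ : ℕ) : ℤ) := by
      rw [Nat.isCoprime_iff_coprime]
      exact ((Nat.Prime.coprime_iff_not_dvd hp).mpr h1).pow_left s
    obtain ⟨x, y, hxy⟩ := h2
    refine ⟨a ^ x, ?_⟩
    have h3 : δ = δ ^ (x * ((p ^ s : ℕ) : ℤ) + y * ((Nat.card Kˣ : ℕ) : ℤ)) := by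
      rw [hxy, zpow_one]
    rw [h3, zpow_add, mul_comm x, zpow_mul, zpow_natCast, h, mul_comm y, zpow_mul, zpow_natCast,
      pow_card_eq_one', one_zpow, mul_one, ← zpow_natCast, ← zpow_natCast, ← zpow_mul, ← zpow_mul,
      mul_comm]
  · have h2 : IsCoprime (((p ^ s : ℕ)) : ℤ) ((d : ℕ) : ℤ) := by
      rw [Nat.isCoprime_iff_coprime]
      exact ((Nat.Prime.coprime_iff_not_dvd hp).mpr hd).pow_left s
    obtain ⟨x, y, hxy⟩ := h2
    refine ⟨a ^ x * δ ^ y, ?_⟩
    have h3 : δ = δ ^ (x * ((p ^ s : ℕ) : ℤ) + y * ((d : ℕ) : ℤ)) := by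
      rw [hxy, zpow_one]
    conv_rhs => rw [h3]
    rw [zpow_add, mul_comm x, zpow_mul, zpow_natCast, h, mul_pow]
    congr 1
    · rw [← zpow_natCast, ← zpow_natCast, ← zpow_mul, ← zpow_mul, mul_comm]
    · rw [zpow_mul, zpow_natCast]

/-- **Linear actions are inner.** -/
theorem Acts.inner [Finite K] {p s : ℕ} [Fact p.Prime] (hd : 2 ≤ d) (hk : π.ker ≤ center _)
    (hcop : ¬ (p ∣ d ∧ p ∣ Nat.card K - 1)) {r : G} (hr : r ^ p ^ s = 1)
    {g : Equiv.Perm (Fin d → K)} (h : Acts π r 1 g) :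
    ∃ s₀ : _root_.SpecialLinearGroup K (Fin d → K), ∀ x,
      r * (π x : G) * r⁻¹ = (π s₀ : G) * π x * (π s₀ : G)⁻¹ := by
  obtain ⟨-, a, ha⟩ := (h.pow (p ^ s)).eq_one hd hk (fun l _ => by
    rw [hr, one_mul, inv_one, mul_one])
  let g' : (Fin d → K) ≃ₗ[K] (Fin d → K) :=
    { g with
      map_add' := fun v w => h.1 v w
      map_smul' := fun c v => h.2.1 c v }
  have hg' : ∀ v, g' v = g v := fun v => rfl
  have hpow : ∀ (m : ℕ) v, (g' ^ m) v = (g ^ m) v := by
    intro m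
    induction m with
    | zero => intro v; rfl
    | succ m ih =>
      intro v
      have e1 : (g' ^ (m + 1)) v = (g' ^ m) (g' v) := by rw [pow_succ]; rfl
      have e2 : (g ^ (m + 1)) v = (g ^ m) (g v) := by rw [pow_succ]; rfl
      rw [e1, e2, ih, hg']
  have hdet : (LinearEquiv.det g') ^ p ^ s = a ^ d := by
    rw [← map_pow]
    apply Units.ext
    rw [LinearEquiv.coe_det, Units.val_pow_eq_pow_val]
    have h1 : ((g' ^ p ^ s : (Fin d → K) ≃ₗ[K] (Fin d → K)) : (Fin d → K) →ₗ[K] (Fin d → K)) =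
        (a : K) • (1 : Module.End K (Fin d → K)) := by
      apply LinearMap.ext
      intro v
      change (g' ^ p ^ s) v = (a : K) • v
      rw [hpow, ha]
    rw [h1, LinearMap.det_smul, map_one, mul_one, Module.finrank_fin_fun]
  obtain ⟨μ, hμ⟩ := exists_root hcop hdet
  let w : (Fin d → K) ≃ₗ[K] (Fin d → K) := LinearEquiv.smulOfUnit μ⁻¹
  have hw : ∀ v, w v = ((μ⁻¹ : Kˣ) : K) • v := fun v => rfl
  have hdw : LinearEquiv.det (w * g') = 1 := by
    rw [map_mul]
    apply Units.ext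
    rw [Units.val_mul, LinearEquiv.coe_det]
    have h1 : ((w : (Fin d → K) ≃ₗ[K] (Fin d → K)) : (Fin d → K) →ₗ[K] (Fin d → K)) =
        ((μ⁻¹ : Kˣ) : K) • (1 : Module.End K (Fin d → K)) := rfl
    rw [h1, LinearMap.det_smul, map_one, mul_one, Module.finrank_fin_fun, ← hμ,
      ← Units.val_pow_eq_pow_val, ← Units.val_mul, inv_pow, inv_mul_cancel]
  let s₀ : _root_.SpecialLinearGroup K (Fin d → K) := ⟨w * g', hdw⟩
  have hs₀ : ∀ v, s₀ v = ((μ⁻¹ : Kˣ) : K) • g v := fun v => rfl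
  refine ⟨s₀, fun x => ?_⟩
  have h1 := h.2.2.2 x (s₀ * x * s₀⁻¹) (fun v => by
    have e1 : (s₀ * x * s₀⁻¹) (g v) = s₀ (x (s₀⁻¹ (g v))) := rfl
    have e2 : s₀⁻¹ (g v) = (μ : K) • v := by
      have e3 : g v = s₀ ((μ : K) • v) := by
        rw [hs₀, h.2.1]
        change g v = ((μ⁻¹ : Kˣ) : K) • ((μ : K) • g v)
        rw [smul_smul, ← Units.val_mul, inv_mul_cancel, Units.val_one, one_smul]
      rw [e3]
      have e4 : (s₀⁻¹ * s₀) ((μ : K) • v) = (μ : K) • v := by
        rw [inv_mul_cancel]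
        rfl
      exact e4
    have e5 : x ((μ : K) • v) = (μ : K) • x v := map_smul (x : (Fin d → K) ≃ₗ[K] (Fin d → K)) _ _
    rw [e1, e2, e5, hs₀, h.2.1]
    change g (x v) = ((μ⁻¹ : Kˣ) : K) • ((μ : K) • g (x v))
    rw [smul_smul, ← Units.val_mul, inv_mul_cancel, Units.val_one, one_smul])
  rw [h1, map_mul, map_mul, map_inv]
  rfl

end Vale.Agent.P180.R2.H471.Au
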