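import Vale.Agent.P180.R2.H471.Au10
import Vale.Agent.P180.R2.H471.Au11
import Vale.Agent.P180.R2.H47.PairB
import Vale.Agent.P180.R2.H12.SlR

/-! Lemmas on the center and on lifts of `p`-elements; field automorphisms. -/

set_option linter.all false

namespace Vale.Agent.P180.R2.H471.Au

open Module Subgroup Vale.Agent.P180 Vale.Agent.P180.R2.H799
open Vale.Agent.P180.R2.H589.Sch (Pel pel_unique)
open Vale.Agent.P180.R2.H47.PairP (orderOf_center_dvd exists_lift_elt center_of_map)

variable {K : Type} [Field K] {d : ℕ} {p : ℕ} [hp : Fact p.Prime]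

theorem cast_ne [Finite K] (h : ¬ p ∣ Nat.card K) : (p : K) ≠ 0 := by
  intro h0
  haveI : CharP K p := (CharP.charP_iff_prime_eq_zero hp.out).mpr h0
  exact h (H589.Bt.dvd_card_K (K := K) (p := p))

theorem perfect_sl (hd : 3 ≤ d) : commutator (SpecialLinearGroup K (Fin d → K)) = ⊤ := by
  obtain ⟨n, rfl⟩ : ∃ n, d = n + 1 := ⟨d - 1, by omega⟩
  let ι := Matrix.SpecialLinearGroup.toLin'_equiv (R := K) (n := Fin (n + 1))
  have h1 := congrArg (Subgroup.map ι.toMonoidHom) (perfect_gs (K := K) (n := n) (by omega))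
  rw [_root_.commutator_def, Subgroup.map_commutator, ← MonoidHom.range_eq_map,
    MonoidHom.range_eq_top.mpr ι.surjective] at h1
  rw [_root_.commutator_def]
  exact h1

/-- the centre has no element of order `p` -/
theorem center_one [Finite K] (hcop : ¬ (p ∣ d ∧ p ∣ Nat.card K - 1))
    {c : SpecialLinearGroup K (Fin d → K)} (hc : c ∈ center (SpecialLinearGroup K (Fin d → K)))
    {j : ℕ} (h : c ^ p ^ j = 1) : c = 1 := by
  have h1 := orderOf_center_dvd hc
  have h2 : c ^ d = 1 := by
    obtain ⟨r, hr, hcr⟩ := SpecialLinearGroup.mem_center_iff.mp hc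
    rw [Module.finrank_fin_fun] at hr
    apply Subtype.ext
    apply LinearEquiv.ext
    intro v
    have h3 : ∀ (m : ℕ) v, (c ^ m) v = r ^ m • v := by
      intro m
      induction m with
      | zero => intro v; rw [pow_zero, pow_zero, one_smul]; rfl
      | succ m ih =>
        intro v
        have e1 : (c ^ (m + 1)) v = (c ^ m) (c v) := by rw [pow_succ]; rfl
        have e2 : c v = r • v := LinearMap.congr_fun hcr v
        rw [e1, e2, ih, smul_smul, pow_succ]
    have h4 := h3 d v
    rw [hr, one_smul] at h4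
    exact h4
  obtain ⟨i, -, hi⟩ := (Nat.dvd_prime_pow hp.out).mp (orderOf_dvd_of_pow_eq_one h)
  rcases Nat.eq_zero_or_pos i with h0 | h0
  · rw [h0, pow_zero] at hi
    exact orderOf_eq_one_iff.mp hi
  · exfalso
    have h3 : p ∣ orderOf c := by rw [hi]; exact dvd_pow_self p h0.ne'
    exact hcop ⟨h3.trans (orderOf_dvd_of_pow_eq_one h2), h3.trans (orderOf_dvd_of_pow_eq_one h1)⟩

theorem not_dvd_ker [Finite K] {L : Type} [Group L] {π : SpecialLinearGroup K (Fin d → K) →* L}
    (hcop : ¬ (p ∣ d ∧ p ∣ Nat.card K - 1)) (hk : π.ker ≤ center _) : ¬ p ∣ Nat.card π.ker := by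
  haveI : Finite (SpecialLinearGroup K (Fin d → K)) := BN.finite_sl
  intro hdv
  obtain ⟨w, hw⟩ := exists_prime_orderOf_dvd_card' p hdv
  have h1 : (w : SpecialLinearGroup K (Fin d → K)) = 1 := by
    refine center_one (p := p) hcop (hk w.2) (j := 1) ?_
    rw [pow_one]
    have h2 : w ^ p = 1 := by rw [← hw]; exact pow_orderOf_eq_one w
    exact congrArg Subtype.val h2
  have h2 : w = 1 := Subtype.ext h1
  rw [h2, orderOf_one] at hw
  exact hp.out.one_lt.ne hw

/-- if `x y x⁻¹ = c y` with `c` central modulo the kernel then `c = 1` -/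
theorem eq_of_central [Finite K] (hd : 3 ≤ d) {L : Type} [Group L]
    {π : SpecialLinearGroup K (Fin d → K) →* L} (hcop : ¬ (p ∣ d ∧ p ∣ Nat.card K - 1))
    (hk : π.ker ≤ center _) {y w : SpecialLinearGroup K (Fin d → K)}
    (hy : ∃ j, y ^ p ^ j = 1) (hw : ∃ j, w ^ p ^ j = 1) (h : π (y * w⁻¹) ∈ center L) : y = w := by
  have hc : y * w⁻¹ ∈ center (SpecialLinearGroup K (Fin d → K)) :=
    center_of_map π (fun x hx y => (mem_center_iff.mp (hk hx) y).symm) (perfect_sl hd) h
  obtain ⟨i, hi⟩ := hy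
  obtain ⟨j, hj⟩ := hw
  have h1 : Commute (y * w⁻¹) w := (mem_center_iff.mp hc w).symm
  have h2 : y = (y * w⁻¹) * w := by group
  have h3 : (y * w⁻¹) ^ p ^ (i + j) = 1 := by
    have h4 : y ^ p ^ (i + j) = 1 := by rw [pow_add, pow_mul, hi, one_pow]
    have h5 : w ^ p ^ (i + j) = 1 := by rw [add_comm, pow_add, pow_mul, hj, one_pow]
    rw [h2, h1.mul_pow, h5, mul_one] at h4
    exact h4
  have h4 := center_one (p := p) hcop hc h3
  rw [h2, h4, one_mul]

/-- the automorphisms of a finite field are powers of one -/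
theorem cyclic_ringAut [Finite K] : IsCyclic (RingAut K) := by
  haveI hr : Fact (ringChar K).Prime := ⟨CharP.char_is_prime K (ringChar K)⟩
  letI : Algebra (ZMod (ringChar K)) K := ZMod.algebra K (ringChar K)
  let F : RingAut K →* (K ≃ₐ[ZMod (ringChar K)] K) :=
    { toFun := fun σ => AlgEquiv.ofRingEquiv (f := σ) (fun x => by
        exact RingHom.congr_fun (Subsingleton.elim
          ((σ : K →+* K).comp (algebraMap (ZMod (ringChar K)) K))
          (algebraMap (ZMod (ringChar K)) K)) x)
      map_one' := rfl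
      map_mul' := fun σ τ => rfl }
  refine isCyclic_of_injective F ?_
  intro σ τ h
  apply RingEquiv.ext
  intro x
  exact congrArg (fun f : K ≃ₐ[ZMod (ringChar K)] K => f x) h

end Vale.Agent.P180.R2.H471.Au
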