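import Vale.Agent.P180.R2.H471.Au14
import Vale.Agent.P180.R2.H47.Pair
import Vale.Agent.P180.R2.H471.El3

/-! The corner property of tame pairs `(L, D ∩ L)`, `L` a central quotient of `SL(d, K)`, without
a condition on the outer automorphisms, if `N_D(L)` acts trivially on `D ∩ L` modulo the centre. -/

set_option linter.all false

namespace Vale.Agent.P180.R2.H471.Au

open Module Subgroup Vale.Agent.P180 Vale.Agent.P180.H768.Gd Vale.Agent.P180.R2.H47

universe u

/-- the bound -/
noncomputable def abP (p n m : ℕ) : ℕ := max (PairP.cP p n m) (H259.Cyc.cycB p n)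

/-- **The corner property of tame pairs**, `L` a central quotient of `SL(d, K)`, `d ≥ 3`, `p` odd,
`p` not dividing `|K|` nor `gcd(d, |K| - 1)`: no hypothesis on outer automorphisms if the commutators
`[x, y]`, `x ∈ N_D(L)`, `y ∈ D ∩ L`, centralise `L`. -/
theorem corP_abTame {k : Type u} [Field k] [IsAlgClosed k] {p m n : ℕ} [Fact p.Prime] [CharP k p]
    {G : Type} [Group G] [Finite G] {D L : Subgroup G} (hD : IsPGroup p D)
    (hDn : Nat.card D ≤ n) (hp2 : p ≠ 2) (hL : IsSLc p L)
    (hcc : ∀ x ∈ D, x ∈ Subgroup.normalizer (L : Set G) → ∀ y ∈ D, y ∈ L → ∀ l ∈ L,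
      (x * y * x⁻¹ * y⁻¹) * l = l * (x * y * x⁻¹ * y⁻¹))
    (h : TamePair p m L (D.subgroupOf L)) (b : MonoidAlgebra k G) :
    H365.CorP p (abP p n m) b D L := by
  refine corP_ab hD hDn hp2 hL hcc b fun R hRD hRL => ?_
  refine PairP.corP_tamePair (hD.to_le hRD) ?_ ?_ (inf_le_left.trans hRL) b
  · exact (Nat.card_le_card_of_injective _ (Subgroup.inclusion_injective hRD)).trans hDn
  · exact PairP.ck_tame.sub (fun x hx => hRD hx) h

end Vale.Agent.P180.R2.H471.Au

namespace Vale.Agent.P180.R2.H471.Is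

open Module Subgroup Vale.Agent.P180 Vale.Agent.P180.H768.Gd Vale.Agent.P180.R2.H799
  Vale.Agent.P180.R2.H954 Vale.Agent.P180.R2.H854 Vale.Agent.P180.R2.H799.BS
  Vale.Agent.P180.R2.H854.TD Vale.Agent.P180.R2.H365 Vale.Agent.P180.R2.H47
open Vale.Agent.P180.R2.H471.Au (abP)

universe u

/-- **The corner property of tame pairs**, `L` a central quotient of a group of isometries, `p` a
linear prime, `N_D(L)` acts by semilinear similitudes: no hypothesis on outer automorphisms if the
commutators `[x, y]`, `x ∈ N_D(L)`, `y ∈ D ∩ L`, centralise `L`. -/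
theorem corP_abTame {k : Type u} [Field k] [IsAlgClosed k] {p m n : ℕ} [Fact p.Prime] [CharP k p]
    {G : Type} [Group G] [Finite G] {D L : Subgroup G} (hD : IsPGroup p D)
    (hDn : Nat.card D ≤ n) (h : IsoSim p D L)
    (hcc : ∀ x ∈ D, x ∈ Subgroup.normalizer (L : Set G) → ∀ y ∈ D, y ∈ L → ∀ l ∈ L,
      (x * y * x⁻¹ * y⁻¹) * l = l * (x * y * x⁻¹ * y⁻¹))
    (ht : TamePair p m L (D.subgroupOf L)) (b : MonoidAlgebra k G) :
    H365.CorP p (abP p n m) b D L := by
  refine corP_ab hD hDn h hcc b fun R hRD hRL => ?_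
  refine PairP.corP_tamePair (hD.to_le hRD) ?_ ?_ (inf_le_left.trans hRL) b
  · exact (Nat.card_le_card_of_injective _ (Subgroup.inclusion_injective hRD)).trans hDn
  · exact PairP.ck_tame.sub (fun x hx => hRD hx) ht

end Vale.Agent.P180.R2.H471.Is

namespace Vale.Agent.P180.R2.H471.El

open Module Subgroup Vale.Agent.P180 Vale.Agent.P180.H768.Gd Vale.Agent.P180.R2.H799
  Vale.Agent.P180.R2.H954 Vale.Agent.P180.R2.H854 Vale.Agent.P180.R2.H799.BS
  Vale.Agent.P180.R2.H854.TD Vale.Agent.P180.R2.H365 Vale.Agent.P180.R2.H47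
  Vale.Agent.P180.R2.H471.Is
open Vale.Agent.P180.R2.H471.Au (abP IsSLc)

universe u

/-- **The corner property of tame pairs**, `L` a central quotient of `SL(d, K)`, `d ≥ 3`, `p` odd,
`p` not dividing `|K|` nor `gcd(d, |K| - 1)`: no hypothesis on outer automorphisms if `D ∩ L` is
elementary abelian modulo the centre. -/
theorem corP_elTame {k : Type u} [Field k] [IsAlgClosed k] {p m n : ℕ} [Fact p.Prime] [CharP k p]
    {G : Type} [Group G] [Finite G] {D L : Subgroup G} (hD : IsPGroup p D)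
    (hDn : Nat.card D ≤ n) (hp2 : p ≠ 2) (hL : IsSLc p L)
    (hab : ∀ x ∈ D, x ∈ L → ∀ y ∈ D, y ∈ L → ∀ l ∈ L,
      (x * y * x⁻¹ * y⁻¹) * l = l * (x * y * x⁻¹ * y⁻¹))
    (hel : ∀ y ∈ D, y ∈ L → ∀ l ∈ L, y ^ p * l = l * y ^ p)
    (h : TamePair p m L (D.subgroupOf L)) (b : MonoidAlgebra k G) :
    H365.CorP p (abP p n m) b D L := by
  refine corP_el hD hDn hp2 hL hab hel b fun R hRD hRL => ?_
  refine H47.PairP.corP_tamePair (hD.to_le hRD) ?_ ?_ (inf_le_left.trans hRL) b
  · exact (Nat.card_le_card_of_injective _ (Subgroup.inclusion_injective hRD)).trans hDn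
  · exact H47.PairP.ck_tame.sub (fun x hx => hRD hx) h

/-- **The corner property of tame pairs**, `L` a central quotient of a group of isometries, `p` a
linear prime, `N_D(L)` acts by semilinear similitudes: no hypothesis on outer automorphisms if
`D ∩ L` is elementary abelian modulo the centre. -/
theorem corP_elTame_iso {k : Type u} [Field k] [IsAlgClosed k] {p m n : ℕ} [Fact p.Prime] [CharP k p]
    {G : Type} [Group G] [Finite G] {D L : Subgroup G} (hD : IsPGroup p D)
    (hDn : Nat.card D ≤ n) (h : IsoSim p D L)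
    (hab : ∀ x ∈ D, x ∈ L → ∀ y ∈ D, y ∈ L → ∀ l ∈ L,
      (x * y * x⁻¹ * y⁻¹) * l = l * (x * y * x⁻¹ * y⁻¹))
    (hel : ∀ y ∈ D, y ∈ L → ∀ l ∈ L, y ^ p * l = l * y ^ p)
    (ht : TamePair p m L (D.subgroupOf L)) (b : MonoidAlgebra k G) :
    H365.CorP p (abP p n m) b D L := by
  refine corP_el_iso hD hDn h hab hel b fun R hRD hRL => ?_
  refine PairP.corP_tamePair (hD.to_le hRD) ?_ ?_ (inf_le_left.trans hRL) b
  · exact (Nat.card_le_card_of_injective _ (Subgroup.inclusion_injective hRD)).trans hDn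
  · exact PairP.ck_tame.sub (fun x hx => hRD hx) ht

end Vale.Agent.P180.R2.H471.El
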