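import Vale.Agent.P180.R2.H471.Au1

/-! Automorphisms of odd order of `PSL(n + 1, K)`, `n ≥ 2`, map the radicals of points to radicals
of points, and those of hyperplanes to those of hyperplanes. -/

set_option linter.all false

namespace Vale.Agent.P180.R2.H471.Au

open Subgroup Module
open Vale.Agent.P180.R2.H589.Sch Vale.Agent.P180.R2.H589.Bt

variable {K : Type*} [Field K] {n : ℕ} {T : Type*} [Group T] {π : GS (n + 1) K →* T}

theorem RT_inj [Finite K] (p : ℕ) [Fact p.Prime] [CharP K p]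
    (hker : π.ker = center (GS (n + 1) K)) {W W' : Submodule K (Fin (n + 1) → K)}
    (h0 : W ≠ ⊥) (h0' : W' ≠ ⊥) (h : ∀ t, t ∈ RT π W ↔ t ∈ RT π W') : W = W' := by
  have h1 : RW W = RW W' := by
    ext g
    rw [← Lf_RT (p := p) hker W, ← Lf_RT (p := p) hker W', mem_Lf, mem_Lf, h]
  rw [← Fx_RW h0, h1, Fx_RW h0']

theorem dim_image [Finite K] (p : ℕ) [Fact p.Prime] [CharP K p] (hn : 2 ≤ n)
    (hπ : Function.Surjective π) (hker : π.ker = center (GS (n + 1) K))
    {W : Submodule K (Fin (n + 1) → K)} (hW : finrank K W = 1 ∨ finrank K W = n) (α : MulAut T) :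
    ∃ W' : Submodule K (Fin (n + 1) → K), (finrank K W' = 1 ∨ finrank K W' = n) ∧
      (RT π W).map α.toMonoidHom = RT π W' := by
  have hW0 : W ≠ ⊥ := by
    rintro rfl
    rw [finrank_bot] at hW
    omega
  have hW1 : W ≠ ⊤ := by
    rintro rfl
    rw [finrank_top, Module.finrank_fin_fun] at hW
    omega
  obtain ⟨W', hW'0, hW'1, hW'⟩ := exists_RT_of_aut p (by omega) hπ hker hW0 hW1 α
  refine ⟨W', ?_, hW'⟩
  have h1 : Nat.card (RT π W) = Nat.card (RT π W') := by
    rw [← hW']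
    exact Nat.card_congr (α.subgroupMap (RT π W)).toEquiv
  rw [card_RT p hker, card_RT p hker, card_RW p, card_RW p] at h1
  have h2 := Nat.pow_right_injective (Finite.one_lt_card (α := K)) h1
  have h3 : (n + 1 - finrank K W) * finrank K W = n := by
    rcases hW with h | h
    · rw [h]; omega
    · rw [h]
      have : n + 1 - n = 1 := by omega
      rw [this, one_mul]
  rw [h3] at h2
  have h4 : 1 ≤ finrank K W' := by
    rw [Nat.one_le_iff_ne_zero]
    intro h
    exact hW'0 (Submodule.finrank_eq_zero.mp h)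
  have h5 : finrank K W' ≤ n := by
    have h6 := Submodule.finrank_lt hW'1
    rw [Module.finrank_fin_fun] at h6
    omega
  exact arith h4 h5 h2.symm

/-- the automorphisms which do not interchange points and hyperplanes -/
abbrev HH (π : GS (n + 1) K →* T) : Subgroup (MulAut T) :=
  (MulAut.conj : T →* MulAut T).range ⊔ AR π

theorem HH_iff [Finite K] (p : ℕ) [Fact p.Prime] [CharP K p] (hn : 2 ≤ n)
    (hπ : Function.Surjective π) (hker : π.ker = center (GS (n + 1) K)) (α β : MulAut T) :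
    α * β ∈ HH π ↔ (α ∈ HH π ↔ β ∈ HH π) := by
  obtain ⟨H, hH⟩ : ∃ H, H = HH π := ⟨_, rfl⟩
  rw [← hH]
  have hfin : ∀ α : MulAut T, ∃ W : Submodule K (Fin (n + 1) → K),
      (RT π (H0 n K)).map α.toMonoidHom = RT π W ∧ (finrank K W = 1 ∨ finrank K W = n) := by
    intro α
    obtain ⟨W, h1, h2⟩ := dim_image p hn hπ hker (W := H0 n K) (Or.inr finrank_H0) α
    exact ⟨W, h2, h1⟩
  have hone : (RT π (H0 n K)).map (1 : MulAut T).toMonoidHom = RT π (H0 n K) := by
    ext t
    exact mem_map_aut 1 t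
  have hmem : ∀ {α : MulAut T} {W : Submodule K (Fin (n + 1) → K)},
      (RT π (H0 n K)).map α.toMonoidHom = RT π W → finrank K W = n → α ∈ H := by
    intro α W hα hW
    obtain ⟨g, hg⟩ := exists_move_hyp hW
    have h1 := mem_of_map hone hα hg
    rw [inv_one, one_mul] at h1
    rw [hH]
    exact h1
  have htwo : ∀ {α β : MulAut T}, α ∉ H → β ∉ H → α⁻¹ * β ∈ H := by
    intro α β hα hβ
    obtain ⟨W, hW, h1⟩ := hfin α
    obtain ⟨W', hW', h2⟩ := hfin β
    have h1' := h1.resolve_right fun h => hα (hmem hW h)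
    have h2' := h2.resolve_right fun h => hβ (hmem hW' h)
    obtain ⟨g, hg⟩ := exists_move_line (by omega) h1' h2'
    rw [hH]
    exact mem_of_map hW hW' hg
  by_cases hα : α ∈ H
  · rw [Subgroup.mul_mem_cancel_left _ hα]
    exact ⟨fun h => ⟨fun _ => h, fun _ => hα⟩, fun h => h.mp hα⟩
  · by_cases hβ : β ∈ H
    · rw [Subgroup.mul_mem_cancel_right _ hβ]
      exact ⟨fun h => absurd h hα, fun h => h.mpr hβ⟩
    · have h1 := htwo (α := α⁻¹) (β := β) (fun h => hα (by
        rw [← inv_inv α]; exact H.inv_mem h)) hβ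
      rw [inv_inv] at h1
      exact ⟨fun _ => ⟨fun h => absurd h hα, fun h => absurd h hβ⟩, fun _ => h1⟩

/-- Automorphisms of odd order do not interchange points and hyperplanes. -/
theorem mem_HH_of_odd [Finite K] (p : ℕ) [Fact p.Prime] [CharP K p] (hn : 2 ≤ n)
    (hπ : Function.Surjective π) (hker : π.ker = center (GS (n + 1) K)) {α : MulAut T} {m : ℕ}
    (hm : Odd m) (hα : α ^ m = 1) : α ∈ HH π := by
  obtain ⟨k, rfl⟩ := hm
  have h1 : α ^ 2 ∈ HH π := by
    rw [pow_two, HH_iff p hn hπ hker]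
  have h2 : α ^ (2 * k) * α ∈ HH π := by
    rw [← pow_succ, hα]
    exact Subgroup.one_mem _
  rw [Subgroup.mul_mem_cancel_left _ (by rw [pow_mul]; exact Subgroup.pow_mem _ h1 k)] at h2
  exact h2

/-- hyperplanes go to hyperplanes -/
theorem hyp_of_HH (hπ : Function.Surjective π) {α : MulAut T} (hα : α ∈ HH π)
    {W : Submodule K (Fin (n + 1) → K)} (hW : finrank K W = n) :
    ∃ W' : Submodule K (Fin (n + 1) → K), finrank K W' = n ∧
      ∀ t, α t ∈ RT π W' ↔ t ∈ RT π W := by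
  -- moving the hyperplane
  have hmove : ∀ (h : GS (n + 1) K) (W : Submodule K (Fin (n + 1) → K)), finrank K W = n →
      ∃ W' : Submodule K (Fin (n + 1) → K), finrank K W' = n ∧
        ∀ t, π h * t * (π h)⁻¹ ∈ RT π W' ↔ t ∈ RT π W := by
    intro h W hW
    refine ⟨W.map ((nat (n + 1) K h : (Fin (n + 1) → K) ≃ₗ[K] (Fin (n + 1) → K)) :
      (Fin (n + 1) → K) →ₗ[K] (Fin (n + 1) → K)), ?_, fun t => ?_⟩
    · rw [LinearEquiv.finrank_map_eq, hW]
    · refine (RT_conj (fun x => ?_) t).symm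
      constructor
      · rintro ⟨y, hy, hyx⟩
        rwa [← (nat (n + 1) K h).injective hyx]
      · intro hx
        exact ⟨x, hx, rfl⟩
  haveI : ((MulAut.conj : T →* MulAut T).range).Normal := inn_normal
  obtain ⟨_, ⟨s, rfl⟩, β, hβ, hαβ⟩ := Subgroup.mem_sup_of_normal_left.mp hα
  obtain ⟨g, hg⟩ := exists_move_hyp hW
  obtain ⟨h, hh⟩ := hπ (β (π g))
  obtain ⟨k, hk⟩ := hπ s
  obtain ⟨W', hW', h1⟩ := hmove (k * h) (H0 n K) finrank_H0
  refine ⟨W', hW', fun t => ?_⟩
  have h2 : t = π g * ((π g)⁻¹ * t * π g) * (π g)⁻¹ := by group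
  have h3 : (π g)⁻¹ * t * π g ∈ RT π (H0 n K) ↔ t ∈ RT π W := by
    rw [RT_conj (π := π) hg, ← h2]
  rw [← h3, ← hβ, ← h1, ← hαβ]
  have h4 : (MulAut.conj s * β) t = π (k * h) * β ((π g)⁻¹ * t * π g) * (π (k * h))⁻¹ := by
    rw [MulAut.mul_apply, MulAut.conj_apply, map_mul π k h, hk, hh, map_mul, map_mul, map_inv]
    group
  rw [h4]

/-- points go to points -/
theorem line_of_HH [Finite K] (p : ℕ) [Fact p.Prime] [CharP K p] (hn : 2 ≤ n)
    (hπ : Function.Surjective π) (hker : π.ker = center (GS (n + 1) K)) {α : MulAut T}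
    (hα : α ∈ HH π) {W : Submodule K (Fin (n + 1) → K)} (hW : finrank K W = 1) :
    ∃ W' : Submodule K (Fin (n + 1) → K), finrank K W' = 1 ∧
      ∀ t, α t ∈ RT π W' ↔ t ∈ RT π W := by
  obtain ⟨W', h1, h2⟩ := dim_image p hn hπ hker (W := W) (Or.inl hW) α
  have h3 : ∀ t, α t ∈ RT π W' ↔ t ∈ RT π W := by
    intro t
    rw [← h2, mem_map_aut]
  rcases h1 with h1 | h1
  · exact ⟨W', h1, h3⟩
  · exfalso
    obtain ⟨W'', h4, h5⟩ := hyp_of_HH hπ (inv_mem hα) h1
    have h6 : W'' = W := by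
      refine RT_inj p hker ?_ ?_ fun t => ?_
      · rintro rfl
        rw [finrank_bot] at h4
        omega
      · rintro rfl
        rw [finrank_bot] at hW
        omega
      · rw [← h3, ← h5]
        have h7 : α⁻¹ (α t) = t := α.symm_apply_apply t
        rw [h7]
    rw [h6, hW] at h4
    omega

end Vale.Agent.P180.R2.H471.Au
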