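import Vale.Agent.P180.R2.H471.Au2

/-! Coordinates: the image of an elementary transvection. -/

set_option linter.all false

namespace Vale.Agent.P180.R2.H471.Au

open Matrix Subgroup Module
open Vale.Agent.P180.R2.H589.Sch Vale.Agent.P180.R2.H589.Bt

variable {K : Type*} [Field K] {n : ℕ} {T' : Type*} [Group T'] {π : GS (n + 1) K →* T'}

/-- the functional of a vector -/
def Df {N : ℕ} (φ : Fin N → K) : (Fin N → K) →ₗ[K] K where
  toFun x := φ ⬝ᵥ x
  map_add' x y := dotProduct_add _ _ _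
  map_smul' c x := dotProduct_smul _ _ _

theorem exists_Df {N : ℕ} (ψ : Dual K (Fin N → K)) : ∃ φ : Fin N → K, ∀ x, ψ x = φ ⬝ᵥ x := by
  refine ⟨fun i => ψ (Pi.single i 1), fun x => ?_⟩
  have h1 : x = ∑ i, x i • (Pi.single i (1 : K) : Fin N → K) := by
    funext j
    rw [Finset.sum_apply, Finset.sum_eq_single j]
    · rw [Pi.smul_apply, Pi.single_eq_same, smul_eq_mul, mul_one]
    · intro b _ hb
      rw [Pi.smul_apply, Pi.single_eq_of_ne (Ne.symm hb), smul_zero]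
    · intro h
      exact absurd (Finset.mem_univ j) h
  conv_lhs => rw [h1]
  rw [map_sum, dotProduct]
  refine Finset.sum_congr rfl fun i _ => ?_
  rw [map_smul, smul_eq_mul, mul_comm]

theorem finrank_ker_Df {N : ℕ} {φ : Fin (N + 1) → K} (hφ : φ ≠ 0) :
    finrank K (LinearMap.ker (Df φ)) = N := by
  obtain ⟨i, hi⟩ : ∃ i, φ i ≠ 0 := by
    by_contra hcon
    push Not at hcon
    exact hφ (funext hcon)
  have h1 := LinearMap.finrank_range_add_finrank_ker (Df φ)
  have h2 : LinearMap.range (Df φ) = ⊤ := by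
    rw [LinearMap.range_eq_top]
    intro c
    refine ⟨Pi.single i ((φ i)⁻¹ * c), ?_⟩
    change φ ⬝ᵥ _ = c
    rw [dotProduct_single, mul_inv_cancel_left₀ hi]
  rw [h2, finrank_top, Module.finrank_self, Module.finrank_fin_fun] at h1
  omega

theorem exists_ker_Df {N : ℕ} {W : Submodule K (Fin (N + 1) → K)} (hW : finrank K W = N) :
    ∃ φ : Fin (N + 1) → K, φ ≠ 0 ∧ W = LinearMap.ker (Df φ) := by
  obtain ⟨v, hv⟩ : ∃ v, v ∉ W := by
    by_contra hc
    push Not at hc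
    rw [Submodule.eq_top_iff'.mpr hc, finrank_top, Module.finrank_fin_fun] at hW
    omega
  obtain ⟨ψ, hψ, hψv⟩ := exists_sep hv
  obtain ⟨φ, hφ⟩ := exists_Df ψ
  have hφ0 : φ ≠ 0 := by
    rintro rfl
    rw [hφ, zero_dotProduct] at hψv
    exact zero_ne_one hψv
  refine ⟨φ, hφ0, ?_⟩
  apply Submodule.eq_of_le_of_finrank_eq
  · intro w hw
    change φ ⬝ᵥ w = 0
    rw [← hφ, hψ w hw]
  · rw [hW, finrank_ker_Df hφ0]

theorem exists_span {N : ℕ} {W : Submodule K (Fin (N + 1) → K)} (hW : finrank K W = 1) :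
    ∃ v : Fin (N + 1) → K, v ≠ 0 ∧ W = Submodule.span K {v} := by
  obtain ⟨v, hv, h⟩ := finrank_eq_one_iff'.mp hW
  refine ⟨v, fun h0 => hv (Subtype.ext h0), le_antisymm (fun w hw => ?_) ?_⟩
  · obtain ⟨c, hc⟩ := h ⟨w, hw⟩
    exact Submodule.mem_span_singleton.mpr ⟨c, congrArg Subtype.val hc⟩
  · rw [Submodule.span_singleton_le_iff_mem]
    exact v.2

/-- The data of a homomorphism which maps elementary transvections to transvections. -/
def Dat {T' : Type*} [Group T'] (π₁ π : GS (n + 1) K →* T')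
    (v φ : Fin (n + 1) → (Fin (n + 1) → K)) (c : Fin (n + 1) → Fin (n + 1) → K → K) : Prop :=
  (∀ i, v i ≠ 0) ∧ (∀ j, φ j ≠ 0) ∧ (∀ i j, i ≠ j → φ j ⬝ᵥ v i = 0) ∧
  ∀ i j (hij : i ≠ j) a, ∃ h, π₁ (tv hij a) = π (T (c i j a • v i) (φ j) h)

theorem exists_dat [Finite K] (p : ℕ) [Fact p.Prime] [CharP K p] (hn : 2 ≤ n)
    (hπ : Function.Surjective π) (hker : π.ker = center (GS (n + 1) K)) {α : MulAut T'}
    (hα : α ∈ HH π) : ∃ v φ c, Dat (α.toMonoidHom.comp π) π v φ c := by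
  have hl : ∀ i : Fin (n + 1), ∃ v : Fin (n + 1) → K, v ≠ 0 ∧
      ∀ t, α t ∈ RT π (Submodule.span K {v}) ↔
        t ∈ RT π (Submodule.span K {(Pi.single i 1 : Fin (n + 1) → K)}) := by
    intro i
    have h0 : (Pi.single i 1 : Fin (n + 1) → K) ≠ 0 := by
      intro h
      have h1 := congrFun h i
      rw [Pi.single_eq_same] at h1
      exact one_ne_zero h1
    obtain ⟨W', h1, h2⟩ := line_of_HH p hn hπ hker hα (finrank_span_singleton h0)
    obtain ⟨v, hv, rfl⟩ := exists_span h1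
    exact ⟨v, hv, h2⟩
  have hh : ∀ j : Fin (n + 1), ∃ φ : Fin (n + 1) → K, φ ≠ 0 ∧
      ∀ t, α t ∈ RT π (LinearMap.ker (Df φ)) ↔
        t ∈ RT π (LinearMap.ker (Df (Pi.single j 1 : Fin (n + 1) → K))) := by
    intro i
    have h0 : (Pi.single i 1 : Fin (n + 1) → K) ≠ 0 := by
      intro h
      have h1 := congrFun h i
      rw [Pi.single_eq_same] at h1
      exact one_ne_zero h1
    obtain ⟨W', h1, h2⟩ := hyp_of_HH hπ hα (finrank_ker_Df h0)
    obtain ⟨φ, hφ, rfl⟩ := exists_ker_Df h1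
    exact ⟨φ, hφ, h2⟩
  choose v hv0 hv using hl
  choose φ hφ0 hφ using hh
  have key : ∀ i j (hij : i ≠ j) a, ∃ c : K, φ j ⬝ᵥ (c • v i) = 0 ∧ ∃ h,
      (α.toMonoidHom.comp π) (tv hij a) = π (T (c • v i) (φ j) h) := by
    intro i j hij a
    have e1 : ∀ x, nat (n + 1) K (tv hij a) x - x = (a * x j) • (Pi.single i 1 : Fin (n + 1) → K) := by
      intro x
      rw [nat_apply, tv_mulVec, add_sub_cancel_left, ← Pi.single_smul', smul_eq_mul, mul_one]
    have e2 : ∀ x : Fin (n + 1) → K, x j = 0 → nat (n + 1) K (tv hij a) x = x := by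
      intro x hx
      rw [← sub_eq_zero, e1, hx, mul_zero, zero_smul]
    have h1 : tv hij a ∈ RW (Submodule.span K {(Pi.single i 1 : Fin (n + 1) → K)}) := by
      refine ⟨fun w hw => ?_, fun x => ?_⟩
      · obtain ⟨c, rfl⟩ := Submodule.mem_span_singleton.mp hw
        apply e2
        rw [Pi.smul_apply, Pi.single_eq_of_ne (Ne.symm hij), smul_zero]
      · rw [e1]
        exact Submodule.smul_mem _ _ (Submodule.mem_span_singleton_self _)
    have h2 : tv hij a ∈ RW (LinearMap.ker (Df (Pi.single j 1 : Fin (n + 1) → K))) := by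
      refine ⟨fun w hw => ?_, fun x => ?_⟩
      · apply e2
        have h3 : (Pi.single j 1 : Fin (n + 1) → K) ⬝ᵥ w = 0 := hw
        rwa [single_dotProduct, one_mul] at h3
      · rw [e1]
        refine Submodule.smul_mem _ _ ?_
        change (Pi.single j 1 : Fin (n + 1) → K) ⬝ᵥ _ = 0
        rw [single_dotProduct, one_mul, Pi.single_eq_of_ne (Ne.symm hij)]
    obtain ⟨g₁, hg₁, hg₁'⟩ := (hv i (π (tv hij a))).2 ⟨_, h1, rfl⟩
    obtain ⟨g₂, hg₂, hg₂'⟩ := (hφ j (π (tv hij a))).2 ⟨_, h2, rfl⟩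
    have h3 : g₁ = g₂ := pel_unique (p := p) (ker_le hker) (not_dvd_ker hker)
      ⟨1, by rw [pow_one]; exact RW_pow hg₁⟩ ⟨1, by rw [pow_one]; exact RW_pow hg₂⟩
      (hg₁'.trans hg₂'.symm)
    obtain ⟨c, hc, hc', hg⟩ := exists_T_of_mem (v := v i) (φ := φ j) (hφ0 j) (g := g₁)
      (fun x => by
        obtain ⟨c, hc⟩ := Submodule.mem_span_singleton.mp (hg₁.2 x)
        exact ⟨c, hc.symm⟩)
      (fun x hx => by
        rw [h3]
        exact hg₂.1 x hx)
    refine ⟨c, hc, hc', ?_⟩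
    rw [← hg, hg₁']
    rfl
  have key2 : ∀ i j a, ∃ c : K, ∀ hij : i ≠ j, φ j ⬝ᵥ (c • v i) = 0 ∧ ∃ h,
      (α.toMonoidHom.comp π) (tv hij a) = π (T (c • v i) (φ j) h) := by
    intro i j a
    by_cases hij : i ≠ j
    · obtain ⟨c, hc⟩ := key i j hij a
      exact ⟨c, fun _ => hc⟩
    · exact ⟨0, fun h => absurd h hij⟩
  choose c hc' using key2
  have hc : ∀ i j (hij : i ≠ j) a, φ j ⬝ᵥ (c i j a • v i) = 0 ∧ ∃ h,
      (α.toMonoidHom.comp π) (tv hij a) = π (T (c i j a • v i) (φ j) h) :=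
    fun i j hij a => hc' i j a hij
  refine ⟨v, φ, c, hv0, hφ0, fun i j hij => ?_, fun i j hij a => (hc i j hij a).2⟩
  obtain ⟨h1, h2, h3⟩ := hc i j hij 1
  by_contra hne
  rw [dotProduct_smul, smul_eq_mul] at h1
  have h4 : c i j 1 = 0 := (mul_eq_zero.mp h1).resolve_right hne
  have h5 : T (c i j 1 • v i) (φ j) h2 = 1 := by
    rw [T_congr (by rw [h4, zero_smul]) rfl h2 (dotProduct_zero _), T_zero]
  rw [h5, map_one] at h3
  have h6 : π (tv hij 1) = 1 := by
    apply α.injective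
    rw [map_one]
    exact h3
  have h7 : tv hij (1 : K) = 1 := by
    refine pel_unique (p := p) (ker_le hker) (not_dvd_ker hker) ?_ ⟨0, by rw [one_pow]⟩
      (by rw [h6, map_one])
    rw [tv_eq_T]
    exact pel_T p _ _ _
  have h8 := congrArg (fun g : GS (n + 1) K => nat (n + 1) K g (Pi.single j 1) i) h7
  have h9 : nat (n + 1) K (tv hij (1 : K)) (Pi.single j 1) i =
      nat (n + 1) K (1 : GS (n + 1) K) (Pi.single j 1) i := h8
  rw [nat_apply, nat_apply, tv_mulVec, Pi.add_apply, Pi.single_eq_same, Pi.single_eq_same, mul_one,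
    Pi.single_eq_of_ne hij] at h9
  change (0 : K) + 1 = ((1 : Matrix (Fin (n + 1)) (Fin (n + 1)) K) *ᵥ Pi.single j 1) i at h9
  rw [one_mulVec, Pi.single_eq_of_ne hij, zero_add] at h9
  exact one_ne_zero h9

end Vale.Agent.P180.R2.H471.Au
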