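import Vale.Agent.P180.R2.H471.Au3

/-! From the coordinates to a semilinear map. -/

set_option linter.all false

namespace Vale.Agent.P180.R2.H471.Au

open Matrix Subgroup Module
open Vale.Agent.P180.R2.H589.Sch Vale.Agent.P180.R2.H589.Bt

variable {K : Type*} [Field K] {n : ℕ} {T' : Type*} [Group T'] {π₁ π : GS (n + 1) K →* T'}

theorem vecMul_T {N : ℕ} (v φ : Fin N → K) (h : φ ⬝ᵥ v = 0) (χ : Fin N → K) :
    χ ᵥ* ((T v φ h : GS N K) : Matrix (Fin N) (Fin N) K) = χ + (χ ⬝ᵥ v) • φ := by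
  rw [coe_T, vecMul_add, vecMul_one, vecMul_N]

theorem smul_cancel {N : ℕ} {v : Fin N → K} (hv : v ≠ 0) {a b : K} (h : a • v = b • v) : a = b := by
  obtain ⟨i, hi⟩ : ∃ i, v i ≠ 0 := by
    by_contra hcon
    push Not at hcon
    exact hv (funext hcon)
  have h1 := congrFun h i
  rw [Pi.smul_apply, Pi.smul_apply, smul_eq_mul, smul_eq_mul] at h1
  exact mul_right_cancel₀ hi h1

theorem exists_third (hn : 2 ≤ n) (i j : Fin (n + 1)) : ∃ k : Fin (n + 1), k ≠ i ∧ k ≠ j := by
  by_contra hcon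
  push Not at hcon
  have h1 : (Finset.univ : Finset (Fin (n + 1))) ⊆ {i, j} := by
    intro k _
    by_cases hk : k = i
    · rw [hk]; exact Finset.mem_insert_self _ _
    · rw [hcon k hk]; exact Finset.mem_insert_of_mem (Finset.mem_singleton_self _)
  have h2 := Finset.card_le_card h1
  rw [Finset.card_univ, Fintype.card_fin] at h2
  have h3 := Finset.card_le_two (a := i) (b := j)
  omega

/-- conjugation by an invertible matrix -/
def CJ {N : ℕ} {X Y : Matrix (Fin N) (Fin N) K} (hXY : X * Y = 1) : GS N K →* GS N K where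
  toFun g := ⟨X * g * Y, by
    rw [det_mul, det_mul, g.2, mul_one, ← det_mul, hXY, det_one]⟩
  map_one' := by
    apply Subtype.ext
    change X * 1 * Y = 1
    rw [mul_one, hXY]
  map_mul' g h := by
    apply Subtype.ext
    change X * ((g : Matrix (Fin N) (Fin N) K) * h) * Y = X * g * Y * (X * h * Y)
    have hYX : Y * X = 1 := mul_eq_one_comm.mp hXY
    calc X * ((g : Matrix (Fin N) (Fin N) K) * h) * Y = X * (g * 1 * h) * Y := by rw [mul_one]
      _ = _ := by rw [← hYX]; simp only [mul_assoc]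

theorem coe_CJ {N : ℕ} {X Y : Matrix (Fin N) (Fin N) K} (hXY : X * Y = 1) (g : GS N K) :
    ((CJ hXY g : GS N K) : Matrix (Fin N) (Fin N) K) = X * g * Y := rfl

variable (p : ℕ) [hp : Fact p.Prime] [CharP K p] [Finite K]

include hp in
theorem T_inj_of_map (hker : π.ker = center (GS (n + 1) K)) {v w φ ψ : Fin (n + 1) → K}
    {h : φ ⬝ᵥ v = 0} {h' : ψ ⬝ᵥ w = 0} (he : π (T v φ h) = π (T w ψ h')) :
    T v φ h = T w ψ h' :=
  pel_unique (p := p) (ker_le hker) (not_dvd_ker hker) (pel_T p _ _ _) (pel_T p _ _ _) he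

variable {v φ : Fin (n + 1) → (Fin (n + 1) → K)} {c : Fin (n + 1) → Fin (n + 1) → K → K}

include hp in
theorem c_add (hker : π.ker = center (GS (n + 1) K)) (hd : Dat π₁ π v φ c) {i j : Fin (n + 1)}
    (hij : i ≠ j) (a b : K) : c i j (a + b) = c i j a + c i j b := by
  obtain ⟨hv, hφ, h0, hc⟩ := hd
  obtain ⟨h1, h1'⟩ := hc i j hij a
  obtain ⟨h2, h2'⟩ := hc i j hij b
  obtain ⟨h3, h3'⟩ := hc i j hij (a + b)
  rw [← tv_mul, map_mul, h1', h2', ← map_mul, T_mul'] at h3'
  have h4 := T_left_injective (hφ j) (T_inj_of_map p hker h3')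
  rw [← add_smul] at h4
  exact (smul_cancel (hv i) h4).symm

include hp in
theorem c_mul (hker : π.ker = center (GS (n + 1) K)) (hd : Dat π₁ π v φ c) {i j k : Fin (n + 1)}
    (hij : i ≠ j) (hjk : j ≠ k) (hik : i ≠ k) (a b : K) :
    c i j a * c j k b * (φ j ⬝ᵥ v j) = c i k (a * b) := by
  obtain ⟨hv, hφ, h0, hc⟩ := hd
  obtain ⟨h1, h1'⟩ := hc i j hij a
  obtain ⟨h2, h2'⟩ := hc j k hjk b
  obtain ⟨h3, h3'⟩ := hc i k hik (a * b)
  have e1 : tv hij a * tv hjk b * (tv hij a)⁻¹ = tv hik (a * b) * tv hjk b := by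
    have e2 := tv_commutator hij hjk hik a b
    rw [← e2, tv_inv, ← tv_inv hjk, inv_mul_cancel_right]
  have e3 := congrArg π₁ e1
  rw [map_mul, map_mul, map_mul, map_inv, h1', h2', h3', ← map_mul, ← map_inv, ← map_mul,
    ← map_mul] at e3
  obtain ⟨h4, h4'⟩ := conj_T (T (c i j a • v i) (φ j) h1) (c j k b • v j) (φ k) h2
  have e4 : ((T (c i j a • v i) (φ j) h1 : GS (n + 1) K) : Matrix (Fin (n + 1)) (Fin (n + 1)) K) *ᵥ
      (c j k b • v j) = (c i j a * c j k b * (φ j ⬝ᵥ v j)) • v i + c j k b • v j := by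
    rw [T_mulVec, dotProduct_smul, smul_eq_mul, smul_smul, add_comm (c j k b • v j)]
    congr 2
    ring
  have e5 : φ k ᵥ* (((T (c i j a • v i) (φ j) h1)⁻¹ : GS (n + 1) K) :
      Matrix (Fin (n + 1)) (Fin (n + 1)) K) = φ k := by
    rw [T_inv, vecMul_T, dotProduct_neg, dotProduct_smul, h0 i k hik, smul_zero, neg_zero,
      zero_smul, add_zero]
  rw [h4', T_mul', T_congr e4 e5 h4 (by rw [← e4, ← e5]; exact h4)] at e3
  have h5 := T_left_injective (hφ k) (T_inj_of_map p hker e3)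
  exact smul_cancel (hv i) (add_right_cancel h5)

include hp in
theorem c_ne (hker : π.ker = center (GS (n + 1) K)) (hker₁ : π₁.ker = center (GS (n + 1) K))
    (hd : Dat π₁ π v φ c) {i j : Fin (n + 1)} (hij : i ≠ j) {a : K} (ha : a ≠ 0) :
    c i j a ≠ 0 := by
  obtain ⟨hv, hφ, h0, hc⟩ := hd
  intro hne
  obtain ⟨h1, h1'⟩ := hc i j hij a
  have h5 : T (c i j a • v i) (φ j) h1 = 1 := by
    rw [T_congr (by rw [hne, zero_smul]) rfl h1 (dotProduct_zero _), T_zero]
  rw [h5, map_one] at h1'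
  have h7 : tv hij a = 1 := by
    refine center_pel (p := p) (by rw [← hker₁]; exact h1') ?_
    rw [tv_eq_T]
    exact pel_T p _ _ _
  have h9 : nat (n + 1) K (tv hij a) (Pi.single j 1) i =
      nat (n + 1) K (1 : GS (n + 1) K) (Pi.single j 1) i := by rw [h7]
  rw [nat_apply, nat_apply, tv_mulVec, Pi.add_apply, Pi.single_eq_same, Pi.single_eq_same, mul_one,
    Pi.single_eq_of_ne hij] at h9
  change (0 : K) + a = ((1 : Matrix (Fin (n + 1)) (Fin (n + 1)) K) *ᵥ Pi.single j 1) i at h9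
  rw [one_mulVec, Pi.single_eq_of_ne hij, zero_add] at h9
  exact ha h9

include hp in
/-- **The semilinear form.** -/
theorem semi_of_dat (hn : 2 ≤ n) (hker : π.ker = center (GS (n + 1) K))
    (hker₁ : π₁.ker = center (GS (n + 1) K)) (hd : Dat π₁ π v φ c) :
    ∃ (X Y : Matrix (Fin (n + 1)) (Fin (n + 1)) K) (hXY : X * Y = 1) (σ : K →+* K),
      ∀ g, π₁ g = π (CJ hXY (Matrix.SpecialLinearGroup.map σ g)) := by
  set δ : Fin (n + 1) → K := fun j => φ j ⬝ᵥ v j with hδ
  have hcm : ∀ {i j k : Fin (n + 1)}, i ≠ j → j ≠ k → i ≠ k → ∀ a b,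
      c i j a * c j k b * δ j = c i k (a * b) := fun hij hjk hik a b => c_mul p hker hd hij hjk hik a b
  have hc0 : ∀ {i j : Fin (n + 1)}, i ≠ j → ∀ {a : K}, a ≠ 0 → c i j a ≠ 0 :=
    fun hij _ ha => c_ne p hker hker₁ hd hij ha
  have hδ0 : ∀ j, δ j ≠ 0 := by
    intro j h
    obtain ⟨i, hij, -⟩ := exists_third hn j j
    obtain ⟨k, hki, hkj⟩ := exists_third hn i j
    have h1 := hcm hij hkj.symm hki.symm 1 1
    rw [h, mul_zero, mul_one] at h1
    exact hc0 hki.symm one_ne_zero h1.symm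
  set m : Fin (n + 1) → K := fun i => if i = 0 then 1 else c i 0 1 * δ 0 with hm
  have hm0 : ∀ i, m i ≠ 0 := by
    intro i
    by_cases hi : i = 0
    · rw [hm]; simp only [if_pos hi]; exact one_ne_zero
    · rw [hm]; simp only [if_neg hi]; exact mul_ne_zero (hc0 hi one_ne_zero) (hδ0 0)
  have hmz : m 0 = 1 := by rw [hm]; simp only [if_true]
  have hmi : ∀ i, i ≠ 0 → m i = c i 0 1 * δ 0 := by
    intro i hi
    rw [hm]; simp only [if_neg hi]
  set s : Fin (n + 1) → Fin (n + 1) → K → K := fun i j a => c i j a * (m i)⁻¹ * m j * δ j with hs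
  have hcs : ∀ i j a, c i j a = s i j a * m i * (m j)⁻¹ * (δ j)⁻¹ := by
    intro i j a
    simp only [hs]
    have := hm0 i
    have := hm0 j
    have := hδ0 j
    field_simp
  have hsm : ∀ {i j k : Fin (n + 1)}, i ≠ j → j ≠ k → i ≠ k → ∀ a b,
      s i j a * s j k b = s i k (a * b) := by
    intro i j k hij hjk hik a b
    simp only [hs]
    rw [← hcm hij hjk hik a b]
    have := hm0 i
    have := hm0 j
    have := hδ0 j
    field_simp
  have hs1' : ∀ i, i ≠ 0 → s i 0 1 = 1 := by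
    intro i hi
    simp only [hs]
    rw [hmz, hmi i hi]
    have := hδ0 0
    have := hc0 hi (a := 1) one_ne_zero
    field_simp
  have hs1 : ∀ i j, i ≠ j → s i j 1 = 1 := by
    intro i j hij
    by_cases hj : j = 0
    · rw [hj]; exact hs1' i (by rw [← hj]; exact hij)
    · by_cases hi : i = 0
      · obtain ⟨k, hk0, hkj⟩ := exists_third hn 0 j
        subst hi
        have h1 : s k j 1 = 1 := by
          have h2 := hsm hkj hj hk0 1 1
          rw [hs1' j hj, mul_one, mul_one, hs1' k hk0] at h2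
          exact h2
        have h3 := hsm hk0 hij hkj 1 1
        rw [hs1' k hk0, one_mul, mul_one, h1] at h3
        exact h3
      · have h2 := hsm hij hj hi 1 1
        rw [hs1' j hj, mul_one, mul_one, hs1' i hi] at h2
        exact h2
  have hse1 : ∀ {i j k : Fin (n + 1)}, i ≠ j → i ≠ k → ∀ a, s i j a = s i k a := by
    intro i j k hij hik a
    by_cases hjk : j = k
    · rw [hjk]
    · have h1 := hsm hij hjk hik a 1
      rw [hs1 j k hjk, mul_one, mul_one] at h1
      exact h1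
  have hse2 : ∀ {i j k : Fin (n + 1)}, i ≠ k → j ≠ k → ∀ a, s i k a = s j k a := by
    intro i j k hik hjk a
    by_cases hij : i = j
    · rw [hij]
    · have h1 := hsm hij hjk hik 1 a
      rw [hs1 i j hij, one_mul, one_mul] at h1
      exact h1.symm
  obtain ⟨i₀, hi₀, -⟩ := exists_third hn 0 0
  have hse : ∀ i j, i ≠ j → ∀ a, s i j a = s 0 i₀ a := by
    intro i j hij a
    obtain ⟨k, hk0, hki⟩ := exists_third hn 0 i
    rw [hse1 hij hki.symm, hse2 hki.symm hk0.symm, hse1 hk0.symm hi₀.symm]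
  have hsadd : ∀ a b, s 0 i₀ (a + b) = s 0 i₀ a + s 0 i₀ b := by
    intro a b
    simp only [hs]
    rw [c_add p hker hd hi₀.symm]
    ring
  have hszero : s 0 i₀ 0 = 0 := by
    have h1 := hsadd 0 0
    rw [add_zero] at h1
    exact left_eq_add.mp h1
  let σ : K →+* K :=
    { toFun := s 0 i₀
      map_one' := hs1 0 i₀ hi₀.symm
      map_mul' := fun a b => by
        obtain ⟨k, hk0, hki⟩ := exists_third hn 0 i₀
        rw [← hsm hk0.symm hki hi₀.symm, hse 0 k hk0.symm, hse k i₀ hki]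
      map_zero' := hszero
      map_add' := hsadd }
  have hσ : ∀ a, σ a = s 0 i₀ a := fun a => rfl
  let X : Matrix (Fin (n + 1)) (Fin (n + 1)) K := Matrix.of fun r i => m i * v i r
  let Y : Matrix (Fin (n + 1)) (Fin (n + 1)) K := Matrix.of fun j r => (m j)⁻¹ * (δ j)⁻¹ * φ j r
  have hYX : Y * X = 1 := by
    ext j i
    rw [Matrix.mul_apply]
    have h1 : ∑ r, Y j r * X r i = ((m j)⁻¹ * (δ j)⁻¹ * m i) * (φ j ⬝ᵥ v i) := by
      rw [dotProduct, Finset.mul_sum]
      refine Finset.sum_congr rfl fun r _ => ?_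
      change (m j)⁻¹ * (δ j)⁻¹ * φ j r * (m i * v i r) = _
      ring
    rw [h1]
    by_cases hij : i = j
    · rw [hij, Matrix.one_apply_eq]
      change (m j)⁻¹ * (δ j)⁻¹ * m j * δ j = 1
      have := hm0 j
      have := hδ0 j
      field_simp
    · rw [Matrix.one_apply_ne (Ne.symm hij), hd.2.2.1 i j hij, mul_zero]
  have hXY : X * Y = 1 := mul_eq_one_comm.mp hYX
  refine ⟨X, Y, hXY, σ, fun g => ?_⟩
  refine tv_induction (by omega) (fun g => π₁ g = π (CJ hXY (Matrix.SpecialLinearGroup.map σ g)))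
    ?_ (by rw [map_one, map_one, map_one, map_one])
    (fun A B hA hB => by rw [map_mul, map_mul, map_mul, map_mul, hA, hB]) g
  intro i j hij a
  obtain ⟨h1, h2⟩ := hd.2.2.2 i j hij a
  rw [h2]
  congr 1
  apply Subtype.ext
  rw [coe_CJ, coe_T]
  have h3 : ((Matrix.SpecialLinearGroup.map σ (tv hij a) : GS (n + 1) K) :
      Matrix (Fin (n + 1)) (Fin (n + 1)) K) = 1 + Matrix.single i j (σ a) := by
    change σ.mapMatrix ((1 : Matrix (Fin (n + 1)) (Fin (n + 1)) K) + Matrix.single i j a) = _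
    rw [map_add, map_one]
    congr 1
    ext r t
    rw [RingHom.mapMatrix_apply, Matrix.map_apply, Matrix.single_apply, Matrix.single_apply]
    by_cases h : i = r ∧ j = t
    · rw [if_pos h, if_pos h]
    · rw [if_neg h, if_neg h, map_zero]
  rw [h3, mul_add, add_mul, mul_one, hXY]
  congr 1
  ext r t
  rw [N, vecMulVec_apply, Matrix.mul_apply, Finset.sum_eq_single j]
  · rw [Matrix.mul_apply, Finset.sum_eq_single i]
    · rw [Matrix.single_apply_same]
      change c i j a * v i r * φ j t = m i * v i r * s 0 i₀ a * ((m j)⁻¹ * (δ j)⁻¹ * φ j t)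
      rw [← hse i j hij, hcs i j a]
      ring
    · intro b _ hb
      rw [Matrix.single_apply_of_row_ne (Ne.symm hb), mul_zero]
    · intro h
      exact absurd (Finset.mem_univ i) h
  · intro b _ hb
    rw [Matrix.mul_apply, Finset.sum_eq_zero, zero_mul]
    intro k _
    rw [Matrix.single_apply_of_col_ne _ _ (Ne.symm hb), mul_zero]
  · intro h
    exact absurd (Finset.mem_univ j) h

end Vale.Agent.P180.R2.H471.Au
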