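import Vale.Agent.P180.R2.H471.Au4
import Vale.Agent.P180.R2.H589.Sec

/-! Automorphisms of odd order of central quotients of `SL(n, K)`, `n ≥ 3`. -/

set_option linter.all false

namespace Vale.Agent.P180.R2.H471.Au

open Matrix Subgroup Module
open scoped commutatorElement
open Vale.Agent.P180.R2.H589.Sch Vale.Agent.P180.R2.H589.Bt

variable {K : Type*} [Field K] {n : ℕ} {L : Type*} [Group L] {π : GS (n + 1) K →* L}

theorem perfect_gs (hn : 2 ≤ n) : commutator (GS (n + 1) K) = ⊤ := by
  rw [eq_top_iff]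
  intro A _
  refine tv_induction (by omega) (fun A => A ∈ commutator (GS (n + 1) K)) ?_ (Subgroup.one_mem _)
    (fun _ _ => Subgroup.mul_mem _) A
  intro i j hij c
  obtain ⟨k, hki, hkj⟩ := exists_third hn i j
  have h1 := tv_commutator hki.symm hkj hij c 1
  rw [mul_one, ← tv_inv, ← tv_inv] at h1
  rw [← h1, _root_.commutator_def, ← commutatorElement_def]
  exact commutator_mem_commutator (mem_top _) (mem_top _)

/-- homomorphisms from a perfect group which agree modulo the centre -/
theorem hom_eq {G : Type*} [Group G] (hG : commutator G = ⊤) {f₁ f₂ : G →* L}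
    (h : ∀ x, (f₁ x)⁻¹ * f₂ x ∈ center L) (x : G) : f₁ x = f₂ x := by
  let χ : G →* center L :=
    { toFun := fun x => ⟨(f₁ x)⁻¹ * f₂ x, h x⟩
      map_one' := Subtype.ext (by
        change (f₁ 1)⁻¹ * f₂ 1 = 1
        rw [map_one, map_one, inv_one, one_mul])
      map_mul' := by
        intro x y
        apply Subtype.ext
        change (f₁ (x * y))⁻¹ * f₂ (x * y) = (f₁ x)⁻¹ * f₂ x * ((f₁ y)⁻¹ * f₂ y)
        have h2 := mem_center_iff.mp (h x) (f₁ y)⁻¹
        rw [map_mul, map_mul, _root_.mul_inv_rev]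
        calc (f₁ y)⁻¹ * (f₁ x)⁻¹ * (f₂ x * f₂ y) = (f₁ y)⁻¹ * ((f₁ x)⁻¹ * f₂ x) * f₂ y := by group
          _ = (f₁ x)⁻¹ * f₂ x * ((f₁ y)⁻¹ * f₂ y) := by rw [h2]; group }
  have h2 : commutator G ≤ χ.ker := by
    rw [_root_.commutator_def, commutator_le]
    intro x _ y _
    have hcc : χ x * χ y = χ y * χ x := Subtype.ext (mem_center_iff.mp (χ y).2 (χ x : L))
    rw [MonoidHom.mem_ker, commutatorElement_def, map_mul, map_mul, map_mul, map_inv, map_inv,
      hcc, mul_inv_cancel_right, mul_inv_cancel]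
  have h3 : x ∈ commutator G := by rw [hG]; exact mem_top x
  have h4 : (f₁ x)⁻¹ * f₂ x = 1 := congrArg Subtype.val (MonoidHom.mem_ker.mp (h2 h3))
  exact inv_mul_eq_one.mp h4

theorem not_dvd_of_le [Finite K] (p : ℕ) [hp : Fact p.Prime] [CharP K p]
    (hk : π.ker ≤ center (GS (n + 1) K)) : ¬ p ∣ Nat.card π.ker := by
  intro h
  exact not_dvd_card_center (K := K) (N := n + 1) (p := p) (h.trans (Subgroup.card_dvd_of_le hk))

theorem ker_mk [Finite K] (hn : 2 ≤ n) (hπ : Function.Surjective π)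
    (hk : π.ker ≤ center (GS (n + 1) K)) :
    ((QuotientGroup.mk' (center L)).comp π).ker = center (GS (n + 1) K) := by
  haveI hp : Fact (ringChar K).Prime := ⟨CharP.char_is_prime K (ringChar K)⟩
  ext g
  rw [MonoidHom.mem_ker, MonoidHom.comp_apply, QuotientGroup.mk'_apply, QuotientGroup.eq_one_iff]
  constructor
  · intro h
    rw [mem_center_iff] at h ⊢
    intro x
    refine tv_induction (by omega) (fun x => x * g = g * x) ?_ (by rw [one_mul, mul_one])
      (fun A B hA hB => by rw [mul_assoc, hB, ← mul_assoc, hA, mul_assoc]) x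
    intro i j hij a
    have h1 : π (g * tv hij a * g⁻¹) = π (tv hij a) := by
      rw [map_mul, map_mul, map_inv, ← h (π (tv hij a)), mul_inv_cancel_right]
    have h3 : Pel (ringChar K) (tv hij a) := by
      rw [tv_eq_T]
      exact pel_T _ _ _ _
    have h2 := pel_unique (p := ringChar K) hk (not_dvd_of_le _ hk) (h3.conj g) h3 h1
    rw [← h2, inv_mul_cancel_right]
    rw [h2]
  · intro h
    rw [mem_center_iff] at h ⊢
    intro y
    obtain ⟨x, rfl⟩ := hπ y
    rw [← map_mul, ← map_mul, h x]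

/-- **Automorphisms of odd order of central quotients of `SL(n + 1, K)`, `n ≥ 2`, are
semilinear.** -/
theorem semi_of_odd [Finite K] (hn : 2 ≤ n) (hπ : Function.Surjective π)
    (hk : π.ker ≤ center (GS (n + 1) K)) (α : MulAut L) {m : ℕ} (hm : Odd m) (hα : α ^ m = 1) :
    ∃ (X Y : Matrix (Fin (n + 1)) (Fin (n + 1)) K) (hXY : X * Y = 1) (σ : K →+* K),
      ∀ g, α (π g) = π (CJ hXY (Matrix.SpecialLinearGroup.map σ g)) := by
  haveI hp : Fact (ringChar K).Prime := ⟨CharP.char_is_prime K (ringChar K)⟩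
  set π' := (QuotientGroup.mk' (center L)).comp π with hπ'
  have hker := ker_mk hn hπ hk
  have hsurj : Function.Surjective π' := (QuotientGroup.mk'_surjective _).comp hπ
  have h1 : (H589.autQ α) ^ m = 1 := by rw [← map_pow, hα, map_one]
  obtain ⟨v, φ, c, hd⟩ := exists_dat (ringChar K) hn hsurj hker
    (mem_HH_of_odd (ringChar K) hn hsurj hker hm h1)
  have hker₁ : ((H589.autQ α).toMonoidHom.comp π').ker = center (GS (n + 1) K) := by
    rw [← hker]
    ext g
    rw [MonoidHom.mem_ker, MonoidHom.mem_ker, MonoidHom.comp_apply]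
    exact map_eq_one_iff _ (H589.autQ α).injective
  obtain ⟨X, Y, hXY, σ, hg⟩ := semi_of_dat (ringChar K) hn hker hker₁ hd
  refine ⟨X, Y, hXY, σ, fun g => ?_⟩
  refine hom_eq (perfect_gs (K := K) hn) (f₁ := α.toMonoidHom.comp π)
    (f₂ := (π.comp (CJ hXY)).comp (Matrix.SpecialLinearGroup.map σ)) (fun x => ?_) g
  rw [← QuotientGroup.eq]
  exact hg x

end Vale.Agent.P180.R2.H471.Au
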