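import Mathlib.FieldTheory.Fixed
import Mathlib.FieldTheory.Finite.Basic
import Mathlib.GroupTheory.SpecificGroups.Cyclic
import Mathlib.Algebra.Ring.Action.Group
import Mathlib.Algebra.Ring.Aut

/-! Automorphisms of `p`-power order of a finite field which fix the roots of unity of `p`-power
order. -/

set_option linter.all false

namespace Vale.Agent.P180.R2.H471.Au

theorem dvd_geom {p Q a : ℕ} (hp : p.Prime) (hQ : 1 ≤ Q) (h1 : p ∣ Q - 1)
    (ha : p ^ a ∣ Q - 1) : p ^ (a + 1) ∣ Q ^ p - 1 := by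
  obtain ⟨m, rfl⟩ : ∃ m, Q = m + 1 := ⟨Q - 1, by omega⟩
  rw [Nat.add_sub_cancel] at h1 ha
  have h2 : (m + 1) ^ p - 1 = m * ∑ i ∈ Finset.range p, (m + 1) ^ i := by
    have h4 : ((m + 1 : ℕ) : ℤ) ^ p - 1 = m * ∑ i ∈ Finset.range p, ((m + 1 : ℕ) : ℤ) ^ i := by
      have h5 := geom_sum_mul ((m + 1 : ℕ) : ℤ) p
      rw [← h5]
      push_cast
      ring
    have h6 : 1 ≤ (m + 1) ^ p := Nat.one_le_pow _ _ (by omega)
    zify [h6]
    push_cast at h4
    exact h4
  rw [h2, pow_succ]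
  refine Nat.mul_dvd_mul ha ?_
  have h3 : (∑ i ∈ Finset.range p, (m + 1) ^ i) ≡ ∑ i ∈ Finset.range p, 1 [MOD p] := by
    have h4 : ∀ s : Finset ℕ, (∑ i ∈ s, (m + 1) ^ i) ≡ ∑ i ∈ s, 1 [MOD p] := by
      intro s
      induction s using Finset.induction_on with
      | empty => rfl
      | insert b s hb ih =>
        rw [Finset.sum_insert hb, Finset.sum_insert hb]
        refine Nat.ModEq.add ?_ ih
        have h5 : m + 1 ≡ 1 [MOD p] := by
          have h6 : m ≡ 0 [MOD p] := (Nat.modEq_zero_iff_dvd).mpr h1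
          simpa using h6.add_right 1
        simpa using h5.pow b
    exact h4 _
  rw [Finset.sum_const, Finset.card_range, smul_eq_mul, mul_one] at h3
  exact (Nat.modEq_zero_iff_dvd).mp (h3.trans (Nat.modEq_zero_iff_dvd.mpr dvd_rfl))

theorem aut_eq_one {F : Type*} [Field F] [Finite F] {p : ℕ} [Fact p.Prime] {τ : RingAut F} {s : ℕ}
    (hτ : τ ^ p ^ s = 1) {ζ : F} (hζ : ζ ^ p = 1) (hζ1 : ζ ≠ 1)
    (hfix : ∀ ω : F, (∃ j, ω ^ p ^ j = 1) → τ ω = ω) : τ = 1 := by
  classical
  have hp : p.Prime := Fact.out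
  by_contra hne
  -- a power of order `p`
  obtain ⟨t, hts, ht⟩ := (Nat.dvd_prime_pow hp).mp (orderOf_dvd_of_pow_eq_one hτ)
  have ht0 : t ≠ 0 := by
    rintro rfl
    rw [pow_zero] at ht
    exact hne (orderOf_eq_one_iff.mp ht)
  obtain ⟨t, rfl⟩ : ∃ t', t = t' + 1 := ⟨t - 1, by omega⟩
  set τ' : RingAut F := τ ^ p ^ t with hτ'
  have hord : orderOf τ' = p := by
    rw [hτ', orderOf_pow' _ (pow_ne_zero t hp.ne_zero), ht, Nat.gcd_eq_right
      (pow_dvd_pow p (Nat.le_succ t)), pow_succ, Nat.mul_div_cancel_left _ (pow_pos hp.pos t)]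
  have hfix' : ∀ ω : F, (∃ j, ω ^ p ^ j = 1) → τ' ω = ω := by
    intro ω hω
    have h1 : ∀ k : ℕ, (τ ^ k) ω = ω := by
      intro k
      induction k with
      | zero => rfl
      | succ k ih =>
        rw [pow_succ']
        change τ ((τ ^ k) ω) = ω
        rw [ih, hfix ω hω]
    exact h1 _
  let G := Subgroup.zpowers τ'
  have hGc : Nat.card G = p := by rw [Nat.card_zpowers, hord]
  haveI : Finite G := Nat.finite_of_card_ne_zero (by rw [hGc]; exact hp.ne_zero)
  letI : Fintype G := Fintype.ofFinite G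
  let F₀ := FixedPoints.subfield G F
  haveI : FaithfulSMul G F := ⟨fun {a b} h => Subtype.ext (RingEquiv.ext fun x => h x)⟩
  have hrank : Module.finrank F₀ F = p := by
    have h1 := FixedPoints.finrank_eq_card G F
    rw [← Nat.card_eq_fintype_card, hGc] at h1
    exact h1
  have hmem : ∀ x : F, τ' x = x → x ∈ F₀ := by
    intro x hx
    rintro ⟨g, hg⟩
    obtain ⟨i, hi⟩ := Subgroup.mem_zpowers_iff.mp hg
    subst hi
    change (τ' ^ i) x = x
    have h1 : ∀ k : ℕ, (τ' ^ k) x = x := by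
      intro k
      induction k with
      | zero => rfl
      | succ k ih =>
        rw [pow_succ']
        change τ' ((τ' ^ k) x) = x
        rw [ih, hx]
    obtain ⟨k, hk | hk⟩ := i.eq_nat_or_neg
    · rw [hk, zpow_natCast]
      exact h1 k
    · rw [hk, zpow_neg, zpow_natCast]
      have h2 : (τ' ^ k)⁻¹ ((τ' ^ k) x) = x := (τ' ^ k).symm_apply_apply x
      rw [h1 k] at h2
      exact h2
  haveI : Finite F₀ := Subtype.finite
  have hcard : Nat.card F = Nat.card F₀ ^ p := by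
    rw [Module.natCard_eq_pow_finrank (K := F₀) (V := F), hrank]
  set Q := Nat.card F₀ with hQ
  have hQ1 : 1 ≤ Q := Nat.card_pos
  -- orders of elements
  have hordF : ∀ x : F₀, x ≠ 0 → orderOf (x : F) ∣ Q - 1 := by
    intro x hx
    have h1 : x ^ (Q - 1) = 1 := by
      letI := Fintype.ofFinite F₀
      rw [hQ, Nat.card_eq_fintype_card]
      exact FiniteField.pow_card_sub_one_eq_one x hx
    exact orderOf_dvd_of_pow_eq_one (by
      have h2 := congrArg (fun y : F₀ => (y : F)) h1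
      exact h2)
  have hζ0 : ζ ≠ 0 := by
    rintro rfl
    rw [zero_pow hp.ne_zero] at hζ
    exact zero_ne_one hζ
  have hpQ : p ∣ Q - 1 := by
    have h1 := hordF ⟨ζ, hmem ζ (hfix' ζ ⟨1, by rw [pow_one]; exact hζ⟩)⟩
      (fun h => hζ0 (congrArg Subtype.val h))
    rwa [orderOf_eq_prime hζ hζ1] at h1
  have hQ2 : Q - 1 ≠ 0 := by
    intro h
    have h1 : 1 < Q := Finite.one_lt_card
    omega
  -- all powers of `p` divide `Q - 1`
  have hall : ∀ a, p ^ a ∣ Q - 1 := by
    intro a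
    induction a with
    | zero => rw [pow_zero]; exact one_dvd _
    | succ a ih =>
      have h1 : p ^ (a + 1) ∣ Nat.card Fˣ := by
        rw [Nat.card_units, hcard]
        exact dvd_geom hp hQ1 hpQ ih
      obtain ⟨u, hu⟩ : ∃ u : Fˣ, orderOf u = p ^ (a + 1) := by
        obtain ⟨γ, hγ⟩ := IsCyclic.exists_ofOrder_eq_natCard (α := Fˣ)
        obtain ⟨c, hc⟩ := h1
        have hc0 : c ≠ 0 := by
          rintro rfl
          rw [mul_zero] at hc
          exact Nat.card_pos.ne' hc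
        refine ⟨γ ^ c, ?_⟩
        rw [orderOf_pow' _ hc0, hγ, hc, Nat.gcd_mul_left_left, Nat.mul_div_cancel _
          (Nat.pos_of_ne_zero hc0)]
      have h2 : (u : F) ^ p ^ (a + 1) = 1 := by
        rw [← Units.val_pow_eq_pow_val, ← hu, pow_orderOf_eq_one, Units.val_one]
      have h3 := hordF ⟨(u : F), hmem _ (hfix' _ ⟨a + 1, h2⟩)⟩
        (fun h => u.ne_zero (congrArg Subtype.val h))
      rwa [orderOf_units, hu] at h3
  have h1 := Nat.le_of_dvd (Nat.pos_of_ne_zero hQ2) (hall (Q - 1))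
  have h2 : Q - 1 < p ^ (Q - 1) := Nat.lt_pow_self hp.one_lt
  omega

end Vale.Agent.P180.R2.H471.Au
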