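import Vale.Agent.P180.R2.H471.Au7
import Mathlib.RingTheory.AdjoinRoot
import Mathlib.RingTheory.RootsOfUnity.PrimitiveRoots
import Mathlib.FieldTheory.Separable
import Mathlib.FieldTheory.Minpoly.Field
import Mathlib.LinearAlgebra.SpecialLinearGroup
import Mathlib.LinearAlgebra.FiniteDimensional.Basic

/-! Semilinear maps which commute with a `p`-group containing all its polynomials. -/

set_option linter.all false

namespace Vale.Agent.P180.R2.H471.Au

open Polynomial Module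

variable {K : Type*} [Field K] {V : Type*} [AddCommGroup V] [Module K V]

/-- the endomorphism -/
abbrev en (u : SpecialLinearGroup K V) : Module.End K V :=
  ((u : V ≃ₗ[K] V) : V →ₗ[K] V)

theorem en_mul (u w : SpecialLinearGroup K V) : en (u * w) = en u * en w := rfl

theorem en_pow (u : SpecialLinearGroup K V) (m : ℕ) : en (u ^ m) = en u ^ m := by
  induction m with
  | zero => rfl
  | succ m ih => rw [pow_succ, pow_succ, en_mul, ih]

theorem en_inj {u w : SpecialLinearGroup K V} (h : en u = en w) : u = w :=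
  Subtype.ext (LinearEquiv.ext fun v => LinearMap.congr_fun h v)

/-- Semilinear maps and polynomials. -/
theorem g_aeval {σ : K ≃+* K} {g : V ≃+ V} (hg : ∀ (c : K) v, g (c • v) = σ c • g v)
    {φ : Module.End K V} (hφ : ∀ v, g (φ v) = φ (g v)) (H : K[X]) (v : V) :
    g (aeval φ H v) = aeval φ (H.map (σ : K →+* K)) (g v) := by
  induction H using Polynomial.induction_on' generalizing v with
  | add P R hP hR =>
    rw [map_add, LinearMap.add_apply, map_add, hP, hR, Polynomial.map_add, map_add,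
      LinearMap.add_apply]
  | monomial m c =>
    rw [Polynomial.map_monomial, aeval_monomial, aeval_monomial, ← Algebra.smul_def,
      ← Algebra.smul_def, LinearMap.smul_apply, LinearMap.smul_apply, hg]
    congr 1
    induction m generalizing v with
    | zero => rfl
    | succ m ih =>
      rw [pow_succ, Module.End.mul_apply, Module.End.mul_apply, ih, hφ]

theorem dvd_of_comm {σ : K ≃+* K} {g : V ≃+ V} (hg : ∀ (c : K) v, g (c • v) = σ c • g v)
    {φ : Module.End K V} (hφ : ∀ v, g (φ v) = φ (g v)) {H : K[X]}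
    (hH : ∀ v, g (aeval φ H v) = aeval φ H (g v)) :
    minpoly K φ ∣ H.map (σ : K →+* K) - H := by
  apply minpoly.dvd
  apply LinearMap.ext
  intro w
  obtain ⟨v, rfl⟩ := g.surjective w
  rw [map_sub, LinearMap.sub_apply, ← g_aeval hg hφ, hH, sub_self]
  rfl

theorem minpoly_map {σ : K ≃+* K} {g : V ≃+ V} (hg : ∀ (c : K) v, g (c • v) = σ c • g v)
    {φ : Module.End K V} (hφ : ∀ v, g (φ v) = φ (g v)) :
    minpoly K φ ∣ (minpoly K φ).map (σ : K →+* K) := by
  apply minpoly.dvd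
  apply LinearMap.ext
  intro w
  obtain ⟨v, rfl⟩ := g.surjective w
  rw [← g_aeval hg hφ, minpoly.aeval]
  exact map_zero g

variable [FiniteDimensional K V]

theorem minpoly_map_eq {σ : K ≃+* K} {g : V ≃+ V} (hg : ∀ (c : K) v, g (c • v) = σ c • g v)
    {φ : Module.End K V} (hφ : ∀ v, g (φ v) = φ (g v)) :
    (minpoly K φ).map (σ : K →+* K) = minpoly K φ := by
  have hint : IsIntegral K φ := Algebra.IsIntegral.isIntegral φ
  have hm := minpoly.monic hint
  refine Polynomial.eq_of_monic_of_dvd_of_natDegree_le hm (hm.map _) (minpoly_map hg hφ) ?_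
  rw [Polynomial.natDegree_map]

/-- a monic irreducible factor different from a given one -/
theorem exists_factor {μ q₀ : K[X]} (hμ : Squarefree μ) (hu : ¬ IsUnit μ) (hq : Irreducible q₀)
    (hd : ¬ μ ∣ q₀) : ∃ f : K[X], f.Monic ∧ Irreducible f ∧ f ∣ μ ∧ f ≠ q₀ := by
  by_cases h : q₀ ∣ μ
  · obtain ⟨μ', rfl⟩ := h
    have h1 : ¬ IsUnit μ' := by
      intro h1
      apply hd
      obtain ⟨u, rfl⟩ := h1
      exact ⟨(u⁻¹ : K[X]ˣ), by rw [mul_assoc, Units.mul_inv, mul_one]⟩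
    obtain ⟨f, hf, hfi, hfd⟩ := Polynomial.exists_monic_irreducible_factor μ' h1
    refine ⟨f, hf, hfi, hfd.mul_left _, ?_⟩
    rintro rfl
    obtain ⟨μ'', rfl⟩ := hfd
    exact hfi.not_isUnit (hμ f ⟨μ'', by ring⟩)
  · obtain ⟨f, hf, hfi, hfd⟩ := Polynomial.exists_monic_irreducible_factor μ hu
    exact ⟨f, hf, hfi, hfd, fun he => h (he ▸ hfd)⟩

/-- the Chinese remainder theorem for `X ^ p - 1` -/
theorem exists_H {p : ℕ} (hpK : (p : K) ≠ 0) {f : K[X]} (hf : f ∣ X ^ p - 1) :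
    ∃ f' a b : K[X], X ^ p - 1 = f * f' ∧ a * f + b * f' = 1 := by
  obtain ⟨f', hf'⟩ := hf
  have hsep : (X ^ p - 1 : K[X]).Separable := (X_pow_sub_one_separable_iff).mpr hpK
  rw [hf'] at hsep
  obtain ⟨a, b, hab⟩ := hsep.isCoprime
  exact ⟨f', a, b, hf', hab⟩

omit [FiniteDimensional K V] in
theorem aeval_pow_eq_one {p m : ℕ} {φ : Module.End K V} (hφ : φ ^ p = 1) {f f' H : K[X]}
    (hff : X ^ p - 1 = f * f') (hcop : IsCoprime f f') (h1 : f ∣ H ^ m - 1) (h2 : f' ∣ H ^ m - 1) :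
    (aeval φ H) ^ m = 1 := by
  obtain ⟨R, hR⟩ := hcop.mul_dvd h1 h2
  have h3 : aeval φ (H ^ m - 1) = 0 := by
    rw [hR, ← hff, map_mul, map_sub, map_pow, aeval_X, map_one, hφ, sub_self, zero_mul]
  rw [map_sub, map_pow, map_one, sub_eq_zero] at h3
  exact h3

/-- units of finite order -/
theorem exists_equiv {m : ℕ} (hm : 0 < m) {φ : Module.End K V} (hφ : φ ^ m = 1) :
    ∃ w : V ≃ₗ[K] V, (w : V →ₗ[K] V) = φ ∧ w ^ m = 1 := by
  have h1 : φ * φ ^ (m - 1) = 1 := by
    rw [← pow_succ', Nat.sub_add_cancel hm, hφ]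
  have h2 : φ ^ (m - 1) * φ = 1 := by
    rw [← pow_succ, Nat.sub_add_cancel hm, hφ]
  let w : V ≃ₗ[K] V := LinearEquiv.ofLinear φ (φ ^ (m - 1)) h1 h2
  have hw : ∀ v, w v = φ v := fun v => rfl
  refine ⟨w, rfl, ?_⟩
  apply LinearEquiv.ext
  intro v
  have h3 : ∀ k : ℕ, (w ^ k) v = (φ ^ k) v := by
    intro k
    induction k generalizing v with
    | zero => rfl
    | succ k ih => rw [pow_succ, pow_succ, LinearEquiv.mul_apply, Module.End.mul_apply, ih, hw]
  rw [h3, hφ]
  rfl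

omit [FiniteDimensional K V] in
theorem exists_lambda [Finite K] {p : ℕ} [Fact p.Prime] {d : ℕ}
    (hcop : ¬ (p ∣ d ∧ p ∣ Nat.card K - 1)) {a : Kˣ} {j : ℕ} (ha : a ^ p ^ j = 1) :
    ∃ l : Kˣ, (∃ i, l ^ p ^ i = 1) ∧ l ^ d * a = 1 := by
  have hp : p.Prime := Fact.out
  by_cases hd : p ∣ d
  · have h1 : ¬ p ∣ Nat.card K - 1 := fun h => hcop ⟨hd, h⟩
    refine ⟨1, ⟨0, one_pow _⟩, ?_⟩
    rw [one_pow, one_mul]
    have h2 : orderOf a ∣ p ^ j := orderOf_dvd_of_pow_eq_one ha
    have h3 : orderOf a ∣ Nat.card K - 1 := by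
      rw [← Nat.card_units]
      exact orderOf_dvd_natCard a
    obtain ⟨i, -, hi⟩ := (Nat.dvd_prime_pow hp).mp h2
    rcases Nat.eq_zero_or_pos i with h0 | h0
    · rw [h0, pow_zero] at hi
      exact orderOf_eq_one_iff.mp hi
    · rw [hi] at h3
      exact absurd ((dvd_pow_self p h0.ne').trans h3) h1
  · have h1 : IsCoprime (d : ℤ) ((p ^ j : ℕ) : ℤ) := by
      rw [Nat.isCoprime_iff_coprime]
      exact (((Nat.Prime.coprime_iff_not_dvd hp).mpr hd).symm).pow_right j
    obtain ⟨x, y, hxy⟩ := h1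
    refine ⟨(a ^ x)⁻¹, ⟨j, ?_⟩, ?_⟩
    · rw [inv_pow, ← zpow_natCast, ← zpow_mul, mul_comm, zpow_mul, zpow_natCast, ha, one_zpow,
        inv_one]
    · have h2 : a ^ (x * (d : ℤ)) = a := by
        have h3 : x * (d : ℤ) = 1 - y * ((p ^ j : ℕ) : ℤ) := by linarith
        rw [h3, zpow_sub, zpow_one, mul_comm y, zpow_mul, zpow_natCast, ha, one_zpow, inv_one,
          mul_one]
      rw [inv_pow, ← zpow_natCast, ← zpow_mul, h2, inv_mul_cancel]

end Vale.Agent.P180.R2.H471.Au
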