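import Vale.Agent.P180.R2.H471.Au8
import Mathlib.GroupTheory.PGroup

/-! No proper field automorphisms. -/

set_option linter.all false

namespace Vale.Agent.P180.R2.H471.Au

open Polynomial Module

variable {K : Type*} [Field K] {V : Type*} [AddCommGroup V] [Module K V]
variable [FiniteDimensional K V] [Finite K] {p : ℕ} [Fact p.Prime]

/-- the polynomials in elements of `Q` which have `p`-power order and determinant one are in `Q` -/
def PClosed (p : ℕ) (Q : Subgroup (SpecialLinearGroup K V)) : Prop :=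
  ∀ u ∈ Q, ∀ (H : K[X]) (w : SpecialLinearGroup K V), (∃ j, w ^ p ^ j = 1) →
    en w = aeval (en u) H → w ∈ Q

theorem exists_mem_Q (hcop : ¬ (p ∣ finrank K V ∧ p ∣ Nat.card K - 1))
    {Q : Subgroup (SpecialLinearGroup K V)} (hQ : PClosed p Q) {u : SpecialLinearGroup K V}
    (hu : u ∈ Q) {H : K[X]} {j : ℕ} (hH : (aeval (en u) H) ^ p ^ j = 1) :
    ∃ l : Kˣ, (∃ i, l ^ p ^ i = 1) ∧ ∃ w ∈ Q, en w = aeval (en u) (C (l : K) * H) := by
  have hp : p.Prime := Fact.out
  obtain ⟨w₀, hw₀, hw₀1⟩ := exists_equiv (pow_pos hp.pos j) hH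
  have ha : (LinearEquiv.det w₀) ^ p ^ j = 1 := by rw [← map_pow, hw₀1, map_one]
  obtain ⟨l, ⟨i, hi⟩, hl⟩ := exists_lambda hcop ha
  have hCl : aeval (en u) (C (l : K) * H) = (l : K) • aeval (en u) H := by
    rw [map_mul, aeval_C, ← Algebra.smul_def]
  have hpow : (aeval (en u) (C (l : K) * H)) ^ p ^ (i + j) = 1 := by
    rw [hCl, smul_pow]
    have h1 : ((l : K)) ^ p ^ (i + j) = 1 := by
      rw [pow_add, pow_mul, ← Units.val_pow_eq_pow_val, hi, Units.val_one, one_pow]
    have h2 : (aeval (en u) H) ^ p ^ (i + j) = 1 := by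
      rw [add_comm, pow_add, pow_mul, hH, one_pow]
    rw [h1, h2, one_smul]
  obtain ⟨w₁, hw₁, hw₁1⟩ := exists_equiv (pow_pos hp.pos _) hpow
  have hdet : LinearEquiv.det w₁ = 1 := by
    apply Units.ext
    rw [LinearEquiv.coe_det, hw₁, hCl, LinearMap.det_smul, ← hw₀, ← LinearEquiv.coe_det, Units.val_one]
    have h3 := congrArg Units.val hl
    rw [Units.val_mul, Units.val_pow_eq_pow_val, Units.val_one] at h3
    exact h3
  refine ⟨l, ⟨i, hi⟩, ⟨w₁, hdet⟩, ?_, hw₁⟩
  exact hQ u hu _ _ ⟨i + j, Subtype.ext hw₁1⟩ hw₁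

theorem main_dvd (hcop : ¬ (p ∣ finrank K V ∧ p ∣ Nat.card K - 1))
    {Q : Subgroup (SpecialLinearGroup K V)} (hQ : PClosed p Q) {u : SpecialLinearGroup K V}
    (hu : u ∈ Q) {σ : K ≃+* K} {g : V ≃+ V} (hg : ∀ (c : K) v, g (c • v) = σ c • g v)
    (hgQ : ∀ w ∈ Q, ∀ v, g (w v) = w (g v)) {H : K[X]} {j : ℕ}
    (hH : (aeval (en u) H) ^ p ^ j = 1) :
    ∃ l : Kˣ, (∃ i, l ^ p ^ i = 1) ∧
      minpoly K (en u) ∣ C (σ l) * H.map (σ : K →+* K) - C (l : K) * H := by
  obtain ⟨l, hl, w, hw, hwe⟩ := exists_mem_Q hcop hQ hu hH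
  refine ⟨l, hl, ?_⟩
  have h1 := dvd_of_comm hg (φ := en u) (hgQ u hu) (H := C (l : K) * H) (by
    intro v
    rw [← hwe]
    exact hgQ w hw v)
  rw [Polynomial.map_mul, Polynomial.map_C] at h1
  exact h1

theorem unit_eq_one (hp1 : ¬ p ∣ Nat.card K - 1) {l : Kˣ} (h : ∃ i, l ^ p ^ i = 1) : l = 1 := by
  have hp : p.Prime := Fact.out
  obtain ⟨j, hj⟩ := h
  have h2 : orderOf l ∣ p ^ j := orderOf_dvd_of_pow_eq_one hj
  have h3 : orderOf l ∣ Nat.card K - 1 := by
    rw [← Nat.card_units]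
    exact orderOf_dvd_natCard l
  obtain ⟨i, -, hi⟩ := (Nat.dvd_prime_pow hp).mp h2
  rcases Nat.eq_zero_or_pos i with h0 | h0
  · rw [h0, pow_zero] at hi
    exact orderOf_eq_one_iff.mp hi
  · rw [hi] at h3
    exact absurd ((dvd_pow_self p h0.ne').trans h3) hp1

/-- an element of order `p` -/
theorem exists_order_p {G : Type*} [Group G] {Q : Subgroup G} (hQ : IsPGroup p Q) (hQ1 : Q ≠ ⊥) :
    ∃ u ∈ Q, u ^ p = 1 ∧ u ≠ 1 := by
  obtain ⟨x, hx⟩ := Q.ne_bot_iff_exists_ne_one.mp hQ1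
  obtain ⟨k, hk⟩ := hQ x
  have hp : p.Prime := Fact.out
  classical
  have hex : ∃ k, x ^ p ^ k = 1 := ⟨k, hk⟩
  have h1 := Nat.find_spec hex
  have h0 : Nat.find hex ≠ 0 := by
    intro h
    rw [h, pow_zero, pow_one] at h1
    exact hx h1
  have h2 := Nat.find_min hex (m := Nat.find hex - 1) (by omega)
  refine ⟨((x ^ p ^ (Nat.find hex - 1) : Q) : G), Subtype.property _, ?_, fun h => h2 (Subtype.ext h)⟩
  have h3 : (x ^ p ^ (Nat.find hex - 1)) ^ p = 1 := by
    rw [← pow_mul, ← pow_succ, Nat.sub_add_cancel (Nat.pos_of_ne_zero h0), h1]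
  exact congrArg Subtype.val h3

/-- `p` does not divide `|K| - 1`. -/
theorem sigma_case1 (hpK : (p : K) ≠ 0) (hp1 : ¬ p ∣ Nat.card K - 1)
    {Q : Subgroup (SpecialLinearGroup K V)} (hQp : IsPGroup p Q) (hQ1 : Q ≠ ⊥)
    (hQ : PClosed p Q) {σ : RingAut K} {g : V ≃+ V} (hg : ∀ (c : K) v, g (c • v) = σ c • g v)
    (hgQ : ∀ w ∈ Q, ∀ v, g (w v) = w (g v)) {s : ℕ} (hσ : σ ^ p ^ s = 1) : σ = 1 := by
  have hp : p.Prime := Fact.out
  have hcop : ¬ (p ∣ finrank K V ∧ p ∣ Nat.card K - 1) := fun h => hp1 h.2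
  obtain ⟨u, hu, hup, hu1⟩ := exists_order_p hQp hQ1
  have hup' : en u ^ p = 1 := by rw [← en_pow, hup]; rfl
  set μ := minpoly K (en u) with hμ
  have hint : IsIntegral K (en u) := Algebra.IsIntegral.isIntegral _
  have hμd : μ ∣ X ^ p - 1 := by
    apply minpoly.dvd
    rw [map_sub, map_pow, aeval_X, map_one, hup', sub_self]
  have hsep : (X ^ p - 1 : K[X]).Separable := (X_pow_sub_one_separable_iff).mpr hpK
  have hsq : Squarefree (X ^ p - 1 : K[X]) := hsep.squarefree
  have hμu : ¬ IsUnit μ := by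
    intro h
    have h1 : μ = 1 := (minpoly.monic hint).eq_one_of_isUnit h
    have h2 := minpoly.aeval K (en u)
    rw [← hμ, h1, map_one] at h2
    apply hu1
    apply en_inj
    apply LinearMap.ext
    intro v
    have h3 := LinearMap.congr_fun h2 v
    have h4 : v = 0 := h3
    rw [h4, map_zero, map_zero]
  obtain ⟨f, hf, hfi, hfμ, hfX⟩ := exists_factor (μ := μ) (q₀ := X - C (1 : K))
    (hsq.squarefree_of_dvd hμd) hμu (irreducible_X_sub_C 1) (by
      rintro ⟨R, hR⟩
      have h1 : aeval (en u) (X - C (1 : K)) = 0 := by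
        rw [hR, map_mul, hμ, minpoly.aeval, zero_mul]
      rw [map_sub, aeval_X, aeval_C, map_one, sub_eq_zero] at h1
      exact hu1 (en_inj h1))
  obtain ⟨f', a, b, hff, hab⟩ := exists_H hpK (hfμ.trans hμd)
  haveI : Fact (Irreducible f) := ⟨hfi⟩
  let F := AdjoinRoot f
  have hfne : f ≠ 0 := hfi.ne_zero
  haveI : Finite F := by
    haveI : Module.Finite K F := (AdjoinRoot.powerBasis hfne).finite
    exact Module.finite_of_finite K
  let ζ : F := AdjoinRoot.root f
  have hζ : ζ ^ p = 1 := by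
    have h1 : AdjoinRoot.mk f (X ^ p - 1) = 0 := AdjoinRoot.mk_eq_zero.mpr (hfμ.trans hμd)
    rw [map_sub, map_pow, AdjoinRoot.mk_X, map_one, sub_eq_zero] at h1
    exact h1
  have hζ1 : ζ ≠ 1 := by
    intro h
    have h1 : AdjoinRoot.mk f (X - C 1) = 0 := by
      rw [map_sub, AdjoinRoot.mk_X, C_1, map_one, sub_eq_zero]
      exact h
    have h2 := AdjoinRoot.mk_eq_zero.mp h1
    exact hfX (Polynomial.eq_of_monic_of_associated hf (monic_X_sub_C 1)
      (hfi.associated_of_dvd (irreducible_X_sub_C 1) h2))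
  -- elements of `p`-power order of `F`
  have key : ∀ (h : K[X]) (j : ℕ), (AdjoinRoot.mk f h) ^ p ^ j = 1 → ∃ H : K[X],
      AdjoinRoot.mk f H = AdjoinRoot.mk f h ∧ f' ∣ H - 1 ∧ μ ∣ H.map (σ : K →+* K) - H := by
    intro h j hj
    refine ⟨h * (b * f') + a * f, ?_, ?_, ?_⟩
    · rw [map_add, map_mul, map_mul _ a f, AdjoinRoot.mk_self, mul_zero, add_zero]
      have h1 : AdjoinRoot.mk f (b * f') = 1 := by
        have h2 := congrArg (AdjoinRoot.mk f) hab
        rw [map_add, map_mul _ a f, AdjoinRoot.mk_self, mul_zero, zero_add, map_one] at h2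
        exact h2
      rw [h1, mul_one]
    · have h1 : h * (b * f') + a * f - 1 = f' * (h * b - b) := by
        linear_combination hab
      rw [h1]
      exact dvd_mul_right _ _
    · have h1 : f ∣ (h * (b * f') + a * f) ^ p ^ j - 1 := by
        rw [← AdjoinRoot.mk_eq_zero, map_sub, map_pow, map_add, map_mul, map_mul _ a f,
          AdjoinRoot.mk_self, mul_zero, add_zero]
        have h1 : AdjoinRoot.mk f (b * f') = 1 := by
          have h2 := congrArg (AdjoinRoot.mk f) hab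
          rw [map_add, map_mul _ a f, AdjoinRoot.mk_self, mul_zero, zero_add, map_one] at h2
          exact h2
        rw [h1, mul_one, hj, map_one, sub_self]
      have h2 : f' ∣ (h * (b * f') + a * f) ^ p ^ j - 1 := by
        have h3 : f' ∣ (h * (b * f') + a * f) - 1 := by
          have h4 : h * (b * f') + a * f - 1 = f' * (h * b - b) := by
            linear_combination hab
          rw [h4]
          exact dvd_mul_right _ _
        have h5 := sub_dvd_pow_sub_pow (h * (b * f') + a * f) 1 (p ^ j)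
        rw [one_pow] at h5
        exact h3.trans h5
      have h3 := aeval_pow_eq_one hup' hff ⟨a, b, hab⟩ h1 h2
      obtain ⟨l, hl, h4⟩ := main_dvd hcop hQ hu hg hgQ h3
      have h5 : l = 1 := unit_eq_one hp1 hl
      rw [h5, Units.val_one, map_one, C_1, one_mul, one_mul] at h4
      exact h4
  -- `σ` fixes `f`
  have hμσ : μ.map (σ : K →+* K) = μ := minpoly_map_eq hg (hgQ u hu)
  have hfσ : f.map (σ : K →+* K) = f := by
    by_contra hne
    have hfσi : Irreducible (f.map (σ : K →+* K)) := by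
      have h1 := (MulEquiv.irreducible_iff (Polynomial.mapEquiv σ)).mpr hfi
      exact h1
    have hfσμ : f.map (σ : K →+* K) ∣ μ := by
      rw [← hμσ]
      exact Polynomial.map_dvd _ hfμ
    have h1 : f.map (σ : K →+* K) ∣ f' := by
      have h2 : f.map (σ : K →+* K) ∣ f * f' := by rw [← hff]; exact hfσμ.trans hμd
      rcases hfσi.prime.dvd_or_dvd h2 with h3 | h3
      · exact absurd (Polynomial.eq_of_monic_of_associated (hf.map _) hf
          (hfσi.associated_of_dvd hfi h3)) hne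
      · exact h3
    obtain ⟨H, hH1, hH2, hH3⟩ := key X 1 (by rw [AdjoinRoot.mk_X, pow_one]; exact hζ)
    have h2 : f.map (σ : K →+* K) ∣ (H - 1).map (σ : K →+* K) := by
      rw [Polynomial.map_sub, Polynomial.map_one]
      have h3 : H.map (σ : K →+* K) - 1 = (H.map (σ : K →+* K) - H) + (H - 1) := by ring
      rw [h3]
      exact dvd_add (hfσμ.trans hH3) (h1.trans hH2)
    have h3 : f ∣ H - 1 := by
      have h4 := (Polynomial.map_dvd_map' (σ : K →+* K)).mp h2
      exact h4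
    have h4 : AdjoinRoot.mk f (H - 1) = 0 := AdjoinRoot.mk_eq_zero.mpr h3
    rw [map_sub, map_one, sub_eq_zero, hH1, AdjoinRoot.mk_X] at h4
    exact hζ1 h4
  -- the automorphism of `F`
  let τ₀ : F →+* F := AdjoinRoot.lift ((AdjoinRoot.of f).comp (σ : K →+* K)) ζ (by
    rw [← Polynomial.eval₂_map, hfσ]
    exact AdjoinRoot.eval₂_root f)
  have hτ₀ : ∀ h : K[X], τ₀ (AdjoinRoot.mk f h) = AdjoinRoot.mk f (h.map (σ : K →+* K)) := by
    intro h
    have h1 : τ₀ (AdjoinRoot.mk f h) = h.eval₂ ((AdjoinRoot.of f).comp (σ : K →+* K)) ζ :=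
      AdjoinRoot.lift_mk _ h
    rw [h1, ← Polynomial.eval₂_map]
    have h2 : ∀ P : K[X], P.eval₂ (AdjoinRoot.of f) ζ = AdjoinRoot.mk f P := by
      intro P
      have h3 : P.eval₂ (AdjoinRoot.of f) (AdjoinRoot.root f) = AdjoinRoot.mk f P := by
        rw [← AdjoinRoot.algebraMap_eq, ← Polynomial.aeval_def, AdjoinRoot.aeval_eq]
      exact h3
    rw [h2]
  let τ : RingAut F := RingEquiv.ofBijective τ₀
    ⟨τ₀.injective, Finite.surjective_of_injective τ₀.injective⟩
  have hτ : ∀ h : K[X], τ (AdjoinRoot.mk f h) = AdjoinRoot.mk f (h.map (σ : K →+* K)) := hτ₀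
  have hτk : ∀ (k : ℕ) (h : K[X]), (τ ^ k) (AdjoinRoot.mk f h) =
      AdjoinRoot.mk f (h.map ((σ ^ k : RingAut K) : K →+* K)) := by
    intro k
    induction k with
    | zero =>
      intro h
      have h1 : h.map ((σ ^ 0 : RingAut K) : K →+* K) = h := by
        have h2 : ((σ ^ 0 : RingAut K) : K →+* K) = RingHom.id K := RingHom.ext fun c => rfl
        rw [h2, Polynomial.map_id]
      rw [h1]
      rfl
    | succ k ih =>
      intro h
      have h1 : (τ ^ (k + 1)) (AdjoinRoot.mk f h) = τ ((τ ^ k) (AdjoinRoot.mk f h)) := by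
        rw [pow_succ']
        rfl
      rw [h1, ih, hτ, Polynomial.map_map]
      congr 2
      apply RingHom.ext
      intro c
      rw [pow_succ']
      rfl
  have hτ1 : τ ^ p ^ s = 1 := by
    apply RingEquiv.ext
    intro x
    obtain ⟨h, rfl⟩ := AdjoinRoot.mk_surjective x
    rw [hτk, hσ]
    have h2 : ((1 : RingAut K) : K →+* K) = RingHom.id K := RingHom.ext fun c => rfl
    rw [h2, Polynomial.map_id]
    rfl
  have hfix : ∀ ω : F, (∃ j, ω ^ p ^ j = 1) → τ ω = ω := by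
    rintro ω ⟨j, hj⟩
    obtain ⟨h, rfl⟩ := AdjoinRoot.mk_surjective ω
    obtain ⟨H, hH1, hH2, hH3⟩ := key h j hj
    rw [← hH1, hτ, ← sub_eq_zero, ← map_sub, AdjoinRoot.mk_eq_zero]
    exact hfμ.trans hH3
  have hfin := aut_eq_one hτ1 hζ hζ1 hfix
  apply RingEquiv.ext
  intro c
  have h1 := hτ (C c)
  rw [hfin, Polynomial.map_C, AdjoinRoot.mk_C, AdjoinRoot.mk_C] at h1
  exact ((AdjoinRoot.of f).injective h1).symm

end Vale.Agent.P180.R2.H471.Au
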