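import Vale.Agent.P180.R2.H589.Un.CopDef

/-!
P180: special unitary groups: transitivity on vectors of norm one, stabilisers, orders.
-/

set_option linter.all false

namespace Vale.Agent.P180.R2.H471.Cu

open Subgroup Module
open Vale.Agent.P180.R2.H589
open Vale.Agent.P180.R2.H589.Sch
open Vale.Agent.P180.R2.H589.Un
open Vale.Agent.P180.R2.H589.Sp (cj cj_apply cj_symm_apply)

section Move

variable {K : Type} [Field K] [Finite K] {θ : K ≃+* K} (hθ : Iv θ)
  {V : Type} [AddCommGroup V] [Module K V] [Module.Finite K V] {h : V → V → K} (hB : Hm θ h)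

/-- the orthogonal space of a vector -/
abbrev pv (hB : Hm θ h) (v : V) : Submodule K V := pp hB (Submodule.span K {v})

theorem ne_of_norm {v : V} (hv : h v v = 1) : h v v ≠ 0 := by rw [hv]; exact one_ne_zero

include hB in
theorem ne_zero_of_norm {v : V} (hv : h v v = 1) : v ≠ 0 := by
  rintro rfl
  rw [hB.zl] at hv
  exact zero_ne_one hv

theorem pv_hm {v : V} (hv : h v v = 1) : Hm θ (rs h (pv hB v)) :=
  rs_hm hB (nd_pp hB (nd_line hB (ne_of_norm hv)))

theorem finrank_pv {v : V} (hv : h v v = 1) : finrank K (pv hB v) + 1 = finrank K V :=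
  finrank_pp_line hB (ne_of_norm hv)

theorem pv_orth {v : V} (x : pv hB v) : h x v = 0 := (mem_pp_line hB).mp x.2

/-- coordinates -/
noncomputable def co (hB : Hm θ h) {v : V} (hv : h v v = 1) : (K × pv hB v) ≃ₗ[K] V := by
  refine LinearEquiv.ofBijective
    (LinearMap.coprod (LinearMap.toSpanSingleton K V v) (pv hB v).subtype) ⟨?_, ?_⟩
  · rw [injective_iff_map_eq_zero]
    rintro ⟨c, x⟩ hx
    have hx' : c • v + (x : V) = 0 := hx
    have h1 : h (c • v + (x : V)) v = 0 := by rw [hx', hB.zl]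
    rw [hB.addl, hB.sml, hv, pv_orth hB x, mul_one, add_zero] at h1
    rw [h1, zero_smul, zero_add] at hx'
    exact Prod.ext h1 (Subtype.ext hx')
  · intro w
    refine ⟨(h w v, ⟨w - h w v • v, (mem_pp_line hB).mpr ?_⟩), ?_⟩
    · rw [hB.subl, hB.sml, hv]
      ring
    · change h w v • v + (w - h w v • v) = w
      abel

theorem co_apply {v : V} (hv : h v v = 1) (u : K × pv hB v) :
    co hB hv u = u.1 • v + (u.2 : V) := rfl

theorem co_form {v : V} (hv : h v v = 1) (u w : K × pv hB v) :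
    h (co hB hv u) (co hB hv w) = u.1 * θ w.1 + rs h (pv hB v) u.2 w.2 := by
  rw [co_apply, co_apply]
  simp only [hB.addl, hB.addr, hB.sml, hB.smr]
  rw [hv, pv_orth hB u.2, hB.swap (pv_orth hB w.2)]
  change _ = _ + h (u.2 : V) (w.2 : V)
  ring

theorem co_one {v : V} (hv : h v v = 1) : co hB hv (1, 0) = v := by
  rw [co_apply]
  change (1 : K) • v + (0 : V) = v
  rw [one_smul, add_zero]

theorem co_zero {v : V} (hv : h v v = 1) (x : pv hB v) : co hB hv (0, x) = x := by
  rw [co_apply]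
  change (0 : K) • v + (x : V) = x
  rw [zero_smul, zero_add]

/-- the embedding of the group of the orthogonal space -/
noncomputable def io (hB : Hm θ h) {v : V} (hv : h v v = 1) :
    (pv hB v ≃ₗ[K] pv hB v) →* (V ≃ₗ[K] V) where
  toFun m := cj (co hB hv) (LinearEquiv.prodCongr (LinearEquiv.refl K K) m)
  map_one' := by
    have h1 : (LinearEquiv.prodCongr (LinearEquiv.refl K K) (1 : pv hB v ≃ₗ[K] pv hB v)) = 1 :=
      LinearEquiv.ext fun u => rfl
    rw [h1, map_one]
  map_mul' m m' := by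
    rw [← map_mul]
    congr 1

theorem io_self {v : V} (hv : h v v = 1) (m : pv hB v ≃ₗ[K] pv hB v) : io hB hv m v = v := by
  change cj (co hB hv) _ v = v
  have h1 : (co hB hv).symm v = (1, 0) := by
    rw [LinearEquiv.symm_apply_eq, co_one]
  rw [cj_apply, h1]
  change co hB hv (1, m 0) = v
  rw [map_zero, co_one]

theorem io_pv {v : V} (hv : h v v = 1) (m : pv hB v ≃ₗ[K] pv hB v) (x : pv hB v) :
    io hB hv m x = m x := by
  change cj (co hB hv) _ (x : V) = _
  have h1 : (co hB hv).symm (x : V) = (0, x) := by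
    rw [LinearEquiv.symm_apply_eq, co_zero]
  rw [cj_apply, h1]
  change co hB hv (0, m x) = _
  rw [co_zero]

theorem io_inj {v : V} (hv : h v v = 1) : Function.Injective (io hB hv) := by
  intro m m' hm
  apply LinearEquiv.ext
  intro x
  apply Subtype.ext
  rw [← io_pv hB hv, ← io_pv hB hv, hm]

theorem ext_pv {v : V} (hv : h v v = 1) {g g' : V ≃ₗ[K] V} (h1 : g v = g' v)
    (h2 : ∀ x : pv hB v, g x = g' x) : g = g' := by
  apply LinearEquiv.ext
  intro w
  obtain ⟨u, rfl⟩ := (co hB hv).surjective w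
  rw [co_apply, map_add, map_add, map_smul, map_smul, h1, h2]

theorem io_det {v : V} (hv : h v v = 1) (m : pv hB v ≃ₗ[K] pv hB v) :
    LinearEquiv.det (io hB hv m) = LinearEquiv.det m := by
  have h1 : LinearEquiv.det (io hB hv m) =
      LinearEquiv.det (LinearEquiv.prodCongr (LinearEquiv.refl K K) m) :=
    LinearEquiv.det_conj _ _
  rw [h1]
  apply Units.ext
  rw [LinearEquiv.coe_det, LinearEquiv.coe_det]
  have h2 : ((LinearEquiv.prodCongr (LinearEquiv.refl K K) m :
      (K × pv hB v) ≃ₗ[K] (K × pv hB v)) : (K × pv hB v) →ₗ[K] (K × pv hB v)) =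
      LinearMap.prodMap LinearMap.id (m : pv hB v →ₗ[K] pv hB v) := rfl
  rw [h2, LinearMap.det_prodMap, LinearMap.det_id, one_mul]

theorem io_mem_UG {v : V} (hv : h v v = 1) {m : pv hB v ≃ₗ[K] pv hB v} :
    io hB hv m ∈ UG h ↔ m ∈ UG (rs h (pv hB v)) := by
  constructor
  · intro hg x y
    have h1 := hg x y
    rw [io_pv, io_pv] at h1
    exact h1
  · intro hm x y
    obtain ⟨u, rfl⟩ := (co hB hv).surjective x
    obtain ⟨w, rfl⟩ := (co hB hv).surjective y
    have h1 : ∀ u, io hB hv m (co hB hv u) = co hB hv (u.1, m u.2) := by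
      intro u
      change cj (co hB hv) _ (co hB hv u) = _
      rw [cj_apply, LinearEquiv.symm_apply_apply]
      rfl
    rw [h1, h1, co_form hB hv, co_form hB hv]
    change _ + rs h _ (m u.2) (m w.2) = _
    rw [mem_UG.mp hm]

theorem io_mem {v : V} (hv : h v v = 1) {m : pv hB v ≃ₗ[K] pv hB v} :
    io hB hv m ∈ SUG h ↔ m ∈ SUG (rs h (pv hB v)) := by
  rw [mem_SUG, mem_SUG, io_mem_UG, io_det]

/-- elements of the stabiliser -/
theorem exists_io {v : V} (hv : h v v = 1) {g : V ≃ₗ[K] V} (hg : g ∈ UG h) (hgv : g v = v) :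
    ∃ m, io hB hv m = g := by
  have key : ∀ {g : V ≃ₗ[K] V}, g ∈ UG h → g v = v → ∀ x ∈ pv hB v, g x ∈ pv hB v := by
    intro g hg hgv x hx
    rw [mem_pp_line] at hx ⊢
    have h1 := mem_UG.mp hg x v
    rw [hgv] at h1
    rw [h1, hx]
  have hg' : g⁻¹ ∈ UG h := inv_mem hg
  have hgv' : g⁻¹ v = v := by
    rw [← hgv]
    change g.symm (g (v)) = _
    rw [LinearEquiv.symm_apply_apply, hgv]
  let m : pv hB v ≃ₗ[K] pv hB v :=
    LinearEquiv.ofLinear (g.toLinearMap.restrict (key hg hgv))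
      ((g⁻¹ : V ≃ₗ[K] V).toLinearMap.restrict (key hg' hgv'))
      (LinearMap.ext fun x => Subtype.ext (g.apply_symm_apply (x : V)))
      (LinearMap.ext fun x => Subtype.ext (g.symm_apply_apply (x : V)))
  refine ⟨m, ext_pv hB hv ?_ ?_⟩
  · rw [io_self, hgv]
  · intro x
    rw [io_pv]
    rfl

theorem exists_io' {v : V} (hv : h v v = 1) {g : V ≃ₗ[K] V} (hg : g ∈ SUG h) (hgv : g v = v) :
    ∃ m ∈ SUG (rs h (pv hB v)), io hB hv m = g := by
  obtain ⟨m, rfl⟩ := exists_io hB hv hg.1 hgv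
  exact ⟨m, (io_mem hB hv).mp hg, rfl⟩

include hθ hB

/-- transitivity of the group of isometries -/
theorem exists_UG_move {v w : V} (hv : h v v = 1) (hw : h w w = 1) : ∃ g ∈ UG h, g v = w := by
  have h1 := finrank_pv hB hv
  have h2 := finrank_pv hB hw
  obtain ⟨ε, hε⟩ := exists_isom hθ _ _ _ _ _ (pv_hm hB hv) (pv_hm hB hw) rfl
    (show finrank K (pv hB w) = finrank K (pv hB v) by omega)
  let g : V ≃ₗ[K] V := (co hB hv).symm.trans
    ((LinearEquiv.prodCongr (LinearEquiv.refl K K) ε).trans (co hB hw))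
  have hg : ∀ u, g (co hB hv u) = co hB hw (u.1, ε u.2) := by
    intro u
    change co hB hw (LinearEquiv.prodCongr (LinearEquiv.refl K K) ε
      ((co hB hv).symm (co hB hv u))) = _
    rw [LinearEquiv.symm_apply_apply]
    rfl
  refine ⟨g, fun x y => ?_, ?_⟩
  · obtain ⟨u, rfl⟩ := (co hB hv).surjective x
    obtain ⟨u', rfl⟩ := (co hB hv).surjective y
    rw [hg, hg, co_form hB hw, co_form hB hv]
    change _ + rs h _ (ε u.2) (ε u'.2) = _
    rw [hε]
  · have h3 := hg (1, 0)
    rw [co_one] at h3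
    rw [h3]
    change co hB hw (1, ε 0) = w
    rw [map_zero, co_one]

/-- **Transitivity on vectors of norm one.** -/
theorem exists_SUG_move (hd : 2 ≤ finrank K V) {v w : V} (hv : h v v = 1) (hw : h w w = 1) :
    ∃ g ∈ SUG h, g v = w := by
  obtain ⟨g, hg, hgv⟩ := exists_UG_move hθ hB hv hw
  have h1 := finrank_pv hB hv
  obtain ⟨u, hu⟩ := exists_norm_one hθ (pv_hm hB hv) (by omega)
  have hu' : h (u : V) (u : V) = 1 := hu
  obtain ⟨δ, hδ⟩ : ∃ δ : Kˣ, δ = LinearEquiv.det g := ⟨_, rfl⟩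
  have hn := nm_det hθ hB hg
  rw [← hδ] at hn
  have hn' : ((δ⁻¹ : Kˣ) : K) * θ ((δ⁻¹ : Kˣ) : K) = 1 := by
    rw [Units.val_inv_eq_inv_val, map_inv₀, ← mul_inv, hn, inv_one]
  refine ⟨g * rf hB hu' (ζ := ((δ⁻¹ : Kˣ) : K)) (Units.ne_zero _), ⟨mul_mem hg
    (rf_mem hB hu' _ hn'), ?_⟩, ?_⟩
  · change LinearEquiv.det (g * _) = 1
    rw [map_mul, ← hδ]
    have h2 : LinearEquiv.det (rf hB hu' (ζ := ((δ⁻¹ : Kˣ) : K)) (Units.ne_zero _)) = δ⁻¹ :=
      Units.ext (rf_det hB hu' _)
    rw [h2, mul_inv_cancel]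
  · rw [LinearEquiv.mul_apply, rf_fix hB hu' _ (hB.swap (pv_orth hB u)), hgv]

end Move

section Count

variable {K : Type} [Field K] [Finite K] {θ : K ≃+* K} (hθ : Iv θ)
  {V : Type} [AddCommGroup V] [Module K V] [Module.Finite K V] {h : V → V → K} (hB : Hm θ h)

/-- the number of the vectors of norm one -/
noncomputable def om (h : V → V → K) : ℕ := Nat.card {x : V // h x x = 1}

open Classical in
include hθ in
theorem card_nm' (a : K) (ha : θ a = a) :
    Nat.card {x : K // x * θ x = a} = if a = 0 then 1 else Nat.card (FF θ) + 1 := by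
  split_ifs with h0
  · subst h0
    rw [Nat.card_eq_one_iff_unique]
    refine ⟨⟨fun x y => ?_⟩, ⟨⟨0, by rw [zero_mul]⟩⟩⟩
    have key : ∀ x : {x : K // x * θ x = 0}, (x : K) = 0 := by
      intro x
      rcases mul_eq_zero.mp x.2 with h1 | h1
      · exact h1
      · exact (map_eq_zero θ).mp h1
    exact Subtype.ext (by rw [key x, key y])
  · exact card_nm hθ ha h0

include hθ in
/-- the recursion -/
theorem om_rec {v : V} (hv : h v v = 1) :
    om h + Nat.card (FF θ) * om (rs h (pv hB v)) =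
      (Nat.card (FF θ) + 1) * Nat.card (pv hB v) := by
  haveI : Finite V := Module.finite_of_finite K
  haveI : Finite (pv hB v) := inferInstance
  have e : {x : V // h x x = 1} ≃
      Σ y : pv hB v, {c : K // c * θ c = 1 - rs h (pv hB v) y y} :=
    { toFun := fun x => ⟨((co hB hv).symm x.1).2, ⟨((co hB hv).symm x.1).1, by
        have h1 := co_form hB hv ((co hB hv).symm x.1) ((co hB hv).symm x.1)
        rw [LinearEquiv.apply_symm_apply, x.2] at h1
        exact eq_sub_of_add_eq h1.symm⟩⟩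
      invFun := fun s => ⟨co hB hv (s.2.1, s.1), by
        rw [co_form hB hv]
        change s.2.1 * θ s.2.1 + rs h (pv hB v) s.1 s.1 = 1
        rw [s.2.2]
        ring⟩
      left_inv := fun x => Subtype.ext (by
        change co hB hv ((co hB hv).symm x.1) = x.1
        rw [LinearEquiv.apply_symm_apply])
      right_inv := fun s => by
        obtain ⟨y, c, hc⟩ := s
        have h1 : (co hB hv).symm (co hB hv (c, y)) = (c, y) := LinearEquiv.symm_apply_apply _ _
        refine Sigma.ext (congrArg Prod.snd h1) ?_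
        have h2 : ∀ (u : K × pv hB v), u = (c, y) →
            ∀ hu, HEq (⟨u.1, hu⟩ : {c : K // c * θ c = 1 - rs h (pv hB v) u.2 u.2})
              (⟨c, hc⟩ : {c : K // c * θ c = 1 - rs h (pv hB v) y y}) := by
          intro u hu
          subst hu
          intro hu
          rfl
        exact h2 _ h1 _ }
  have hfix : ∀ y : pv hB v, θ (1 - rs h (pv hB v) y y) = 1 - rs h (pv hB v) y y := by
    intro y
    rw [map_sub, map_one, (pv_hm hB hv).fix]
  classical
  haveI := Fintype.ofFinite (pv hB v)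
  have h1 : om h = ∑ y : pv hB v,
      (if 1 - rs h (pv hB v) y y = 0 then 1 else Nat.card (FF θ) + 1) := by
    rw [om, Nat.card_congr e, Nat.card_sigma]
    exact Finset.sum_congr rfl fun y _ => card_nm' hθ _ (hfix y)
  have h2 : om (rs h (pv hB v)) = ∑ y : pv hB v,
      (if 1 - rs h (pv hB v) y y = 0 then 1 else 0) := by
    rw [Finset.sum_boole, om, Nat.card_eq_fintype_card, Fintype.card_subtype]
    simp only [Nat.cast_id]
    congr 1
    ext y
    simp only [Finset.mem_filter, Finset.mem_univ, true_and]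
    rw [sub_eq_zero]
    exact eq_comm
  rw [h1, h2, Finset.mul_sum, ← Finset.sum_add_distrib, Nat.card_eq_fintype_card (α := pv hB v)]
  have h3 : ∀ y : pv hB v, (if 1 - rs h (pv hB v) y y = 0 then 1 else Nat.card (FF θ) + 1) +
      Nat.card (FF θ) * (if 1 - rs h (pv hB v) y y = 0 then 1 else 0) =
        Nat.card (FF θ) + 1 := by
    intro y
    split_ifs
    · ring
    · ring
  rw [Finset.sum_congr rfl fun y _ => h3 y, Finset.sum_const, Finset.card_univ, smul_eq_mul,
    mul_comm]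

include hθ hB in
theorem om_zero (hd : finrank K V = 0) : om h = 0 := by
  haveI : Subsingleton V := Module.finrank_zero_iff.mp hd
  rw [om, Nat.card_eq_zero]
  left
  refine ⟨fun x => ?_⟩
  have h1 := x.2
  rw [Subsingleton.elim x.1 0, hB.zl] at h1
  exact zero_ne_one h1

include hθ hB in
theorem om_one (hd : finrank K V = 1) : om h = Nat.card (FF θ) + 1 := by
  obtain ⟨v, hv⟩ := exists_norm_one hθ hB (by omega)
  have h1 := finrank_pv hB hv
  have h2 := om_rec hθ hB hv
  rw [om_zero hθ (pv_hm hB hv) (by omega), mul_zero, add_zero,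
    Module.natCard_eq_pow_finrank (K := K) (V := pv hB v)] at h2
  have h3 : finrank K (pv hB v) = 0 := by omega
  rw [h3, pow_zero, mul_one] at h2
  exact h2

include hθ hB in
theorem om_two (hd : finrank K V = 2) :
    om h + Nat.card (FF θ) * (Nat.card (FF θ) + 1) =
      (Nat.card (FF θ) + 1) * Nat.card (FF θ) ^ 2 := by
  obtain ⟨v, hv⟩ := exists_norm_one hθ hB (by omega)
  have h1 := finrank_pv hB hv
  have h2 := om_rec hθ hB hv
  rw [om_one hθ (pv_hm hB hv) (by omega),
    Module.natCard_eq_pow_finrank (K := K) (V := pv hB v)] at h2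
  have h3 : finrank K (pv hB v) = 1 := by omega
  rw [h3, pow_one, card_sq hθ] at h2
  exact h2

include hθ hB in
theorem om_three (hd : finrank K V = 3) :
    om h = (Nat.card (FF θ) + 1) *
      (Nat.card (FF θ) ^ 2 * (Nat.card (FF θ) ^ 2 - Nat.card (FF θ) + 1)) := by
  obtain ⟨v, hv⟩ := exists_norm_one hθ hB (by omega)
  have h1 := finrank_pv hB hv
  have h2 := om_rec hθ hB hv
  have h4 := om_two hθ (pv_hm hB hv) (by omega)
  rw [Module.natCard_eq_pow_finrank (K := K) (V := pv hB v)] at h2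
  have h3 : finrank K (pv hB v) = 2 := by omega
  rw [h3, card_sq hθ] at h2
  have h5 : 1 ≤ Nat.card (FF θ) := Nat.card_pos
  obtain ⟨q, hq⟩ : ∃ q, q = Nat.card (FF θ) := ⟨_, rfl⟩
  rw [← hq] at h2 h4 h5 ⊢
  obtain ⟨r, hr⟩ : ∃ r, r = om (rs h (pv hB v)) := ⟨_, rfl⟩
  rw [← hr] at h2 h4
  obtain ⟨t, ht⟩ : ∃ t, t + q = q ^ 2 := ⟨q ^ 2 - q, Nat.sub_add_cancel (by nlinarith)⟩
  have h6 : q ^ 2 - q = t := by omega
  rw [h6]
  have h7 : om h + q * r + q * (q * (q + 1)) = (q + 1) * (q ^ 2) ^ 2 + q * (q * (q + 1)) := by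
    rw [h2]
  have h8 : q * r + q * (q * (q + 1)) = q * ((q + 1) * q ^ 2) := by rw [← h4]; ring
  have h9 : om h + q * ((q + 1) * q ^ 2) = (q + 1) * (q ^ 2) ^ 2 + q * (q * (q + 1)) := by
    rw [← h8, ← h7]; ring
  have h10 : (q + 1) * (q ^ 2 * (t + 1)) + q * ((q + 1) * q ^ 2) =
      (q + 1) * (q ^ 2) ^ 2 + q * (q * (q + 1)) := by
    have : (q + 1) * (q ^ 2 * (t + 1)) + q * ((q + 1) * q ^ 2) =
      (q + 1) * q ^ 2 * (t + q) + (q + 1) * q ^ 2 := by ring
    rw [this, ht]
    ring
  omega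

end Count

end Vale.Agent.P180.R2.H471.Cu
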