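import Vale.Agent.P180.R2.H471.Cu1

/-!
P180: central extensions of special unitary groups by groups of order prime to the characteristic:
dimension at most two.
-/

set_option linter.all false

namespace Vale.Agent.P180.R2.H471.Cu

open Subgroup Module
open Vale.Agent.P180.R2.H589
open Vale.Agent.P180.R2.H589.Sch
open Vale.Agent.P180.R2.H589.Un
open Vale.Agent.P180.R2.H589.Sp (cj cj_apply cj_symm_apply)

section One

variable {K : Type} [Field K] [Finite K] {p : ℕ} [Fact p.Prime]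
  {V : Type} [AddCommGroup V] [Module K V] [Module.Finite K V] {h : V → V → K}

/-- dimension at most one -/
theorem copU_one (hd : finrank K V ≤ 1) : CopU p h := by
  intro E _ _ f hf hfU hk hp hgen
  have h1 : ∀ e, f e = 1 := fun e => eq_one_of_dim hd (hfU e).2
  have h2 : ∀ x : E, Pel p x → x = 1 := fun x hx =>
    eq_one_of_pel_of_mem hp (MonoidHom.mem_ker.mpr (h1 x)) hx
  have h3 : closure {x : E | Pel p x} ≤ ⊥ := by
    rw [closure_le]
    intro x hx
    exact mem_bot.mpr (h2 x hx)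
  rw [eq_bot_iff]
  intro x _
  exact h3 (by rw [hgen]; exact mem_top x)

end One

section Two

/-- the plane -/
def e2 {K : Type} [Field K] (W : Type) [AddCommGroup W] [Module K W] [Subsingleton W] :
    (Fin 2 → K) ≃ₗ[K] (K × W × K) where
  toFun v := (v 0, 0, v 1)
  map_add' := by
    intro v w
    exact Prod.ext rfl (Prod.ext (add_zero 0).symm rfl)
  map_smul' := by
    intro c v
    exact Prod.ext rfl (Prod.ext (smul_zero c).symm rfl)
  invFun u := ![u.1, u.2.2]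
  left_inv := by
    intro v
    funext i
    fin_cases i <;> rfl
  right_inv := by
    intro u
    exact Prod.ext rfl (Prod.ext (Subsingleton.elim _ _) rfl)

theorem e2_apply {K : Type} [Field K] {W : Type} [AddCommGroup W] [Module K W] [Subsingleton W]
    (v : Fin 2 → K) : e2 W v = ((v 0, 0, v 1) : K × W × K) := rfl

theorem mul_two {K : Type} [Field K] (A : Matrix (Fin 2) (Fin 2) K) (v : Fin 2 → K) (i : Fin 2) :
    (A.mulVec v) i = A i 0 * v 0 + A i 1 * v 1 := by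
  rw [Matrix.mulVec, dotProduct, Fin.sum_univ_two]

variable {K : Type} [Field K] [Finite K] {θ : K ≃+* K} {δ : K} (hδ0 : δ ≠ 0)
  (hδ : θ δ = -δ)

/-- the matrix -/
def mt (δ : K) (A : GS 2 (FF θ)) : Matrix (Fin 2) (Fin 2) K :=
  !![(A.1 0 0 : K), (A.1 0 1 : K) * δ; (A.1 1 0 : K) * δ⁻¹, (A.1 1 1 : K)]

theorem mt_00 (A : GS 2 (FF θ)) : mt δ A 0 0 = (A.1 0 0 : K) := rfl
theorem mt_01 (A : GS 2 (FF θ)) : mt δ A 0 1 = (A.1 0 1 : K) * δ := rfl
theorem mt_10 (A : GS 2 (FF θ)) : mt δ A 1 0 = (A.1 1 0 : K) * δ⁻¹ := rfl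
theorem mt_11 (A : GS 2 (FF θ)) : mt δ A 1 1 = (A.1 1 1 : K) := rfl

theorem det_coe (A : GS 2 (FF θ)) :
    (A.1 0 0 : K) * (A.1 1 1 : K) - (A.1 0 1 : K) * (A.1 1 0 : K) = 1 := by
  have h := A.2
  rw [Matrix.det_fin_two] at h
  have h1 := congrArg (fun x : FF θ => (x : K)) h
  simpa using h1

include hδ0 in
theorem mt_mul (A B : GS 2 (FF θ)) : mt δ (A * B) = mt δ A * mt δ B := by
  have h1 : ∀ i j, (((A * B).1 i j : FF θ) : K) =
      (A.1 i 0 : K) * (B.1 0 j : K) + (A.1 i 1 : K) * (B.1 1 j : K) := by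
    intro i j
    rw [Matrix.SpecialLinearGroup.coe_mul, Matrix.mul_apply, Fin.sum_univ_two]
    rfl
  ext i j
  rw [Matrix.mul_apply, Fin.sum_univ_two]
  fin_cases i <;> fin_cases j
  · change ((((A * B).1 0 0 : FF θ) : K)) = (A.1 0 0 : K) * (B.1 0 0 : K) +
      (A.1 0 1 : K) * δ * ((B.1 1 0 : K) * δ⁻¹)
    rw [h1]
    field_simp
  · change ((((A * B).1 0 1 : FF θ) : K)) * δ = (A.1 0 0 : K) * ((B.1 0 1 : K) * δ) +
      (A.1 0 1 : K) * δ * (B.1 1 1 : K)
    rw [h1]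
    ring
  · change ((((A * B).1 1 0 : FF θ) : K)) * δ⁻¹ = (A.1 1 0 : K) * δ⁻¹ * (B.1 0 0 : K) +
      (A.1 1 1 : K) * ((B.1 1 0 : K) * δ⁻¹)
    rw [h1]
    ring
  · change ((((A * B).1 1 1 : FF θ) : K)) = (A.1 1 0 : K) * δ⁻¹ * ((B.1 0 1 : K) * δ) +
      (A.1 1 1 : K) * (B.1 1 1 : K)
    rw [h1]
    field_simp

include hδ0 in
theorem mt_det (A : GS 2 (FF θ)) : (mt δ A).det = 1 := by
  rw [Matrix.det_fin_two, mt_00, mt_01, mt_10, mt_11]
  have h := det_coe A
  field_simp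
  linear_combination h

theorem mt_one : mt δ (1 : GS 2 (FF θ)) = 1 := by
  ext i j
  fin_cases i <;> fin_cases j
  · change (((1 : GS 2 (FF θ)).1 0 0 : FF θ) : K) = (1 : Matrix (Fin 2) (Fin 2) K) 0 0
    simp
  · change (((1 : GS 2 (FF θ)).1 0 1 : FF θ) : K) * δ = (1 : Matrix (Fin 2) (Fin 2) K) 0 1
    simp
  · change (((1 : GS 2 (FF θ)).1 1 0 : FF θ) : K) * δ⁻¹ = (1 : Matrix (Fin 2) (Fin 2) K) 1 0
    simp
  · change (((1 : GS 2 (FF θ)).1 1 1 : FF θ) : K) = (1 : Matrix (Fin 2) (Fin 2) K) 1 1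
    simp

/-- the embedding into `SL(2, K)` -/
def ms (hδ0 : δ ≠ 0) : GS 2 (FF θ) →* GS 2 K where
  toFun A := ⟨mt δ A, mt_det hδ0 A⟩
  map_one' := Subtype.ext mt_one
  map_mul' A B := Subtype.ext (mt_mul hδ0 A B)

theorem ms_inj : Function.Injective (ms (θ := θ) hδ0) := by
  intro A B h
  have h1 : mt δ A = mt δ B := congrArg Subtype.val h
  apply Subtype.ext
  ext i j
  fin_cases i <;> fin_cases j
  · exact congrFun (congrFun h1 0) 0
  · have h2 := congrFun (congrFun h1 0) 1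
    exact mul_right_cancel₀ hδ0 h2
  · have h2 := congrFun (congrFun h1 1) 0
    exact mul_right_cancel₀ (inv_ne_zero hδ0) h2
  · exact congrFun (congrFun h1 1) 1

variable {W : Type} [AddCommGroup W] [Module K W] [Subsingleton W] {h : W → W → K}
  (hB : Hm θ h)

/-- `SL(2, F)` as a unitary group -/
noncomputable def tu (W : Type) [AddCommGroup W] [Module K W] [Subsingleton W] (hδ0 : δ ≠ 0) :
    GS 2 (FF θ) →* ((K × W × K) ≃ₗ[K] (K × W × K)) :=
  (cj (e2 W)).toMonoidHom.comp ((nat 2 K).comp (ms hδ0))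

theorem tu_inj : Function.Injective (tu (θ := θ) W hδ0) := by
  intro A A' h
  exact ms_inj hδ0 (nat_injective ((cj (e2 (K := K) W)).injective h))

theorem tu_apply (A : GS 2 (FF θ)) (v : Fin 2 → K) :
    tu W hδ0 A (e2 W v) = e2 W ((mt δ A).mulVec v) := by
  change cj (e2 W) (nat 2 K (ms hδ0 A)) (e2 W v) = _
  rw [cj_apply, LinearEquiv.symm_apply_apply, nat_apply]
  rfl

include hB in
theorem form_two (v w : Fin 2 → K) :
    hyp θ h (e2 W v) (e2 W w) = v 0 * θ (w 1) + v 1 * θ (w 0) := by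
  rw [hyp_apply, e2_apply, e2_apply]
  change v 0 * θ (w 1) + v 1 * θ (w 0) + h 0 0 = _
  rw [hB.zl, add_zero]

include hB hδ in
theorem tu_mem (A : GS 2 (FF θ)) : tu W hδ0 A ∈ SUG (hyp θ h) := by
  constructor
  · intro u u'
    obtain ⟨v, rfl⟩ := (e2 (K := K) W).surjective u
    obtain ⟨w, rfl⟩ := (e2 (K := K) W).surjective u'
    rw [tu_apply, tu_apply, form_two hB, form_two hB, mul_two, mul_two, mul_two, mul_two, mt_00,
      mt_01, mt_10, mt_11]
    have h2 := det_coe A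
    simp only [map_add, map_mul, map_inv₀, FF_coe, hδ]
    field_simp
    linear_combination δ * (v 0 * θ (w 1) + v 1 * θ (w 0)) * h2
  · change LinearEquiv.det (cj (e2 W) (nat 2 K (ms hδ0 A))) = 1
    have h3 : LinearEquiv.det (cj (e2 W) (nat 2 K (ms hδ0 A))) =
        LinearEquiv.det (nat 2 K (ms hδ0 A)) := LinearEquiv.det_conj _ _
    rw [h3]
    apply Units.ext
    rw [LinearEquiv.coe_det]
    have h4 : ((nat 2 K (ms hδ0 A) : (Fin 2 → K) ≃ₗ[K] (Fin 2 → K)) :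
        (Fin 2 → K) →ₗ[K] (Fin 2 → K)) = Matrix.toLin' (mt δ A) := by
      apply LinearMap.ext
      intro v
      exact nat_apply _ _
    rw [h4, LinearMap.det_toLin', mt_det hδ0]
    rfl

theorem exists_cj (g : (K × W × K) ≃ₗ[K] (K × W × K)) :
    ∃ g' : (Fin 2 → K) ≃ₗ[K] (Fin 2 → K), cj (e2 (K := K) W) g' = g :=
  (cj (e2 (K := K) W)).surjective g

include hB in
theorem exists_mat {g : (K × W × K) ≃ₗ[K] (K × W × K)} (hg : g ∈ SUG (hyp θ h)) :
    ∃ M : Matrix (Fin 2) (Fin 2) K, (∀ v, e2 W (M.mulVec v) = g (e2 W v)) ∧ M.det = 1 ∧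
      ∀ v w : Fin 2 → K, (M.mulVec v) 0 * θ ((M.mulVec w) 1) +
        (M.mulVec v) 1 * θ ((M.mulVec w) 0) = v 0 * θ (w 1) + v 1 * θ (w 0) := by
  obtain ⟨g', hgg⟩ := exists_cj g
  have hg' : ∀ v, e2 W (g' v) = g (e2 W v) := by
    intro v
    rw [← hgg, cj_apply, LinearEquiv.symm_apply_apply]
  have hM : ∀ v, (LinearMap.toMatrix' g'.toLinearMap).mulVec v = g' v := fun v => by
    rw [LinearMap.toMatrix'_mulVec]
    rfl
  refine ⟨LinearMap.toMatrix' g'.toLinearMap, fun v => by rw [hM, hg'], ?_, ?_⟩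
  · rw [LinearMap.det_toMatrix']
    have h2 : LinearEquiv.det g' = LinearEquiv.det g := by
      rw [← hgg]
      exact (LinearEquiv.det_conj _ _).symm
    have h4 : LinearEquiv.det g = 1 := hg.2
    rw [h4] at h2
    have h5 := congrArg Units.val h2
    rw [LinearEquiv.coe_det] at h5
    exact h5
  · intro v w
    have h1 := mem_UG.mp hg.1 (e2 W v) (e2 W w)
    rw [← hg', ← hg', form_two hB, form_two hB, ← hM, ← hM] at h1
    exact h1

theorem mat_fix {M : Matrix (Fin 2) (Fin 2) K} (hdet : M.det = 1)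
    (key : ∀ v w : Fin 2 → K, (M.mulVec v) 0 * θ ((M.mulVec w) 1) +
      (M.mulVec v) 1 * θ ((M.mulVec w) 0) = v 0 * θ (w 1) + v 1 * θ (w 0)) :
    θ (M 0 0) = M 0 0 ∧ θ (M 0 1) = - M 0 1 ∧ θ (M 1 0) = - M 1 0 ∧ θ (M 1 1) = M 1 1 := by
  have k00 := key ![1, 0] ![1, 0]
  have k01 := key ![1, 0] ![0, 1]
  have k11 := key ![0, 1] ![0, 1]
  have k10 := key ![0, 1] ![1, 0]
  rw [Matrix.det_fin_two] at hdet
  simp only [mul_two, Matrix.cons_val_zero, Matrix.cons_val_one, mul_one,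
    mul_zero, zero_add, add_zero, map_one, map_zero, zero_mul, one_mul] at k00 k01 k10 k11
  refine ⟨?_, ?_, ?_, ?_⟩
  · linear_combination (M 0 0) * k10 - (M 0 1) * k00 - θ (M 0 0) * hdet
  · linear_combination (M 0 0) * k11 - (M 0 1) * k01 - θ (M 0 1) * hdet
  · linear_combination (M 1 1) * k00 - (M 1 0) * k10 - θ (M 1 0) * hdet
  · linear_combination (M 1 1) * k01 - (M 1 0) * k11 - θ (M 1 1) * hdet

include hδ hδ0 in
theorem exists_mt {M : Matrix (Fin 2) (Fin 2) K} (hdet : M.det = 1)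
    (hM : θ (M 0 0) = M 0 0 ∧ θ (M 0 1) = - M 0 1 ∧ θ (M 1 0) = - M 1 0 ∧ θ (M 1 1) = M 1 1) :
    ∃ A : GS 2 (FF θ), mt δ A = M := by
  obtain ⟨e3, e2', e4, e1⟩ := hM
  let A : Matrix (Fin 2) (Fin 2) (FF θ) :=
    !![⟨M 0 0, e3⟩, ⟨M 0 1 * δ⁻¹, by rw [mem_FF, map_mul, map_inv₀, e2', hδ, inv_neg,
        neg_mul_neg]⟩;
      ⟨M 1 0 * δ, by rw [mem_FF, map_mul, e4, hδ, neg_mul_neg]⟩, ⟨M 1 1, e1⟩]
  have hA : A.det = 1 := by
    rw [Matrix.det_fin_two]
    apply Subtype.ext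
    change M 0 0 * M 1 1 - M 0 1 * δ⁻¹ * (M 1 0 * δ) = 1
    rw [Matrix.det_fin_two] at hdet
    field_simp
    linear_combination hdet
  refine ⟨⟨A, hA⟩, ?_⟩
  ext i j
  fin_cases i <;> fin_cases j
  · rfl
  · change M 0 1 * δ⁻¹ * δ = M 0 1
    field_simp
  · change M 1 0 * δ * δ⁻¹ = M 1 0
    field_simp
  · rfl

include hB hδ hδ0 in
theorem tu_surj {g : (K × W × K) ≃ₗ[K] (K × W × K)} (hg : g ∈ SUG (hyp θ h)) :
    ∃ A : GS 2 (FF θ), tu W hδ0 A = g := by
  obtain ⟨M, hM, hdet, key⟩ := exists_mat hB hg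
  obtain ⟨A, hA⟩ := exists_mt hδ0 hδ hdet (mat_fix hdet key)
  refine ⟨A, ?_⟩
  apply LinearEquiv.ext
  intro u
  obtain ⟨v, rfl⟩ := (e2 (K := K) W).surjective u
  rw [tu_apply, hA, hM]

include hB in
theorem copU_hyp {p : ℕ} [Fact p.Prime] [CharP K p] (hθ : Iv θ) (hq : 4 < Nat.card (FF θ)) :
    CopU p (hyp θ h) := by
  intro E _ _ f hr hfB hk hp hgen
  obtain ⟨δ, hδ0, hδ⟩ := exists_dl hθ
  haveI : CharP (FF θ) p := RingHom.charP (FF θ).subtype (FF θ).subtype_injective p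
  let r : GS 2 (FF θ) ≃* (tu (θ := θ) W hδ0).range := MonoidHom.ofInjective (tu_inj hδ0)
  have hrange : ∀ e, f e ∈ (tu (θ := θ) W hδ0).range := fun e => by
    obtain ⟨A, hA⟩ := tu_surj hδ0 hδ hB (hfB e)
    exact ⟨A, hA⟩
  let f₁ : E →* (tu (θ := θ) W hδ0).range := f.codRestrict _ hrange
  let f' : E →* GS 2 (FF θ) := r.symm.toMonoidHom.comp f₁
  have hf' : ∀ e, tu W hδ0 (f' e) = f e := by
    intro e
    have h1 : r (f' e) = f₁ e := r.apply_symm_apply _
    exact congrArg Subtype.val h1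
  have hker : f'.ker = f.ker := by
    ext x
    rw [MonoidHom.mem_ker, MonoidHom.mem_ker, ← hf']
    constructor
    · intro h; rw [h, map_one]
    · intro h
      exact tu_inj hδ0 (by rw [h, map_one])
  rw [← hker]
  refine copClaim_two (p := p) hq E f' ?_ (by rw [hker]; exact hk) (by rw [hker]; exact hp) hgen
  intro A
  obtain ⟨y, hy⟩ := hr _ (tu_mem hδ0 hδ hB A)
  exact ⟨y, tu_inj hδ0 (by rw [hf', hy])⟩

end Two

/-- **Dimension at most two.** -/
theorem copU_two {K : Type} [Field K] [Finite K] {θ : K ≃+* K} (hθ : Iv θ)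
    {V : Type} [AddCommGroup V] [Module K V] [Module.Finite K V] {h : V → V → K} (hB : Hm θ h)
    {p : ℕ} [Fact p.Prime] [CharP K p] (hd : finrank K V ≤ 2) (hq : 4 < Nat.card (FF θ)) :
    CopU p h := by
  by_cases h1 : finrank K V ≤ 1
  · exact copU_one h1
  · obtain ⟨o, ho0, ho⟩ := exists_iso_vec hθ hB (by omega)
    obtain ⟨o', ho', h1⟩ := exists_pair hθ hB ho0 ho
    have h2 : finrank K (WW hB o o') = 0 := by
      have h3 := (splitE hB ho ho' h1).finrank_eq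
      rw [Module.finrank_prod, Module.finrank_prod, Module.finrank_self] at h3
      omega
    haveI : Subsingleton (WW hB o o') := Module.finrank_zero_iff.mp h2
    exact (copU_hyp (rs_hm hB (WW_nd hB ho ho' h1)) hθ hq).congr (splitE_iso hB ho ho' h1)

end Vale.Agent.P180.R2.H471.Cu
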