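import Vale.Agent.P180.R2.H471.Cu2

/-!
P180: central extensions of special unitary groups: stabilisers of vectors of norm one and of the
lines which they span.
-/

set_option linter.all false

namespace Vale.Agent.P180.R2.H471.Cu

open Subgroup Module
open Vale.Agent.P180.R2.H589
open Vale.Agent.P180.R2.H589.Sch
open Vale.Agent.P180.R2.H589.Un
open Vale.Agent.P180.R2.H589.Sp (cj cj_apply cj_symm_apply)
open scoped commutatorElement

theorem gen_of_closure {E : Type*} [Group E] {P : Subgroup E} {S : Set E} (hP : P = closure S) :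
    closure {y : P | (y : E) ∈ S} = ⊤ := by
  subst hP
  exact Subgroup.closure_closure_coe_preimage

section Stab

variable {K : Type} [Field K] [Finite K] {θ : K ≃+* K} (hθ : Iv θ)
  {V : Type} [AddCommGroup V] [Module K V] [Module.Finite K V] {h : V → V → K} (hB : Hm θ h)
  {p : ℕ} [Fact p.Prime] [CharP K p]
  {E : Type} [Group E] [Finite E] {f : E →* (V ≃ₗ[K] V)} (hf : ∀ g ∈ SUG h, ∃ y, f y = g)
  (hfU : ∀ e, f e ∈ SUG h) (hk : f.ker ≤ center E) (hp : ¬ p ∣ Nat.card f.ker)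
  (hgen : closure {x : E | Pel p x} = ⊤)
  {v : V} (hv : h v v = 1)

theorem io_tU {a : pv hB v} (ha : rs h (pv hB v) a a = 0) (c : K) :
    io hB hv (tU (pv_hm hB hv) ha c) = tU hB (show h (a : V) (a : V) = 0 from ha) c := by
  apply ext_pv hB hv
  · rw [io_self, tU_apply, hB.swap (pv_orth hB a), mul_zero, zero_smul, add_zero]
  · intro x
    rw [io_pv, tU_apply, tU_apply]
    rfl

include hθ hf hp in
theorem exists_lift_pv (hF : 2 < Nat.card (FF θ)) {m : pv hB v ≃ₗ[K] pv hB v}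
    (hm : m ∈ SUG (rs h (pv hB v))) : ∃ q ∈ Pv f p v, f q = io hB hv m := by
  rw [SUG_eq_TG hθ hF (pv_hm hB hv)] at hm
  unfold TG at hm
  induction hm using closure_induction with
  | mem m hm =>
    obtain ⟨a, ha, c, hc, rfl⟩ := hm
    obtain ⟨q, hq, hfq⟩ := exists_pel (f := f) (p := p) hp
      (tU_pel hB (show h (a : V) (a : V) = 0 from ha) c) (hf _ (tU_mem_SUG hB _ hc))
    refine ⟨q, subset_closure ⟨hq, ?_⟩, by rw [hfq, io_tU]⟩
    rw [hfq, ← io_tU hB hv ha, io_self]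
  | one => exact ⟨1, Subgroup.one_mem _, by rw [map_one, map_one]⟩
  | mul m m' _ _ h h' =>
    obtain ⟨q, hq, hfq⟩ := h
    obtain ⟨q', hq', hfq'⟩ := h'
    exact ⟨q * q', Subgroup.mul_mem _ hq hq', by rw [map_mul, hfq, hfq', map_mul]⟩
  | inv m _ h =>
    obtain ⟨q, hq, hfq⟩ := h
    exact ⟨q⁻¹, Subgroup.inv_mem _ hq, by rw [map_inv, hfq, map_inv]⟩

include hθ hf hp hfU hv hB in
/-- the stabiliser of a vector of norm one -/
theorem stab_pv (hF : 2 < Nat.card (FF θ)) {x : E} (hx : f x v = v) :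
    ∃ q ∈ Pv f p v, ∃ a ∈ f.ker, x = q * a := by
  obtain ⟨m, hm, hmx⟩ := exists_io' hB hv (hfU x) hx
  obtain ⟨q, hq, hfq⟩ := exists_lift_pv hθ hB hf hp hv hF hm
  refine ⟨q, hq, q⁻¹ * x, ?_, by group⟩
  rw [MonoidHom.mem_ker, map_mul, map_inv, hfq, hmx, inv_mul_cancel]

include hθ hf hp hfU hv hk in
/-- the kernel meets the group generated by the `p`-elements of the stabiliser trivially -/
theorem bot_pv (hF : 2 < Nat.card (FF θ)) (ih : CopU p (rs h (pv hB v))) {x : E}
    (hx : x ∈ Pv f p v) (hfx : f x = 1) : x = 1 := by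
  let r : (pv hB v ≃ₗ[K] pv hB v) ≃* (io hB hv).range := MonoidHom.ofInjective (io_inj hB hv)
  have hrange : ∀ y : Pv f p v, f (y : E) ∈ (io hB hv).range := fun y => by
    obtain ⟨m, -, hm⟩ := exists_io' hB hv (hfU y) (pv_fix y.2)
    exact ⟨m, hm⟩
  let f₁ : Pv f p v →* (io hB hv).range := (f.comp (Pv f p v).subtype).codRestrict _ hrange
  let f' : Pv f p v →* (pv hB v ≃ₗ[K] pv hB v) := r.symm.toMonoidHom.comp f₁
  have hf' : ∀ y, io hB hv (f' y) = f (y : E) := by
    intro e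
    have h1 : r (f' e) = f₁ e := r.apply_symm_apply _
    exact congrArg Subtype.val h1
  have hker : ∀ y : Pv f p v, y ∈ f'.ker ↔ (y : E) ∈ f.ker := by
    intro y
    rw [MonoidHom.mem_ker, MonoidHom.mem_ker, ← hf']
    constructor
    · intro h; rw [h, map_one]
    · intro h
      exact io_inj hB hv (by rw [h, map_one])
  have h1 := ih (Pv f p v) f' (fun m hm => by
      obtain ⟨q, hq, hfq⟩ := exists_lift_pv hθ hB hf hp hv hF hm
      refine ⟨⟨q, hq⟩, io_inj hB hv ?_⟩
      rw [hf', hfq]) (fun y => by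
      rw [← io_mem hB hv, hf']
      exact hfU y) (fun y hy => by
      rw [mem_center_iff]
      intro z
      exact Subtype.ext (mem_center_iff.mp (hk ((hker y).mp hy)) z)) (by
      intro hd
      apply hp
      refine hd.trans ?_
      have h3 : Nat.card f'.ker = Nat.card (f'.ker.map (Pv f p v).subtype) :=
        Nat.card_congr (f'.ker.equivMapOfInjective _ (Pv f p v).subtype_injective).toEquiv
      rw [h3]
      apply Subgroup.card_dvd_of_le
      rintro _ ⟨y, hy, rfl⟩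
      exact (hker y).mp hy) (by
      have h2 := gen_of_closure (P := Pv f p v) (S := {x : E | Pel p x ∧ f x v = v}) rfl
      refine eq_top_iff.mpr (le_trans (le_of_eq h2.symm) ?_)
      rw [closure_le]
      rintro y hy
      refine subset_closure ?_
      obtain ⟨⟨n, hn⟩, -⟩ := hy
      exact ⟨n, Subtype.ext hn⟩)
  have h2 : (⟨x, hx⟩ : Pv f p v) ∈ f'.ker := (hker _).mpr (MonoidHom.mem_ker.mpr hfx)
  rw [h1, mem_bot] at h2
  exact congrArg Subtype.val h2

end Stab

section Line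

variable {K : Type} [Field K] [Finite K] {θ : K ≃+* K} (hθ : Iv θ)
  {V : Type} [AddCommGroup V] [Module K V] [Module.Finite K V] {h : V → V → K} (hB : Hm θ h)
  {E : Type} [Group E] [Finite E] {f : E →* (V ≃ₗ[K] V)} (hf : ∀ g ∈ SUG h, ∃ y, f y = g)
  (hfU : ∀ e, f e ∈ SUG h)
  {v : V} (hv : h v v = 1)

/-- the stabiliser of a vector -/
def Sv (f : E →* (V ≃ₗ[K] V)) (v : V) : Subgroup E where
  carrier := {e | f e v = v}
  one_mem' := by
    change f 1 v = v
    rw [map_one]; rfl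
  mul_mem' := by
    intro x y hx hy
    change f (x * y) v = v
    rw [map_mul, LinearEquiv.mul_apply, hy, hx]
  inv_mem' := fun hx => map_inv_eq hx

theorem mem_Sv {e : E} : e ∈ Sv f v ↔ f e v = v := Iff.rfl

/-- the stabiliser of a line -/
def Sl (f : E →* (V ≃ₗ[K] V)) (v : V) : Subgroup E where
  carrier := {e | ∃ c : K, c ≠ 0 ∧ f e v = c • v}
  one_mem' := ⟨1, one_ne_zero, by rw [map_one, one_smul]; rfl⟩
  mul_mem' := by
    rintro x y ⟨c, hc, hx⟩ ⟨d, hd, hy⟩
    exact ⟨d * c, mul_ne_zero hd hc, by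
      rw [map_mul, LinearEquiv.mul_apply, hy, map_smul, hx, smul_smul]⟩
  inv_mem' := by
    rintro x ⟨c, hc, hx⟩
    refine ⟨c⁻¹, inv_ne_zero hc, ?_⟩
    have h1 : f x (c⁻¹ • v) = v := by
      rw [map_smul, hx, smul_smul, inv_mul_cancel₀ hc, one_smul]
    exact map_inv_eq h1

theorem mem_Sl {e : E} : e ∈ Sl f v ↔ ∃ c : K, c ≠ 0 ∧ f e v = c • v := Iff.rfl

include hB hv in
theorem ev_eq {e : E} {c : K} (he : f e v = c • v) : h (f e v) v = c := by
  rw [he, hB.sml, hv, mul_one]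

/-- the eigenvalue -/
noncomputable def ev (f : E →* (V ≃ₗ[K] V)) (hB : Hm θ h) (hv : h v v = 1) : Sl f v →* Kˣ where
  toFun e := Units.mk0 (h (f (e : E) v) v) (by
    obtain ⟨c, hc, he⟩ := e.2
    rw [ev_eq hB hv he]
    exact hc)
  map_one' := by
    apply Units.ext
    rw [Units.val_mk0, Units.val_one]
    change h (f (1 : E) v) v = 1
    rw [map_one]
    exact hv
  map_mul' e e' := by
    apply Units.ext
    rw [Units.val_mul, Units.val_mk0, Units.val_mk0, Units.val_mk0]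
    obtain ⟨c, hc, he⟩ := e.2
    obtain ⟨c', hc', he'⟩ := e'.2
    rw [ev_eq hB hv he, ev_eq hB hv he']
    change h (f ((e : E) * e') v) v = _
    rw [map_mul, LinearEquiv.mul_apply, he', map_smul, he, smul_smul, hB.sml, hv]
    ring

theorem ev_val (e : Sl f v) : ((ev f hB hv e : Kˣ) : K) = h (f (e : E) v) v := rfl

theorem ev_spec (e : Sl f v) : f (e : E) v = ((ev f hB hv e : Kˣ) : K) • v := by
  obtain ⟨c, hc, he⟩ := e.2
  rw [ev_val, ev_eq hB hv he, he]

theorem Sv_le : Sv f v ≤ Sl f v := fun e he => ⟨1, one_ne_zero, by rw [one_smul]; exact he⟩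

theorem ker_ev : (ev f hB hv).ker = (Sv f v).subgroupOf (Sl f v) := by
  ext e
  rw [MonoidHom.mem_ker, mem_subgroupOf, mem_Sv]
  constructor
  · intro h1
    rw [ev_spec hB hv, h1, Units.val_one, one_smul]
  · intro h1
    apply Units.ext
    rw [ev_val, h1, hv, Units.val_one]

theorem range_ev [Finite E] (hθ : Iv θ) (hf : ∀ g ∈ SUG h, ∃ y, f y = g)
    (hfU : ∀ e, f e ∈ SUG h) (hd : 2 ≤ finrank K V) :
    (ev f hB hv).range = (nmU hθ).ker := by
  ext u
  rw [mem_ker_nmU]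
  constructor
  · rintro ⟨e, rfl⟩
    have h1 := mem_UG.mp (hfU (e : E)).1 v v
    rw [ev_spec hB hv, hB.sml, hB.smr, hv, mul_one] at h1
    exact h1
  · intro hu
    have hw : h ((u : K) • v) ((u : K) • v) = 1 := by rw [hB.sml, hB.smr, hv, mul_one, hu]
    obtain ⟨g, hg, hgv⟩ := exists_SUG_move hθ hB hd hv hw
    obtain ⟨e, he⟩ := hf g hg
    refine ⟨⟨e, ⟨u, u.ne_zero, by rw [he, hgv]⟩⟩, ?_⟩
    apply Units.ext
    rw [ev_val]
    change h (f e v) v = u
    rw [he, hgv, hB.sml, hv, mul_one]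

include hf hfU hθ hB hv in
theorem index_Sv (hd : 2 ≤ finrank K V) : (Sv f v).index = om h := by
  letI : MulAction E V := MulAction.compHom V f
  have h1 : Sv f v = MulAction.stabilizer E v := by
    ext e
    exact Iff.rfl
  rw [h1, MulAction.index_stabilizer, om, ← Nat.card_coe_set_eq]
  congr 1
  have h2 : MulAction.orbit E v = {x : V | h x x = 1} := by
    ext w
    constructor
    · rintro ⟨e, rfl⟩
      change h (f e v) (f e v) = 1
      rw [mem_UG.mp (hfU e).1, hv]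
    · intro hw
      obtain ⟨g, hg, hgv⟩ := exists_SUG_move hθ hB hd hv hw
      obtain ⟨e, he⟩ := hf g hg
      exact ⟨e, by change f e v = w; rw [he, hgv]⟩
  rw [h2]
  rfl

include hf hfU hθ hB hv in
theorem index_Sl (hd : 2 ≤ finrank K V) :
    (Nat.card (FF θ) + 1) * (Sl f v).index = om h := by
  rw [← index_Sv hθ hB hf hfU hv hd, ← relIndex_mul_index (Sv_le (f := f) (v := v)), relIndex,
    ← ker_ev hB hv, index_ker, range_ev hB hv hθ hf hfU hd, card_nm_one hθ]

include hf hfU hθ hB hv in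
theorem index_Sl_three (hd : finrank K V = 3) :
    (Sl f v).index =
      Nat.card (FF θ) ^ 2 * (Nat.card (FF θ) ^ 2 - Nat.card (FF θ) + 1) := by
  have h1 := index_Sl hθ hB hf hfU hv (by omega)
  rw [om_three hθ hB hd] at h1
  exact Nat.eq_of_mul_eq_mul_left (by omega) h1

end Line

section CaseA

variable {K : Type} [Field K] [Finite K] {θ : K ≃+* K} (hθ : Iv θ)
  {V : Type} [AddCommGroup V] [Module K V] [Module.Finite K V] {h : V → V → K} (hB : Hm θ h)
  {p : ℕ} [Fact p.Prime] [CharP K p]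
  {E : Type} [Group E] [Finite E] {f : E →* (V ≃ₗ[K] V)} (hf : ∀ g ∈ SUG h, ∃ y, f y = g)
  (hfU : ∀ e, f e ∈ SUG h) (hk : f.ker ≤ center E) (hp : ¬ p ∣ Nat.card f.ker)
  (hgen : closure {x : E | Pel p x} = ⊤)
  {v : V} (hv : h v v = 1)

include hf hfU hθ hB hk hp hgen in
theorem perfect_E (hF : 3 < Nat.card (FF θ)) : commutator E = ⊤ := by
  let f₁ : E →* SUG h := f.codRestrict _ hfU
  have hker : f₁.ker = f.ker := by
    ext x
    rw [MonoidHom.mem_ker, MonoidHom.mem_ker]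
    constructor
    · intro h1
      exact congrArg Subtype.val h1
    · intro h1
      exact Subtype.ext h1
  refine perfect_of_gen (p := p) f₁ (fun g => ?_) (by rw [hker]; exact hk)
    (by rw [hker]; exact hp) hgen (SUG_perfect' hθ hF hB)
  obtain ⟨y, hy⟩ := hf g g.2
  exact ⟨y, Subtype.ext hy⟩

include hf hfU hθ hB hk hp hv in
/-- commutators of elements of the stabiliser of the line -/
theorem comm_Sl (hF : 2 < Nat.card (FF θ)) : ⁅Sl f v, Sl f v⁆ ≤ Pv f p v := by
  have hle : Pv f p v ≤ Sl f v := fun x hx => Sv_le (pv_fix hx)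
  have hN : ((Pv f p v).subgroupOf (Sl f v)).Normal := by
    refine ⟨?_⟩
    intro x hx e
    rw [mem_subgroupOf] at hx ⊢
    -- the conjugate fixes every multiple of `v`
    have key : ∀ c : K, c ≠ 0 → ∀ y ∈ Pv f p v, y ∈ Pv f p (c • v) := by
      intro c hc y hy
      have hle : Pv f p v ≤ Pv f p (c • v) := by
        refine closure_mono ?_
        rintro z ⟨h1, h2⟩
        exact ⟨h1, by rw [map_smul, h2]⟩
      exact hle hy
    have h1 := pv_conj hx (e : E)
    obtain ⟨c, hc, he⟩ := e.2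
    rw [he] at h1
    have h2 : Pv f p (c • v) ≤ Pv f p v := by
      refine closure_mono ?_
      rintro z ⟨h1, h2⟩
      refine ⟨h1, ?_⟩
      rw [map_smul] at h2
      exact smul_right_injective V hc h2
    exact h2 h1
  have hle2 : (Pv f p v).subgroupOf (Sl f v) ≤ (ev f hB hv).ker := by
    rw [ker_ev]
    intro x hx
    exact pv_fix hx
  let F : Sl f v ⧸ (Pv f p v).subgroupOf (Sl f v) →* Kˣ := QuotientGroup.lift _ _ hle2
  have hF : F.ker ≤ center _ := by
    intro w hw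
    obtain ⟨x, rfl⟩ := QuotientGroup.mk'_surjective _ w
    have h1 : x ∈ (ev f hB hv).ker := hw
    rw [ker_ev, mem_subgroupOf, mem_Sv] at h1
    obtain ⟨q, hq, a, ha, hx⟩ := stab_pv hθ hB hf hfU hp hv hF h1
    have hqS : q ∈ Sl f v := hle hq
    have haS : a ∈ Sl f v := Sv_le (by
      rw [mem_Sv, MonoidHom.mem_ker.mp ha]
      rfl)
    have h2 : x = ⟨q, hqS⟩ * ⟨a, haS⟩ := Subtype.ext hx
    have h3 : QuotientGroup.mk' ((Pv f p v).subgroupOf (Sl f v)) ⟨q, hqS⟩ = 1 :=
      (QuotientGroup.eq_one_iff _).mpr hq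
    rw [h2, map_mul, h3, one_mul, mem_center_iff]
    intro w
    obtain ⟨y, rfl⟩ := QuotientGroup.mk'_surjective _ w
    rw [← map_mul, ← map_mul]
    congr 1
    exact Subtype.ext (mem_center_iff.mp (hk ha) y)
  rw [commutator_le]
  intro x hx y hy
  have h1 := commutative_of_cyclic_center_quotient F hF
    (QuotientGroup.mk' _ (⟨x, hx⟩ : Sl f v)) (QuotientGroup.mk' _ (⟨y, hy⟩ : Sl f v))
  have h2 : QuotientGroup.mk' ((Pv f p v).subgroupOf (Sl f v)) ⁅(⟨x, hx⟩ : Sl f v), ⟨y, hy⟩⁆ = 1 := by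
    rw [map_commutatorElement, commutatorElement_eq_one_iff_mul_comm]
    exact h1
  have h3 : ⁅(⟨x, hx⟩ : Sl f v), ⟨y, hy⟩⁆ ∈ (Pv f p v).subgroupOf (Sl f v) :=
    (QuotientGroup.eq_one_iff _).mp h2
  exact h3

include hf hfU hθ hB hk hp hv hgen in
theorem caseA_aux (hF : 3 < Nat.card (FF θ)) (ih : CopU p (rs h (pv hB v))) {l : ℕ}
    [Fact l.Prime] (hl : ¬ l ∣ (Sl f v).index) {a : E} (ha : f a = 1) (hal : Pel l a) :
    a = 1 := by
  have h1 := Sp.mem_commutator_of_central' hl (hk (MonoidHom.mem_ker.mpr ha))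
    (by rw [perfect_E hθ hB hf hfU hk hp hgen hF]; exact mem_top _)
    (Sv_le (by rw [mem_Sv, ha]; rfl)) hal
  exact bot_pv hθ hB hf hfU hk hp hv (by omega) ih
    (comm_Sl hθ hB hf hfU hk hp hv (by omega) h1) ha

include hf hfU hθ hB hk hp hgen in
/-- **The first case.** -/
theorem caseA (hd : finrank K V = 3) (hF : 4 < Nat.card (FF θ)) {l : ℕ}
    [Fact l.Prime] (hl : ¬ l ∣ Nat.card (FF θ))
    (hl' : ¬ l ∣ Nat.card (FF θ) ^ 2 - Nat.card (FF θ) + 1) {a : E} (ha : f a = 1)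
    (hal : Pel l a) : a = 1 := by
  obtain ⟨v, hv⟩ := exists_norm_one hθ hB (by omega)
  have h1 := finrank_pv hB hv
  refine caseA_aux hθ hB hf hfU hk hp hgen hv (by omega)
    (copU_two hθ (pv_hm hB hv) (by omega) hF) ?_ ha hal
  rw [index_Sl_three hθ hB hf hfU hv hd]
  intro hdvd
  rcases ((Fact.out : l.Prime).dvd_mul).mp hdvd with h2 | h2
  · exact hl ((Fact.out : l.Prime).dvd_of_dvd_pow h2)
  · exact hl' h2

end CaseA

end Vale.Agent.P180.R2.H471.Cu
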