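import Vale.Agent.P180.R2.H471.Cu3

/-!
P180: central extensions of special unitary groups: orders of the groups, elements without
eigenvectors.
-/

set_option linter.all false

namespace Vale.Agent.P180.R2.H471.Cu

open Subgroup Module
open Vale.Agent.P180.R2.H589
open Vale.Agent.P180.R2.H589.Sch
open Vale.Agent.P180.R2.H589.Un
open Vale.Agent.P180.R2.H589.Sp (cj cj_apply cj_symm_apply)
open scoped commutatorElement

section Order

variable {K : Type} [Field K] [Finite K] {θ : K ≃+* K} (hθ : Iv θ)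
  {V : Type} [AddCommGroup V] [Module K V] [Module.Finite K V] {h : V → V → K} (hB : Hm θ h)

instance finite_equiv : Finite (V ≃ₗ[K] V) := by
  haveI : Finite V := Module.finite_of_finite K
  exact Finite.of_injective (fun g : V ≃ₗ[K] V => (g : V → V)) DFunLike.coe_injective

include hθ in
theorem card_SUG (hd : 2 ≤ finrank K V) {v : V} (hv : h v v = 1) :
    Nat.card (SUG h) = om h * Nat.card (SUG (rs h (pv hB v))) := by
  have h1 := index_Sv hθ hB (E := SUG h) (f := (SUG h).subtype) (fun g hg => ⟨⟨g, hg⟩, rfl⟩)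
    (fun e => e.2) hv hd
  have h2 : Nat.card (Sv (SUG h).subtype v) = Nat.card (SUG (rs h (pv hB v))) := by
    refine (Nat.card_congr ?_).symm
    refine Equiv.ofBijective (fun m => (⟨⟨io hB hv m, (io_mem hB hv).mpr m.2⟩, ?_⟩ :
      Sv (SUG h).subtype v)) ⟨?_, ?_⟩
    · exact io_self hB hv _
    · intro m m' hm
      apply Subtype.ext
      apply io_inj hB hv
      exact congrArg (fun x : Sv (SUG h).subtype v => ((x : SUG h) : V ≃ₗ[K] V)) hm
    · rintro ⟨⟨g, hg⟩, hgv⟩
      obtain ⟨m, hm, hmg⟩ := exists_io' hB hv hg hgv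
      exact ⟨⟨m, hm⟩, Subtype.ext (Subtype.ext hmg)⟩
  rw [← h1, ← h2, mul_comm]
  exact (Subgroup.card_mul_index _).symm

include hθ hB in
theorem card_SUG_one (hd : finrank K V ≤ 1) : Nat.card (SUG h) = 1 := by
  rw [Nat.card_eq_one_iff_unique]
  refine ⟨⟨fun x y => ?_⟩, ⟨1⟩⟩
  exact Subtype.ext (by rw [eq_one_of_dim hd x.2.2, eq_one_of_dim hd y.2.2])

include hθ hB in
theorem card_SUG_two (hd : finrank K V = 2) :
    Nat.card (SUG h) = (Nat.card (FF θ) + 1) * (Nat.card (FF θ) * (Nat.card (FF θ) - 1)) := by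
  obtain ⟨v, hv⟩ := exists_norm_one hθ hB (by omega)
  have h1 := finrank_pv hB hv
  have h2 := om_two hθ hB hd
  rw [card_SUG hθ hB (by omega) hv, card_SUG_one hθ (pv_hm hB hv) (by omega), mul_one]
  have h5 : 1 ≤ Nat.card (FF θ) := Nat.card_pos
  obtain ⟨q, hq⟩ : ∃ q, q + 1 = Nat.card (FF θ) := ⟨Nat.card (FF θ) - 1, by omega⟩
  rw [← hq] at h2 ⊢
  rw [Nat.add_sub_cancel]
  have h6 : (q + 1 + 1) * ((q + 1) * q) + (q + 1) * (q + 1 + 1) = (q + 1 + 1) * (q + 1) ^ 2 := by
    ring
  omega

include hθ hB in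
theorem card_SUG_three (hd : finrank K V = 3) :
    Nat.card (SUG h) = (Nat.card (FF θ) + 1) *
      (Nat.card (FF θ) ^ 2 * (Nat.card (FF θ) ^ 2 - Nat.card (FF θ) + 1)) *
      ((Nat.card (FF θ) + 1) * (Nat.card (FF θ) * (Nat.card (FF θ) - 1))) := by
  obtain ⟨v, hv⟩ := exists_norm_one hθ hB (by omega)
  have h1 := finrank_pv hB hv
  rw [card_SUG hθ hB (by omega) hv, om_three hθ hB hd, card_SUG_two hθ (pv_hm hB hv) (by omega)]

end Order

section NoEig

variable {K : Type} [Field K] [Finite K] {θ : K ≃+* K} (hθ : Iv θ)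
  {V : Type} [AddCommGroup V] [Module K V] [Module.Finite K V] {h : V → V → K} (hB : Hm θ h)

theorem pel_eq_one {G : Type*} [Group G] [Finite G] {l : ℕ} [Fact l.Prime]
    (hl : ¬ l ∣ Nat.card G) {x : G} (hx : Pel l x) : x = 1 := by
  obtain ⟨n, hn⟩ := hx
  have h1 := orderOf_dvd_of_pow_eq_one hn
  have h2 := orderOf_dvd_natCard x
  have h3 : Nat.Coprime (l ^ n) (Nat.card G) := by
    apply Nat.Coprime.pow_left
    rw [(Fact.out : l.Prime).coprime_iff_not_dvd]
    exact hl
  exact orderOf_eq_one_iff.mp (Nat.eq_one_of_dvd_coprimes h3 h1 h2)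

include hθ hB in
/-- elements of prime power order have no eigenvectors -/
theorem no_eig (hd : finrank K V = 3) {l : ℕ} [Fact l.Prime] (hl : ¬ l ∣ Nat.card (FF θ))
    (hl1 : ¬ l ∣ Nat.card (FF θ) + 1) (hl2 : ¬ l ∣ Nat.card (FF θ) - 1) {x : V ≃ₗ[K] V}
    (hx : x ∈ SUG h) (hxl : Pel l x) (hx1 : x ≠ 1) (v : V) (hv0 : v ≠ 0) (c : K) :
    x v ≠ c • v := by
  intro hxv
  apply hx1
  have hq : 1 ≤ Nat.card (FF θ) := Nat.card_pos
  -- the eigenvalue is one
  have hc0 : c ≠ 0 := by
    rintro rfl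
    rw [zero_smul] at hxv
    exact hv0 (x.map_eq_zero_iff.mp hxv)
  have hpow : ∀ n : ℕ, (x ^ n) v = c ^ n • v := by
    intro n
    induction n with
    | zero => rw [pow_zero, pow_zero, one_smul]; rfl
    | succ n ih => rw [pow_succ', LinearEquiv.mul_apply, ih, map_smul, hxv, smul_smul, pow_succ]
  have hc1 : c = 1 := by
    have h1 : (Units.mk0 c hc0) = 1 := by
      refine pel_eq_one (l := l) ?_ ?_
      · have h2 := Nat.card_eq_card_units_add_one K
        rw [card_sq hθ] at h2
        obtain ⟨q, hq'⟩ : ∃ q, q + 1 = Nat.card (FF θ) := ⟨Nat.card (FF θ) - 1, by omega⟩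
        rw [← hq'] at h2 hl1 hl2
        rw [Nat.add_sub_cancel] at hl2
        have h3 : Nat.card Kˣ = q * (q + 1 + 1) := by nlinarith
        rw [h3, (Fact.out : l.Prime).dvd_mul]
        tauto
      · obtain ⟨n, hn⟩ := hxl
        refine ⟨n, Units.ext ?_⟩
        rw [Units.val_pow_eq_pow_val, Units.val_mk0, Units.val_one]
        have h2 := hpow (l ^ n)
        rw [hn] at h2
        change v = c ^ l ^ n • v at h2
        have h3 : (c ^ l ^ n - 1) • v = 0 := by rw [sub_smul, one_smul, ← h2, sub_self]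
        exact sub_eq_zero.mp ((smul_eq_zero.mp h3).resolve_right hv0)
    exact congrArg Units.val h1
  rw [hc1, one_smul] at hxv
  -- the fixed space
  let U : Submodule K V :=
    { carrier := {w | x w = w}
      zero_mem' := map_zero x
      add_mem' := fun {a b} ha hb => by
        change x (a + b) = a + b
        rw [map_add, ha, hb]
      smul_mem' := fun c a ha => by
        change x (c • a) = c • a
        rw [map_smul, ha] }
  have hU : ∀ w, w ∈ U ↔ x w = w := fun w => Iff.rfl
  obtain ⟨n, hn⟩ := hxl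
  have hlK : ((l ^ n : ℕ) : K) ≠ 0 := by
    rw [Nat.cast_pow]
    apply pow_ne_zero
    intro h0
    apply hl
    -- the characteristic divides the order of the fixed field
    haveI hp : Fact (ringChar K).Prime := ⟨CharP.char_is_prime K (ringChar K)⟩
    have h1 : ringChar K ∣ l := (CharP.cast_eq_zero_iff K (ringChar K) l).mp h0
    have h2 : ringChar K = l := (Nat.prime_dvd_prime_iff_eq hp.out Fact.out).mp h1
    haveI : CharP K l := by rw [← h2]; infer_instance
    haveI : CharP (FF θ) l := RingHom.charP (FF θ).subtype (FF θ).subtype_injective l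
    haveI := Fintype.ofFinite (FF θ)
    obtain ⟨m, hm, hm'⟩ := FiniteField.card (FF θ) l
    rw [Nat.card_eq_fintype_card, hm']
    exact dvd_pow_self l m.ne_zero
  have hNd : Nd h U := by
    intro u hu huw
    by_contra hu0
    obtain ⟨w, hw⟩ := hB.exists_ne hu0
    have h1 : ∀ i : ℕ, h u ((x ^ i) w) = h u w := by
      intro i
      induction i with
      | zero => rfl
      | succ i ih =>
        rw [pow_succ', LinearEquiv.mul_apply]
        have h2 := mem_UG.mp hx.1 u ((x ^ i) w)
        rw [(hU u).mp hu, ih] at h2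
        exact h2
    have h2 : ∑ i ∈ Finset.range (l ^ n), (x ^ i) w ∈ U := by
      rw [hU, map_sum]
      have h3 : ∀ i, x ((x ^ i) w) = (x ^ (i + 1)) w := by
        intro i
        rw [pow_succ', LinearEquiv.mul_apply]
      rw [Finset.sum_congr rfl fun i _ => h3 i]
      have h4 := Finset.sum_range_succ' (fun i => (x ^ i) w) (l ^ n)
      have h5 := Finset.sum_range_succ (fun i => (x ^ i) w) (l ^ n)
      rw [h4, hn, pow_zero] at h5
      exact add_right_cancel h5
    have h3 := huw _ h2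
    have h4 : ∀ s : Finset ℕ, h u (∑ i ∈ s, (x ^ i) w) = s.card * h u w := by
      intro s
      classical
      induction s using Finset.induction_on with
      | empty => rw [Finset.sum_empty, hB.zr, Finset.card_empty, Nat.cast_zero, zero_mul]
      | insert i s hi ih =>
        rw [Finset.sum_insert hi, hB.addr, ih, h1, Finset.card_insert_of_notMem hi]
        push_cast
        ring
    rw [h4, Finset.card_range] at h3
    exact (mul_ne_zero hlK hw) h3
  have hU1 : 1 ≤ finrank K U := by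
    rw [Nat.one_le_iff_ne_zero]
    intro h0
    haveI : Subsingleton U := Module.finrank_zero_iff.mp h0
    have h1 : (⟨v, hxv⟩ : U) = 0 := Subsingleton.elim _ _
    exact hv0 (congrArg Subtype.val h1)
  obtain ⟨w, hw⟩ := exists_norm_one hθ (rs_hm hB hNd) hU1
  have hw' : h (w : V) (w : V) = 1 := hw
  obtain ⟨m, hm, hmx⟩ := exists_io' hB hw' hx w.2
  have h1 := finrank_pv hB hw'
  have h2 : (⟨m, hm⟩ : SUG (rs h (pv hB (w : V)))) = 1 := by
    refine pel_eq_one (l := l) ?_ ⟨n, ?_⟩
    · rw [card_SUG_two hθ (pv_hm hB hw') (by omega), (Fact.out : l.Prime).dvd_mul,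
        (Fact.out : l.Prime).dvd_mul]
      tauto
    · apply Subtype.ext
      apply io_inj hB hw'
      change io hB hw' (m ^ l ^ n) = io hB hw' 1
      rw [map_pow, hmx, hn, map_one]
  have h3 : m = 1 := congrArg Subtype.val h2
  rw [← hmx, h3, map_one]

end NoEig

section CaseB

variable {K : Type} [Field K] [Finite K] {θ : K ≃+* K} (hθ : Iv θ)
  {V : Type} [AddCommGroup V] [Module K V] [Module.Finite K V] {h : V → V → K} (hB : Hm θ h)
  {E : Type} [Group E] [Finite E] {f : E →* (V ≃ₗ[K] V)}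
  (hfU : ∀ e, f e ∈ SUG h) (hk : f.ker ≤ center E) (hE : commutator E = ⊤)

include hθ hB hfU hk hE in
/-- **The second case.** -/
theorem caseB (hd : finrank K V = 3) {l : ℕ} [Fact l.Prime]
    (hcyc : ∀ S : Subgroup (V ≃ₗ[K] V), IsPGroup l S →
      (∀ x ∈ S, x ≠ 1 → ∀ (v : V), v ≠ 0 → ∀ c : K, x v ≠ c • v) → IsCyclic S)
    (hl : ¬ l ∣ Nat.card (FF θ))
    (hl1 : ¬ l ∣ Nat.card (FF θ) + 1) (hl2 : ¬ l ∣ Nat.card (FF θ) - 1)
    {a : E} (ha : f a = 1) (hal : Pel l a) : a = 1 := by
  obtain ⟨S, hS⟩ := (isPGroup_zpowers_of_pel hal).exists_le_sylow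
  have haS : a ∈ (S : Subgroup E) := hS (mem_zpowers a)
  have hac : a ∈ center E := hk ha
  have hcomm : a ∈ ⁅(S : Subgroup E), (S : Subgroup E)⁆ :=
    Sp.mem_commutator_of_central' S.not_dvd_index hac (by rw [hE]; exact mem_top _) haS hal
  have hSbar : IsPGroup l ((S : Subgroup E).map f) := S.2.map f
  have h1 : IsCyclic ((S : Subgroup E).map f) := by
    refine hcyc _ hSbar fun x hx hx1 v hv c => ?_
    refine no_eig hθ hB hd hl hl1 hl2 ?_ ?_ hx1 v hv c
    · obtain ⟨e, he, rfl⟩ := hx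
      exact hfU e
    · obtain ⟨n, hn⟩ := hSbar ⟨x, hx⟩
      exact ⟨n, congrArg Subtype.val hn⟩
  exact eq_one_of_comm (comm_of_cyclic f hk h1 fun c hc => mem_map_of_mem f hc) hcomm

end CaseB

end Vale.Agent.P180.R2.H471.Cu
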