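import Vale.Agent.P180.R2.H471.Cu3
import Vale.Agent.P180.R2.H589.Bt.SemL

/-!
P180: central extensions of groups whose Sylow subgroup is a homocyclic group of rank two extended
by an element: the abstract argument.
-/

set_option linter.all false

namespace Vale.Agent.P180.R2.H471.Cu

open Subgroup
open Vale.Agent.P180.R2.H589
open Vale.Agent.P180.R2.H589.Sch
open scoped commutatorElement

section Abs

variable {E G : Type*} [Group E] [Group G] {f : E →* G}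

theorem comm_of_lift (hk : f.ker ≤ center E) {l : ℕ} [Fact l.Prime] (hl2 : l ≠ 2)
    {X Y τ : E} (hxy : f X * f Y = f Y * f X) (h1 : f (τ * X * τ⁻¹) = f Y⁻¹)
    (h2 : f (τ * Y * τ⁻¹) = f X⁻¹) (hx : Pel l (f X)) : X * Y = Y * X := by
  obtain ⟨z, hz⟩ : ∃ z, z = ⁅X, Y⁆ := ⟨_, rfl⟩
  have hfz : f z = 1 := by
    rw [hz, map_commutatorElement, commutatorElement_eq_one_iff_mul_comm]
    exact hxy
  have hzc : ∀ g, g * z = z * g := mem_center_iff.mp (hk (MonoidHom.mem_ker.mpr hfz))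
  have hXY : X * Y = z * (Y * X) := by
    rw [hz, commutatorElement_def]
    group
  -- the conjugates
  obtain ⟨k, hk1⟩ : ∃ k, k = Y * (τ * X * τ⁻¹) := ⟨_, rfl⟩
  obtain ⟨k', hk2⟩ : ∃ k', k' = X * (τ * Y * τ⁻¹) := ⟨_, rfl⟩
  have hkc : ∀ g, g * k = k * g := mem_center_iff.mp (hk (MonoidHom.mem_ker.mpr (by
    rw [hk1, map_mul, h1, ← map_mul, mul_inv_cancel, map_one])))
  have hkc' : ∀ g, g * k' = k' * g := mem_center_iff.mp (hk (MonoidHom.mem_ker.mpr (by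
    rw [hk2, map_mul, h2, ← map_mul, mul_inv_cancel, map_one])))
  have e1 : τ * X * τ⁻¹ = Y⁻¹ * k := by rw [hk1]; group
  have e2 : τ * Y * τ⁻¹ = X⁻¹ * k' := by rw [hk2]; group
  have e3 : τ * z * τ⁻¹ = z := by rw [hzc τ, mul_inv_cancel_right]
  have e4 : τ * (X * Y) * τ⁻¹ = τ * (z * (Y * X)) * τ⁻¹ := by rw [hXY]
  have e5 : τ * (X * Y) * τ⁻¹ = (Y⁻¹ * k) * (X⁻¹ * k') := by
    rw [← e1, ← e2]; group
  have e6 : τ * (z * (Y * X)) * τ⁻¹ = z * ((X⁻¹ * k') * (Y⁻¹ * k)) := by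
    have : τ * (z * (Y * X)) * τ⁻¹ = (τ * z * τ⁻¹) * ((τ * Y * τ⁻¹) * (τ * X * τ⁻¹)) := by group
    rw [this, e3, e1, e2]
  rw [e5, e6] at e4
  -- cancel the central factors
  have e7 : Y⁻¹ * k * (X⁻¹ * k') = (Y⁻¹ * X⁻¹) * (k * k') := by
    rw [mul_assoc Y⁻¹ k, ← mul_assoc k X⁻¹ k', ← hkc X⁻¹]
    simp only [mul_assoc]
  have e8 : z * (X⁻¹ * k' * (Y⁻¹ * k)) = z * ((X⁻¹ * Y⁻¹)) * (k * k') := by
    rw [mul_assoc X⁻¹ k', ← mul_assoc k' Y⁻¹ k, ← hkc' Y⁻¹]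
    have : Y⁻¹ * k' * k = Y⁻¹ * (k * k') := by rw [mul_assoc, hkc' k]
    rw [this]
    simp only [mul_assoc]
  rw [e7, e8] at e4
  have e9 : Y⁻¹ * X⁻¹ = z * (X⁻¹ * Y⁻¹) := mul_right_cancel e4
  have e10 : z * z = 1 := by
    have h3 : (X * Y)⁻¹ = z * (Y * X)⁻¹ := by rw [mul_inv_rev, mul_inv_rev, e9]
    rw [hXY, mul_inv_rev, ← hzc ] at h3
    -- (Y X)⁻¹ z⁻¹ = (Y X)⁻¹ z
    have h4 := mul_left_cancel h3
    rw [← h4]
    exact mul_inv_cancel z ▸ (by rw [h4])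
  -- the order of `z`
  obtain ⟨n, hn⟩ := hx
  have hpow : ∀ m : ℕ, X ^ m * Y = z ^ m * (Y * X ^ m) := by
    intro m
    induction m with
    | zero => rw [pow_zero, pow_zero, one_mul, mul_one, one_mul]
    | succ m ih =>
      have h5 : ∀ g, g * z ^ m = z ^ m * g := fun g => ((Commute.pow_right (hzc g) m))
      calc X ^ (m + 1) * Y = X * (X ^ m * Y) := by rw [pow_succ', mul_assoc]
        _ = (X * z ^ m) * (Y * X ^ m) := by rw [ih, ← mul_assoc]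
        _ = z ^ m * (X * Y) * X ^ m := by rw [h5 X]; simp only [mul_assoc]
        _ = z ^ (m + 1) * (Y * X ^ (m + 1)) := by
          rw [hXY, pow_succ z, pow_succ' X]
          simp only [mul_assoc]
  have hXc : X ^ l ^ n ∈ center E := hk (MonoidHom.mem_ker.mpr (by rw [map_pow, hn]))
  have e11 : z ^ l ^ n = 1 := by
    have h6 := hpow (l ^ n)
    rw [mem_center_iff.mp hXc Y] at h6
    exact (mul_eq_right.mp h6.symm)
  have e12 : orderOf z ∣ 2 := orderOf_dvd_of_pow_eq_one (by rw [pow_two, e10])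
  have e13 : orderOf z ∣ l ^ n := orderOf_dvd_of_pow_eq_one e11
  have e14 : Nat.Coprime 2 (l ^ n) := by
    apply Nat.Coprime.pow_right
    rw [Nat.coprime_primes Nat.prime_two Fact.out]
    exact fun h => hl2 h.symm
  have e15 : orderOf z = 1 := Nat.eq_one_of_dvd_coprimes e14 e12 e13
  rw [hXY, orderOf_eq_one_iff.mp e15, one_mul]

/-- **The abstract argument.** -/
theorem caseC_abs [Finite E] (hf : Function.Surjective f) (hk : f.ker ≤ center E)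
    (hE : commutator E = ⊤) {l : ℕ} [Fact l.Prime] (hl2 : l ≠ 2) {x y τ ρ : G}
    (hxy : x * y = y * x) (h1 : τ * x * τ⁻¹ = y⁻¹) (h2 : τ * y * τ⁻¹ = x⁻¹) (hx : Pel l x)
    (hρ : ∀ t ∈ closure {x, y}, ρ * t * ρ⁻¹ ∈ closure {x, y})
    (hfix : ∀ t ∈ closure {x, y}, ρ * t = t * ρ → t ∈ center G)
    (hS : ∀ g ∈ closure {x, y} ⊔ zpowers ρ, ∃ t ∈ closure {x, y}, ∃ i : ℕ, g = t * ρ ^ i)
    (hind : ¬ l ∣ (closure {x, y} ⊔ zpowers ρ).index) {a : E} (ha : f a = 1) (hal : Pel l a) :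
    a = 1 := by
  obtain ⟨X, rfl⟩ := hf x
  obtain ⟨Y, rfl⟩ := hf y
  obtain ⟨τ, rfl⟩ := hf τ
  obtain ⟨R, rfl⟩ := hf ρ
  have hXY : X * Y = Y * X := comm_of_lift (τ := τ) hk hl2 hxy (by
    rw [map_mul, map_mul, map_inv, h1, map_inv]) (by
    rw [map_mul, map_mul, map_inv, h2, map_inv]) hx
  -- the closure of the lifts is commutative
  have hcl : ∀ g ∈ closure {X, Y}, ∀ g' ∈ closure {X, Y}, g * g' = g' * g := by
    have h3 : ∀ g ∈ ({X, Y} : Set E), ∀ g' ∈ ({X, Y} : Set E), g * g' = g' * g := by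
      rintro g (rfl | rfl) g' (rfl | rfl)
      · rfl
      · exact hXY
      · exact hXY.symm
      · rfl
    intro g hg g' hg'
    have h4 : closure {X, Y} ≤ centralizer (closure {X, Y} : Subgroup E) := by
      rw [closure_le]
      intro u hu
      rw [SetLike.mem_coe, mem_centralizer_iff]
      intro w hw
      have h5 : closure {X, Y} ≤ centralizer ({u} : Set E) := by
        rw [closure_le]
        intro w hw
        rw [SetLike.mem_coe, mem_centralizer_iff]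
        intro u' hu'
        rw [Set.mem_singleton_iff.mp hu']
        exact h3 u hu w hw
      exact (mem_centralizer_iff.mp (h5 hw) u rfl).symm
    exact (mem_centralizer_iff.mp (h4 hg) g' hg').symm
  have hmap : (closure {X, Y}).map f = closure {f X, f Y} := by
    rw [MonoidHom.map_closure, Set.image_pair]
  obtain ⟨A, hA⟩ : ∃ A, A = (closure {f X, f Y}).comap f := ⟨_, rfl⟩
  have hAmem : ∀ g, g ∈ A ↔ f g ∈ closure {f X, f Y} := fun g => by rw [hA, mem_comap]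
  have hAcomm : ∀ g ∈ A, ∀ g' ∈ A, g * g' = g' * g := by
    have h3 : ∀ g ∈ A, ∃ w ∈ closure {X, Y}, ∃ k ∈ center E, g = w * k := by
      intro g hg
      rw [hAmem, ← hmap] at hg
      obtain ⟨w, hw, hwg⟩ := hg
      refine ⟨w, hw, w⁻¹ * g, hk ?_, by group⟩
      rw [MonoidHom.mem_ker, map_mul, map_inv, hwg, inv_mul_cancel]
    intro g hg g' hg'
    obtain ⟨w, hw, k, hkc, rfl⟩ := h3 g hg
    obtain ⟨w', hw', k', hkc', rfl⟩ := h3 g' hg'
    have h4 := mem_center_iff.mp hkc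
    have h5 := mem_center_iff.mp hkc'
    calc w * k * (w' * k') = w * (k * w') * k' := by simp only [mul_assoc]
      _ = w * w' * (k * k') := by rw [← h4]; simp only [mul_assoc]
      _ = w' * w * (k' * k) := by rw [hcl w hw w' hw', h5 k]
      _ = w' * (w * k') * k := by simp only [mul_assoc]
      _ = w' * k' * (w * k) := by rw [h5]; simp only [mul_assoc]
  have hAR : ∀ g ∈ A, R * g * R⁻¹ ∈ A := by
    intro g hg
    rw [hAmem] at hg ⊢
    rw [map_mul, map_mul, map_inv]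
    exact hρ _ hg
  have hARi : ∀ i : ℕ, ∀ g ∈ A, R ^ i * g * (R ^ i)⁻¹ ∈ A := by
    intro i
    induction i with
    | zero =>
      intro g hg
      rw [pow_zero, one_mul, inv_one, mul_one]
      exact hg
    | succ i ih =>
      intro g hg
      have := hAR _ (ih g hg)
      have h3 : R * (R ^ i * g * (R ^ i)⁻¹) * R⁻¹ = R ^ (i + 1) * g * (R ^ (i + 1))⁻¹ := by
        rw [pow_succ', mul_inv_rev]
        simp only [mul_assoc]
      rwa [h3] at this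
  -- the commutators with `R`
  let D : Subgroup E :=
    { carrier := {d | ∃ g ∈ A, d = R * g * R⁻¹ * g⁻¹}
      one_mem' := ⟨1, one_mem _, by group⟩
      mul_mem' := by
        rintro _ _ ⟨g, hg, rfl⟩ ⟨g', hg', rfl⟩
        refine ⟨g * g', mul_mem hg hg', ?_⟩
        have h3 := hAcomm _ (inv_mem hg) _ (mul_mem (hAR g' hg') (inv_mem hg'))
        calc R * g * R⁻¹ * g⁻¹ * (R * g' * R⁻¹ * g'⁻¹)
            = R * g * R⁻¹ * (g⁻¹ * (R * g' * R⁻¹ * g'⁻¹)) := by simp only [mul_assoc]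
          _ = R * g * R⁻¹ * ((R * g' * R⁻¹ * g'⁻¹) * g⁻¹) := by rw [h3]
          _ = R * (g * g') * R⁻¹ * (g * g')⁻¹ := by group
      inv_mem' := by
        rintro _ ⟨g, hg, rfl⟩
        refine ⟨g⁻¹, inv_mem hg, ?_⟩
        have h3 := hAcomm _ hg _ (inv_mem (hAR g hg))
        calc (R * g * R⁻¹ * g⁻¹)⁻¹ = g * (R * g * R⁻¹)⁻¹ := by group
          _ = (R * g * R⁻¹)⁻¹ * g := h3
          _ = R * g⁻¹ * R⁻¹ * g⁻¹⁻¹ := by group }
  have hDmem : ∀ d, d ∈ D ↔ ∃ g ∈ A, d = R * g * R⁻¹ * g⁻¹ := fun d => Iff.rfl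
  have hDA : D ≤ A := by
    rintro _ ⟨g, hg, rfl⟩
    exact mul_mem (hAR g hg) (inv_mem hg)
  have hDi : ∀ i : ℕ, ∀ g ∈ A, R ^ i * g * (R ^ i)⁻¹ * g⁻¹ ∈ D := by
    intro i
    induction i with
    | zero =>
      intro g hg
      have : R ^ 0 * g * (R ^ 0)⁻¹ * g⁻¹ = 1 := by
        rw [pow_zero, one_mul, inv_one, mul_one, mul_inv_cancel]
      rw [this]
      exact one_mem _
    | succ i ih =>
      intro g hg
      have h3 : R * (R ^ i * g * (R ^ i)⁻¹) * R⁻¹ * (R ^ i * g * (R ^ i)⁻¹)⁻¹ ∈ D :=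
        ⟨_, hARi i g hg, rfl⟩
      have h4 := mul_mem h3 (ih g hg)
      have h5 : R * (R ^ i * g * (R ^ i)⁻¹) * R⁻¹ * (R ^ i * g * (R ^ i)⁻¹)⁻¹ *
          (R ^ i * g * (R ^ i)⁻¹ * g⁻¹) = R ^ (i + 1) * g * (R ^ (i + 1))⁻¹ * g⁻¹ := by
        rw [pow_succ' R i, mul_inv_rev]
        group
      rwa [h5] at h4
  obtain ⟨H, hH⟩ : ∃ H, H = (closure {f X, f Y} ⊔ zpowers (f R)).comap f := ⟨_, rfl⟩
  have hHdec : ∀ g ∈ H, ∃ b ∈ A, ∃ i : ℕ, g = b * R ^ i := by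
    intro g hg
    rw [hH, mem_comap] at hg
    obtain ⟨t, ht, i, hti⟩ := hS _ hg
    refine ⟨g * (R ^ i)⁻¹, ?_, i, by group⟩
    rw [hAmem, map_mul, map_inv, map_pow, hti, mul_inv_cancel_right]
    exact ht
  have hHD : ⁅H, H⁆ ≤ D := by
    rw [commutator_le]
    intro g hg g' hg'
    obtain ⟨b, hb, i, rfl⟩ := hHdec g hg
    obtain ⟨b', hb', j, rfl⟩ := hHdec g' hg'
    have h3 := hDi i b' hb'
    have h4 := hDi j b hb
    have h5 := mul_mem h3 (inv_mem h4)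
    have h6 : ⁅b * R ^ i, b' * R ^ j⁆ =
        b * ((R ^ i * b' * (R ^ i)⁻¹) * ((R ^ j * b⁻¹ * (R ^ j)⁻¹) * b'⁻¹)) := by
      rw [commutatorElement_def]
      have h7 : R ^ i * R ^ j = R ^ j * R ^ i := by rw [← pow_add, ← pow_add, add_comm]
      calc b * R ^ i * (b' * R ^ j) * (b * R ^ i)⁻¹ * (b' * R ^ j)⁻¹
          = b * R ^ i * b' * (R ^ j * (R ^ i)⁻¹) * b⁻¹ * (R ^ j)⁻¹ * b'⁻¹ := by group
        _ = b * R ^ i * b' * ((R ^ i)⁻¹ * R ^ j) * b⁻¹ * (R ^ j)⁻¹ * b'⁻¹ := by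
          congr 4
          rw [mul_inv_eq_iff_eq_mul, mul_assoc, ← h7, inv_mul_cancel_left]
        _ = _ := by group
    rw [h6]
    have hb2 : R ^ j * b⁻¹ * (R ^ j)⁻¹ ∈ A := hARi j _ (inv_mem hb)
    have hb3 : R ^ i * b' * (R ^ i)⁻¹ ∈ A := hARi i _ hb'
    have h8 : b * ((R ^ i * b' * (R ^ i)⁻¹) * ((R ^ j * b⁻¹ * (R ^ j)⁻¹) * b'⁻¹)) =
        (R ^ i * b' * (R ^ i)⁻¹ * b'⁻¹) * (R ^ j * b * (R ^ j)⁻¹ * b⁻¹)⁻¹ := by
      have h9 : (R ^ j * b * (R ^ j)⁻¹ * b⁻¹)⁻¹ = b * (R ^ j * b⁻¹ * (R ^ j)⁻¹) := by group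
      rw [h9]
      calc b * ((R ^ i * b' * (R ^ i)⁻¹) * ((R ^ j * b⁻¹ * (R ^ j)⁻¹) * b'⁻¹))
          = b * ((R ^ i * b' * (R ^ i)⁻¹) * (b'⁻¹ * (R ^ j * b⁻¹ * (R ^ j)⁻¹))) := by
            rw [hAcomm _ hb2 _ (inv_mem hb')]
        _ = b * ((R ^ i * b' * (R ^ i)⁻¹ * b'⁻¹) * (R ^ j * b⁻¹ * (R ^ j)⁻¹)) := by
            simp only [mul_assoc]
        _ = (b * (R ^ i * b' * (R ^ i)⁻¹ * b'⁻¹)) * (R ^ j * b⁻¹ * (R ^ j)⁻¹) := by
            simp only [mul_assoc]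
        _ = ((R ^ i * b' * (R ^ i)⁻¹ * b'⁻¹) * b) * (R ^ j * b⁻¹ * (R ^ j)⁻¹) := by
            rw [hAcomm _ hb _ (mul_mem hb3 (inv_mem hb'))]
        _ = _ := by simp only [mul_assoc]
    rw [h8]
    exact h5
  have hac : a ∈ center E := hk (MonoidHom.mem_ker.mpr ha)
  have h3 := Sp.mem_commutator_of_central' (H := H) (by
    rw [hH, index_comap_of_surjective _ hf]
    exact hind) hac (by rw [hE]; exact mem_top _) (by
    rw [hH, mem_comap, ha]
    exact one_mem _) hal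
  obtain ⟨g, hg, hag⟩ := hHD h3
  have h4 : f g ∈ center G := by
    refine hfix _ ((hAmem g).mp hg) ?_
    have h5 := congrArg f hag
    rw [ha, map_mul, map_mul, map_mul, map_inv, map_inv] at h5
    rw [eq_comm, mul_inv_eq_one, mul_inv_eq_iff_eq_mul] at h5
    exact h5
  have h5 : g ∈ center E := Bt.center_of_map hE hk h4
  rw [hag, mem_center_iff.mp h5 R]
  group

end Abs

end Vale.Agent.P180.R2.H471.Cu
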