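import Vale.Agent.P180.R2.H471.Cu4
import Vale.Agent.P180.R2.H471.Cu5

/-!
P180: central extensions of special unitary groups of dimension three: the prime three.
-/

set_option linter.all false

namespace Vale.Agent.P180.R2.H471.Cu

open Subgroup Module
open Vale.Agent.P180.R2.H589
open Vale.Agent.P180.R2.H589.Sch
open Vale.Agent.P180.R2.H589.Un
open scoped commutatorElement

section Std

variable {K : Type} [Field K]

/-- the standard form -/
def sf (θ : K ≃+* K) (x y : Fin 3 → K) : K := x 0 * θ (y 0) + x 1 * θ (y 1) + x 2 * θ (y 2)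

theorem sf_hm {θ : K ≃+* K} (hθ : Iv θ) : Hm θ (sf θ) := by
  refine ⟨fun x y z => ?_, fun c x y => ?_, fun x y => ?_, fun x hx => ?_⟩
  · simp only [sf, Pi.add_apply]
    ring
  · simp only [sf, Pi.smul_apply, smul_eq_mul]
    ring
  · simp only [sf, map_add, map_mul, hθ.inv]
    ring
  · funext i
    have h0 := hx ![1, 0, 0]
    have h1 := hx ![0, 1, 0]
    have h2 := hx ![0, 0, 1]
    simp [sf] at h0 h1 h2
    fin_cases i
    · exact h0
    · exact h1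
    · exact h2

theorem mul_three (A : Matrix (Fin 3) (Fin 3) K) (v : Fin 3 → K) (i : Fin 3) :
    (A.mulVec v) i = A i 0 * v 0 + A i 1 * v 1 + A i 2 * v 2 := by
  rw [Matrix.mulVec, dotProduct, Fin.sum_univ_three]

theorem det_nat {n : ℕ} (A : GS n K) : LinearEquiv.det (nat n K A) = 1 := by
  apply Units.ext
  rw [LinearEquiv.coe_det]
  have h4 : ((nat n K A : (Fin n → K) ≃ₗ[K] (Fin n → K)) :
      (Fin n → K) →ₗ[K] (Fin n → K)) = Matrix.toLin' (A : Matrix (Fin n) (Fin n) K) := by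
    apply LinearMap.ext
    intro v
    exact nat_apply _ _
  rw [h4, LinearMap.det_toLin', A.2]
  rfl

/-- diagonal matrices -/
def dgM (u : Kˣ × Kˣ) : Matrix (Fin 3) (Fin 3) K :=
  !![(u.1 : K), 0, 0; 0, (u.2 : K), 0; 0, 0, (((u.1 * u.2)⁻¹ : Kˣ) : K)]

theorem dgM_det (u : Kˣ × Kˣ) : (dgM u).det = 1 := by
  have h1 := u.1.ne_zero
  have h2 := u.2.ne_zero
  rw [Matrix.det_fin_three]
  simp [dgM]
  field_simp

theorem dgM_one : dgM (1 : Kˣ × Kˣ) = 1 := by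
  ext i j
  fin_cases i <;> fin_cases j <;> simp [dgM]

theorem dgM_mul (u w : Kˣ × Kˣ) : dgM (u * w) = dgM u * dgM w := by
  ext i j
  fin_cases i <;> fin_cases j <;>
    simp [dgM, Matrix.mul_apply, Fin.sum_univ_three, mul_comm, mul_left_comm]
  ring

/-- diagonal matrices -/
def dgH (K : Type) [Field K] : Kˣ × Kˣ →* GS 3 K where
  toFun u := ⟨dgM u, dgM_det u⟩
  map_one' := Subtype.ext dgM_one
  map_mul' u w := Subtype.ext (dgM_mul u w)

theorem dgH_coe (u : Kˣ × Kˣ) : ((dgH K u : GS 3 K) : Matrix (Fin 3) (Fin 3) K) =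
    !![(u.1 : K), 0, 0; 0, (u.2 : K), 0; 0, 0, (((u.1 * u.2)⁻¹ : Kˣ) : K)] := rfl

theorem dgH_apply (u : Kˣ × Kˣ) (x : Fin 3 → K) :
    nat 3 K (dgH K u) x = ![(u.1 : K) * x 0, (u.2 : K) * x 1,
      (((u.1 * u.2)⁻¹ : Kˣ) : K) * x 2] := by
  rw [nat_apply, dgH_coe]
  funext i
  rw [mul_three]
  fin_cases i <;> simp

/-- the cyclic permutation -/
def rr (K : Type) [Field K] : GS 3 K := ⟨!![0, 0, 1; 1, 0, 0; 0, 1, 0], by
  rw [Matrix.det_fin_three]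
  simp⟩

theorem rr_apply (x : Fin 3 → K) : nat 3 K (rr K) x = ![x 2, x 0, x 1] := by
  rw [nat_apply]
  funext i
  rw [mul_three]
  fin_cases i <;> simp [rr]

/-- the transposition -/
def tt (K : Type) [Field K] : GS 3 K := ⟨!![0, 0, -1; 0, -1, 0; -1, 0, 0], by
  rw [Matrix.det_fin_three]
  simp⟩

theorem tt_apply (x : Fin 3 → K) : nat 3 K (tt K) x = ![- x 2, - x 1, - x 0] := by
  rw [nat_apply]
  funext i
  rw [mul_three]
  fin_cases i <;> simp [tt]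

theorem rr_dg (a b : Kˣ) : rr K * dgH K (a, b) = dgH K ((a * b)⁻¹, a) * rr K := by
  apply nat_injective
  rw [map_mul, map_mul]
  apply LinearEquiv.ext
  intro x
  rw [LinearEquiv.mul_apply, LinearEquiv.mul_apply, dgH_apply, rr_apply, dgH_apply, rr_apply]
  funext i
  fin_cases i
  · simp
  · simp
  · simp

theorem tt_dg (a b : Kˣ) : tt K * dgH K (a, b) = dgH K ((a * b)⁻¹, b) * tt K := by
  apply nat_injective
  rw [map_mul, map_mul]
  apply LinearEquiv.ext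
  intro x
  rw [LinearEquiv.mul_apply, LinearEquiv.mul_apply, dgH_apply, tt_apply, dgH_apply, tt_apply]
  funext i
  fin_cases i
  · simp
  · simp
  · simp

theorem rr_cube : rr K ^ 3 = 1 := by
  apply nat_injective
  rw [map_pow, map_one]
  apply LinearEquiv.ext
  intro x
  change (nat 3 K (rr K) * nat 3 K (rr K) * nat 3 K (rr K)) x = x
  rw [LinearEquiv.mul_apply, LinearEquiv.mul_apply, rr_apply, rr_apply, rr_apply]
  funext i
  fin_cases i <;> rfl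

variable {θ : K ≃+* K}

theorem rr_mem : nat 3 K (rr K) ∈ SUG (sf θ) := by
  refine ⟨fun x y => ?_, det_nat _⟩
  rw [rr_apply, rr_apply]
  simp only [sf, Matrix.cons_val_zero, Matrix.cons_val_one, Matrix.cons_val]
  ring

theorem tt_mem : nat 3 K (tt K) ∈ SUG (sf θ) := by
  refine ⟨fun x y => ?_, det_nat _⟩
  rw [tt_apply, tt_apply]
  simp only [sf, Matrix.cons_val_zero, Matrix.cons_val_one, Matrix.cons_val, map_neg]
  ring

theorem dg_mem {u : Kˣ × Kˣ} (h1 : (u.1 : K) * θ u.1 = 1) (h2 : (u.2 : K) * θ u.2 = 1) :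
    nat 3 K (dgH K u) ∈ SUG (sf θ) := by
  refine ⟨fun x y => ?_, det_nat _⟩
  have h3 : (((u.1 * u.2)⁻¹ : Kˣ) : K) * θ (((u.1 * u.2)⁻¹ : Kˣ) : K) = 1 := by
    rw [Units.val_inv_eq_inv_val, Units.val_mul, map_inv₀, map_mul, ← mul_inv]
    rw [show (u.1 : K) * u.2 * (θ u.1 * θ u.2) = (u.1 * θ u.1) * (u.2 * θ u.2) by ring, h1, h2,
      one_mul, inv_one]
  rw [dgH_apply, dgH_apply]
  simp only [sf, Matrix.cons_val_zero, Matrix.cons_val_one, Matrix.cons_val, map_mul]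
  linear_combination (x 0 * θ (y 0)) * h1 + (x 1 * θ (y 1)) * h2 + (x 2 * θ (y 2)) * h3

end Std

section Grp

variable {K : Type} [Field K] {θ : K ≃+* K} {C : Subgroup Kˣ}
  (hC : ∀ u ∈ C, (u : K) * θ u = 1)

/-- the torus -/
noncomputable def phi (hC : ∀ u ∈ C, (u : K) * θ u = 1) : C × C →* SUG (sf θ) where
  toFun u := ⟨nat 3 K (dgH K (u.1, u.2)), dg_mem (hC _ u.1.2) (hC _ u.2.2)⟩
  map_one' := Subtype.ext (by
    change nat 3 K (dgH K 1) = 1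
    rw [map_one, map_one])
  map_mul' u w := Subtype.ext (by
    change nat 3 K (dgH K (((u.1 : Kˣ), (u.2 : Kˣ)) * ((w.1 : Kˣ), (w.2 : Kˣ)))) = _
    rw [map_mul, map_mul]
    rfl)

theorem phi_val (u : C × C) :
    ((phi hC u : SUG (sf θ)) : (Fin 3 → K) ≃ₗ[K] (Fin 3 → K)) =
      nat 3 K (dgH K ((u.1 : Kˣ), (u.2 : Kˣ))) := rfl

theorem phi_inj : Function.Injective (phi hC) := by
  intro u w huw
  have h1 := congrArg (fun g : SUG (sf θ) => (g : (Fin 3 → K) ≃ₗ[K] (Fin 3 → K)) ![1, 1, 1]) huw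
  simp only [phi_val, dgH_apply] at h1
  have h2 := congrFun h1 0
  have h3 := congrFun h1 1
  simp at h2 h3
  exact Prod.ext (Subtype.ext (Units.ext h2)) (Subtype.ext (Units.ext h3))

/-- the permutation -/
def rho (θ : K ≃+* K) : SUG (sf θ) := ⟨nat 3 K (rr K), rr_mem⟩

/-- the transposition -/
def tau (θ : K ≃+* K) : SUG (sf θ) := ⟨nat 3 K (tt K), tt_mem⟩

theorem rho_phi (a b : C) : rho θ * phi hC (a, b) = phi hC ((a * b)⁻¹, a) * rho θ := by
  apply Subtype.ext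
  change nat 3 K (rr K) * nat 3 K (dgH K ((a : Kˣ), (b : Kˣ))) =
    nat 3 K (dgH K (((a : Kˣ) * b)⁻¹, (a : Kˣ))) * nat 3 K (rr K)
  rw [← map_mul, ← map_mul, rr_dg]

theorem tau_phi (a b : C) : tau θ * phi hC (a, b) = phi hC ((a * b)⁻¹, b) * tau θ := by
  apply Subtype.ext
  change nat 3 K (tt K) * nat 3 K (dgH K ((a : Kˣ), (b : Kˣ))) =
    nat 3 K (dgH K (((a : Kˣ) * b)⁻¹, (b : Kˣ))) * nat 3 K (tt K)
  rw [← map_mul, ← map_mul, tt_dg]

theorem rho_cube : rho θ ^ 3 = 1 := by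
  apply Subtype.ext
  change (nat 3 K (rr K)) ^ 3 = 1
  rw [← map_pow, rr_cube, map_one]

theorem rho_conj (u : C × C) : rho θ * phi hC u * (rho θ)⁻¹ = phi hC ((u.1 * u.2)⁻¹, u.1) := by
  rw [mul_inv_eq_iff_eq_mul]
  exact rho_phi hC u.1 u.2

theorem rho_notMem : rho θ ∉ (phi hC).range := by
  rintro ⟨u, hu⟩
  have h1 := congrArg (fun g : SUG (sf θ) => (g : (Fin 3 → K) ≃ₗ[K] (Fin 3 → K)) ![1, 0, 0]) hu
  simp only [phi_val, dgH_apply] at h1
  change _ = nat 3 K (rr K) ![1, 0, 0] at h1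
  rw [rr_apply] at h1
  have h2 := congrFun h1 0
  simp at h2

theorem phi_center (a : C) (ha : (a * a)⁻¹ = a) : phi hC (a, a) ∈ center (SUG (sf θ)) := by
  rw [mem_center_iff]
  intro g
  apply Subtype.ext
  have h1 : ∀ x, ((phi hC (a, a) : SUG (sf θ)) : (Fin 3 → K) ≃ₗ[K] (Fin 3 → K)) x =
      ((a : Kˣ) : K) • x := by
    intro x
    rw [phi_val, dgH_apply]
    have h2 : (((a : Kˣ) * (a : Kˣ))⁻¹ : Kˣ) = (a : Kˣ) := congrArg Subtype.val ha
    funext i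
    fin_cases i
    · rfl
    · rfl
    · change ((((a : Kˣ) * (a : Kˣ))⁻¹ : Kˣ) : K) * x 2 = ((a : Kˣ) : K) * x 2
      rw [h2]
  apply LinearEquiv.ext
  intro x
  change (g : (Fin 3 → K) ≃ₗ[K] (Fin 3 → K))
      (((phi hC (a, a) : SUG (sf θ)) : (Fin 3 → K) ≃ₗ[K] (Fin 3 → K)) x) =
    ((phi hC (a, a) : SUG (sf θ)) : (Fin 3 → K) ≃ₗ[K] (Fin 3 → K))
      ((g : (Fin 3 → K) ≃ₗ[K] (Fin 3 → K)) x)
  rw [h1, h1, map_smul]

end Grp

section Sup

/-- the elements of a product with a cyclic group -/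
theorem exists_mul_pow {G : Type*} [Group G] {T : Subgroup G} {ρ : G}
    (hρ : ∀ t ∈ T, ρ * t * ρ⁻¹ ∈ T) (h3 : ρ ^ 3 = 1) {g : G} (hg : g ∈ T ⊔ zpowers ρ) :
    ∃ t ∈ T, ∃ i : ℕ, g = t * ρ ^ i := by
  have hi : ∀ i : ℕ, ∀ t ∈ T, ρ ^ i * t * (ρ ^ i)⁻¹ ∈ T := by
    intro i
    induction i with
    | zero =>
      intro t ht
      rw [pow_zero, one_mul, inv_one, mul_one]
      exact ht
    | succ i ih =>
      intro t ht
      have h1 := hρ _ (ih t ht)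
      have h2 : ρ * (ρ ^ i * t * (ρ ^ i)⁻¹) * ρ⁻¹ = ρ ^ (i + 1) * t * (ρ ^ (i + 1))⁻¹ := by
        rw [pow_succ', mul_inv_rev]
        simp only [mul_assoc]
      rwa [h2] at h1
  have hinv : ∀ i : ℕ, (ρ ^ i)⁻¹ = ρ ^ (2 * i) := by
    intro i
    rw [inv_eq_iff_mul_eq_one, ← pow_add]
    have : i + 2 * i = 3 * i := by ring
    rw [this, pow_mul, h3, one_pow]
  let S : Subgroup G :=
    { carrier := {g | ∃ t ∈ T, ∃ i : ℕ, g = t * ρ ^ i}
      one_mem' := ⟨1, one_mem _, 0, by rw [pow_zero, mul_one]⟩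
      mul_mem' := by
        rintro _ _ ⟨t, ht, i, rfl⟩ ⟨t', ht', j, rfl⟩
        refine ⟨t * (ρ ^ i * t' * (ρ ^ i)⁻¹), mul_mem ht (hi i t' ht'), i + j, ?_⟩
        rw [pow_add]
        group
      inv_mem' := by
        rintro _ ⟨t, ht, i, rfl⟩
        refine ⟨ρ ^ (2 * i) * t⁻¹ * (ρ ^ (2 * i))⁻¹, hi _ _ (inv_mem ht), 2 * i, ?_⟩
        rw [← hinv]
        group }
  have h1 : T ⊔ zpowers ρ ≤ S := by
    refine sup_le ?_ ?_
    · intro t ht
      exact ⟨t, ht, 0, by rw [pow_zero, mul_one]⟩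
    · rw [zpowers_le]
      exact ⟨1, one_mem _, 1, by rw [pow_one, one_mul]⟩
  exact h1 hg

/-- the index -/
theorem three_dvd_relIndex {G : Type*} [Group G] [Finite G] {T : Subgroup G} {ρ : G}
    (hρ : ∀ t ∈ T, ρ * t * ρ⁻¹ ∈ T) (h3 : ρ ^ 3 = 1) (hn : ρ ∉ T) :
    3 ∣ T.relIndex (T ⊔ zpowers ρ) := by
  have hN : (T.subgroupOf (T ⊔ zpowers ρ)).Normal := by
    refine ⟨?_⟩
    intro t ht g
    rw [mem_subgroupOf] at ht ⊢
    obtain ⟨s, hs, i, hg⟩ := exists_mul_pow hρ h3 g.2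
    change (g : G) * t * (g : G)⁻¹ ∈ T
    have hi : ∀ i : ℕ, ∀ t ∈ T, ρ ^ i * t * (ρ ^ i)⁻¹ ∈ T := by
      intro i
      induction i with
      | zero =>
        intro t ht
        rw [pow_zero, one_mul, inv_one, mul_one]
        exact ht
      | succ i ih =>
        intro t ht
        have h1 := hρ _ (ih t ht)
        have h2 : ρ * (ρ ^ i * t * (ρ ^ i)⁻¹) * ρ⁻¹ = ρ ^ (i + 1) * t * (ρ ^ (i + 1))⁻¹ := by
          rw [pow_succ', mul_inv_rev]
          simp only [mul_assoc]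
        rwa [h2] at h1
    rw [hg]
    have h4 : s * ρ ^ i * t * (s * ρ ^ i)⁻¹ = s * (ρ ^ i * t * (ρ ^ i)⁻¹) * s⁻¹ := by group
    rw [h4]
    exact mul_mem (mul_mem hs (hi i _ ht)) (inv_mem hs)
  have hρS : ρ ∈ T ⊔ zpowers ρ := (le_sup_right : zpowers ρ ≤ _) (mem_zpowers ρ)
  have h1 : orderOf (QuotientGroup.mk' (T.subgroupOf (T ⊔ zpowers ρ)) ⟨ρ, hρS⟩) = 3 := by
    haveI : Fact (Nat.Prime 3) := ⟨Nat.prime_three⟩
    apply orderOf_eq_prime
    · rw [← map_pow]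
      have : (⟨ρ, hρS⟩ : (T ⊔ zpowers ρ : Subgroup G)) ^ 3 = 1 := Subtype.ext h3
      rw [this, map_one]
    · intro h1
      have h2 : (⟨ρ, hρS⟩ : (T ⊔ zpowers ρ : Subgroup G)) ∈ T.subgroupOf (T ⊔ zpowers ρ) :=
        (QuotientGroup.eq_one_iff _).mp h1
      exact hn h2
  rw [← h1, relIndex, index_eq_card]
  exact orderOf_dvd_natCard _

end Sup

section CaseC

variable {K : Type} [Field K] [Finite K] {θ : K ≃+* K} (hθ : Iv θ)

include hθ in
/-- the index of the subgroup -/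
theorem index_three {C : Subgroup Kˣ} (hC : ∀ u ∈ C, (u : K) * θ u = 1) {m : ℕ}
    (hm : Nat.card C * m = Nat.card (FF θ) + 1) (h3m : ¬ 3 ∣ m) (h3 : 3 ∣ Nat.card (FF θ) + 1) :
    ¬ 3 ∣ ((phi hC).range ⊔ zpowers (rho θ)).index := by
  intro hdvd
  have hρ : ∀ t ∈ (phi hC).range, rho θ * t * (rho θ)⁻¹ ∈ (phi hC).range := by
    rintro _ ⟨u, rfl⟩
    rw [rho_conj]
    exact ⟨_, rfl⟩
  obtain ⟨r₁, hr₁⟩ := three_dvd_relIndex hρ rho_cube (rho_notMem hC)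
  obtain ⟨r₂, hr₂⟩ := hdvd
  have hcard : Nat.card (phi hC).range = Nat.card C * Nat.card C := by
    rw [← Nat.card_congr (MonoidHom.ofInjective (phi_inj hC)).toEquiv, Nat.card_prod]
  have h1 : Nat.card (SUG (sf θ)) = Nat.card C * Nat.card C * (3 * r₁) * (3 * r₂) := by
    rw [← card_mul_index ((phi hC).range ⊔ zpowers (rho θ)), hr₂, ← hr₁, ← hcard]
    congr 1
    have h2 := relIndex_mul_relIndex (⊥ : Subgroup (SUG (sf θ))) (phi hC).range
      ((phi hC).range ⊔ zpowers (rho θ)) bot_le le_sup_left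
    rw [relIndex_bot_left, relIndex_bot_left] at h2
    exact h2.symm
  rw [card_SUG_three hθ (sf_hm hθ) (by rw [Module.finrank_fin_fun])] at h1
  obtain ⟨c, hc⟩ : ∃ c, c = Nat.card C := ⟨_, rfl⟩
  obtain ⟨q, hq⟩ : ∃ q, q = Nat.card (FF θ) := ⟨_, rfl⟩
  have hc0 : 0 < c := by rw [hc]; exact Nat.card_pos
  rw [← hc] at hm h1
  rw [← hq] at hm h3 h1
  obtain ⟨k, hk⟩ : ∃ k, q = 3 * k + 2 := ⟨q / 3, by omega⟩
  have h4 : q ^ 2 - q + 1 = 3 * (3 * k ^ 2 + 3 * k + 1) := by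
    have h5 : q ^ 2 = q + (9 * k ^ 2 + 9 * k + 2) := by rw [hk]; ring
    rw [h5, Nat.add_sub_cancel_left]
    ring
  have h6 : q - 1 = 3 * k + 1 := by omega
  rw [h4, h6, ← hm] at h1
  have h7 : (c * c * 3) * (3 * (r₁ * r₂)) =
      (c * c * 3) * (m * (m * (q * (q * (q * ((3 * k + 1) * (3 * k ^ 2 + 3 * k + 1))))))) := by
    calc (c * c * 3) * (3 * (r₁ * r₂)) = c * c * (3 * r₁) * (3 * r₂) := by ring
      _ = _ := by rw [← h1]; ring
  have h8 := Nat.eq_of_mul_eq_mul_left (by positivity) h7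
  have h9 : 3 ∣ m * (m * (q * (q * (q * ((3 * k + 1) * (3 * k ^ 2 + 3 * k + 1)))))) :=
    ⟨_, h8.symm⟩
  have hq3 : ¬ 3 ∣ q := by omega
  have hk3 : ¬ 3 ∣ 3 * k + 1 := by omega
  have hk3' : ¬ 3 ∣ 3 * k ^ 2 + 3 * k + 1 := by omega
  simp only [Nat.prime_three.dvd_mul] at h9
  tauto

end CaseC

section Gen

variable {K : Type} [Field K] {θ : K ≃+* K} {C : Subgroup Kˣ}
  (hC : ∀ u ∈ C, (u : K) * θ u = 1) {ω : C}

theorem cl_phi (hω : ∀ x, x ∈ zpowers ω) :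
    closure {phi hC (ω, ω⁻¹), phi hC (1, ω)} = (phi hC).range := by
  apply le_antisymm
  · rw [closure_le]
    rintro _ (rfl | rfl)
    · exact ⟨_, rfl⟩
    · exact ⟨_, rfl⟩
  · rintro _ ⟨⟨a, b⟩, rfl⟩
    obtain ⟨i, rfl⟩ := mem_zpowers_iff.mp (hω a)
    obtain ⟨j, rfl⟩ := mem_zpowers_iff.mp (hω b)
    have h4 : ((ω ^ i, ω ^ j) : C × C) = (ω, ω⁻¹) ^ i * (1, ω) ^ (i + j) := by
      refine Prod.ext ?_ ?_
      · change ω ^ i = ω ^ i * 1 ^ (i + j)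
        rw [one_zpow, mul_one]
      · change ω ^ j = (ω⁻¹) ^ i * ω ^ (i + j)
        rw [inv_zpow, zpow_add, inv_mul_cancel_left]
    rw [h4, map_mul, map_zpow, map_zpow]
    have h5 : phi hC (ω, ω⁻¹) ∈ closure {phi hC (ω, ω⁻¹), phi hC (1, ω)} :=
      Subgroup.subset_closure (Set.mem_insert _ _)
    have h6 : phi hC (1, ω) ∈ closure {phi hC (ω, ω⁻¹), phi hC (1, ω)} :=
      Subgroup.subset_closure (Set.mem_insert_of_mem _ (Set.mem_singleton _))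
    exact mul_mem (zpow_mem h5 i) (zpow_mem h6 (i + j))

theorem tau_x : tau θ * phi hC (ω, ω⁻¹) * (tau θ)⁻¹ = (phi hC (1, ω))⁻¹ := by
  rw [mul_inv_eq_iff_eq_mul, tau_phi, ← map_inv]
  have h1 : (((ω * ω⁻¹)⁻¹, ω⁻¹) : C × C) = (1, ω)⁻¹ := by
    refine Prod.ext ?_ rfl
    change (ω * ω⁻¹)⁻¹ = 1⁻¹
    rw [mul_inv_cancel]
  rw [h1]

theorem tau_y : tau θ * phi hC (1, ω) * (tau θ)⁻¹ = (phi hC (ω, ω⁻¹))⁻¹ := by
  rw [mul_inv_eq_iff_eq_mul, tau_phi, ← map_inv]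
  have h1 : (((1 * ω)⁻¹, ω) : C × C) = (ω, ω⁻¹)⁻¹ := by
    refine Prod.ext ?_ ?_
    · change (1 * ω)⁻¹ = ω⁻¹
      rw [one_mul]
    · exact (inv_inv ω).symm
  rw [h1]

theorem pel_x {l : ℕ} (hl : IsPGroup l C) : Pel l (phi hC (ω, ω⁻¹)) := by
  obtain ⟨n, hn⟩ := hl ω
  refine ⟨n, ?_⟩
  have h4 : ((ω, ω⁻¹) : C × C) ^ l ^ n = 1 := by
    refine Prod.ext hn ?_
    change (ω⁻¹) ^ l ^ n = 1
    rw [inv_pow, hn, inv_one]
  rw [← map_pow, h4, map_one]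

theorem rho_range : ∀ t ∈ (phi hC).range, rho θ * t * (rho θ)⁻¹ ∈ (phi hC).range := by
  rintro _ ⟨u, rfl⟩
  rw [rho_conj]
  exact ⟨_, rfl⟩

theorem fix_range : ∀ t ∈ (phi hC).range, rho θ * t = t * rho θ → t ∈ center (SUG (sf θ)) := by
  rintro _ ⟨⟨a, b⟩, rfl⟩ hab
  have h4 := rho_conj hC (a, b)
  rw [hab, mul_inv_cancel_right] at h4
  have h5 := phi_inj hC h4
  have h6 : a = (a * b)⁻¹ := congrArg Prod.fst h5
  have h7 : b = a := congrArg Prod.snd h5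
  subst h7
  exact phi_center hC b h6.symm

end Gen

section CaseC'

variable {K : Type} [Field K] [Finite K] {θ : K ≃+* K} (hθ : Iv θ)
  {E : Type} [Group E] [Finite E]

include hθ in
theorem caseC_grp {f₁ : E →* SUG (sf θ)} (hf : Function.Surjective f₁)
    (hk : f₁.ker ≤ center E) (hE : commutator E = ⊤) (h3 : 3 ∣ Nat.card (FF θ) + 1) {a : E}
    (ha : f₁ a = 1) (hal : Pel 3 a) : a = 1 := by
  haveI : Fact (Nat.Prime 3) := ⟨Nat.prime_three⟩
  obtain ⟨P⟩ : Nonempty (Sylow 3 (nmU hθ).ker) := inferInstance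
  obtain ⟨C, hCd⟩ : ∃ C : Subgroup Kˣ, C = (P : Subgroup (nmU hθ).ker).map (nmU hθ).ker.subtype :=
    ⟨_, rfl⟩
  have hC : ∀ u ∈ C, (u : K) * θ u = 1 := by
    rw [hCd]
    rintro _ ⟨u, -, rfl⟩
    exact (mem_ker_nmU hθ).mp u.2
  have hcardC : Nat.card C = Nat.card P := by
    rw [hCd]
    exact (Nat.card_congr ((P : Subgroup (nmU hθ).ker).equivMapOfInjective _
      (nmU hθ).ker.subtype_injective).toEquiv).symm
  have hm : Nat.card C * (P : Subgroup (nmU hθ).ker).index = Nat.card (FF θ) + 1 := by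
    rw [hcardC, ← card_nm_one hθ]
    exact card_mul_index _
  have hind := index_three hθ hC hm P.not_dvd_index h3
  have hpC : IsPGroup 3 C := by
    rw [hCd]
    exact P.2.map _
  obtain ⟨ω, hω⟩ := IsCyclic.exists_generator (α := C)
  have hcl := cl_phi hC hω
  have hxy : phi hC (ω, ω⁻¹) * phi hC (1, ω) = phi hC (1, ω) * phi hC (ω, ω⁻¹) := by
    rw [← map_mul, ← map_mul, mul_comm]
  have H1 := rho_range hC
  have H2 := fix_range hC
  have H3 : ∀ g ∈ (phi hC).range ⊔ zpowers (rho θ), ∃ t ∈ (phi hC).range, ∃ i : ℕ,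
      g = t * rho θ ^ i := fun g hg => exists_mul_pow H1 rho_cube hg
  rw [← hcl] at H1 H2 H3 hind
  exact caseC_abs hf hk hE (by norm_num) hxy (tau_x hC) (tau_y hC) (pel_x hC hpC) H1 H2 H3 hind
    ha hal

include hθ in
/-- **The third case.** -/
theorem caseC {f : E →* ((Fin 3 → K) ≃ₗ[K] (Fin 3 → K))}
    (hf : ∀ g ∈ SUG (sf θ), ∃ y, f y = g)
    (hfU : ∀ e, f e ∈ SUG (sf θ)) (hk : f.ker ≤ center E) (hE : commutator E = ⊤)
    (h3 : 3 ∣ Nat.card (FF θ) + 1) {a : E} (ha : f a = 1) (hal : Pel 3 a) : a = 1 := by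
  refine caseC_grp hθ (f₁ := f.codRestrict _ hfU) (fun g => ?_) (fun x hx => hk ?_) hE h3
    (Subtype.ext ha) hal
  · obtain ⟨y, hy⟩ := hf g g.2
    exact ⟨y, Subtype.ext hy⟩
  · exact congrArg Subtype.val (MonoidHom.mem_ker.mp hx)

end CaseC'

end Vale.Agent.P180.R2.H471.Cu
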