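import Vale.Agent.P180.R2.H471.Cu6
import Vale.Agent.P180.R2.H799.BX1

/-!
P180: central extensions of special unitary groups of dimension at most three by groups of order
prime to the characteristic.
-/

set_option linter.all false

namespace Vale.Agent.P180.R2.H471.Cu

open Subgroup Module
open Vale.Agent.P180.R2.H589
open Vale.Agent.P180.R2.H589.Sch
open Vale.Agent.P180.R2.H589.Un

section

variable {K : Type} [Field K] [Finite K] {θ : K ≃+* K} (hθ : Iv θ)
  {p : ℕ} [Fact p.Prime] [CharP K p]

include hθ in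
theorem p_dvd_F : p ∣ Nat.card (FF θ) := by
  haveI : CharP (FF θ) p := RingHom.charP (FF θ).subtype (FF θ).subtype_injective p
  haveI := Fintype.ofFinite (FF θ)
  obtain ⟨m, hm, hm'⟩ := FiniteField.card (FF θ) p
  rw [Nat.card_eq_fintype_card, hm']
  exact dvd_pow_self p m.ne_zero

include hθ in
/-- a prime divisor of the order of the fixed field is the characteristic -/
theorem eq_p_of_dvd {l : ℕ} (hl : l.Prime) (h : l ∣ Nat.card (FF θ)) : l = p := by
  haveI : CharP (FF θ) p := RingHom.charP (FF θ).subtype (FF θ).subtype_injective p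
  haveI := Fintype.ofFinite (FF θ)
  obtain ⟨m, hm, hm'⟩ := FiniteField.card (FF θ) p
  rw [Nat.card_eq_fintype_card, hm'] at h
  exact (Nat.prime_dvd_prime_iff_eq hl Fact.out).mp (hl.dvd_of_dvd_pow h)

include hθ in
/-- the standard space of dimension three -/
theorem copU_std (hF : 4 < Nat.card (FF θ)) : CopU p (sf θ) := by
  intro E _ _ f hf hfU hk hp hgen
  have hB := sf_hm hθ
  have hd : finrank K (Fin 3 → K) = 3 := by rw [Module.finrank_fin_fun]
  have hE := perfect_E hθ hB hf hfU hk hp hgen (by omega)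
  by_contra hne
  have hc : Nat.card f.ker ≠ 1 := by
    intro h
    exact hne (Subgroup.card_eq_one.mp h)
  obtain ⟨l, hl, hdvd⟩ := Nat.exists_prime_and_dvd hc
  haveI : Fact l.Prime := ⟨hl⟩
  have hlp : l ≠ p := by
    rintro rfl
    exact hp hdvd
  obtain ⟨x, hx⟩ := exists_prime_orderOf_dvd_card' l hdvd
  have hx1 : f (x : E) = 1 := x.2
  have hxl : Pel l (x : E) := by
    refine ⟨1, ?_⟩
    have h2 : x ^ l = 1 := by rw [← hx]; exact pow_orderOf_eq_one x
    rw [pow_one]
    exact congrArg Subtype.val h2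
  have hlq : ¬ l ∣ Nat.card (FF θ) := fun h => hlp (eq_p_of_dvd hθ hl h)
  have h1 : (x : E) = 1 := by
    by_cases h3 : l ∣ Nat.card (FF θ) ^ 2 - Nat.card (FF θ) + 1
    · obtain ⟨q, hq⟩ : ∃ q, q = Nat.card (FF θ) := ⟨_, rfl⟩
      have hq' : q ^ 2 - q + 1 = q * (q - 1) + 1 := by
        rw [pow_two, Nat.mul_sub, mul_one]
      rw [← hq] at h3
      by_cases hl3 : l = 3
      · subst hl3
        refine caseC hθ hf hfU hk hE ?_ hx1 hxl
        rw [← hq]
        rw [hq'] at h3
        -- modulo three
        obtain ⟨k, hk3⟩ : ∃ k, q = 3 * k ∨ q = 3 * k + 1 ∨ q = 3 * k + 2 :=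
          ⟨q / 3, by omega⟩
        rcases hk3 with h | h | h
        · exfalso
          rw [h, mul_assoc] at h3
          omega
        · exfalso
          rw [h, Nat.add_sub_cancel] at h3
          have h4 : (3 * k + 1) * (3 * k) + 1 = 3 * ((3 * k + 1) * k) + 1 := by ring
          rw [h4] at h3
          omega
        · omega
      · refine caseB hθ hB hfU hk hE hd (l := l)
          (fun S hS hno => H799.BX.isCyclic_of_noeig hd hS hno) hlq ?_ ?_ hx1 hxl
        · intro h4
          rw [← hq] at h4
          -- `q² - q + 1 = (q + 1) (q - 2) + 3`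
          obtain ⟨r, hr⟩ : ∃ r, q = r + 2 := ⟨q - 2, by omega⟩
          have h5 : q ^ 2 - q + 1 = (q + 1) * r + 3 := by
            have : q ^ 2 = q + (r + 2) * (r + 1) := by rw [hr]; ring
            rw [this, Nat.add_sub_cancel_left, hr]
            ring
          rw [h5] at h3
          have h6 : l ∣ 3 := (Nat.dvd_add_right (h4.mul_right r)).mp h3
          exact hl3 ((Nat.prime_dvd_prime_iff_eq hl Nat.prime_three).mp h6)
        · intro h4
          rw [← hq] at h4
          rw [hq'] at h3
          have h6 : l ∣ 1 := (Nat.dvd_add_right (h4.mul_left q)).mp h3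
          exact hl.one_lt.ne' (Nat.dvd_one.mp h6)
    · exact caseA hθ hB hf hfU hk hp hgen hd hF hlq h3 hx1 hxl
  have h2 : x = 1 := Subtype.ext h1
  rw [h2, orderOf_one] at hx
  exact hl.one_lt.ne hx

include hθ in
/-- **Dimension at most three.** -/
theorem copU_small (hF : 4 < Nat.card (FF θ)) {V : Type} [AddCommGroup V] [Module K V]
    [Module.Finite K V] {h : V → V → K} (hB : Hm θ h) (hd : finrank K V ≤ 3) : CopU p h := by
  by_cases h2 : finrank K V ≤ 2
  · exact copU_two hθ hB h2 hF
  · obtain ⟨e, he⟩ := exists_isom hθ 3 (Fin 3 → K) V (sf θ) h (sf_hm hθ) hB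
      (by rw [Module.finrank_fin_fun]) (by omega)
    exact (copU_std hθ hF).congr he

end

end Vale.Agent.P180.R2.H471.Cu
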