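import Mathlib

/-! Direct summands, indecomposable modules, and Fitting's lemma. -/

namespace Vale.Agent.P180.R2.H471.Cyc

universe u

section
variable {A : Type u} [Ring A]

/-- `X` is (isomorphic to) a direct summand of `Y`. -/
def Summand (A : Type u) [Ring A] (X Y : Type u) [AddCommGroup X] [Module A X]
    [AddCommGroup Y] [Module A Y] : Prop :=
  ∃ (f : X →ₗ[A] Y) (g : Y →ₗ[A] X), g ∘ₗ f = LinearMap.id

/-- indecomposable module -/
def Indec (A : Type u) [Ring A] (X : Type u) [AddCommGroup X] [Module A X] : Prop :=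
  Nontrivial X ∧ ∀ U V : Submodule A X, IsCompl U V → U = ⊥ ∨ V = ⊥

variable {X Y Z W : Type u} [AddCommGroup X] [Module A X] [AddCommGroup Y] [Module A Y]
  [AddCommGroup Z] [Module A Z] [AddCommGroup W] [Module A W]

theorem Summand.trans (h : Summand A X Y) (h' : Summand A Y Z) : Summand A X Z := by
  obtain ⟨f, g, hgf⟩ := h
  obtain ⟨f', g', hgf'⟩ := h'
  refine ⟨f' ∘ₗ f, g ∘ₗ g', ?_⟩
  ext x
  have h1 := LinearMap.congr_fun hgf' (f x)
  have h2 := LinearMap.congr_fun hgf x
  simp only [LinearMap.comp_apply, LinearMap.id_apply] at h1 h2 ⊢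
  rw [h1, h2]

theorem Summand.of_equiv (e : X ≃ₗ[A] Y) : Summand A X Y :=
  ⟨e.toLinearMap, e.symm.toLinearMap, by ext x; simp⟩

/-- Fitting: an endomorphism of an indecomposable module of finite length is bijective or
nilpotent -/
theorem Indec.fitting [IsArtinian A X] [IsNoetherian A X] (h : Indec A X) (f : Module.End A X) :
    IsUnit f ∨ IsNilpotent f := by
  have h1 := LinearMap.eventually_isCompl_ker_pow_range_pow f
  obtain ⟨n, hn⟩ := Filter.eventually_atTop.mp h1
  have h2 := hn (n + 1) (Nat.le_succ n)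
  rcases h.2 _ _ h2 with h3 | h3
  · left
    have hinj : Function.Injective (f ^ (n + 1)) := LinearMap.ker_eq_bot.mp h3
    have hf : Function.Injective f := by
      rw [pow_succ] at hinj
      exact Function.Injective.of_comp (f := (f ^ n : Module.End A X)) hinj
    have hb : Function.Bijective f := IsArtinian.bijective_of_injective_endomorphism f hf
    exact (Module.End.isUnit_iff f).mpr hb
  · right
    refine ⟨n + 1, ?_⟩
    rw [← LinearMap.range_eq_bot]
    exact h3

theorem Indec.isUnit_or [IsArtinian A X] [IsNoetherian A X] (h : Indec A X)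
    (f g : Module.End A X) (hfg : f + g = 1) : IsUnit f ∨ IsUnit g := by
  rcases h.fitting f with h1 | h1
  · exact Or.inl h1
  · right
    have : g = 1 - f := by rw [← hfg]; abel
    rw [this]
    exact h1.isUnit_one_sub

theorem Indec.isUnit_of_sum [IsArtinian A X] [IsNoetherian A X] (h : Indec A X)
    {J : Type*} (s : Finset J) (f : J → Module.End A X) (hf : IsUnit (∑ j ∈ s, f j)) :
    ∃ j ∈ s, IsUnit (f j) := by
  classical
  induction s using Finset.induction_on with
  | empty =>
    exfalso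
    rw [Finset.sum_empty] at hf
    have := h.1
    exact not_isUnit_zero hf
  | insert a s ha ih =>
    rw [Finset.sum_insert ha] at hf
    obtain ⟨v, hv⟩ := hf
    have h1 : (↑v⁻¹ : Module.End A X) * f a + ↑v⁻¹ * (∑ j ∈ s, f j) = 1 := by
      rw [← mul_add, ← hv, Units.inv_mul]
    rcases h.isUnit_or _ _ h1 with h2 | h2
    · refine ⟨a, Finset.mem_insert_self _ _, ?_⟩
      have h3 : f a = (v : Module.End A X) * (↑v⁻¹ * f a) := by
        rw [← mul_assoc, Units.mul_inv, one_mul]
      rw [h3]
      exact v.isUnit.mul h2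
    · have h3 : IsUnit (∑ j ∈ s, f j) := by
        have h4 : (∑ j ∈ s, f j) = (v : Module.End A X) * (↑v⁻¹ * ∑ j ∈ s, f j) := by
          rw [← mul_assoc, Units.mul_inv, one_mul]
        rw [h4]
        exact v.isUnit.mul h2
      obtain ⟨j, hj, hj'⟩ := ih h3
      exact ⟨j, Finset.mem_insert_of_mem hj, hj'⟩

/-- if the identity of an indecomposable module is a sum of endomorphisms factoring through
`Y j`, it is a direct summand in some `Y j`. -/
theorem Indec.summand_of_sum [IsArtinian A X] [IsNoetherian A X] (h : Indec A X)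
    {J : Type*} (s : Finset J) (Y : J → Type u) [∀ j, AddCommGroup (Y j)]
    [∀ j, Module A (Y j)] (f : ∀ j, X →ₗ[A] Y j) (g : ∀ j, Y j →ₗ[A] X)
    (hfg : ∑ j ∈ s, (g j ∘ₗ f j) = LinearMap.id) : ∃ j ∈ s, Summand A X (Y j) := by
  obtain ⟨j, hj, hu⟩ := h.isUnit_of_sum s (fun j => (g j ∘ₗ f j : Module.End A X))
    (by rw [hfg]; exact isUnit_one)
  obtain ⟨v, hv⟩ := hu
  refine ⟨j, hj, f j, (↑v⁻¹ : Module.End A X) ∘ₗ g j, ?_⟩
  have h1 : (↑v⁻¹ : Module.End A X) * (v : Module.End A X) = 1 := Units.inv_mul v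
  rw [hv] at h1
  ext x
  exact LinearMap.congr_fun h1 x

/-- Krull–Schmidt exchange: an indecomposable summand of `Y × Z` is a summand of `Y` or `Z`. -/
theorem Indec.summand_prod [IsArtinian A X] [IsNoetherian A X] (h : Indec A X)
    (hs : Summand A X (Y × Z)) : Summand A X Y ∨ Summand A X Z := by
  obtain ⟨f, g, hgf⟩ := hs
  have h1 : (((g ∘ₗ LinearMap.inl A Y Z) ∘ₗ (LinearMap.fst A Y Z ∘ₗ f) : X →ₗ[A] X) :
      Module.End A X) + ((g ∘ₗ LinearMap.inr A Y Z) ∘ₗ (LinearMap.snd A Y Z ∘ₗ f) : X →ₗ[A] X)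
      = 1 := by
    ext x
    have := LinearMap.congr_fun hgf x
    simp only [LinearMap.comp_apply, LinearMap.id_apply] at this
    simp only [LinearMap.add_apply, LinearMap.comp_apply, LinearMap.inl_apply,
      LinearMap.inr_apply, LinearMap.fst_apply, LinearMap.snd_apply, Module.End.one_apply]
    rw [← map_add]
    simpa using this
  rcases h.isUnit_or _ _ h1 with h2 | h2
  · left
    obtain ⟨v, hv⟩ := h2
    refine ⟨LinearMap.fst A Y Z ∘ₗ f, (↑v⁻¹ : Module.End A X) ∘ₗ (g ∘ₗ LinearMap.inl A Y Z), ?_⟩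
    have h3 : (↑v⁻¹ : Module.End A X) * (v : Module.End A X) = 1 := Units.inv_mul v
    rw [hv] at h3
    ext x
    exact LinearMap.congr_fun h3 x
  · right
    obtain ⟨v, hv⟩ := h2
    refine ⟨LinearMap.snd A Y Z ∘ₗ f, (↑v⁻¹ : Module.End A X) ∘ₗ (g ∘ₗ LinearMap.inr A Y Z), ?_⟩
    have h3 : (↑v⁻¹ : Module.End A X) * (v : Module.End A X) = 1 := Units.inv_mul v
    rw [hv] at h3
    ext x
    exact LinearMap.congr_fun h3 x

/-- a nonzero summand of an indecomposable module is isomorphic to it -/
theorem Summand.equiv_of_indec (hs : Summand A X Y) (hX : Nontrivial X) (hY : Indec A Y) :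
    Nonempty (X ≃ₗ[A] Y) := by
  obtain ⟨f, g, hgf⟩ := hs
  have hinj : Function.Injective f := by
    intro x y hxy
    have h1 := LinearMap.congr_fun hgf x
    have h2 := LinearMap.congr_fun hgf y
    simp only [LinearMap.comp_apply, LinearMap.id_apply] at h1 h2
    rw [← h1, ← h2, hxy]
  have hgf' : ∀ x, g (f x) = x := fun x => LinearMap.congr_fun hgf x
  have hc : IsCompl (LinearMap.range f) (LinearMap.ker g) := by
    constructor
    · rw [Submodule.disjoint_def]
      rintro _ ⟨x, rfl⟩ hx
      rw [LinearMap.mem_ker, hgf'] at hx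
      rw [hx, map_zero]
    · rw [codisjoint_iff, eq_top_iff]
      intro y _
      rw [Submodule.mem_sup]
      refine ⟨f (g y), ⟨g y, rfl⟩, y - f (g y), ?_, by abel⟩
      rw [LinearMap.mem_ker, map_sub, hgf', sub_self]
  rcases hY.2 _ _ hc with h1 | h1
  · exfalso
    rw [LinearMap.range_eq_bot] at h1
    obtain ⟨x, hx⟩ := exists_ne (0 : X)
    apply hx
    apply hinj
    rw [h1]
    simp
  · refine ⟨LinearEquiv.ofBijective f ⟨hinj, ?_⟩⟩
    rw [← LinearMap.range_eq_top]
    rw [h1] at hc
    have := hc.codisjoint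
    rw [codisjoint_iff, sup_bot_eq] at this
    exact this

/-- splitting off a summand -/
noncomputable def Summand.splitEquiv (f : X →ₗ[A] Y) (g : Y →ₗ[A] X)
    (hgf : g ∘ₗ f = LinearMap.id) : Y ≃ₗ[A] X × LinearMap.ker g where
  toFun y := (g y, ⟨y - f (g y), by
    have hgf' : ∀ x, g (f x) = x := fun x => LinearMap.congr_fun hgf x
    rw [LinearMap.mem_ker, map_sub, hgf', sub_self]⟩)
  map_add' y z := by
    ext
    · simp
    · simp only [map_add, Prod.snd_add, Submodule.coe_add]
      abel
  map_smul' c y := by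
    ext
    · simp
    · simp only [map_smul, RingHom.id_apply, Prod.smul_snd, Submodule.coe_smul, smul_sub]
  invFun z := f z.1 + z.2
  left_inv y := by simp
  right_inv z := by
    have hgf' : ∀ x, g (f x) = x := fun x => LinearMap.congr_fun hgf x
    have hz : g (z.2 : Y) = 0 := z.2.2
    ext
    · simp [hgf', hz]
    · simp [hgf', hz]

end

end Vale.Agent.P180.R2.H471.Cyc
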