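import Vale.Agent.P180.R2.H471.Cyc1

/-! The invariant `tau` of modules and its additivity. -/

namespace Vale.Agent.P180.R2.H471.Cyc

universe u

section
variable (k : Type u) [Field k] {A : Type u} [Ring A] [Algebra k A]
variable (ι N : A) (q : ℕ)

/-- `{x ∈ ι X | N x = 0}` -/
def KK (X : Type u) [AddCommGroup X] [Module A X] [Module k X] [IsScalarTower k A X] :
    Submodule k X where
  carrier := {x | ι • x = x ∧ N • x = 0}
  add_mem' := by
    rintro x y ⟨h1, h2⟩ ⟨h3, h4⟩
    exact ⟨by rw [smul_add, h1, h3], by rw [smul_add, h2, h4, add_zero]⟩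
  zero_mem' := ⟨smul_zero _, smul_zero _⟩
  smul_mem' := by
    rintro c x ⟨h1, h2⟩
    have := IsScalarTower.to_smulCommClass (R := k) (A := A) (M := X)
    refine ⟨?_, ?_⟩
    · rw [smul_comm, h1]
    · rw [smul_comm, h2, smul_zero]

/-- `N^(q-1) ι X` -/
def RR (X : Type u) [AddCommGroup X] [Module A X] [Module k X] [IsScalarTower k A X] :
    Submodule k X where
  carrier := {x | ∃ y : X, (N ^ (q - 1) * ι) • y = x}
  add_mem' := by
    rintro x y ⟨h1, h2⟩ ⟨h3, h4⟩
    exact ⟨h1 + h3, by rw [smul_add, h2, h4]⟩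
  zero_mem' := ⟨0, smul_zero _⟩
  smul_mem' := by
    rintro c x ⟨y, h1⟩
    have := IsScalarTower.to_smulCommClass (R := k) (A := A) (M := X)
    exact ⟨c • y, by rw [smul_comm, h1]⟩

/-- `ι X` -/
def EE (X : Type u) [AddCommGroup X] [Module A X] [Module k X] [IsScalarTower k A X] :
    Submodule k X where
  carrier := {x | ∃ y : X, ι • y = x}
  add_mem' := by
    rintro x y ⟨h1, h2⟩ ⟨h3, h4⟩
    exact ⟨h1 + h3, by rw [smul_add, h2, h4]⟩
  zero_mem' := ⟨0, smul_zero _⟩
  smul_mem' := by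
    rintro c x ⟨y, h1⟩
    have := IsScalarTower.to_smulCommClass (R := k) (A := A) (M := X)
    exact ⟨c • y, by rw [smul_comm, h1]⟩

/-- `tau X = dim KK X - dim RR X` -/
noncomputable def tau (X : Type u) [AddCommGroup X] [Module A X] [Module k X]
    [IsScalarTower k A X] : ℤ :=
  (Module.finrank k (KK k ι N X) : ℤ) - Module.finrank k (RR k ι N q X)

variable {k ι N q}
variable {X Y : Type u} [AddCommGroup X] [Module A X] [Module k X] [IsScalarTower k A X]
  [AddCommGroup Y] [Module A Y] [Module k Y] [IsScalarTower k A Y]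

theorem mem_KK {x : X} : x ∈ KK k ι N X ↔ ι • x = x ∧ N • x = 0 := Iff.rfl

theorem mem_RR {x : X} : x ∈ RR k ι N q X ↔ ∃ y : X, (N ^ (q - 1) * ι) • y = x := Iff.rfl

theorem mem_EE {x : X} : x ∈ EE k ι X ↔ ∃ y : X, ι • y = x := Iff.rfl

theorem mem_EE' (hι : ι * ι = ι) {x : X} : x ∈ EE k ι X ↔ ι • x = x := by
  rw [mem_EE]
  constructor
  · rintro ⟨y, rfl⟩
    rw [smul_smul, hι]
  · intro h
    exact ⟨x, h⟩

theorem RR_le_KK (hι : ι * ι = ι) (hN : N * ι = ι * N) (hq : 1 ≤ q) (hNq : N ^ q = 0) :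
    RR k ι N q X ≤ KK k ι N X := by
  rintro x ⟨y, rfl⟩
  have hc : Commute ι (N ^ (q - 1)) := (Commute.pow_right (show Commute ι N from hN.symm) _)
  refine ⟨?_, ?_⟩
  · rw [smul_smul, ← mul_assoc, hc.eq, mul_assoc, hι]
  · rw [smul_smul, ← mul_assoc, ← pow_succ', Nat.sub_add_cancel hq, hNq, zero_mul, zero_smul]

theorem tau_nonneg (hι : ι * ι = ι) (hN : N * ι = ι * N) (hq : 1 ≤ q) (hNq : N ^ q = 0)
    [Module.Finite k X] : 0 ≤ tau k ι N q X := by
  unfold tau
  have := Submodule.finrank_mono (RR_le_KK (k := k) (X := X) hι hN hq hNq)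
  omega

section equiv

/-- restriction of an equivalence to submodules -/
theorem finrank_eq_of_equiv (e : X ≃ₗ[A] Y) (P : Submodule k X) (Q : Submodule k Y)
    (h : ∀ x, x ∈ P ↔ e x ∈ Q) : Module.finrank k P = Module.finrank k Q := by
  have e' : X ≃ₗ[k] Y := e.restrictScalars k
  have h1 : Q = P.map (e.restrictScalars k : X ≃ₗ[k] Y).toLinearMap := by
    ext y
    rw [Submodule.mem_map]
    constructor
    · intro hy
      refine ⟨e.symm y, ?_, by simp⟩
      rw [h]
      simpa using hy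
    · rintro ⟨x, hx, rfl⟩
      have := (h x).mp hx
      simpa using this
  rw [h1]
  exact (LinearEquiv.finrank_map_eq (e.restrictScalars k) P).symm

theorem mem_KK_equiv (e : X ≃ₗ[A] Y) (x : X) : x ∈ KK k ι N X ↔ e x ∈ KK k ι N Y := by
  rw [mem_KK, mem_KK, ← map_smul, ← map_smul]
  constructor
  · rintro ⟨h1, h2⟩
    exact ⟨by rw [h1], by rw [h2, map_zero]⟩
  · rintro ⟨h1, h2⟩
    exact ⟨e.injective h1, e.injective (by rw [h2, map_zero])⟩

theorem mem_RR_equiv (e : X ≃ₗ[A] Y) (x : X) : x ∈ RR k ι N q X ↔ e x ∈ RR k ι N q Y := by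
  rw [mem_RR, mem_RR]
  constructor
  · rintro ⟨y, rfl⟩
    exact ⟨e y, by rw [map_smul]⟩
  · rintro ⟨y, hy⟩
    refine ⟨e.symm y, ?_⟩
    apply e.injective
    rw [map_smul, ← hy]
    simp

theorem mem_EE_equiv (e : X ≃ₗ[A] Y) (x : X) : x ∈ EE k ι X ↔ e x ∈ EE k ι Y := by
  rw [mem_EE, mem_EE]
  constructor
  · rintro ⟨y, rfl⟩
    exact ⟨e y, by rw [map_smul]⟩
  · rintro ⟨y, hy⟩
    refine ⟨e.symm y, ?_⟩
    apply e.injective
    rw [map_smul, ← hy]
    simp

theorem tau_equiv (e : X ≃ₗ[A] Y) : tau k ι N q X = tau k ι N q Y := by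
  unfold tau
  rw [finrank_eq_of_equiv (k := k) e _ _ (mem_KK_equiv e),
    finrank_eq_of_equiv (k := k) e _ _ (mem_RR_equiv e)]

theorem finrank_EE_equiv (e : X ≃ₗ[A] Y) :
    Module.finrank k (EE k ι X) = Module.finrank k (EE k ι Y) :=
  finrank_eq_of_equiv (k := k) e _ _ (mem_EE_equiv e)

end equiv

section prod

theorem finrank_prod_sub [Module.Finite k X] [Module.Finite k Y]
    (P : Submodule k X) (Q : Submodule k Y) (R : Submodule k (X × Y))
    (h : ∀ z : X × Y, z ∈ R ↔ z.1 ∈ P ∧ z.2 ∈ Q) :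
    Module.finrank k R = Module.finrank k P + Module.finrank k Q := by
  have e : R ≃ₗ[k] P × Q :=
    { toFun := fun z => (⟨z.1.1, ((h z.1).mp z.2).1⟩, ⟨z.1.2, ((h z.1).mp z.2).2⟩)
      map_add' := fun z w => rfl
      map_smul' := fun c z => rfl
      invFun := fun z => ⟨(z.1.1, z.2.1), (h _).mpr ⟨z.1.2, z.2.2⟩⟩
      left_inv := fun z => rfl
      right_inv := fun z => rfl }
  rw [e.finrank_eq, Module.finrank_prod]

theorem tau_prod [Module.Finite k X] [Module.Finite k Y] :
    tau k ι N q (X × Y) = tau k ι N q X + tau k ι N q Y := by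
  unfold tau
  rw [finrank_prod_sub (KK k ι N X) (KK k ι N Y) (KK k ι N (X × Y)),
    finrank_prod_sub (RR k ι N q X) (RR k ι N q Y) (RR k ι N q (X × Y))]
  · push_cast
    ring
  · rintro ⟨x, y⟩
    rw [mem_RR, mem_RR, mem_RR]
    constructor
    · rintro ⟨⟨a, b⟩, h⟩
      rw [Prod.smul_mk, Prod.mk.injEq] at h
      exact ⟨⟨a, h.1⟩, ⟨b, h.2⟩⟩
    · rintro ⟨⟨a, h1⟩, ⟨b, h2⟩⟩
      exact ⟨(a, b), by rw [Prod.smul_mk, h1, h2]⟩
  · rintro ⟨x, y⟩
    rw [mem_KK, mem_KK, mem_KK]
    simp only [Prod.smul_mk, Prod.mk.injEq, Prod.mk_eq_zero]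
    tauto

end prod

section list

/-- Krull–Schmidt: pairwise non-isomorphic indecomposable cyclic summands of `W` have total
`tau` at most `tau W`. -/
theorem sum_tau_le (hι : ι * ι = ι) (hN : N * ι = ι * N) (hq : 1 ≤ q) (hNq : N ^ q = 0)
    [Module.Finite k A] (S : Finset (Submodule A A))
    (hS : ∀ L ∈ S, Indec A (A ⧸ L))
    (hSS : ∀ L ∈ S, ∀ L' ∈ S, Nonempty ((A ⧸ L) ≃ₗ[A] (A ⧸ L')) → L = L')
    (W : Type u) [AddCommGroup W] [Module A W] [Module k W] [IsScalarTower k A W]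
    [Module.Finite k W] (hW : ∀ L ∈ S, Summand A (A ⧸ L) W) :
    ∑ L ∈ S, tau k ι N q (A ⧸ L) ≤ tau k ι N q W := by
  classical
  induction S using Finset.induction_on generalizing W with
  | empty =>
    rw [Finset.sum_empty]
    exact tau_nonneg hι hN hq hNq
  | insert L S hL ih =>
    rw [Finset.sum_insert hL]
    obtain ⟨f, g, hgf⟩ := hW L (Finset.mem_insert_self _ _)
    have : Module.Finite k (A ⧸ L) := inferInstance
    have : Module.Finite k (LinearMap.ker g) :=
      Module.Finite.of_injective ((LinearMap.ker g).subtype.restrictScalars k)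
        (fun x y h => Subtype.ext h)
    have e := Summand.splitEquiv f g hgf
    have h1 : tau k ι N q W = tau k ι N q (A ⧸ L) + tau k ι N q (LinearMap.ker g) := by
      rw [← tau_prod (k := k)]
      exact tau_equiv e
    rw [h1]
    have h2 : ∑ L ∈ S, tau k ι N q (A ⧸ L) ≤ tau k ι N q (LinearMap.ker g) := by
      apply ih (fun L' hL' => hS L' (Finset.mem_insert_of_mem hL'))
        (fun L' hL' L'' hL'' => hSS L' (Finset.mem_insert_of_mem hL') L''
          (Finset.mem_insert_of_mem hL''))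
      intro L' hL'
      have h3 : Summand A (A ⧸ L') ((A ⧸ L) × LinearMap.ker g) :=
        (hW L' (Finset.mem_insert_of_mem hL')).trans (Summand.of_equiv e)
      have h4 : IsArtinian A (A ⧸ L') := isArtinian_of_tower k inferInstance
      have h5 : IsNoetherian A (A ⧸ L') := isNoetherian_of_tower k inferInstance
      rcases (hS L' (Finset.mem_insert_of_mem hL')).summand_prod h3 with h6 | h6
      · exfalso
        have h7 := h6.equiv_of_indec (hS L' (Finset.mem_insert_of_mem hL')).1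
          (hS L (Finset.mem_insert_self _ _))
        have h8 := hSS L' (Finset.mem_insert_of_mem hL') L (Finset.mem_insert_self _ _) h7
        rw [h8] at hL'
        exact hL hL'
      · exact h6
    linarith

end list

end

end Vale.Agent.P180.R2.H471.Cyc
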