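import Vale.Agent.P180.R2.H471.Cyc2

/-! Relative projectivity: every indecomposable module of the block is a summand of some
`A ⧸ WI ι N t`. -/

namespace Vale.Agent.P180.R2.H471.Cyc

universe u

open Polynomial

/-- The Casimir (relative trace) data. -/
structure Cas (k : Type u) [Field k] {A : Type u} [Ring A] [Algebra k A] (e ι N : A)
    {J : Type} [Fintype J] (a b : J → A) : Prop where
  sum : ∑ l, a l * ι * b l = e
  bal : ∀ (M : Type u) [AddCommGroup M] [Module k M] (φ : A →ₗ[k] A →ₗ[k] M),
    (∀ x y, φ (x * N) y = φ x (N * y)) → ∀ x,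
      ∑ l, φ (x * a l * ι) (ι * b l) = ∑ l, φ (a l * ι) (ι * b l * x)

section
variable {k : Type u} [Field k] {A : Type u} [Ring A] [Algebra k A]
variable {e ι N : A} {J : Type} [Fintype J] {a b : J → A}
variable {X W : Type u} [AddCommGroup X] [Module A X] [Module k X] [IsScalarTower k A X]
  [AddCommGroup W] [Module A W] [Module k W] [IsScalarTower k A W]

/-- averaging a `k[N]`-linear map to an `A`-linear map -/
noncomputable def avg (hC : Cas k e ι N a b) (G : X →ₗ[k] W)
    (hG : ∀ x, G (N • x) = N • G x) : X →ₗ[A] W where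
  toFun x := ∑ l, (a l * ι) • G ((ι * b l) • x)
  map_add' x y := by
    rw [← Finset.sum_add_distrib]
    refine Finset.sum_congr rfl fun l _ => ?_
    rw [smul_add, map_add, smul_add]
  map_smul' c x := by
    have hX := IsScalarTower.to_smulCommClass (R := k) (A := A) (M := X)
    have hW := IsScalarTower.to_smulCommClass (R := k) (A := A) (M := W)
    have h := hC.bal W (LinearMap.mk₂ k (fun a' b' : A => a' • G (b' • x))
      (fun m n z => by rw [add_smul]) (fun c m n => by rw [smul_assoc])
      (fun m n z => by rw [add_smul, map_add, smul_add])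
      (fun c m n => by rw [smul_assoc, map_smul, smul_comm])) (by
        intro x' y'
        simp only [LinearMap.mk₂_apply]
        rw [mul_smul, mul_smul, hG]) c
    simp only [LinearMap.mk₂_apply] at h
    rw [RingHom.id_apply, Finset.smul_sum]
    have h1 : ∑ l, c • (a l * ι) • G ((ι * b l) • x)
        = ∑ l, (c * a l * ι) • G ((ι * b l) • x) := by
      refine Finset.sum_congr rfl fun l _ => ?_
      rw [smul_smul, mul_assoc]
    rw [h1, h]
    refine Finset.sum_congr rfl fun l _ => ?_
    rw [mul_smul (ι * b l) c x]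

theorem avg_apply (hC : Cas k e ι N a b) (G : X →ₗ[k] W)
    (hG : ∀ x, G (N • x) = N • G x) (x : X) :
    avg hC G hG x = ∑ l, (a l * ι) • G ((ι * b l) • x) := rfl

/-- the main summand argument -/
theorem summand_of_maps [Module.Finite k A] [Module.Finite k X] (hC : Cas k e ι N a b)
    (hι : ι * ι = ι) (hX : Indec A X) (he : ∀ x : X, e • x = x)
    {d : ℕ} (Y : Fin d → Type u) [∀ j, AddCommGroup (Y j)]
    [∀ j, Module A (Y j)] [∀ j, Module k (Y j)] [∀ j, IsScalarTower k A (Y j)]
    (G : ∀ j, X →ₗ[k] Y j) (hG : ∀ j x, G j (N • x) = N • G j x)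
    (α : ∀ j, Y j →ₗ[A] X) (hαG : ∀ x : X, ι • x = x → ∑ j, α j (G j x) = x) :
    ∃ j, Summand A X (Y j) := by
  have h4 : IsArtinian A X := isArtinian_of_tower k inferInstance
  have h5 : IsNoetherian A X := isNoetherian_of_tower k inferInstance
  obtain ⟨j, -, hj⟩ := hX.summand_of_sum Finset.univ Y (fun j => avg hC (G j) (hG j)) α (by
    ext x
    simp only [LinearMap.sum_apply, LinearMap.comp_apply, LinearMap.id_apply, avg_apply,
      map_sum, map_smul]
    rw [Finset.sum_comm]
    have h1 : ∀ l, ∑ j, (a l * ι) • α j (G j ((ι * b l) • x)) = (a l * ι * b l) • x := by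
      intro l
      rw [← Finset.smul_sum, hαG, smul_smul]
      · congr 1
        rw [mul_assoc, ← mul_assoc ι ι, hι, mul_assoc]
      · rw [smul_smul, ← mul_assoc, hι]
    rw [Finset.sum_congr rfl fun l _ => h1 l, ← Finset.sum_smul, hC.sum, he])
  exact ⟨j, hj⟩

/-- the left ideal with `A ⧸ WI ι N t ≅ A ι / A ι N^t`. -/
def WI (ι N : A) (t : ℕ) : Submodule A A := Submodule.span A {1 - ι, ι * N ^ t}

theorem commute_aeval (hN : N * ι = ι * N) (f : k[X]) : ι * aeval N f = aeval N f * ι := by
  have : Commute ι (aeval N f) := by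
    induction f using Polynomial.induction_on' with
    | add p q hp hq =>
      rw [map_add]
      exact hp.add_right hq
    | monomial n c =>
      rw [Polynomial.aeval_monomial]
      exact (show Commute ι (algebraMap k A c) from (Algebra.commutes c ι).symm).mul_right
        (Commute.pow_right (show Commute ι N from hN.symm) n)
  exact this

theorem gamma_aux (hN : N * ι = ι * N) (t : ℕ) (f g : k[X])
    (h : Ideal.Quotient.mk (Ideal.span {(Polynomial.X : k[X]) ^ t}) f =
      Ideal.Quotient.mk (Ideal.span {(Polynomial.X : k[X]) ^ t}) g) :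
    (Submodule.Quotient.mk (ι * aeval N f) : A ⧸ WI ι N t) =
      Submodule.Quotient.mk (ι * aeval N g) := by
  rw [Ideal.Quotient.eq, Ideal.mem_span_singleton'] at h
  obtain ⟨c, hc⟩ := h
  rw [Submodule.Quotient.eq, ← mul_sub, ← map_sub, ← hc, map_mul, map_pow, aeval_X,
    ← mul_assoc, commute_aeval hN, mul_assoc, ← smul_eq_mul]
  exact Submodule.smul_mem _ _ (Submodule.subset_span (by simp))

/-- `k[X]/(X^t) → A ι / A ι N^t` -/
noncomputable def gam (hN : N * ι = ι * N) (t : ℕ) :
    (k[X] ⧸ Ideal.span {(Polynomial.X : k[X]) ^ t}) →ₗ[k] (A ⧸ WI ι N t) where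
  toFun q := Submodule.Quotient.mk (ι * aeval N (Quotient.out q))
  map_add' p q := by
    rw [← Submodule.Quotient.mk_add, ← mul_add, ← map_add]
    apply gamma_aux hN
    rw [map_add]
    have h1 : ∀ r : (k[X] ⧸ Ideal.span {(Polynomial.X : k[X]) ^ t}),
      Ideal.Quotient.mk (Ideal.span {(Polynomial.X : k[X]) ^ t}) (Quotient.out r) = r :=
      fun r => Quotient.out_eq' r
    rw [h1, h1, h1]
  map_smul' c q := by
    rw [RingHom.id_apply, ← Submodule.Quotient.mk_smul, ← mul_smul_comm, ← map_smul]
    apply gamma_aux hN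
    have h1 : ∀ r : (k[X] ⧸ Ideal.span {(Polynomial.X : k[X]) ^ t}),
      Ideal.Quotient.mk (Ideal.span {(Polynomial.X : k[X]) ^ t}) (Quotient.out r) = r :=
      fun r => Quotient.out_eq' r
    have h2 : ∀ f : k[X], Ideal.Quotient.mk (Ideal.span {(Polynomial.X : k[X]) ^ t}) (c • f) =
      c • Ideal.Quotient.mk (Ideal.span {(Polynomial.X : k[X]) ^ t}) f := fun f =>
        map_smul (Ideal.Quotient.mkₐ k (Ideal.span {(Polynomial.X : k[X]) ^ t})) c f
    rw [h1, h2, h1]

theorem gam_mk (hN : N * ι = ι * N) (t : ℕ) (f : k[X]) :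
    gam (k := k) hN t (Ideal.Quotient.mk _ f) = Submodule.Quotient.mk (ι * aeval N f) := by
  apply gamma_aux hN
  exact Quotient.out_eq' _

end

end Vale.Agent.P180.R2.H471.Cyc
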