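import Mathlib

/-! Jordan form of a nilpotent endomorphism, in the form of coordinates. -/

namespace Vale.Agent.P180.R2.H471.Cyc

universe u

open Polynomial

theorem jordan {k : Type u} [Field k] {V : Type u} [AddCommGroup V] [Module k V]
    [Module.Finite k V] (N : Module.End k V) (hN : IsNilpotent N) :
    ∃ (d : ℕ) (t : Fin d → ℕ) (v : Fin d → V)
      (lam : ∀ j, V →ₗ[k] (k[X] ⧸ Ideal.span {(X : k[X]) ^ t j})),
      (∀ j, (N ^ t j) (v j) = 0) ∧
      (∀ j y, lam j (N y) = Ideal.Quotient.mk _ (X : k[X]) * lam j y) ∧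
      (∀ j, lam j (v j) = 1) ∧
      (∀ y, ∀ f : Fin d → k[X], (∀ j, Ideal.Quotient.mk _ (f j) = lam j y) →
        ∑ j, (aeval N (f j)) (v j) = y) := by
  classical
  obtain ⟨n, hn⟩ := hN
  -- the module over `k[X]`
  have h1 : Module.IsTorsion' (Module.AEval' N) (Submonoid.powers (X : k[X])) := by
    intro x
    refine ⟨⟨X ^ n, ⟨n, rfl⟩⟩, ?_⟩
    obtain ⟨y, rfl⟩ := (Module.AEval'.of N).surjective x
    change (X ^ n : k[X]) • (Module.AEval'.of N y) = 0
    rw [Module.AEval'.X_pow_smul_of]
    rw [hn]
    simp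
  obtain ⟨d, t, ⟨e⟩⟩ := Module.torsion_by_prime_power_decomposition
    (p := (X : k[X])) Polynomial.irreducible_X h1
  let o : V ≃ₗ[k] Module.AEval' N := Module.AEval'.of N
  have ho : ∀ (f : k[X]) (m : V), o (aeval N f m) = f • o m := fun f m =>
    Module.AEval.of_aeval_smul (R := k) (a := N) f m
  let one : ∀ j, k[X] ⧸ (k[X] ∙ X ^ (t j)) := fun j => Submodule.Quotient.mk 1
  let w : Fin d → Module.AEval' N := fun j =>
    e.symm (DirectSum.lof k[X] (Fin d) (fun i => k[X] ⧸ (k[X] ∙ X ^ (t i))) j (one j))
  have hw : ∀ j, e (w j) =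
      DirectSum.lof k[X] (Fin d) (fun i => k[X] ⧸ (k[X] ∙ X ^ (t i))) j (one j) := fun j =>
    e.apply_symm_apply _
  refine ⟨d, t, fun j => o.symm (w j), fun j =>
    ((DirectSum.component k[X] (Fin d) (fun i => k[X] ⧸ (k[X] ∙ X ^ (t i))) j ∘ₗ
      e.toLinearMap).restrictScalars k) ∘ₗ o.toLinearMap, ?_, ?_, ?_, ?_⟩
  · intro j
    apply o.injective
    have h2 := ho (X ^ t j) (o.symm (w j))
    rw [map_pow, aeval_X] at h2
    rw [h2, o.apply_symm_apply, map_zero]
    apply e.injective
    rw [map_smul, hw, map_zero, ← map_smul]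
    have h3 : (X ^ t j : k[X]) • one j = 0 := by
      change Submodule.Quotient.mk ((X ^ t j : k[X]) • (1 : k[X])) = 0
      rw [Submodule.Quotient.mk_eq_zero, smul_eq_mul, mul_one]
      exact Submodule.mem_span_singleton_self _
    rw [h3, map_zero]
  · intro j y
    change (DirectSum.component k[X] (Fin d) (fun i => k[X] ⧸ (k[X] ∙ X ^ (t i))) j) (e (o (N y)))
      = _ * (DirectSum.component k[X] (Fin d) (fun i => k[X] ⧸ (k[X] ∙ X ^ (t i))) j) (e (o y))
    have h2 := ho X y
    rw [aeval_X] at h2
    rw [h2, map_smul, map_smul]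
    generalize (DirectSum.component k[X] (Fin d) (fun i => k[X] ⧸ (k[X] ∙ X ^ (t i))) j) (e (o y))
      = z
    obtain ⟨f, rfl⟩ := Submodule.Quotient.mk_surjective _ z
    rfl
  · intro j
    change (DirectSum.component k[X] (Fin d) (fun i => k[X] ⧸ (k[X] ∙ X ^ (t i))) j)
      (e (o (o.symm (w j)))) = 1
    rw [o.apply_symm_apply, hw, DirectSum.component.lof_self]
    rfl
  · intro y f hf
    apply o.injective
    rw [map_sum]
    apply e.injective
    rw [map_sum]
    have h2 : ∀ j, e (o ((aeval N (f j)) (o.symm (w j)))) =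
        DirectSum.lof k[X] (Fin d) (fun i => k[X] ⧸ (k[X] ∙ X ^ (t i))) j
          ((DirectSum.component k[X] (Fin d) (fun i => k[X] ⧸ (k[X] ∙ X ^ (t i))) j)
            (e (o y))) := by
      intro j
      rw [ho, o.apply_symm_apply, map_smul, hw, ← map_smul]
      congr 1
      have h3 : f j • one j = Ideal.Quotient.mk _ (f j) := by
        change Submodule.Quotient.mk (f j • (1 : k[X])) = _
        rw [smul_eq_mul, mul_one]
        rfl
      rw [h3]
      exact hf j
    rw [Finset.sum_congr rfl fun j _ => h2 j]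
    apply DirectSum.ext_component k[X]
    intro i
    rw [map_sum, Finset.sum_eq_single i]
    · rw [DirectSum.component.lof_self]
    · intro j _ hj
      rw [DirectSum.component.of, dif_neg hj]
    · intro h
      exact absurd (Finset.mem_univ i) h

/-- `N^q = 0` bounds the dimension by the dimension of the kernel -/
theorem finrank_le_mul_ker {k : Type u} [Field k] {V : Type u} [AddCommGroup V] [Module k V]
    [Module.Finite k V] (N : Module.End k V) (q : ℕ) (hN : N ^ q = 0) :
    Module.finrank k V ≤ q * Module.finrank k (LinearMap.ker N) := by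
  have h1 : ∀ n, Module.finrank k (LinearMap.ker (N ^ n)) ≤
      n * Module.finrank k (LinearMap.ker N) := by
    intro n
    induction n with
    | zero =>
      rw [pow_zero, Module.End.one_eq_id, LinearMap.ker_id]
      simp
    | succ n ih =>
      -- `N : ker (N^(n+1)) → ker (N^n)`
      have h2 : ∀ x : LinearMap.ker (N ^ (n + 1)), N x ∈ LinearMap.ker (N ^ n) := by
        rintro ⟨x, hx⟩
        rw [LinearMap.mem_ker] at hx ⊢
        rw [pow_succ] at hx
        exact hx
      let g : LinearMap.ker (N ^ (n + 1)) →ₗ[k] LinearMap.ker (N ^ n) :=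
        (N ∘ₗ (LinearMap.ker (N ^ (n + 1))).subtype).codRestrict _ h2
      have h3 := LinearMap.finrank_range_add_finrank_ker g
      have h4 : Module.finrank k (LinearMap.ker g) ≤ Module.finrank k (LinearMap.ker N) := by
        have h5 : ∀ x : LinearMap.ker g, ((x : LinearMap.ker (N ^ (n + 1))) : V) ∈
            LinearMap.ker N := by
          rintro ⟨x, hx⟩
          rw [LinearMap.mem_ker] at hx ⊢
          exact congrArg Subtype.val hx
        let g' : LinearMap.ker g →ₗ[k] LinearMap.ker N :=
          ((LinearMap.ker (N ^ (n + 1))).subtype ∘ₗ (LinearMap.ker g).subtype).codRestrict _ h5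
        apply LinearMap.finrank_le_finrank_of_injective (f := g')
        intro x y hxy
        have h7 := congrArg (fun z : LinearMap.ker N => (z : V)) hxy
        apply Subtype.ext
        apply Subtype.ext
        exact h7
      have h6 : Module.finrank k (LinearMap.range g) ≤ Module.finrank k (LinearMap.ker (N ^ n)) :=
        Submodule.finrank_le _
      rw [add_mul, one_mul]
      omega
  have h2 := h1 q
  rw [hN, LinearMap.ker_zero, finrank_top] at h2
  exact h2

end Vale.Agent.P180.R2.H471.Cyc
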