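import Vale.Agent.P180.R2.H471.Cyc3
import Vale.Agent.P180.R2.H471.CycJ

/-! Every indecomposable module of the block is a summand of some `A ⧸ WI ι N t`,
`1 ≤ t ≤ q`; with `t = q` when `tau = 0`. -/

namespace Vale.Agent.P180.R2.H471.Cyc

universe u

open Polynomial

section
variable {k : Type u} [Field k] {A : Type u} [Ring A] [Algebra k A]
variable {e ι N : A} {q : ℕ} {J : Type} [Fintype J] {a b : J → A}
variable {X : Type u} [AddCommGroup X] [Module A X] [Module k X] [IsScalarTower k A X]

variable (k) in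
/-- the action of `N` on `ι X` -/
def NV (hN : N * ι = ι * N) (X : Type u) [AddCommGroup X] [Module A X] [Module k X]
    [IsScalarTower k A X] : Module.End k (EE k ι X) where
  toFun v := ⟨N • (v : X), by
    obtain ⟨y, hy⟩ := v.2
    exact ⟨N • y, by rw [← hy, smul_smul, smul_smul, hN]⟩⟩
  map_add' v w := Subtype.ext (smul_add _ _ _)
  map_smul' c v := Subtype.ext (by
    have := IsScalarTower.to_smulCommClass (R := k) (A := A) (M := X)
    exact smul_comm _ _ _)

theorem NV_coe (hN : N * ι = ι * N) (v : EE k ι X) : ((NV k hN X v : EE k ι X) : X) = N • (v : X) :=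
  rfl

theorem NV_pow (hN : N * ι = ι * N) (n : ℕ) (v : EE k ι X) :
    ((((NV k hN X) ^ n) v : EE k ι X) : X) = N ^ n • (v : X) := by
  induction n with
  | zero => simp
  | succ n ih =>
    rw [pow_succ', Module.End.mul_apply, NV_coe, ih, smul_smul, pow_succ']

theorem NV_aeval (hN : N * ι = ι * N) (f : k[X]) (v : EE k ι X) :
    (((aeval (NV k hN X) f) v : EE k ι X) : X) = (aeval N f) • (v : X) := by
  induction f using Polynomial.induction_on' with
  | add p q hp hq =>
    rw [map_add, map_add, LinearMap.add_apply, Submodule.coe_add, hp, hq, add_smul]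
  | monomial n c =>
    rw [aeval_monomial, aeval_monomial, Module.End.mul_apply, Module.algebraMap_end_apply,
      Submodule.coe_smul, NV_pow, mul_smul, algebraMap_smul]

variable (k) in
/-- projection to `ι X` -/
def prV (ι : A) (X : Type u) [AddCommGroup X] [Module A X] [Module k X]
    [IsScalarTower k A X] : X →ₗ[k] EE k ι X where
  toFun x := ⟨ι • x, ⟨x, rfl⟩⟩
  map_add' v w := Subtype.ext (smul_add _ _ _)
  map_smul' c v := Subtype.ext (by
    have := IsScalarTower.to_smulCommClass (R := k) (A := A) (M := X)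
    exact smul_comm _ _ _)

theorem prV_N (hN : N * ι = ι * N) (x : X) : prV k ι X (N • x) = NV k hN X (prV k ι X x) := by
  apply Subtype.ext
  change ι • N • x = N • ι • x
  rw [smul_smul, smul_smul, hN]

theorem gam_X (hN : N * ι = ι * N) (t : ℕ) (z : k[X] ⧸ Ideal.span {(Polynomial.X : k[X]) ^ t}) :
    gam (k := k) hN t (Ideal.Quotient.mk _ (Polynomial.X : k[X]) * z) = N • gam (k := k) hN t z := by
  obtain ⟨f, rfl⟩ := Ideal.Quotient.mk_surjective z
  rw [← map_mul, gam_mk, gam_mk, map_mul, aeval_X, ← mul_assoc, ← hN, mul_assoc,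
    ← Submodule.Quotient.mk_smul, smul_eq_mul]

/-- the map `A ⧸ WI → X` given by a vector -/
def alp (t : ℕ) (v : X) (h1 : ι • v = v) (h2 : N ^ t • v = 0) : (A ⧸ WI ι N t) →ₗ[A] X :=
  Submodule.liftQ _ (LinearMap.toSpanSingleton A X v) (by
    rw [WI, Submodule.span_le]
    rintro x (rfl | rfl)
    · change (1 - ι) • v = 0
      rw [sub_smul, one_smul, h1, sub_self]
    · change (ι * N ^ t) • v = 0
      rw [mul_smul, h2, smul_zero])

theorem alp_mk (t : ℕ) (v : X) (h1 : ι • v = v) (h2 : N ^ t • v = 0) (x : A) :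
    alp t v h1 h2 (Submodule.Quotient.mk x) = x • v := rfl

theorem WI_zero : WI ι N 0 = ⊤ := by
  rw [eq_top_iff]
  intro x _
  have h1 : (1 : A) ∈ WI ι N 0 := by
    have h2 : (1 : A) = (1 - ι) + ι * N ^ 0 := by rw [pow_zero, mul_one]; abel
    rw [h2]
    exact Submodule.add_mem _ (Submodule.subset_span (by simp)) (Submodule.subset_span (by simp))
  have h2 := Submodule.smul_mem (WI ι N 0) x h1
  rwa [smul_eq_mul, mul_one] at h2

theorem WI_of_le (hNq : N ^ q = 0) {t : ℕ} (ht : q ≤ t) : WI ι N t = WI ι N q := by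
  have : N ^ t = 0 := by
    rw [← Nat.sub_add_cancel ht, pow_add, hNq, mul_zero]
  rw [WI, WI, this, hNq]

theorem exists_summand [Module.Finite k A] [Module.Finite k X] (hC : Cas k e ι N a b)
    (hι : ι * ι = ι) (hN : N * ι = ι * N) (hq : 1 ≤ q) (hNq : N ^ q = 0)
    (hX : Indec A X) (he : ∀ x : X, e • x = x) :
    ∃ t, 1 ≤ t ∧ t ≤ q ∧ Summand A X (A ⧸ WI ι N t) ∧ (tau k ι N q X ≤ 0 → t = q) := by
  classical
  have hnil : IsNilpotent (NV k hN X) := by
    refine ⟨q, ?_⟩
    ext v
    rw [NV_pow, hNq, zero_smul]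
    rfl
  obtain ⟨d, t, v, lam, hv, hlam, hlv, hdec⟩ := jordan (NV k hN X) hnil
  have hv1 : ∀ j, ι • ((v j : EE k ι X) : X) = v j := fun j => (mem_EE' hι).mp (v j).2
  have hv2 : ∀ j, N ^ t j • ((v j : EE k ι X) : X) = 0 := by
    intro j
    rw [← NV_pow (k := k) hN, hv]
    rfl
  have hlamN : ∀ j n y, lam j (((NV k hN X) ^ n) y) =
      (Ideal.Quotient.mk _ (Polynomial.X : k[X])) ^ n * lam j y := by
    intro j n y
    induction n with
    | zero => simp
    | succ n ih => rw [pow_succ', Module.End.mul_apply, hlam, ih, pow_succ', mul_assoc]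
  have main := summand_of_maps (k := k) (a := a) (b := b) (e := e) (N := N) hC hι hX he
    (Y := fun j => A ⧸ WI ι N (t j))
    (fun j => (gam (k := k) hN (t j) ∘ₗ lam j) ∘ₗ prV k ι X)
    (by
      intro j x
      change gam (k := k) hN (t j) (lam j (prV k ι X (N • x))) =
        N • gam (k := k) hN (t j) (lam j (prV k ι X x))
      rw [prV_N hN, hlam, gam_X])
    (fun j => alp (t j) (v j : X) (hv1 j) (hv2 j))
    (by
      intro x hx
      have h1 : ∀ j, ∃ f : k[X], Ideal.Quotient.mk _ f = lam j (prV k ι X x) := fun j =>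
        Ideal.Quotient.mk_surjective _
      choose f hf using h1
      have h2 := congrArg (Submodule.subtype (EE k ι X)) (hdec (prV k ι X x) f hf)
      rw [map_sum] at h2
      have h3 : Submodule.subtype (EE k ι X) (prV k ι X x) = x := hx
      rw [h3] at h2
      rw [← h2]
      refine Finset.sum_congr rfl fun j _ => ?_
      change alp (t j) (v j : X) (hv1 j) (hv2 j) (gam (k := k) hN (t j) (lam j (prV k ι X
        (∑ j, (EE k ι X).subtype ((aeval (NV k hN X) (f j)) (v j)))))) = _
      rw [h2, ← hf, gam_mk, alp_mk, Submodule.subtype_apply, NV_aeval, commute_aeval hN,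
        mul_smul, hv1])
  obtain ⟨j, hj⟩ := main
  have htj : t j ≠ 0 := by
    intro h0
    rw [h0, WI_zero] at hj
    obtain ⟨f, g, hgf⟩ := hj
    obtain ⟨x, hx⟩ := @exists_ne X hX.1 0
    apply hx
    have h1 := LinearMap.congr_fun hgf x
    have h2 : f x = 0 := Subsingleton.elim _ _
    rw [LinearMap.comp_apply, LinearMap.id_apply, h2, map_zero] at h1
    exact h1.symm
  by_cases htq : q ≤ t j
  · rw [WI_of_le hNq htq] at hj
    exact ⟨q, hq, le_refl _, hj, fun _ => rfl⟩
  · refine ⟨t j, by omega, by omega, hj, ?_⟩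
    intro h0
    exfalso
    -- `KK = RR`
    have hle := RR_le_KK (k := k) (X := X) hι hN hq hNq
    have hfr : Module.finrank k (KK k ι N X) ≤ Module.finrank k (RR k ι N q X) := by
      unfold tau at h0
      omega
    have heq := Submodule.eq_of_le_of_finrank_le hle hfr
    have hmem : N ^ (t j - 1) • ((v j : EE k ι X) : X) ∈ KK k ι N X := by
      refine ⟨?_, ?_⟩
      · have hc : Commute ι (N ^ (t j - 1)) :=
          Commute.pow_right (show Commute ι N from hN.symm) _
        rw [smul_smul, hc.eq, mul_smul, hv1]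
      · rw [smul_smul, ← pow_succ', Nat.sub_add_cancel (by omega), hv2]
    rw [← heq] at hmem
    obtain ⟨y, hy⟩ := hmem
    have h1 : ((NV k hN X) ^ (t j - 1)) (v j) = ((NV k hN X) ^ (q - 1)) (prV k ι X y) := by
      apply Subtype.ext
      rw [NV_pow, NV_pow, ← hy, mul_smul]
      rfl
    have h2 := congrArg (lam j) h1
    rw [hlamN, hlamN, hlv, mul_one, ← map_pow, ← map_pow] at h2
    have h3 : (Ideal.Quotient.mk (Ideal.span {(Polynomial.X : k[X]) ^ t j}))
        (Polynomial.X ^ (q - 1)) = 0 := by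
      rw [Ideal.Quotient.eq_zero_iff_mem, Ideal.mem_span_singleton]
      exact pow_dvd_pow _ (by omega)
    rw [h3, zero_mul, Ideal.Quotient.eq_zero_iff_mem, Ideal.mem_span_singleton,
      pow_dvd_pow_iff Polynomial.X_ne_zero Polynomial.not_isUnit_X] at h2
    omega

end

end Vale.Agent.P180.R2.H471.Cyc
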