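import Vale.Agent.P180.R2.H471.Cyc4

/-! Simple modules and local modules; the length bound. -/

namespace Vale.Agent.P180.R2.H471.Cyc

universe u

/-- the hypotheses of the abstract corner bound -/
structure Hyp (k : Type u) [Field k] {A : Type u} [Ring A] [Algebra k A] (e ι N : A)
    (q T : ℕ) {J : Type} [Fintype J] (a b : J → A) : Prop where
  ec : ∀ x, e * x = x * e
  ιι : ι * ι = ι
  eι : e * ι = ι
  hN : N * ι = ι * N
  hq : 1 ≤ q
  hNq : N ^ q = 0
  cas : Cas k e ι N a b
  h1 : ∀ L : Submodule A A, IsCoatom L → ∀ x, N ^ (q - 1) * ι * x ∈ L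
  h2 : ∀ t, 1 ≤ t → t ≤ q → tau k ι N q (A ⧸ WI ι N t) ≤ T

section
variable {k : Type u} [Field k] {A : Type u} [Ring A] [Algebra k A] [Module.Finite k A]
variable {e ι N : A} {q T : ℕ} {J : Type} [Fintype J] {a b : J → A}

theorem sum_tau_le_mul (H : Hyp k e ι N q T a b) (S : Finset (Submodule A A))
    (hS : ∀ L ∈ S, Indec A (A ⧸ L)) (he : ∀ L ∈ S, ∀ x : A ⧸ L, e • x = x)
    (hSS : ∀ L ∈ S, ∀ L' ∈ S, Nonempty ((A ⧸ L) ≃ₗ[A] (A ⧸ L')) → L = L') :
    ∑ L ∈ S, tau k ι N q (A ⧸ L) ≤ q * T := by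
  classical
  have h1 : ∀ L ∈ S, ∃ t, 1 ≤ t ∧ t ≤ q ∧ Summand A (A ⧸ L) (A ⧸ WI ι N t) := by
    intro L hL
    obtain ⟨t, ht1, ht2, ht3, -⟩ := exists_summand (k := k) (e := e) (a := a) (b := b)
      H.cas H.ιι H.hN H.hq H.hNq (hS L hL) (he L hL)
    exact ⟨t, ht1, ht2, ht3⟩
  let t : Submodule A A → ℕ := fun L => if h : L ∈ S then (h1 L h).choose else 1
  have ht : ∀ L ∈ S, t L ∈ Finset.Icc 1 q ∧ Summand A (A ⧸ L) (A ⧸ WI ι N (t L)) := by
    intro L hL
    have h2 : t L = (h1 L hL).choose := dif_pos hL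
    rw [h2]
    have h3 := (h1 L hL).choose_spec
    exact ⟨Finset.mem_Icc.mpr ⟨h3.1, h3.2.1⟩, h3.2.2⟩
  rw [← Finset.sum_fiberwise_of_maps_to (fun L hL => (ht L hL).1)]
  have h4 : ∀ s ∈ Finset.Icc 1 q, ∑ L ∈ S with t L = s, tau k ι N q (A ⧸ L) ≤ (T : ℤ) := by
    intro s hs
    rw [Finset.mem_Icc] at hs
    refine le_trans (sum_tau_le H.ιι H.hN H.hq H.hNq _ ?_ ?_ (A ⧸ WI ι N s) ?_)
      (H.h2 s hs.1 hs.2)
    · intro L hL
      exact hS L (Finset.mem_filter.mp hL).1
    · intro L hL L' hL'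
      exact hSS L (Finset.mem_filter.mp hL).1 L' (Finset.mem_filter.mp hL').1
    · intro L hL
      have h5 := Finset.mem_filter.mp hL
      have h6 := (ht L h5.1).2
      rw [h5.2] at h6
      exact h6
  refine le_trans (Finset.sum_le_sum h4) ?_
  rw [Finset.sum_const, Nat.card_Icc, nsmul_eq_mul]
  simp

omit [Module.Finite k A] in
theorem finrank_EE_le {X Y Z : Type u} [AddCommGroup X] [Module A X] [Module k X]
    [IsScalarTower k A X] [AddCommGroup Y] [Module A Y] [Module k Y] [IsScalarTower k A Y]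
    [AddCommGroup Z] [Module A Z] [Module k Z] [IsScalarTower k A Z]
    [Module.Finite k X] [Module.Finite k Y] [Module.Finite k Z]
    (f : A) (hf : f * f = f) (j : X →ₗ[A] Y) (p : Y →ₗ[A] Z)
    (hjp : ∀ y, p y = 0 → ∃ x, j x = y) :
    Module.finrank k (EE k f Y) ≤ Module.finrank k (EE k f X) + Module.finrank k (EE k f Z) := by
  let g : EE k f Y →ₗ[k] EE k f Z :=
    ((p.restrictScalars k) ∘ₗ (EE k f Y).subtype).codRestrict _ (by
      rintro ⟨y, z, rfl⟩
      exact ⟨p z, (map_smul p f z).symm⟩)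
  have h1 := LinearMap.finrank_range_add_finrank_ker g
  have h2 : Module.finrank k (LinearMap.range g) ≤ Module.finrank k (EE k f Z) :=
    Submodule.finrank_le _
  have h3 : Module.finrank k (LinearMap.ker g) ≤ Module.finrank k (EE k f X) := by
    have h4 : (LinearMap.ker g).map (EE k f Y).subtype ≤
        (EE k f X).map (j.restrictScalars k) := by
      rintro _ ⟨⟨y, hy⟩, hgy, rfl⟩
      have h5 : p y = 0 := congrArg (Submodule.subtype _) hgy
      obtain ⟨x, hx⟩ := hjp y h5
      refine ⟨f • x, ⟨x, rfl⟩, ?_⟩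
      change j (f • x) = y
      rw [map_smul, hx]
      exact (mem_EE' hf).mp hy
    have h6 := Submodule.finrank_mono h4
    have h7 : Module.finrank k ((LinearMap.ker g).map (EE k f Y).subtype) =
        Module.finrank k (LinearMap.ker g) :=
      Submodule.finrank_map_subtype_eq _ _
    have h8 : Module.finrank k ((EE k f X).map (j.restrictScalars k)) ≤
        Module.finrank k (EE k f X) := Submodule.finrank_map_le _ _
    omega
  omega

/-- data of a simple module meeting `ι` -/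
theorem simple_data (H : Hyp k e ι N q T a b) {L : Submodule A A} (hL : IsCoatom L)
    (hι : ∃ x : A ⧸ L, ι • x ≠ 0) :
    Indec A (A ⧸ L) ∧ (∀ x : A ⧸ L, e • x = x) ∧ 1 ≤ tau k ι N q (A ⧸ L) ∧
      (Module.finrank k (EE k ι (A ⧸ L)) : ℤ) ≤ q * tau k ι N q (A ⧸ L) := by
  have hsim : IsSimpleModule A (A ⧸ L) := isSimpleModule_iff_isCoatom.mpr hL
  have hnt : Nontrivial (A ⧸ L) := IsSimpleModule.nontrivial A _
  have h1 : Indec A (A ⧸ L) := by
    refine ⟨hnt, ?_⟩
    intro U V hUV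
    rcases eq_bot_or_eq_top U with h | h
    · exact Or.inl h
    · right
      have := hUV.disjoint
      rw [h, top_disjoint] at this
      exact this
  have h2 : ∀ x : A ⧸ L, e • x = x := by
    let U : Submodule A (A ⧸ L) :=
      { carrier := {x | e • x = x}
        add_mem' := by
          intro x y hx hy
          change e • (x + y) = x + y
          rw [smul_add, hx, hy]
        zero_mem' := smul_zero _
        smul_mem' := by
          intro c x hx
          change e • c • x = c • x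
          rw [smul_smul, H.ec, mul_smul, hx] }
    obtain ⟨x, hx⟩ := hι
    have hU : ι • x ∈ U := by
      change e • ι • x = ι • x
      rw [smul_smul, H.eι]
    rcases eq_bot_or_eq_top U with h | h
    · exfalso
      rw [h, Submodule.mem_bot] at hU
      exact hx hU
    · intro y
      have : y ∈ U := by rw [h]; trivial
      exact this
  have h3 : RR k ι N q (A ⧸ L) = ⊥ := by
    rw [eq_bot_iff]
    rintro _ ⟨y, rfl⟩
    obtain ⟨y, rfl⟩ := Submodule.Quotient.mk_surjective _ y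
    rw [Submodule.mem_bot, ← Submodule.Quotient.mk_smul, Submodule.Quotient.mk_eq_zero,
      smul_eq_mul]
    exact H.h1 L hL y
  have h4 : tau k ι N q (A ⧸ L) = Module.finrank k (KK k ι N (A ⧸ L)) := by
    unfold tau
    rw [h3, finrank_bot]
    simp
  have h5 : (NV k H.hN (A ⧸ L)) ^ q = 0 := by
    ext v
    rw [NV_pow, H.hNq, zero_smul]
    rfl
  have h6 := finrank_le_mul_ker _ q h5
  have h7 : Module.finrank k (LinearMap.ker (NV k H.hN (A ⧸ L))) ≤
      Module.finrank k (KK k ι N (A ⧸ L)) := by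
    rw [← Submodule.finrank_map_subtype_eq]
    apply Submodule.finrank_mono
    rintro _ ⟨⟨v, hv⟩, hv2, rfl⟩
    refine ⟨(mem_EE' H.ιι).mp hv, ?_⟩
    exact congrArg Subtype.val hv2
  have h8 : Module.finrank k (EE k ι (A ⧸ L)) ≤ q * Module.finrank k (KK k ι N (A ⧸ L)) :=
    h6.trans (Nat.mul_le_mul_left _ h7)
  refine ⟨h1, h2, ?_, ?_⟩
  · rw [h4]
    have h9 : 1 ≤ Module.finrank k (EE k ι (A ⧸ L)) := by
      obtain ⟨x, hx⟩ := hι
      have : Nontrivial (EE k ι (A ⧸ L)) := ⟨⟨⟨ι • x, ⟨x, rfl⟩⟩, 0, fun h => hx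
        (congrArg Subtype.val h)⟩⟩
      exact Module.finrank_pos
    have h10 : Module.finrank k (KK k ι N (A ⧸ L)) ≠ 0 := by
      intro h
      rw [h, mul_zero] at h8
      omega
    omega
  · rw [h4]
    exact_mod_cast h8

/-- `dim ι S ≤ q (q T)` for every simple module -/
theorem finrank_EE_simple (H : Hyp k e ι N q T a b) {L : Submodule A A} (hL : IsCoatom L) :
    Module.finrank k (EE k ι (A ⧸ L)) ≤ q * (q * T) := by
  by_cases hι : ∃ x : A ⧸ L, ι • x ≠ 0
  · obtain ⟨h1, h2, h3, h4⟩ := simple_data H hL hι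
    have h5 := sum_tau_le_mul H {L} (by
      intro L' hL'
      rw [Finset.mem_singleton] at hL'
      subst hL'
      exact h1) (by
      intro L' hL'
      rw [Finset.mem_singleton] at hL'
      subst hL'
      exact h2) (by
      intro L1 h1 L2 h2 _
      rw [Finset.mem_singleton] at h1 h2
      rw [h1, h2])
    rw [Finset.sum_singleton] at h5
    have h6 : (Module.finrank k (EE k ι (A ⧸ L)) : ℤ) ≤ q * (q * T) :=
      h4.trans (mul_le_mul_of_nonneg_left h5 (by positivity))
    exact_mod_cast h6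
  · push Not at hι
    have h1 : EE k ι (A ⧸ L) = ⊥ := by
      rw [eq_bot_iff]
      rintro _ ⟨y, rfl⟩
      exact hι y
    rw [h1, finrank_bot]
    exact Nat.zero_le _

/-- dimension step along a covering of left ideals -/
theorem finrank_EE_covBy (H : Hyp k e ι N q T a b) {L L' : Submodule A A} (hL : L' ⋖ L) :
    Module.finrank k (EE k ι (A ⧸ L')) ≤ Module.finrank k (EE k ι (A ⧸ L)) + q * (q * T) := by
  have h1 : IsSimpleModule A (L ⧸ Submodule.comap L.subtype L') :=
    (covBy_iff_quot_is_simple hL.le).mp hL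
  obtain ⟨M, hM, ⟨f⟩⟩ := isSimpleModule_iff_quot_maximal.mp h1
  have h2 := finrank_EE_simple H (L := M) hM.out
  let j0 : (L ⧸ Submodule.comap L.subtype L') →ₗ[A] (A ⧸ L') :=
    Submodule.mapQ _ _ L.subtype (le_refl _)
  let j : (A ⧸ M) →ₗ[A] (A ⧸ L') := j0 ∘ₗ f.symm.toLinearMap
  let p : (A ⧸ L') →ₗ[A] (A ⧸ L) := Submodule.mapQ _ _ LinearMap.id hL.le
  have h3 := finrank_EE_le (k := k) ι H.ιι j p (by
    intro y hy
    obtain ⟨y, rfl⟩ := Submodule.Quotient.mk_surjective _ y
    have h4 : (Submodule.Quotient.mk y : A ⧸ L) = 0 := hy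
    rw [Submodule.Quotient.mk_eq_zero] at h4
    refine ⟨f (Submodule.Quotient.mk ⟨y, h4⟩), ?_⟩
    change j0 (f.symm (f _)) = _
    rw [f.symm_apply_apply]
    rfl)
  omega

end

end Vale.Agent.P180.R2.H471.Cyc
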