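import Vale.Agent.P180.R2.H471.Cyc5

/-! Local modules `A ⧸ A(1-ε)`, `ε` primitive; the length bound. -/

namespace Vale.Agent.P180.R2.H471.Cyc

universe u

section
variable {k : Type u} [Field k] {A : Type u} [Ring A] [Algebra k A]

/-- the left ideal `A (1-f)` -/
def LL (f : A) : Submodule A A := Submodule.span A {1 - f}

/-- primitive idempotent -/
def Prim (f : A) : Prop :=
  f * f = f ∧ f ≠ 0 ∧ ∀ g : A, g * g = g → f * g = g → g * f = g → g = 0 ∨ g = f

theorem mem_LL {f : A} (hf : f * f = f) {x : A} : x ∈ LL f ↔ x * f = 0 := by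
  rw [LL, Submodule.mem_span_singleton]
  constructor
  · rintro ⟨c, rfl⟩
    rw [smul_eq_mul, mul_assoc, sub_mul, one_mul, hf, sub_self, mul_zero]
  · intro h
    exact ⟨x, by rw [smul_eq_mul, mul_sub, mul_one, h, sub_zero]⟩

theorem mk_LL {f : A} (hf : f * f = f) {x y : A} :
    (Submodule.Quotient.mk x : A ⧸ LL f) = Submodule.Quotient.mk y ↔ x * f = y * f := by
  rw [Submodule.Quotient.eq, mem_LL hf, sub_mul, sub_eq_zero]

theorem indec_of_prim {f : A} (hf : Prim f) : Indec A (A ⧸ LL f) := by
  obtain ⟨hff, hf0, hp⟩ := hf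
  refine ⟨?_, ?_⟩
  · refine ⟨⟨Submodule.Quotient.mk f, 0, ?_⟩⟩
    intro h
    rw [Submodule.Quotient.mk_eq_zero, mem_LL hff, hff] at h
    exact hf0 h
  · intro U V hUV
    -- the projection
    have hid := Submodule.isIdempotentElem_projection hUV
    have hker := Submodule.ker_projection hUV
    have hran := Submodule.range_projection hUV
    generalize U.projection V hUV = φ at hid hker hran
    obtain ⟨x, hx⟩ := Submodule.Quotient.mk_surjective _ (φ (Submodule.Quotient.mk 1))
    have hφ : ∀ c : A, φ (Submodule.Quotient.mk c) = Submodule.Quotient.mk (c * x) := by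
      intro c
      have h1 : (Submodule.Quotient.mk c : A ⧸ LL f) = c • Submodule.Quotient.mk 1 := by
        rw [← Submodule.Quotient.mk_smul, smul_eq_mul, mul_one]
      rw [h1, map_smul, ← hx, ← Submodule.Quotient.mk_smul, smul_eq_mul]
    -- `x ≡ f x f`
    have h1 : (Submodule.Quotient.mk (f * x * f) : A ⧸ LL f) = Submodule.Quotient.mk x := by
      have h2 : (Submodule.Quotient.mk f : A ⧸ LL f) = Submodule.Quotient.mk 1 := by
        rw [mk_LL hff, hff, one_mul]
      have h3 := hφ f
      rw [h2, ← hx, mk_LL hff] at h3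
      rw [mk_LL hff, mul_assoc (f * x), hff, ← h3]
    have hg : (f * x * f) * (f * x * f) = f * x * f := by
      have h2 : φ (φ (Submodule.Quotient.mk 1)) = φ (Submodule.Quotient.mk 1) :=
        LinearMap.congr_fun hid _
      rw [← hx, ← h1, hφ, mk_LL hff, mul_assoc (f * x) f f, hff] at h2
      rw [mk_LL hff, mul_assoc (f * x), hff] at h1
      rw [mul_assoc (f * x * f) x f, ← h1] at h2
      exact h2
    rcases hp (f * x * f) hg (by rw [← mul_assoc, ← mul_assoc, hff])
      (by rw [mul_assoc, hff]) with h2 | h2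
    · left
      rw [← hran, LinearMap.range_eq_bot]
      ext
      change φ (Submodule.Quotient.mk 1) = 0
      rw [← hx, ← h1, h2]
      rfl
    · right
      rw [← hker, LinearMap.ker_eq_bot']
      intro y hy
      obtain ⟨c, rfl⟩ := Submodule.Quotient.mk_surjective _ y
      rw [hφ, Submodule.Quotient.mk_eq_zero, mem_LL hff] at hy
      rw [mk_LL hff, mul_assoc (f * x), hff, h2] at h1
      rw [mul_assoc, ← h1] at hy
      rw [Submodule.Quotient.mk_eq_zero, mem_LL hff]
      exact hy

variable [Module.Finite k A]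

variable (k) in
include k in
theorem local_of_prim {f : A} (hf : Prim f) {L₁ L₂ : Submodule A A} (h1 : LL f ≤ L₁)
    (h2 : LL f ≤ L₂) {x y : A} (hx : x ∈ L₁) (hy : y ∈ L₂) (hxy : x + y = 1) :
    L₁ = ⊤ ∨ L₂ = ⊤ := by
  have hI := indec_of_prim hf
  have h4 : IsArtinian A (A ⧸ LL f) := isArtinian_of_tower k inferInstance
  have h5 : IsNoetherian A (A ⧸ LL f) := isNoetherian_of_tower k inferInstance
  let φ : A → Module.End A (A ⧸ LL f) := fun z =>
    (Submodule.liftQ (LL f) (LinearMap.toSpanSingleton A (A ⧸ LL f)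
      (Submodule.Quotient.mk (f * z))) (by
      intro c hc
      rw [mem_LL hf.1] at hc
      rw [LinearMap.mem_ker, LinearMap.toSpanSingleton_apply, ← Submodule.Quotient.mk_smul,
        smul_eq_mul, ← mul_assoc, hc, zero_mul]
      rfl) : (A ⧸ LL f) →ₗ[A] (A ⧸ LL f))
  have hφ : ∀ z c, φ z (Submodule.Quotient.mk c) = Submodule.Quotient.mk (c * (f * z)) :=
    fun z c => rfl
  have hsum : φ x + φ y = 1 := by
    apply LinearMap.ext
    intro c
    obtain ⟨c, rfl⟩ := Submodule.Quotient.mk_surjective _ c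
    rw [LinearMap.add_apply, hφ, hφ, ← Submodule.Quotient.mk_add, ← mul_add, ← mul_add, hxy,
      mul_one, Module.End.one_apply, mk_LL hf.1, mul_assoc, hf.1]
  have key : ∀ z, ∀ L : Submodule A A, LL f ≤ L → z ∈ L → IsUnit (φ z) → L = ⊤ := by
    intro z L hL hz hu
    have hs := ((Module.End.isUnit_iff _).mp hu).2 (Submodule.Quotient.mk 1)
    obtain ⟨c, hc⟩ := hs
    obtain ⟨c, rfl⟩ := Submodule.Quotient.mk_surjective _ c
    rw [hφ, Submodule.Quotient.eq] at hc
    have h6 : c * (f * z) ∈ L := by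
      rw [← mul_assoc]
      exact L.smul_mem (c * f) hz
    have h7 : (1 : A) ∈ L := by
      have h8 := L.sub_mem h6 (hL hc)
      rwa [sub_sub_cancel] at h8
    rw [eq_top_iff]
    intro w _
    have := L.smul_mem w h7
    rwa [smul_eq_mul, mul_one] at this
  rcases hI.isUnit_or _ _ hsum with h | h
  · exact Or.inl (key x L₁ h1 hx h)
  · exact Or.inr (key y L₂ h2 hy h)

variable (k) in
include k in
theorem indec_quot {f : A} (hf : Prim f) {L : Submodule A A} (h1 : LL f ≤ L) (h2 : L ≠ ⊤) :
    Indec A (A ⧸ L) := by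
  refine ⟨Submodule.Quotient.nontrivial_iff.mpr h2, ?_⟩
  intro U V hUV
  obtain ⟨u, hu, v, hv, huv⟩ := Submodule.mem_sup.mp
    (show (Submodule.Quotient.mk (1 : A) : A ⧸ L) ∈ U ⊔ V by
      rw [hUV.sup_eq_top]; trivial)
  obtain ⟨u, rfl⟩ := Submodule.Quotient.mk_surjective _ u
  have hv' : v = Submodule.Quotient.mk (1 - u) := by
    rw [Submodule.Quotient.mk_sub, ← huv, add_sub_cancel_left]
  rw [hv'] at hv
  have hcU : LL f ≤ U.comap L.mkQ := by
    intro c hc
    change (Submodule.Quotient.mk c : A ⧸ L) ∈ U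
    rw [(Submodule.Quotient.mk_eq_zero _).mpr (h1 hc)]
    exact U.zero_mem
  have hcV : LL f ≤ V.comap L.mkQ := by
    intro c hc
    change (Submodule.Quotient.mk c : A ⧸ L) ∈ V
    rw [(Submodule.Quotient.mk_eq_zero _).mpr (h1 hc)]
    exact V.zero_mem
  have key : ∀ P : Submodule A (A ⧸ L), P.comap L.mkQ = ⊤ → P = ⊤ := by
    intro P hP
    rw [eq_top_iff]
    intro c _
    obtain ⟨c, rfl⟩ := Submodule.Quotient.mk_surjective _ c
    have : c ∈ P.comap L.mkQ := by rw [hP]; trivial
    exact this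
  rcases local_of_prim k hf hcU hcV (x := u) (y := 1 - u) hu hv (by abel) with h | h
  · right
    have := hUV.disjoint
    rw [key U h, top_disjoint] at this
    exact this
  · left
    have := hUV.disjoint
    rw [key V h, disjoint_top] at this
    exact this

theorem finrank_quot_lt {L L' : Submodule A A} (h : L < L') :
    Module.finrank k (A ⧸ L') < Module.finrank k (A ⧸ L) := by
  have h1 := Submodule.finrank_quotient_add_finrank (L.restrictScalars k)
  have h2 := Submodule.finrank_quotient_add_finrank (L'.restrictScalars k)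
  have h3 : Module.finrank k (L.restrictScalars k) < Module.finrank k (L'.restrictScalars k) :=
    Submodule.finrank_lt_finrank_of_lt h
  have h4 : Module.finrank k (A ⧸ L.restrictScalars k) = Module.finrank k (A ⧸ L) := rfl
  have h5 : Module.finrank k (A ⧸ L'.restrictScalars k) = Module.finrank k (A ⧸ L') := rfl
  omega

variable {e ι N : A} {q T : ℕ} {J : Type} [Fintype J] {a b : J → A}

theorem tau_pos_quot (H : Hyp k e ι N q T a b) {f : A} (hf : Prim f) (hιf : ι * f = f)
    {L : Submodule A A} (h1 : LL f < L) (h2 : L ≠ ⊤) :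
    (∀ x : A ⧸ L, e • x = x) ∧ 1 ≤ tau k ι N q (A ⧸ L) := by
  have hef : e * f = f := by rw [← hιf, ← mul_assoc, H.eι]
  have he : ∀ x : A ⧸ L, e • x = x := by
    intro x
    obtain ⟨x, rfl⟩ := Submodule.Quotient.mk_surjective _ x
    rw [← Submodule.Quotient.mk_smul, Submodule.Quotient.eq, smul_eq_mul, H.ec]
    apply h1.le
    rw [mem_LL hf.1, sub_mul, mul_assoc, hef, sub_self]
  refine ⟨he, ?_⟩
  by_contra hcon
  have h0 : tau k ι N q (A ⧸ L) ≤ 0 := by omega
  have hI := indec_quot k hf h1.le h2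
  obtain ⟨t, ht1, ht2, hs, ht3⟩ := exists_summand (k := k) (e := e) (a := a) (b := b)
      H.cas H.ιι H.hN H.hq H.hNq hI he
  rw [ht3 h0] at hs
  -- summand of `A`
  have hs2 : Summand A (A ⧸ WI ι N q) A := by
    refine ⟨Submodule.liftQ _ (LinearMap.toSpanSingleton A A ι) ?_, Submodule.mkQ _, ?_⟩
    · rw [WI, Submodule.span_le]
      rintro x (rfl | rfl)
      · change (1 - ι) * ι = 0
        rw [sub_mul, one_mul, H.ιι, sub_self]
      · change (ι * N ^ q) * ι = 0
        rw [H.hNq, mul_zero, zero_mul]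
    · apply LinearMap.ext
      intro x
      obtain ⟨x, rfl⟩ := Submodule.Quotient.mk_surjective _ x
      change (Submodule.Quotient.mk (x * ι) : A ⧸ WI ι N q) = Submodule.Quotient.mk x
      rw [Submodule.Quotient.eq]
      have h3 : x * ι - x = (-x) • (1 - ι) := by
        rw [smul_eq_mul, mul_sub, mul_one, neg_mul, sub_neg_eq_add]
        abel
      rw [h3]
      exact Submodule.smul_mem _ _ (Submodule.subset_span (by simp))
  obtain ⟨i0, p0, hip⟩ := hs.trans hs2
  have hproj : Module.Projective A (A ⧸ L) := Module.Projective.of_split i0 p0 hip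
  let π : (A ⧸ LL f) →ₗ[A] (A ⧸ L) := Submodule.mapQ _ _ LinearMap.id h1.le
  have hπ : Function.Surjective π := by
    intro x
    obtain ⟨x, rfl⟩ := Submodule.Quotient.mk_surjective _ x
    exact ⟨Submodule.Quotient.mk x, rfl⟩
  obtain ⟨s, hs3⟩ := Module.projective_lifting_property π LinearMap.id hπ
  have hs4 : Summand A (A ⧸ L) (A ⧸ LL f) := ⟨s, π, hs3⟩
  obtain ⟨w⟩ := hs4.equiv_of_indec hI.1 (indec_of_prim hf)
  have h5 : Module.finrank k (A ⧸ L) = Module.finrank k (A ⧸ LL f) :=
    LinearEquiv.finrank_eq (w.restrictScalars k)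
  have h6 := finrank_quot_lt (k := k) h1
  omega

/-- chains of proper nonzero submodules are short -/
theorem card_chain_le (H : Hyp k e ι N q T a b) {f : A} (hf : Prim f) (hιf : ι * f = f)
    (S : Finset (Submodule A A)) (hS : ∀ L ∈ S, LL f < L ∧ L ≠ ⊤)
    (hch : ∀ L ∈ S, ∀ L' ∈ S, L ≤ L' ∨ L' ≤ L) : S.card ≤ q * T := by
  have h1 := sum_tau_le_mul H S (fun L hL => indec_quot k hf (hS L hL).1.le (hS L hL).2)
    (fun L hL => (tau_pos_quot H hf hιf (hS L hL).1 (hS L hL).2).1) (by
      intro L hL L' hL' ⟨w⟩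
      by_contra hne
      have h5 : Module.finrank k (A ⧸ L) = Module.finrank k (A ⧸ L') :=
        LinearEquiv.finrank_eq (w.restrictScalars k)
      rcases hch L hL L' hL' with h | h
      · have := finrank_quot_lt (k := k) (lt_of_le_of_ne h hne)
        omega
      · have := finrank_quot_lt (k := k) (lt_of_le_of_ne h (Ne.symm hne))
        omega)
  have h2 : ∑ L ∈ S, (1 : ℤ) ≤ ∑ L ∈ S, tau k ι N q (A ⧸ L) :=
    Finset.sum_le_sum fun L hL => (tau_pos_quot H hf hιf (hS L hL).1 (hS L hL).2).2
  rw [Finset.sum_const, nsmul_eq_mul, mul_one] at h2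
  have h3 : (S.card : ℤ) ≤ q * T := h2.trans h1
  exact_mod_cast h3

/-- the local module has bounded `ι`-dimension -/
theorem finrank_EE_local (H : Hyp k e ι N q T a b) {f : A} (hf : Prim f) (hιf : ι * f = f) :
    Module.finrank k (EE k ι (A ⧸ LL f)) ≤ (q * T + 1) * (q * (q * T)) := by
  classical
  have hart : IsArtinian A A := isArtinian_of_tower k inferInstance
  have hnoe : IsNoetherian A A := isNoetherian_of_tower k inferInstance
  set B := q * (q * T) with hB
  set D := Module.finrank k (EE k ι (A ⧸ LL f)) with hD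
  have key : ∀ m, m * B < D → ∃ (S : Finset (Submodule A A)) (L : Submodule A A),
      (∀ L' ∈ S, LL f < L' ∧ L' ≠ ⊤ ∧ L ≤ L') ∧ (∀ L₁ ∈ S, ∀ L₂ ∈ S, L₁ ≤ L₂ ∨ L₂ ≤ L₁) ∧
      LL f < L ∧ S.card = m ∧ Module.finrank k (EE k ι (A ⧸ L)) ≤ m * B := by
    intro m
    induction m with
    | zero =>
      intro hm
      refine ⟨∅, ⊤, by simp, by simp, ?_, by simp, ?_⟩
      · rw [lt_top_iff_ne_top]
        intro h
        have h1 : Subsingleton (EE k ι (A ⧸ LL f)) := by
          have : Subsingleton (A ⧸ LL f) := Submodule.Quotient.subsingleton_iff.mpr h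
          infer_instance
        have h2 := Module.finrank_zero_of_subsingleton (R := k) (M := EE k ι (A ⧸ LL f))
        omega
      · have h1 : Subsingleton (EE k ι (A ⧸ (⊤ : Submodule A A))) := inferInstance
        rw [Module.finrank_zero_of_subsingleton]
        exact Nat.zero_le _
    | succ m ih =>
      intro hm
      have hm' : m * B < D := lt_of_le_of_lt (Nat.mul_le_mul_right _ (Nat.le_succ m)) hm
      obtain ⟨S, L, h1, h2, h3, h4, h5⟩ := ih hm'
      obtain ⟨L', hL1, hL2⟩ := exists_le_covBy_of_lt h3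
      have h6 := finrank_EE_covBy H hL2
      have h7 : Module.finrank k (EE k ι (A ⧸ L')) ≤ (m + 1) * B := by
        rw [add_mul, one_mul]
        omega
      have h8 : LL f < L' := by
        refine lt_of_le_of_ne hL1 ?_
        intro h
        rw [← h] at h7
        omega
      have hlt : L' < L := hL2.lt
      refine ⟨insert L' S, L', ?_, ?_, h8, ?_, h7⟩
      · intro M hM
        rcases Finset.mem_insert.mp hM with rfl | hM
        · exact ⟨h8, ne_top_of_lt hlt, le_refl _⟩
        · exact ⟨(h1 M hM).1, (h1 M hM).2.1, hlt.le.trans (h1 M hM).2.2⟩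
      · intro M₁ hM₁ M₂ hM₂
        rcases Finset.mem_insert.mp hM₁ with r₁ | r₁
        · rcases Finset.mem_insert.mp hM₂ with r₂ | r₂
          · rw [r₁, r₂]
            exact Or.inl (le_refl _)
          · rw [r₁]
            exact Or.inl (hlt.le.trans (h1 M₂ r₂).2.2)
        · rcases Finset.mem_insert.mp hM₂ with r₂ | r₂
          · rw [r₂]
            exact Or.inr (hlt.le.trans (h1 M₁ r₁).2.2)
          · exact h2 M₁ r₁ M₂ r₂
      · rw [Finset.card_insert_of_notMem, h4]
        intro h
        exact absurd (h1 L' h).2.2 (not_le_of_gt hlt)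
  by_contra hcon
  push Not at hcon
  obtain ⟨S, L, h1, h2, h3, h4, h5⟩ := key _ hcon
  have h6 := card_chain_le H hf hιf S (fun L hL => ⟨(h1 L hL).1, (h1 L hL).2.1⟩) h2
  omega

end

end Vale.Agent.P180.R2.H471.Cyc
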