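import Vale.Agent.P180.R2.H471.Au10

/-! No field automorphisms of `p`-power order, if the `p`-subgroup `Q` has exponent `p`. -/

set_option linter.all false

namespace Vale.Agent.P180.R2.H471.El

open Polynomial Module Vale.Agent.P180.R2.H471.Au

/-- the order of a finite field with an automorphism of order `p` -/
theorem card_pow {F : Type*} [Field F] [Finite F] {p : ℕ} [Fact p.Prime] {τ : RingAut F} {s : ℕ}
    (hτ : τ ^ p ^ s = 1) (hne : τ ≠ 1) : ∃ q : ℕ, 1 ≤ q ∧ Nat.card F = q ^ p := by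
  classical
  have hp : p.Prime := Fact.out
  obtain ⟨t, hts, ht⟩ := (Nat.dvd_prime_pow hp).mp (orderOf_dvd_of_pow_eq_one hτ)
  have ht0 : t ≠ 0 := by
    rintro rfl
    rw [pow_zero] at ht
    exact hne (orderOf_eq_one_iff.mp ht)
  obtain ⟨t, rfl⟩ : ∃ t', t = t' + 1 := ⟨t - 1, by omega⟩
  set τ' : RingAut F := τ ^ p ^ t with hτ'
  have hord : orderOf τ' = p := by
    rw [hτ', orderOf_pow' _ (pow_ne_zero t hp.ne_zero), ht, Nat.gcd_eq_right
      (pow_dvd_pow p (Nat.le_succ t)), pow_succ, Nat.mul_div_cancel_left _ (pow_pos hp.pos t)]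
  let G := Subgroup.zpowers τ'
  have hGc : Nat.card G = p := by rw [Nat.card_zpowers, hord]
  haveI : Finite G := Nat.finite_of_card_ne_zero (by rw [hGc]; exact hp.ne_zero)
  letI : Fintype G := Fintype.ofFinite G
  let F₀ := FixedPoints.subfield G F
  haveI : FaithfulSMul G F := ⟨fun {a b} h => Subtype.ext (RingEquiv.ext fun x => h x)⟩
  have hrank : Module.finrank F₀ F = p := by
    have h1 := FixedPoints.finrank_eq_card G F
    rw [← Nat.card_eq_fintype_card, hGc] at h1
    exact h1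
  haveI : Finite F₀ := Subtype.finite
  have hcard : Nat.card F = Nat.card F₀ ^ p := by
    rw [Module.natCard_eq_pow_finrank (K := F₀) (V := F), hrank]
  exact ⟨Nat.card F₀, Nat.card_pos, hcard⟩

/-- A finite extension of a field with an automorphism of order `p` has elements of order `p ^ 2`,
if it has elements of order `p`. -/
theorem exists_omega {K F : Type*} [Field K] [Finite K] [Field F] [Finite F] [Algebra K F] {p : ℕ}
    [Fact p.Prime] {τ : RingAut K} {s : ℕ} (hτ : τ ^ p ^ s = 1) (hne : τ ≠ 1) {ζ : F}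
    (hζ : ζ ^ p = 1) (hζ1 : ζ ≠ 1) : ∃ ω : F, ω ^ p ^ 2 = 1 ∧ ω ^ p ≠ 1 := by
  have hp : p.Prime := Fact.out
  obtain ⟨q, hq1, hq⟩ := card_pow hτ hne
  haveI : Module.Finite K F := Module.Finite.of_finite
  have hF : Nat.card F = (q ^ finrank K F) ^ p := by
    rw [Module.natCard_eq_pow_finrank (K := K) (V := F), hq, ← pow_mul, ← pow_mul, mul_comm]
  set Q := q ^ finrank K F with hQ
  have hQ1 : 1 ≤ Q := Nat.one_le_pow _ _ hq1
  have hζ0 : ζ ≠ 0 := by
    rintro rfl
    rw [zero_pow hp.ne_zero] at hζ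
    exact zero_ne_one hζ
  have h1 : p ∣ Nat.card Fˣ := by
    have h0 : orderOf (Units.mk0 ζ hζ0) = p := orderOf_eq_prime (Units.ext (by
      rw [Units.val_pow_eq_pow_val, Units.val_mk0, hζ, Units.val_one])) (by
        intro h
        exact hζ1 (congrArg Units.val h))
    rw [← h0]
    exact orderOf_dvd_natCard _
  have h2 : p ∣ Q - 1 := by
    rw [Nat.card_units, hF] at h1
    have h3 : ((Q : ℕ) : ZMod p) ^ p = 1 := by
      have h4 : ((Q ^ p - 1 : ℕ) : ZMod p) = 0 := (ZMod.natCast_eq_zero_iff _ _).mpr h1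
      rw [Nat.cast_sub (Nat.one_le_pow _ _ hQ1)] at h4
      push_cast at h4
      exact sub_eq_zero.mp h4
    rw [ZMod.pow_card] at h3
    rw [← ZMod.natCast_eq_zero_iff, Nat.cast_sub hQ1, h3, Nat.cast_one, sub_self]
  have h3 : p ^ 2 ∣ Nat.card Fˣ := by
    rw [Nat.card_units, hF]
    exact dvd_geom hp hQ1 h2 (by rwa [pow_one])
  obtain ⟨γ, hγ⟩ := IsCyclic.exists_ofOrder_eq_natCard (α := Fˣ)
  obtain ⟨c, hc⟩ := h3
  have hc0 : c ≠ 0 := by
    rintro rfl
    rw [mul_zero] at hc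
    exact Nat.card_pos.ne' hc
  have hord : orderOf (γ ^ c) = p ^ 2 := by
    rw [orderOf_pow' _ hc0, hγ, hc, Nat.gcd_mul_left_left, Nat.mul_div_cancel _
      (Nat.pos_of_ne_zero hc0)]
  refine ⟨((γ ^ c : Fˣ) : F), ?_, ?_⟩
  · rw [← Units.val_pow_eq_pow_val, ← hord, pow_orderOf_eq_one, Units.val_one]
  · intro h
    rw [← Units.val_pow_eq_pow_val, Units.val_eq_one] at h
    have h4 := orderOf_dvd_of_pow_eq_one h
    rw [hord] at h4
    have h5 := Nat.le_of_dvd hp.pos h4
    have h6 : p < p ^ 2 := by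
      rw [pow_two]
      exact lt_mul_of_one_lt_left hp.pos hp.one_lt
    omega

section

variable {K : Type*} [Field K] {V : Type*} [AddCommGroup V] [Module K V]
variable [FiniteDimensional K V] [Finite K] {p : ℕ} [Fact p.Prime]

/-- `Q` does not have exponent `p` if the extensions of `K` with elements of order `p` have elements
of order `p ^ 2`. -/
theorem elem_false (hpK : (p : K) ≠ 0) (hcop : ¬ (p ∣ finrank K V ∧ p ∣ Nat.card K - 1))
    {Q : Subgroup (SpecialLinearGroup K V)} (hQp : IsPGroup p Q) (hQ1 : Q ≠ ⊥)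
    (hQ : PClosed p Q) (hel : ∀ w ∈ Q, w ^ p = 1)
    (hF : ∀ (f : K[X]) [Fact (Irreducible f)], (AdjoinRoot.root f) ^ p = 1 →
      AdjoinRoot.root f ≠ 1 → ∃ ω : AdjoinRoot f, ω ^ p ^ 2 = 1 ∧ ω ^ p ≠ 1) : False := by
  classical
  have hp : p.Prime := Fact.out
  obtain ⟨u, hu, hup, hu1⟩ := exists_order_p hQp hQ1
  have hup' : en u ^ p = 1 := by rw [← en_pow, hup]; rfl
  set μ := minpoly K (en u) with hμ
  have hint : IsIntegral K (en u) := Algebra.IsIntegral.isIntegral _
  have hμd : μ ∣ X ^ p - 1 := by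
    apply minpoly.dvd
    rw [map_sub, map_pow, aeval_X, map_one, hup', sub_self]
  have hsep : (X ^ p - 1 : K[X]).Separable := (X_pow_sub_one_separable_iff).mpr hpK
  have hsq : Squarefree (X ^ p - 1 : K[X]) := hsep.squarefree
  have hμu : ¬ IsUnit μ := by
    intro h
    have h1 : μ = 1 := (minpoly.monic hint).eq_one_of_isUnit h
    have h2 := minpoly.aeval K (en u)
    rw [← hμ, h1, map_one] at h2
    apply hu1
    apply en_inj
    apply LinearMap.ext
    intro v
    have h3 := LinearMap.congr_fun h2 v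
    have h4 : v = 0 := h3
    rw [h4, map_zero, map_zero]
  have hns1 : ¬ μ ∣ X - C (1 : K) := by
    rintro ⟨R, hR⟩
    have h1 : aeval (en u) (X - C (1 : K)) = 0 := by
      rw [hR, map_mul, hμ, minpoly.aeval, zero_mul]
    rw [map_sub, aeval_X, aeval_C, map_one, sub_eq_zero] at h1
    exact hu1 (en_inj h1)
  obtain ⟨f, hf, hfi, hfμ, hfX⟩ := exists_factor (μ := μ) (q₀ := X - C (1 : K))
    (hsq.squarefree_of_dvd hμd) hμu (irreducible_X_sub_C 1) hns1
  obtain ⟨f', a, b, hff, hab⟩ := exists_H hpK (hfμ.trans hμd)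
  haveI : Fact (Irreducible f) := ⟨hfi⟩
  have hζ : (AdjoinRoot.root f) ^ p = 1 := by
    have h1 : AdjoinRoot.mk f (X ^ p - 1) = 0 := AdjoinRoot.mk_eq_zero.mpr (hfμ.trans hμd)
    rw [map_sub, map_pow, AdjoinRoot.mk_X, map_one, sub_eq_zero] at h1
    exact h1
  have hζ1 : AdjoinRoot.root f ≠ 1 := by
    intro h
    have h1 : AdjoinRoot.mk f (X - C 1) = 0 := by
      rw [map_sub, AdjoinRoot.mk_X, C_1, map_one, sub_eq_zero]
      exact h
    have h2 := AdjoinRoot.mk_eq_zero.mp h1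
    exact hfX (Polynomial.eq_of_monic_of_associated hf (monic_X_sub_C 1)
      (hfi.associated_of_dvd (irreducible_X_sub_C 1) h2))
  obtain ⟨ω, hω, hωp⟩ := hF f hζ hζ1
  obtain ⟨h, rfl⟩ := AdjoinRoot.mk_surjective ω
  set H : K[X] := h * (b * f') + a * f with hH
  have hbf : AdjoinRoot.mk f (b * f') = 1 := by
    have h2 := congrArg (AdjoinRoot.mk f) hab
    rw [map_add, map_mul _ a f, AdjoinRoot.mk_self, mul_zero, zero_add, map_one] at h2
    exact h2
  have hHf : AdjoinRoot.mk f H = AdjoinRoot.mk f h := by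
    rw [hH, map_add, map_mul, map_mul _ a f, AdjoinRoot.mk_self, mul_zero, add_zero, hbf, mul_one]
  have hHf' : f' ∣ H - 1 := by
    have h1 : H - 1 = f' * (h * b - b) := by
      rw [hH]
      linear_combination hab
    rw [h1]
    exact dvd_mul_right _ _
  have h1 : f ∣ H ^ p ^ 2 - 1 := by
    rw [← AdjoinRoot.mk_eq_zero, map_sub, map_pow, hHf, hω, map_one, sub_self]
  have h2 : f' ∣ H ^ p ^ 2 - 1 := by
    have h5 := sub_dvd_pow_sub_pow H 1 (p ^ 2)
    rw [one_pow] at h5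
    exact hHf'.trans h5
  have h3 := aeval_pow_eq_one hup' hff ⟨a, b, hab⟩ h1 h2
  obtain ⟨l, hl, w, hw, hwe⟩ := exists_mem_Q hcop hQ hu h3
  have h4 : μ ∣ (C (l : K) * H) ^ p - 1 := by
    apply minpoly.dvd
    rw [map_sub, map_pow, ← hwe, ← en_pow, hel w hw, map_one]
    exact sub_self _
  have h5 : (AdjoinRoot.mk f (C (l : K))) ^ p * (AdjoinRoot.mk f h) ^ p = 1 := by
    have h6 := AdjoinRoot.mk_eq_zero.mpr (hfμ.trans h4)
    rw [map_sub, map_pow, map_mul, hHf, map_one, sub_eq_zero, mul_pow] at h6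
    exact h6
  -- it is enough that `l ^ p = 1`
  have hlp : (l : K) ^ p = 1 → False := by
    intro h6
    rw [← map_pow, ← C_pow, h6, C_1, map_one, one_mul] at h5
    exact hωp h5
  by_cases hp1 : p ∣ Nat.card K - 1
  · -- another factor
    have hpd : ¬ p ∣ finrank K V := fun h => hcop ⟨h, hp1⟩
    obtain ⟨z, hz⟩ : ∃ z : Kˣ, orderOf z = p := by
      obtain ⟨γ, hγ⟩ := IsCyclic.exists_ofOrder_eq_natCard (α := Kˣ)
      rw [← Nat.card_units] at hp1
      obtain ⟨c, hc⟩ := hp1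
      have hc0 : c ≠ 0 := by
        rintro rfl
        rw [mul_zero] at hc
        exact Nat.card_pos.ne' hc
      refine ⟨γ ^ c, ?_⟩
      rw [orderOf_pow' _ hc0, hγ, hc, Nat.gcd_mul_left_left, Nat.mul_div_cancel _
        (Nat.pos_of_ne_zero hc0)]
    have hzp : (z : K) ^ p = 1 := by
      rw [← Units.val_pow_eq_pow_val, ← hz, pow_orderOf_eq_one, Units.val_one]
    have hz1 : (z : K) ≠ 1 := by
      intro h
      have h1 : z = 1 := Units.ext h
      rw [h1, orderOf_one] at hz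
      exact hp.one_lt.ne hz
    have hprim : IsPrimitiveRoot (z : K) p := by
      rw [← orderOf_eq_prime hzp hz1]
      exact IsPrimitiveRoot.orderOf _
    have hlin : ∀ f : K[X], f.Monic → Irreducible f → f ∣ X ^ p - 1 →
        ∃ c : K, c ^ p = 1 ∧ f = X - C c := by
      intro f hf hfi hfd
      rw [X_pow_sub_one_eq_prod hp.pos hprim] at hfd
      obtain ⟨c, hc, hfc⟩ := (hfi.prime.dvd_finset_prod_iff _).mp hfd
      refine ⟨c, (mem_nthRootsFinset hp.pos 1).mp hc, ?_⟩
      exact Polynomial.eq_of_monic_of_associated hf (monic_X_sub_C c)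
        (hfi.associated_of_dvd (irreducible_X_sub_C c) hfc)
    obtain ⟨c₁, hc₁, hfc₁⟩ := hlin f hf hfi (hfμ.trans hμd)
    have hns : aeval (en u) f ≠ 0 := by
      intro h
      rw [hfc₁, map_sub, aeval_X, aeval_C, sub_eq_zero] at h
      have h1 : LinearMap.det (en u) = 1 := by
        have h2 := congrArg Units.val u.2
        rw [LinearEquiv.coe_det] at h2
        exact h2
      have h2 : en u = c₁ • (1 : Module.End K V) := by
        rw [h, Algebra.algebraMap_eq_smul_one]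
      rw [h2, LinearMap.det_smul, map_one, mul_one] at h1
      have h3 : c₁ = 1 := by
        have h4 : orderOf c₁ ∣ p := orderOf_dvd_of_pow_eq_one hc₁
        have h5 : orderOf c₁ ∣ finrank K V := orderOf_dvd_of_pow_eq_one h1
        rcases (Nat.dvd_prime hp).mp h4 with h6 | h6
        · exact orderOf_eq_one_iff.mp h6
        · rw [h6] at h5
          exact absurd h5 hpd
      rw [h3, one_smul] at h2
      exact hu1 (en_inj h2)
    obtain ⟨f₂, hf₂, hf₂i, hf₂μ, hf₂X⟩ := exists_factor (μ := μ) (q₀ := f)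
      (hsq.squarefree_of_dvd hμd) hμu hfi (by
        rintro ⟨R, hR⟩
        apply hns
        rw [hR, map_mul, hμ, minpoly.aeval, zero_mul])
    have hf₂f' : f₂ ∣ f' := by
      have h2 : f₂ ∣ f * f' := by rw [← hff]; exact hf₂μ.trans hμd
      rcases hf₂i.prime.dvd_or_dvd h2 with h3 | h3
      · exact absurd (Polynomial.eq_of_monic_of_associated hf₂ hf
          (hf₂i.associated_of_dvd hfi h3)) hf₂X
      · exact h3
    obtain ⟨c₂, hc₂, rfl⟩ := hlin f₂ hf₂ hf₂i (hf₂μ.trans hμd)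
    have h6 : H.eval c₂ = 1 := by
      have h7 := Polynomial.dvd_iff_isRoot.mp (hf₂f'.trans hHf')
      rw [IsRoot.def, eval_sub, eval_one, sub_eq_zero] at h7
      exact h7
    have h7 := Polynomial.dvd_iff_isRoot.mp (hf₂μ.trans h4)
    rw [IsRoot.def, eval_sub, eval_pow, eval_mul, eval_C, h6, mul_one, eval_one, sub_eq_zero] at h7
    exact hlp h7
  · refine hlp ?_
    rw [unit_eq_one hp1 hl, Units.val_one, one_pow]

/-- **No field automorphisms of order `p`** if `Q` has exponent `p`. -/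
theorem sigma_eq_one_elem (hpK : (p : K) ≠ 0) (hcop : ¬ (p ∣ finrank K V ∧ p ∣ Nat.card K - 1))
    {Q : Subgroup (SpecialLinearGroup K V)} (hQp : IsPGroup p Q) (hQ1 : Q ≠ ⊥)
    (hQ : PClosed p Q) (hel : ∀ w ∈ Q, w ^ p = 1) {σ : RingAut K} {s : ℕ} (hσ : σ ^ p ^ s = 1) :
    σ = 1 := by
  by_contra hne
  refine elem_false hpK hcop hQp hQ1 hQ hel fun f hfi hζ hζ1 => ?_
  have hfne : f ≠ 0 := hfi.out.ne_zero
  haveI : Finite (AdjoinRoot f) := by
    haveI : Module.Finite K (AdjoinRoot f) := (AdjoinRoot.powerBasis hfne).finite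
    exact Module.finite_of_finite K
  exact exists_omega (K := K) (F := AdjoinRoot f) hσ hne hζ hζ1

/-- `p = 2`: `Q` does not have exponent `2` if `4` divides `|K| - 1` and the dimension is odd. -/
theorem two_false (h4 : 4 ∣ Nat.card K - 1) (hd : ¬ 2 ∣ finrank K V)
    {Q : Subgroup (SpecialLinearGroup K V)} (hQp : IsPGroup 2 Q) (hQ1 : Q ≠ ⊥)
    (hQ : PClosed 2 Q) (hel : ∀ w ∈ Q, w ^ 2 = 1) : False := by
  haveI : Fact (Nat.Prime 2) := ⟨Nat.prime_two⟩
  obtain ⟨z, hz⟩ : ∃ z : Kˣ, orderOf z = 4 := by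
    obtain ⟨γ, hγ⟩ := IsCyclic.exists_ofOrder_eq_natCard (α := Kˣ)
    rw [← Nat.card_units] at h4
    obtain ⟨c, hc⟩ := h4
    have hc0 : c ≠ 0 := by
      rintro rfl
      rw [mul_zero] at hc
      exact Nat.card_pos.ne' hc
    refine ⟨γ ^ c, ?_⟩
    rw [orderOf_pow' _ hc0, hγ, hc, Nat.gcd_mul_left_left, Nat.mul_div_cancel _
      (Nat.pos_of_ne_zero hc0)]
  have hz4 : (z : K) ^ 4 = 1 := by
    rw [← Units.val_pow_eq_pow_val, ← hz, pow_orderOf_eq_one, Units.val_one]
  have hz2 : (z : K) ^ 2 ≠ 1 := by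
    intro h
    rw [← Units.val_pow_eq_pow_val, Units.val_eq_one] at h
    have h1 := orderOf_dvd_of_pow_eq_one h
    rw [hz] at h1
    exact absurd (Nat.le_of_dvd (by norm_num) h1) (by norm_num)
  have h20 : ((2 : ℕ) : K) ≠ 0 := by
    intro h
    apply hz2
    have h1 : ((z : K) ^ 2 - 1) ^ 2 = 0 := by
      have h2 : ((2 : ℕ) : K) = 2 := Nat.cast_ofNat
      rw [h2] at h
      linear_combination hz4 - (z : K) ^ 2 * h + h
    exact sub_eq_zero.mp (pow_eq_zero_iff (two_ne_zero)|>.mp h1)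
  refine elem_false h20 (fun h => hd h.1) hQp hQ1 hQ hel fun f hfi hζ hζ1 => ?_
  refine ⟨AdjoinRoot.of f (z : K), ?_, ?_⟩
  · rw [← map_pow, show (2 : ℕ) ^ 2 = 4 by norm_num, hz4, map_one]
  · rw [← map_pow]
    intro h
    exact hz2 ((AdjoinRoot.of f).injective (h.trans (map_one _).symm))

end

end Vale.Agent.P180.R2.H471.El
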