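import Vale.Agent.P180.R2.H471.El1
import Vale.Agent.P180.R2.H471.Au14
import Vale.Agent.P180.R2.H47.PairB

/-! The action on a central quotient of `SL(d, K)` of a `p`-group whose intersection with the
quotient is elementary abelian modulo the centre: inner. -/

set_option linter.all false

namespace Vale.Agent.P180.R2.H471.El

open Module Subgroup Vale.Agent.P180 Vale.Agent.P180.H768.Gd Vale.Agent.P180.R2.H799
  Vale.Agent.P180.R2.H954 Vale.Agent.P180.R2.H365 Vale.Agent.P180.R2.H471.Au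
open Vale.Agent.P180.R2.H589.Sch (Pel pel_unique)
open Vale.Agent.P180.R2.H47.PairP (orderOf_center_dvd exists_lift_elt center_of_map)
open Vale.Agent.P180.R2.H471.He (CycOn cycOn_of_ker cor_of_cycOn)
open Vale.Agent.P180.R2.H259.Cyc (cycB cycB_mono)

section

variable {k : Type*} [Field k] {p : ℕ} [hp : Fact p.Prime] [CharP k p]
variable {K : Type} [Field K] [Finite K] {d : ℕ} {G : Type} [Group G] [Finite G]
variable {L R : Subgroup G} {π : SpecialLinearGroup K (Fin d → K) →* L}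

/-- `Q` contains the `p`-elements which are polynomials in its elements; it has exponent `p`. -/
theorem pclosed_of_ab [IsAlgClosed k] (hR : IsPGroup p R)
    (hn : ∀ x ∈ R, ∀ s ∈ L, x * s * x⁻¹ ∈ L) (hd : 3 ≤ d) (hpK : ¬ p ∣ Nat.card K)
    (hcop : ¬ (p ∣ d ∧ p ∣ Nat.card K - 1)) (hπ : Function.Surjective π)
    (hk : π.ker ≤ Subgroup.center _)
    (hab : ∀ x ∈ R, x ∈ L → ∀ y ∈ R, y ∈ L → ∀ l ∈ L,
      (x * y * x⁻¹ * y⁻¹) * l = l * (x * y * x⁻¹ * y⁻¹))
    (hel : ∀ y ∈ R, y ∈ L → ∀ l ∈ L, y ^ p * l = l * y ^ p)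
    {e z : MonoidAlgebra k G} (heL : e ∈ SubAlg k L) (heF : e ∈ Fix (cj k G) L) (hee : e * e = e)
    (hbr : br R e ≠ 0) (hzF : z ∈ Fix (cj k G) (L ⊓ R)) (hez : e = tr (cj k G) (L ⊓ R) L z)
    {Q : Subgroup (SpecialLinearGroup K (Fin d → K))} (hQp : IsPGroup p Q)
    (hQR : Q.map π = R.subgroupOf L) :
    PClosed p Q ∧ ∀ w ∈ Q, w ^ p = 1 := by
  haveI : Finite (SpecialLinearGroup K (Fin d → K)) := BN.finite_sl
  have hkp : ¬ p ∣ Nat.card π.ker := not_dvd_ker hcop hk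
  have hpel : ∀ w ∈ Q, ∃ j, w ^ p ^ j = 1 := fun w hw => by
    obtain ⟨j, hj⟩ := hQp ⟨w, hw⟩
    exact ⟨j, congrArg Subtype.val hj⟩
  have hmemR : ∀ w ∈ Q, (π w : G) ∈ R := fun w hw => by
    have h1 : π w ∈ R.subgroupOf L := hQR ▸ ⟨w, hw, rfl⟩
    exact h1
  have hmemQ : ∀ w, (∃ j, w ^ p ^ j = 1) → (π w : G) ∈ R → w ∈ Q := by
    intro w hw hwR
    have h1 : π w ∈ Q.map π := by rw [hQR]; exact hwR
    obtain ⟨q, hq, hqw⟩ := h1
    rw [← pel_unique (p := p) hk hkp (hpel q hq) hw hqw]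
    exact hq
  have hcen : ∀ x ∈ R, x ∈ L → ∀ y ∈ Q, ∀ y' : L, (y' : G) = x * (π y : G) * x⁻¹ →
      y' * (π y)⁻¹ ∈ center L := by
    intro x hx hxL y hy y' hy'
    rw [mem_center_iff]
    rintro ⟨l, hl⟩
    apply Subtype.ext
    change l * ((y' : G) * (π y : G)⁻¹) = (y' : G) * (π y : G)⁻¹ * l
    rw [hy']
    exact (hab x hx hxL _ (hmemR y hy) (π y).2 l hl).symm
  have hQab : ∀ x ∈ Q, ∀ y ∈ Q, x * y = y * x := by
    intro x hx y hy
    have h1 : π ((x * y * x⁻¹) * y⁻¹) ∈ center L := by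
      rw [map_mul, map_inv]
      refine hcen (π x) (hmemR x hx) (π x).2 y hy _ ?_
      rw [map_mul, map_mul, map_inv]
      rfl
    have h2 : ∃ j, (x * y * x⁻¹) ^ p ^ j = 1 := by
      obtain ⟨j, hj⟩ := hpel y hy
      exact ⟨j, by rw [conj_pow, hj, mul_one, mul_inv_cancel]⟩
    have h3 := eq_of_central (p := p) hd hcop hk h2 (hpel y hy) h1
    calc x * y = (x * y * x⁻¹) * x := by group
      _ = y * x := by rw [h3]
  -- the central `p`-elements of the centraliser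
  have hQC : PClosed p Q := by
    let P : Subgroup (SpecialLinearGroup K (Fin d → K)) :=
      { carrier := {w | (∃ j, w ^ p ^ j = 1) ∧ (∀ q ∈ Q, w * q = q * w) ∧
          ∀ h, (∀ q ∈ Q, h * q = q * h) → h * w = w * h}
        one_mem' := ⟨⟨0, one_pow _⟩, fun q _ => by rw [one_mul, mul_one],
          fun h _ => by rw [one_mul, mul_one]⟩
        mul_mem' := by
          rintro a b ⟨⟨i, hi⟩, ha1, ha2⟩ ⟨⟨j, hj⟩, hb1, hb2⟩
          have hab : Commute a b := hb2 a ha1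
          refine ⟨⟨i + j, ?_⟩, fun q hq => ?_, fun h hh => ?_⟩
          · rw [hab.mul_pow, pow_add, pow_mul, hi, one_pow, one_mul, mul_comm (p ^ i), pow_mul,
              hj, one_pow]
          · rw [mul_assoc, hb1 q hq, ← mul_assoc, ha1 q hq, mul_assoc]
          · rw [← mul_assoc, ha2 h hh, mul_assoc, hb2 h hh, mul_assoc]
        inv_mem' := by
          rintro a ⟨⟨i, hi⟩, ha1, ha2⟩
          refine ⟨⟨i, by rw [inv_pow, hi, inv_one]⟩, fun q hq => ?_, fun h hh => ?_⟩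
          · have h1 : Commute a q := ha1 q hq
            exact h1.inv_left
          · have h1 : Commute h a := ha2 h hh
            exact h1.inv_right }
    have hQP : Q ≤ P := fun q hq => ⟨hpel q hq, fun q' hq' => hQab q hq q' hq',
      fun h hh => hh q hq⟩
    let P' : Subgroup G := (P.map π).map L.subtype
    have hPp : IsPGroup p P := by
      rintro ⟨w, ⟨j, hj⟩, hw⟩
      exact ⟨j, Subtype.ext hj⟩
    have hle : Nat.card P' ≤ Nat.card (L ⊓ R : Subgroup G) := by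
      obtain ⟨c, hc, hec⟩ := exists_coeff_of_br hbr
      refine H12.Sl.card_le_of_normal (C := L ⊓ R) (hR.to_le inf_le_right) heL heF hee inf_le_left
        (br_ne_zero_of_coeff (c := c) (fun h hh => hc h hh.2) hec)
        ((hPp.map π).map L.subtype) ?_ ?_ inf_le_left hzF hez
      · rintro _ ⟨_, ⟨w, hw, rfl⟩, rfl⟩
        refine Subgroup.mem_inf.mpr ⟨(π w).2, Subgroup.mem_centralizer_iff.mpr ?_⟩
        rintro y ⟨hyL, hyR⟩
        have h1 : (⟨y, hyL⟩ : L) ∈ Q.map π := by rw [hQR]; exact hyR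
        obtain ⟨q, hq, hqy⟩ := h1
        have h2 : y = (π q : G) := (congrArg Subtype.val hqy).symm
        change y * (π w : G) = (π w : G) * y
        rw [h2, ← Subgroup.coe_mul, ← Subgroup.coe_mul, ← map_mul, ← map_mul, hw.2.1 q hq]
      · rintro h ⟨hhL, hhC⟩ _ ⟨_, ⟨w, hw, rfl⟩, rfl⟩
        obtain ⟨g, hg⟩ := hπ ⟨h, hhL⟩
        have h1 : ∀ q ∈ Q, g * q = q * g := by
          intro q hq
          have h2 : π (g * q * g⁻¹) = π q := by
            rw [map_mul, map_mul, map_inv, hg]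
            apply Subtype.ext
            change h * (π q : G) * h⁻¹ = (π q : G)
            have h3 := (Subgroup.mem_centralizer_iff.mp hhC) (π q : G)
              ⟨(π q).2, hmemR q hq⟩
            rw [← h3, mul_inv_cancel_right]
          have h4 : ∃ j, (g * q * g⁻¹) ^ p ^ j = 1 := by
            obtain ⟨j, hj⟩ := hpel q hq
            exact ⟨j, by rw [conj_pow, hj, mul_one, mul_inv_cancel]⟩
          have h5 := pel_unique (p := p) hk hkp h4 (hpel q hq) h2
          calc g * q = (g * q * g⁻¹) * g := by group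
            _ = q * g := by rw [h5]
        have h2 := hw.2.2 g h1
        refine ⟨π w, ⟨w, hw, rfl⟩, ?_⟩
        change (π w : G) = h * (π w : G) * h⁻¹
        have h3 : h * (π w : G) = (π w : G) * h := by
          have h4 := congrArg (fun x => ((π x : L) : G)) h2
          simp only [map_mul, hg] at h4
          exact h4
        rw [h3, mul_inv_cancel_right]
    have hPQ : P ≤ Q := by
      have h1 : Nat.card P ≤ Nat.card P' := by
        refine Nat.card_le_card_of_injective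
          (fun w : P => (⟨(π w : G), π w, ⟨w, w.2, rfl⟩, rfl⟩ : P')) ?_
        intro w w' hww
        have h2 : ((π (w : _) : L) : G) = ((π (w' : _) : L) : G) :=
          congrArg (fun t : P' => (t : G)) hww
        exact Subtype.ext (pel_unique (p := p) hk hkp w.2.1 w'.2.1 (Subtype.ext h2))
      have h2 : Nat.card (L ⊓ R : Subgroup G) ≤ Nat.card Q := by
        refine Nat.card_le_card_of_surjective
          (fun q : Q => (⟨(π (q : _) : G), (π (q : _)).2, hmemR q q.2⟩ : (L ⊓ R : Subgroup G))) ?_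
        rintro ⟨y, hyL, hyR⟩
        have h1 : (⟨y, hyL⟩ : L) ∈ Q.map π := by rw [hQR]; exact hyR
        obtain ⟨q, hq, hqy⟩ := h1
        exact ⟨⟨q, hq⟩, Subtype.ext (congrArg (fun t : L => (t : G)) hqy)⟩
      exact (Subgroup.eq_of_le_of_card_ge hQP (h1.trans (hle.trans h2))).ge
    intro u hu H w hw hwH
    have hcw : ∀ h : SpecialLinearGroup K (Fin d → K), h * u = u * h → h * w = w * h := by
      intro h hh
      apply en_inj
      rw [en_mul, en_mul, hwH]
      have h1 : Commute (en h) (en u) := by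
        change en h * en u = en u * en h
        rw [← en_mul, ← en_mul, hh]
      exact comm_aeval h1 H
    refine hPQ ⟨hw, fun q hq => (hcw q (hQab q hq u hu)).symm, fun h hh => hcw h (hh u hu)⟩
  refine ⟨hQC, ?_⟩
  intro w hw
  refine eq_of_central (p := p) hd hcop hk ?_ ⟨0, one_pow _⟩ ?_
  · obtain ⟨j, hj⟩ := hpel w hw
    exact ⟨j, by rw [← pow_mul, mul_comm, pow_mul, hj, one_pow]⟩
  · rw [inv_one, mul_one, map_pow, mem_center_iff]
    rintro ⟨l, hl⟩
    apply Subtype.ext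
    change l * (π w : G) ^ p = (π w : G) ^ p * l
    exact (hel _ (hmemR w hw) (π w).2 l hl).symm

/-- **First case**: `R ∩ L ≠ 1`. -/
theorem inner_of_elem [IsAlgClosed k] (hR : IsPGroup p R) (hp2 : p ≠ 2)
    (hn : ∀ x ∈ R, ∀ s ∈ L, x * s * x⁻¹ ∈ L) (hd : 3 ≤ d) (hpK : ¬ p ∣ Nat.card K)
    (hcop : ¬ (p ∣ d ∧ p ∣ Nat.card K - 1)) (hπ : Function.Surjective π)
    (hk : π.ker ≤ Subgroup.center _)
    (hab : ∀ x ∈ R, x ∈ L → ∀ y ∈ R, y ∈ L → ∀ l ∈ L,
      (x * y * x⁻¹ * y⁻¹) * l = l * (x * y * x⁻¹ * y⁻¹))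
    (hel : ∀ y ∈ R, y ∈ L → ∀ l ∈ L, y ^ p * l = l * y ^ p)
    {e z : MonoidAlgebra k G} (heL : e ∈ SubAlg k L) (heF : e ∈ Fix (cj k G) L) (hee : e * e = e)
    (hbr : br R e ≠ 0) (hzF : z ∈ Fix (cj k G) (L ⊓ R)) (hez : e = tr (cj k G) (L ⊓ R) L z)
    {Q : Subgroup (SpecialLinearGroup K (Fin d → K))} (hQp : IsPGroup p Q)
    (hQR : Q.map π = R.subgroupOf L) (hQ1 : Q ≠ ⊥) :
    ∀ r ∈ R, ∃ s ∈ L, ∃ c ∈ Subgroup.centralizer (L : Set G), r = s * c := by
  intro r hr
  obtain ⟨s, hs⟩ := hR ⟨r, hr⟩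
  have hs : r ^ p ^ s = 1 := congrArg Subtype.val hs
  obtain ⟨σ, g, hA⟩ := exists_acts hd hπ hk (mem_normalizer_of hn hr) (odd_pow hp2 s) hs
  have hσ := hA.pow_eq_one (by omega) hk hs
  obtain ⟨hQC, hel'⟩ := pclosed_of_ab hR hn hd hpK hcop hπ hk hab hel heL heF hee hbr hzF hez hQp
    hQR
  have hσ1 : σ = 1 := sigma_eq_one_elem (cast_ne hpK)
    (by rw [Module.finrank_fin_fun]; exact hcop) hQp hQ1 hQC hel' hσ
  rw [hσ1] at hA
  obtain ⟨s₀, hs₀⟩ := hA.inner (by omega) hk hcop hs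
  obtain ⟨c, hc, hrc⟩ := mem_sup_of_inner (s₀ := π s₀) hπ hs₀
  exact ⟨_, (π s₀).2, c, hc, hrc⟩

end

universe u

/-- **The corner property of central quotients of `SL(d, K)`**, if `D ∩ L` is elementary abelian
modulo the centre; no condition on field automorphisms. -/
theorem corP_el {k : Type u} [Field k] [IsAlgClosed k] {p C n : ℕ} [Fact p.Prime] [CharP k p]
    {G : Type} [Group G] [Finite G] {D L : Subgroup G} (hD : IsPGroup p D)
    (hDn : Nat.card D ≤ n) (hp2 : p ≠ 2) (hL : IsSLc p L)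
    (hab : ∀ x ∈ D, x ∈ L → ∀ y ∈ D, y ∈ L → ∀ l ∈ L,
      (x * y * x⁻¹ * y⁻¹) * l = l * (x * y * x⁻¹ * y⁻¹))
    (hel : ∀ y ∈ D, y ∈ L → ∀ l ∈ L, y ^ p * l = l * y ^ p)
    (b : MonoidAlgebra k G)
    (hB : ∀ R : Subgroup G, R ≤ D → R ≤ L ⊔ Subgroup.centralizer (L : Set G) →
      H365.CorP p C b R L) : H365.CorP p (max C (cycB p n)) b D L := by
  obtain ⟨K, _, _, d, π, hd, hpK, hcop, hπ, hk⟩ := hL
  haveI : Finite (SpecialLinearGroup K (Fin d → K)) := BN.finite_sl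
  rintro R hRD hn e he heR hbr ⟨z, hz, hzF, hez⟩ hez'
  have hR : IsPGroup p R := hD.to_le hRD
  have heL : e ∈ SubAlg k L := he.block.mem.1
  have heF : e ∈ Fix (cj k G) L := he.block.mem.2
  have hee : e * e = e := he.block.idem
  obtain ⟨Q, hQp, hQR⟩ : ∃ Q : Subgroup (SpecialLinearGroup K (Fin d → K)), IsPGroup p Q ∧
      Q.map π = R.subgroupOf L := BN.exists_lift (p := p) π hπ
    (hR.comap_of_injective L.subtype L.subtype_injective : IsPGroup p (R.subgroupOf L))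
  by_cases hQ1 : Q = ⊥
  · have hbot : L ⊓ R = ⊥ := by
      rw [hQ1, Subgroup.map_bot] at hQR
      rw [eq_bot_iff]
      rintro x ⟨hxL, hxR⟩
      have h1 : (⟨x, hxL⟩ : L) ∈ R.subgroupOf L := hxR
      rw [← hQR, Subgroup.mem_bot] at h1
      exact Subgroup.mem_bot.mpr (congrArg Subtype.val h1)
    have h1 := cyc_of_bot hR hp2 hn hd hcop hπ hk heL hbr hzF hez hbot
    obtain ⟨m, f, hf, hsp⟩ := cor_of_cycOn hR h1 hn he.block heR hbr ⟨z, hz, hzF, hez⟩ hez'
    have h4 : Nat.card R ≤ n :=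
      (Nat.card_le_card_of_injective _ (Subgroup.inclusion_injective hRD)).trans hDn
    exact ⟨m, f, fun j => ⟨(hf j).1, (hf j).2.1, (hf j).2.2.1,
      ((hf j).2.2.2.trans (cycB_mono h4)).trans (le_max_right _ _)⟩, hsp⟩
  · have h1 := inner_of_elem hR hp2 hn hd hpK hcop hπ hk
      (fun x hx hxL y hy hyL => hab x (hRD hx) hxL y (hRD hy) hyL)
      (fun y hy hyL => hel y (hRD hy) hyL) heL heF hee hbr hzF hez hQp hQR hQ1
    have h2 : R ≤ L ⊔ Subgroup.centralizer (L : Set G) := by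
      intro r hr
      obtain ⟨s, hs, c, hc, rfl⟩ := h1 r hr
      exact Subgroup.mul_mem _ (Subgroup.mem_sup_left hs) (Subgroup.mem_sup_right hc)
    obtain ⟨m, f, hf, hsp⟩ := hB R hRD h2 R le_rfl hn e he heR hbr ⟨z, hz, hzF, hez⟩ hez'
    exact ⟨m, f, fun j => ⟨(hf j).1, (hf j).2.1, (hf j).2.2.1,
      (hf j).2.2.2.trans (le_max_left _ _)⟩, hsp⟩

end Vale.Agent.P180.R2.H471.El
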