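import Vale.Agent.P180.R2.H471.Is3
import Vale.Agent.P180.R2.H471.Au13
import Vale.Agent.P180.R2.H854.TD4

/-! The action on a central quotient of a group of isometries of a `p`-group which centralises its
intersection with the quotient (first case): inner. -/

set_option linter.all false

namespace Vale.Agent.P180.R2.H471.Is

open Module Subgroup Vale.Agent.P180 Vale.Agent.P180.H768.Gd Vale.Agent.P180.R2.H799
  Vale.Agent.P180.R2.H954 Vale.Agent.P180.R2.H854 Vale.Agent.P180.R2.H799.BS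
  Vale.Agent.P180.R2.H854.TD
open Vale.Agent.P180.R2.H589.Sch (Pel pel_unique)
open Vale.Agent.P180.R2.H954.Hc (exists_frob theta_fix odd_of_lin eq_one_of_norm ringChar_prime
  ringChar_dvd_card)
open Vale.Agent.P180.R2.H471.Au (mem_normalizer_of mem_sup_of_inner comm_aeval)

variable {k : Type*} [Field k] {p : ℕ} [hp : Fact p.Prime] [CharP k p]
variable {K E : Type} [Field K] [Finite K] [AddCommGroup E] [Module K E] [FiniteDimensional K E]
variable {G : Type} [Group G] [Finite G]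
variable {L R : Subgroup G} {X : Subgroup (SpecialLinearGroup K E)} {π : X →* L} {Φ : HForm K E}

/-- if `π (y w⁻¹)` is central then `y = w` -/
theorem eq_of_central (hpK : ¬ p ∣ Nat.card K)
    (hlin : ∀ j : ℕ, (∀ c : K, Φ.θ c = c ^ (ringChar K ^ j)) → ¬ p ∣ ringChar K ^ j + 1)
    (hXI : X ≤ Φ.Iso)
    (hc : ∀ x : X, π x ∈ center L → (x : SpecialLinearGroup K E) ∈ center _) {y w : X}
    (hy : ∃ j, y ^ p ^ j = 1) (hw : ∃ j, w ^ p ^ j = 1) (h : π (y * w⁻¹) ∈ center L) : y = w := by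
  have h0 := hc _ h
  obtain ⟨i, hi⟩ := hy
  obtain ⟨j, hj⟩ := hw
  have h1 : Commute (y * w⁻¹) w := (Subtype.ext (mem_center_iff.mp h0 w.1)).symm
  have h2 : y = (y * w⁻¹) * w := by group
  have h3 : (y * w⁻¹) ^ p ^ (i + j) = 1 := by
    have h4 : y ^ p ^ (i + j) = 1 := by rw [pow_add, pow_mul, hi, one_pow]
    have h5 : w ^ p ^ (i + j) = 1 := by rw [add_comm, pow_add, pow_mul, hj, one_pow]
    rw [h2, h1.mul_pow, h5, mul_one] at h4
    exact h4
  have h4 := scalar_eq_one_lin hp.out hpK Φ hlin (hXI (y * w⁻¹).2) h0 (m := i + j)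
    (congrArg Subtype.val h3)
  have h5 : y * w⁻¹ = 1 := Subtype.ext h4
  rw [h2, h5, one_mul]

/-- the field automorphism has `p`-power order, and the action is inner if it is trivial -/
theorem act_pow {σ : RingAut K} {g : E → E} {r : G} (h : ActX Φ π r σ g)
    (hk : π.ker.map X.subtype ≤ center (SpecialLinearGroup K E))
    (hV : ∀ F, Φ.SD F → VF F ⊓ Φ.Iso ≤ X) (hL : Lines Φ) (h2 : 2 ≤ finrank K E) {n : ℕ}
    (hr : r ^ n = 1) : σ ^ n = 1 :=
  semi_lines (semi_iter h.1 n) h2 (h.per hk hV hL hr)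

/-- **First case**: `R ∩ L ≠ 1`. -/
theorem inner_of_ne [IsAlgClosed k] (hR : IsPGroup p R)
    (hn : ∀ x ∈ R, ∀ s ∈ L, x * s * x⁻¹ ∈ L) (h2 : 2 ≤ finrank K E) (hpK : ¬ p ∣ Nat.card K)
    (hlin : ∀ j : ℕ, (∀ c : K, Φ.θ c = c ^ (ringChar K ^ j)) → ¬ p ∣ ringChar K ^ j + 1)
    (hXI : X ≤ Φ.Iso) (hX2 : X.relIndex Φ.Iso ∣ 2) (hV : ∀ F, Φ.SD F → VF F ⊓ Φ.Iso ≤ X)
    (hL : Lines Φ) (hπ : Function.Surjective π)
    (hc : ∀ x : X, π x ∈ center L → (x : SpecialLinearGroup K E) ∈ center _)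
    (hact : ∀ r ∈ R, ∃ σ g, ActX Φ π r σ g)
    (hcc : ∀ x ∈ R, ∀ y ∈ R, y ∈ L → ∀ l ∈ L,
      (x * y * x⁻¹ * y⁻¹) * l = l * (x * y * x⁻¹ * y⁻¹))
    {e z : MonoidAlgebra k G} (heL : e ∈ SubAlg k L) (heF : e ∈ Fix (cj k G) L) (hee : e * e = e)
    (hbr : br R e ≠ 0) (hzF : z ∈ Fix (cj k G) (L ⊓ R)) (hez : e = tr (cj k G) (L ⊓ R) L z)
    {Q : Subgroup X} (hQp : IsPGroup p Q) (hQR : Q.map π = R.subgroupOf L) (hQ1 : Q ≠ ⊥) :
    ∀ r ∈ R, ∃ s ∈ L, ∃ c ∈ Subgroup.centralizer (L : Set G), r = s * c := by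
  haveI : Finite (SpecialLinearGroup K E) := BN.finite_sl
  have hp2 : Odd p := odd_of_lin hp.out hpK Φ.θ hlin
  have hk : π.ker.map X.subtype ≤ center (SpecialLinearGroup K E) := by
    rintro _ ⟨x, hx, rfl⟩
    apply hc
    rw [MonoidHom.mem_ker.mp hx]
    exact one_mem _
  have hkc : π.ker ≤ center X := by
    intro x hx
    have h1 : (x : SpecialLinearGroup K E) ∈ center _ := hk ⟨x, hx, rfl⟩
    rw [mem_center_iff] at h1 ⊢
    intro y
    exact Subtype.ext (h1 y.1)
  have hkp : ¬ p ∣ Nat.card π.ker := ker_coprime_lin hpK hlin hXI hk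
  have hpel : ∀ w ∈ Q, ∃ j, w ^ p ^ j = 1 := fun w hw => by
    obtain ⟨j, hj⟩ := hQp ⟨w, hw⟩
    exact ⟨j, congrArg Subtype.val hj⟩
  have hmemR : ∀ w ∈ Q, (π w : G) ∈ R := fun w hw => by
    have h1 : π w ∈ R.subgroupOf L := hQR ▸ ⟨w, hw, rfl⟩
    exact h1
  have hcen : ∀ x ∈ R, ∀ y ∈ Q, ∀ y' : L, (y' : G) = x * (π y : G) * x⁻¹ →
      y' * (π y)⁻¹ ∈ center L := by
    intro x hx y hy y' hy'
    rw [mem_center_iff]
    rintro ⟨l, hl⟩
    apply Subtype.ext
    change l * ((y' : G) * (π y : G)⁻¹) = (y' : G) * (π y : G)⁻¹ * l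
    rw [hy']
    exact (hcc x hx _ (hmemR y hy) (π y).2 l hl).symm
  have hQab : ∀ x ∈ Q, ∀ y ∈ Q, x * y = y * x := by
    intro x hx y hy
    have h1 : π ((x * y * x⁻¹) * y⁻¹) ∈ center L := by
      rw [map_mul, map_inv]
      refine hcen (π x) (hmemR x hx) y hy _ ?_
      rw [map_mul, map_mul, map_inv]
      rfl
    have h2 : ∃ j, (x * y * x⁻¹) ^ p ^ j = 1 := by
      obtain ⟨j, hj⟩ := hpel y hy
      exact ⟨j, by rw [conj_pow, hj, mul_one, mul_inv_cancel]⟩
    have h3 := eq_of_central hpK hlin hXI hc h2 (hpel y hy) h1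
    calc x * y = (x * y * x⁻¹) * x := by group
      _ = y * x := by rw [h3]
  -- the central `p`-elements of the centraliser
  have hQC : PClosed Φ p (Q.map X.subtype) := by
    let P : Subgroup X :=
      { carrier := {w | (∃ j, w ^ p ^ j = 1) ∧ (∀ q ∈ Q, w * q = q * w) ∧
          ∀ h, (∀ q ∈ Q, h * q = q * h) → h * w = w * h}
        one_mem' := ⟨⟨0, one_pow _⟩, fun q _ => by rw [one_mul, mul_one],
          fun h _ => by rw [one_mul, mul_one]⟩
        mul_mem' := by
          rintro a b ⟨⟨i, hi⟩, ha1, ha2⟩ ⟨⟨j, hj⟩, hb1, hb2⟩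
          have hab : Commute a b := hb2 a ha1
          refine ⟨⟨i + j, ?_⟩, fun q hq => ?_, fun h hh => ?_⟩
          · rw [hab.mul_pow, pow_add, pow_mul, hi, one_pow, one_mul, mul_comm (p ^ i), pow_mul,
              hj, one_pow]
          · rw [mul_assoc, hb1 q hq, ← mul_assoc, ha1 q hq, mul_assoc]
          · rw [← mul_assoc, ha2 h hh, mul_assoc, hb2 h hh, mul_assoc]
        inv_mem' := by
          rintro a ⟨⟨i, hi⟩, ha1, ha2⟩
          refine ⟨⟨i, by rw [inv_pow, hi, inv_one]⟩, fun q hq => ?_, fun h hh => ?_⟩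
          · have h1 : Commute a q := ha1 q hq
            exact h1.inv_left
          · have h1 : Commute h a := ha2 h hh
            exact h1.inv_right }
    have hQP : Q ≤ P := fun q hq => ⟨hpel q hq, fun q' hq' => hQab q hq q' hq',
      fun h hh => hh q hq⟩
    let P' : Subgroup G := (P.map π).map L.subtype
    have hPp : IsPGroup p P := by
      rintro ⟨w, ⟨j, hj⟩, hw⟩
      exact ⟨j, Subtype.ext hj⟩
    have hle : Nat.card P' ≤ Nat.card (L ⊓ R : Subgroup G) := by
      obtain ⟨c, hc, hec⟩ := exists_coeff_of_br hbr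
      refine H12.Sl.card_le_of_normal (C := L ⊓ R) (hR.to_le inf_le_right) heL heF hee inf_le_left
        (br_ne_zero_of_coeff (c := c) (fun h hh => hc h hh.2) hec)
        ((hPp.map π).map L.subtype) ?_ ?_ inf_le_left hzF hez
      · rintro _ ⟨_, ⟨w, hw, rfl⟩, rfl⟩
        refine Subgroup.mem_inf.mpr ⟨(π w).2, Subgroup.mem_centralizer_iff.mpr ?_⟩
        rintro y ⟨hyL, hyR⟩
        have h1 : (⟨y, hyL⟩ : L) ∈ Q.map π := by rw [hQR]; exact hyR
        obtain ⟨q, hq, hqy⟩ := h1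
        have h2 : y = (π q : G) := (congrArg Subtype.val hqy).symm
        change y * (π w : G) = (π w : G) * y
        rw [h2, ← Subgroup.coe_mul, ← Subgroup.coe_mul, ← map_mul, ← map_mul, hw.2.1 q hq]
      · rintro h ⟨hhL, hhC⟩ _ ⟨_, ⟨w, hw, rfl⟩, rfl⟩
        obtain ⟨g, hg⟩ := hπ ⟨h, hhL⟩
        have h1 : ∀ q ∈ Q, g * q = q * g := by
          intro q hq
          have h2 : π (g * q * g⁻¹) = π q := by
            rw [map_mul, map_mul, map_inv, hg]
            apply Subtype.ext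
            change h * (π q : G) * h⁻¹ = (π q : G)
            have h3 := (Subgroup.mem_centralizer_iff.mp hhC) (π q : G)
              ⟨(π q).2, hmemR q hq⟩
            rw [← h3, mul_inv_cancel_right]
          have h4 : ∃ j, (g * q * g⁻¹) ^ p ^ j = 1 := by
            obtain ⟨j, hj⟩ := hpel q hq
            exact ⟨j, by rw [conj_pow, hj, mul_one, mul_inv_cancel]⟩
          have h5 := pel_unique (p := p) hkc hkp h4 (hpel q hq) h2
          calc g * q = (g * q * g⁻¹) * g := by group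
            _ = q * g := by rw [h5]
        have h2 := hw.2.2 g h1
        refine ⟨π w, ⟨w, hw, rfl⟩, ?_⟩
        change (π w : G) = h * (π w : G) * h⁻¹
        have h3 : h * (π w : G) = (π w : G) * h := by
          have h4 := congrArg (fun x => ((π x : L) : G)) h2
          simp only [map_mul, hg] at h4
          exact h4
        rw [h3, mul_inv_cancel_right]
    have hPQ : P ≤ Q := by
      have h1 : Nat.card P ≤ Nat.card P' := by
        refine Nat.card_le_card_of_injective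
          (fun w : P => (⟨(π w : G), π w, ⟨w, w.2, rfl⟩, rfl⟩ : P')) ?_
        intro w w' hww
        have h2 : ((π (w : _) : L) : G) = ((π (w' : _) : L) : G) :=
          congrArg (fun t : P' => (t : G)) hww
        exact Subtype.ext (pel_unique (p := p) hkc hkp w.2.1 w'.2.1 (Subtype.ext h2))
      have h2 : Nat.card (L ⊓ R : Subgroup G) ≤ Nat.card Q := by
        refine Nat.card_le_card_of_surjective
          (fun q : Q => (⟨(π (q : _) : G), (π (q : _)).2, hmemR q q.2⟩ : (L ⊓ R : Subgroup G))) ?_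
        rintro ⟨y, hyL, hyR⟩
        have h1 : (⟨y, hyL⟩ : L) ∈ Q.map π := by rw [hQR]; exact hyR
        obtain ⟨q, hq, hqy⟩ := h1
        exact ⟨⟨q, hq⟩, Subtype.ext (congrArg (fun t : L => (t : G)) hqy)⟩
      exact (Subgroup.eq_of_le_of_card_ge hQP (h1.trans (hle.trans h2))).ge
    rintro _ ⟨u, hu, rfl⟩ H w hwI ⟨j, hwj⟩ hwH
    have hwX : w ∈ X := mem_of_relIndex_dvd_two hX2 hwI hp2.pow hwj
    have hcw : ∀ h : X, h * u = u * h → h * ⟨w, hwX⟩ = ⟨w, hwX⟩ * h := by
      intro h hh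
      apply Subtype.ext
      apply toEnd_injective
      change toEnd (h : SpecialLinearGroup K E) * toEnd w = toEnd w * toEnd (h : _)
      rw [hwH]
      have h1 : Commute (toEnd (h : SpecialLinearGroup K E)) (toEnd (X.subtype u)) := by
        change toEnd (h : SpecialLinearGroup K E) * toEnd (u : SpecialLinearGroup K E) =
          toEnd (u : SpecialLinearGroup K E) * toEnd (h : SpecialLinearGroup K E)
        rw [← toEnd_mul, ← toEnd_mul]
        exact congrArg (fun x : X => toEnd (x : SpecialLinearGroup K E)) hh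
      exact comm_aeval h1 H
    refine ⟨⟨w, hwX⟩, hPQ ⟨⟨j, Subtype.ext hwj⟩,
      fun q hq => (hcw q (hQab q hq u hu)).symm, fun h hh => hcw h (hh u hu)⟩, rfl⟩
  intro r hr
  obtain ⟨s, hs⟩ := hR ⟨r, hr⟩
  have hs : r ^ p ^ s = 1 := congrArg Subtype.val hs
  obtain ⟨σ, g, hA⟩ := hact r hr
  have hσ : (σ : RingAut K) ^ p ^ s = 1 := act_pow hA hk hV hL h2 hs
  have hgQ : ∀ w ∈ Q.map X.subtype, ∀ v, g (w v) = w (g v) := by
    rintro _ ⟨w, hw, rfl⟩ v
    obtain ⟨y, hy, h1⟩ := hA.2.2 w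
    have h2 : y = w := by
      refine eq_of_central hpK hlin hXI hc ?_ (hpel w hw) ?_
      · obtain ⟨j, hj⟩ := hpel w hw
        refine ⟨j, Subtype.ext ?_⟩
        have h3 := hy.pow (p ^ j)
        have h4 : (w : SpecialLinearGroup K E) ^ p ^ j = 1 := congrArg Subtype.val hj
        rw [h4] at h3
        exact Tw.unique hA.1.bij.2 h3 Tw.one
      · rw [map_mul, map_inv]
        exact hcen r hr w hw _ h1.symm
    have h3 := hy v
    rw [h2] at h3
    exact h3
  have hQ1' : Q.map X.subtype ≠ ⊥ := by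
    intro h
    rw [Subgroup.map_eq_bot_iff_of_injective _ X.subtype_injective] at h
    exact hQ1 h
  have hQI : Q.map X.subtype ≤ Φ.Iso := by
    rintro _ ⟨w, hw, rfl⟩
    exact hXI w.2
  have hσ1 : (σ : RingAut K) = 1 := sigma_eq_one hpK hlin (hQp.map _) hQ1' hQI hQC hA.1 hgQ hσ
  have hσ2 : σ = RingEquiv.refl K := hσ1
  rw [hσ2] at hA
  exact linear hpK hlin (by omega) hX2 hV hL hk hπ hA hs

end Vale.Agent.P180.R2.H471.Is
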