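import Vale.Agent.P180.R2.H471.El1
import Vale.Agent.P180.R2.H471.Is4

/-! No proper field automorphisms for elementary abelian closed subgroups of groups of isometries. -/

set_option linter.all false

namespace Vale.Agent.P180.R2.H471.El

section

open Module Polynomial Vale.Agent.P180.R2.H854 Vale.Agent.P180.R2.H799 Vale.Agent.P180.R2.H799.BS
  Vale.Agent.P180.R2.H471.Is
open Vale.Agent.P180.R2.H954.Hc (exists_frob theta_fix odd_of_lin eq_one_of_norm ringChar_prime
  ringChar_dvd_card)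
open Vale.Agent.P180.R2.H471.Au (exists_H aeval_pow_eq_one exists_order_p dvd_of_comm minpoly_map_eq)

variable {K : Type} [Field K] [Finite K] {p : ℕ} [Fact p.Prime]
variable {E : Type} [AddCommGroup E] [Module K E] [FiniteDimensional K E] {Φ : HForm K E}

/-- **No proper field automorphisms.** -/
theorem sigma_eq_one_iso (hpK : ¬ p ∣ Nat.card K)
    (hlin : ∀ j : ℕ, (∀ c : K, Φ.θ c = c ^ (ringChar K ^ j)) → ¬ p ∣ ringChar K ^ j + 1)
    {Q : Subgroup (SpecialLinearGroup K E)} (hQp : IsPGroup p Q) (hQ1 : Q ≠ ⊥) (hQI : Q ≤ Φ.Iso)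
    (hQ : Is.PClosed Φ p Q) (hel : ∀ w ∈ Q, w ^ p = 1) {σ : RingAut K} {s : ℕ}
    (hσ : σ ^ p ^ s = 1) : σ = 1 := by
  have hp : p.Prime := Fact.out
  have hp2 : Odd p := odd_of_lin hp hpK Φ.θ hlin
  have hpK0 : (p : K) ≠ 0 := by
    intro h0
    haveI : CharP K p := (CharP.charP_iff_prime_eq_zero hp).mpr h0
    have h1 : ringChar K = p := ringChar.eq K p
    exact hpK (h1 ▸ ringChar_dvd_card)
  by_contra hne
  obtain ⟨u, hu, hup, hu1⟩ := exists_order_p hQp hQ1
  have hup' : toEnd u ^ p = 1 := by rw [← BN.toEnd_pow, hup]; rfl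
  set μ := minpoly K (toEnd u) with hμ
  have hint : IsIntegral K (toEnd u) := Algebra.IsIntegral.isIntegral _
  have hμd : μ ∣ X ^ p - 1 := by
    apply minpoly.dvd
    rw [map_sub, map_pow, aeval_X, map_one, hup', sub_self]
  have hsep : (X ^ p - 1 : K[X]).Separable := (X_pow_sub_one_separable_iff).mpr hpK0
  have hsq : Squarefree (X ^ p - 1 : K[X]) := hsep.squarefree
  have hμu : ¬ IsUnit μ := by
    intro h
    have h1 : μ = 1 := (minpoly.monic hint).eq_one_of_isUnit h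
    have h2 := minpoly.aeval K (toEnd u)
    rw [← hμ, h1, map_one] at h2
    apply hu1
    apply toEnd_injective
    apply LinearMap.ext
    intro v
    have h3 := LinearMap.congr_fun h2 v
    have h4 : v = 0 := h3
    rw [h4, map_zero, map_zero]
  obtain ⟨f, hf, hfi, hfμ, hfX⟩ := Au.exists_factor (μ := μ) (q₀ := X - C (1 : K))
    (hsq.squarefree_of_dvd hμd) hμu (irreducible_X_sub_C 1) (by
      rintro ⟨R, hR⟩
      have h1 : aeval (toEnd u) (X - C (1 : K)) = 0 := by
        rw [hR, map_mul, hμ, minpoly.aeval, zero_mul]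
      rw [map_sub, aeval_X, aeval_C, map_one, sub_eq_zero] at h1
      exact hu1 (toEnd_injective h1))
  obtain ⟨f', a, b, hff, hab⟩ := exists_H hpK0 (hfμ.trans hμd)
  haveI : Fact (Irreducible f) := ⟨hfi⟩
  have hfne : f ≠ 0 := hfi.ne_zero
  haveI : Finite (AdjoinRoot f) := by
    haveI : Module.Finite K (AdjoinRoot f) := (AdjoinRoot.powerBasis hfne).finite
    exact Module.finite_of_finite K
  obtain ⟨ω, hω, hωp⟩ := exists_omega (K := K) (F := AdjoinRoot f) hσ hne
    (root_pow ⟨f', hff⟩) (root_ne hf hfi hfX)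
  obtain ⟨h, rfl⟩ := AdjoinRoot.mk_surjective ω
  obtain ⟨H, hH⟩ : ∃ H, H = h * (b * f') + a * f := ⟨_, rfl⟩
  have hHf : AdjoinRoot.mk f H = AdjoinRoot.mk f h := by
    rw [hH, map_add, map_mul, map_mul _ a f, AdjoinRoot.mk_self, mul_zero, add_zero]
    have h1 : AdjoinRoot.mk f (b * f') = 1 := by
      have h2 := congrArg (AdjoinRoot.mk f) hab
      rw [map_add, map_mul _ a f, AdjoinRoot.mk_self, mul_zero, zero_add, map_one] at h2
      exact h2
    rw [h1, mul_one]
  have hHf' : f' ∣ H - 1 := by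
    have h1 : H - 1 = f' * (h * b - b) := by
      rw [hH]
      linear_combination hab
    rw [h1]
    exact dvd_mul_right _ _
  have h1 : f ∣ H ^ p ^ 2 - 1 := by
    rw [← AdjoinRoot.mk_eq_zero, map_sub, map_pow, hHf, hω, map_one, sub_self]
  have h2 : f' ∣ H ^ p ^ 2 - 1 := by
    have h5 := sub_dvd_pow_sub_pow H 1 (p ^ 2)
    rw [one_pow] at h5
    exact hHf'.trans h5
  have h3 := aeval_pow_eq_one hup' hff ⟨a, b, hab⟩ h1 h2
  obtain ⟨w, hwI, hwj, hw⟩ := exists_iso Φ hpK hlin (hQI hu) hup h3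
  have hwQ := hQ u hu _ w hwI ⟨2, hwj⟩ hw
  obtain ⟨W, hW⟩ : ∃ W, W = H * ((H.map Φ.θ).comp (X ^ (p - 1))) ^ (p ^ 2 - 1) := ⟨_, rfl⟩
  rw [← hW] at hw
  have hWf : AdjoinRoot.mk f W = AdjoinRoot.mk f h := by
    rw [hW, map_mul, map_pow, dual_eq_one hpK hf hfi hff hfX Φ.θθ hlin hHf', one_pow, mul_one, hHf]
  have h4 : μ ∣ W ^ p - 1 := by
    apply minpoly.dvd
    rw [map_sub, map_pow, ← hw, ← BN.toEnd_pow, hel w hwQ, map_one, toEnd_one, sub_self]
  have h6 := AdjoinRoot.mk_eq_zero.mpr (hfμ.trans h4)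
  rw [map_sub, map_pow, hWf, map_one, sub_eq_zero] at h6
  exact hωp h6

end

end Vale.Agent.P180.R2.H471.El
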