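import Vale.Agent.P180.R2.H471.El0
import Vale.Agent.P180.R2.H471.Au15
import Vale.Agent.P180.R2.H471.Hc11

/-! The corner property of tame pairs without a condition on outer automorphisms: `N_D(L)` acts
trivially on `D ∩ L` modulo the centre, or `D ∩ L` is elementary abelian modulo the centre, or
`d < p` and `D ∩ L` has exponent `p` modulo the centre. -/

set_option linter.all false

namespace Vale.Agent.P180.R2.H471.El

open Module Subgroup Vale.Agent.P180 Vale.Agent.P180.H768.Gd Vale.Agent.P180.R2.H799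
  Vale.Agent.P180.R2.H365 Vale.Agent.P180.R2.H471.Au
open Vale.Agent.P180.R2.H471.Is (IsoSim)
open Vale.Agent.P180.R2.H471.Hc (comm_of_lt)

universe u

/-- **The corner property of tame pairs**, `L` a central quotient of `SL(d, K)`. -/
theorem corP_sl {k : Type u} [Field k] [IsAlgClosed k] {p m n : ℕ} [Fact p.Prime] [CharP k p]
    {G : Type} [Group G] [Finite G] {D L : Subgroup G} (hD : IsPGroup p D)
    (hDn : Nat.card D ≤ n) (hp2 : p ≠ 2) (hL : IsSLc p L) (h : AbEl p D L)
    (ht : TamePair p m L (D.subgroupOf L)) (b : MonoidAlgebra k G) :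
    H365.CorP p (abP p n m) b D L := by
  rcases h with h | h
  · exact corP_abTame hD hDn hp2 hL h ht b
  · exact corP_elTame hD hDn hp2 hL h.1 h.2 ht b

/-- **The corner property of tame pairs**, `L` a central quotient of a group of isometries, `N_D(L)`
acts by semilinear similitudes. -/
theorem corP_iso {k : Type u} [Field k] [IsAlgClosed k] {p m n : ℕ} [Fact p.Prime] [CharP k p]
    {G : Type} [Group G] [Finite G] {D L : Subgroup G} (hD : IsPGroup p D)
    (hDn : Nat.card D ≤ n) (hL : IsoSim p D L) (h : AbEl p D L)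
    (ht : TamePair p m L (D.subgroupOf L)) (b : MonoidAlgebra k G) :
    H365.CorP p (abP p n m) b D L := by
  rcases h with h | h
  · exact Is.corP_abTame hD hDn hL h ht b
  · exact corP_elTame_iso hD hDn hL h.1 h.2 ht b

/-- the `p`-subgroups of the images of subgroups of `SL(d, K)`, `d < p`, are abelian -/
theorem comm_of_dim {p : ℕ} [Fact p.Prime] {G : Type} [Group G] [Finite G] {D L : Subgroup G}
    (hD : IsPGroup p D) {K : Type} [Field K] [Finite K] {d : ℕ} (hpK : ¬ p ∣ Nat.card K)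
    (hlt : d < p) {X : Subgroup (SpecialLinearGroup K (Fin d → K))} {π : X →* L}
    (hπ : Function.Surjective π) :
    ∀ x ∈ D, x ∈ L → ∀ y ∈ D, y ∈ L → x * y = y * x := by
  intro x hx hxL y hy hyL
  haveI : Finite (SpecialLinearGroup K (Fin d → K)) := BN.finite_sl
  obtain ⟨Q, hQ, hQD⟩ := BN.exists_lift (p := p) π hπ
    (hD.comap_of_injective L.subtype L.subtype_injective : IsPGroup p (D.subgroupOf L))
  have key : ∀ z ∈ D, ∀ hz : z ∈ L, ∃ q ∈ Q, π q = ⟨z, hz⟩ := by
    intro z hzD hz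
    have h1 : (⟨z, hz⟩ : L) ∈ Q.map π := by rw [hQD]; exact hzD
    exact h1
  obtain ⟨q, hq, hqx⟩ := key x hx hxL
  obtain ⟨q', hq', hqy⟩ := key y hy hyL
  have h1 := comm_of_lt hpK hlt (hQ.map X.subtype) q.1 ⟨q, hq, rfl⟩ q'.1 ⟨q', hq', rfl⟩
  have h2 : q * q' = q' * q := Subtype.ext h1
  have h3 := congrArg π h2
  rw [map_mul, map_mul, hqx, hqy] at h3
  exact congrArg Subtype.val h3

theorem comm_of_dim_sl {p : ℕ} [Fact p.Prime] {G : Type} [Group G] [Finite G] {D L : Subgroup G}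
    (hD : IsPGroup p D) {K : Type} [Field K] [Finite K] {d : ℕ} (hpK : ¬ p ∣ Nat.card K)
    (hlt : d < p) {π : SpecialLinearGroup K (Fin d → K) →* L} (hπ : Function.Surjective π) :
    ∀ x ∈ D, x ∈ L → ∀ y ∈ D, y ∈ L → x * y = y * x :=
  comm_of_dim hD hpK hlt (X := ⊤) (π := π.comp (⊤ : Subgroup _).subtype) fun l => by
    obtain ⟨x, hx⟩ := hπ l
    exact ⟨⟨x, trivial⟩, hx⟩

theorem abEl_of_comm {p : ℕ} {G : Type} [Group G] {D L : Subgroup G}
    (hab : ∀ x ∈ D, x ∈ L → ∀ y ∈ D, y ∈ L → x * y = y * x)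
    (hel : ∀ y ∈ D, y ∈ L → ∀ l ∈ L, y ^ p * l = l * y ^ p) : AbEl p D L := by
  refine Or.inr ⟨fun x hx hxL y hy hyL l hl => ?_, hel⟩
  have h1 : x * y * x⁻¹ * y⁻¹ = 1 := by
    rw [hab x hx hxL y hy hyL, mul_inv_cancel_right, mul_inv_cancel]
  rw [h1, one_mul, mul_one]

end Vale.Agent.P180.R2.H471.El
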