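import Vale.Agent.P180.R2.H365.Gen

/-!
P180: blocks of a group with a direct factor; descent of a relative trace to the factor.
-/

set_option linter.unusedSectionVars false

namespace Vale.Agent.P180.R2.H471

open Vale.Agent.P180 Vale.Agent.P180.H768.Gd Vale.Agent.P180.R2.H365

section Min

variable {k : Type*} [Field k] {A : Type*} [Group A] [Finite A]

/-- A block which is a trace from `P` through the idempotent `f` has a defect group at which `f`
does not vanish. -/
theorem exists_min_pt {e f w : MonoidAlgebra k A} {P : Subgroup A} (he : IsBlockOf ⊤ e)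
    (hf : f ∈ Fix (cj k A) P) (hff : f * f = f) (hw : w ∈ Fix (cj k A) P)
    (hew : e = tr (cj k A) P ⊤ (f * w)) :
    ∃ Q ≤ P, (∃ a ∈ Fix (cj k A) Q, e = tr (cj k A) Q ⊤ a) ∧ br Q (f * e) ≠ 0 := by
  classical
  have heF : e ∈ Fix (cj k A) ⊤ := he.mem.2
  have hec : ∀ z : MonoidAlgebra k A, z * e = e * z := fun z =>
    commute_of_mem (SubAlg_top z) heF
  let T : Subgroup A → Prop := fun Q => Q ≤ P ∧ ∃ u ∈ Fix (cj k A) Q, ∃ w ∈ Fix (cj k A) Q,
    e = tr (cj k A) Q ⊤ (u * f * w)
  have hT : T P := ⟨le_rfl, 1, Subalgebra.one_mem _, w, hw, by rw [one_mul]; exact hew⟩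
  obtain ⟨D', ⟨hDP, u, hu, w, hw, heuw⟩, hmin⟩ := exists_minimal_of_wellFoundedLT T ⟨P, hT⟩
  have hfD : f ∈ Fix (cj k A) D' := Fix_mono _ hDP hf
  have heD : e ∈ Fix (cj k A) D' := Fix_mono _ le_top heF
  refine ⟨D', hDP, ⟨u * f * w, Subalgebra.mul_mem _ (Subalgebra.mul_mem _ hu hfD) hw, heuw⟩, ?_⟩
  intro hbr
  have hv : f * e ∈ Fix (cj k A) D' := Subalgebra.mul_mem _ hfD heD
  have hvv : (f * e) * (f * e) = f * e := by
    rw [mul_assoc, ← mul_assoc e, ← hec f, mul_assoc f e e, he.idem.eq, ← mul_assoc, hff]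
  obtain ⟨ι, hι, S, x, hSD, hS, hfix, hsum⟩ := KP.eq_sum_tr_single D' hv
  let s : ι → MonoidAlgebra k A := fun o => MonoidAlgebra.single (x o) ((f * e).coeff (x o))
  have hsfix : ∀ o, s o ∈ Fix (cj k A) (S o) := hfix
  have hfix' : ∀ o, u * s o * (f * e * w) ∈ Fix (cj k A) (S o) := fun o =>
    Subalgebra.mul_mem _ (Subalgebra.mul_mem _ (Fix_mono _ (hSD o) hu) (hsfix o))
      (Fix_mono _ (hSD o) (Subalgebra.mul_mem _ hv hw))
  have hez : e = ∑ o, tr (cj k A) (S o) ⊤ (u * s o * (f * e * w)) := by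
    have h1 : e = tr (cj k A) D' ⊤ (u * (f * e) * (f * e * w)) := by
      have h2 : e * e = tr (cj k A) D' ⊤ (u * f * w) * e := by rw [← heuw]
      rw [he.idem.eq, tr_mul heF] at h2
      have h3 : u * f * w * e = u * (f * e) * (f * e * w) := by
        calc u * f * w * e = u * (f * e) * w := by
              rw [mul_assoc, hec w, ← mul_assoc, mul_assoc u f e]
          _ = u * ((f * e) * (f * e)) * w := by rw [hvv]
          _ = u * (f * e) * (f * e * w) := by simp only [mul_assoc]
      exact h2.trans (congrArg _ h3)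
    conv_lhs => rw [h1]
    conv_lhs => enter [4, 1]; rw [hsum]
    rw [Finset.mul_sum, Finset.sum_mul, tr_sum]
    refine Finset.sum_congr rfl fun o _ => ?_
    rw [mul_tr hu, tr_mul (Subalgebra.mul_mem _ hv hw), tr_tr (hfix' o) (hSD o) le_top]
  obtain ⟨o, -, y, hy, hye, hzy⟩ := he.exists_unit_of_sum (by exact ZAlg_comm) Finset.univ
    (fun o => tr (cj k A) (S o) ⊤ (u * s o * (f * e * w)))
    (fun o _ => ⟨SubAlg_top _, tr_mem_Fix (hfix' o)⟩)
    (fun o _ => by
      rw [tr_mul heF]
      congr 1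
      rw [mul_assoc, mul_assoc (f * e) w e, hec w, ← mul_assoc (f * e) e w, mul_assoc f e e,
        he.idem.eq]) hez.symm
  have hcand : T (S o) := by
    refine ⟨(hSD o).trans hDP, u * s o, Subalgebra.mul_mem _ (Fix_mono _ (hSD o) hu) (hsfix o),
      e * w * y, ?_, ?_⟩
    · exact Subalgebra.mul_mem _ (Subalgebra.mul_mem _ (Fix_mono _ le_top heF)
        (Fix_mono _ (hSD o) hw)) (Fix_mono _ le_top hy.2)
    · have h3 : u * s o * (f * e * w) * y = u * s o * f * (e * w * y) := by
        simp only [mul_assoc]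
      have h4 : tr (cj k A) (S o) ⊤ (u * s o * (f * e * w)) * y = e := hzy
      rw [tr_mul hy.2, h3] at h4
      exact h4.symm
  have hDS : D' ≤ S o := hmin hcand (hSD o)
  have h0 : s o = 0 := by
    have h1 : (f * e).coeff (x o) = 0 := by
      have h2 : x o ∈ Subgroup.centralizer (D' : Set A) := by
        rw [mem_cent]
        exact fun d hd => (hS o d hd).mp (hDS hd)
      have h3 := congrArg (fun z : MonoidAlgebra k A => z.coeff (x o)) hbr
      simp only [br_coeff, if_pos h2] at h3
      exact h3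
    change MonoidAlgebra.single (x o) ((f * e).coeff (x o)) = 0
    rw [h1, MonoidAlgebra.single_zero]
  have hz0 : tr (cj k A) (S o) ⊤ (u * s o * (f * e * w)) = 0 := by
    rw [h0, mul_zero, zero_mul]
    have := tr_smul (ρ := cj k A) (H := S o) (K := ⊤) 0 0
    simpa using this
  rw [hz0, zero_mul] at hzy
  exact he.ne_zero hzy.symm

end Min

section Factor

variable {k : Type*} [Field k] {A Q : Type*} [Group A] [Group Q] [Finite A] [Finite Q]

/-- `A` is a direct factor of `Q` -/
structure DirFac (s : A →* Q) (π : Q →* A) : Prop where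
  sec : ∀ a, π (s a) = a
  com : ∀ a y, π y = 1 → s a * y = y * s a

variable {s : A →* Q} {π : Q →* A}

theorem DirFac.inj (h : DirFac s π) : Function.Injective s := fun a b hab => by
  rw [← h.sec a, hab, h.sec]

theorem DirFac.split (h : DirFac s π) (x : Q) : ∃ y, π y = 1 ∧ x = s (π x) * y :=
  ⟨(s (π x))⁻¹ * x, by rw [map_mul, map_inv, h.sec, inv_mul_cancel], by group⟩

theorem DirFac.conj (h : DirFac s π) (x : Q) (a : A) :
    x * s a * x⁻¹ = s (π x * a * (π x)⁻¹) := by
  obtain ⟨y, hy, hxy⟩ := h.split x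
  have h1 := h.com a y hy
  calc x * s a * x⁻¹ = s (π x) * (y * s a * y⁻¹) * (s (π x))⁻¹ := by
        conv_lhs => rw [hxy]
        group
    _ = s (π x) * s a * (s (π x))⁻¹ := by rw [← h1, mul_inv_cancel_right]
    _ = _ := by rw [map_mul, map_mul, map_inv]

/-- the embedding of group algebras -/
noncomputable abbrev mp (k : Type*) [Field k] (s : A →* Q) :
    MonoidAlgebra k A →ₐ[k] MonoidAlgebra k Q := MonoidAlgebra.mapDomainAlgHom k k s

theorem mp_single (s : A →* Q) (a : A) (r : k) :
    mp k s (MonoidAlgebra.single a r) = MonoidAlgebra.single (s a) r := by simp [mp]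

theorem DirFac.cj_mp (h : DirFac s π) (x : Q) (a : MonoidAlgebra k A) :
    cj k Q x (mp k s a) = mp k s (cj k A (π x) a) := by
  induction a using MonoidAlgebra.induction_linear with
  | zero => simp
  | add a b ha hb => simp only [map_add, ha, hb]
  | single g r => rw [mp_single, cj_single, cj_single, mp_single, h.conj]

/-- the slice of an element at an element of the kernel of `π` -/
noncomputable def slice (s : A →* Q) (y : Q) (c : MonoidAlgebra k Q) : MonoidAlgebra k A :=
  MonoidAlgebra.ofCoeff (Finsupp.equivFunOnFinite.symm fun x => c.coeff (s x * y))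

theorem slice_coeff (s : A →* Q) (y : Q) (c : MonoidAlgebra k Q) (x : A) :
    (slice s y c).coeff x = c.coeff (s x * y) := rfl

theorem slice_add (s : A →* Q) (y : Q) (c d : MonoidAlgebra k Q) :
    slice s y (c + d) = slice s y c + slice s y d := by
  ext x
  rw [slice_coeff, MonoidAlgebra.coeff_add, MonoidAlgebra.coeff_add, Finsupp.add_apply,
    Finsupp.add_apply, slice_coeff, slice_coeff]

theorem slice_sum {ι : Type*} (t : Finset ι) (s : A →* Q) (y : Q) (c : ι → MonoidAlgebra k Q) :
    slice s y (∑ i ∈ t, c i) = ∑ i ∈ t, slice s y (c i) := by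
  ext x
  rw [slice_coeff, MonoidAlgebra.coeff_sum, MonoidAlgebra.coeff_sum, Finsupp.finsetSum_apply,
    Finsupp.finsetSum_apply]
  rfl

theorem slice_mul (y : Q) (a : MonoidAlgebra k A) (c : MonoidAlgebra k Q) :
    slice s y (mp k s a * c) = a * slice s y c := by
  induction a using MonoidAlgebra.induction_linear with
  | zero => ext x; simp [slice_coeff]
  | add a b ha hb => rw [map_add, add_mul, slice_add, ha, hb, add_mul]
  | single g r =>
    ext x
    rw [mp_single, slice_coeff, MonoidAlgebra.coeff_single_mul_apply,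
      MonoidAlgebra.coeff_single_mul_apply, slice_coeff, s.map_mul, s.map_inv, mul_assoc]

theorem slice_cj (h : DirFac s π) {y : Q} (hy : π y = 1) (x : A) (c : MonoidAlgebra k Q) :
    slice s y (cj k Q (s x) c) = cj k A x (slice s y c) := by
  ext z
  rw [slice_coeff, cj_coeff, cj_coeff, slice_coeff]
  congr 1
  have h1 := h.com x y hy
  calc (s x)⁻¹ * (s z * y) * s x = (s x)⁻¹ * s z * (y * s x) := by group
    _ = (s x)⁻¹ * s z * (s x * y) := by rw [h1]
    _ = s (x⁻¹ * z * x) * y := by rw [map_mul, map_mul, map_inv]; group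

open scoped Classical in
theorem sum_slice [Fintype Q] (h : DirFac s π) (c : MonoidAlgebra k Q) :
    c = ∑ y : Q, if π y = 1 then mp k s (slice s y c) * MonoidAlgebra.single y 1 else 0 := by
  have _ := Fintype.ofFinite A
  have hco : ∀ (b : MonoidAlgebra k A) (a : A), (mp k s b).coeff (s a) = b.coeff a := by
    intro b a
    induction b using MonoidAlgebra.induction_linear with
    | zero => simp
    | add b d hb hd =>
      rw [map_add, MonoidAlgebra.coeff_add, MonoidAlgebra.coeff_add, Finsupp.add_apply,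
        Finsupp.add_apply, hb, hd]
    | single g r =>
      rw [mp_single, MonoidAlgebra.coeff_single, MonoidAlgebra.coeff_single, Finsupp.single_apply,
        Finsupp.single_apply]
      simp only [h.inj.eq_iff]
  have hco0 : ∀ (b : MonoidAlgebra k A) (u : Q), u ∉ s.range → (mp k s b).coeff u = 0 := by
    intro b u hu
    induction b using MonoidAlgebra.induction_linear with
    | zero => simp
    | add b d hb hd =>
      rw [map_add, MonoidAlgebra.coeff_add, Finsupp.add_apply, hb, hd, add_zero]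
    | single g r =>
      rw [mp_single, MonoidAlgebra.coeff_single, Finsupp.single_apply, if_neg]
      rintro rfl
      exact hu ⟨g, rfl⟩
  ext u
  rw [MonoidAlgebra.coeff_sum, Finsupp.finsetSum_apply]
  obtain ⟨y₀, hy₀, huy⟩ := h.split u
  rw [Finset.sum_eq_single y₀]
  · rw [if_pos hy₀, MonoidAlgebra.coeff_mul_single_apply, mul_one]
    have h1 : u * y₀⁻¹ = s (π u) := by
      conv_lhs => rw [huy]
      group
    rw [h1, hco, slice_coeff, ← huy]
  · intro y _ hy
    by_cases h1 : π y = 1
    · rw [if_pos h1, MonoidAlgebra.coeff_mul_single_apply, mul_one]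
      apply hco0
      rintro ⟨a, ha⟩
      apply hy
      have h2 : u = s a * y := by rw [ha]; group
      have h3 : π u = a := by rw [h2, map_mul, h.sec, h1, mul_one]
      rw [h3] at huy
      exact mul_left_cancel (h2.symm.trans huy)
    · rw [if_neg h1]; rfl
  · intro h1; exact absurd (Finset.mem_univ _) h1

theorem DirFac.tr_eq (h : DirFac s π) {R : Subgroup Q} {a : MonoidAlgebra k Q}
    [Fintype (A ⧸ R.map π)] (ha : a ∈ Fix (cj k Q) ((R.map π).comap π)) :
    tr (cj k Q) ((R.map π).comap π) ⊤ a = ∑ q : A ⧸ R.map π, cj k Q (s q.out) a := by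
  rw [tr_eq_sum' (ι := A ⧸ R.map π) ha (fun q : A ⧸ R.map π => s q.out)
    (fun _ => Subgroup.mem_top _)]
  · intro q r hqr
    rw [← QuotientGroup.out_eq' q, ← QuotientGroup.out_eq' r, QuotientGroup.eq]
    rw [Subgroup.mem_comap, π.map_mul, π.map_inv, h.sec, h.sec] at hqr
    exact hqr
  · intro x _
    refine ⟨(QuotientGroup.mk (π x) : A ⧸ R.map π), ?_⟩
    rw [Subgroup.mem_comap, π.map_mul, π.map_inv, h.sec, ← QuotientGroup.eq,
      QuotientGroup.out_eq']

/-- **Descent of a relative trace to a direct factor.** -/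
theorem factor_trace (h : DirFac s π) {e : MonoidAlgebra k Q} {e₁ : MonoidAlgebra k A}
    (he0 : e ≠ 0) (hee : e * e = e) (he₁ : IsBlockOf ⊤ e₁) (hle : e * mp k s e₁ = e)
    {R : Subgroup Q} {f₁ : MonoidAlgebra k A} (hf₁ : f₁ ∈ Fix (cj k A) (R.map π))
    {g : MonoidAlgebra k Q} (hg : g ∈ Fix (cj k Q) R)
    (heg : e = tr (cj k Q) R ⊤ (mp k s f₁ * g)) :
    ∃ w ∈ Fix (cj k A) (R.map π), e₁ = tr (cj k A) (R.map π) ⊤ (f₁ * w) := by
  classical
  have _ := Fintype.ofFinite Q
  have _ := Fintype.ofFinite (A ⧸ R.map π)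
  set P := R.map π with hP
  have hRK : R ≤ P.comap π := fun x hx => ⟨x, hx, rfl⟩
  set c := tr (cj k Q) R (P.comap π) g with hc
  have hcK : c ∈ Fix (cj k Q) (P.comap π) := tr_mem_Fix hg
  have hmf : mp k s f₁ ∈ Fix (cj k Q) (P.comap π) := by
    intro x hx
    rw [h.cj_mp, hf₁ _ hx]
  have hfc : mp k s f₁ * c ∈ Fix (cj k Q) (P.comap π) := Subalgebra.mul_mem _ hmf hcK
  have he1 : e = ∑ q : A ⧸ P, cj k Q (s q.out) (mp k s f₁ * c) := by
    rw [← h.tr_eq hfc, hc, mul_tr hmf, tr_tr (Subalgebra.mul_mem _ (Fix_mono _ hRK hmf) hg) hRK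
      le_top]
    exact heg
  have hsl : ∀ y, π y = 1 → slice s y c ∈ Fix (cj k A) P := by
    intro y hy x hx
    rw [← slice_cj h hy, hcK (s x) (show π (s x) ∈ P by rwa [h.sec])]
  have hz : ∀ y, π y = 1 → slice s y e = tr (cj k A) P ⊤ (f₁ * slice s y c) := by
    intro y hy
    rw [tr_eq_sum' (Subalgebra.mul_mem _ hf₁ (hsl y hy)) (fun q : A ⧸ P => q.out)
      (fun _ => Subgroup.mem_top _)]
    · rw [he1, slice_sum]
      refine Finset.sum_congr rfl fun q _ => ?_
      rw [slice_cj h hy, slice_mul]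
    · intro q r hqr
      rw [← QuotientGroup.out_eq' q, ← QuotientGroup.out_eq' r, QuotientGroup.eq]
      exact hqr
    · intro x _
      refine ⟨(QuotientGroup.mk x : A ⧸ P), ?_⟩
      rw [← QuotientGroup.eq, QuotientGroup.out_eq']
  have hzZ : ∀ y, π y = 1 → slice s y e ∈ Fix (cj k A) ⊤ := by
    intro y hy
    rw [hz y hy]
    exact tr_mem_Fix (Subalgebra.mul_mem _ hf₁ (hsl y hy))
  have hcen : ∀ a : MonoidAlgebra k A, a ∈ Fix (cj k A) ⊤ → ∀ b : MonoidAlgebra k Q,
      mp k s a * b = b * mp k s a := by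
    intro a ha b
    symm
    apply commute_of_mem (SubAlg_top b)
    intro x _
    rw [h.cj_mp, ha _ trivial]
  have hze : ∀ y, π y = 1 → slice s y e * e₁ = slice s y e := by
    intro y hy
    have h1 : mp k s e₁ * e = e := by rw [hcen _ he₁.mem.2, hle]
    have h2 := congrArg (slice s y) h1
    rw [slice_mul] at h2
    rw [commute_of_mem (SubAlg_top _) he₁.mem.2]
    exact h2
  by_cases hex : ∃ y, π y = 1 ∧ ¬ IsNilpotent (slice s y e)
  · obtain ⟨y, hy, hny⟩ := hex
    rcases he₁.dichotomy (by exact ZAlg_comm) (x := slice s y e) ⟨SubAlg_top _, hzZ y hy⟩ (hze y hy) with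
      h1 | ⟨z, hzm, hzb, hz'⟩
    · exact absurd h1 hny
    · refine ⟨slice s y c * z, Subalgebra.mul_mem _ (hsl y hy) (Fix_mono _ le_top hzm.2), ?_⟩
      rw [← mul_assoc, ← tr_mul hzm.2, ← hz y hy, hz']
  · exfalso
    push Not at hex
    obtain ⟨u, hu, hu'⟩ := exists_kill
      ((Finset.univ.filter fun y : Q => π y = 1).image fun y => mp k s (slice s y e))
      (by
        intro t ht
        obtain ⟨y, hy, rfl⟩ := Finset.mem_image.1 ht
        obtain ⟨n, hn⟩ := hex y (Finset.mem_filter.1 hy).2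
        exact ⟨n, by rw [← map_pow, hn, map_zero]⟩)
      (by
        intro t ht r
        obtain ⟨y, hy, rfl⟩ := Finset.mem_image.1 ht
        exact hcen _ (hzZ y (Finset.mem_filter.1 hy).2) r) e he0
    apply hu
    have h1 : u * e = u * e * e := by rw [mul_assoc, hee]
    rw [h1]
    conv_lhs => enter [2]; rw [sum_slice h e]
    rw [Finset.mul_sum]
    apply Finset.sum_eq_zero
    intro y _
    by_cases hy : π y = 1
    · rw [if_pos hy, ← mul_assoc, ← hcen _ (hzZ y hy), hu' _ (Finset.mem_image_of_mem _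
        (Finset.mem_filter.2 ⟨Finset.mem_univ _, hy⟩)), zero_mul]
    · rw [if_neg hy, mul_zero]

/-- the block of a direct factor under a block -/
theorem exists_factor_block (h : DirFac s π) {e : MonoidAlgebra k Q} (he : IsBlockOf ⊤ e) :
    ∃ e₁ : MonoidAlgebra k A, IsBlockOf ⊤ e₁ ∧ e * mp k s e₁ = e := by
  classical
  have hfin : FiniteDimensional k (MonoidAlgebra k Q) :=
    Module.Finite.equiv (MonoidAlgebra.coeffLinearEquiv k (M := Q) (S := k)).symm
  have hinj : Function.Injective (mp k s) := MonoidAlgebra.mapDomain_injective h.inj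
  have hcomm : ∀ x ∈ (ZAlg k (⊤ : Subgroup A)).map (mp k s),
      ∀ y ∈ (ZAlg k (⊤ : Subgroup A)).map (mp k s), x * y = y * x := by
    rintro _ ⟨x, hx, rfl⟩ _ ⟨y, hy, rfl⟩
    change mp k s x * mp k s y = mp k s y * mp k s x
    rw [← map_mul, ← map_mul, ZAlg_comm x hx y hy]
  obtain ⟨e', he', hne⟩ := exists_isPrimIn ((ZAlg k (⊤ : Subgroup A)).map (mp k s)) hcomm
    he.ne_zero
  obtain ⟨⟨e₁, he₁, rfl⟩, hidem, hne0, hprim⟩ := he'
  have hidem' : e₁ * e₁ = e₁ := by
    apply hinj
    rw [map_mul]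
    exact hidem
  have hmc : mp k s e₁ ∈ Fix (cj k Q) ⊤ := by
    intro x _
    rw [h.cj_mp, he₁.2 _ trivial]
  refine ⟨e₁, ⟨he₁, hidem', ?_, ?_⟩, ?_⟩
  · rintro rfl
    exact hne0 (map_zero _)
  · intro c hc hcc hce
    rcases hprim (mp k s c) ⟨c, hc, rfl⟩ (by
        change mp k s c * mp k s c = mp k s c
        rw [← map_mul]
        exact congrArg _ hcc) (by
        change mp k s c * mp k s e₁ = mp k s c
        rw [← map_mul, hce]) with h1 | h1
    · left
      apply hinj
      rw [map_zero]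
      exact h1
    · right
      exact hinj h1
  · have hec : ∀ z : MonoidAlgebra k Q, z * e = e * z := fun z =>
      commute_of_mem (SubAlg_top z) he.mem.2
    rcases he.primitive (e * mp k s e₁) ⟨SubAlg_top _, Subalgebra.mul_mem _ he.mem.2 hmc⟩ (by
        change e * mp k s e₁ * (e * mp k s e₁) = e * mp k s e₁
        rw [mul_assoc, ← mul_assoc (mp k s e₁), hec (mp k s e₁), mul_assoc e (mp k s e₁),
          ← map_mul, hidem', ← mul_assoc, he.idem.eq]) (by
        rw [mul_assoc, hec, ← mul_assoc, he.idem.eq]) with h1 | h1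
    · exact absurd h1 hne
    · exact h1

end Factor

end Vale.Agent.P180.R2.H471
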