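import Mathlib

/-! Characters of finite groups as functions: closure properties and positivity. -/

namespace Vale.Agent.P180.R2.H471.Hc

universe u

open Module

section
variable {K : Type u} [Field K]

/-- `φ` is the character of a finite dimensional representation -/
def IsCh (K : Type u) [Field K] (H : Type) [Group H] (φ : H → K) : Prop :=
  ∃ (V : Type u) (_ : AddCommGroup V) (_ : Module K V) (_ : Module.Finite K V)
    (ρ : Representation K H V), ∀ h, ρ.character h = φ h

variable {H : Type} [Group H]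

theorem IsCh.mk' {V : Type u} [AddCommGroup V] [Module K V] [Module.Finite K V]
    (ρ : Representation K H V) : IsCh K H ρ.character :=
  ⟨V, inferInstance, inferInstance, inferInstance, ρ, fun _ => rfl⟩

theorem IsCh.congr {φ ψ : H → K} (h : IsCh K H φ) (he : ∀ x, φ x = ψ x) : IsCh K H ψ := by
  obtain ⟨V, i1, i2, i3, ρ, hρ⟩ := h
  exact ⟨V, i1, i2, i3, ρ, fun x => (hρ x).trans (he x)⟩

theorem IsCh.comp {φ : H → K} (h : IsCh K H φ) {H' : Type} [Group H'] (f : H' →* H) :
    IsCh K H' (fun x => φ (f x)) := by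
  obtain ⟨V, i1, i2, i3, ρ, hρ⟩ := h
  exact ⟨V, i1, i2, i3, ρ.comp f, fun x => hρ (f x)⟩

theorem IsCh.add {φ ψ : H → K} (h : IsCh K H φ) (h' : IsCh K H ψ) :
    IsCh K H (fun x => φ x + ψ x) := by
  obtain ⟨V, i1, i2, i3, ρ, hρ⟩ := h
  obtain ⟨V', i1', i2', i3', ρ', hρ'⟩ := h'
  refine ⟨V × V', inferInstance, inferInstance, inferInstance, ρ.prod ρ', fun x => ?_⟩
  show _ = φ x + ψ x
  rw [← hρ, ← hρ']
  exact LinearMap.trace_prodMap' (ρ x) (ρ' x)

theorem IsCh.mul {φ ψ : H → K} (h : IsCh K H φ) (h' : IsCh K H ψ) :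
    IsCh K H (fun x => φ x * ψ x) := by
  obtain ⟨V, i1, i2, i3, ρ, hρ⟩ := h
  obtain ⟨V', i1', i2', i3', ρ', hρ'⟩ := h'
  refine ⟨TensorProduct K V V', inferInstance, inferInstance, inferInstance, ρ.tprod ρ',
    fun x => ?_⟩
  show _ = φ x * ψ x
  rw [← hρ, ← hρ', Representation.char_tensor]
  rfl

theorem isCh_zero : IsCh K H (fun _ => 0) := by
  refine ⟨PUnit, inferInstance, inferInstance, inferInstance, 1, fun x => ?_⟩
  have : ((1 : Representation K H PUnit.{u+1}) x) = 0 := Subsingleton.elim _ _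
  exact (congrArg (LinearMap.trace K PUnit.{u+1}) this).trans (map_zero _)

theorem IsCh.nsmul {φ : H → K} (h : IsCh K H φ) (a : ℕ) : IsCh K H (fun x => a * φ x) := by
  induction a with
  | zero => exact isCh_zero.congr fun x => by simp
  | succ a ih => exact (ih.add h).congr fun x => by push_cast; ring

theorem IsCh.conj {φ : H → K} (h : IsCh K H φ) (x y : H) : φ (x * y * x⁻¹) = φ y := by
  obtain ⟨V, i1, i2, i3, ρ, hρ⟩ := h
  rw [← hρ, ← hρ, Representation.char_conj]

theorem IsCh.mul_comm {φ : H → K} (h : IsCh K H φ) (x y : H) : φ (x * y) = φ (y * x) := by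
  obtain ⟨V, i1, i2, i3, ρ, hρ⟩ := h
  rw [← hρ, ← hρ, Representation.char_mul_comm]

theorem IsCh.one {φ : H → K} (h : IsCh K H φ) : ∃ n : ℕ, φ 1 = n := by
  obtain ⟨V, i1, i2, i3, ρ, hρ⟩ := h
  exact ⟨Module.finrank K V, by rw [← hρ, Representation.char_one]⟩

variable [Fintype H]

/-- scalar product -/
noncomputable def ip (φ ψ : H → K) : K := (Nat.card H : K)⁻¹ * ∑ h, φ h * ψ h⁻¹

theorem ip_comm (φ ψ : H → K) : ip φ ψ = ip ψ φ := by
  unfold ip
  congr 1
  rw [← Equiv.sum_comp (Equiv.inv H)]
  refine Finset.sum_congr rfl fun h _ => ?_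
  simp only [Equiv.inv_apply, inv_inv]
  exact _root_.mul_comm _ _

theorem ip_add_left (φ φ' ψ : H → K) : ip (fun x => φ x + φ' x) ψ = ip φ ψ + ip φ' ψ := by
  unfold ip
  rw [← mul_add, ← Finset.sum_add_distrib]
  congr 1
  exact Finset.sum_congr rfl fun h _ => by ring

theorem ip_add_right (φ ψ ψ' : H → K) : ip φ (fun x => ψ x + ψ' x) = ip φ ψ + ip φ ψ' := by
  rw [ip_comm, ip_add_left, ip_comm ψ, ip_comm ψ']

theorem ip_mul_left (c : K) (φ ψ : H → K) : ip (fun x => c * φ x) ψ = c * ip φ ψ := by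
  unfold ip
  have : ∑ h, c * φ h * ψ h⁻¹ = c * ∑ h, φ h * ψ h⁻¹ := by
    rw [Finset.mul_sum]
    exact Finset.sum_congr rfl fun h _ => by ring
  rw [this]
  ring

theorem ip_mul_right (c : K) (φ ψ : H → K) : ip φ (fun x => c * ψ x) = c * ip φ ψ := by
  rw [ip_comm, ip_mul_left, ip_comm]

variable [CharZero K]

theorem card_ne : ((Nat.card H : ℕ) : K) ≠ 0 := by
  have : Nat.card H ≠ 0 := Nat.card_pos.ne'
  exact_mod_cast this

theorem ip_eq_finrank {V W : Type u} [AddCommGroup V] [Module K V] [Module.Finite K V]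
    [AddCommGroup W] [Module K W] [Module.Finite K W] (ρ : Representation K H V)
    (σ : Representation K H W) :
    ip σ.character ρ.character = Module.finrank K (Representation.IntertwiningMap ρ σ) := by
  have : Invertible (Nat.card H : K) := invertibleOfNonzero card_ne
  exact Representation.card_inv_mul_sum_char_mul_char_eq_finrank ρ σ

theorem IsCh.ip_nat {φ ψ : H → K} (h : IsCh K H φ) (h' : IsCh K H ψ) :
    ∃ n : ℕ, ip φ ψ = n := by
  obtain ⟨V, i1, i2, i3, ρ, hρ⟩ := h
  obtain ⟨V', i1', i2', i3', ρ', hρ'⟩ := h'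
  have e1 : ρ.character = φ := funext hρ
  have e2 : ρ'.character = ψ := funext hρ'
  exact ⟨Module.finrank K (Representation.IntertwiningMap ρ' ρ), by
    rw [← ip_eq_finrank, e1, e2]⟩

omit [Fintype H] [CharZero K] in
/-- additivity of the trace -/
theorem trace_split {V W U : Type u} [AddCommGroup V] [Module K V] [Module.Finite K V]
    [AddCommGroup W] [Module K W] [Module.Finite K W] [AddCommGroup U] [Module K U]
    [Module.Finite K U] (i : W →ₗ[K] V) (r : V →ₗ[K] W) (s : U →ₗ[K] V) (π : V →ₗ[K] U)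
    (h1 : ∀ v, i (r v) + s (π v) = v) (h2 : ∀ w, r (i w) = w) (h3 : ∀ x, π (s x) = x)
    (T : V →ₗ[K] V) (TW : W →ₗ[K] W) (TU : U →ₗ[K] U) (h4 : ∀ w, i (TW w) = T (i w))
    (h5 : ∀ v, TU (π v) = π (T v)) :
    LinearMap.trace K V T = LinearMap.trace K W TW + LinearMap.trace K U TU := by
  have e1 : T = (T ∘ₗ i) ∘ₗ r + (T ∘ₗ s) ∘ₗ π := by
    ext v
    simp only [LinearMap.add_apply, LinearMap.comp_apply]
    rw [← map_add, h1]
  have e2 : r ∘ₗ (T ∘ₗ i) = TW := by
    ext w
    simp only [LinearMap.comp_apply]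
    rw [← h4, h2]
  have e3 : π ∘ₗ (T ∘ₗ s) = TU := by
    ext x
    simp only [LinearMap.comp_apply]
    rw [← h5, h3]
  conv_lhs => rw [e1]
  rw [map_add, LinearMap.trace_comp_comm' r (T ∘ₗ i), LinearMap.trace_comp_comm' π (T ∘ₗ s),
    e2, e3]

/-- common constituents -/
theorem exists_common {φ ψ : H → K} (h : IsCh K H φ) (h' : IsCh K H ψ) (hne : ip φ ψ ≠ 0) :
    ∃ φ' ψ' θ : H → K, IsCh K H φ' ∧ IsCh K H ψ' ∧ IsCh K H θ ∧ (∀ x, φ x = φ' x + θ x) ∧
      (∀ x, ψ x = ψ' x + θ x) ∧ θ 1 ≠ 0 := by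
  obtain ⟨V, i1, i2, i3, ρ, hρ⟩ := h
  obtain ⟨V', i1', i2', i3', σ, hσ⟩ := h'
  have h1 : ip σ.character ρ.character ≠ 0 := by
    rw [ip_comm]
    have e1 : ρ.character = φ := funext hρ
    have e2 : σ.character = ψ := funext hσ
    rw [e1, e2]
    exact hne
  rw [ip_eq_finrank] at h1
  have h2 : Module.finrank K (Representation.IntertwiningMap ρ σ) ≠ 0 := by
    intro h
    apply h1
    rw [h]
    simp
  have h3 : ∃ f : Representation.IntertwiningMap ρ σ, f ≠ 0 := by
    by_contra hcon
    push Not at hcon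
    apply h2
    have : Subsingleton (Representation.IntertwiningMap ρ σ) :=
      ⟨fun a b => by rw [hcon a, hcon b]⟩
    exact Module.finrank_zero_of_subsingleton
  obtain ⟨f, hf⟩ := h3
  let F : V →ₗ[K] V' := f.toLinearMap
  have hF : ∀ g v, F (ρ g v) = σ g (F v) := fun g v =>
    Representation.IntertwiningMap.isIntertwining (ρ := ρ) (σ := σ) f g v
  have hF0 : F ≠ 0 := by
    intro h
    apply hf
    apply Representation.IntertwiningMap.toLinearMap_injective
    exact h
  -- kernel representation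
  let κ : Representation K H (LinearMap.ker F) :=
    ρ.subrepresentation (LinearMap.ker F) (fun g v hv => by
      rw [Submodule.mem_comap, LinearMap.mem_ker, hF, LinearMap.mem_ker.mp hv, map_zero])
  have hran : ∀ g, LinearMap.range F ≤ (LinearMap.range F).comap (σ g) := by
    rintro g _ ⟨v, rfl⟩
    exact ⟨ρ g v, hF g v⟩
  let τ : Representation K H (LinearMap.range F) := σ.subrepresentation (LinearMap.range F) hran
  let ω : Representation K H (V' ⧸ LinearMap.range F) := σ.quotient (LinearMap.range F) hran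
  refine ⟨κ.character, ω.character, τ.character, IsCh.mk' _, IsCh.mk' _, IsCh.mk' _, ?_, ?_, ?_⟩
  · intro x
    rw [← hρ]
    obtain ⟨r, hr⟩ := (LinearMap.ker F).subtype.exists_leftInverse_of_injective
      (Submodule.ker_subtype _)
    -- section of `F.rangeRestrict` with values in the kernel of `r`
    obtain ⟨s0, hs0⟩ := F.rangeRestrict.exists_rightInverse_of_surjective
      (LinearMap.range_rangeRestrict F)
    let s : LinearMap.range F →ₗ[K] V := s0 - (LinearMap.ker F).subtype ∘ₗ r ∘ₗ s0
    have hri : ∀ w : LinearMap.ker F, r (w : V) = w := fun w => LinearMap.congr_fun hr w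
    have hs0' : ∀ y, F.rangeRestrict (s0 y) = y := fun y => LinearMap.congr_fun hs0 y
    have hker : ∀ w : LinearMap.ker F, F.rangeRestrict (w : V) = 0 := fun w =>
      Subtype.ext w.2
    apply trace_split (LinearMap.ker F).subtype r s F.rangeRestrict
    · intro v
      have h4 : v - s0 (F.rangeRestrict v) ∈ LinearMap.ker F := by
        rw [LinearMap.mem_ker, map_sub]
        have := congrArg Subtype.val (hs0' (F.rangeRestrict v))
        change F (s0 (F.rangeRestrict v)) = F v at this
        rw [this, sub_self]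
      have h5 := hri ⟨_, h4⟩
      have h6 := congrArg Subtype.val h5
      rw [map_sub] at h6
      simp only [s, LinearMap.sub_apply, LinearMap.comp_apply, Submodule.subtype_apply]
      simp only [AddSubgroupClass.coe_sub] at h6
      have h7 : (r v : V) = v - s0 (F.rangeRestrict v) + (r (s0 (F.rangeRestrict v)) : V) := by
        rw [← h6]; abel
      rw [h7]
      abel
    · exact hri
    · intro y
      simp only [s, LinearMap.sub_apply, LinearMap.comp_apply, Submodule.subtype_apply, map_sub]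
      rw [hs0', hker, sub_zero]
    · intro w
      rfl
    · intro v
      apply Subtype.ext
      exact (hF x v).symm
  · intro x
    rw [← hσ, add_comm]
    obtain ⟨r, hr⟩ := (LinearMap.range F).subtype.exists_leftInverse_of_injective
      (Submodule.ker_subtype _)
    obtain ⟨s0, hs0⟩ := (LinearMap.range F).mkQ.exists_rightInverse_of_surjective
      (Submodule.range_mkQ _)
    let s : (V' ⧸ LinearMap.range F) →ₗ[K] V' := s0 - (LinearMap.range F).subtype ∘ₗ r ∘ₗ s0
    have hri : ∀ w : LinearMap.range F, r (w : V') = w := fun w => LinearMap.congr_fun hr w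
    have hs0' : ∀ y, (LinearMap.range F).mkQ (s0 y) = y := fun y => LinearMap.congr_fun hs0 y
    have hker : ∀ w : LinearMap.range F, (LinearMap.range F).mkQ (w : V') = 0 := fun w =>
      (Submodule.Quotient.mk_eq_zero _).mpr w.2
    apply trace_split (LinearMap.range F).subtype r s (LinearMap.range F).mkQ
    · intro v
      have h4 : v - s0 ((LinearMap.range F).mkQ v) ∈ LinearMap.range F := by
        rw [← Submodule.Quotient.mk_eq_zero, ← Submodule.mkQ_apply, map_sub, hs0', sub_self]
      have h5 := hri ⟨_, h4⟩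
      have h6 := congrArg Subtype.val h5
      rw [map_sub] at h6
      simp only [s, LinearMap.sub_apply, LinearMap.comp_apply, Submodule.subtype_apply]
      simp only [AddSubgroupClass.coe_sub] at h6
      have h7 : (r v : V') = v - s0 ((LinearMap.range F).mkQ v) +
          (r (s0 ((LinearMap.range F).mkQ v)) : V') := by
        rw [← h6]; abel
      rw [h7]
      abel
    · exact hri
    · intro y
      simp only [s, LinearMap.sub_apply, LinearMap.comp_apply, Submodule.subtype_apply, map_sub]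
      rw [hs0', hker, sub_zero]
    · intro w
      rfl
    · intro v
      rfl
  · rw [Representation.char_one]
    have h4 : Nontrivial (LinearMap.range F) := by
      obtain ⟨v, hv⟩ : ∃ v, F v ≠ 0 := by
        by_contra hcon
        push Not at hcon
        exact hF0 (LinearMap.ext hcon)
      exact ⟨⟨⟨F v, v, rfl⟩, 0, fun h => hv (congrArg Subtype.val h)⟩⟩
    have h5 : Module.finrank K (LinearMap.range F) ≠ 0 := (Module.finrank_pos).ne'
    exact_mod_cast h5

theorem cs_aux (n : ℕ) : ∀ {φ ψ : H → K}, IsCh K H φ → IsCh K H ψ → ∀ {d a b c : ℕ}, φ 1 = d →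
    d ≤ n → ip φ φ = a → ip φ ψ = b → ip ψ ψ = c → 2 * b ≤ a + c := by
  induction n with
  | zero =>
    intro φ ψ hφ hψ d a b c hd hdn ha hb hc
    by_cases hne : ip φ ψ = 0
    · rw [hne] at hb
      have : b = 0 := by exact_mod_cast hb.symm
      omega
    · obtain ⟨φ', ψ', θ, h1, h2, h3, h4, h5, h6⟩ := exists_common hφ hψ hne
      exfalso
      obtain ⟨m, hm⟩ := h1.one
      obtain ⟨m', hm'⟩ := h3.one
      have h7 := h4 1
      rw [hd, hm, hm'] at h7
      have h8 : d = m + m' := by exact_mod_cast h7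
      apply h6
      rw [hm']
      have : m' = 0 := by omega
      rw [this]
      simp
  | succ n ih =>
    intro φ ψ hφ hψ d a b c hd hdn ha hb hc
    by_cases hne : ip φ ψ = 0
    · rw [hne] at hb
      have : b = 0 := by exact_mod_cast hb.symm
      omega
    · obtain ⟨φ', ψ', θ, h1, h2, h3, h4, h5, h6⟩ := exists_common hφ hψ hne
      obtain ⟨m, hm⟩ := h1.one
      obtain ⟨m', hm'⟩ := h3.one
      have h7 := h4 1
      rw [hd, hm, hm'] at h7
      have h8 : d = m + m' := by exact_mod_cast h7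
      have h9 : m' ≠ 0 := by
        intro h
        apply h6
        rw [hm', h]
        simp
      obtain ⟨a', ha'⟩ := h1.ip_nat h1
      obtain ⟨b', hb'⟩ := h1.ip_nat h2
      obtain ⟨c', hc'⟩ := h2.ip_nat h2
      obtain ⟨x, hx⟩ := h1.ip_nat h3
      obtain ⟨y, hy⟩ := h2.ip_nat h3
      obtain ⟨z, hz⟩ := h3.ip_nat h3
      have h10 := ih h1 h2 (d := m) hm (by omega) ha' hb' hc'
      have eφ : φ = fun x => φ' x + θ x := funext h4
      have eψ : ψ = fun x => ψ' x + θ x := funext h5
      rw [eφ] at ha hb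
      rw [eψ] at hb hc
      rw [ip_add_left, ip_add_right, ip_add_right, ha', hx, ip_comm θ, hx, hz] at ha
      rw [ip_add_left, ip_add_right, ip_add_right, hb', hx, ip_comm θ ψ', hy, hz] at hb
      rw [ip_add_left, ip_add_right, ip_add_right, hc', hy, ip_comm θ, hy, hz] at hc
      have ha2 : a' + x + (x + z) = a := by exact_mod_cast ha
      have hb2 : b' + x + (y + z) = b := by exact_mod_cast hb
      have hc2 : c' + y + (y + z) = c := by exact_mod_cast hc
      omega

/-- Cauchy–Schwarz in arithmetic-geometric form -/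
theorem cs {φ ψ : H → K} (hφ : IsCh K H φ) (hψ : IsCh K H ψ) (t : ℕ) {a b c : ℕ}
    (ha : ip φ φ = a) (hb : ip φ ψ = b) (hc : ip ψ ψ = c) : 2 * t * b ≤ t * t * a + c := by
  have h1 := hφ.nsmul t
  obtain ⟨d, hd⟩ := h1.one
  have h2 := cs_aux (K := K) d h1 hψ hd (le_refl _) (a := t * t * a) (b := t * b) (c := c)
    (by rw [ip_mul_left, ip_mul_right, ha]; push_cast; ring)
    (by rw [ip_mul_left, hb]; push_cast; ring) hc
  calc 2 * t * b = 2 * (t * b) := by ring
    _ ≤ _ := h2

end

end Vale.Agent.P180.R2.H471.Hc
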