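import Vale.Agent.P180.R2.H471.Hc1

/-! Averages over normal subgroups and induction of characters. -/

namespace Vale.Agent.P180.R2.H471.Hc

universe u

open Module

section
variable {K : Type u} [Field K]
variable {H : Type} [Group H]

variable (K) in
open Classical in
/-- indicator -/
noncomputable def ic {α : Type} (S : Set α) (g : α) : K := if g ∈ S then 1 else 0

theorem ic_pos {α : Type} {S : Set α} {g : α} (h : g ∈ S) : ic K S g = 1 := if_pos h

theorem ic_neg {α : Type} {S : Set α} {g : α} (h : g ∉ S) : ic K S g = 0 := if_neg h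

theorem ic_congr {α β : Type} {S : Set α} {T : Set β} {g : α} {h : β} (e : g ∈ S ↔ h ∈ T) :
    ic K S g = ic K T h := by
  by_cases hg : g ∈ S
  · rw [ic_pos hg, ic_pos (e.mp hg)]
  · rw [ic_neg hg, ic_neg (fun h => hg (e.mpr h))]

variable [Fintype H]

/-- average over a subgroup -/
noncomputable def av (J : Subgroup H) (φ : H → K) (h : H) : K :=
  (Nat.card J : K)⁻¹ * ∑ g, ic K (J : Set H) g * φ (g * h)

theorem sum_ic (J : Subgroup H) : ∑ g, ic K (J : Set H) g = Nat.card J := by
  classical
  unfold ic
  rw [Finset.sum_boole]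
  congr 1
  rw [Nat.card_eq_fintype_card, Fintype.card_subtype]
  rfl

theorem sum_ic_mul (J : Subgroup H) [Fintype J] (f : H → K) :
    ∑ g, ic K (J : Set H) g * f g = ∑ g : J, f g := by
  classical
  unfold ic
  simp only [ite_mul, one_mul, zero_mul]
  rw [← Finset.sum_filter]
  exact Finset.sum_subtype _ (by simp) _

omit [Fintype H] in
theorem ic_mul_left {J : Subgroup H} {j : H} (hj : j ∈ J) (g : H) :
    ic K (J : Set H) (j * g) = ic K (J : Set H) g :=
  ic_congr (J.mul_mem_cancel_left hj)

omit [Fintype H] in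
theorem ic_mul_right {J : Subgroup H} {j : H} (hj : j ∈ J) (g : H) :
    ic K (J : Set H) (g * j) = ic K (J : Set H) g :=
  ic_congr (J.mul_mem_cancel_right hj)

omit [Fintype H] in
theorem ic_inv {J : Subgroup H} (g : H) : ic K (J : Set H) g⁻¹ = ic K (J : Set H) g :=
  ic_congr J.inv_mem_iff

variable [CharZero K]

theorem cardS_ne (J : Subgroup H) : ((Nat.card J : ℕ) : K) ≠ 0 := by
  have : Nat.card J ≠ 0 := Nat.card_pos.ne'
  exact_mod_cast this

theorem IsCh.average {φ : H → K} (h : IsCh K H φ) (J : Subgroup H) [hJ : J.Normal] :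
    IsCh K H (av J φ) := by
  have hmc := h.mul_comm
  obtain ⟨V, i1, i2, i3, ρ, hρ⟩ := h
  let W : Submodule K V :=
    { carrier := {v | ∀ j ∈ J, ρ j v = v}
      add_mem' := by
        intro a b ha hb j hj
        rw [map_add, ha j hj, hb j hj]
      zero_mem' := by
        intro j _
        exact map_zero _
      smul_mem' := by
        intro c a ha j hj
        rw [map_smul, ha j hj] }
  have hW : ∀ g, W ≤ W.comap (ρ g) := by
    intro g v hv j hj
    have h1 : g⁻¹ * j * g ∈ J := by
      have := hJ.conj_mem j hj g⁻¹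
      rwa [inv_inv] at this
    have h2 := hv _ h1
    have h3 : j * g = g * (g⁻¹ * j * g) := by group
    rw [← Module.End.mul_apply, ← map_mul, h3, map_mul, Module.End.mul_apply, h2]
  refine ⟨W, inferInstance, inferInstance, inferInstance, ρ.subrepresentation W hW, fun x => ?_⟩
  -- the projection
  let P : V →ₗ[K] V := (Nat.card J : K)⁻¹ • ∑ g : H, ic K (J : Set H) g • ρ g
  have hPap : ∀ v, P v = (Nat.card J : K)⁻¹ • ∑ g : H, ic K (J : Set H) g • ρ g v := by
    intro v
    simp only [P, LinearMap.smul_apply, LinearMap.sum_apply]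
  have hPmem : ∀ v, P v ∈ W := by
    intro v j hj
    rw [hPap, map_smul, map_sum]
    congr 1
    rw [← Equiv.sum_comp (Equiv.mulLeft j⁻¹)]
    refine Finset.sum_congr rfl fun g _ => ?_
    rw [map_smul, Equiv.coe_mulLeft, ic_mul_left (J.inv_mem hj), ← Module.End.mul_apply,
      ← map_mul, mul_inv_cancel_left]
  have hPw : ∀ w ∈ W, P w = w := by
    intro w hw
    rw [hPap]
    have h1 : (∑ g : H, ic K (J : Set H) g • ρ g w) = (∑ g : H, ic K (J : Set H) g) • w := by
      rw [Finset.sum_smul]
      refine Finset.sum_congr rfl fun g _ => ?_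
      by_cases hg : g ∈ J
      · rw [hw g hg]
      · rw [ic_neg (show g ∉ (J : Set H) from hg), zero_smul, zero_smul]
    rw [h1, sum_ic, smul_smul, inv_mul_cancel₀ (cardS_ne J), one_smul]
  have hT : ∀ v, (ρ x ∘ₗ P) v ∈ W := fun v => hW x (hPmem v)
  have h1 : LinearMap.trace K V (ρ x ∘ₗ P) = av J φ x := by
    have e1 : ρ x ∘ₗ P = (Nat.card J : K)⁻¹ • ∑ g : H, ic K (J : Set H) g • ρ (x * g) := by
      ext v
      rw [LinearMap.comp_apply, hPap, map_smul, map_sum, LinearMap.smul_apply, LinearMap.sum_apply]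
      congr 1
      refine Finset.sum_congr rfl fun g _ => ?_
      rw [map_smul, LinearMap.smul_apply, map_mul, Module.End.mul_apply]
    rw [e1, map_smul, map_sum, smul_eq_mul]
    unfold av
    congr 1
    refine Finset.sum_congr rfl fun g _ => ?_
    rw [map_smul, smul_eq_mul, hmc, ← hρ]
    rfl
  rw [← h1, ← LinearMap.trace_restrict_eq_of_forall_mem W (ρ x ∘ₗ P) hT]
  unfold Representation.character
  congr 1
  ext w
  change ρ x (w : V) = ρ x (P (w : V))
  rw [hPw _ w.2]

omit [Fintype H] [CharZero K] in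
/-- permutation characters -/
theorem isCh_perm {Ω : Type} [Fintype Ω] (f : H →* Equiv.Perm Ω) :
    IsCh K H (fun h => ∑ x : Ω, ic K {y | f h y = y} x) := by
  classical
  let ρ : Representation K H (Ω → K) :=
    { toFun := fun h => LinearMap.funLeft K K (f h⁻¹)
      map_one' := by
        ext v x
        simp
      map_mul' := by
        intro a b
        ext v x
        simp [LinearMap.funLeft_apply, Module.End.mul_apply] }
  refine ⟨Ω → K, inferInstance, inferInstance, inferInstance, ρ, fun h => ?_⟩
  unfold Representation.character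
  rw [LinearMap.trace_eq_matrix_trace K (Pi.basisFun K Ω)]
  unfold Matrix.trace
  refine Finset.sum_congr rfl fun x _ => ?_
  rw [Matrix.diag_apply, LinearMap.toMatrix_apply]
  change (Pi.basisFun K Ω).repr (LinearMap.funLeft K K (f h⁻¹) (Pi.basisFun K Ω x)) x = _
  rw [Pi.basisFun_repr, LinearMap.funLeft_apply, Pi.basisFun_apply]
  by_cases hx : f h x = x
  · rw [ic_pos (show x ∈ {y | f h y = y} from hx)]
    have : f h⁻¹ x = x := by
      rw [map_inv]
      exact (Equiv.Perm.inv_eq_iff_eq).mpr hx.symm
    rw [this, Pi.single_eq_same]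
  · rw [ic_neg (show x ∉ {y | f h y = y} from hx)]
    apply Pi.single_eq_of_ne
    intro h'
    apply hx
    rw [map_inv, Equiv.Perm.inv_eq_iff_eq] at h'
    exact h'.symm

end

end Vale.Agent.P180.R2.H471.Hc
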