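import Vale.Agent.P180.R2.H471.Hc2

/-! Characters of subgroups as functions on the ambient group; induction. -/

namespace Vale.Agent.P180.R2.H471.Hc

universe u

section
variable {K : Type u} [Field K] [CharZero K]
variable {G : Type} [Group G] [Fintype G]

/-- `φ` restricted to `S` is a character of `S` -/
def ChOn (S : Subgroup G) (φ : G → K) : Prop := IsCh K S (fun h : S => φ h)

/-- scalar product on a subgroup -/
noncomputable def ips (S : Subgroup G) (φ ψ : G → K) : K :=
  (Nat.card S : K)⁻¹ * ∑ g, ic K (S : Set G) g * (φ g * ψ g⁻¹)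

omit [CharZero K] in
theorem ips_eq (S : Subgroup G) [Fintype S] (φ ψ : G → K) :
    ips S φ ψ = ip (fun h : S => φ h) (fun h : S => ψ h) := by
  unfold ips ip
  rw [sum_ic_mul S (fun g => φ g * ψ g⁻¹)]
  rfl

theorem ChOn.ips_nat {S : Subgroup G} {φ ψ : G → K} (h : ChOn S φ) (h' : ChOn S ψ) :
    ∃ n : ℕ, ips S φ ψ = n := by
  classical
  rw [ips_eq]
  exact IsCh.ip_nat h h'

theorem ChOn.cs {S : Subgroup G} {φ ψ : G → K} (hφ : ChOn S φ) (hψ : ChOn S ψ) (t : ℕ)
    {a b c : ℕ} (ha : ips S φ φ = a) (hb : ips S φ ψ = b) (hc : ips S ψ ψ = c) :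
    2 * t * b ≤ t * t * a + c := by
  classical
  rw [ips_eq] at ha hb hc
  exact Hc.cs hφ hψ t ha hb hc

omit [CharZero K] in
theorem ips_comm (S : Subgroup G) (φ ψ : G → K) : ips S φ ψ = ips S ψ φ := by
  classical
  rw [ips_eq, ips_eq, ip_comm]

omit [Fintype G] [CharZero K] in
theorem ChOn.conj {S : Subgroup G} {φ : G → K} (h : ChOn S φ) {x y : G} (hx : x ∈ S)
    (hy : y ∈ S) : φ (x * y * x⁻¹) = φ y :=
  IsCh.conj h ⟨x, hx⟩ ⟨y, hy⟩

omit [Fintype G] [CharZero K] in
theorem ChOn.mul_comm {S : Subgroup G} {φ : G → K} (h : ChOn S φ) {x y : G} (hx : x ∈ S)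
    (hy : y ∈ S) : φ (x * y) = φ (y * x) :=
  IsCh.mul_comm h ⟨x, hx⟩ ⟨y, hy⟩

omit [Fintype G] [CharZero K] in
theorem ChOn.mono {S T : Subgroup G} {φ : G → K} (h : ChOn S φ) (hTS : T ≤ S) : ChOn T φ :=
  IsCh.comp h (Subgroup.inclusion hTS)

omit [Fintype G] [CharZero K] in
theorem ChOn.congr {S : Subgroup G} {φ ψ : G → K} (h : ChOn S φ) (he : ∀ x ∈ S, φ x = ψ x) :
    ChOn S ψ :=
  IsCh.congr h (fun x => he x x.2)

omit [Fintype G] [CharZero K] in
/-- conjugation -/
theorem ChOn.map_conj {S : Subgroup G} {φ : G → K} (h : ChOn S φ) (w : G) :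
    ChOn (S.comap (MulAut.conj w).toMonoidHom) (fun g => φ (w * g * w⁻¹)) := by
  let f : (S.comap (MulAut.conj w).toMonoidHom) →* S :=
    ((MulAut.conj w).toMonoidHom.comp (Subgroup.subtype _)).codRestrict S (fun x => x.2)
  exact IsCh.comp h f

/-- averages -/
theorem ChOn.average {S : Subgroup G} {φ : G → K} (h : ChOn S φ) {J : Subgroup G} (hJ : J ≤ S)
    (hn : ∀ s ∈ S, ∀ j ∈ J, s * j * s⁻¹ ∈ J) : ChOn S (av J φ) := by
  classical
  have : (J.subgroupOf S).Normal :=
    ⟨fun j hj s => hn s s.2 j hj⟩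
  refine (IsCh.average h (J.subgroupOf S)).congr fun x => ?_
  unfold av
  have e1 : Nat.card (J.subgroupOf S) = Nat.card J :=
    Nat.card_congr (Subgroup.subgroupOfEquivOfLe hJ).toEquiv
  rw [e1]
  congr 1
  have e2 : ∑ g : G, ic K (J : Set G) g * φ (g * x) =
      ∑ g : G, ic K (S : Set G) g * (ic K (J : Set G) g * φ (g * x)) := by
    refine Finset.sum_congr rfl fun g _ => ?_
    by_cases hg : g ∈ S
    · rw [ic_pos (show g ∈ (S : Set G) from hg), one_mul]
    · have hgJ : g ∉ (J : Set G) := fun h => hg (hJ h)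
      rw [ic_neg hgJ, zero_mul, mul_zero]
  rw [e2, sum_ic_mul S (fun g => ic K (J : Set G) g * φ (g * x))]
  refine Finset.sum_congr rfl fun g _ => ?_
  congr 1

/-- induction -/
noncomputable def indG (S S' : Subgroup G) (φ : G → K) (g : G) : K :=
  (Nat.card S : K)⁻¹ * ∑ x, ic K (S' : Set G) x * (ic K (S : Set G) (x * g * x⁻¹) *
    φ (x * g * x⁻¹))

theorem ChOn.ind {S S' : Subgroup G} {φ : G → K} (h : ChOn S φ) (hS : S ≤ S') :
    ChOn S' (indG S S' φ) := by
  classical
  let f : (S × S') →* Equiv.Perm S' :=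
    { toFun := fun a =>
        { toFun := fun x => Subgroup.inclusion hS a.1 * x * a.2⁻¹
          invFun := fun x => (Subgroup.inclusion hS a.1)⁻¹ * x * a.2
          left_inv := fun x => by group
          right_inv := fun x => by group }
      map_one' := by
        ext x
        simp
      map_mul' := by
        intro a b
        ext x
        simp [mul_assoc] }
  have h1 : IsCh K (S × S') (fun a => φ (a.1 : G) * ∑ x : S', ic K {y | f a y = y} x) :=
    IsCh.mul (IsCh.comp h (MonoidHom.fst S S')) (isCh_perm f)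
  have hJn : (Subgroup.prod (⊤ : Subgroup S) (⊥ : Subgroup S')).Normal := Subgroup.prod_normal _ _
  have h2 := (h1.average (Subgroup.prod ⊤ ⊥)).comp (MonoidHom.inr S S')
  refine h2.congr fun g => ?_
  unfold av indG
  have e1 : Nat.card (Subgroup.prod (⊤ : Subgroup S) (⊥ : Subgroup S')) = Nat.card S := by
    rw [Nat.card_congr (Subgroup.prodEquiv _ _).toEquiv, Nat.card_prod]
    simp
  rw [e1]
  congr 1
  rw [Fintype.sum_prod_type]
  have e2 : ∀ h' : S, (∑ g' : S', ic K ((Subgroup.prod (⊤ : Subgroup S) (⊥ : Subgroup S') :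
      Subgroup (S × S')) : Set (S × S')) (h', g') * ((fun a : S × S' => φ (a.1 : G) *
        ∑ x : S', ic K {y | f a y = y} x) ((h', g') * (MonoidHom.inr S S') g))) =
      φ h' * ∑ x : S', ic K {y | f (h', g) y = y} x := by
    intro h'
    rw [Finset.sum_eq_single 1]
    · rw [ic_pos, one_mul]
      · simp
      · simp [Subgroup.mem_prod]
    · intro g' _ hg'
      rw [ic_neg, zero_mul]
      simp [Subgroup.mem_prod, hg']
    · intro h
      exact absurd (Finset.mem_univ _) h
  rw [Finset.sum_congr rfl fun h' _ => e2 h']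
  simp only [Finset.mul_sum]
  rw [Finset.sum_comm, sum_ic_mul S' (fun x => ic K (S : Set G) (x * (g : G) * x⁻¹) *
    φ (x * (g : G) * x⁻¹))]
  refine Finset.sum_congr rfl fun x _ => ?_
  by_cases hx : (x : G) * g * (x : G)⁻¹ ∈ S
  · rw [ic_pos (show (x : G) * g * (x : G)⁻¹ ∈ (S : Set G) from hx), one_mul,
      Finset.sum_eq_single ⟨_, hx⟩]
    · rw [ic_pos, mul_one]
      apply Subtype.ext
      change (x : G) * g * (x : G)⁻¹ * x * (g : G)⁻¹ = x
      group
    · intro h' _ hh'
      rw [ic_neg, mul_zero]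
      intro h3
      apply hh'
      apply Subtype.ext
      have h4 := congrArg (fun y : S' => (y : G)) h3
      change (h' : G) * x * (g : G)⁻¹ = x at h4
      change (h' : G) = x * g * (x : G)⁻¹
      have h5 : (x : G) * g * (x : G)⁻¹ = (h' : G) * x * (g : G)⁻¹ * g * (x : G)⁻¹ := by rw [h4]
      rw [h5]
      group
    · intro h
      exact absurd (Finset.mem_univ _) h
  · rw [ic_neg (show (x : G) * g * (x : G)⁻¹ ∉ (S : Set G) from hx), zero_mul]
    apply Finset.sum_eq_zero
    intro h' _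
    rw [ic_neg, mul_zero]
    intro h3
    apply hx
    have h4 := congrArg (fun y : S' => (y : G)) h3
    change (h' : G) * x * (g : G)⁻¹ = x at h4
    have h5 : (x : G) * g * (x : G)⁻¹ = (h' : G) := by
      have h6 : (x : G) * g * (x : G)⁻¹ = (h' : G) * x * (g : G)⁻¹ * g * (x : G)⁻¹ := by rw [h4]
      rw [h6]
      group
    rw [h5]
    exact h'.2

end

end Vale.Agent.P180.R2.H471.Hc
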