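import Vale.Agent.P180.R2.H471.Hc3

/-! Frobenius reciprocity, Mackey, averages. -/

namespace Vale.Agent.P180.R2.H471.Hc

universe u

section
variable {K : Type u} [Field K] [CharZero K]
variable {G : Type} [Group G] [Fintype G]

/-- preimage of `S` under conjugation by `x` -/
def cjS (S : Subgroup G) (x : G) : Subgroup G := S.comap (MulAut.conj x).toMonoidHom

omit [Fintype G] in
theorem mem_cjS {S : Subgroup G} {x g : G} : g ∈ cjS S x ↔ x * g * x⁻¹ ∈ S := Iff.rfl

omit [CharZero K] in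
theorem sum_conj (x : G) (f : G → K) : ∑ g, f (x * g * x⁻¹) = ∑ g, f g :=
  Equiv.sum_comp (MulAut.conj x).toEquiv f

theorem frob {S S' : Subgroup G} (hS : S ≤ S') {φ : G → K}
    (hφ : ∀ x ∈ S', ∀ y ∈ S', φ (x * y * x⁻¹) = φ y) (ψ : G → K) :
    ips S' φ (indG S S' ψ) = ips S φ ψ := by
  unfold ips indG
  have key : ∀ x : G, ic K (S' : Set G) x * ∑ g, ic K (S' : Set G) g * (φ g *
      (ic K (S : Set G) (x * g⁻¹ * x⁻¹) * ψ (x * g⁻¹ * x⁻¹))) =
      ic K (S' : Set G) x * ∑ g, ic K (S : Set G) g * (φ g * ψ g⁻¹) := by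
    intro x
    by_cases hx : x ∈ S'
    · rw [ic_pos (show x ∈ (S' : Set G) from hx), one_mul, one_mul]
      rw [← sum_conj x (fun g => ic K (S : Set G) g * (φ g * ψ g⁻¹))]
      refine Finset.sum_congr rfl fun g _ => ?_
      have e1 : x * g⁻¹ * x⁻¹ = (x * g * x⁻¹)⁻¹ := by group
      rw [e1, ic_inv]
      by_cases hg : g ∈ S'
      · rw [ic_pos (show g ∈ (S' : Set G) from hg), hφ x hx g hg]
        ring
      · have h2 : x * g * x⁻¹ ∉ (S : Set G) := by
          intro h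
          apply hg
          have h3 : g = x⁻¹ * (x * g * x⁻¹) * x := by group
          rw [h3]
          exact S'.mul_mem (S'.mul_mem (S'.inv_mem hx) (hS h)) hx
        rw [ic_neg h2, zero_mul, zero_mul, mul_zero, mul_zero]
    · rw [ic_neg (show x ∉ (S' : Set G) from hx), zero_mul, zero_mul]
  have e1 : ∑ g, ic K (S' : Set G) g * (φ g * ((Nat.card S : K)⁻¹ * ∑ x, ic K (S' : Set G) x *
      (ic K (S : Set G) (x * g⁻¹ * x⁻¹) * ψ (x * g⁻¹ * x⁻¹)))) =
      (Nat.card S : K)⁻¹ * ∑ x, ic K (S' : Set G) x * ∑ g, ic K (S' : Set G) g * (φ g *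
      (ic K (S : Set G) (x * g⁻¹ * x⁻¹) * ψ (x * g⁻¹ * x⁻¹))) := by
    simp only [Finset.mul_sum]
    rw [Finset.sum_comm]
    refine Finset.sum_congr rfl fun x _ => Finset.sum_congr rfl fun g _ => ?_
    ring
  rw [e1, Finset.sum_congr rfl fun x _ => key x, ← Finset.sum_mul, sum_ic]
  have := cardS_ne (K := K) S'
  field_simp

omit [Fintype G] [CharZero K] in
theorem ic_inf (S T : Subgroup G) (g : G) :
    ic K ((S ⊓ T : Subgroup G) : Set G) g = ic K (S : Set G) g * ic K (T : Set G) g := by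
  by_cases h1 : g ∈ S
  · by_cases h2 : g ∈ T
    · rw [ic_pos (show g ∈ ((S ⊓ T : Subgroup G) : Set G) from ⟨h1, h2⟩),
        ic_pos (show g ∈ (S : Set G) from h1), ic_pos (show g ∈ (T : Set G) from h2), one_mul]
    · rw [ic_neg (show g ∉ ((S ⊓ T : Subgroup G) : Set G) from fun h => h2 h.2),
        ic_neg (show g ∉ (T : Set G) from h2), mul_zero]
  · rw [ic_neg (show g ∉ ((S ⊓ T : Subgroup G) : Set G) from fun h => h1 h.1),
      ic_neg (show g ∉ (S : Set G) from h1), zero_mul]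

/-- Mackey -/
theorem mackey {S S' : Subgroup G} (hS : S ≤ S') {φ : G → K} (hφ : ChOn S φ) :
    ips S' (indG S S' φ) (indG S S' φ) =
      ((Nat.card S : K)⁻¹) ^ 2 * ∑ x, ic K (S' : Set G) x *
        ((Nat.card (S ⊓ cjS S x : Subgroup G) : K) *
          ips (S ⊓ cjS S x) (fun g => φ (x * g * x⁻¹)) φ) := by
  rw [frob hS (fun x hx y hy => (hφ.ind hS).conj hx hy)]
  unfold ips indG
  have e1 : ∑ g, ic K (S : Set G) g * ((Nat.card S : K)⁻¹ * (∑ x, ic K (S' : Set G) x *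
      (ic K (S : Set G) (x * g * x⁻¹) * φ (x * g * x⁻¹))) * φ g⁻¹) =
      (Nat.card S : K)⁻¹ * ∑ x, ic K (S' : Set G) x *
        ∑ g, ic K ((S ⊓ cjS S x : Subgroup G) : Set G) g * (φ (x * g * x⁻¹) * φ g⁻¹) := by
    simp only [Finset.mul_sum, Finset.sum_mul]
    rw [Finset.sum_comm]
    refine Finset.sum_congr rfl fun x _ => Finset.sum_congr rfl fun g _ => ?_
    rw [ic_inf]
    have e2 : ic K ((cjS S x : Subgroup G) : Set G) g = ic K (S : Set G) (x * g * x⁻¹) :=
      ic_congr Iff.rfl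
    rw [e2]
    ring
  rw [e1, pow_two, ← mul_assoc]
  congr 1
  refine Finset.sum_congr rfl fun x _ => ?_
  congr 1
  have := cardS_ne (K := K) (S ⊓ cjS S x)
  rw [← mul_assoc, mul_inv_cancel₀ this, one_mul]

/-- moving an average -/
theorem ips_av {T J : Subgroup G} (hJ : J ≤ T) (φ : G → K) {ψ : G → K}
    (hψ : ∀ g ∈ T, ∀ j ∈ J, ψ (g * j) = ψ g) : ips T (av J φ) ψ = ips T φ ψ := by
  unfold ips av
  have key : ∀ j : G, ic K (J : Set G) j * ∑ g, ic K (T : Set G) g * (φ (j * g) * ψ g⁻¹) =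
      ic K (J : Set G) j * ∑ g, ic K (T : Set G) g * (φ g * ψ g⁻¹) := by
    intro j
    by_cases hj : j ∈ J
    · congr 1
      rw [← Equiv.sum_comp (Equiv.mulLeft j)
        (fun g => ic K (T : Set G) g * (φ g * ψ g⁻¹))]
      refine Finset.sum_congr rfl fun g _ => ?_
      simp only [Equiv.coe_mulLeft]
      rw [ic_mul_left (hJ hj)]
      by_cases hg : g ∈ T
      · rw [mul_inv_rev, hψ g⁻¹ (T.inv_mem hg) j⁻¹ (J.inv_mem hj)]
      · rw [ic_neg (show g ∉ (T : Set G) from hg), zero_mul, zero_mul]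
    · rw [ic_neg (show j ∉ (J : Set G) from hj), zero_mul, zero_mul]
  have e1 : ∑ g, ic K (T : Set G) g * ((Nat.card J : K)⁻¹ * (∑ j, ic K (J : Set G) j *
      φ (j * g)) * ψ g⁻¹) = (Nat.card J : K)⁻¹ * ∑ j, ic K (J : Set G) j *
        ∑ g, ic K (T : Set G) g * (φ (j * g) * ψ g⁻¹) := by
    simp only [Finset.mul_sum, Finset.sum_mul]
    rw [Finset.sum_comm]
    refine Finset.sum_congr rfl fun x _ => Finset.sum_congr rfl fun g _ => ?_
    ring
  rw [e1, Finset.sum_congr rfl fun j _ => key j, ← Finset.sum_mul, sum_ic, ← mul_assoc,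
    ← mul_assoc, mul_assoc (Nat.card T : K)⁻¹, inv_mul_cancel₀ (cardS_ne J), mul_one]

/-- averages over a product `M = Z I` of left `Z`-invariant functions -/
theorem avg_prod {Z I M : Subgroup G} (hZ : Z ≤ M) (hI : I ≤ M)
    (hM : ∀ m ∈ M, ∃ z ∈ Z, ∃ i ∈ I, m = z * i) {F : G → K}
    (hF : ∀ z ∈ Z, ∀ m ∈ M, F (z * m) = F m) :
    (Nat.card M : K)⁻¹ * ∑ m, ic K (M : Set G) m * F m =
      (Nat.card I : K)⁻¹ * ∑ i, ic K (I : Set G) i * F i := by
  -- double counting
  have key : ∀ F : G → K, (∀ z ∈ Z, ∀ m ∈ M, F (z * m) = F m) →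
      (∑ z, ic K (Z : Set G) z * ic K (I : Set G) z) * ∑ m, ic K (M : Set G) m * F m =
      (Nat.card Z : K) * ∑ i, ic K (I : Set G) i * F i := by
    intro F hF
    have h1 : ∑ m, ∑ z, ic K (Z : Set G) z * (ic K (I : Set G) (z⁻¹ * m) *
        (ic K (M : Set G) m * F m)) =
        (∑ z, ic K (Z : Set G) z * ic K (I : Set G) z) * ∑ m, ic K (M : Set G) m * F m := by
      rw [Finset.mul_sum]
      refine Finset.sum_congr rfl fun m _ => ?_
      by_cases hm : m ∈ M
      · obtain ⟨z₀, hz₀, i₀, hi₀, rfl⟩ := hM m hm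
        rw [Finset.sum_mul, ← Equiv.sum_comp (Equiv.mulLeft z₀)]
        refine Finset.sum_congr rfl fun z _ => ?_
        simp only [Equiv.coe_mulLeft]
        rw [ic_mul_left hz₀]
        have e1 : (z₀ * z)⁻¹ * (z₀ * i₀) = z⁻¹ * i₀ := by group
        rw [e1, ic_mul_right hi₀, ic_inv]
        ring
      · rw [ic_neg (show m ∉ (M : Set G) from hm), zero_mul, mul_zero]
        simp
    have h2 : ∑ m, ∑ z, ic K (Z : Set G) z * (ic K (I : Set G) (z⁻¹ * m) *
        (ic K (M : Set G) m * F m)) = (Nat.card Z : K) * ∑ i, ic K (I : Set G) i * F i := by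
      rw [Finset.sum_comm, ← sum_ic Z, Finset.sum_mul]
      refine Finset.sum_congr rfl fun z _ => ?_
      rw [← Finset.mul_sum]
      by_cases hz : z ∈ Z
      · congr 1
        rw [← Equiv.sum_comp (Equiv.mulLeft z)]
        refine Finset.sum_congr rfl fun i _ => ?_
        simp only [Equiv.coe_mulLeft]
        rw [inv_mul_cancel_left, ic_mul_left (hZ hz)]
        by_cases hi : i ∈ I
        · rw [hF z hz i (hI hi), ic_pos (show i ∈ (M : Set G) from hI hi), one_mul]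
        · rw [ic_neg (show i ∉ (I : Set G) from hi), zero_mul, zero_mul]
      · rw [ic_neg (show z ∉ (Z : Set G) from hz), zero_mul, zero_mul]
    rw [← h1, h2]
  have h1 := key F hF
  have h2 := key (fun _ => 1) (fun _ _ _ _ => rfl)
  simp only [mul_one] at h2
  rw [sum_ic, sum_ic] at h2
  set κ := ∑ z, ic K (Z : Set G) z * ic K (I : Set G) z
  have hM0 := cardS_ne (K := K) M
  have hI0 := cardS_ne (K := K) I
  have hZ0 := cardS_ne (K := K) Z
  have hκ : κ ≠ 0 := by
    intro h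
    rw [h, zero_mul] at h2
    exact mul_ne_zero hZ0 hI0 h2.symm
  apply mul_left_cancel₀ hκ
  have e1 : κ * ((Nat.card M : K)⁻¹ * ∑ m, ic K (M : Set G) m * F m) =
      (Nat.card M : K)⁻¹ * (κ * ∑ m, ic K (M : Set G) m * F m) := by ring
  rw [e1, h1]
  have e2 : κ = (Nat.card Z : K) * (Nat.card I : K) * (Nat.card M : K)⁻¹ := by
    rw [← h2]
    field_simp
  rw [e2]
  field_simp

end

end Vale.Agent.P180.R2.H471.Hc
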