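import Vale.Agent.P180.R2.H471.Hc4

/-! The norm bound for Harish-Chandra induction (characteristic zero form). -/

namespace Vale.Agent.P180.R2.H471.Hc

universe u

open Subgroup

section
variable {K : Type u} [Field K] [CharZero K]
variable {G : Type} [Group G] [Fintype G]

omit [Fintype G] in
theorem card_cjS (S : Subgroup G) (x : G) : Nat.card (cjS S x) = Nat.card S := by
  refine Nat.card_congr
    { toFun := fun g => ⟨x * g * x⁻¹, g.2⟩
      invFun := fun h => ⟨x⁻¹ * h * x, ?_⟩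
      left_inv := ?_
      right_inv := ?_ }
  · rw [mem_cjS]
    have : x * (x⁻¹ * (h : G) * x) * x⁻¹ = h := by group
    rw [this]
    exact h.2
  · intro g
    apply Subtype.ext
    change x⁻¹ * (x * (g : G) * x⁻¹) * x = g
    group
  · intro h
    apply Subtype.ext
    change x * (x⁻¹ * (h : G) * x) * x⁻¹ = h
    group

omit [Fintype G] in
theorem mem_cjS_inv {S : Subgroup G} {x g : G} : x * g * x⁻¹ ∈ cjS S x⁻¹ ↔ g ∈ S := by
  rw [mem_cjS]
  have e : x⁻¹ * (x * g * x⁻¹) * x⁻¹⁻¹ = g := by group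
  rw [e]

omit [CharZero K] in
theorem ips_cj (S : Subgroup G) (x : G) (φ ψ : G → K) :
    ips (cjS S x) (fun g => φ (x * g * x⁻¹)) (fun g => ψ (x * g * x⁻¹)) = ips S φ ψ := by
  unfold ips
  rw [card_cjS]
  congr 1
  rw [← sum_conj x (fun g => ic K (S : Set G) g * (φ g * ψ g⁻¹))]
  refine Finset.sum_congr rfl fun g _ => ?_
  have e1 : (x * g * x⁻¹)⁻¹ = x * g⁻¹ * x⁻¹ := by group
  rw [e1]
  rfl

omit [CharZero K] in
theorem av_cj (J : Subgroup G) (x : G) (φ : G → K) (h : G) :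
    av (cjS J x) (fun g => φ (x * g * x⁻¹)) h = av J φ (x * h * x⁻¹) := by
  unfold av
  rw [card_cjS]
  congr 1
  rw [← sum_conj x (fun g => ic K (J : Set G) g * φ (g * (x * h * x⁻¹)))]
  refine Finset.sum_congr rfl fun g _ => ?_
  have e1 : x * g * x⁻¹ * (x * h * x⁻¹) = x * (g * h) * x⁻¹ := by group
  rw [e1]
  rfl

omit [CharZero K] in
theorem av_left {J : Subgroup G} {j : G} (hj : j ∈ J) (φ : G → K) (g : G) :
    av J φ (j * g) = av J φ g := by
  unfold av
  congr 1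
  rw [← Equiv.sum_comp (Equiv.mulRight j⁻¹)]
  refine Finset.sum_congr rfl fun y _ => ?_
  simp only [Equiv.coe_mulRight]
  rw [ic_mul_right (J.inv_mem hj), mul_assoc y, inv_mul_cancel_left]

theorem av_self {J : Subgroup G} {φ : G → K} {g : G} (h : ∀ j ∈ J, φ (j * g) = φ g) :
    av J φ g = φ g := by
  unfold av
  have : ∑ y, ic K (J : Set G) y * φ (y * g) = ∑ y, ic K (J : Set G) y * φ g := by
    refine Finset.sum_congr rfl fun y _ => ?_
    by_cases hy : y ∈ J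
    · rw [h y hy]
    · rw [ic_neg (show y ∉ (J : Set G) from hy), zero_mul, zero_mul]
  rw [this, ← Finset.sum_mul, sum_ic, ← mul_assoc, inv_mul_cancel₀ (cardS_ne J), one_mul]

omit [CharZero K] in
theorem ips_congr (S : Subgroup G) {φ ψ φ' ψ' : G → K} (h1 : ∀ g ∈ S, φ g = φ' g)
    (h2 : ∀ g ∈ S, ψ g = ψ' g) : ips S φ ψ = ips S φ' ψ' := by
  unfold ips
  congr 1
  refine Finset.sum_congr rfl fun g _ => ?_
  by_cases hg : g ∈ S
  · rw [h1 g hg, h2 _ (S.inv_mem hg)]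
  · rw [ic_neg (show g ∉ (S : Set G) from hg), zero_mul, zero_mul]

/-- a family of subgroups closed under conjugation and `(V, W) ↦ V (N(V) ∩ W)` -/
structure Sys (G : Type) [Group G] where
  /-- the members -/
  car : Set (Subgroup G)
  conj : ∀ V ∈ car, ∀ g : G, cjS V g ∈ car
  star : ∀ V ∈ car, ∀ W ∈ car, V ⊔ (normalizer (V : Set G) ⊓ W) ∈ car
  norm : ∀ V ∈ car, ∀ W ∈ car,
    normalizer ((V ⊔ (normalizer (V : Set G) ⊓ W) : Subgroup G) : Set G) =
      V ⊔ (normalizer (V : Set G) ⊓ normalizer (W : Set G))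

omit [Fintype G] in
theorem normalizer_cjS (V : Subgroup G) (x : G) :
    normalizer ((cjS V x : Subgroup G) : Set G) = cjS (normalizer (V : Set G)) x := by
  ext g
  rw [mem_cjS, mem_normalizer_iff, mem_normalizer_iff]
  constructor
  · intro h y
    have h1 := h (x⁻¹ * y * x)
    have e1 : x * (x⁻¹ * y * x) * x⁻¹ = y := by group
    have e2 : x * (g * (x⁻¹ * y * x) * g⁻¹) * x⁻¹ = x * g * x⁻¹ * y * (x * g * x⁻¹)⁻¹ := by
      group
    change x⁻¹ * y * x ∈ cjS V x ↔ g * (x⁻¹ * y * x) * g⁻¹ ∈ cjS V x at h1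
    rw [mem_cjS, mem_cjS, e1, e2] at h1
    exact h1
  · intro h y
    have h1 := h (x * y * x⁻¹)
    have e2 : x * g * x⁻¹ * (x * y * x⁻¹) * (x * g * x⁻¹)⁻¹ = x * (g * y * g⁻¹) * x⁻¹ := by
      group
    rw [e2] at h1
    exact h1

omit [Fintype G] in
theorem nmem_conj {V : Subgroup G} {g v : G} (hg : g ∈ normalizer (V : Set G)) (hv : v ∈ V) :
    g * v * g⁻¹ ∈ V := (mem_normalizer_iff.mp hg v).mp hv

omit [Fintype G] in
theorem le_norm (V : Subgroup G) : V ≤ normalizer (V : Set G) := Subgroup.le_normalizer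

omit [Fintype G] in
/-- elements of `Z ⊔ J` for `J` normalising `Z` -/
theorem mem_sup_norm {Z J : Subgroup G} (hJ : J ≤ normalizer (Z : Set G)) {m : G}
    (hm : m ∈ Z ⊔ J) : ∃ z ∈ Z, ∃ j ∈ J, m = z * j := by
  have h1 : m ∈ ((Z ⊔ J : Subgroup G) : Set G) := hm
  rw [coe_mul_of_right_le_normalizer_left Z J hJ] at h1
  obtain ⟨z, hz, j, hj, h⟩ := h1
  exact ⟨z, hz, j, hj, h.symm⟩

variable (𝒱 : Sys G) (rk : Subgroup G → ℕ)

/-- the statement proved by induction -/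
def NB (𝒱 : Sys G) (rk : Subgroup G → ℕ) (K : Type u) [Field K] (c n : ℕ) : Prop :=
  ∀ X ∈ 𝒱.car, ∀ Z ∈ 𝒱.car, rk Z ≤ n → X ≤ Z →
    normalizer (Z : Set G) ≤ normalizer (X : Set G) → ∀ φ : G → K,
    ChOn (normalizer (Z : Set G)) φ → (∀ z ∈ Z, ∀ g ∈ normalizer (Z : Set G), φ (z * g) = φ g) →
    ∀ a b : ℕ, ips (normalizer (Z : Set G)) φ φ = a →
      ips (normalizer (X : Set G)) (indG (normalizer (Z : Set G)) (normalizer (X : Set G)) φ)
        (indG (normalizer (Z : Set G)) (normalizer (X : Set G)) φ) = b → b ≤ c ^ (n + 1) * a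

variable {𝒱 rk}

/-- bound for the Mackey terms -/
theorem term_le {c n : ℕ} (hc1 : 1 ≤ c)
    (hrk : ∀ Z ∈ 𝒱.car, ∀ Y ∈ 𝒱.car, Z < Y → rk Y < rk Z)
    (IH : ∀ n', n' + 1 = n → NB 𝒱 rk K c n')
    {Z : Subgroup G} (hZ : Z ∈ 𝒱.car) (hn : rk Z ≤ n) {φ : G → K}
    (hφ : ChOn (normalizer (Z : Set G)) φ)
    (hφZ : ∀ z ∈ Z, ∀ g ∈ normalizer (Z : Set G), φ (z * g) = φ g) {a : ℕ}
    (ha : ips (normalizer (Z : Set G)) φ φ = a) (x : G) {m : ℕ}
    (hm : ips (normalizer (Z : Set G) ⊓ cjS (normalizer (Z : Set G)) x)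
      (av (normalizer (Z : Set G) ⊓ cjS Z x) φ) (av (normalizer (Z : Set G) ⊓ cjS Z x) φ) = m) :
    m ≤ c ^ n * a := by
  set D := normalizer (Z : Set G) with hD
  set I := D ⊓ cjS D x with hI
  set J := D ⊓ cjS Z x with hJ
  have hZD : Z ≤ D := le_norm Z
  have hφZr : ∀ g ∈ D, ∀ z ∈ Z, φ (g * z) = φ g := by
    intro g hg z hz
    rw [hφ.mul_comm hg (hZD hz), hφZ z hz g hg]
  have hJD : J ≤ D := inf_le_left
  have hJI : J ≤ I := by
    intro g hg
    refine ⟨hg.1, ?_⟩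
    exact hZD hg.2
  -- the new member
  have hxZ : cjS Z x ∈ 𝒱.car := 𝒱.conj Z hZ x
  have hY : Z ⊔ J ∈ 𝒱.car := 𝒱.star Z hZ _ hxZ
  have hNY : normalizer ((Z ⊔ J : Subgroup G) : Set G) = Z ⊔ I := by
    have := 𝒱.norm Z hZ _ hxZ
    rw [normalizer_cjS] at this
    exact this
  set Y := Z ⊔ J with hYd
  have hYD : Y ≤ D := sup_le hZD hJD
  have hND : normalizer (Y : Set G) ≤ D := by
    rw [hNY]
    exact sup_le hZD inf_le_left
  have hZY : Z ≤ Y := le_sup_left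
  have hYN : Y ≤ normalizer (Y : Set G) := le_norm Y
  set A : G → K := av Y φ with hA
  have hAJ : ∀ g ∈ D, A g = av J φ g := by
    intro g hg
    have := avg_prod (K := K) (Z := Z) (I := J) (M := Y) hZY le_sup_right
      (fun m hm => mem_sup_norm hJD hm) (F := fun y => φ (y * g))
      (fun z hz m hm => by
        rw [mul_assoc]
        exact hφZ z hz _ (D.mul_mem (hYD hm) hg))
    exact this
  have hAleft : ∀ y ∈ Y, ∀ g, A (y * g) = A g := fun y hy g => av_left hy φ g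
  have hAch : ChOn (normalizer (Y : Set G)) A :=
    (hφ.mono hND).average hYN (fun s hs j hj => nmem_conj hs hj)
  have hAright : ∀ g ∈ normalizer (Y : Set G), ∀ y ∈ Y, A (g * y) = A g := by
    intro g hg y hy
    rw [hAch.mul_comm hg (hYN hy), hAleft y hy]
  have hmA : ips (normalizer (Y : Set G)) A A = m := by
    rw [← hm]
    have h1 : ips I (av J φ) (av J φ) = ips I A A :=
      ips_congr I (fun g hg => (hAJ g hg.1).symm) (fun g hg => (hAJ g hg.1).symm)
    rw [h1]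
    unfold ips
    apply avg_prod (Z := Z) (I := I)
    · exact hZY.trans hYN
    · rw [hNY]
      exact le_sup_right
    · intro m hm
      rw [hNY] at hm
      exact mem_sup_norm inf_le_left hm
    · intro z hz m hm
      rw [mul_inv_rev, hAleft z (hZY hz), hAright m⁻¹ (inv_mem hm) z⁻¹ (inv_mem (hZY hz))]
  by_cases hYZ : Y = Z
  · -- the average is trivial
    have h1 : ∀ g ∈ normalizer (Y : Set G), A g = φ g := by
      intro g hg
      apply av_self
      intro j hj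
      rw [hYZ] at hj
      exact hφZ j hj g (hND hg)
    rw [ips_congr _ h1 h1, hYZ, ← hD, ha] at hmA
    have h2 : a = m := by exact_mod_cast hmA
    rw [← h2]
    exact Nat.le_mul_of_pos_left a (Nat.pow_pos hc1)
  · have hlt : Z < Y := lt_of_le_of_ne hZY (fun h => hYZ h.symm)
    have h1 := hrk Z hZ Y hY hlt
    obtain ⟨n', rfl⟩ : ∃ n', n = n' + 1 := ⟨n - 1, by omega⟩
    set E := indG (normalizer (Y : Set G)) D A with hE
    have hEch : ChOn D E := hAch.ind hND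
    obtain ⟨e, he⟩ := hEch.ips_nat hEch
    have h2 : e ≤ c ^ (n' + 1) * m :=
      IH n' rfl Z hZ Y hY (by omega) hZY hND A hAch (fun z hz g _ => hAleft z hz g) m e hmA he
    have h3 : ips D φ E = m := by
      rw [hE, frob hND (fun x hx y hy => hφ.conj hx hy), ← ips_av hYN φ hAright, ← hmA]
    have h4 := hφ.cs hEch (c ^ (n' + 1)) ha h3 he
    have h5 : c ^ (n' + 1) * m ≤ c ^ (n' + 1) * (c ^ (n' + 1) * a) := by
      have h6 : c ^ (n' + 1) * c ^ (n' + 1) * a = c ^ (n' + 1) * (c ^ (n' + 1) * a) :=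
        mul_assoc _ _ _
      have h7 : 2 * c ^ (n' + 1) * m = c ^ (n' + 1) * m + c ^ (n' + 1) * m := by ring
      omega
    exact Nat.le_of_mul_le_mul_left h5 (Nat.pow_pos hc1)

theorem nb_step {c : ℕ} (hc1 : 1 ≤ c)
    (hrk : ∀ Z ∈ 𝒱.car, ∀ Y ∈ 𝒱.car, Z < Y → rk Y < rk Z)
    (hc : ∀ Z ∈ 𝒱.car, ∑ w : G, Nat.card ((normalizer (Z : Set G)) ⊓
      cjS (normalizer (Z : Set G)) w : Subgroup G) ≤
        c * (Nat.card (normalizer (Z : Set G))) ^ 2) (n : ℕ)
    (IH : ∀ n', n' + 1 = n → NB 𝒱 rk K c n') : NB 𝒱 rk K c n := by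
  intro X hX Z hZ hn hXZ hNZX φ hφ hφZ a b ha hb
  set D := normalizer (Z : Set G) with hD
  set P := normalizer (X : Set G) with hP
  have hZD : Z ≤ D := le_norm Z
  have hφZr : ∀ g ∈ D, ∀ z ∈ Z, φ (g * z) = φ g := by
    intro g hg z hz
    rw [hφ.mul_comm hg (hZD hz), hφZ z hz g hg]
  -- the terms
  have hnat : ∀ x : G, ∃ t : ℕ, ips (D ⊓ cjS D x) (fun g => φ (x * g * x⁻¹)) φ = t := fun x =>
    ((hφ.map_conj x).mono inf_le_right).ips_nat (hφ.mono inf_le_left)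
  choose t ht using hnat
  have hterm : ∀ x, t x ≤ c ^ n * a := by
    intro x
    set I := D ⊓ cjS D x with hI
    set J1 := D ⊓ cjS Z x with hJ1
    set J2 := Z ⊓ cjS D x with hJ2
    have hJ1I : J1 ≤ I := fun g hg => ⟨hg.1, hZD hg.2⟩
    have hJ2I : J2 ≤ I := fun g hg => ⟨hZD hg.1, hg.2⟩
    have hJ1n : ∀ s ∈ I, ∀ j ∈ J1, s * j * s⁻¹ ∈ J1 := by
      intro s hs j hj
      refine ⟨D.mul_mem (D.mul_mem hs.1 hj.1) (D.inv_mem hs.1), ?_⟩
      have h1 : s ∈ normalizer ((cjS Z x : Subgroup G) : Set G) := by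
        rw [normalizer_cjS]
        exact hs.2
      exact nmem_conj h1 hj.2
    have hJ2n : ∀ s ∈ I, ∀ j ∈ J2, s * j * s⁻¹ ∈ J2 := by
      intro s hs j hj
      exact ⟨nmem_conj hs.1 hj.1, (cjS D x).mul_mem ((cjS D x).mul_mem hs.2 hj.2)
        ((cjS D x).inv_mem hs.2)⟩
    have hφI : ChOn I φ := hφ.mono inf_le_left
    have hφxI : ChOn I (fun g => φ (x * g * x⁻¹)) := (hφ.map_conj x).mono inf_le_right
    have hA : ChOn I (av J1 φ) := hφI.average hJ1I hJ1n
    have hB : ChOn I (av J2 (fun g => φ (x * g * x⁻¹))) := hφxI.average hJ2I hJ2n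
    have hAr : ∀ g ∈ I, ∀ j ∈ J2, av J1 φ (g * j) = av J1 φ g := by
      intro g hg j hj
      unfold av
      congr 1
      refine Finset.sum_congr rfl fun y _ => ?_
      by_cases hy : y ∈ J1
      · rw [← mul_assoc, hφZr _ (D.mul_mem hy.1 hg.1) j hj.1]
      · rw [ic_neg (show y ∉ (J1 : Set G) from hy), zero_mul, zero_mul]
    have hxr : ∀ g ∈ I, ∀ j ∈ J1, φ (x * (g * j) * x⁻¹) = φ (x * g * x⁻¹) := by
      intro g hg j hj
      have e1 : x * (g * j) * x⁻¹ = x * g * x⁻¹ * (x * j * x⁻¹) := by group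
      rw [e1]
      exact hφZr _ hg.2 _ hj.2
    have h1 : ips I (av J1 φ) (av J2 (fun g => φ (x * g * x⁻¹))) = t x := by
      rw [ips_comm, ips_av hJ2I _ hAr, ips_comm, ips_av hJ1I _ hxr, ips_comm, ht]
    obtain ⟨m, hm⟩ := hA.ips_nat hA
    obtain ⟨m', hm'⟩ := hB.ips_nat hB
    have h2 := hA.cs hB 1 hm h1 hm'
    have h3 : m ≤ c ^ n * a := term_le hc1 hrk IH hZ hn hφ hφZ ha x hm
    have h4 : m' ≤ c ^ n * a := by
      apply term_le hc1 hrk IH hZ hn hφ hφZ ha x⁻¹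
      rw [← hm', ← ips_cj (D ⊓ cjS D x⁻¹) x]
      have e1 : cjS (D ⊓ cjS D x⁻¹) x = I := by
        ext g
        exact ⟨fun h => ⟨mem_cjS_inv.mp h.2, h.1⟩, fun h => ⟨h.2, mem_cjS_inv.mpr h.1⟩⟩
      have e3 : cjS (D ⊓ cjS Z x⁻¹) x = J2 := by
        ext g
        exact ⟨fun h => ⟨mem_cjS_inv.mp h.2, h.1⟩, fun h => ⟨h.2, mem_cjS_inv.mpr h.1⟩⟩
      rw [e1]
      apply ips_congr
      · intro g _
        rw [← av_cj, e3]
      · intro g _
        rw [← av_cj, e3]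
    omega
  -- the sum
  have hsum := mackey (K := K) hNZX hφ
  rw [hb] at hsum
  have hD0 : Nat.card D ≠ 0 := Nat.card_pos.ne'
  classical
  have h5 : ((Nat.card D) ^ 2 * b : ℕ) = ∑ x : G, (if x ∈ P then 1 else 0) *
      (Nat.card (D ⊓ cjS D x : Subgroup G) * t x) := by
    have h6 : (((Nat.card D) ^ 2 * b : ℕ) : K) = ((∑ x : G, (if x ∈ P then 1 else 0) *
        (Nat.card (D ⊓ cjS D x : Subgroup G) * t x) : ℕ) : K) := by
      push_cast
      rw [hsum]
      have hD1 := cardS_ne (K := K) D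
      rw [← mul_assoc, ← mul_pow, mul_inv_cancel₀ hD1, one_pow, one_mul]
      refine Finset.sum_congr rfl fun x _ => ?_
      rw [ht]
      rfl
    exact_mod_cast h6
  have h7 : (Nat.card D) ^ 2 * b ≤ (Nat.card D) ^ 2 * (c ^ (n + 1) * a) := by
    rw [h5]
    calc ∑ x : G, (if x ∈ P then 1 else 0) * (Nat.card (D ⊓ cjS D x : Subgroup G) * t x)
        ≤ ∑ x : G, Nat.card (D ⊓ cjS D x : Subgroup G) * (c ^ n * a) := by
          apply Finset.sum_le_sum
          intro x _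
          have h8 : Nat.card (D ⊓ cjS D x : Subgroup G) * t x ≤
            Nat.card (D ⊓ cjS D x : Subgroup G) * (c ^ n * a) :=
            Nat.mul_le_mul_left _ (hterm x)
          split_ifs
          · omega
          · omega
      _ = (∑ x : G, Nat.card (D ⊓ cjS D x : Subgroup G)) * (c ^ n * a) := by
          rw [Finset.sum_mul]
      _ ≤ (c * (Nat.card D) ^ 2) * (c ^ n * a) := Nat.mul_le_mul_right _ (hc Z hZ)
      _ = (Nat.card D) ^ 2 * (c ^ (n + 1) * a) := by ring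
  exact Nat.le_of_mul_le_mul_left h7 (by positivity)

/-- the norm bound -/
theorem norm_bound {c : ℕ} (hc1 : 1 ≤ c)
    (hrk : ∀ Z ∈ 𝒱.car, ∀ Y ∈ 𝒱.car, Z < Y → rk Y < rk Z)
    (hc : ∀ Z ∈ 𝒱.car, ∑ w : G, Nat.card ((normalizer (Z : Set G)) ⊓
      cjS (normalizer (Z : Set G)) w : Subgroup G) ≤
        c * (Nat.card (normalizer (Z : Set G))) ^ 2) (n : ℕ) : NB 𝒱 rk K c n := by
  induction n with
  | zero => exact nb_step hc1 hrk hc 0 (fun n' h => by omega)
  | succ n ih =>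
    refine nb_step hc1 hrk hc (n + 1) (fun n' h => ?_)
    have : n' = n := by omega
    rw [this]
    exact ih

end

end Vale.Agent.P180.R2.H471.Hc
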