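import Vale.Agent.P180.R2.H471.Hc5
import Vale.Agent.P180.R2.H954.Hc2b

/-! The norm bound for idempotents. -/

namespace Vale.Agent.P180.R2.H471.Hc

universe u

open Subgroup Vale.Agent.P180 Vale.Agent.P180.R2.H799

section
variable {K : Type u} [Field K]
variable {G : Type} [Group G] [Fintype G]

set_option linter.unusedSectionVars false

/-- the standard basis of the group algebra -/
noncomputable def bas : Module.Basis G K (MonoidAlgebra K G) :=
  .ofRepr (MonoidAlgebra.coeffLinearEquiv K (M := G) (S := K))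

omit [Fintype G] in
theorem bas_repr (a : MonoidAlgebra K G) (x : G) : bas.repr a x = a.coeff x := rfl

omit [Fintype G] in
theorem bas_apply (x : G) : (bas x : MonoidAlgebra K G) = MonoidAlgebra.single x 1 := rfl

theorem finite_MA : FiniteDimensional K (MonoidAlgebra K G) :=
  Module.Finite.equiv (MonoidAlgebra.coeffLinearEquiv K (M := G) (S := K)).symm

theorem trace_MA (T : MonoidAlgebra K G →ₗ[K] MonoidAlgebra K G) :
    LinearMap.trace K _ T = ∑ x : G, (T (MonoidAlgebra.single x 1)).coeff x := by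
  classical
  rw [LinearMap.trace_eq_matrix_trace K (bas (K := K) (G := G))]
  unfold Matrix.trace
  refine Finset.sum_congr rfl fun x _ => ?_
  rw [Matrix.diag_apply, LinearMap.toMatrix_apply, bas_repr, bas_apply]

/-- restriction of the support to a subgroup -/
noncomputable def resS (H : Subgroup G) : MonoidAlgebra K G →ₗ[K] MonoidAlgebra K G where
  toFun a := H954.Hc.res H (fun y => a.coeff y)
  map_add' a b := by
    classical
    apply MonoidAlgebra.coeff_injective
    ext y
    rw [MonoidAlgebra.coeff_add _ (H954.Hc.res H _), Finsupp.add_apply, H954.Hc.res_coeff,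
      H954.Hc.res_coeff, H954.Hc.res_coeff]
    split_ifs
    · rfl
    · rw [add_zero]
  map_smul' c a := by
    classical
    apply MonoidAlgebra.coeff_injective
    ext y
    rw [RingHom.id_apply, MonoidAlgebra.coeff_smul _ (H954.Hc.res H _), Finsupp.smul_apply,
      H954.Hc.res_coeff, H954.Hc.res_coeff]
    split_ifs
    · rfl
    · rw [smul_zero]

theorem resS_mem (H : Subgroup G) (a : MonoidAlgebra K G) : resS H a ∈ SubAlg K H :=
  H954.Hc.res_mem H _

theorem resS_of_mem {H : Subgroup G} {a : MonoidAlgebra K G} (ha : a ∈ SubAlg K H) :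
    resS H a = a := by
  classical
  apply MonoidAlgebra.coeff_injective
  ext y
  change (H954.Hc.res H (fun y => a.coeff y)).coeff y = _
  rw [H954.Hc.res_coeff]
  split_ifs with h
  · rfl
  · by_contra h'
    exact h (ha y (fun h'' => h' h''.symm))

theorem resS_single (H : Subgroup G) (x : G) :
    resS H (MonoidAlgebra.single x (1 : K)) = ic K (H : Set G) x • MonoidAlgebra.single x 1 := by
  classical
  by_cases hx : x ∈ H
  · rw [ic_pos (show x ∈ (H : Set G) from hx), one_smul]
    exact resS_of_mem (single_mem_SubAlg hx 1)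
  · rw [ic_neg (show x ∉ (H : Set G) from hx), zero_smul]
    apply MonoidAlgebra.coeff_injective
    ext y
    change (H954.Hc.res H (fun y => (MonoidAlgebra.single x (1 : K)).coeff y)).coeff y = 0
    rw [H954.Hc.res_coeff]
    split_ifs with h
    · rw [MonoidAlgebra.coeff_single, Finsupp.single_apply, if_neg]
      rintro rfl
      exact hx h
    · rfl

/-- `a ↦ u a v` on the group algebra of `H` -/
noncomputable def TT (H : Subgroup G) (u v : MonoidAlgebra K G) :
    MonoidAlgebra K G →ₗ[K] MonoidAlgebra K G :=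
  (LinearMap.mulLeftRight K (u, v)) ∘ₗ resS H

theorem TT_apply (H : Subgroup G) (u v a : MonoidAlgebra K G) :
    TT H u v a = u * resS H a * v := by
  unfold TT
  rw [LinearMap.comp_apply, LinearMap.mulLeftRight_apply]

/-- the class function of an idempotent -/
noncomputable def chi (H : Subgroup G) (v : MonoidAlgebra K G) (y : G) : K :=
  ∑ x : G, ic K (H : Set G) x * v.coeff (x⁻¹ * y⁻¹ * x)

theorem coeff_mul_eq (a b : MonoidAlgebra K G) (x : G) :
    (a * b).coeff x = ∑ y : G, a.coeff y * b.coeff (y⁻¹ * x) := by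
  classical
  rw [MonoidAlgebra.coeff_mul_apply_left, Finsupp.sum_fintype]
  intro y
  exact zero_mul _

theorem trace_TT (H : Subgroup G) (u v : MonoidAlgebra K G) :
    LinearMap.trace K _ (TT H u v) = ∑ y : G, u.coeff y * chi H v y := by
  classical
  rw [trace_MA]
  have h1 : ∀ x : G, (TT H u v (MonoidAlgebra.single x 1)).coeff x =
      ∑ y : G, u.coeff y * (ic K (H : Set G) x * v.coeff (x⁻¹ * y⁻¹ * x)) := by
    intro x
    rw [TT_apply, resS_single, mul_smul_comm, smul_mul_assoc, MonoidAlgebra.coeff_smul,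
      Finsupp.smul_apply, smul_eq_mul, mul_assoc, coeff_mul_eq, Finset.mul_sum]
    refine Finset.sum_congr rfl fun y _ => ?_
    rw [MonoidAlgebra.coeff_single_mul_apply, one_mul, mul_assoc x⁻¹]
    ring
  rw [Finset.sum_congr rfl fun x _ => h1 x, Finset.sum_comm]
  refine Finset.sum_congr rfl fun y _ => ?_
  unfold chi
  rw [Finset.mul_sum]

theorem chOn_chi {H : Subgroup G} {v : MonoidAlgebra K G} (hv : v ∈ SubAlg K H)
    (hvv : v * v = v) : ChOn H (chi H v) := by
  classical
  have hfin := finite_MA (K := K) (G := G)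
  let W : Submodule K (MonoidAlgebra K G) := NN (SubAlg K H) 1 v
  have hT : ∀ h ∈ H, ∀ a, TT H (MonoidAlgebra.single h 1) v a ∈ W := by
    intro h hh a
    rw [TT_apply]
    refine ⟨Subalgebra.mul_mem _ (Subalgebra.mul_mem _ (single_mem_SubAlg hh 1)
      (resS_mem H a)) hv, one_mul _, ?_⟩
    rw [mul_assoc, hvv]
  have hap : ∀ (h : G) (a : W), TT H (MonoidAlgebra.single h 1) v (a : MonoidAlgebra K G) =
      MonoidAlgebra.single h 1 * (a : MonoidAlgebra K G) := by
    intro h a
    rw [TT_apply, resS_of_mem a.2.1, mul_assoc, a.2.2.2]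
  let ρ : Representation K H W :=
    { toFun := fun h => (TT H (MonoidAlgebra.single (h : G) 1) v).restrict
        (fun a _ => hT h h.2 a)
      map_one' := by
        apply LinearMap.ext
        intro a
        apply Subtype.ext
        rw [LinearMap.coe_restrict_apply, hap]
        change MonoidAlgebra.single (1 : G) (1 : K) * (a : MonoidAlgebra K G) = a
        rw [← MonoidAlgebra.one_def, one_mul]
      map_mul' := by
        intro g h
        apply LinearMap.ext
        intro a
        apply Subtype.ext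
        rw [Module.End.mul_apply, LinearMap.coe_restrict_apply, LinearMap.coe_restrict_apply,
          hap, hap, LinearMap.coe_restrict_apply, hap, ← mul_assoc,
          MonoidAlgebra.single_mul_single, one_mul]
        rfl }
  refine ⟨W, inferInstance, inferInstance, inferInstance, ρ, fun h => ?_⟩
  change LinearMap.trace K W ((TT H (MonoidAlgebra.single (h : G) 1) v).restrict
    (fun a _ => hT h h.2 a)) = _
  rw [LinearMap.trace_restrict_eq_of_forall_mem W _ (hT h h.2), trace_TT]
  rw [Finset.sum_eq_single (h : G)]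
  · rw [MonoidAlgebra.coeff_single, Finsupp.single_eq_same, one_mul]
  · intro y _ hy
    rw [MonoidAlgebra.coeff_single, Finsupp.single_apply, if_neg hy.symm, zero_mul]
  · intro h
    exact absurd (Finset.mem_univ _) h

theorem chi_conj {H : Subgroup G} (v : MonoidAlgebra K G) {x : G} (hx : x ∈ H) (y : G) :
    chi H v (x * y * x⁻¹) = chi H v y := by
  unfold chi
  rw [← Equiv.sum_comp (Equiv.mulLeft x)]
  refine Finset.sum_congr rfl fun g _ => ?_
  simp only [Equiv.coe_mulLeft]
  rw [ic_mul_left hx]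
  have e1 : (x * g)⁻¹ * (x * y * x⁻¹)⁻¹ * (x * g) = g⁻¹ * y⁻¹ * g := by group
  rw [e1]

theorem finrank_chi [CharZero K] {H : Subgroup G} {v : MonoidAlgebra K G} (hv : v ∈ SubAlg K H)
    (hvv : v * v = v) :
    ips H (chi H v) (chi H v) = ((Module.finrank K (NN (SubAlg K H) v v) : ℕ) : K) := by
  classical
  have hfin := finite_MA (K := K) (G := G)
  have hT : ∀ a, TT H v v a ∈ NN (SubAlg K H) v v := by
    intro a
    rw [TT_apply]
    exact mul_mul_mem_NN hvv hvv hv hv (resS_mem H a)
  have h1 : LinearMap.trace K _ (TT H v v) = (Module.finrank K (NN (SubAlg K H) v v) : K) := by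
    rw [← LinearMap.trace_restrict_eq_of_forall_mem _ _ hT, ← LinearMap.trace_id]
    congr 1
    apply LinearMap.ext
    intro a
    apply Subtype.ext
    rw [LinearMap.coe_restrict_apply, TT_apply, resS_of_mem a.2.1, a.2.2.1, a.2.2.2]
    rfl
  rw [← h1, trace_TT]
  unfold ips
  have h2 : ∀ x : G, ic K (H : Set G) x * ∑ g : G, ic K (H : Set G) g *
      (chi H v g * v.coeff (x⁻¹ * g * x)) = ic K (H : Set G) x * ∑ y : G, v.coeff y *
        chi H v y := by
    intro x
    by_cases hx : x ∈ H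
    · congr 1
      rw [← sum_conj x (fun g => ic K (H : Set G) g * (chi H v g * v.coeff (x⁻¹ * g * x)))]
      refine Finset.sum_congr rfl fun g _ => ?_
      have e1 : x⁻¹ * (x * g * x⁻¹) * x = g := by group
      rw [e1, chi_conj v hx]
      by_cases hg : g ∈ H
      · rw [ic_pos (show x * g * x⁻¹ ∈ (H : Set G) from
          H.mul_mem (H.mul_mem hx hg) (H.inv_mem hx))]
        ring
      · have : v.coeff g = 0 := by
          by_contra h
          exact hg (hv g h)
        rw [this]
        ring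
    · rw [ic_neg (show x ∉ (H : Set G) from hx), zero_mul, zero_mul]
  have h3 : ∑ g : G, ic K (H : Set G) g * (chi H v g * chi H v g⁻¹) =
      ∑ x : G, ic K (H : Set G) x * ∑ g : G, ic K (H : Set G) g *
      (chi H v g * v.coeff (x⁻¹ * g * x)) := by
    simp only [Finset.mul_sum]
    rw [Finset.sum_comm]
    refine Finset.sum_congr rfl fun g _ => ?_
    have e1 : chi H v g⁻¹ = ∑ x : G, ic K (H : Set G) x * v.coeff (x⁻¹ * g * x) := by
      unfold chi
      rw [inv_inv]
    rw [e1, Finset.mul_sum, Finset.mul_sum]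
    refine Finset.sum_congr rfl fun x _ => ?_
    ring
  rw [h3, Finset.sum_congr rfl fun x _ => h2 x, ← Finset.sum_mul, sum_ic, ← mul_assoc,
    inv_mul_cancel₀ (cardS_ne H), one_mul]

theorem ind_chi [CharZero K] {H S : Subgroup G} (hHS : H ≤ S) {v : MonoidAlgebra K G}
    (hv : v ∈ SubAlg K H) (g : G) : indG H S (chi H v) g = chi S v g := by
  classical
  unfold indG
  have h1 : ∀ x : G, ic K (S : Set G) x * (ic K (H : Set G) (x * g * x⁻¹) *
      chi H v (x * g * x⁻¹)) = ∑ z : G, ic K (H : Set G) z * (ic K (S : Set G) (z⁻¹ * x) *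
        v.coeff ((x⁻¹ * z)⁻¹ * g⁻¹ * (x⁻¹ * z))) := by
    intro x
    unfold chi
    rw [Finset.mul_sum, Finset.mul_sum]
    refine Finset.sum_congr rfl fun z _ => ?_
    have e1 : z⁻¹ * (x * g * x⁻¹)⁻¹ * z = (x⁻¹ * z)⁻¹ * g⁻¹ * (x⁻¹ * z) := by group
    rw [e1]
    by_cases hz : z ∈ H
    · rw [ic_mul_left (S.inv_mem (hHS hz))]
      by_cases hx : x * g * x⁻¹ ∈ H
      · rw [ic_pos (show x * g * x⁻¹ ∈ (H : Set G) from hx)]
        ring
      · have h2 : v.coeff ((x⁻¹ * z)⁻¹ * g⁻¹ * (x⁻¹ * z)) = 0 := by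
          by_contra h
          apply hx
          have h3 := hv _ h
          have h4 : x * g * x⁻¹ = z * ((x⁻¹ * z)⁻¹ * g⁻¹ * (x⁻¹ * z))⁻¹ * z⁻¹ := by group
          rw [h4]
          exact H.mul_mem (H.mul_mem hz (H.inv_mem h3)) (H.inv_mem hz)
        rw [h2]
        ring
    · rw [ic_neg (show z ∉ (H : Set G) from hz)]
      ring
  rw [Finset.sum_congr rfl fun x _ => h1 x, Finset.sum_comm]
  have h2 : ∀ z : G, ∑ x : G, ic K (H : Set G) z * (ic K (S : Set G) (z⁻¹ * x) *
        v.coeff ((x⁻¹ * z)⁻¹ * g⁻¹ * (x⁻¹ * z))) = ic K (H : Set G) z * chi S v g := by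
    intro z
    rw [← Finset.mul_sum]
    congr 1
    unfold chi
    rw [← Equiv.sum_comp ((Equiv.inv G).trans (Equiv.mulLeft z))]
    refine Finset.sum_congr rfl fun w _ => ?_
    simp only [Equiv.trans_apply, Equiv.inv_apply, Equiv.coe_mulLeft]
    rw [inv_mul_cancel_left, ic_inv]
    have e1 : ((z * w⁻¹)⁻¹ * z)⁻¹ * g⁻¹ * ((z * w⁻¹)⁻¹ * z) = w⁻¹ * g⁻¹ * w := by group
    rw [e1]
  rw [Finset.sum_congr rfl fun z _ => h2 z, ← Finset.sum_mul, sum_ic, ← mul_assoc,
    inv_mul_cancel₀ (cardS_ne H), one_mul]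

/-- left invariance of the class function -/
theorem chi_left {Z : Subgroup G} {v : MonoidAlgebra K G}
    (hv : v ∈ SubAlg K (normalizer (Z : Set G)))
    (hvZ : ∀ z ∈ Z, MonoidAlgebra.single z (1 : K) * v = v) :
    ∀ z ∈ Z, ∀ g ∈ normalizer (Z : Set G), chi (normalizer (Z : Set G)) v (z * g) =
      chi (normalizer (Z : Set G)) v g := by
  intro z hz g hg
  unfold chi
  refine Finset.sum_congr rfl fun x _ => ?_
  by_cases hx : x ∈ normalizer (Z : Set G)
  · congr 1
    have hl : ∀ z ∈ Z, ∀ w : G, v.coeff (z * w) = v.coeff w := by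
      intro z hz w
      have h1 := congrArg (fun a : MonoidAlgebra K G => a.coeff w) (hvZ z⁻¹ (Z.inv_mem hz))
      simp only [MonoidAlgebra.coeff_single_mul_apply, one_mul, inv_inv] at h1
      exact h1
    have e1 : x⁻¹ * (z * g)⁻¹ * x =
        ((x⁻¹ * g⁻¹) * z⁻¹ * (x⁻¹ * g⁻¹)⁻¹) * (x⁻¹ * g⁻¹ * x) := by group
    rw [e1, hl]
    exact nmem_conj (mul_mem (inv_mem hx) (inv_mem hg)) (Z.inv_mem hz)
  · rw [ic_neg (show x ∉ (normalizer (Z : Set G) : Set G) from hx), zero_mul, zero_mul]

/-- the norm bound for idempotents, characteristic zero -/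
theorem norm_bound_idem [CharZero K] {𝒱 : Sys G} {rk : Subgroup G → ℕ} {c : ℕ} (hc1 : 1 ≤ c)
    (hrk : ∀ Z ∈ 𝒱.car, ∀ Y ∈ 𝒱.car, Z < Y → rk Y < rk Z)
    (hc : ∀ Z ∈ 𝒱.car, ∑ w : G, Nat.card ((normalizer (Z : Set G)) ⊓
      cjS (normalizer (Z : Set G)) w : Subgroup G) ≤
        c * (Nat.card (normalizer (Z : Set G))) ^ 2) {X Z : Subgroup G} (hX : X ∈ 𝒱.car)
    (hZ : Z ∈ 𝒱.car) (hXZ : X ≤ Z)
    (hN : normalizer (Z : Set G) ≤ normalizer (X : Set G)) {v : MonoidAlgebra K G}
    (hv : v ∈ SubAlg K (normalizer (Z : Set G))) (hvv : v * v = v)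
    (hvZ : ∀ z ∈ Z, MonoidAlgebra.single z (1 : K) * v = v) :
    Module.finrank K (NN (SubAlg K (normalizer (X : Set G))) v v) ≤
      c ^ (rk Z + 1) * Module.finrank K (NN (SubAlg K (normalizer (Z : Set G))) v v) := by
  have h1 := norm_bound (K := K) hc1 hrk hc (rk Z) X hX Z hZ (le_refl _) hXZ hN
    (chi (normalizer (Z : Set G)) v) (chOn_chi hv hvv) (chi_left hv hvZ)
    (Module.finrank K (NN (SubAlg K (normalizer (Z : Set G))) v v))
    (Module.finrank K (NN (SubAlg K (normalizer (X : Set G))) v v))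
    (finrank_chi hv hvv)
  apply h1
  have h2 : indG (normalizer (Z : Set G)) (normalizer (X : Set G))
      (chi (normalizer (Z : Set G)) v) = chi (normalizer (X : Set G)) v :=
    funext fun g => ind_chi hN hv g
  rw [h2]
  exact finrank_chi (SubAlg_mono hN hv) hvv

end

/-- **(NB)** -/
theorem norm_bound_k {k : Type u} [Field k] [IsAlgClosed k] {p : ℕ} [Fact p.Prime] [CharP k p]
    {G : Type} [Group G] [Finite G] {𝒱 : Sys G} {rk : Subgroup G → ℕ} {c : ℕ} (hc1 : 1 ≤ c)
    (hrk : ∀ Z ∈ 𝒱.car, ∀ Y ∈ 𝒱.car, Z < Y → rk Y < rk Z)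
    (hc : ∀ Z ∈ 𝒱.car, ∑ᶠ w : G, Nat.card ((normalizer (Z : Set G)) ⊓
      cjS (normalizer (Z : Set G)) w : Subgroup G) ≤
        c * (Nat.card (normalizer (Z : Set G))) ^ 2) {X Z : Subgroup G} (hX : X ∈ 𝒱.car)
    (hZ : Z ∈ 𝒱.car) (hXZ : X ≤ Z) (hpZ : ¬ p ∣ Nat.card Z)
    (hN : normalizer (Z : Set G) ≤ normalizer (X : Set G)) {v : MonoidAlgebra k G}
    (hv : v ∈ SubAlg k (normalizer (Z : Set G))) (hvv : v * v = v)
    (hvZ : ∀ z ∈ Z, MonoidAlgebra.single z (1 : k) * v = v) :
    Module.finrank k (NN (SubAlg k (normalizer (X : Set G))) v v) ≤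
      c ^ (rk Z + 1) * Module.finrank k (NN (SubAlg k (normalizer (Z : Set G))) v v) := by
  classical
  obtain ⟨K, i1, i2, i3, F, h1, h2, h3, h4⟩ := H954.Hc.exists_char_zero k p (le_norm Z)
    (fun h hh z hz => nmem_conj hh hz) hpZ hvv hv hvZ
  have _ := Fintype.ofFinite G
  rw [← h4 _ hN, ← h4 _ (le_refl _)]
  refine norm_bound_idem hc1 hrk (fun Z hZ => ?_) hX hZ hXZ hN h2 h1 h3
  have := hc Z hZ
  rwa [finsum_eq_sum_of_fintype] at this

end Vale.Agent.P180.R2.H471.Hc
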