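import Vale.Agent.P180.R2.H854.Form

/-! Homogeneous bases of graded non-degenerate forms over finite fields, with Gram matrix in a fixed
finite set. -/

set_option linter.all false

namespace Vale.Agent.P180.R2.H471.Hd

open Module Vale.Agent.P180.R2.H854

section Norm

variable {K : Type*} [Field K] [Finite K]

theorem sq_or (θ : K →+* K) {r s : K} (hr : θ r = r) (hs : θ s = s) (hr0 : r ≠ 0) (hs0 : s ≠ 0) :
    (∃ c, θ c = c ∧ c * c = r) ∨ (∃ c, θ c = c ∧ c * c = s) ∨ ∃ c, θ c = c ∧ c * c * s = r := by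
  classical
  let F : Subfield K := θ.eqLocusField (RingHom.id K)
  have hF : ∀ x : K, x ∈ F ↔ θ x = x := fun x => Iff.rfl
  have _ : Fintype F := Fintype.ofFinite F
  let r' : F := ⟨r, (hF r).mpr hr⟩
  let s' : F := ⟨s, (hF s).mpr hs⟩
  have hr' : r' ≠ 0 := fun h => hr0 (congrArg Subtype.val h)
  have hs' : s' ≠ 0 := fun h => hs0 (congrArg Subtype.val h)
  rcases quadraticChar_dichotomy hr' with h1 | h1
  · left
    obtain ⟨c, hc⟩ := (quadraticChar_one_iff_isSquare hr').mp h1
    exact ⟨c, (hF _).mp c.2, (congrArg Subtype.val hc).symm⟩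
  · rcases quadraticChar_dichotomy hs' with h2 | h2
    · right; left
      obtain ⟨c, hc⟩ := (quadraticChar_one_iff_isSquare hs').mp h2
      exact ⟨c, (hF _).mp c.2, (congrArg Subtype.val hc).symm⟩
    · right; right
      have h3 : r' * s'⁻¹ ≠ 0 := mul_ne_zero hr' (inv_ne_zero hs')
      have h4 : quadraticChar F (r' * s') = 1 := by
        rw [map_mul, h1, h2]
        norm_num
      obtain ⟨c, hc⟩ := (quadraticChar_one_iff_isSquare (mul_ne_zero hr' hs')).mp h4
      refine ⟨(c * s'⁻¹ : F), (hF _).mp (c * s'⁻¹ : F).2, ?_⟩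
      have h5 : (c * s'⁻¹) * (c * s'⁻¹) * s' = r' := by
        calc (c * s'⁻¹) * (c * s'⁻¹) * s' = (c * c) * s'⁻¹ * (s'⁻¹ * s') := by ring
          _ = r' := by
            rw [← hc, inv_mul_cancel₀ hs', mul_one, mul_assoc, mul_inv_cancel₀ hs', mul_one]
      exact congrArg Subtype.val h5

variable {E : Type*} [AddCommGroup E] [Module K E] (Φ : HForm K E)

/-- At most two classes of norms. -/
theorem exists_norm_reps : ∃ a0 a1 : K, ∀ x : E, Φ.B x x ≠ 0 → ∃ c : K, c ≠ 0 ∧
    (c * Φ.θ c * Φ.B x x = a0 ∨ c * Φ.θ c * Φ.B x x = a1) := by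
  classical
  by_cases h0 : ∃ x0 : E, Φ.B x0 x0 ≠ 0
  · obtain ⟨x0, hx0⟩ := h0
    have key : ∀ x y : E, Φ.B x x ≠ 0 → Φ.B y y ≠ 0 →
        Φ.θ (Φ.B x x / Φ.B y y) = Φ.B x x / Φ.B y y := by
      intro x y hx hy
      have h1 := Φ.symm x x
      have h2 := Φ.symm y y
      have hε : Φ.ε ≠ 0 := by
        intro h
        rw [h, zero_mul] at h1
        exact hx h1
      have hy' : Φ.θ (Φ.B y y) ≠ 0 := by
        intro h
        rw [h, mul_zero] at h2
        exact hy h2
      rw [map_div₀]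
      conv_rhs => rw [h1, h2]
      rw [mul_div_mul_left _ _ hε]
    have hc0 : ∀ {c r : K}, c * c = r → r ≠ 0 → c ≠ 0 := by
      rintro c r h hr rfl
      rw [mul_zero] at h
      exact hr h.symm
    by_cases h1 : ∃ x1 : E, Φ.B x1 x1 ≠ 0 ∧ ¬ ∃ c, Φ.θ c = c ∧ c * c = Φ.B x0 x0 / Φ.B x1 x1
    · obtain ⟨x1, hx1, hn⟩ := h1
      refine ⟨Φ.B x0 x0, Φ.B x1 x1, fun x hx => ?_⟩
      rcases sq_or Φ.θ (key x0 x hx0 hx) (key x0 x1 hx0 hx1) (div_ne_zero hx0 hx)
        (div_ne_zero hx0 hx1) with ⟨c, h2, h3⟩ | ⟨c, h2, h3⟩ | ⟨c, h2, h3⟩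
      · refine ⟨c, hc0 h3 (div_ne_zero hx0 hx), Or.inl ?_⟩
        rw [h2, h3, div_mul_cancel₀ _ hx]
      · exact absurd ⟨c, h2, h3⟩ hn
      · have h4 : c ≠ 0 := by
          rintro rfl
          rw [mul_zero, zero_mul] at h3
          exact div_ne_zero hx0 hx h3.symm
        refine ⟨c, h4, Or.inr ?_⟩
        rw [h2]
        have h5 : c * c * Φ.B x0 x0 * Φ.B x x = Φ.B x0 x0 * Φ.B x1 x1 := by
          rw [mul_div_assoc', div_eq_div_iff hx1 hx] at h3
          exact h3
        have h6 : Φ.B x0 x0 * (c * c * Φ.B x x) = Φ.B x0 x0 * Φ.B x1 x1 := by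
          rw [← h5]; ring
        exact mul_left_cancel₀ hx0 h6
    · push Not at h1
      refine ⟨Φ.B x0 x0, Φ.B x0 x0, fun x hx => ?_⟩
      obtain ⟨c, h2, h3⟩ := h1 x hx
      refine ⟨c, hc0 h3 (div_ne_zero hx0 hx), Or.inl ?_⟩
      rw [h2, h3, div_mul_cancel₀ _ hx]
  · push Not at h0
    exact ⟨0, 0, fun x hx => absurd (h0 x) hx⟩

/-- Hilbert 90 -/
theorem hilbert90 {θ : K →+* K} (hθθ : ∀ a, θ (θ a) = a) (hθ : ∃ a, θ a ≠ a) {c : K}
    (hc : c * θ c = 1) : ∃ a, a ≠ 0 ∧ a * (θ a)⁻¹ = c := by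
  by_cases h : 1 + c = 0
  · obtain ⟨a, ha⟩ := hθ
    have h1 : a - θ a ≠ 0 := sub_ne_zero.mpr (Ne.symm ha)
    refine ⟨a - θ a, h1, ?_⟩
    rw [map_sub, hθθ]
    have h2 : c = -1 := by linear_combination h
    rw [h2]
    have h3 : θ a - a = -(a - θ a) := by ring
    rw [h3, inv_neg, mul_neg, mul_inv_cancel₀ h1]
  · refine ⟨1 + c, h, ?_⟩
    have h1 : θ (1 + c) ≠ 0 := by
      intro h2
      have := congrArg θ h2
      rw [hθθ, map_zero] at this
      exact h this
    rw [mul_inv_eq_iff_eq_mul₀ h1, map_add, map_one, mul_add, mul_one, hc, add_comm]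

end Norm

/-- A grading of a form. -/
structure Grad {K E : Type*} [Field K] [AddCommGroup E] [Module K E] (Φ : HForm K E)
    (Λ : Type*) where
  /-- the projections -/
  π : Λ → End K E
  /-- the duality -/
  s : Λ → Λ
  idem : ∀ l x, π l (π l x) = π l x
  orth : ∀ l m x, l ≠ m → π l (π m x) = 0
  sep : ∀ x, (∀ l, π l x = 0) → x = 0
  adj : ∀ l x y, Φ.B (π l x) y = Φ.B x (π (s l) y)

section Main

variable {K E Λ : Type*} [Field K] [AddCommGroup E] [Module K E] {Φ : HForm K E}
  (𝒢 : Grad Φ Λ)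

theorem Grad.hom {l m : Λ} {x : E} (hx : 𝒢.π l x = x) : 𝒢.π m x = x ∨ 𝒢.π m x = 0 := by
  by_cases h : m = l
  · left; rw [h, hx]
  · right; rw [← hx]; exact 𝒢.orth _ _ _ h

theorem Grad.hom_zero {l m : Λ} {x y : E} (hx : 𝒢.π l x = x) (hy : 𝒢.π m y = y)
    (h : Φ.B x y ≠ 0) : 𝒢.π (𝒢.s l) y = y := by
  rcases 𝒢.hom hy (m := 𝒢.s l) with h1 | h1
  · exact h1
  · exfalso
    apply h
    rw [← hx, 𝒢.adj, h1, Φ.zero_right]

/-- The induction. -/
theorem exists_gram (hK : Finite K) (hE : FiniteDimensional K E) {a0 a1 : K}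
    (hnorm : ∀ x : E, Φ.B x x ≠ 0 → ∃ c : K, c ≠ 0 ∧
      (c * Φ.θ c * Φ.B x x = a0 ∨ c * Φ.θ c * Φ.B x x = a1)) :
    ∀ (n : ℕ) (U : Submodule K E), finrank K U = n → (∀ l, ∀ x ∈ U, 𝒢.π l x ∈ U) →
      (∀ x ∈ U, (∀ y ∈ U, Φ.B x y = 0) → x = 0) →
      ∃ (k : ℕ) (v : Fin k → E) (lab : Fin k → Λ), (∀ i, 𝒢.π (lab i) (v i) = v i) ∧
        LinearIndependent K v ∧ Submodule.span K (Set.range v) = U ∧
        (∀ i j, Φ.B (v i) (v j) ∈ ({0, 1, Φ.ε, a0, a1} : Set K)) ∧
        (0 < k → (∃ a, Φ.θ a ≠ a) → ∀ c, c * Φ.θ c = 1 → ∃ d : Fin k → K,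
          (∏ i, d i = c) ∧ ∀ i j, Φ.B (v i) (v j) ≠ 0 → d i * Φ.θ (d j) = 1) := by
  intro n
  induction n using Nat.strong_induction_on with
  | _ n ih =>
  intro U hUn hUπ hUnd
  by_cases hU : U = ⊥
  · refine ⟨0, Fin.elim0, Fin.elim0, fun i => i.elim0, ?_, ?_, fun i => i.elim0, fun h => by omega⟩
    · exact linearIndependent_empty_type
    · rw [hU, Set.range_eq_empty, Submodule.span_empty]
  by_cases hA : ∃ l, ∃ x ∈ U, 𝒢.π l x = x ∧ Φ.B x x ≠ 0
  · -- an anisotropic homogeneous vector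
    obtain ⟨l, x0, hx0U, hx0l, hx0⟩ := hA
    obtain ⟨c0, hc0, hc0a⟩ := hnorm x0 hx0
    set x := c0 • x0 with hxdef
    have hxU : x ∈ U := U.smul_mem _ hx0U
    have hxl : 𝒢.π l x = x := by rw [hxdef, map_smul, hx0l]
    have hxx : Φ.B x x = c0 * Φ.θ c0 * Φ.B x0 x0 := by
      rw [hxdef, Φ.smul_left, Φ.smul_right]; ring
    have hθc0 : Φ.θ c0 ≠ 0 := (map_ne_zero Φ.θ).mpr hc0
    have hx : Φ.B x x ≠ 0 := by
      rw [hxx]
      exact mul_ne_zero (mul_ne_zero hc0 hθc0) hx0
    have hxa : Φ.B x x ∈ ({0, 1, Φ.ε, a0, a1} : Set K) := by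
      rw [hxx]
      rcases hc0a with h | h
      · rw [h]; simp
      · rw [h]; simp
    set U' : Submodule K E := U ⊓ Φ.perp (Submodule.span K {x}) with hU'
    have hmem : ∀ y, y ∈ U' ↔ y ∈ U ∧ Φ.B y x = 0 := by
      intro y
      rw [hU', Submodule.mem_inf, Φ.mem_perp]
      constructor
      · rintro ⟨h1, h2⟩
        exact ⟨h1, h2 x (Submodule.mem_span_singleton_self x)⟩
      · rintro ⟨h1, h2⟩
        refine ⟨h1, fun z hz => ?_⟩
        obtain ⟨r, rfl⟩ := Submodule.mem_span_singleton.mp hz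
        rw [Φ.smul_right, h2, mul_zero]
    have hlt : finrank K U' < n := by
      rw [← hUn]
      apply Submodule.finrank_lt_finrank_of_lt
      refine lt_of_le_of_ne inf_le_left fun h => hx ?_
      have h1 : x ∈ U' := by rw [h]; exact hxU
      exact ((hmem x).mp h1).2
    have hdec : ∀ u ∈ U, u - (Φ.B u x / Φ.B x x) • x ∈ U' := by
      intro u hu
      rw [hmem]
      refine ⟨U.sub_mem hu (U.smul_mem _ hxU), ?_⟩
      rw [Φ.sub_left, Φ.smul_left, div_mul_cancel₀ _ hx, sub_self]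
    obtain ⟨k, v, lab, h1, h2, h3, h4, -⟩ := ih _ hlt U' rfl
      (by
        intro m y hy
        rw [hmem] at hy ⊢
        refine ⟨hUπ m y hy.1, ?_⟩
        rw [𝒢.adj]
        rcases 𝒢.hom hxl (m := 𝒢.s m) with h | h
        · rw [h, hy.2]
        · rw [h, Φ.zero_right])
      (by
        intro y hy hy0
        apply hUnd y ((hmem y).mp hy).1
        intro u hu
        have h5 := hy0 _ (hdec u hu)
        rw [Φ.sub_right, Φ.smul_right, ((hmem y).mp hy).2, mul_zero, sub_zero] at h5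
        exact h5)
    have hvU : ∀ i, v i ∈ U' := fun i => by rw [← h3]; exact Submodule.subset_span ⟨i, rfl⟩
    have hvx : ∀ i, Φ.B (v i) x = 0 := fun i => ((hmem _).mp (hvU i)).2
    have hxv : ∀ i, Φ.B x (v i) = 0 := fun i => Φ.eq_zero_comm (hvx i)
    refine ⟨k + 1, Fin.cons x v, Fin.cons l lab, ?_, ?_, ?_, ?_, ?_⟩
    · intro i
      refine Fin.cases ?_ (fun i => ?_) i
      · exact hxl
      · exact h1 i
    · rw [linearIndependent_finCons]
      refine ⟨h2, fun h => hx ?_⟩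
      rw [h3] at h
      exact ((hmem x).mp h).2
    · rw [Fin.range_cons, Submodule.span_insert, h3]
      apply le_antisymm
      · refine sup_le ?_ inf_le_left
        rw [Submodule.span_singleton_le_iff_mem]
        exact hxU
      · intro u hu
        rw [Submodule.mem_sup]
        exact ⟨_, Submodule.smul_mem _ (Φ.B u x / Φ.B x x) (Submodule.mem_span_singleton_self x),
          _, hdec u hu, by abel⟩
    · intro i j
      refine Fin.cases ?_ (fun i => ?_) i <;> refine Fin.cases ?_ (fun j => ?_) j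
      · exact hxa
      · rw [Fin.cons_zero, Fin.cons_succ, hxv]; simp
      · rw [Fin.cons_zero, Fin.cons_succ, hvx]; simp
      · exact h4 i j
    · intro _ _ c hc
      refine ⟨Fin.cons c (fun _ => 1), ?_, ?_⟩
      · rw [Fin.prod_univ_succ]
        simp
      · intro i j
        refine Fin.cases ?_ (fun i => ?_) i <;> refine Fin.cases ?_ (fun j => ?_) j
        · intro _
          rw [Fin.cons_zero]
          exact hc
        · intro h
          rw [Fin.cons_zero, Fin.cons_succ, hxv] at h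
          exact absurd rfl h
        · intro h
          rw [Fin.cons_zero, Fin.cons_succ, hvx] at h
          exact absurd rfl h
        · intro _
          rw [Fin.cons_succ, Fin.cons_succ, map_one, mul_one]
  · -- a hyperbolic pair
    push Not at hA
    obtain ⟨z, hzU, hz0⟩ := Submodule.exists_mem_ne_zero_of_ne_bot hU
    obtain ⟨l, hl⟩ : ∃ l, 𝒢.π l z ≠ 0 := by
      by_contra hcon
      push Not at hcon
      exact hz0 (𝒢.sep z hcon)
    set x := 𝒢.π l z with hxdef
    have hxU : x ∈ U := hUπ l z hzU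
    have hxl : 𝒢.π l x = x := 𝒢.idem l z
    obtain ⟨w, hwU, hw⟩ : ∃ w ∈ U, Φ.B x w ≠ 0 := by
      by_contra hcon
      push Not at hcon
      exact hl (hUnd x hxU hcon)
    have hw' : Φ.B x (𝒢.π (𝒢.s l) w) = Φ.B x w := by rw [← 𝒢.adj, hxl]
    obtain ⟨r, hr⟩ : ∃ r : K, Φ.θ r * Φ.B x w = 1 := ⟨Φ.θ (Φ.B x w)⁻¹, by
      rw [Φ.θθ, inv_mul_cancel₀ hw]⟩
    set y := r • 𝒢.π (𝒢.s l) w with hydef
    have hyU : y ∈ U := U.smul_mem _ (hUπ _ _ hwU)
    have hyl : 𝒢.π (𝒢.s l) y = y := by rw [hydef, map_smul, 𝒢.idem]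
    have hxy : Φ.B x y = 1 := by rw [hydef, Φ.smul_right, hw', hr]
    have hyx : Φ.B y x = Φ.ε := by rw [Φ.symm x y, hxy, map_one, mul_one]
    have hxx : Φ.B x x = 0 := hA l x hxU hxl
    have hyy : Φ.B y y = 0 := hA _ y hyU hyl
    clear_value y x
    have hε : Φ.ε ≠ 0 := by
      intro h
      have := Φ.εε
      rw [h, zero_mul] at this
      exact zero_ne_one this
    set U' : Submodule K E := U ⊓ Φ.perp (Submodule.span K {x, y}) with hU'
    have hmem : ∀ u, u ∈ U' ↔ u ∈ U ∧ Φ.B u x = 0 ∧ Φ.B u y = 0 := by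
      intro u
      rw [hU', Submodule.mem_inf, Φ.mem_perp]
      constructor
      · rintro ⟨h1, h2⟩
        exact ⟨h1, h2 x (Submodule.subset_span (by simp)), h2 y (Submodule.subset_span (by simp))⟩
      · rintro ⟨h1, h2, h2'⟩
        refine ⟨h1, fun z hz => ?_⟩
        obtain ⟨r, s, rfl⟩ := Submodule.mem_span_pair.mp hz
        rw [Φ.add_right, Φ.smul_right, Φ.smul_right, h2, h2', mul_zero, mul_zero, add_zero]
    have hlt : finrank K U' < n := by
      rw [← hUn]
      apply Submodule.finrank_lt_finrank_of_lt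
      refine lt_of_le_of_ne inf_le_left fun h => ?_
      have h1 : x ∈ U' := by rw [h]; exact hxU
      have h2 := ((hmem x).mp h1).2.2
      rw [hxy] at h2
      exact one_ne_zero h2
    have hdec : ∀ u ∈ U, u - (Φ.B u y) • x - (Φ.B u x / Φ.ε) • y ∈ U' := by
      intro u hu
      rw [hmem]
      refine ⟨U.sub_mem (U.sub_mem hu (U.smul_mem _ hxU)) (U.smul_mem _ hyU), ?_, ?_⟩
      · rw [Φ.sub_left, Φ.sub_left, Φ.smul_left, Φ.smul_left, hxx, hyx, mul_zero, sub_zero,
          div_mul_cancel₀ _ hε, sub_self]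
      · rw [Φ.sub_left, Φ.sub_left, Φ.smul_left, Φ.smul_left, hxy, hyy, mul_zero, sub_zero,
          mul_one, sub_self]
    obtain ⟨k, v, lab, h1, h2, h3, h4, -⟩ := ih _ hlt U' rfl
      (by
        intro m u hu
        rw [hmem] at hu ⊢
        refine ⟨hUπ m u hu.1, ?_, ?_⟩
        · rw [𝒢.adj]
          rcases 𝒢.hom hxl (m := 𝒢.s m) with h | h
          · rw [h, hu.2.1]
          · rw [h, Φ.zero_right]
        · rw [𝒢.adj]
          rcases 𝒢.hom hyl (m := 𝒢.s m) with h | h
          · rw [h, hu.2.2]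
          · rw [h, Φ.zero_right])
      (by
        intro u hu hu0
        apply hUnd u ((hmem u).mp hu).1
        intro w hw
        have h5 := hu0 _ (hdec w hw)
        rw [Φ.sub_right, Φ.sub_right, Φ.smul_right, Φ.smul_right, ((hmem u).mp hu).2.1,
          ((hmem u).mp hu).2.2, mul_zero, mul_zero, sub_zero, sub_zero] at h5
        exact h5)
    have hvU : ∀ i, v i ∈ U' := fun i => by rw [← h3]; exact Submodule.subset_span ⟨i, rfl⟩
    have hvx : ∀ i, Φ.B (v i) x = 0 := fun i => ((hmem _).mp (hvU i)).2.1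
    have hvy : ∀ i, Φ.B (v i) y = 0 := fun i => ((hmem _).mp (hvU i)).2.2
    have hxv : ∀ i, Φ.B x (v i) = 0 := fun i => Φ.eq_zero_comm (hvx i)
    have hyv : ∀ i, Φ.B y (v i) = 0 := fun i => Φ.eq_zero_comm (hvy i)
    have hyn : y ∉ U' := by
      intro h
      have := ((hmem y).mp h).2.1
      rw [hyx] at this
      exact hε this
    have hsp : Submodule.span K (Set.range (Fin.cons y v : Fin (k + 1) → E)) =
        Submodule.span K {y} ⊔ U' := by
      rw [Fin.range_cons, Submodule.span_insert, h3]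
    refine ⟨k + 1 + 1, Fin.cons x (Fin.cons y v), Fin.cons l (Fin.cons (𝒢.s l) lab),
      ?_, ?_, ?_, ?_, ?_⟩
    · intro i
      refine Fin.cases ?_ (fun i => ?_) i
      · exact hxl
      · refine Fin.cases ?_ (fun i => ?_) i
        · exact hyl
        · exact h1 i
    · rw [linearIndependent_finCons, linearIndependent_finCons]
      refine ⟨⟨h2, by rwa [h3]⟩, fun h => ?_⟩
      rw [hsp, Submodule.mem_sup] at h
      obtain ⟨a, ha, b, hb, hab⟩ := h
      obtain ⟨r, rfl⟩ := Submodule.mem_span_singleton.mp ha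
      have h5 : Φ.B x y = 0 := by
        rw [← hab, Φ.add_left, Φ.smul_left, hyy, ((hmem b).mp hb).2.2, mul_zero, add_zero]
      rw [hxy] at h5
      exact one_ne_zero h5
    · rw [Fin.range_cons, Submodule.span_insert, hsp]
      apply le_antisymm
      · refine sup_le ?_ (sup_le ?_ inf_le_left)
        · rw [Submodule.span_singleton_le_iff_mem]
          exact hxU
        · rw [Submodule.span_singleton_le_iff_mem]
          exact hyU
      · intro u hu
        rw [Submodule.mem_sup]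
        refine ⟨_, Submodule.smul_mem _ (Φ.B u y) (Submodule.mem_span_singleton_self x),
          (Φ.B u x / Φ.ε) • y + (u - (Φ.B u y) • x - (Φ.B u x / Φ.ε) • y), ?_, by abel⟩
        exact Submodule.add_mem_sup (Submodule.smul_mem _ _
          (Submodule.mem_span_singleton_self y)) (hdec u hu)
    · intro i j
      refine Fin.cases ?_ (fun i => ?_) i <;> refine Fin.cases ?_ (fun j => ?_) j
      · rw [Fin.cons_zero, hxx]; simp
      · rw [Fin.cons_zero, Fin.cons_succ]
        refine Fin.cases ?_ (fun j => ?_) j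
        · rw [Fin.cons_zero, hxy]; simp
        · rw [Fin.cons_succ, hxv]; simp
      · rw [Fin.cons_zero, Fin.cons_succ]
        refine Fin.cases ?_ (fun i => ?_) i
        · rw [Fin.cons_zero, hyx]; simp
        · rw [Fin.cons_succ, hvx]; simp
      · rw [Fin.cons_succ, Fin.cons_succ]
        refine Fin.cases ?_ (fun i => ?_) i <;> refine Fin.cases ?_ (fun j => ?_) j
        · rw [Fin.cons_zero, hyy]; simp
        · rw [Fin.cons_zero, Fin.cons_succ, hyv]; simp
        · rw [Fin.cons_zero, Fin.cons_succ, hvy]; simp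
        · exact h4 i j
    · intro _ hθ c hc
      obtain ⟨a, ha0, hac⟩ := hilbert90 Φ.θθ hθ hc
      have hθa : Φ.θ a ≠ 0 := (map_ne_zero Φ.θ).mpr ha0
      refine ⟨Fin.cons a (Fin.cons (Φ.θ a)⁻¹ (fun _ => 1)), ?_, ?_⟩
      · rw [Fin.prod_univ_succ, Fin.prod_univ_succ]
        simpa using hac
      · intro i j
        refine Fin.cases ?_ (fun i => ?_) i <;> refine Fin.cases ?_ (fun j => ?_) j
        · intro h
          rw [Fin.cons_zero, hxx] at h
          exact absurd rfl h
        · rw [Fin.cons_zero, Fin.cons_succ]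
          refine Fin.cases ?_ (fun j => ?_) j
          · intro _
            change a * Φ.θ (Φ.θ a)⁻¹ = 1
            rw [map_inv₀, Φ.θθ, mul_inv_cancel₀ ha0]
          · intro h
            rw [Fin.cons_succ, hxv] at h
            exact absurd rfl h
        · rw [Fin.cons_zero, Fin.cons_succ]
          refine Fin.cases ?_ (fun i => ?_) i
          · intro _
            change (Φ.θ a)⁻¹ * Φ.θ a = 1
            rw [inv_mul_cancel₀ hθa]
          · intro h
            rw [Fin.cons_succ, hvx] at h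
            exact absurd rfl h
        · rw [Fin.cons_succ, Fin.cons_succ]
          refine Fin.cases ?_ (fun i => ?_) i <;> refine Fin.cases ?_ (fun j => ?_) j
          · intro h
            rw [Fin.cons_zero, hyy] at h
            exact absurd rfl h
          · intro h
            rw [Fin.cons_zero, Fin.cons_succ, hyv] at h
            exact absurd rfl h
          · intro h
            rw [Fin.cons_zero, Fin.cons_succ, hvy] at h
            exact absurd rfl h
          · intro _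
            rw [Fin.cons_succ, Fin.cons_succ, Fin.cons_succ, Fin.cons_succ, map_one, mul_one]

end Main

end Vale.Agent.P180.R2.H471.Hd
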