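import Vale.Agent.P180.R2.H471.Hd1
import Vale.Agent.P180.R2.H854.FormPair2

/-! Bases adapted to pairs of selfdual flags, with Gram matrix in a fixed finite set. -/

set_option linter.all false

namespace Vale.Agent.P180.R2.H471.Hd

open Module Vale.Agent.P180.R2.H854

section Prj

variable {K E : Type*} [Field K] [AddCommGroup E] [Module K E] {ι Λ : Type*} [Fintype ι]

open Classical in
/-- The projections of a labelled basis. -/
noncomputable def prj (b : Basis ι K E) (lab : ι → Λ) (l : Λ) : End K E :=
  b.constr K (fun i => if lab i = l then b i else 0)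

open Classical in
theorem prj_self (b : Basis ι K E) (lab : ι → Λ) (l : Λ) (i : ι) :
    prj b lab l (b i) = if lab i = l then b i else 0 := b.constr_basis K _ i

open Classical in
theorem repr_prj (b : Basis ι K E) (lab : ι → Λ) (l : Λ) (x : E) (i : ι) :
    b.repr (prj b lab l x) i = if lab i = l then b.repr x i else 0 := by
  have h1 : (b.coord i) ∘ₗ (prj b lab l) =
      if lab i = l then b.coord i else 0 := by
    refine b.ext fun j => ?_
    rw [LinearMap.comp_apply, prj_self]
    by_cases hj : lab j = l
    · rw [if_pos hj]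
      by_cases hi : lab i = l
      · rw [if_pos hi]
      · rw [if_neg hi, LinearMap.zero_apply, Basis.coord_apply, Basis.repr_self,
          Finsupp.single_apply, if_neg]
        rintro rfl
        exact hi hj
    · rw [if_neg hj, map_zero]
      by_cases hi : lab i = l
      · rw [if_pos hi, Basis.coord_apply, Basis.repr_self, Finsupp.single_apply, if_neg]
        rintro rfl
        exact hj hi
      · rw [if_neg hi, LinearMap.zero_apply]
  have h2 := congrArg (fun f : E →ₗ[K] K => f x) h1
  change b.repr (prj b lab l x) i = (if lab i = l then b.coord i else 0 : E →ₗ[K] K) x at h2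
  rw [h2]
  split_ifs
  · rfl
  · rfl

/-- The grading of a basis. -/
noncomputable def gradOf [FiniteDimensional K E] [Finite K] (Φ : HForm K E) (b : Basis ι K E)
    (lab : ι → Λ) (s : Λ → Λ) (hs : ∀ l, s (s l) = l)
    (hB : ∀ i j, Φ.B (b i) (b j) ≠ 0 → lab j = s (lab i)) : Grad Φ Λ where
  π := prj b lab
  s := s
  idem := by
    classical
    intro l x
    apply b.repr.injective
    ext i
    rw [repr_prj, repr_prj]
    split_ifs <;> rfl
  orth := by
    classical
    intro l m x hlm
    apply b.repr.injective
    ext i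
    rw [repr_prj, repr_prj, map_zero, Finsupp.zero_apply]
    split_ifs with h1 h2
    · exact absurd (h1.symm.trans h2) hlm
    · rfl
    · rfl
  sep := by
    classical
    intro x hx
    apply b.repr.injective
    ext i
    rw [map_zero, Finsupp.zero_apply]
    have h1 := repr_prj b lab (lab i) x i
    rw [hx, if_pos rfl, map_zero, Finsupp.zero_apply] at h1
    exact h1.symm
  adj := by
    classical
    intro l x y
    rw [Φ.adj_right]
    have h1 : Φ.adj (prj b lab l) = prj b lab (s l) := by
      apply Φ.ext_basis b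
      intro i j
      rw [← Φ.adj_right, prj_self, prj_self]
      by_cases h0 : Φ.B (b i) (b j) = 0
      · have h2 : Φ.B (if lab i = l then b i else 0) (b j) = 0 := by
          split_ifs
          · exact h0
          · exact Φ.zero_left _
        have h3 : Φ.B (b i) (if lab j = s l then b j else 0) = 0 := by
          split_ifs
          · exact h0
          · exact Φ.zero_right _
        rw [h2, h3]
      · have h2 := hB i j h0
        by_cases hi : lab i = l
        · rw [if_pos hi, if_pos (by rw [h2, hi])]
        · rw [if_neg hi, if_neg, Φ.zero_left, Φ.zero_right]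
          intro h3
          apply hi
          rw [← hs (lab i), ← h2, h3, hs]
    rw [h1]

/-- homogeneous bases are adapted -/
theorem adapted_of_hom {κ : Type*} [Fintype κ] {b : Basis ι K E} {lab : ι → Λ}
    {v : Basis κ K E} {lab' : κ → Λ} (hv : ∀ i, prj b lab (lab' i) (v i) = v i) {F : Flag K E}
    (f : Λ → ℕ) (hF : Adapted b (fun i => f (lab i)) F) : Adapted v (fun i => f (lab' i)) F := by
  classical
  have h1 : ∀ l, prj b lab l = prj v lab' l := by
    intro l
    refine v.ext fun i => ?_
    rw [prj_self]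
    by_cases hi : lab' i = l
    · rw [if_pos hi, ← hi, hv]
    · rw [if_neg hi, ← hv i]
      apply b.repr.injective
      ext m
      rw [repr_prj, repr_prj, map_zero, Finsupp.zero_apply]
      split_ifs with h1 h2
      · exact absurd (h2.symm.trans h1) hi
      · rfl
      · rfl
  intro i
  apply le_antisymm
  · intro x hx
    rw [Basis.mem_span_image]
    intro l hl
    rw [Finset.mem_coe, Finsupp.mem_support_iff] at hl
    have h2 : prj b lab (lab' l) x ≠ 0 := by
      intro h3
      rw [h1] at h3
      have h4 := repr_prj v lab' (lab' l) x l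
      rw [h3, if_pos rfl, map_zero, Finsupp.zero_apply] at h4
      exact hl h4.symm
    obtain ⟨m, hm⟩ : ∃ m, b.repr (prj b lab (lab' l) x) m ≠ 0 := by
      by_contra hcon
      push Not at hcon
      apply h2
      apply b.repr.injective
      ext m
      rw [hcon, map_zero, Finsupp.zero_apply]
    rw [repr_prj] at hm
    split_ifs at hm with h5
    · have h6 := hF.mem_iff.mp hx m hm
      change f (lab' l) < i
      rw [← h5]
      exact h6
    · exact absurd rfl hm
  · rw [Submodule.span_le]
    rintro _ ⟨l, hl, rfl⟩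
    rw [SetLike.mem_coe, hF.mem_iff]
    intro m hm
    rw [← hv l, repr_prj] at hm
    split_ifs at hm with h5
    · rw [h5]
      exact hl
    · exact absurd rfl hm

end Prj

variable {K E : Type*} [Field K] [AddCommGroup E] [Module K E] [FiniteDimensional K E] [Finite K]
  (Φ : HForm K E)

/-- A basis adapted to two selfdual flags with Gram matrix in a finite set. -/
theorem exists_gram_pair (hK : Odd (Nat.card K)) {F H : Flag K E} (hF : Φ.SD F) (hH : Φ.SD H)
    {a0 a1 : K} (hnorm : ∀ x : E, Φ.B x x ≠ 0 → ∃ c : K, c ≠ 0 ∧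
      (c * Φ.θ c * Φ.B x x = a0 ∨ c * Φ.θ c * Φ.B x x = a1)) :
    ∃ (v : Basis (Fin (finrank K E)) K E) (α β : Fin (finrank K E) → ℕ), Adapted v α F ∧
      Adapted v β H ∧ (∀ i j, Φ.B (v i) (v j) ∈ ({0, 1, Φ.ε, a0, a1} : Set K)) ∧
      (0 < finrank K E → (∃ a, Φ.θ a ≠ a) → ∀ c, c * Φ.θ c = 1 →
        ∃ d : Fin (finrank K E) → K, (∏ i, d i = c) ∧
          ∀ i j, Φ.B (v i) (v j) ≠ 0 → d i * Φ.θ (d j) = 1) := by
  classical
  obtain ⟨N, h0, hN, hF⟩ := hF
  obtain ⟨M, m0, hM, hH⟩ := hH
  obtain ⟨b, hbF, hbH, hB⟩ := Φ.exists_sd_basis2 hK h0 hN hF m0 hM hH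
  have hB' : ∀ l m, Φ.B (b l) (b m) ≠ 0 →
      m.1 = ((Fin.rev l.1.1, Fin.rev l.1.2) : Fin N × Fin M) := by
    intro l m hlm
    have h1 : (l.1.1 : ℕ) + m.1.1 + 1 = N ∧ (l.1.2 : ℕ) + m.1.2 + 1 = M := by
      by_contra hcon
      exact hlm (hB l m hcon)
    apply Prod.ext
    · apply Fin.ext
      rw [Fin.val_rev]
      omega
    · apply Fin.ext
      rw [Fin.val_rev]
      omega
  let 𝒢 : Grad Φ (Fin N × Fin M) := gradOf Φ b (fun l => l.1)
    (fun x => (Fin.rev x.1, Fin.rev x.2)) (fun x => by simp) hB'
  obtain ⟨k, v, lab, h1, h2, h3, h4, h5⟩ := exists_gram 𝒢 inferInstance inferInstance hnorm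
    (finrank K E) ⊤ (finrank_top K E) (fun _ _ _ => trivial)
    (fun x _ hx => Φ.nondeg x fun y => hx y trivial)
  have hk : k = finrank K E := by
    have := finrank_span_eq_card (R := K) h2
    rw [h3, finrank_top, Fintype.card_fin] at this
    exact this.symm
  subst hk
  let w : Basis (Fin (finrank K E)) K E := Basis.mk h2 h3.ge
  have hw : ∀ i, w i = v i := fun i => Basis.mk_apply h2 h3.ge i
  have hhom : ∀ i, prj b (fun l => l.1) (lab i) (w i) = w i := by
    intro i
    rw [hw]
    exact h1 i
  refine ⟨w, fun i => (lab i).1, fun i => (lab i).2,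
    adapted_of_hom hhom (fun x => (x.1 : ℕ)) hbF, adapted_of_hom hhom (fun x => (x.2 : ℕ)) hbH,
    ?_, ?_⟩
  · intro i j
    rw [hw, hw]
    exact h4 i j
  · intro hk hθ c hc
    obtain ⟨d, hd, hd'⟩ := h5 hk hθ c hc
    refine ⟨d, hd, fun i j => ?_⟩
    rw [hw, hw]
    exact hd' i j

end Vale.Agent.P180.R2.H471.Hd
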