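import Vale.Agent.P180.R2.H471.Hd2

/-! The number of double cosets of the stabiliser of a selfdual flag in the special isometry group. -/

set_option linter.all false

namespace Vale.Agent.P180.R2.H471.Hd

open Module Vale.Agent.P180.R2.H854

variable {K E : Type*} [Field K] [AddCommGroup E] [Module K E] [FiniteDimensional K E]

theorem level_eq {ι : Type*} {v v' : Basis ι K E} {α α' : ι → ℕ} {F : Flag K E}
    (h : Adapted v α F) (h' : Adapted v' α' F)
    (hd : ∀ l, finrank K (F (α l)) = finrank K (F (α' l))) : α = α' := by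
  have key : ∀ {u : E} {i j : ℕ}, u ∉ F i → u ∈ F (i + 1) → i < j →
      finrank K (F i) < finrank K (F j) := by
    intro u i j h1 h2 hij
    apply Submodule.finrank_lt_finrank_of_lt
    refine lt_of_le_of_ne (F.mono hij.le) fun h3 => h1 ?_
    rw [h3]
    exact F.mono hij h2
  funext l
  rcases lt_trichotomy (α l) (α' l) with h1 | h1 | h1
  · have := key (u := v l) (fun h2 => lt_irrefl _ (h.self_mem_iff.mp h2))
      (h.self_mem_iff.mpr (Nat.lt_succ_self _)) h1
    exact absurd (hd l) this.ne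
  · exact h1
  · have := key (u := v' l) (fun h2 => lt_irrefl _ (h'.self_mem_iff.mp h2))
      (h'.self_mem_iff.mpr (Nat.lt_succ_self _)) h1
    exact absurd (hd l).symm this.ne

variable [Finite K] (Φ : HForm K E)

/-- two bases with the same Gram matrix: the determinant has norm one -/
theorem norm_det {ι : Type*} [Fintype ι] [DecidableEq ι] (v v' : Basis ι K E)
    (hG : ∀ i j, Φ.B (v i) (v j) = Φ.B (v' i) (v' j)) :
    LinearMap.det (v.equiv v' (Equiv.refl ι) : E →ₗ[K] E) *
      Φ.θ (LinearMap.det (v.equiv v' (Equiv.refl ι) : E →ₗ[K] E)) = 1 := by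
  set T : E →ₗ[K] E := (v.equiv v' (Equiv.refl ι) : E →ₗ[K] E) with hT
  have hTv : ∀ i, T (v i) = v' i := fun i => v.equiv_apply i v' (Equiv.refl ι)
  set M := LinearMap.toMatrix v v T with hM
  have hMT : ∀ i, T (v i) = ∑ k, M k i • v k := by
    intro i
    rw [hM]
    simp only [LinearMap.toMatrix_apply]
    exact (v.sum_repr (T (v i))).symm
  let G : Matrix ι ι K := fun i j => Φ.B (v i) (v j)
  have hsum_left : ∀ (c : ι → K) (y : E), Φ.B (∑ k, c k • v k) y = ∑ k, c k * Φ.B (v k) y := by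
    intro c y
    have h1 : Φ.B (∑ k, c k • v k) y = Φ.fn y (∑ k, c k • v k) := rfl
    rw [h1, map_sum]
    refine Finset.sum_congr rfl fun k _ => ?_
    rw [map_smul, smul_eq_mul]
    rfl
  have hsum_right : ∀ (c : ι → K) (x : E),
      Φ.B x (∑ k, c k • v k) = ∑ k, Φ.θ (c k) * Φ.B x (v k) := by
    intro c x
    rw [Φ.symm, hsum_left, map_sum, Finset.mul_sum]
    refine Finset.sum_congr rfl fun k _ => ?_
    rw [map_mul, Φ.symm (v k) x]
    ring
  have hGM : G = M.transpose * G * M.map Φ.θ := by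
    ext i j
    change Φ.B (v i) (v j) = _
    rw [hG, ← hTv, ← hTv, hMT i, hMT j, hsum_left, Matrix.mul_assoc, Matrix.mul_apply]
    refine Finset.sum_congr rfl fun k _ => ?_
    rw [hsum_right, Matrix.transpose_apply, Matrix.mul_apply]
    congr 1
    refine Finset.sum_congr rfl fun l _ => ?_
    rw [Matrix.map_apply, mul_comm]
  have hdG : G.det ≠ 0 := by
    intro h0
    obtain ⟨c, hc, hcG⟩ := Matrix.exists_vecMul_eq_zero_iff.mpr h0
    have hx : ∑ k, c k • v k = 0 := by
      apply Φ.nondeg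
      have h1 : Φ.fn = fun y => Φ.fn y := rfl
      intro y
      have h2 : ∀ j, Φ.B (∑ k, c k • v k) (v j) = 0 := by
        intro j
        rw [hsum_left]
        have := congrFun hcG j
        simpa [Matrix.vecMul, dotProduct] using this
      rw [← v.sum_repr y, hsum_right]
      apply Finset.sum_eq_zero
      intro j _
      rw [h2, mul_zero]
    apply hc
    funext i
    exact (Fintype.linearIndependent_iff.mp v.linearIndependent) c hx i
  have hdet : LinearMap.det T = M.det := (LinearMap.det_toMatrix v T).symm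
  have h3 := congrArg Matrix.det hGM
  rw [Matrix.det_mul, Matrix.det_mul, Matrix.det_transpose] at h3
  have h4 : (M.map Φ.θ).det = Φ.θ M.det := (RingHom.map_det Φ.θ M).symm
  rw [h4] at h3
  rw [hdet]
  apply mul_left_cancel₀ hdG
  rw [mul_one]
  nth_rewrite 2 [h3]
  ring

/-- isometries from bases with the same Gram matrix -/
theorem exists_iso_of_data {F H F' H' : Flag K E} {n : ℕ} (v v' : Basis (Fin n) K E)
    {α β : Fin n → ℕ} (h1 : Adapted v α F) (h2 : Adapted v β H)
    (h1' : Adapted v' α F') (h2' : Adapted v' β H')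
    (hG : ∀ i j, Φ.B (v i) (v j) = Φ.B (v' i) (v' j)) (d : Fin n → K)
    (hd : LinearMap.det (v.equiv v' (Equiv.refl _) : E →ₗ[K] E) * ∏ i, d i = 1)
    (hd2 : ∀ i j, Φ.B (v i) (v j) ≠ 0 → d i * Φ.θ (d j) = 1) :
    ∃ a ∈ Φ.Iso, (∀ i, ∀ x ∈ F i, a x ∈ F' i) ∧ ∀ i, ∀ x ∈ H i, a x ∈ H' i := by
  classical
  set T : E →ₗ[K] E := (v.equiv v' (Equiv.refl _) : E →ₗ[K] E) with hT
  have hTv : ∀ i, T (v i) = v' i := fun i => v.equiv_apply i v' (Equiv.refl _)
  clear_value T
  obtain ⟨D, hD, hDdet⟩ : ∃ D : E →ₗ[K] E, (∀ l, D (v l) = d l • v l) ∧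
      LinearMap.det D = ∏ l, d l := by
    refine ⟨Matrix.toLin v v (Matrix.diagonal d), fun l => ?_, ?_⟩
    · simp only [Matrix.toLin_self, Matrix.diagonal_apply, ite_smul, zero_smul]
      rw [Finset.sum_ite_eq' Finset.univ l]
      simp
    · rw [LinearMap.det_toLin, Matrix.det_diagonal]
  have hdet' : LinearMap.det (T ∘ₗ D) = 1 := by
    rw [LinearMap.det_comp, hDdet, hd]
  have hval : ∀ l, (T ∘ₗ D) (v l) = d l • v' l := by
    intro l
    rw [LinearMap.comp_apply, hD, map_smul, hTv]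
  refine ⟨mkSL (T ∘ₗ D) hdet', ?_, ?_, ?_⟩
  · rw [Φ.mem_Iso_iff, toEnd_mkSL]
    apply Φ.ext_basis v
    intro l m
    rw [End.mul_apply, ← Φ.adj_right, End.one_apply, hval, hval, Φ.smul_left, Φ.smul_right, ← hG]
    by_cases h0 : Φ.B (v l) (v m) = 0
    · rw [h0, mul_zero, mul_zero]
    · rw [← mul_assoc, hd2 l m h0, one_mul]
  · intro i
    apply h1.forall_mem (a := T ∘ₗ D)
    intro l hl
    rw [hval]
    apply (F' i).smul_mem
    rw [h1'.self_mem_iff]
    exact hl
  · intro i
    apply h2.forall_mem (a := T ∘ₗ D)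
    intro l hl
    rw [hval]
    apply (H' i).smul_mem
    rw [h2'.self_mem_iff]
    exact hl

theorem rel_of_iso {F : Flag K E} (g g' a : Φ.Iso) (haF : ∀ i, ∀ x ∈ F i, a.1 x ∈ F i)
    (haH : ∀ i, ∀ x ∈ mapF g.1.1 F i, a.1 x ∈ mapF g'.1.1 F i) :
    ∃ a ∈ (PF F).subgroupOf Φ.Iso, ∃ b ∈ (PF F).subgroupOf Φ.Iso, g' = a * g * b := by
  have h3 : g'.1⁻¹ * a.1 * g.1 ∈ PF F := by
    intro j x hx
    have h2 : g.1 x ∈ mapF g.1.1 F j := by
      rw [mem_mapF, inv_apply_self']
      exact hx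
    have h3 := haH j _ h2
    rw [mem_mapF] at h3
    exact h3
  have h4 : g'⁻¹ * a * g ∈ (PF F).subgroupOf Φ.Iso := Subgroup.mem_subgroupOf.mpr h3
  exact ⟨a, Subgroup.mem_subgroupOf.mpr haF, (g'⁻¹ * a * g)⁻¹, Subgroup.inv_mem _ h4, by group⟩

/-- double cosets from bases with the same Gram matrix -/
theorem rel_of_data {F : Flag K E} (g g' : Φ.Iso) {n : ℕ} (v v' : Basis (Fin n) K E)
    {α β : Fin n → ℕ} (h1 : Adapted v α F) (h2 : Adapted v β (mapF g.1.1 F))
    (h1' : Adapted v' α F) (h2' : Adapted v' β (mapF g'.1.1 F))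
    (hG : ∀ i j, Φ.B (v i) (v j) = Φ.B (v' i) (v' j)) (d : Fin n → K)
    (hd : LinearMap.det (v.equiv v' (Equiv.refl _) : E →ₗ[K] E) * ∏ i, d i = 1)
    (hd2 : ∀ i j, Φ.B (v i) (v j) ≠ 0 → d i * Φ.θ (d j) = 1) :
    ∃ a ∈ (PF F).subgroupOf Φ.Iso, ∃ b ∈ (PF F).subgroupOf Φ.Iso, g' = a * g * b := by
  obtain ⟨a, ha, haF, haH⟩ := exists_iso_of_data Φ v v' h1 h2 h1' h2' hG d hd hd2
  exact rel_of_iso Φ g g' ⟨a, ha⟩ haF haH

/-- the number of double cosets -/
def cIso (n : ℕ) : ℕ := (n + 1) ^ n * ((n + 1) ^ n * (5 ^ n) ^ n) * 2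

theorem card_dc_iso (hK : Odd (Nat.card K)) {F : Flag K E} (hF : Φ.SD F) :
    Nat.card (DoubleCoset.Quotient (((PF F).subgroupOf Φ.Iso : Subgroup Φ.Iso) : Set Φ.Iso)
      ((PF F).subgroupOf Φ.Iso : Subgroup Φ.Iso)) ≤ cIso (finrank K E) := by
  classical
  obtain ⟨a0, a1, hnorm⟩ := exists_norm_reps Φ
  set n := finrank K E with hn
  set A : Finset K := {0, 1, Φ.ε, a0, a1} with hA
  have hAc : A.card ≤ 5 := Finset.card_le_five
  have hex : ∀ g : Φ.Iso, _ := fun g => exists_gram_pair Φ hK hF (Φ.SD_mapF hF g.2) hnorm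
  choose v α β h1 h2 h3 h4 using hex
  have h3' : ∀ g i j, Φ.B (v g i) (v g j) ∈ A := by
    intro g i j
    have := h3 g i j
    rw [hA]
    simpa using this
  let t : Φ.Iso → (Fin n → Fin (n + 1)) × (Fin n → Fin (n + 1)) × (Fin n → Fin n → A) :=
    fun g => ⟨fun l => ⟨finrank K (F (α g l)), Nat.lt_succ_of_le (Submodule.finrank_le _)⟩,
      fun l => ⟨finrank K (F (β g l)), Nat.lt_succ_of_le (Submodule.finrank_le _)⟩,
      fun i j => ⟨_, h3' g i j⟩⟩
  have ht : ∀ g g', t g = t g' → α g = α g' ∧ β g = β g' ∧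
      ∀ i j, Φ.B (v g i) (v g j) = Φ.B (v g' i) (v g' j) := by
    intro g g' h
    have e1 := congrArg Prod.fst h
    have e2 := congrArg (fun x => x.2.1) h
    have e3 := congrArg (fun x => x.2.2) h
    refine ⟨level_eq (h1 g) (h1 g') fun l => congrArg Fin.val (congrFun e1 l), ?_, ?_⟩
    · -- transport to `F` by `g`
      have key : ∀ {u : E} {i j : ℕ}, u ∉ F i → u ∈ F (i + 1) → i < j →
          finrank K (F i) < finrank K (F j) := by
        intro u i j h1 h2 hij
        apply Submodule.finrank_lt_finrank_of_lt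
        refine lt_of_le_of_ne (F.mono hij.le) fun h3 => h1 ?_
        rw [h3]
        exact F.mono hij h2
      have hne : ∀ g l, ((g : Φ.Iso).1⁻¹ (v g l) : E) ∉ F (β g l) ∧
          (g.1⁻¹ (v g l) : E) ∈ F (β g l + 1) := by
        intro g l
        refine ⟨fun h5 => ?_, ?_⟩
        · exact lt_irrefl _ ((h2 g).self_mem_iff.mp (mem_mapF.mpr h5))
        · exact mem_mapF.mp ((h2 g).self_mem_iff.mpr (Nat.lt_succ_self _))
      funext l
      have hd : finrank K (F (β g l)) = finrank K (F (β g' l)) :=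
        congrArg Fin.val (congrFun e2 l)
      rcases lt_trichotomy (β g l) (β g' l) with h5 | h5 | h5
      · exact absurd hd (key (hne g l).1 (hne g l).2 h5).ne
      · exact h5
      · exact absurd hd.symm (key (hne g' l).1 (hne g' l).2 h5).ne
    · intro i j
      exact congrArg Subtype.val (congrFun (congrFun e3 i) j)
  -- the determinants
  let D : Φ.Iso → K := fun g => (v 1).det (v g)
  have hD0 : ∀ g, D g ≠ 0 := fun g => ((v 1).isUnit_det (v g)).ne_zero
  have hTD : ∀ g g', LinearMap.det ((v g).equiv (v g') (Equiv.refl _) : E →ₗ[K] E) * D g =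
      D g' := by
    intro g g'
    rw [← Basis.det_comp]
    congr 1
    funext i
    exact (v g).equiv_apply i (v g') (Equiv.refl _)
  have hB : ∀ g g', t g = t g' → D g = D g' → ∃ a ∈ (PF F).subgroupOf Φ.Iso,
      ∃ b ∈ (PF F).subgroupOf Φ.Iso, g' = a * g * b := by
    intro g g' h hDD
    obtain ⟨e1, e2, e3⟩ := ht g g' h
    refine rel_of_data Φ g g' (v g) (v g') (h1 g) (h2 g) (by rw [e1]; exact h1 g')
      (by rw [e2]; exact h2 g') e3 (fun _ => 1) ?_ ?_
    · have h5 := hTD g g'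
      rw [← hDD] at h5
      rw [Finset.prod_const_one, mul_one]
      exact mul_right_cancel₀ (hD0 g) (h5.trans (one_mul _).symm)
    · intro i j _
      rw [map_one, mul_one]
  have hC : ∀ g g', t g = t g' → (∃ a, Φ.θ a ≠ a) → ∃ a ∈ (PF F).subgroupOf Φ.Iso,
      ∃ b ∈ (PF F).subgroupOf Φ.Iso, g' = a * g * b := by
    intro g g' h hθ
    by_cases hDD : D g = D g'
    · exact hB g g' h hDD
    obtain ⟨e1, e2, e3⟩ := ht g g' h
    have hn0 : 0 < n := by
      rcases Nat.eq_zero_or_pos n with h0 | h0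
      · exfalso
        apply hDD
        rw [← hTD g g', LinearMap.det_eq_one_of_finrank_eq_zero h0, one_mul]
      · exact h0
    have hnd := norm_det Φ (v g) (v g') e3
    set δ := LinearMap.det ((v g).equiv (v g') (Equiv.refl _) : E →ₗ[K] E) with hδ
    have hδ0 : δ ≠ 0 := left_ne_zero_of_mul_eq_one hnd
    obtain ⟨d, hd, hd'⟩ := h4 g hn0 hθ δ⁻¹ (by rw [map_inv₀, ← mul_inv, hnd, inv_one])
    refine rel_of_data Φ g g' (v g) (v g') (h1 g) (h2 g) (by rw [e1]; exact h1 g')
      (by rw [e2]; exact h2 g') e3 d ?_ hd'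
    rw [hd]
    exact mul_inv_cancel₀ hδ0
  have hA' : (∀ a, Φ.θ a = a) → ∀ g g', t g = t g' → D g' = D g ∨ D g' = - D g := by
    intro hθ g g' h
    obtain ⟨e1, e2, e3⟩ := ht g g' h
    have hnd := norm_det Φ (v g) (v g') e3
    rw [hθ] at hnd
    rcases mul_self_eq_one_iff.mp hnd with h5 | h5
    · left
      rw [← hTD g g', h5, one_mul]
    · right
      rw [← hTD g g', h5, neg_one_mul]
  let r : (Fin n → Fin (n + 1)) × (Fin n → Fin (n + 1)) × (Fin n → Fin n → A) → Φ.Iso :=
    fun τ => if h : ∃ g, t g = τ then h.choose else 1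
  have hr : ∀ g, t (r (t g)) = t g := by
    intro g
    have h : ∃ g', t g' = t g := ⟨g, rfl⟩
    change t (if h : ∃ g', t g' = t g then h.choose else 1) = t g
    rw [dif_pos h]
    exact h.choose_spec
  let f : DoubleCoset.Quotient (((PF F).subgroupOf Φ.Iso : Subgroup Φ.Iso) : Set Φ.Iso)
      ((PF F).subgroupOf Φ.Iso : Subgroup Φ.Iso) →
      ((Fin n → Fin (n + 1)) × (Fin n → Fin (n + 1)) × (Fin n → Fin n → A)) × Bool :=
    fun q => (t q.out, decide (D q.out = D (r (t q.out))))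
  have hf : Function.Injective f := by
    intro q q' h
    have e1 : t q.out = t q'.out := congrArg Prod.fst h
    have e2 : decide (D q.out = D (r (t q.out))) = decide (D q'.out = D (r (t q'.out))) :=
      congrArg Prod.snd h
    have h5 : ∃ a ∈ (PF F).subgroupOf Φ.Iso, ∃ b ∈ (PF F).subgroupOf Φ.Iso,
        q'.out = a * q.out * b := by
      by_cases hθ : ∀ a, Φ.θ a = a
      · apply hB _ _ e1
        rw [e1, decide_eq_decide] at e2
        by_cases h6 : D q.out = D (r (t q'.out))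
        · rw [h6, e2.mp h6]
        · have h7 : D q'.out ≠ D (r (t q'.out)) := fun h => h6 (e2.mpr h)
          rcases hA' hθ (r (t q'.out)) q.out ((hr _).trans e1.symm) with h8 | h8
          · exact absurd h8 h6
          · rcases hA' hθ (r (t q'.out)) q'.out (hr _) with h9 | h9
            · exact absurd h9 h7
            · rw [h8, h9]
      · push Not at hθ
        exact hC _ _ e1 hθ
    rw [← DoubleCoset.out_eq' _ _ q, ← DoubleCoset.out_eq' _ _ q']
    exact (DoubleCoset.eq _ _ _ _).mpr h5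
  refine (Nat.card_le_card_of_injective f hf).trans ?_
  rw [Nat.card_prod, Nat.card_prod, Nat.card_prod, Nat.card_fun, Nat.card_fun, Nat.card_fun,
    Nat.card_fin, Nat.card_fin, Nat.card_eq_fintype_card (α := Bool), Fintype.card_bool,
    Nat.card_eq_fintype_card (α := A), Fintype.card_coe]
  unfold cIso
  gcongr

end Vale.Agent.P180.R2.H471.Hd
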