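import Vale.Agent.P180.R2.H259.Cyc.Zero

/-! Primitive idempotents fixed by an abelian `p`-group stay primitive in an extension by this
`p`-group. -/

set_option linter.all false

namespace Vale.Agent.P180.R2.H471.He

open Subgroup Vale.Agent.P180 Vale.Agent.P180.H768.Gd Vale.Agent.P180.R2.H365
  Vale.Agent.P180.R2.H799
  Vale.Agent.P180.R2.H259.Cyc

universe u

section Nil

theorem pow_add_mul {A : Type*} [Ring A] {a b u : A} (h1 : u * a = a * u) (h2 : u * b = b * u)
    (m : ℕ) : ∃ w, u * w = w * u ∧ (a + b * u) ^ m = a ^ m + w * u := by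
  induction m with
  | zero => exact ⟨0, by simp, by simp⟩
  | succ m ih =>
    obtain ⟨w, hw, hm⟩ := ih
    refine ⟨a ^ m * b + w * a + w * b * u, ?_, ?_⟩
    · have h3 : u * a ^ m = a ^ m * u := (Commute.pow_right (show Commute u a from h1) m).eq
      rw [mul_add, mul_add, add_mul, add_mul]
      congr 1
      · congr 1
        · rw [← mul_assoc, h3, mul_assoc, h2, mul_assoc]
        · rw [← mul_assoc, hw, mul_assoc, h1, mul_assoc]
      · rw [← mul_assoc, ← mul_assoc, hw, mul_assoc w u b, h2, ← mul_assoc]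
    · rw [pow_succ, hm, pow_succ, add_mul, mul_add, mul_add, add_mul, add_mul]
      have e1 : w * u * a = w * a * u := by rw [mul_assoc, h1, mul_assoc]
      have e2 : w * u * (b * u) = w * b * u * u := by
        rw [mul_assoc w u, ← mul_assoc u b u, h2]; simp only [mul_assoc]
      rw [e1, e2, ← mul_assoc (a ^ m) b u]
      abel

theorem nilp_add {A : Type*} [Ring A] {a b u : A} (ha : IsNilpotent a) (hu : IsNilpotent u)
    (h1 : u * a = a * u) (h2 : u * b = b * u) : IsNilpotent (a + b * u) := by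
  obtain ⟨m, hm⟩ := ha
  obtain ⟨w, hw, hmw⟩ := pow_add_mul h1 h2 m
  rw [hm, zero_add] at hmw
  obtain ⟨n, hn⟩ := hu
  refine ⟨m * n, ?_⟩
  rw [pow_mul, hmw, (show Commute w u from hw.symm).mul_pow, hn, mul_zero]

theorem nilp_add_sum {A ι : Type*} [Ring A] (s : Finset ι) (b u : ι → A) {a : A}
    (ha : IsNilpotent a) (hu : ∀ i, IsNilpotent (u i)) (h1 : ∀ i, u i * a = a * u i)
    (h2 : ∀ i j, u i * b j = b j * u i) (h3 : ∀ i j, u i * u j = u j * u i) :
    IsNilpotent (a + ∑ i ∈ s, b i * u i) := by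
  classical
  induction s using Finset.induction_on with
  | empty => rwa [Finset.sum_empty, add_zero]
  | insert i s hi ih =>
    rw [Finset.sum_insert hi, add_left_comm, add_comm]
    refine nilp_add ih (hu i) ?_ (h2 i i)
    rw [mul_add, add_mul, h1, Finset.mul_sum, Finset.sum_mul]
    congr 1
    refine Finset.sum_congr rfl fun j _ => ?_
    rw [← mul_assoc, h2, mul_assoc, h3, mul_assoc]

end Nil

section Pr

variable {k : Type u} [Field k] {H : Type} [Group H]

open Classical in
/-- The restriction to a subgroup. -/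
noncomputable def rsT (T : Subgroup H) : MonoidAlgebra k H →ₗ[k] MonoidAlgebra k H where
  toFun a := MonoidAlgebra.ofCoeff (a.coeff.filter fun x => x ∈ T)
  map_add' a b := by
    apply MonoidAlgebra.coeff_injective
    simp [Finsupp.filter_add]
  map_smul' c a := by
    apply MonoidAlgebra.coeff_injective
    simp [Finsupp.filter_smul]

open Classical in
theorem rsT_coeff (T : Subgroup H) (a : MonoidAlgebra k H) (x : H) :
    (rsT T a).coeff x = if x ∈ T then a.coeff x else 0 := by
  change (a.coeff.filter fun x => x ∈ T) x = _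
  rw [Finsupp.filter_apply]

theorem rsT_mem (T : Subgroup H) (a : MonoidAlgebra k H) : rsT T a ∈ SubAlg k T := by
  classical
  intro x hx
  by_contra h
  have h' : x ∉ T := h
  rw [rsT_coeff, if_neg h'] at hx
  exact hx rfl

theorem rsT_single_mul {T : Subgroup H} {t : H} (ht : t ∈ T) (a : MonoidAlgebra k H) :
    rsT T (MonoidAlgebra.single t 1 * a) = MonoidAlgebra.single t 1 * rsT T a := by
  classical
  apply MonoidAlgebra.coeff_injective
  ext x
  rw [rsT_coeff, MonoidAlgebra.single_mul_apply, MonoidAlgebra.single_mul_apply, rsT_coeff]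
  have h1 : t⁻¹ * x ∈ T ↔ x ∈ T := T.mul_mem_cancel_left (T.inv_mem ht)
  simp only [h1, one_mul]

theorem rsT_mul_single {T : Subgroup H} {t : H} (ht : t ∈ T) (a : MonoidAlgebra k H) :
    rsT T (a * MonoidAlgebra.single t 1) = rsT T a * MonoidAlgebra.single t 1 := by
  classical
  apply MonoidAlgebra.coeff_injective
  ext x
  rw [rsT_coeff, MonoidAlgebra.mul_single_apply, MonoidAlgebra.mul_single_apply, rsT_coeff]
  have h1 : x * t⁻¹ ∈ T ↔ x ∈ T := T.mul_mem_cancel_right (T.inv_mem ht)
  simp only [h1, mul_one]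

theorem rsT_mul_left {T : Subgroup H} {j : MonoidAlgebra k H} (hj : j ∈ SubAlg k T)
    (a : MonoidAlgebra k H) : rsT T (j * a) = j * rsT T a := by
  refine SuppIn.induction (P := fun j => rsT T (j * a) = j * rsT T a) hj ?_ ?_ ?_
  · rw [zero_mul, map_zero, zero_mul]
  · intro x y hx hy
    rw [add_mul, map_add, hx, hy, add_mul]
  · intro x hx c
    rw [smul_mul_assoc, map_smul, rsT_single_mul hx, smul_mul_assoc]

theorem rsT_mul_right {T : Subgroup H} {j : MonoidAlgebra k H} (hj : j ∈ SubAlg k T)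
    (a : MonoidAlgebra k H) : rsT T (a * j) = rsT T a * j := by
  refine SuppIn.induction (P := fun j => rsT T (a * j) = rsT T a * j) hj ?_ ?_ ?_
  · rw [mul_zero, map_zero, mul_zero]
  · intro x y hx hy
    rw [mul_add, map_add, hx, hy, mul_add]
  · intro x hx c
    rw [mul_smul_comm, map_smul, rsT_mul_single hx, mul_smul_comm]

theorem cj_rsT {T : Subgroup H} {g : H} (hg : ∀ t, g * t * g⁻¹ ∈ T ↔ t ∈ T)
    (a : MonoidAlgebra k H) : cj k H g (rsT T a) = rsT T (cj k H g a) := by
  classical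
  apply MonoidAlgebra.coeff_injective
  ext x
  rw [cj_coeff, rsT_coeff, rsT_coeff, cj_coeff]
  have h1 : g⁻¹ * x * g ∈ T ↔ x ∈ T := by
    rw [← hg (g⁻¹ * x * g)]
    have : g * (g⁻¹ * x * g) * g⁻¹ = x := by group
    rw [this]
  simp only [h1]

end Pr

section Up

variable {k : Type u} [Field k] [IsAlgClosed k] {p : ℕ} [Fact p.Prime] [CharP k p]
variable {H : Type} [Group H] [Finite H]

/-- A primitive idempotent of `(kT)^P` is primitive in `(kH)^P` if `P` is abelian and `H = T P`. -/
theorem prim_up {T P : Subgroup H} (hP : IsPGroup p P) (hab : ∀ x ∈ P, ∀ y ∈ P, x * y = y * x)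
    (hn : ∀ x ∈ P, ∀ t ∈ T, x * t * x⁻¹ ∈ T) (hTP : ∀ h : H, ∃ t ∈ T, ∃ x ∈ P, h = t * x)
    {j : MonoidAlgebra k H} (hj : PrimIn (SubAlg k T ⊓ Fix (cj k H) P) j) :
    PrimIn (Fix (cj k H) P) j := by
  classical
  refine ⟨hj.mem.2, hj.idem, hj.ne_zero, fun c hc hcc hcj hjc => ?_⟩
  have hn' : ∀ x ∈ P, ∀ t, x * t * x⁻¹ ∈ T ↔ t ∈ T := by
    intro x hx t
    refine ⟨fun h => ?_, hn x hx t⟩
    have := hn x⁻¹ (P.inv_mem hx) _ h
    simpa [mul_assoc] using this
  -- elements of `P` commute with the fixed elements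
  have hsx : ∀ x ∈ P, ∀ a ∈ Fix (cj k H) P, MonoidAlgebra.single x (1 : k) * a =
      a * MonoidAlgebra.single x 1 := by
    intro x hx a ha
    have h1 := ha x hx
    rw [cj_eq] at h1
    conv_rhs => rw [← h1]
    rw [mul_assoc, MonoidAlgebra.single_mul_single, inv_mul_cancel, one_mul,
      ← MonoidAlgebra.one_def, mul_one]
  have hsF : ∀ x ∈ P, MonoidAlgebra.single x (1 : k) ∈ Fix (cj k H) P := by
    intro x hx y hy
    rw [cj_single, hab y hy x hx, mul_inv_cancel_right]
  let Qt := P ⧸ T.subgroupOf P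
  have _ := Fintype.ofFinite Qt
  let x : Qt → H := fun q => ((q.out : P) : H)
  have hx : ∀ q, x q ∈ P := fun q => (q.out : P).2
  let cq : Qt → MonoidAlgebra k H := fun q => rsT T (c * MonoidAlgebra.single (x q)⁻¹ 1)
  have hcqT : ∀ q, cq q ∈ SubAlg k T := fun q => rsT_mem T _
  have hcqP : ∀ q, cq q ∈ Fix (cj k H) P := by
    intro q g hg
    change cj k H g (rsT T _) = _
    rw [cj_rsT (hn' g hg)]
    have h1 : c * MonoidAlgebra.single (x q)⁻¹ 1 ∈ Fix (cj k H) P :=
      Subalgebra.mul_mem _ hc (hsF _ (P.inv_mem (hx q)))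
    rw [h1 g hg]
  have hcqj : ∀ q, j * cq q = cq q := by
    intro q
    change j * rsT T _ = _
    rw [← rsT_mul_left hj.mem.1, ← mul_assoc, hjc]
  have hcqj' : ∀ q, cq q * j = cq q := by
    intro q
    change rsT T _ * j = _
    rw [← rsT_mul_right hj.mem.1, mul_assoc, hsx _ (P.inv_mem (hx q)) j hj.mem.2, ← mul_assoc, hcj]
  -- the decomposition
  have hdec : c = ∑ q, cq q * MonoidAlgebra.single (x q) 1 := by
    apply MonoidAlgebra.coeff_injective
    ext h
    rw [MonoidAlgebra.coeff_sum, Finsupp.finsetSum_apply]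
    have h1 : ∀ q, (cq q * MonoidAlgebra.single (x q) 1).coeff h =
        if h * (x q)⁻¹ ∈ T then c.coeff h else 0 := by
      intro q
      rw [MonoidAlgebra.mul_single_apply, mul_one]
      change (rsT T _).coeff _ = _
      rw [rsT_coeff]
      have h2 : (c * MonoidAlgebra.single (x q)⁻¹ (1 : k)).coeff (h * (x q)⁻¹) = c.coeff h := by
        rw [MonoidAlgebra.mul_single_apply, mul_one, inv_inv, inv_mul_cancel_right]
      rw [h2]
    simp only [h1]
    obtain ⟨t, ht, y, hy, rfl⟩ := hTP h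
    let q₀ : Qt := QuotientGroup.mk ⟨y, hy⟩
    have h3 : ∀ q : Qt, t * y * (x q)⁻¹ ∈ T ↔ q = q₀ := by
      intro q
      have h4 : q = q₀ ↔ (q.out : P)⁻¹ * ⟨y, hy⟩ ∈ T.subgroupOf P := by
        rw [← QuotientGroup.eq]
        change q = q₀ ↔ ((q.out : P) : Qt) = q₀
        rw [QuotientGroup.out_eq']
      rw [h4, Subgroup.mem_subgroupOf, mul_assoc, T.mul_mem_cancel_left ht]
      change y * (x q)⁻¹ ∈ T ↔ (x q)⁻¹ * y ∈ T
      rw [hab y hy _ (P.inv_mem (hx q))]
    simp only [h3]
    rw [Finset.sum_ite_eq' Finset.univ q₀, if_pos (Finset.mem_univ _)]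
  -- the scalar
  set a := ∑ q, cq q with ha
  have haS : a ∈ SubAlg k T ⊓ Fix (cj k H) P :=
    Subalgebra.sum_mem _ fun q _ => ⟨hcqT q, hcqP q⟩
  have hja : j * a = a := by
    rw [ha, Finset.mul_sum]
    exact Finset.sum_congr rfl fun q _ => hcqj q
  have haj : a * j = a := by
    rw [ha, Finset.sum_mul]
    exact Finset.sum_congr rfl fun q _ => hcqj' q
  obtain ⟨l, hl⟩ := hj.exists_scalar haS hja haj
  have hnil : IsNilpotent (c - l • j) := by
    have h1 : c - l • j = (a - l • j) + ∑ q, cq q * (MonoidAlgebra.single (x q) 1 - 1) := by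
      conv_lhs => rw [hdec]
      simp only [mul_sub, mul_one, Finset.sum_sub_distrib]
      rw [← ha]
      abel
    rw [h1]
    have hcomm : ∀ y ∈ Fix (cj k H) P, ∀ q, (MonoidAlgebra.single (x q) (1 : k) - 1) * y =
        y * (MonoidAlgebra.single (x q) 1 - 1) := by
      intro y hy q
      rw [sub_mul, mul_sub, hsx _ (hx q) y hy, one_mul, mul_one]
    refine nilp_add_sum _ _ _ hl (fun q => ?_) (fun q => ?_) (fun q q' => ?_) fun q q' => ?_
    · obtain ⟨m, hm⟩ := hP ⟨x q, hx q⟩
      exact single_sub_one_nilp ⟨m, congrArg Subtype.val hm⟩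
    · exact hcomm _ (Subalgebra.sub_mem _ haS.2 (Subalgebra.smul_mem _ hj.mem.2 l)) q
    · exact hcomm _ (hcqP q') q
    · exact hcomm _ (Subalgebra.sub_mem _ (hsF _ (hx q')) (Subalgebra.one_mem _)) q
  have idem0 : ∀ y : MonoidAlgebra k H, y * y = y → IsNilpotent y → y = 0 := by
    rintro y hy ⟨m, hm⟩
    rcases Nat.eq_zero_or_pos m with h0 | h0
    · rw [h0, pow_zero] at hm
      rw [← mul_one y, hm, mul_zero]
    · have h1 : ∀ i, y ^ (i + 1) = y := by
        intro i
        induction i with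
        | zero => rw [zero_add, pow_one]
        | succ i ih => rw [pow_succ, ih, hy]
      obtain ⟨i, rfl⟩ := Nat.exists_eq_succ_of_ne_zero h0.ne'
      rw [← h1 i]
      exact hm
  by_cases hl1 : l = 1
  · right
    have h1 : (j - c) * (j - c) = j - c := by
      rw [sub_mul, mul_sub, mul_sub, hj.idem, hjc, hcj, hcc]
      abel
    have h2 : IsNilpotent (j - c) := by
      have h3 : j - c = -(c - l • j) := by rw [hl1, one_smul]; abel
      rw [h3]
      exact hnil.neg
    exact (sub_eq_zero.mp (idem0 _ h1 h2)).symm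
  · left
    apply idem0 _ hcc
    have h1 : c * (c - l • j) = (1 - l) • c := by
      rw [mul_sub, hcc, mul_smul_comm, hcj, sub_smul, one_smul]
    have h2 : (c - l • j) * c = (1 - l) • c := by
      rw [sub_mul, hcc, smul_mul_assoc, hjc, sub_smul, one_smul]
    have h3 : IsNilpotent ((1 - l) • c) := by
      rw [← h1]
      exact Commute.isNilpotent_mul_left (h1.trans h2.symm) hnil
    have h4 : c = (1 - l)⁻¹ • ((1 - l) • c) := by
      rw [smul_smul, inv_mul_cancel₀ (sub_ne_zero.mpr (Ne.symm hl1)), one_smul]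
    rw [h4]
    exact h3.smul _

end Up

end Vale.Agent.P180.R2.H471.He
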