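import Vale.Agent.P180.R2.H471.He1
import Vale.Agent.P180.R2.H667.Tr1
import Vale.Agent.P180.R2.H365.Src
import Vale.Agent.P180.R2.H954.CycCor
import Vale.Agent.P180.R2.H259.Cyc.Final

/-! The corner property of a factor on which a `p`-group acts through a cyclic group. -/

set_option linter.all false

namespace Vale.Agent.P180.R2.H471.He

open Subgroup Vale.Agent.P180 Vale.Agent.P180.H768.Gd Vale.Agent.P180.R2.H365
  Vale.Agent.P180.R2.H799 Vale.Agent.P180.R2.H954 Vale.Agent.P180.R2.H12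
  Vale.Agent.P180.R2.H259.Cyc

universe u

section Tr

variable {k : Type u} [Field k] {S H : Type} [Group S] [Group H]

theorem md_coeff {ψ : S →* H} (hψ : Function.Injective ψ) (a : MonoidAlgebra k S) (s : S) :
    (MonoidAlgebra.mapDomainAlgHom k k ψ a).coeff (ψ s) = a.coeff s := by
  classical
  induction a using MonoidAlgebra.induction_linear with
  | zero => rw [map_zero]; rfl
  | add a b ha hb =>
    rw [map_add, MonoidAlgebra.coeff_add, MonoidAlgebra.coeff_add, Finsupp.add_apply,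
      Finsupp.add_apply, ha, hb]
  | single x c =>
    have h1 : MonoidAlgebra.mapDomainAlgHom k k ψ (MonoidAlgebra.single x c) =
        MonoidAlgebra.single (ψ x) c := by simp
    rw [h1, MonoidAlgebra.coeff_single, MonoidAlgebra.coeff_single, Finsupp.single_apply,
      Finsupp.single_apply]
    simp only [hψ.eq_iff]

theorem md_coeff_not [Finite S] [Finite H] {ψ : S →* H} (a : MonoidAlgebra k S) {h : H} (hh : h ∉ ψ.range) :
    (MonoidAlgebra.mapDomainAlgHom k k ψ a).coeff h = 0 := by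
  by_contra hne
  exact hh (mapDomain_mem_range ψ a h hne)

theorem md_cj {ψ : S →* H} (x : S) (a : MonoidAlgebra k S) :
    MonoidAlgebra.mapDomainAlgHom k k ψ (cj k S x a) =
      cj k H (ψ x) (MonoidAlgebra.mapDomainAlgHom k k ψ a) := by
  rw [cj_eq, cj_eq, map_mul, map_mul, ← map_inv]
  congr 1
  · congr 1
    simp
  · simp

theorem mem_Fix_iff_coeff {G : Type} [Group G] {R : Subgroup G} {a : MonoidAlgebra k G} :
    a ∈ Fix (cj k G) R ↔ ∀ r ∈ R, ∀ x, a.coeff (r * x * r⁻¹) = a.coeff x := by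
  constructor
  · intro h r hr x
    have h1 := h r hr
    conv_lhs => rw [← h1]
    rw [cj_coeff]
    congr 1
    group
  · intro h r hr
    apply MonoidAlgebra.coeff_injective
    ext x
    rw [cj_coeff, ← h r hr]
    congr 1
    group

end Tr

section Core

variable {k : Type u} [Field k] [IsAlgClosed k] {p : ℕ} [Fact p.Prime] [CharP k p]

/-- Fixed elements correspond. -/
theorem fix_iff {G : Type} [Group G] [Finite G] {S R : Subgroup G}
    (hn : ∀ x ∈ R, ∀ s ∈ S, x * s * x⁻¹ ∈ S) {H : Type} [Group H] [Finite H] {ψ : S →* H}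
    (hψ : Function.Injective ψ) {ρ : R →* H}
    (hc : ∀ (r : R) (s s' : S), (s' : G) = r * s * (r : G)⁻¹ → ψ s' = ρ r * ψ s * (ρ r)⁻¹)
    (a : MonoidAlgebra k S) :
    MonoidAlgebra.mapDomainAlgHom k k ψ a ∈ Fix (cj k H) ρ.range ↔
      incl k S a ∈ Fix (cj k G) R := by
  rw [mem_Fix_iff_coeff, mem_Fix_iff_coeff]
  constructor
  · intro h r hr x
    by_cases hx : x ∈ S
    · have h1 := hc ⟨r, hr⟩ ⟨x, hx⟩ ⟨_, hn r hr x hx⟩ rfl
      have h2 : (incl k S a).coeff (r * x * r⁻¹) = a.coeff ⟨_, hn r hr x hx⟩ :=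
        Src.incl_coeff' S a ⟨_, hn r hr x hx⟩
      have h3 : (incl k S a).coeff x = a.coeff ⟨x, hx⟩ := Src.incl_coeff' S a ⟨x, hx⟩
      rw [h2, h3, ← md_coeff hψ, ← md_coeff hψ, h1]
      exact h _ ⟨⟨r, hr⟩, rfl⟩ _
    · have h2 : r * x * r⁻¹ ∉ S := by
        intro h2
        apply hx
        have := hn r⁻¹ (R.inv_mem hr) _ h2
        simpa [mul_assoc] using this
      rw [SubAlg_coeff (incl_mem S a) hx, SubAlg_coeff (incl_mem S a) h2]
  · rintro h _ ⟨r, rfl⟩ y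
    by_cases hy : y ∈ ψ.range
    · obtain ⟨s, rfl⟩ := hy
      have hs : (r : G) * s * (r : G)⁻¹ ∈ S := hn r r.2 s s.2
      rw [← hc r s ⟨_, hs⟩ rfl, md_coeff hψ, md_coeff hψ, ← Src.incl_coeff' S a,
        ← Src.incl_coeff' S a]
      exact h r r.2 _
    · have h2 : ρ r * y * (ρ r)⁻¹ ∉ ψ.range := by
        rintro ⟨s, hs⟩
        apply hy
        have h3 : ((r⁻¹ : R) : G) * s * ((r⁻¹ : R) : G)⁻¹ ∈ S := hn _ (r⁻¹).2 s s.2
        refine ⟨⟨_, h3⟩, ?_⟩
        rw [hc r⁻¹ s ⟨_, h3⟩ rfl, hs, map_inv]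
        group
      rw [md_coeff_not a hy, md_coeff_not a h2]

/-- **The corner property for cyclic action**, core version. -/
theorem cor_of_cyc_core {G : Type} [Group G] [Finite G] {S R : Subgroup G} (hR : IsPGroup p R)
    (hn : ∀ x ∈ R, ∀ s ∈ S, x * s * x⁻¹ ∈ S) {e : MonoidAlgebra k G} (he : IsBlockOf S e)
    (heR : e ∈ Fix (cj k G) R) (hbr : br R e ≠ 0)
    (hz1 : ∃ z ∈ SubAlg k S, z ∈ Fix (cj k G) (S ⊓ R) ∧ e = tr (cj k G) (S ⊓ R) S z)
    (hz2 : ∃ z ∈ SubAlg k S, z ∈ Fix (cj k G) R ∧ e = tr (cj k G) R (S ⊔ R) z)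
    {H : Type} [Group H] [Finite H] {ψ : S →* H} (hψ : Function.Injective ψ) {ρ : R →* H}
    (hρ : IsCyclic ρ.range)
    (hc : ∀ (r : R) (s s' : S), (s' : G) = r * s * (r : G)⁻¹ → ψ s' = ρ r * ψ s * (ρ r)⁻¹)
    (hcomp : ∀ (x : G) (hS : x ∈ S) (hR : x ∈ R), ψ ⟨x, hS⟩ = ρ ⟨x, hR⟩)
    (hTP : ∀ h : H, ∃ t ∈ ψ.range, ∃ x ∈ ρ.range, h = t * x) :
    Cor (cycB p (Nat.card ρ.range)) S R e := by
  classical
  set T := ψ.range with hT
  set P := ρ.range with hP
  set α := MonoidAlgebra.mapDomainAlgHom k k ψ with hα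
  have hαinj : Function.Injective α := MonoidAlgebra.mapDomain_injective hψ
  have hPp : IsPGroup p P := hR.of_surjective ρ.rangeRestrict ρ.rangeRestrict_surjective
  have hPab : ∀ x ∈ P, ∀ y ∈ P, x * y = y * x := by
    intro x hx y hy
    have h1 : (⟨x, hx⟩ : P) * ⟨y, hy⟩ = ⟨y, hy⟩ * ⟨x, hx⟩ :=
      (IsCyclic.commGroup (α := P)).mul_comm _ _
    exact congrArg Subtype.val h1
  have hPn : ∀ x ∈ P, ∀ t ∈ T, x * t * x⁻¹ ∈ T := by
    rintro _ ⟨r, rfl⟩ _ ⟨s, rfl⟩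
    have hs : (r : G) * s * (r : G)⁻¹ ∈ S := hn r r.2 s s.2
    exact ⟨⟨_, hs⟩, hc r s ⟨_, hs⟩ rfl⟩
  obtain ⟨e₀, rfl⟩ := exists_incl S he.mem.1
  obtain ⟨z, hzS, hzF, hez⟩ := hz1
  obtain ⟨z₀, rfl⟩ := exists_incl S hzS
  have he₀ : IsBlockOf (⊤ : Subgroup S) e₀ := by
    unfold IsBlockOf
    rw [ZAlg_top]
    exact (isBlockOf_incl_iff S e₀).mp he
  -- the block of `kT`
  have heP : α e₀ ∈ Fix (cj k H) P := (fix_iff hn hψ hc e₀).mpr heR
  have heT : IsBlockOf T (α e₀) := by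
    refine ⟨⟨mapDomain_mem_range ψ e₀, ?_⟩, ?_, ?_, ?_⟩
    · rintro _ ⟨s, rfl⟩
      rw [hα, ← md_cj, he₀.mem.2 s trivial]
    · change α e₀ * α e₀ = _
      rw [← map_mul, he₀.idem.eq]
    · intro h
      exact he₀.ne_zero (hαinj (h.trans (map_zero α).symm))
    · intro c hcZ hcc hce
      obtain ⟨c₀, rfl⟩ := exists_mapDomain ψ hcZ.1
      have h1 : c₀ ∈ ZAlg k (⊤ : Subgroup S) := by
        refine ⟨SubAlg_top _, fun s _ => ?_⟩
        apply hαinj
        change α _ = α _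
        rw [hα, md_cj]
        exact hcZ.2 (ψ s) ⟨s, rfl⟩
      rcases he₀.primitive c₀ h1 (hαinj (by
          change α (c₀ * c₀) = α c₀
          rw [map_mul]; exact hcc)) (hαinj (by
          change α (c₀ * e₀) = α c₀
          rw [map_mul]; exact hce)) with h | h
      · left
        change α c₀ = 0
        rw [h, map_zero]
      · right
        change α c₀ = α e₀
        rw [h]
  have hbrP : br P (α e₀) ≠ 0 := by
    obtain ⟨c, hcR, hec⟩ := exists_coeff_of_br hbr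
    have hcS : c ∈ S := he.mem.1 c hec
    refine br_ne_zero_of_coeff (c := ψ ⟨c, hcS⟩) ?_ ?_
    · rintro _ ⟨r, rfl⟩
      exact (hc r ⟨c, hcS⟩ ⟨c, hcS⟩ (hcR r r.2).symm).symm
    · rw [hα, md_coeff hψ, ← Src.incl_coeff' S e₀]
      exact hec
  -- the trace
  have hQle : (R.subgroupOf S).map ψ ≤ T ⊓ P := by
    rintro _ ⟨s, hs, rfl⟩
    refine ⟨⟨s, rfl⟩, ⟨⟨s, hs⟩, ?_⟩⟩
    exact (hcomp s s.2 hs).symm
  have hmap : (R.subgroupOf S).map S.subtype = S ⊓ R := by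
    rw [Subgroup.subgroupOf_map_subtype, inf_comm]
  have hz₀F : z₀ ∈ Fix (cj k S) (R.subgroupOf S) := by
    rw [← incl_mem_Fix_iff, hmap]; exact hzF
  have he₀z : e₀ = tr (cj k S) (R.subgroupOf S) ⊤ z₀ := by
    apply incl_injective (k := k) S
    rw [incl_tr_gen S hz₀F, hmap, hez]
    congr 1
    rw [← MonoidHom.range_eq_map, Subgroup.range_subtype]
  have hαzF : α z₀ ∈ Fix (cj k H) ((R.subgroupOf S).map ψ) := by
    rintro _ ⟨s, hs, rfl⟩
    rw [hα, ← md_cj, hz₀F s hs]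
  have hαe : α e₀ = tr (cj k H) ((R.subgroupOf S).map ψ) T (α z₀) := by
    conv_lhs => rw [he₀z]
    have h1 := H667.tr_equiv (ρ := cj k S) (σ := (cj k H).comp ψ) α.toLinearMap
      (fun x a => md_cj x a) (R.subgroupOf S) ⊤ z₀
    have h2 := H667.tr_hom (ρ := cj k H) hψ (S := R.subgroupOf S) (K := ⊤) hαzF
    rw [← MonoidHom.range_eq_map] at h2
    exact h1.trans h2
  obtain ⟨z', hz'T, hz'F, hez'⟩ : ∃ z' ∈ SubAlg k T, z' ∈ Fix (cj k H) (T ⊓ P) ∧
      α e₀ = tr (cj k H) (T ⊓ P) T z' := by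
    refine ⟨tr (cj k H) ((R.subgroupOf S).map ψ) (T ⊓ P) (α z₀), ?_, tr_mem_Fix hαzF, ?_⟩
    · have _ := Fintype.ofFinite ((T ⊓ P : Subgroup H) ⧸
        ((R.subgroupOf S).map ψ).subgroupOf (T ⊓ P))
      rw [tr_def]
      refine Subalgebra.sum_mem _ fun q _ => ?_
      refine SuppIn.conj (mapDomain_mem_range ψ z₀) _ fun s hs => ?_
      have h1 : ((q.out : (T ⊓ P : Subgroup H)) : H) ∈ T := (q.out : (T ⊓ P : Subgroup H)).2.1
      exact T.mul_mem (T.mul_mem h1 hs) (T.inv_mem h1)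
    · rw [tr_tr hαzF hQle inf_le_left]
      exact hαe
  obtain ⟨y, hyT, hyF, hey⟩ := lift_tr_rel hPp hPn heT heP hbrP hz'T hz'F hez'
  have htop : T ⊔ P = ⊤ := by
    rw [eq_top_iff]
    intro h _
    obtain ⟨t, ht, x, hx, rfl⟩ := hTP h
    exact Subgroup.mul_mem_sup ht hx
  rw [htop] at hey
  have heTop : α e₀ ∈ Fix (cj k H) ⊤ := by rw [hey]; exact tr_mem_Fix hyF
  -- a primitive idempotent
  obtain ⟨m, f, hf, hsum⟩ := exists_prim_decomp (SubAlg k T ⊓ Fix (cj k H) P) _ (α e₀)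
    ⟨heT.mem.1, heP⟩ heT.idem.eq le_rfl
  obtain ⟨c, hcP, hec⟩ := exists_coeff_of_br hbrP
  obtain ⟨l, hl⟩ : ∃ l, (f l).coeff c ≠ 0 := by
    by_contra hcon
    push Not at hcon
    apply hec
    rw [hsum, MonoidAlgebra.coeff_sum, Finsupp.finsetSum_apply]
    exact Finset.sum_eq_zero fun l _ => hcon l
  have hbri : br P (f l) ≠ 0 := br_ne_zero_of_coeff hcP hl
  obtain ⟨hpl, hel, hel'⟩ := hf l
  have hup := prim_up hPp hPab hPn hTP hpl
  obtain ⟨b, hb, hbf⟩ := exists_block hup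
  have hbe : b * α e₀ = b := by
    have hbc : ∀ x : MonoidAlgebra k H, x * b = b * x := fun x =>
      commute_of_mem (SubAlg_top x) hb.mem.2
    rcases hb.primitive (b * α e₀) ⟨SubAlg_top _, Subalgebra.mul_mem _ hb.mem.2 heTop⟩
      (by
        change b * α e₀ * (b * α e₀) = b * α e₀
        calc b * α e₀ * (b * α e₀) = b * (α e₀ * b) * α e₀ := by simp only [mul_assoc]
          _ = (b * b) * (α e₀ * α e₀) := by rw [hbc]; simp only [mul_assoc]
          _ = _ := by rw [hb.idem.eq, heT.idem.eq])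
      (by rw [mul_assoc, hbc, ← mul_assoc, hb.idem.eq]) with h | h
    · exfalso
      apply hup.ne_zero
      rw [← hbf, ← hel, ← mul_assoc, h, zero_mul]
    · exact h
  have hbtr : b = tr (cj k H) P ⊤ (b * y) := by
    conv_lhs => rw [← hbe, hey]
    rw [mul_tr hb.mem.2]
  have hdim := cyclic_corner hPp hρ hb (Subalgebra.mul_mem _ (Fix_mono _ le_top hb.mem.2) hyF)
    hbtr hup hbf hbri
  -- transport back
  obtain ⟨i₀, hi₀⟩ := exists_mapDomain ψ hpl.mem.1
  have hi₀' : α i₀ = f l := hi₀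
  refine Src.cor_of_source (i := incl k S i₀) hR hn he heR hz2 (incl_mem S i₀) ?_ ?_ ?_ ?_ ?_
  · rw [← fix_iff hn hψ hc]
    change α i₀ ∈ _
    rw [hi₀']
    exact hpl.mem.2
  · rw [← map_mul]
    congr 1
    apply hαinj
    rw [map_mul, hi₀', hpl.idem]
  · rw [← map_mul]
    congr 1
    apply hαinj
    rw [map_mul, hi₀', hel]
  · have hcT : c ∈ T := hpl.mem.1 c hl
    obtain ⟨s, rfl⟩ := hcT
    refine br_ne_zero_of_coeff (c := (s : G)) ?_ ?_
    · intro r hr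
      have hs : r * s * r⁻¹ ∈ S := hn r hr s s.2
      have h1 := hc ⟨r, hr⟩ s ⟨_, hs⟩ rfl
      have h2 := hcP (ρ ⟨r, hr⟩) ⟨_, rfl⟩
      rw [h2] at h1
      exact congrArg Subtype.val (hψ h1)
    · rw [Src.incl_coeff', ← md_coeff hψ]
      change (α i₀).coeff _ ≠ 0
      rw [hi₀']
      exact hl
  · have h1 := finrank_NN_hom (k := k) (φ := S.subtype) S.subtype_injective i₀ i₀
    rw [Subgroup.range_subtype] at h1
    have h2 : Module.finrank k (NN (SubAlg k S) (incl k S i₀) (incl k S i₀)) =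
      Module.finrank k (NN (⊤ : Subalgebra k (MonoidAlgebra k S)) i₀ i₀) := h1
    rw [h2, ← finrank_NN_hom (k := k) (φ := ψ) hψ i₀ i₀]
    change Module.finrank k (NN (SubAlg k T) (α i₀) (α i₀)) ≤ _
    rw [hi₀']
    have hfin : FiniteDimensional k (MonoidAlgebra k H) :=
      Module.Finite.equiv (MonoidAlgebra.coeffLinearEquiv k (M := H) (S := k)).symm
    refine (Submodule.finrank_mono ?_).trans hdim
    rintro x ⟨-, h3, h4⟩
    exact ⟨Algebra.mem_top, h3, h4⟩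

end Core

end Vale.Agent.P180.R2.H471.He
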