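import Vale.Agent.P180.R2.H471.He2

/-! The corner property of a factor on which a `p`-group acts through a cyclic group. -/

set_option linter.all false

namespace Vale.Agent.P180.R2.H471.He

open Subgroup Vale.Agent.P180 Vale.Agent.P180.H768.Gd Vale.Agent.P180.R2.H365
  Vale.Agent.P180.R2.H799 Vale.Agent.P180.R2.H954 Vale.Agent.P180.R2.H12
  Vale.Agent.P180.R2.H259.Cyc

universe u

section

variable {k : Type u} [Field k] [IsAlgClosed k] {p : ℕ} [Fact p.Prime] [CharP k p]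

/-- **The corner property for cyclic action.** -/
theorem cor_of_cyc {G : Type} [Group G] [Finite G] {S R : Subgroup G} (hR : IsPGroup p R)
    (hn : ∀ x ∈ R, ∀ s ∈ S, x * s * x⁻¹ ∈ S) {e : MonoidAlgebra k G} (he : IsBlockOf S e)
    (heR : e ∈ Fix (cj k G) R) (hbr : br R e ≠ 0)
    (hz1 : ∃ z ∈ SubAlg k S, z ∈ Fix (cj k G) (S ⊓ R) ∧ e = tr (cj k G) (S ⊓ R) S z)
    (hz2 : ∃ z ∈ SubAlg k S, z ∈ Fix (cj k G) R ∧ e = tr (cj k G) R (S ⊔ R) z)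
    {H : Type} [Group H] {ψ : S →* H} (hψ : Function.Injective ψ) {ρ : R →* H}
    (hρ : IsCyclic ρ.range)
    (hc : ∀ (r : R) (s s' : S), (s' : G) = r * s * (r : G)⁻¹ → ψ s' = ρ r * ψ s * (ρ r)⁻¹)
    (hcomp : ∀ (x : G) (hS : x ∈ S) (hR : x ∈ R), ψ ⟨x, hS⟩ = ρ ⟨x, hR⟩) :
    Cor (cycB p (Nat.card ρ.range)) S R e := by
  classical
  have hPn : ∀ r : R, ∀ t ∈ ψ.range, ρ r * t * (ρ r)⁻¹ ∈ ψ.range := by
    rintro r _ ⟨s, rfl⟩
    have hs : (r : G) * s * (r : G)⁻¹ ∈ S := hn r r.2 s s.2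
    exact ⟨⟨_, hs⟩, hc r s ⟨_, hs⟩ rfl⟩
  let H₁ : Subgroup H :=
    { carrier := {h | ∃ t ∈ ψ.range, ∃ r : R, h = t * ρ r}
      mul_mem' := by
        rintro _ _ ⟨t, ht, r, rfl⟩ ⟨t', ht', r', rfl⟩
        refine ⟨t * (ρ r * t' * (ρ r)⁻¹), ψ.range.mul_mem ht (hPn r t' ht'), r * r', ?_⟩
        rw [map_mul]; group
      one_mem' := ⟨1, ψ.range.one_mem, 1, by simp⟩
      inv_mem' := by
        rintro _ ⟨t, ht, r, rfl⟩
        refine ⟨ρ r⁻¹ * t⁻¹ * (ρ r⁻¹)⁻¹, hPn r⁻¹ _ (ψ.range.inv_mem ht), r⁻¹, ?_⟩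
        rw [map_inv]; group }
  have hH₁ : ∀ h : H, h ∈ H₁ ↔ ∃ t ∈ ψ.range, ∃ r : R, h = t * ρ r := fun _ => Iff.rfl
  have hψm : ∀ s, ψ s ∈ H₁ := fun s => ⟨ψ s, ⟨s, rfl⟩, 1, by simp⟩
  have hρm : ∀ r, ρ r ∈ H₁ := fun r => ⟨1, ψ.range.one_mem, r, by simp⟩
  have hfinψ : Finite ψ.range := Finite.of_surjective _ ψ.rangeRestrict_surjective
  have hfin : Finite H₁ := by
    refine Finite.of_surjective (fun x : ψ.range × R =>
      (⟨x.1 * ρ x.2, x.1, x.1.2, x.2, rfl⟩ : H₁)) ?_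
    rintro ⟨h, t, ht, r, rfl⟩
    exact ⟨(⟨t, ht⟩, r), rfl⟩
  let ψ₁ : S →* H₁ := ψ.codRestrict H₁ hψm
  let ρ₁ : R →* H₁ := ρ.codRestrict H₁ hρm
  have hψ₁ : Function.Injective ψ₁ := by
    intro a b hab
    exact hψ (congrArg Subtype.val hab)
  have hr : ρ₁.range.map H₁.subtype = ρ.range := by
    rw [← MonoidHom.range_comp]
    rfl
  have hcard : Nat.card ρ₁.range = Nat.card ρ.range := by
    rw [← hr]
    exact (Subgroup.card_map_of_injective H₁.subtype_injective).symm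
  have hρ₁ : IsCyclic ρ₁.range := by
    have e1 : ρ₁.range ≃* ρ₁.range.map H₁.subtype :=
      ρ₁.range.equivMapOfInjective _ H₁.subtype_injective
    have e2 : ρ₁.range ≃* ρ.range := e1.trans (MulEquiv.subgroupCongr hr)
    exact isCyclic_of_surjective e2.symm e2.symm.surjective
  rw [← hcard]
  refine cor_of_cyc_core hR hn he heR hbr hz1 hz2 hψ₁ hρ₁ ?_ ?_ ?_
  · intro r s s' hs
    exact Subtype.ext (hc r s s' hs)
  · intro x hS hR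
    exact Subtype.ext (hcomp x hS hR)
  · rintro ⟨h, t, ⟨s, rfl⟩, r, rfl⟩
    exact ⟨ψ₁ s, ⟨s, rfl⟩, ρ₁ r, ⟨r, rfl⟩, rfl⟩

end

end Vale.Agent.P180.R2.H471.He
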