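import Vale.Agent.P180.R2.H954.LocCP
import Vale.Agent.P180.R2.H667.Br2

/-! Small corners for a block of `X P`, where `X` is a central product and `P` is a `p`-group. -/

set_option linter.all false

namespace Vale.Agent.P180.R2.H471.He

open Vale.Agent.P180 Vale.Agent.P180.H768.Gd Vale.Agent.P180.R2.H799
  Vale.Agent.P180.R2.H12 Vale.Agent.P180.R2.H47 Vale.Agent.P180.R2.H954

section Loc

variable {k : Type*} [Field k] [IsAlgClosed k] {p : ℕ} [Fact p.Prime] [CharP k p]

theorem loc_rel {r C : ℕ} {G : Type} [Group G] [Finite G] (F : Fam G r ⊤)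
    {X : Subgroup G} [X.Normal] (hXX : X = F.μ.range) (hinj : ∀ i j, F.A i ≤ F.A j → i = j)
    {b a : MonoidAlgebra k G} (hb : IsBlockOf (⊤ : Subgroup G) b) {P : Subgroup G}
    (hP : IsPGroup p P) (hXP : X ⊔ P = ⊤) (ha : a ∈ Fix (cj k G) P)
    (hba : b = tr (cj k G) P ⊤ a) (hbr : br P b ≠ 0)
    (hcor : ∀ j, ∀ R ≤ P, (∀ x ∈ R, ∀ s ∈ F.A j, x * s * x⁻¹ ∈ F.A j) →
      ∀ e : MonoidAlgebra k G, IsBlockOf (F.A j) e → e ∈ Fix (cj k G) R → br R e ≠ 0 →
      (∃ z ∈ SubAlg k (F.A j), z ∈ Fix (cj k G) (F.A j ⊓ R) ∧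
        e = tr (cj k G) (F.A j ⊓ R) (F.A j) z) →
      (∃ z ∈ SubAlg k (F.A j), z ∈ Fix (cj k G) R ∧ e = tr (cj k G) R (F.A j ⊔ R) z) →
      Cor C (F.A j) R e) :
    ∃ f ∈ SubAlg k X, f ∈ Fix (cj k G) P ∧ f * f = f ∧ br P (b * f) ≠ 0 ∧
      Module.finrank k (NN (SubAlg k X) f f) ≤ C ^ r := by
  have hbc : ∀ z : MonoidAlgebra k G, z * b = b * z := fun z =>
    commute_of_mem (SubAlg_top z) hb.mem.2
  have hbF : ∀ S : Subgroup G, b ∈ Fix (cj k G) S := fun S => Fix_mono _ le_top hb.mem.2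
  have hfin : FiniteDimensional k (MonoidAlgebra k G) :=
    Module.Finite.equiv (MonoidAlgebra.coeffLinearEquiv k (M := G) (S := k)).symm
  have hbb : b * b = b := hb.idem.eq
  have hμ : F.μ.range = ⨆ j, F.A j := Subgroup.noncommPiCoprod_range
  -- the stable block
  obtain ⟨e, he, heP, hebr⟩ := H667.exists_stable (N := X) hP (hbF P) hbr
  have heT : e ∈ Fix (cj k G) ⊤ := by
    rw [← hXP]
    intro g hg
    have h1 : X ⊔ P ≤ stabE e := by
      refine sup_le (fun x hx => mem_stabE.mpr (he.mem.2 x hx)) fun x hx => mem_stabE.mpr (heP x hx)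
    exact mem_stabE.mp (h1 hg)
  have heb : e * b = b := by
    refine mul_eq_of_stable hb he heT ?_
    intro h
    apply hebr
    rw [← hbc, h]
    exact H365.br_self (Subalgebra.zero_mem _)
  have hAX : ∀ j, F.A j ≤ X := fun j => by rw [hXX, hμ]; exact le_iSup F.A j
  have hXS : ∀ j, ∀ x ∈ X, ∃ s ∈ F.A j,
      ∃ c ∈ Subgroup.centralizer (F.A j : Set G), x = s * c := by
    intro j x hx
    have h1 : X ≤ F.A j ⊔ Subgroup.centralizer (F.A j : Set G) := by
      rw [hXX, hμ]
      refine iSup_le fun i => ?_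
      by_cases hij : i = j
      · subst hij; exact le_sup_left
      · refine le_trans (fun y hy => ?_) le_sup_right
        rw [Subgroup.mem_centralizer_iff]
        exact fun s hs => (F.comm i j hij y hy s hs).symm
    obtain ⟨s, hs, c, hc, h⟩ := mem_sup_of_commute
      (fun s hs c hc => Subgroup.mem_centralizer_iff.mp hc s hs) (h1 hx)
    exact ⟨s, hs, c, hc, h.symm⟩
  -- the blocks of the factors
  choose ε hε using fun j => exists_below (hAX j) (hXS j) he heb
  have hεE : ∀ (g : G) (j : Fin r), cj k G g (ε j) = ε (F.σ ⟨g, trivial⟩ j) := by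
    intro g j
    have h1 := (hε j).1.conj (hbF ⊤) g
    rw [show conjS g (F.A j) = F.A (F.σ ⟨g, trivial⟩ j) from Fam_conjS F ⟨g, trivial⟩ j] at h1
    exact h1.eq hb.ne_zero (hε _).1
  let F' : Fam G r P := F.res le_top
  have hstP : ∀ j, F'.st j ≤ P := F'.st_le
  have hnst : ∀ j, ∀ x ∈ F'.st j, ∀ s ∈ F.A j, x * s * x⁻¹ ∈ F.A j := by
    rintro j _ ⟨d, hd, rfl⟩ s hs
    have h1 := F'.conj d j s hs
    rw [hd] at h1
    exact h1
  have hAst : ∀ j, F.A j ⊓ P ≤ F'.st j := by
    rintro j x ⟨hx, hxP⟩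
    refine ⟨⟨x, hxP⟩, ?_, rfl⟩
    symm
    apply hinj
    intro s hs
    have h1 := F'.conj ⟨x, hxP⟩ j (x⁻¹ * s * x) ((F.A j).mul_mem ((F.A j).mul_mem
      ((F.A j).inv_mem hx) hs) hx)
    have h2 : x * (x⁻¹ * s * x) * x⁻¹ = s := by group
    change x * (x⁻¹ * s * x) * x⁻¹ ∈ _ at h1
    rwa [h2] at h1
  have hcor' : ∀ j, Cor C (F.A j) (F'.st j) (ε j) := by
    intro j
    obtain ⟨h1, h2, h3, h4⟩ := (hε j).1.exists_tr (hAX j) (hXS j) hP hb ha hba hbr he heT heb
      (hstP j) (hAst j) (hnst j)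
    exact hcor j _ (hstP j) (hnst j) _ (hε j).1.block h1 h2 h3 h4
  have hprd : Fam.prd ε * b = b := prd_mul_eq fun j => (hε j).1.mul
  have hεS : ∀ j, ε j ∈ SubAlg k (F'.A j) := fun j => (hε j).1.block.mem.1
  have hεq : F'.Eqv ε := fun d j => hεE d j
  set w : MonoidAlgebra k G := br P b with hw
  obtain ⟨h, hhA, hhE, hhI, hhP, hhne⟩ := Fam.tame (F := F') hP (e := ε) hεS hεq
    (fun j => (hε j).1.block.idem.eq)
    (fun j f => Module.finrank k (NN (SubAlg k (F.A j)) (ε j * f) (ε j * f)) ≤ C)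
    (by
      intro d j f hf
      change Module.finrank k (NN (SubAlg k (F.A (F'.σ d j))) _ _) ≤ C
      have h1 : ε (F'.σ d j) * cj k G (d : G) f = cj k G (d : G) (ε j * f) := by
        rw [map_mul]
        congr 1
        exact (hεq d j).symm
      rw [h1]
      have h2 : F.A (F'.σ d j) = conjS (d : G) (F.A j) := (Fam_conjS F' d j).symm
      rw [h2, finrank_NN_conj]
      exact hf)
    (fun j => by
      obtain ⟨m, f, hf, hfs⟩ := hcor' j
      exact ⟨m, f, fun l => ⟨(hf l).1, (hf l).2.1, (hf l).2.2.1, (hf l).2.2.2⟩, hfs⟩)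
    (w := w)
    (by
      intro x hx
      have hxP : x ∈ SubAlg k (Subgroup.centralizer (P : Set G)) := SubAlg_mono inf_le_right hx
      have hxF : x ∈ Fix (cj k G) P := H365.fix_of_cent hxP
      rw [hw, ← br_of_cent hxP, ← br_mul hP hxF (hbF P), ← br_mul hP (hbF P) hxF, hbc x])
    (by
      rw [hw, ← br_mul hP (hbF P) (F'.prd_fix hεS hεq), ← hbc, hprd]
      exact hbr)
  have hHP : Fam.prd h ∈ Fix (cj k G) P := F'.prd_fix hhA hhE
  have hfb' : br P (b * Fam.prd h) ≠ 0 := by
    rw [br_mul hP (hbF P) hHP]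
    exact hhne
  have hGA : ∀ j, ε j * h j ∈ SubAlg k (F.A j) := fun j =>
    Subalgebra.mul_mem _ (hεS j) (hhA j)
  have hGI : ∀ j, (ε j * h j) * (ε j * h j) = ε j * h j := by
    intro j
    have h1 : h j * ε j = ε j * h j := commute_of_mem (hhA j) (hε j).1.block.mem.2
    rw [mul_assoc, ← mul_assoc (h j), h1, mul_assoc (ε j) (h j), hhI, ← mul_assoc,
      (hε j).1.block.idem.eq]
  have hG₁ : Fam.prd (fun j => ε j * h j) = Fam.prd ε * Fam.prd h := (F'.prd_mul hεS hhA).symm
  obtain ⟨hl1, hl2, hl3⟩ := finrank_NN_list F.A F.comm (fun j => ε j * h j) hGI hGA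
    (List.finRange r) (List.nodup_finRange r)
  have hsup' : (⨆ i ∈ List.finRange r, F.A i) = X := by
    refine Eq.trans ?_ (hμ.symm.trans hXX.symm)
    refine le_antisymm (iSup₂_le fun i _ => le_iSup F.A i) (iSup_le fun i => ?_)
    exact le_iSup₂ (f := fun i (_ : i ∈ List.finRange r) => F.A i) i (List.mem_finRange i)
  rw [hsup'] at hl2 hl3
  refine ⟨Fam.prd (fun j => ε j * h j), hl2, ?_, hl1, ?_, ?_⟩
  · rw [hG₁]
    exact Subalgebra.mul_mem _ (F'.prd_fix hεS hεq) hHP
  · rw [hG₁, ← mul_assoc, ← hbc, hprd]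
    exact hfb'
  · refine hl3.trans ?_
    refine (List.prod_le_pow_card _ C ?_).trans (by simp)
    intro x hx
    obtain ⟨j, -, rfl⟩ := List.mem_map.mp hx
    exact hhP j

end Loc

section Dim

variable {k : Type*} [Field k] {G : Type} [Group G] [Finite G]

/-- The corner in `X P` of an idempotent of `kX` fixed by `P`. -/
theorem finrank_NN_sup_le {X P : Subgroup G} (hn : ∀ x ∈ P, ∀ s ∈ X, x * s * x⁻¹ ∈ X)
    {f : MonoidAlgebra k G} (hfX : f ∈ SubAlg k X) (hfP : f ∈ Fix (cj k G) P) (hff : f * f = f)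
    {n C : ℕ} (hPn : Nat.card P ≤ n) (hC : Module.finrank k (NN (SubAlg k X) f f) ≤ C) :
    Module.finrank k (NN (SubAlg k (X ⊔ P)) f f) ≤ n * C := by
  classical
  have hfin : FiniteDimensional k (MonoidAlgebra k G) :=
    Module.Finite.equiv (MonoidAlgebra.coeffLinearEquiv k (M := G) (S := k)).symm
  have _ := Fintype.ofFinite P
  have hle : NN (SubAlg k (X ⊔ P)) f f ≤ ⨆ q : P, (NN (SubAlg k X) f f).map
      (LinearMap.mulRight k (MonoidAlgebra.single (q : G) (1 : k))) := by
    intro x hx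
    have hx' : x = f * x * f := by rw [hx.2.1, hx.2.2]
    have hxL := hx.1
    rw [hx']
    clear hx' hx
    refine SuppIn.induction (P := fun x => f * x * f ∈ ⨆ q : P, (NN (SubAlg k X) f f).map
      (LinearMap.mulRight k (MonoidAlgebra.single (q : G) (1 : k)))) hxL
      (by rw [mul_zero, zero_mul]; exact Submodule.zero_mem _) ?_ ?_
    · intro x y hx hy; rw [mul_add, add_mul]; exact Submodule.add_mem _ hx hy
    · intro g hg c
      -- `g = x q`
      have h1 : ∃ s ∈ X, ∃ q ∈ P, g = s * q := by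
        let T : Subgroup G :=
          { carrier := {x | ∃ s ∈ X, ∃ r ∈ P, x = s * r}
            mul_mem' := by
              rintro _ _ ⟨s, hs, r, hr, rfl⟩ ⟨s', hs', r', hr', rfl⟩
              exact ⟨s * (r * s' * r⁻¹), X.mul_mem hs (hn r hr s' hs'), r * r',
                P.mul_mem hr hr', by group⟩
            one_mem' := ⟨1, X.one_mem, 1, P.one_mem, by simp⟩
            inv_mem' := by
              rintro _ ⟨s, hs, r, hr, rfl⟩
              refine ⟨r⁻¹ * s⁻¹ * r, ?_, r⁻¹, P.inv_mem hr, by group⟩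
              have := hn r⁻¹ (P.inv_mem hr) s⁻¹ (X.inv_mem hs)
              simpa using this }
        have h2 : X ⊔ P ≤ T := sup_le (fun s hs => ⟨s, hs, 1, P.one_mem, by simp⟩)
          (fun r hr => ⟨1, X.one_mem, r, hr, by simp⟩)
        exact h2 hg
      obtain ⟨s, hs, q, hq, rfl⟩ := h1
      refine (le_iSup (fun q : P => (NN (SubAlg k X) f f).map
        (LinearMap.mulRight k (MonoidAlgebra.single (q : G) (1 : k)))) ⟨q, hq⟩) ?_
      refine ⟨c • (f * MonoidAlgebra.single s 1 * f), ?_, ?_⟩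
      · exact Submodule.smul_mem _ _ (mul_mul_mem_NN hff hff hfX hfX (single_mem_SubAlg hs 1))
      · change c • (f * MonoidAlgebra.single s 1 * f) * MonoidAlgebra.single q 1 = _
        have h3 : MonoidAlgebra.single q (1 : k) * f = f * MonoidAlgebra.single q 1 := by
          have h4 := hfP q hq
          rw [cj_eq] at h4
          have h5 : MonoidAlgebra.single q⁻¹ (1 : k) * MonoidAlgebra.single q 1 =
              (1 : MonoidAlgebra k G) := by
            rw [MonoidAlgebra.single_mul_single, inv_mul_cancel, one_mul, ← MonoidAlgebra.one_def]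
          calc MonoidAlgebra.single q (1 : k) * f = MonoidAlgebra.single q 1 * f *
                (MonoidAlgebra.single q⁻¹ 1 * MonoidAlgebra.single q 1) := by rw [h5, mul_one]
            _ = (MonoidAlgebra.single q 1 * f * MonoidAlgebra.single q⁻¹ 1) *
                MonoidAlgebra.single q 1 := by simp only [mul_assoc]
            _ = f * MonoidAlgebra.single q 1 := by rw [h4]
        have h6 : c • MonoidAlgebra.single (s * q) (1 : k) =
            c • (MonoidAlgebra.single s 1 * MonoidAlgebra.single q 1) := by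
          rw [MonoidAlgebra.single_mul_single, one_mul]
        rw [h6, smul_mul_assoc, mul_smul_comm, smul_mul_assoc]
        congr 1
        calc f * MonoidAlgebra.single s 1 * f * MonoidAlgebra.single q 1 =
              f * MonoidAlgebra.single s 1 * (f * MonoidAlgebra.single q 1) := by
                simp only [mul_assoc]
          _ = _ := by rw [← h3]; simp only [mul_assoc]
  calc Module.finrank k (NN (SubAlg k (X ⊔ P)) f f) ≤ Module.finrank k
        (⨆ q : P, (NN (SubAlg k X) f f).map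
          (LinearMap.mulRight k (MonoidAlgebra.single (q : G) (1 : k))) :
            Submodule k (MonoidAlgebra k G)) := Submodule.finrank_mono hle
    _ ≤ ∑ q : P, Module.finrank k ((NN (SubAlg k X) f f).map
          (LinearMap.mulRight k (MonoidAlgebra.single (q : G) (1 : k)))) := finrank_iSup_le _
    _ ≤ ∑ q : P, C := Finset.sum_le_sum fun q _ => (Submodule.finrank_map_le _ _).trans hC
    _ = Nat.card P * C := by
        rw [Finset.sum_const, Finset.card_univ, smul_eq_mul, Nat.card_eq_fintype_card]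
    _ ≤ n * C := Nat.mul_le_mul_right _ hPn

end Dim

end Vale.Agent.P180.R2.H471.He
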