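import Vale.Agent.P180.R2.H471.He5
import Vale.Agent.P180.R2.H471.He4

/-! Small corners in a subgroup `L` containing `C_G(Q)` which is, up to a bounded index and central
elements, generated by `Q` and commuting subgroups on which `Q` acts through cyclic groups. -/

set_option linter.all false

namespace Vale.Agent.P180.R2.H471.He

open Vale.Agent.P180 Vale.Agent.P180.H768.Gd Vale.Agent.P180.R2.H799
  Vale.Agent.P180.R2.H12 Vale.Agent.P180.R2.H47 Vale.Agent.P180.R2.H954
open Vale.Agent.P180.R2.H259.Cyc (cycB cycB_mono)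

universe u

theorem cor_mono {k : Type u} [Field k] {G : Type} [Group G] {C C' : ℕ} {S R : Subgroup G}
    {e : MonoidAlgebra k G} (h : Cor C S R e) (hC : C ≤ C') : Cor C' S R e := by
  obtain ⟨m, f, hf, hsp⟩ := h
  exact ⟨m, f, fun l => ⟨(hf l).1, (hf l).2.1, (hf l).2.2.1, (hf l).2.2.2.trans hC⟩, hsp⟩

section

variable {k : Type u} [Field k] [IsAlgClosed k] {p : ℕ} [Fact p.Prime] [CharP k p]

/-- Small corners in `Y Q`, where `Y` is a central product. -/
theorem exists_Xr {G : Type} [Group G] [Finite G] {n r : ℕ} {Q Y X : Subgroup G}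
    {A : Fin r → Subgroup G} (hQ : IsPGroup p Q) (hQn : Nat.card Q ≤ n) (hY : Y = ⨆ j, A j)
    (hX : X = Y ⊔ Q) (hAn : ∀ j, ∀ g ∈ X, ∀ h ∈ A j, g * h * g⁻¹ ∈ A j)
    (hcomm : ∀ i j, i ≠ j → ∀ g ∈ A i, ∀ h ∈ A j, g * h = h * g)
    (hinf : ∀ i j, i ≠ j → ∀ g ∈ A i, g ∈ A j → g = 1)
    (hcyc : ∀ j, CycOn Q (A j))
    {g a : MonoidAlgebra k G} (hg : IsBlockOf X g) (haX : a ∈ SubAlg k X)
    (ha : a ∈ Fix (cj k G) Q) (hga : g = tr (cj k G) Q X a) (hbr : br Q g ≠ 0) :
    ∃ f ∈ SubAlg k X, f ∈ Fix (cj k G) Q ∧ f * f = f ∧ g * f = f ∧ br Q f ≠ 0 ∧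
      Module.finrank k (NN (SubAlg k X) f f) ≤ n * (max 1 (cycB p n)) ^ r := by
  classical
  have hQX : Q ≤ X := by rw [hX]; exact le_sup_right
  have hYX : Y ≤ X := by rw [hX]; exact le_sup_left
  have hfin : FiniteDimensional k (MonoidAlgebra k G) :=
    Module.Finite.equiv (MonoidAlgebra.coeffLinearEquiv k (M := G) (S := k)).symm
  -- transport to the type `X`
  obtain ⟨g', rfl⟩ := exists_incl X hg.mem.1
  obtain ⟨a', rfl⟩ := exists_incl X haX
  set Q' : Subgroup X := Q.subgroupOf X with hQ'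
  set Y' : Subgroup X := Y.subgroupOf X with hY'
  have hmap : Q'.map X.subtype = Q := Subgroup.map_subgroupOf_eq_of_le hQX
  have hYmap : Y'.map X.subtype = Y := Subgroup.map_subgroupOf_eq_of_le hYX
  have hQ'p : IsPGroup p Q' := hQ.comap_of_injective X.subtype X.subtype_injective
  have ha'F : a' ∈ Fix (cj k X) Q' := by rw [← incl_mem_Fix_iff, hmap]; exact ha
  have hg' : IsBlockOf (⊤ : Subgroup X) g' := by
    unfold IsBlockOf
    rw [ZAlg_top]
    exact (isBlockOf_incl_iff X g').mp hg
  have hg'a : g' = tr (cj k X) Q' ⊤ a' := by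
    apply incl_injective (k := k) X
    rw [incl_tr X Q' ha'F, hmap]
    exact hga
  -- the Brauer map
  have hbrX : ∀ y : MonoidAlgebra k X, br Q' y = 0 ↔ br Q (incl k X y) = 0 := by
    intro y
    constructor
    · intro hy
      apply MonoidAlgebra.coeff_injective
      ext x
      rw [br_coeff]
      split_ifs with hx
      · by_cases hxS : x ∈ X
        · have h2 : (incl k X y).coeff x = y.coeff ⟨x, hxS⟩ := H799.incl_coeff X y ⟨x, hxS⟩
          have h3 : (br Q' y).coeff ⟨x, hxS⟩ = y.coeff ⟨x, hxS⟩ := by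
            rw [br_coeff, if_pos]
            rw [mem_cent]
            intro d hd
            apply Subtype.ext
            exact mem_cent.mp hx d hd
          rw [h2, ← h3, hy]
          rfl
        · rw [SubAlg_coeff (incl_mem X y) hxS]
          rfl
      · rfl
    · intro hy
      apply MonoidAlgebra.coeff_injective
      ext x
      rw [br_coeff]
      split_ifs with hx
      · have h2 : (incl k X y).coeff (x : G) = y.coeff x := H799.incl_coeff X y x
        have h3 : (br Q (incl k X y)).coeff (x : G) = (incl k X y).coeff (x : G) := by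
          rw [br_coeff, if_pos]
          rw [mem_cent]
          intro d hd
          exact congrArg Subtype.val (mem_cent.mp hx ⟨d, hQX hd⟩ hd)
        rw [← h2, ← h3, hy]
        rfl
      · rfl
  have hbr' : br Q' g' ≠ 0 := fun h => hbr ((hbrX g').mp h)
  -- the family
  let T := {j : Fin r // A j ≠ ⊥}
  let eqv := Fintype.equivFin T
  have hTr : Fintype.card T ≤ r := by
    have h1 := Fintype.card_subtype_le (fun j : Fin r => A j ≠ ⊥)
    rwa [Fintype.card_fin] at h1
  have hAY : ∀ j, A j ≤ Y := fun j => hY ▸ le_iSup A j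
  have hAX : ∀ j, A j ≤ X := fun j => (hAY j).trans hYX
  let B : Fin (Fintype.card T) → Subgroup X := fun i => (A (eqv.symm i).1).subgroupOf X
  have hBmap : ∀ i, (B i).map X.subtype = A (eqv.symm i).1 := fun i =>
    Subgroup.map_subgroupOf_eq_of_le (hAX _)
  have hidx : ∀ i j, i ≠ j → (eqv.symm i).1 ≠ (eqv.symm j).1 := by
    intro i j hij h
    exact hij (eqv.symm.injective (Subtype.ext h))
  let F : Fam X (Fintype.card T) ⊤ :=
    { A := B
      σ := 1
      comm := fun i j hij x hx y hy => Subtype.ext (hcomm _ _ (hidx i j hij) x hx y hy)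
      conj := fun g j x hx => hAn _ _ (g : X).2 x hx }
  have hFA : ∀ i, F.A i = B i := fun _ => rfl
  have hsupB : (⨆ i, B i) = Y' := by
    apply Subgroup.map_injective X.subtype_injective
    rw [Subgroup.map_iSup, hYmap, iSup_congr hBmap]
    apply le_antisymm (iSup_le fun i => hAY _)
    conv_lhs => rw [hY]
    refine iSup_le fun j => ?_
    by_cases hj : A j = ⊥
    · rw [hj]; exact bot_le
    · have h1 := le_iSup (fun i => A (eqv.symm i).1) (eqv ⟨j, hj⟩)
      simp only [Equiv.symm_apply_apply] at h1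
      exact h1
  have hμ : F.μ.range = ⨆ j, F.A j := Subgroup.noncommPiCoprod_range
  have hsup : Y' = F.μ.range := (hμ.trans hsupB).symm
  have hYn : ∀ x ∈ X, ∀ s ∈ Y, x * s * x⁻¹ ∈ Y := by
    intro x hx s hs
    have h1 : Y ≤ Y.comap (MulAut.conj x).toMonoidHom := by
      conv_lhs => rw [hY]
      refine iSup_le fun j y hy => ?_
      exact hAY j (hAn j x hx y hy)
    exact h1 hs
  have hnormal : Y'.Normal := ⟨fun s hs x => hYn x x.2 s hs⟩
  have hinj : ∀ i j, F.A i ≤ F.A j → i = j := by
    intro i j hij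
    by_contra hne
    apply (eqv.symm i).2
    rw [Subgroup.eq_bot_iff_forall]
    intro x hx
    refine hinf _ _ (hidx i j hne) x hx ?_
    exact hij (x := (⟨x, hAX _ hx⟩ : X)) hx
  have hYQ : Y' ⊔ Q' = ⊤ := by
    apply Subgroup.map_injective X.subtype_injective
    rw [Subgroup.map_sup, hYmap, hmap, ← MonoidHom.range_eq_map, Subgroup.range_subtype, hX]
  have hQ'n : Nat.card Q' ≤ n := by
    refine le_trans (le_of_eq ?_) hQn
    rw [← hmap]
    exact (Subgroup.card_map_of_injective X.subtype_injective).symm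
  obtain ⟨f', hf'Y, hf'F, hf'f', hbrf', hfr⟩ := loc_rel (C := max 1 (cycB p n)) F hsup hinj hg'
    hQ'p hYQ ha'F hg'a hbr' (by
      intro j R hR hRn e he heR hbre hz hz2
      have h1 : CycOn R (F.A j) :=
        (hcyc (eqv.symm j).1).comap X.subtype_injective (fun x hx => hR hx) le_rfl
      refine cor_mono (cor_of_cycOn (hQ'p.to_le hR) h1 hRn he heR hbre hz hz2)
        ((cycB_mono ?_).trans (le_max_right _ _))
      exact (Nat.card_le_card_of_injective _ (Subgroup.inclusion_injective hR)).trans hQ'n)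
  -- the dimension in `Y Q`
  set f := incl k X f' with hf
  have hfX : f ∈ SubAlg k X := incl_mem X f'
  have hfY : f ∈ SubAlg k Y := by
    intro x hx
    have hxX : x ∈ X := hfX x hx
    have h2 : (incl k X f').coeff x = f'.coeff ⟨x, hxX⟩ := H799.incl_coeff X f' ⟨x, hxX⟩
    exact hf'Y ⟨x, hxX⟩ (by rw [← h2]; exact hx)
  have hfQ : f ∈ Fix (cj k G) Q := by
    rw [← hmap]; exact (incl_mem_Fix_iff X Q' f').mpr hf'F
  have hff : f * f = f := by rw [hf, ← map_mul, hf'f']
  have hfd : Module.finrank k (NN (SubAlg k Y) f f) ≤ (max 1 (cycB p n)) ^ r := by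
    have h1 : NN (SubAlg k Y) f f ≤ (NN (SubAlg k Y') f' f').map
        (incl k X).toLinearMap := by
      rintro y ⟨hy1, hy2, hy3⟩
      obtain ⟨y', rfl⟩ := exists_incl X (SubAlg_mono hYX hy1)
      refine ⟨y', ⟨?_, ?_, ?_⟩, rfl⟩
      · intro x hx
        have h2 : (incl k X y').coeff (x : G) = y'.coeff x := H799.incl_coeff X y' x
        exact hy1 (x : G) (by rw [h2]; exact hx)
      · apply incl_injective (k := k) X
        rw [map_mul]
        exact hy2
      · apply incl_injective (k := k) X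
        rw [map_mul]
        exact hy3
    have hfin' : FiniteDimensional k (MonoidAlgebra k X) :=
      Module.Finite.equiv (MonoidAlgebra.coeffLinearEquiv k (M := X) (S := k)).symm
    refine (Submodule.finrank_mono h1).trans ((Submodule.finrank_map_le _ _).trans ?_)
    exact hfr.trans (Nat.pow_le_pow_right (Nat.lt_of_lt_of_le Nat.one_pos (le_max_left _ _)) hTr)
  have hd := finrank_NN_sup_le (fun x hx s hs => hYn x (hQX hx) s hs) hfY hfQ hff hQn hfd
  rw [← hX] at hd
  have hgf : ∀ y ∈ SubAlg k X, incl k X g' * y = y * incl k X g' := fun y hy =>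
    (commute_of_mem hy hg.mem.2).symm
  refine ⟨incl k X g' * f, Subalgebra.mul_mem _ hg.mem.1 hfX, Subalgebra.mul_mem _
    (Fix_mono _ hQX hg.mem.2) hfQ, ?_, ?_, ?_, ?_⟩
  · calc incl k X g' * f * (incl k X g' * f) = incl k X g' * (f * incl k X g') * f := by
          simp only [mul_assoc]
      _ = (incl k X g' * incl k X g') * (f * f) := by
          rw [← hgf f hfX]; simp only [mul_assoc]
      _ = _ := by rw [hg.idem.eq, hff]
  · rw [← mul_assoc, hg.idem.eq]
  · rw [hf, ← map_mul]
    exact fun h => hbrf' ((hbrX _).mpr h)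
  · refine le_trans (Submodule.finrank_mono (NN_le ?_ ?_)) hd
    · rw [← mul_assoc, ← hgf f hfX, mul_assoc, hff]
    · rw [mul_assoc, hff]

end

end Vale.Agent.P180.R2.H471.He
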