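import Vale.Agent.P180.R2.H471.He8
import Vale.Agent.P180.R2.H471.Hc11

/-! Special linear groups of bounded rank: small corners for abelian defect groups. -/

set_option linter.all false

namespace Vale.Agent.P180.R2.H471.He

open Module Subgroup Vale.Agent.P180 Vale.Agent.P180.H768.Gd Vale.Agent.P180.R2.H799
  Vale.Agent.P180.R2.H854 Vale.Agent.P180.R2.H954 Vale.Agent.P180.R2.H954.Hc
  Vale.Agent.P180.R2.H471.Hc
open Vale.Agent.P180.R2.H259.Cyc (cycB cycB_mono)

universe u

section Dec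

variable {K E : Type} [Field K] [AddCommGroup E] [Module K E] [FiniteDimensional K E]
variable {Q : Subgroup (SpecialLinearGroup K E)}

theorem cycOn_dec (D : Dec Q) (hab : ∀ x ∈ Q, ∀ y ∈ Q, x * y = y * x) (i : Fin D.r) :
    CycOn Q (D.A i) := by
  classical
  have hQL : Q ≤ D.L := Dec.Q_le hab
  let ψ₀ : D.A i →* End K E :=
    { toFun := fun x => toEnd (x : SpecialLinearGroup K E)
      map_one' := toEnd_one
      map_mul' := fun x y => toEnd_mul _ _ }
  let ρ₀ : Q →* End K E :=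
    { toFun := fun q => D.cp {i} (q : SpecialLinearGroup K E)
      map_one' := Dec.cp_one _
      map_mul' := fun x y => Dec.cp_mul (hQL x.2) (hQL y.2) }
  refine ⟨(End K E)ˣ, inferInstance, ψ₀.toHomUnits, ρ₀.toHomUnits, ?_, ?_, ?_, ?_⟩
  · intro x y hxy
    have h1 : toEnd (x : SpecialLinearGroup K E) = toEnd (y : SpecialLinearGroup K E) :=
      congrArg Units.val hxy
    exact Subtype.ext (toEnd_injective h1)
  · obtain ⟨F, _, _, χ, hχ⟩ := D.cyc i
    have hker : ρ₀.toHomUnits.ker = χ.ker := by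
      ext q
      rw [MonoidHom.mem_ker, MonoidHom.mem_ker, hχ]
      constructor
      · intro h
        have h1 : D.cp {i} (q : SpecialLinearGroup K E) = 1 := congrArg Units.val h
        rw [Dec.cp, Dec.es_singleton] at h1
        have h2 := congrArg (fun a : End K E => a * D.e i) h1
        simp only [add_mul, sub_mul, one_mul, mul_assoc, D.idem, sub_self, add_zero] at h2
        exact h2
      · intro h
        apply Units.ext
        change D.cp {i} (q : SpecialLinearGroup K E) = 1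
        rw [Dec.cp, Dec.es_singleton, h, add_sub_cancel]
    let e1 : ρ₀.toHomUnits.range ≃* χ.range :=
      (QuotientGroup.quotientKerEquivRange _).symm.trans
        ((QuotientGroup.quotientMulEquivOfEq hker).trans (QuotientGroup.quotientKerEquivRange _))
    have h1 : IsCyclic χ.range := inferInstance
    exact isCyclic_of_surjective e1.symm e1.symm.surjective
  · intro r s s' hs
    rw [eq_mul_inv_iff_mul_eq]
    apply Units.ext
    change toEnd (s' : SpecialLinearGroup K E) * D.cp {i} (r : SpecialLinearGroup K E) =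
      D.cp {i} (r : SpecialLinearGroup K E) * toEnd (s : SpecialLinearGroup K E)
    rw [← Dec.cp_of_mem_A s'.2, ← Dec.cp_of_mem_A s.2, ← Dec.cp_mul s'.2.1 (hQL r.2),
      ← Dec.cp_mul (hQL r.2) s.2.1, hs, inv_mul_cancel_right]
  · intro x hA hQ
    apply Units.ext
    change toEnd x = D.cp {i} x
    rw [Dec.cp_of_mem_A hA]

theorem dec_conj (D : Dec Q) (hab : ∀ x ∈ Q, ∀ y ∈ Q, x * y = y * x) :
    ∀ g ∈ D.L, ∀ q ∈ Q, g * q * g⁻¹ ∈ (⨆ j, D.A j) ⊔ Q := by
  intro g hg q hq
  have hqL : q ∈ D.L := Dec.Q_le hab hq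
  have h1 : g * q * g⁻¹ * q⁻¹ ∈ ⨆ j, D.A j := by
    have h2 : (⟨g, hg⟩ * ⟨q, hqL⟩ * (⟨g, hg⟩ : D.L)⁻¹ * (⟨q, hqL⟩ : D.L)⁻¹) ∈ D.δ.ker := by
      rw [MonoidHom.mem_ker, map_mul, map_mul, map_mul, map_inv, map_inv,
        mul_comm (D.δ ⟨g, hg⟩) (D.δ ⟨q, hqL⟩), mul_inv_cancel_right, mul_inv_cancel]
    rw [Dec.δ_ker, Subgroup.mem_subgroupOf] at h2
    exact h2
  have h3 : g * q * g⁻¹ = (g * q * g⁻¹ * q⁻¹) * q := by group
  rw [h3]
  exact Subgroup.mul_mem_sup h1 hq

end Dec

/-- the bound -/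
noncomputable def bdA (p m n : ℕ) : ℕ :=
  cSL m ^ (m + 2) * (m ^ m * (n * (max 1 (cycB p n)) ^ m) ^ 2)

theorem bdA_mono {p m n n' : ℕ} (h : n ≤ n') : bdA p m n ≤ bdA p m n' := by
  unfold bdA
  exact Nat.mul_le_mul_left _ (Nat.mul_le_mul_left _ (Nat.pow_le_pow_left (Nat.mul_le_mul h
    (Nat.pow_le_pow_left (max_le_max le_rfl (cycB_mono h)) _)) 2))

/-- **The special linear groups**: a small idempotent for the blocks with an abelian defect group. -/
theorem oneBd_slA {k : Type u} [Field k] [IsAlgClosed k] {p : ℕ} [Fact p.Prime] [CharP k p]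
    {K E : Type} [Field K] [Finite K] [AddCommGroup E] [Module K E] [FiniteDimensional K E]
    [Finite (SpecialLinearGroup K E)]
    (hpK : ¬ p ∣ Nat.card K) {m n : ℕ} (hm : finrank K E ≤ m)
    {Q : Subgroup (SpecialLinearGroup K E)} (hQ : IsPGroup p Q) (hQn : Nat.card Q ≤ n)
    (hab : ∀ x ∈ Q, ∀ y ∈ Q, x * y = y * x) : OneBd k Q (bdA p m n) := by
  classical
  intro e a he ha hea hbr
  have hp : p.Prime := Fact.out
  obtain ⟨l, hl⟩ := IsPGroup.iff_card.mp hQ
  have hcop : (Nat.card K).Coprime (Nat.card Q) := by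
    rw [hl]
    exact (Nat.Coprime.pow_left l ((Nat.Prime.coprime_iff_not_dvd hp).mpr hpK)).symm
  obtain ⟨D⟩ := exists_dec Q hcop hab
  -- the idempotent of the Levi subgroup
  obtain ⟨j, hjL, hjQ, hjj, hjb, hjd⟩ := exists_jr (n := n)
    (β := finrank K E ^ finrank K E) (A := D.A) hQ hQn (D.Q_le hab) D.cent_le D.A_le_L
    (fun j g hg h hh => D.A_conj hg hh) (fun i j hij g hg h hh => D.A_comm hij hg hh)
    (fun i j hij g hg hg' => D.A_inf hij hg hg') (cycOn_dec D hab) (dec_conj D hab) D.Z_le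
    (fun z hz g hg => D.Z_comm hz hg) (D.relIndex_le.trans D.prod_n_le) he.idem.eq ha hea hbr
  -- the parabolic system
  set 𝒱 : Sys (SpecialLinearGroup K E) := sysOf (slSys K E p hp hpK) with h𝒱
  have hcar : 𝒱.car = Set.range VF := rfl
  have hU : VF D.flag ∈ 𝒱.car := ⟨_, rfl⟩
  have hpU : ¬ p ∣ Nat.card (VF D.flag) := (slSys K E p hp hpK).card _ ⟨_, rfl⟩
  have hNU : normalizer ((VF D.flag : Subgroup (SpecialLinearGroup K E)) : Set _) = PF D.flag :=
    normalizer_VF _
  obtain ⟨i, h1, h2, h3, h4, h5⟩ := exists_small (k := k) (𝒱 := 𝒱) (rk := rkF K E) (c := cSL m)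
    (cSL_pos m) (fun Z hZ Y hY h => rkF_lt hZ hY h)
    (fun Z hZ => (sum_inter_le _).trans (Nat.mul_le_mul_right _
      ((card_doubleCoset_normalizer_le hZ hZ).trans (cSL_mono hm))))
    (by rw [hcar, ← VF_flag0]; exact ⟨_, rfl⟩) hU hpU (by rw [hNU]; exact D.L_le_PF)
    (by rw [hNU]; exact D.VF_sup_L) hQ (D.Q_le hab) D.VF_inf_cent he.idem.eq he.mem.2 hjL hjQ hjj
    hjb hjd
  refine ⟨i, h1, h2, h3, h4, h5.trans ?_⟩
  unfold bdA
  have hd : finrank K E ^ finrank K E ≤ m ^ m := by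
    rcases Nat.eq_zero_or_pos m with h0 | h0
    · subst h0
      have : finrank K E = 0 := by omega
      rw [this]
    · exact (Nat.pow_le_pow_left hm _).trans (Nat.pow_le_pow_right h0 hm)
  refine Nat.mul_le_mul (Nat.pow_le_pow_right (cSL_pos m) ?_) (Nat.mul_le_mul hd
    (Nat.pow_le_pow_left (Nat.mul_le_mul_left _ (Nat.pow_le_pow_right
      (lt_of_lt_of_le Nat.one_pos (le_max_left _ _)) (D.r_le.trans hm))) 2))
  have := rkF_le (K := K) (E := E) (VF D.flag)
  omega

end Vale.Agent.P180.R2.H471.He
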