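import Vale.Agent.P180.R2.H471.Au8
import Vale.Agent.P180.R2.H954.Hf8

/-! Field automorphisms of `p`-power order and selfdual factors of `X ^ p - 1`, `p` a linear
prime. -/

set_option linter.all false

namespace Vale.Agent.P180.R2.H471.Is

open Polynomial Module
open Vale.Agent.P180.R2.H471.Au
open Vale.Agent.P180.R2.H954.Hc (exists_frob theta_fix odd_of_lin eq_one_of_norm ringChar_prime
  ringChar_dvd_card)

variable {K : Type} [Field K] [Finite K]

theorem pow_fix {r e : ℕ} (h : ∀ c : K, c ^ r ^ e = c) (k : ℕ) : ∀ c : K, c ^ r ^ (e * k) = c := by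
  induction k with
  | zero => intro c; rw [mul_zero, pow_zero, pow_one]
  | succ k ih => intro c; rw [mul_add, mul_one, pow_add, pow_mul, ih, h]

/-- no automorphism induces the duality -/
theorem no_dual {p r : ℕ} (hp : p.Prime) (hp2 : Odd p) (hpr : ¬ p ∣ r) {θ : K →+* K}
    (hθ : ∀ c, θ (θ c) = c)
    (hlin : ∀ j : ℕ, (∀ c : K, θ c = c ^ (r ^ j)) → ¬ p ∣ r ^ j + 1)
    {σ : RingAut K} {s : ℕ} (hσ : σ ^ p ^ s = 1) {a b : ℕ} (ha : ∀ c : K, σ c = c ^ r ^ a)
    (hb : ∀ c : K, θ c = c ^ r ^ b) : ¬ p ∣ r ^ a + r ^ b := by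
  intro hdv
  haveI : Fact p.Prime := ⟨hp⟩
  obtain ⟨n, hn⟩ : ∃ n, n = p ^ s := ⟨_, rfl⟩
  have hn2 : Odd n := by rw [hn]; exact hp2.pow
  obtain ⟨k, hk⟩ := hn2
  -- the powers of `σ`
  have hσn : ∀ c : K, c ^ r ^ (a * n) = c := by
    have h1 : ∀ (m : ℕ) (c : K), (σ ^ m) c = c ^ r ^ (a * m) := by
      intro m
      induction m with
      | zero => intro c; rw [mul_zero, pow_zero, pow_zero, pow_one]; rfl
      | succ m ih =>
        intro c
        have e1 : (σ ^ (m + 1)) c = (σ ^ m) (σ c) := by rw [pow_succ]; rfl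
        rw [e1, ih, ha, ← pow_mul, ← pow_add, mul_add, mul_one, add_comm]
    intro c
    rw [← h1, hn, hσ]
    rfl
  have hθ2 : ∀ c : K, c ^ r ^ (b * 2) = c := by
    intro c
    have h1 := hθ c
    rw [hb, hb, ← pow_mul, ← pow_add] at h1
    rw [mul_two]
    exact h1
  have hθn : ∀ c : K, θ c = c ^ r ^ (b * n) := by
    intro c
    have h1 := pow_fix hθ2 k c
    rw [hb, hk, mul_add, mul_one, ← mul_assoc, pow_add, pow_mul, h1]
  have hj : ∀ c : K, θ c = c ^ r ^ ((b + a * (p - 2)) * n) := by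
    intro c
    have h1 := pow_fix hσn (p - 2) c
    have e1 : (b + a * (p - 2)) * n = a * n * (p - 2) + b * n := by ring
    rw [e1, pow_add, pow_mul, h1, hθn]
  refine hlin _ hj ?_
  -- modulo `p`
  have hp3 : 2 ≤ p := hp.two_le
  have hr0 : (r : ZMod p) ≠ 0 := fun h => hpr ((ZMod.natCast_eq_zero_iff r p).mp h)
  have h1 : (r : ZMod p) ^ a + (r : ZMod p) ^ b = 0 := by
    have h2 := (ZMod.natCast_eq_zero_iff (r ^ a + r ^ b) p).mpr hdv
    push_cast at h2
    exact h2
  have h2 : (r : ZMod p) ^ (p - 1) = 1 := ZMod.pow_card_sub_one_eq_one hr0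
  have h3 : (r : ZMod p) ^ (b + a * (p - 2)) = -1 := by
    have h4 : (r : ZMod p) ^ (b + a * (p - 2)) * (r : ZMod p) ^ a = -1 * (r : ZMod p) ^ a := by
      have e1 : b + a * (p - 2) + a = b + (p - 1) * a := by
        obtain ⟨q, hq⟩ : ∃ q, p = q + 2 := ⟨p - 2, by omega⟩
        have e2 : p - 2 = q := by omega
        have e3 : p - 1 = q + 1 := by omega
        rw [e2, e3]
        ring
      rw [← pow_add, e1, pow_add, pow_mul, h2, one_pow, mul_one]
      linear_combination h1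
    exact mul_right_cancel₀ (pow_ne_zero a hr0) h4
  have h4 : ((r ^ ((b + a * (p - 2)) * n) + 1 : ℕ) : ZMod p) = 0 := by
    push_cast
    rw [pow_mul, h3, Odd.neg_one_pow ⟨k, hk⟩, neg_add_cancel]
  exact (ZMod.natCast_eq_zero_iff _ p).mp h4

section

variable {p : ℕ} [Fact p.Prime]

theorem root_pow {f : K[X]} (hfp : f ∣ X ^ p - 1) : (AdjoinRoot.root f) ^ p = 1 := by
  have h1 : AdjoinRoot.mk f (X ^ p - 1) = 0 := AdjoinRoot.mk_eq_zero.mpr hfp
  rw [map_sub, map_pow, AdjoinRoot.mk_X, map_one, sub_eq_zero] at h1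
  exact h1

theorem root_ne {f : K[X]} (hf : f.Monic) (hfi : Irreducible f) (hfX : f ≠ X - C 1) :
    AdjoinRoot.root f ≠ 1 := by
  intro h
  have h1 : AdjoinRoot.mk f (X - C 1) = 0 := by
    rw [map_sub, AdjoinRoot.mk_X, C_1, map_one, sub_eq_zero]
    exact h
  have h2 := AdjoinRoot.mk_eq_zero.mp h1
  exact hfX (Polynomial.eq_of_monic_of_associated hf (monic_X_sub_C 1)
    (hfi.associated_of_dvd (irreducible_X_sub_C 1) h2))

/-- The field automorphism is trivial if it fixes the roots of unity of `p`-power order. -/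
theorem eq_one_of_fix {f : K[X]} (hf : f.Monic) (hfi : Irreducible f) (hfp : f ∣ X ^ p - 1)
    (hfX : f ≠ X - C 1) {σ : RingAut K} {s : ℕ} (hσ : σ ^ p ^ s = 1)
    (hfσ : f.map (σ : K →+* K) = f)
    (key : ∀ (h : K[X]) (j : ℕ), (AdjoinRoot.mk f h) ^ p ^ j = 1 → ∃ H : K[X],
      AdjoinRoot.mk f H = AdjoinRoot.mk f h ∧ f ∣ H.map (σ : K →+* K) - H) : σ = 1 := by
  haveI : Fact (Irreducible f) := ⟨hfi⟩
  let F := AdjoinRoot f
  have hfne : f ≠ 0 := hfi.ne_zero
  haveI : Finite F := by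
    haveI : Module.Finite K F := (AdjoinRoot.powerBasis hfne).finite
    exact Module.finite_of_finite K
  let ζ : F := AdjoinRoot.root f
  have hζ : ζ ^ p = 1 := root_pow hfp
  have hζ1 : ζ ≠ 1 := root_ne hf hfi hfX
  -- the automorphism of `F`
  let τ₀ : F →+* F := AdjoinRoot.lift ((AdjoinRoot.of f).comp (σ : K →+* K)) ζ (by
    rw [← Polynomial.eval₂_map, hfσ]
    exact AdjoinRoot.eval₂_root f)
  have hτ₀ : ∀ h : K[X], τ₀ (AdjoinRoot.mk f h) = AdjoinRoot.mk f (h.map (σ : K →+* K)) := by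
    intro h
    have h1 : τ₀ (AdjoinRoot.mk f h) = h.eval₂ ((AdjoinRoot.of f).comp (σ : K →+* K)) ζ :=
      AdjoinRoot.lift_mk _ h
    rw [h1, ← Polynomial.eval₂_map]
    have h2 : ∀ P : K[X], P.eval₂ (AdjoinRoot.of f) ζ = AdjoinRoot.mk f P := by
      intro P
      have h3 : P.eval₂ (AdjoinRoot.of f) (AdjoinRoot.root f) = AdjoinRoot.mk f P := by
        rw [← AdjoinRoot.algebraMap_eq, ← Polynomial.aeval_def, AdjoinRoot.aeval_eq]
      exact h3
    rw [h2]
  let τ : RingAut F := RingEquiv.ofBijective τ₀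
    ⟨τ₀.injective, Finite.surjective_of_injective τ₀.injective⟩
  have hτ : ∀ h : K[X], τ (AdjoinRoot.mk f h) = AdjoinRoot.mk f (h.map (σ : K →+* K)) := hτ₀
  have hτk : ∀ (k : ℕ) (h : K[X]), (τ ^ k) (AdjoinRoot.mk f h) =
      AdjoinRoot.mk f (h.map ((σ ^ k : RingAut K) : K →+* K)) := by
    intro k
    induction k with
    | zero =>
      intro h
      have h1 : h.map ((σ ^ 0 : RingAut K) : K →+* K) = h := by
        have h2 : ((σ ^ 0 : RingAut K) : K →+* K) = RingHom.id K := RingHom.ext fun c => rfl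
        rw [h2, Polynomial.map_id]
      rw [h1]
      rfl
    | succ k ih =>
      intro h
      have h1 : (τ ^ (k + 1)) (AdjoinRoot.mk f h) = τ ((τ ^ k) (AdjoinRoot.mk f h)) := by
        rw [pow_succ']
        rfl
      rw [h1, ih, hτ, Polynomial.map_map]
      congr 2
      apply RingHom.ext
      intro c
      rw [pow_succ']
      rfl
  have hτ1 : τ ^ p ^ s = 1 := by
    apply RingEquiv.ext
    intro x
    obtain ⟨h, rfl⟩ := AdjoinRoot.mk_surjective x
    rw [hτk, hσ]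
    have h2 : ((1 : RingAut K) : K →+* K) = RingHom.id K := RingHom.ext fun c => rfl
    rw [h2, Polynomial.map_id]
    rfl
  have hfix : ∀ ω : F, (∃ j, ω ^ p ^ j = 1) → τ ω = ω := by
    rintro ω ⟨j, hj⟩
    obtain ⟨h, rfl⟩ := AdjoinRoot.mk_surjective ω
    obtain ⟨H, hH1, hH3⟩ := key h j hj
    rw [← hH1, hτ, ← sub_eq_zero, ← map_sub, AdjoinRoot.mk_eq_zero]
    exact hH3
  have hfin := aut_eq_one hτ1 hζ hζ1 hfix
  apply RingEquiv.ext
  intro c
  have h1 := hτ (C c)
  rw [hfin, Polynomial.map_C, AdjoinRoot.mk_C, AdjoinRoot.mk_C] at h1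
  exact ((AdjoinRoot.of f).injective h1).symm

/-- **`σ` fixes the factor `f`.** -/
theorem map_eq (hp2 : Odd p) (hpK : ¬ p ∣ Nat.card K) {f f' : K[X]} (hf : f.Monic)
    (hfi : Irreducible f) (hff : X ^ p - 1 = f * f') (hfX : f ≠ X - C 1) {θ : K →+* K}
    (hθ : ∀ c, θ (θ c) = c)
    (hlin : ∀ j : ℕ, (∀ c : K, θ c = c ^ (ringChar K ^ j)) → ¬ p ∣ ringChar K ^ j + 1)
    {σ : RingAut K} {s : ℕ} (hσ : σ ^ p ^ s = 1) {μ : K[X]} (hfμ : f ∣ μ)
    (hμσ : μ.map (σ : K →+* K) = μ) {H W : K[X]} {m : ℕ} (hH : f' ∣ H - 1)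
    (hW : W = H * ((H.map θ).comp (X ^ (p - 1))) ^ m) (hWX : f ∣ W - X)
    (hWσ : μ ∣ W.map (σ : K →+* K) - W) : f.map (σ : K →+* K) = f := by
  have hp : p.Prime := Fact.out
  haveI hr : Fact (ringChar K).Prime := ⟨ringChar_prime⟩
  haveI hcharK : CharP K (ringChar K) := ringChar.charP K
  haveI : Fact (Irreducible f) := ⟨hfi⟩
  let F := AdjoinRoot f
  have hfne : f ≠ 0 := hfi.ne_zero
  haveI : Finite F := by
    haveI : Module.Finite K F := (AdjoinRoot.powerBasis hfne).finite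
    exact Module.finite_of_finite K
  haveI hcharF : CharP F (ringChar K) :=
    charP_of_injective_ringHom (algebraMap K F).injective (ringChar K)
  let ζ : F := AdjoinRoot.root f
  have hζ : ζ ^ p = 1 := root_pow ⟨f', hff⟩
  have hζ1 : ζ ≠ 1 := root_ne hf hfi hfX
  have hζf : aeval ζ f = 0 := by
    rw [aeval_def, AdjoinRoot.algebraMap_eq]
    exact AdjoinRoot.eval₂_root f
  -- extensions
  have hext : ∀ (τ : K →+* K) (ψ : F →+* F), (∀ c, ψ (algebraMap K F c) = algebraMap K F (τ c)) →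
      ∀ (P : K[X]) (y : F), aeval (ψ y) (P.map τ) = ψ (aeval y P) := by
    intro τ ψ h P y
    rw [aeval_def, aeval_def, Polynomial.hom_eval₂, Polynomial.eval₂_map]
    congr 1
    exact RingHom.ext fun c => (h c).symm
  obtain ⟨a, ha⟩ := exists_frob (r := ringChar K) (σ : K →+* K)
  have ha' : ∀ c : K, σ c = c ^ ringChar K ^ a := ha
  let ψ : F →+* F := iterateFrobenius F (ringChar K) a
  have hψ : ∀ y, ψ y = y ^ ringChar K ^ a := fun y => iterateFrobenius_def _ _ _
  have hψσ : ∀ c, ψ (algebraMap K F c) = algebraMap K F ((σ : K →+* K) c) := by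
    intro c
    rw [hψ, ha, map_pow]
  have eψ := hext _ ψ hψσ
  obtain ⟨x, hx⟩ : ∃ x, x = ψ ζ := ⟨_, rfl⟩
  have hxp : x ^ p = 1 := by rw [hx, ← map_pow, hζ, map_one]
  have hx1 : x ≠ 1 := by
    intro h
    rw [hx] at h
    exact hζ1 (ψ.injective (h.trans (map_one ψ).symm))
  have hx0 : x ≠ 0 := by
    rintro h
    rw [h, zero_pow hp.ne_zero] at hxp
    exact zero_ne_one hxp
  have hxfσ : aeval x (f.map (σ : K →+* K)) = 0 := by
    rw [hx, eψ, hζf, map_zero]
  have ev0 : ∀ {P Q : K[X]} {y : F}, P ∣ Q → aeval y P = 0 → aeval y Q = 0 := by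
    rintro P Q y ⟨R, rfl⟩ h
    rw [map_mul, h, zero_mul]
  have hxμ : aeval x μ = 0 := by
    rw [← hμσ, hx, eψ, ev0 hfμ hζf, map_zero]
  have hWζ : aeval ζ W = ζ := by
    have h1 := ev0 hWX hζf
    rw [map_sub, aeval_X, sub_eq_zero] at h1
    exact h1
  have hWx : aeval x W = x := by
    have h1 := ev0 hWσ hxμ
    rw [map_sub, sub_eq_zero] at h1
    rw [← h1]
    conv_lhs => rw [hx]
    rw [eψ, hWζ, ← hx]
  -- `x` is a root of `f`
  have hfx : aeval x f = 0 := by
    by_contra hne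
    have h1 : aeval x f * aeval x f' = 0 := by
      rw [← map_mul, ← hff, map_sub, map_pow, aeval_X, map_one, hxp, sub_self]
    have h2 : aeval x f' = 0 := (mul_eq_zero.mp h1).resolve_left hne
    have h3 : aeval x H = 1 := by
      have h4 := ev0 hH h2
      rw [map_sub, map_one, sub_eq_zero] at h4
      exact h4
    have hV : aeval x ((H.map θ).comp (X ^ (p - 1))) = aeval x⁻¹ (H.map θ) := by
      rw [aeval_comp, map_pow, aeval_X]
      congr 2
      refine eq_inv_of_mul_eq_one_left ?_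
      rw [← pow_succ, Nat.sub_add_cancel hp.one_le, hxp]
    have h4 : aeval x⁻¹ (H.map θ) ≠ 1 := by
      intro h5
      rw [hW, map_mul, map_pow, hV, h3, h5, one_pow, mul_one] at hWx
      exact hx1 hWx.symm
    have h5 : aeval x⁻¹ (f'.map θ) ≠ 0 := by
      intro h6
      have h7 : f'.map θ ∣ (H - 1).map θ := Polynomial.map_dvd θ hH
      have h8 := ev0 h7 h6
      rw [Polynomial.map_sub, Polynomial.map_one, map_sub, map_one, sub_eq_zero] at h8
      exact h4 h8
    have h6 : aeval x⁻¹ (f.map θ) = 0 := by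
      have h7 : aeval x⁻¹ (f.map θ) * aeval x⁻¹ (f'.map θ) = 0 := by
        rw [← map_mul, ← Polynomial.map_mul, ← hff, Polynomial.map_sub, Polynomial.map_pow,
          Polynomial.map_X, Polynomial.map_one, map_sub, map_pow, aeval_X, map_one, inv_pow, hxp,
          inv_one, sub_self]
      exact (mul_eq_zero.mp h7).resolve_right h5
    let φ : F →+* F := AdjoinRoot.lift ((AdjoinRoot.of f).comp θ) x⁻¹ (by
      rw [← Polynomial.eval₂_map, ← AdjoinRoot.algebraMap_eq, ← aeval_def]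
      exact h6)
    have hφζ : φ ζ = x⁻¹ := AdjoinRoot.lift_root _
    have hφθ : ∀ c, φ (algebraMap K F c) = algebraMap K F (θ c) := fun c => by
      have h7 := AdjoinRoot.lift_of (i := (AdjoinRoot.of f).comp θ) (a := x⁻¹) (by
        rw [← Polynomial.eval₂_map, ← AdjoinRoot.algebraMap_eq, ← aeval_def]
        exact h6) (x := c)
      exact h7
    obtain ⟨b, hb⟩ := exists_frob (r := ringChar K) φ
    have hb' : ∀ c : K, θ c = c ^ ringChar K ^ b := by
      intro c
      have h7 := hφθ c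
      rw [hb, ← map_pow] at h7
      exact ((algebraMap K F).injective h7).symm
    have hpr : ¬ p ∣ ringChar K := fun h => hpK (h.trans ringChar_dvd_card)
    refine no_dual hp hp2 hpr hθ hlin hσ ha' hb' ?_
    have h7 : ζ ^ (ringChar K ^ a + ringChar K ^ b) = 1 := by
      rw [pow_add, ← hψ, ← hb, hφζ, ← hx, mul_inv_cancel₀ hx0]
    rw [← orderOf_eq_prime hζ hζ1]
    exact orderOf_dvd_of_pow_eq_one h7
  have h1 := minpoly.eq_of_irreducible_of_monic hfi hfx hf
  have hfσi : Irreducible (f.map (σ : K →+* K)) :=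
    (MulEquiv.irreducible_iff (Polynomial.mapEquiv σ)).mpr hfi
  have h2 := minpoly.eq_of_irreducible_of_monic hfσi hxfσ (hf.map _)
  rw [h2, ← h1]

end

end Vale.Agent.P180.R2.H471.Is
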