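import Vale.Agent.P180.R2.H471.Is1
import Vale.Agent.P180.R2.H471.Au9
import Vale.Agent.P180.R2.H799.BT2

/-! Isometries which are polynomials in a given isometry of order `p`; no proper field
automorphisms. -/

set_option linter.all false

namespace Vale.Agent.P180.R2.H471.Is

open Polynomial Module
open Vale.Agent.P180.R2.H471.Au
open Vale.Agent.P180.R2.H854 Vale.Agent.P180.R2.H799 Vale.Agent.P180.R2.H799.BS
open Vale.Agent.P180.R2.H954.Hc (exists_frob theta_fix odd_of_lin eq_one_of_norm ringChar_prime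
  ringChar_dvd_card)

variable {K : Type} [Field K] [Finite K] {p : ℕ} [Fact p.Prime]

/-- the dual factor is different -/
theorem dual_ne (hpK : ¬ p ∣ Nat.card K) {f : K[X]} (hf : f.Monic)
    (hfi : Irreducible f) (hfp : f ∣ X ^ p - 1) (hfX : f ≠ X - C 1) {θ : K →+* K}
    (hθ : ∀ c, θ (θ c) = c)
    (hlin : ∀ j : ℕ, (∀ c : K, θ c = c ^ (ringChar K ^ j)) → ¬ p ∣ ringChar K ^ j + 1)
    {y : AdjoinRoot f} (hy : y * AdjoinRoot.root f = 1) : aeval y (f.map θ) ≠ 0 := by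
  intro h6
  have hp : p.Prime := Fact.out
  haveI hr : Fact (ringChar K).Prime := ⟨ringChar_prime⟩
  haveI hcharK : CharP K (ringChar K) := ringChar.charP K
  haveI : Fact (Irreducible f) := ⟨hfi⟩
  have hfne : f ≠ 0 := hfi.ne_zero
  haveI : Finite (AdjoinRoot f) := by
    haveI : Module.Finite K (AdjoinRoot f) := (AdjoinRoot.powerBasis hfne).finite
    exact Module.finite_of_finite K
  haveI hcharF : CharP (AdjoinRoot f) (ringChar K) :=
    charP_of_injective_ringHom (algebraMap K (AdjoinRoot f)).injective (ringChar K)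
  have hζ : (AdjoinRoot.root f) ^ p = 1 := root_pow hfp
  have hζ1 : AdjoinRoot.root f ≠ 1 := root_ne hf hfi hfX
  have hev : f.eval₂ ((AdjoinRoot.of f).comp θ) y = 0 := by
    rw [← Polynomial.eval₂_map, ← AdjoinRoot.algebraMap_eq, ← aeval_def]
    exact h6
  let φ : AdjoinRoot f →+* AdjoinRoot f := AdjoinRoot.lift ((AdjoinRoot.of f).comp θ) y hev
  have hφζ : φ (AdjoinRoot.root f) = y := AdjoinRoot.lift_root _
  have hφθ : ∀ c, φ (algebraMap K (AdjoinRoot f) c) = algebraMap K (AdjoinRoot f) (θ c) :=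
    fun c => AdjoinRoot.lift_of (i := (AdjoinRoot.of f).comp θ) (a := y) hev (x := c)
  obtain ⟨b, hb⟩ := exists_frob (r := ringChar K) φ
  have hb' : ∀ c : K, θ c = c ^ ringChar K ^ b := by
    intro c
    have h7 := hφθ c
    rw [hb, ← map_pow] at h7
    exact ((algebraMap K (AdjoinRoot f)).injective h7).symm
  refine hlin b hb' ?_
  have h7 : (AdjoinRoot.root f) ^ (ringChar K ^ b + 1) = 1 := by
    rw [pow_succ, ← hb, hφζ, hy]
  rw [← orderOf_eq_prime hζ hζ1]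
  exact orderOf_dvd_of_pow_eq_one h7

theorem mk_eq_aeval {f : K[X]} (P : K[X]) : AdjoinRoot.mk f P = aeval (AdjoinRoot.root f) P :=
  (AdjoinRoot.aeval_eq P).symm

/-- the dual of an element which is `1` outside of `f` is `1` at `f` -/
theorem dual_eq_one (hpK : ¬ p ∣ Nat.card K) {f f' : K[X]} (hf : f.Monic)
    (hfi : Irreducible f) (hff : X ^ p - 1 = f * f') (hfX : f ≠ X - C 1) {θ : K →+* K}
    (hθ : ∀ c, θ (θ c) = c)
    (hlin : ∀ j : ℕ, (∀ c : K, θ c = c ^ (ringChar K ^ j)) → ¬ p ∣ ringChar K ^ j + 1)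
    {H : K[X]} (hH : f' ∣ H - 1) :
    AdjoinRoot.mk f ((H.map θ).comp (X ^ (p - 1))) = 1 := by
  have hp : p.Prime := Fact.out
  haveI : Fact (Irreducible f) := ⟨hfi⟩
  have hζ : (AdjoinRoot.root f) ^ p = 1 := root_pow ⟨f', hff⟩
  obtain ⟨y, hy⟩ : ∃ y, y = (AdjoinRoot.root f) ^ (p - 1) := ⟨_, rfl⟩
  have hy1 : y * AdjoinRoot.root f = 1 := by
    rw [hy, ← pow_succ, Nat.sub_add_cancel hp.one_le, hζ]
  have hyp : y ^ p = 1 := by rw [hy, ← pow_mul, mul_comm, pow_mul, hζ, one_pow]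
  rw [mk_eq_aeval, aeval_comp, map_pow, aeval_X, ← hy]
  have h7 : aeval y (f.map θ) * aeval y (f'.map θ) = 0 := by
    rw [← map_mul, ← Polynomial.map_mul, ← hff, Polynomial.map_sub, Polynomial.map_pow,
      Polynomial.map_X, Polynomial.map_one, map_sub, map_pow, aeval_X, map_one, hyp, sub_self]
  have h5 : aeval y (f'.map θ) = 0 := (mul_eq_zero.mp h7).resolve_left
    (dual_ne hpK hf hfi ⟨f', hff⟩ hfX hθ hlin hy1)
  obtain ⟨R, hR⟩ : f'.map θ ∣ (H - 1).map θ := Polynomial.map_dvd θ hH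
  have h8 := congrArg (aeval y) hR
  rw [map_mul, h5, zero_mul, Polynomial.map_sub, Polynomial.map_one, map_sub, map_one,
    sub_eq_zero] at h8
  exact h8

variable {E : Type} [AddCommGroup E] [Module K E] [FiniteDimensional K E] (Φ : HForm K E)

/-- the adjoint of a polynomial -/
theorem adj_aeval (a : End K E) (P : K[X]) :
    Φ.adj (aeval a P) = aeval (Φ.adj a) (P.map Φ.θ) := by
  induction P using Polynomial.induction_on' with
  | add P R hP hR =>
    rw [map_add, Φ.adj_add, hP, hR, Polynomial.map_add, map_add]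
  | monomial m c =>
    rw [Polynomial.map_monomial, aeval_monomial, aeval_monomial, ← Algebra.smul_def,
      ← Algebra.smul_def, Φ.adj_smul, Φ.adj_pow]

/-- **An isometry** which is a polynomial in a given isometry of order `p`. -/
theorem exists_iso (hpK : ¬ p ∣ Nat.card K)
    (hlin : ∀ j : ℕ, (∀ c : K, Φ.θ c = c ^ (ringChar K ^ j)) → ¬ p ∣ ringChar K ^ j + 1)
    {u : SpecialLinearGroup K E} (hu : u ∈ Φ.Iso) (hup : u ^ p = 1) {H : K[X]} {j : ℕ}
    (hj : (aeval (toEnd u) H) ^ p ^ j = 1) :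
    ∃ w ∈ Φ.Iso, w ^ p ^ j = 1 ∧ toEnd w =
      aeval (toEnd u) (H * ((H.map Φ.θ).comp (X ^ (p - 1))) ^ (p ^ j - 1)) := by
  have hp : p.Prime := Fact.out
  obtain ⟨U, hU⟩ : ∃ U, U = toEnd u := ⟨_, rfl⟩
  have hUp : U ^ p = 1 := by rw [hU, ← BN.toEnd_pow, hup, toEnd_one]
  have hadj : Φ.adj U = U ^ (p - 1) := by
    have h1 : Φ.adj U * U = 1 := by rw [hU]; exact Φ.mem_Iso_iff.mp hu
    calc Φ.adj U = Φ.adj U * U ^ p := by rw [hUp, mul_one]
      _ = Φ.adj U * U * U ^ (p - 1) := by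
        rw [mul_assoc, ← pow_succ', Nat.sub_add_cancel hp.one_le]
      _ = U ^ (p - 1) := by rw [h1, one_mul]
  obtain ⟨V, hV⟩ : ∃ V, V = (H.map Φ.θ).comp (X ^ (p - 1)) := ⟨_, rfl⟩
  have hVe : aeval U V = Φ.adj (aeval U H) := by
    rw [adj_aeval, hadj, hV, aeval_comp, map_pow, aeval_X]
  rw [← hU] at hj ⊢
  rw [← hV]
  obtain ⟨v, hv⟩ : ∃ v, v = aeval U H := ⟨_, rfl⟩
  rw [← hv] at hVe hj
  obtain ⟨m, hm⟩ : ∃ m, p ^ j = m + 1 := ⟨p ^ j - 1, by
    have := pow_pos hp.pos j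
    omega⟩
  rw [hm, Nat.add_sub_cancel]
  rw [hm] at hj
  have hT : aeval U (H * V ^ m) = v * Φ.adj v ^ m := by rw [map_mul, map_pow, hVe, hv]
  have hcom : Commute v (Φ.adj v) := by
    rw [← hVe, hv]
    exact (Commute.all H V).map (aeval U)
  rw [hT]
  obtain ⟨T, hTe⟩ : ∃ T, T = v * Φ.adj v ^ m := ⟨_, rfl⟩
  rw [← hTe]
  have hvj : Φ.adj v ^ (m + 1) = 1 := by rw [← Φ.adj_pow, hj, Φ.adj_one]
  have hTa : Φ.adj T * T = 1 := by
    rw [hTe, Φ.adj_mul, Φ.adj_pow, Φ.adj_adj]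
    calc v ^ m * Φ.adj v * (v * Φ.adj v ^ m) = v ^ m * (Φ.adj v * v) * Φ.adj v ^ m := by
          simp only [mul_assoc]
      _ = v ^ m * (v * Φ.adj v) * Φ.adj v ^ m := by rw [hcom.eq]
      _ = v ^ (m + 1) * Φ.adj v ^ (m + 1) := by rw [pow_succ, pow_succ']; simp only [mul_assoc]
      _ = 1 := by rw [hj, hvj, one_mul]
  have hTj : T ^ (m + 1) = 1 := by
    rw [hTe, (hcom.pow_right m).mul_pow, hj, ← pow_mul, mul_comm, pow_mul, hvj, one_pow, one_mul]
  have hδj : LinearMap.det T ^ p ^ j = 1 := by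
    have h4 := congrArg LinearMap.det hTj
    have h5 : LinearMap.det (T ^ (m + 1)) = LinearMap.det T ^ (m + 1) := map_pow LinearMap.det T _
    have h6 : LinearMap.det (1 : End K E) = 1 := map_one LinearMap.det
    rw [h5, h6] at h4
    rw [hm, h4]
  have hδ : LinearMap.det T * Φ.θ (LinearMap.det T) = 1 := by
    have h4 := congrArg LinearMap.det hTa
    have h5 : LinearMap.det (Φ.adj T * T) = LinearMap.det (Φ.adj T) * LinearMap.det T :=
      map_mul LinearMap.det _ _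
    have h6 : LinearMap.det (1 : End K E) = 1 := map_one LinearMap.det
    rw [h5, h6] at h4
    have h7 := congrArg Φ.θ h4
    rw [map_mul, det_adj, map_one] at h7
    exact h7
  have hdet : LinearMap.det T = 1 := eq_one_of_norm hp hpK Φ.θ Φ.θθ hlin hδj hδ
  refine ⟨mkSL T hdet, ?_, ?_, toEnd_mkSL T hdet⟩
  · rw [Φ.mem_Iso_iff, toEnd_mkSL]
    exact hTa
  · apply toEnd_injective
    rw [BN.toEnd_pow, toEnd_mkSL, hTj, toEnd_one]

/-- the polynomials in elements of `Q` which are isometries of `p`-power order are in `Q` -/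
def PClosed (p : ℕ) (Q : Subgroup (SpecialLinearGroup K E)) : Prop :=
  ∀ u ∈ Q, ∀ (H : K[X]), ∀ w ∈ Φ.Iso, (∃ j, w ^ p ^ j = 1) →
    toEnd w = aeval (toEnd u) H → w ∈ Q

variable {Φ}

/-- **No proper field automorphisms.** -/
theorem sigma_eq_one (hpK : ¬ p ∣ Nat.card K)
    (hlin : ∀ j : ℕ, (∀ c : K, Φ.θ c = c ^ (ringChar K ^ j)) → ¬ p ∣ ringChar K ^ j + 1)
    {Q : Subgroup (SpecialLinearGroup K E)} (hQp : IsPGroup p Q) (hQ1 : Q ≠ ⊥) (hQI : Q ≤ Φ.Iso)
    (hQ : PClosed Φ p Q) {σ : RingAut K} {g : E → E} (hg : Semi σ g)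
    (hgQ : ∀ w ∈ Q, ∀ v, g (w v) = w (g v)) {s : ℕ} (hσ : σ ^ p ^ s = 1) : σ = 1 := by
  have hp : p.Prime := Fact.out
  have hp2 : Odd p := odd_of_lin hp hpK Φ.θ hlin
  have hpK0 : (p : K) ≠ 0 := by
    intro h0
    haveI : CharP K p := (CharP.charP_iff_prime_eq_zero hp).mpr h0
    have h1 : ringChar K = p := ringChar.eq K p
    exact hpK (h1 ▸ ringChar_dvd_card)
  let g' : E ≃+ E := AddEquiv.ofBijective (AddMonoidHom.mk' g hg.add) hg.bij
  have hg'e : ∀ v, g' v = g v := fun v => rfl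
  have hg' : ∀ (c : K) v, g' (c • v) = σ c • g' v := hg.smul
  obtain ⟨u, hu, hup, hu1⟩ := exists_order_p hQp hQ1
  have hφu : ∀ v, g' (toEnd u v) = toEnd u (g' v) := hgQ u hu
  have hup' : toEnd u ^ p = 1 := by rw [← BN.toEnd_pow, hup]; rfl
  set μ := minpoly K (toEnd u) with hμ
  have hint : IsIntegral K (toEnd u) := Algebra.IsIntegral.isIntegral _
  have hμd : μ ∣ X ^ p - 1 := by
    apply minpoly.dvd
    rw [map_sub, map_pow, aeval_X, map_one, hup', sub_self]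
  have hsep : (X ^ p - 1 : K[X]).Separable := (X_pow_sub_one_separable_iff).mpr hpK0
  have hsq : Squarefree (X ^ p - 1 : K[X]) := hsep.squarefree
  have hμu : ¬ IsUnit μ := by
    intro h
    have h1 : μ = 1 := (minpoly.monic hint).eq_one_of_isUnit h
    have h2 := minpoly.aeval K (toEnd u)
    rw [← hμ, h1, map_one] at h2
    apply hu1
    apply toEnd_injective
    apply LinearMap.ext
    intro v
    have h3 := LinearMap.congr_fun h2 v
    have h4 : v = 0 := h3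
    rw [h4, map_zero, map_zero]
  obtain ⟨f, hf, hfi, hfμ, hfX⟩ := Au.exists_factor (μ := μ) (q₀ := X - C (1 : K))
    (hsq.squarefree_of_dvd hμd) hμu (irreducible_X_sub_C 1) (by
      rintro ⟨R, hR⟩
      have h1 : aeval (toEnd u) (X - C (1 : K)) = 0 := by
        rw [hR, map_mul, hμ, minpoly.aeval, zero_mul]
      rw [map_sub, aeval_X, aeval_C, map_one, sub_eq_zero] at h1
      exact hu1 (toEnd_injective h1))
  obtain ⟨f', a, b, hff, hab⟩ := exists_H hpK0 (hfμ.trans hμd)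
  haveI : Fact (Irreducible f) := ⟨hfi⟩
  -- elements of `p`-power order
  have key : ∀ (h : K[X]) (j : ℕ), (AdjoinRoot.mk f h) ^ p ^ j = 1 → ∃ H : K[X], f' ∣ H - 1 ∧
      AdjoinRoot.mk f (H * ((H.map Φ.θ).comp (X ^ (p - 1))) ^ (p ^ j - 1)) = AdjoinRoot.mk f h ∧
      μ ∣ (H * ((H.map Φ.θ).comp (X ^ (p - 1))) ^ (p ^ j - 1)).map (σ : K →+* K) -
        H * ((H.map Φ.θ).comp (X ^ (p - 1))) ^ (p ^ j - 1) := by
    intro h j hj
    obtain ⟨H, hH⟩ : ∃ H, H = h * (b * f') + a * f := ⟨_, rfl⟩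
    have hHf : AdjoinRoot.mk f H = AdjoinRoot.mk f h := by
      rw [hH, map_add, map_mul, map_mul _ a f, AdjoinRoot.mk_self, mul_zero, add_zero]
      have h1 : AdjoinRoot.mk f (b * f') = 1 := by
        have h2 := congrArg (AdjoinRoot.mk f) hab
        rw [map_add, map_mul _ a f, AdjoinRoot.mk_self, mul_zero, zero_add, map_one] at h2
        exact h2
      rw [h1, mul_one]
    have hHf' : f' ∣ H - 1 := by
      have h1 : H - 1 = f' * (h * b - b) := by
        rw [hH]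
        linear_combination hab
      rw [h1]
      exact dvd_mul_right _ _
    have h1 : f ∣ H ^ p ^ j - 1 := by
      rw [← AdjoinRoot.mk_eq_zero, map_sub, map_pow, hHf, hj, map_one, sub_self]
    have h2 : f' ∣ H ^ p ^ j - 1 := by
      have h5 := sub_dvd_pow_sub_pow H 1 (p ^ j)
      rw [one_pow] at h5
      exact hHf'.trans h5
    have h3 := aeval_pow_eq_one hup' hff ⟨a, b, hab⟩ h1 h2
    obtain ⟨w, hwI, hwj, hw⟩ := exists_iso Φ hpK hlin (hQI hu) hup h3
    have hwQ := hQ u hu _ w hwI ⟨j, hwj⟩ hw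
    refine ⟨H, hHf', ?_, ?_⟩
    · rw [map_mul, map_pow, dual_eq_one hpK hf hfi hff hfX Φ.θθ hlin hHf', one_pow, mul_one, hHf]
    · refine dvd_of_comm (g := g') hg' hφu ?_
      intro v
      rw [← hw]
      exact hgQ w hwQ v
  have hμσ : μ.map (σ : K →+* K) = μ := minpoly_map_eq (g := g') hg' hφu
  have hfσ : f.map (σ : K →+* K) = f := by
    obtain ⟨H, hH1, hH2, hH3⟩ := key X 1 (by
      rw [AdjoinRoot.mk_X, pow_one]
      exact root_pow ⟨f', hff⟩)
    refine map_eq hp2 hpK hf hfi hff hfX Φ.θθ hlin hσ hfμ hμσ hH1 rfl ?_ hH3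
    rw [← AdjoinRoot.mk_eq_zero, map_sub, hH2, sub_self]
  refine eq_one_of_fix hf hfi ⟨f', hff⟩ hfX hσ hfσ fun h j hj => ?_
  obtain ⟨H, hH1, hH2, hH3⟩ := key h j hj
  exact ⟨_, hH2, hfμ.trans hH3⟩

end Vale.Agent.P180.R2.H471.Is
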