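import Vale.Agent.P180.R2.H471.Is2
import Vale.Agent.P180.R2.H799.BT5

/-! Linear similitudes of `p`-power order modulo scalars act as isometries, `p` a linear prime. -/

set_option linter.all false

namespace Vale.Agent.P180.R2.H471.Is

open Module Vale.Agent.P180.R2.H854 Vale.Agent.P180.R2.H799 Vale.Agent.P180.R2.H799.BS
open Vale.Agent.P180.R2.H799.BN (sl_smul sl_ext finite_sl pow_apply_eigen)
open Vale.Agent.P180.R2.H954.Hc (exists_frob theta_fix odd_of_lin eq_one_of_norm ringChar_prime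
  ringChar_dvd_card)

variable {K E : Type} [Field K] [Finite K] [AddCommGroup E] [Module K E] [FiniteDimensional K E]

/-- the determinant of an isometry of `p`-power order -/
theorem det_iso_pow (Φ : HForm K E) {p : ℕ} (hp : p.Prime) (hpK : ¬ p ∣ Nat.card K)
    (hlin : ∀ j : ℕ, (∀ c : K, Φ.θ c = c ^ (ringChar K ^ j)) → ¬ p ∣ ringChar K ^ j + 1)
    {T : End K E} (hT : ∀ v w, Φ.B (T v) (T w) = Φ.B v w) {j : ℕ}
    (hTj : T ^ (p ^ j) = 1) : LinearMap.det T = 1 := by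
  have h1 : Φ.adj T * T = 1 := by
    refine LinearMap.ext fun y => Φ.eq_of_right fun x => ?_
    rw [End.mul_apply, ← Φ.adj_right]
    exact hT x y
  have h3 : LinearMap.det T ^ (p ^ j) = 1 := by
    have h4 := congrArg LinearMap.det hTj
    have h5 : LinearMap.det (T ^ (p ^ j)) = LinearMap.det T ^ (p ^ j) := map_pow LinearMap.det T _
    have h6 : LinearMap.det (1 : End K E) = 1 := map_one LinearMap.det
    rw [h5, h6] at h4
    exact h4
  have hδ : LinearMap.det T * Φ.θ (LinearMap.det T) = 1 := by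
    have h4 := congrArg LinearMap.det h1
    have h5 : LinearMap.det (Φ.adj T * T) = LinearMap.det (Φ.adj T) * LinearMap.det T :=
      map_mul LinearMap.det _ _
    have h6 : LinearMap.det (1 : End K E) = 1 := map_one LinearMap.det
    rw [h5, h6] at h4
    have h7 := congrArg Φ.θ h4
    rw [map_mul, det_adj, map_one] at h7
    exact h7
  exact eq_one_of_norm hp hpK Φ.θ Φ.θθ hlin h3 hδ

/-- **The normalisation** of a similitude of `p`-power order modulo scalars. -/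
theorem exists_norm (Φ : HForm K E) {p : ℕ} [Fact p.Prime] (hp2 : Odd p)
    (hE : 1 ≤ finrank K E) {T : End K E}
    (hTb : Function.Bijective T) {c : K}
    (hc : ∀ v w, Φ.B (T v) (T w) = c * Φ.B v w) {m : ℕ} {ν : K} (hν : T ^ (p ^ m) = ν • 1) :
    ∃ (κ : K) (j : ℕ), (∀ v w, Φ.B (κ • T v) (κ • T w) = Φ.B v w) ∧ (κ • T) ^ (p ^ j) = 1 := by
  have hp : p.Prime := Fact.out
  have _ : Nontrivial E := Module.finrank_pos_iff.mp hE
  obtain ⟨v₀, hv₀⟩ := exists_ne (0 : E)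
  obtain ⟨w₀, hvw⟩ := exists_pair Φ hv₀
  have hvw0 : Φ.B w₀ v₀ ≠ 0 := by rw [hvw]; exact one_ne_zero
  -- the multiplier
  have hc0 : c ≠ 0 := by
    rintro rfl
    obtain ⟨x, hx⟩ := hTb.2 w₀
    obtain ⟨y, hy⟩ := hTb.2 v₀
    apply hvw0
    rw [← hx, ← hy, hc, zero_mul]
  have hcθ : Φ.θ c = c := by
    have h1 := hc v₀ w₀
    rw [Φ.symm (T w₀) (T v₀), hc, Φ.symm w₀ v₀, hvw, mul_one, map_one, mul_one, mul_comm] at h1
    have hε0 : Φ.ε ≠ 0 := by
      intro h0
      have h2 := Φ.εε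
      rw [h0, zero_mul] at h2
      exact zero_ne_one h2
    exact mul_right_cancel₀ hε0 h1
  have hTn : ∀ (n : ℕ) (v w : E), Φ.B ((T ^ n) v) ((T ^ n) w) = c ^ n * Φ.B v w := by
    intro n
    induction n with
    | zero => intro v w; rw [pow_zero, pow_zero, one_mul]; rfl
    | succ n ih =>
      intro v w
      rw [pow_succ']
      change Φ.B (T ((T ^ n) v)) (T ((T ^ n) w)) = _
      rw [hc, ih, pow_succ']
      ring
  have hcn : c ^ (p ^ m) = ν * Φ.θ ν := by
    have h1 := hTn (p ^ m) w₀ v₀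
    rw [hν] at h1
    change Φ.B (ν • w₀) (ν • v₀) = _ at h1
    rw [Φ.smul_left, Φ.smul_right, hvw, mul_one, mul_one] at h1
    exact h1.symm
  have hν0 : ν ≠ 0 := by
    rintro rfl
    rw [zero_mul] at hcn
    exact pow_ne_zero _ hc0 hcn
  obtain ⟨k, hk⟩ := hp2.pow (n := m)
  obtain ⟨lam, hlam⟩ : ∃ lam, lam = ν * (c ^ k)⁻¹ := ⟨_, rfl⟩
  have hck : c ^ k ≠ 0 := pow_ne_zero _ hc0
  have hlam2 : lam * Φ.θ lam = c := by
    rw [hlam, map_mul, map_inv₀, map_pow, hcθ]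
    have h1 : ν * (c ^ k)⁻¹ * (Φ.θ ν * (c ^ k)⁻¹) = c ^ (p ^ m) * ((c ^ k)⁻¹ * (c ^ k)⁻¹) := by
      rw [hcn]
      ring
    rw [h1, hk, pow_succ, two_mul, pow_add]
    field_simp
  have hlam0 : lam ≠ 0 := by
    rw [hlam]
    exact mul_ne_zero hν0 (inv_ne_zero hck)
  obtain ⟨μ, hμ⟩ : ∃ μ, μ = (lam⁻¹) ^ (p ^ m) * ν := ⟨_, rfl⟩
  have hμ0 : μ ≠ 0 := by
    rw [hμ]
    exact mul_ne_zero (pow_ne_zero _ (inv_ne_zero hlam0)) hν0
  have hs₀n : (lam⁻¹ • T) ^ (p ^ m) = μ • (1 : End K E) := by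
    rw [smul_pow, hν, smul_smul, hμ]
  have hs₀ : ∀ v w, Φ.B ((lam⁻¹ • T) v) ((lam⁻¹ • T) w) = Φ.B v w := by
    intro v w
    rw [LinearMap.smul_apply, LinearMap.smul_apply, Φ.smul_left, Φ.smul_right, hc, map_inv₀]
    have h1 : Φ.θ lam ≠ 0 := fun h0 => hlam0 ((map_eq_zero Φ.θ).mp h0)
    rw [← hlam2]
    field_simp
  -- the exponent
  have _ := Fintype.ofFinite K
  have hq1 : 1 < Nat.card K := Finite.one_lt_card
  obtain ⟨s, N', hpN, hq⟩ : ∃ s N' : ℕ, ¬ p ∣ N' ∧ Nat.card K - 1 = p ^ s * N' :=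
    Nat.exists_eq_pow_mul_and_not_dvd (by omega) p hp.ne_one
  have hco : (p ^ (m + s + 1)).Coprime N' :=
    Nat.Coprime.pow_left _ ((Nat.Prime.coprime_iff_not_dvd hp).mpr hpN)
  obtain ⟨t, ht1, ht2⟩ := Nat.chineseRemainder hco 1 0
  have hNt : N' ∣ t := (Nat.modEq_zero_iff_dvd).mp ht2
  have hps : 1 < p ^ (m + s + 1) := Nat.one_lt_pow (by omega) hp.one_lt
  have ht0 : 1 ≤ t := by
    rcases Nat.eq_zero_or_pos t with h0 | h0
    · rw [h0] at ht1
      have h1 : 0 % p ^ (m + s + 1) = 1 % p ^ (m + s + 1) := ht1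
      rw [Nat.zero_mod, Nat.mod_eq_of_lt hps] at h1
      omega
    · exact h0
  obtain ⟨j, hj⟩ : ∃ j, t = p ^ m * j + 1 := by
    have h1 : p ^ (m + s + 1) ∣ t - 1 := (Nat.modEq_iff_dvd' ht0).mp ht1.symm
    have h2 : p ^ m ∣ t - 1 := (pow_dvd_pow p (by omega)).trans h1
    obtain ⟨j, hj⟩ := h2
    exact ⟨j, by omega⟩
  have hst : (lam⁻¹ • T) ^ t = (μ ^ j * lam⁻¹) • T := by
    rw [hj, pow_succ, pow_mul, hs₀n, smul_pow, one_pow, smul_mul_assoc, one_mul, smul_smul]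
  have hiso : ∀ (n : ℕ) (v w : E), Φ.B (((lam⁻¹ • T) ^ n) v) (((lam⁻¹ • T) ^ n) w) = Φ.B v w := by
    intro n
    induction n with
    | zero => intro v w; rw [pow_zero]; rfl
    | succ n ih =>
      intro v w
      rw [pow_succ']
      change Φ.B ((lam⁻¹ • T) (((lam⁻¹ • T) ^ n) v)) ((lam⁻¹ • T) (((lam⁻¹ • T) ^ n) w)) = _
      rw [hs₀, ih]
  refine ⟨μ ^ j * lam⁻¹, m + s, ?_, ?_⟩
  · have h1 := hiso t
    rw [hst] at h1
    exact h1
  · rw [← hst, ← pow_mul]
    obtain ⟨a, ha⟩ := hNt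
    have h1 : t * p ^ (m + s) = p ^ m * (p ^ s * N' * a) := by
      rw [ha, pow_add]
      ring
    have h2 : μ ^ (p ^ s * N') = 1 := by
      rw [← hq, Nat.card_eq_fintype_card]
      exact FiniteField.pow_card_sub_one_eq_one _ hμ0
    rw [h1, pow_mul, hs₀n, smul_pow, one_pow, pow_mul, h2, one_pow, one_smul]


omit [Finite K] [FiniteDimensional K E] in
/-- iterates -/
theorem semi_iter {σ : RingAut K} {g : E → E} (h : Semi σ g) (n : ℕ) :
    Semi (σ ^ n : RingAut K) g^[n] := by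
  induction n with
  | zero => exact Semi.refl
  | succ n ih =>
    rw [Function.iterate_succ, pow_succ]
    exact ih.comp h

omit [Finite K] [FiniteDimensional K E] in
/-- a semilinear bijection which stabilises all lines is linear -/
theorem semi_lines {σ : RingAut K} {g : E → E} (h : Semi σ g) (h2 : 2 ≤ finrank K E)
    (hl : ∀ v, ∃ c : K, g v = c • v) : σ = 1 := by
  haveI : Nontrivial E := by
    by_contra hcon
    rw [not_nontrivial_iff_subsingleton] at hcon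
    have h3 := Module.finrank_zero_of_subsingleton (R := K) (M := E)
    omega
  obtain ⟨x, hx⟩ := exists_ne (0 : E)
  obtain ⟨y, hy⟩ : ∃ y, y ∉ Submodule.span K {x} := by
    by_contra hcon
    push Not at hcon
    have h3 : Submodule.span K {x} = ⊤ := by
      rw [eq_top_iff]
      intro y _
      exact hcon y
    have h4 : finrank K (Submodule.span K {x}) = 1 := finrank_span_singleton hx
    rw [h3, finrank_top] at h4
    omega
  have hind : ∀ a b : K, a • x = b • y → b = 0 ∧ a = 0 := by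
    intro a b hab
    have hb : b = 0 := by
      by_contra hb
      apply hy
      rw [Submodule.mem_span_singleton]
      exact ⟨b⁻¹ * a, by rw [mul_smul, hab, smul_smul, inv_mul_cancel₀ hb, one_smul]⟩
    rw [hb, zero_smul] at hab
    exact ⟨hb, (smul_eq_zero.mp hab).resolve_right hx⟩
  obtain ⟨a, ha⟩ := hl x
  obtain ⟨b, hb⟩ := hl y
  have key : ∀ t : K, σ t * a = t * b := by
    intro t
    obtain ⟨c, hc⟩ := hl (t • x + y)
    rw [h.add, h.smul, ha, hb, smul_add, smul_smul, smul_smul] at hc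
    have h3 : (σ t * a - c * t) • x = (c - b) • y := by
      rw [sub_smul, sub_smul, sub_eq_sub_iff_add_eq_add, hc, add_comm]
    obtain ⟨h4, h5⟩ := hind _ _ h3
    have h6 : c = b := sub_eq_zero.mp h4
    rw [sub_eq_zero, h6, mul_comm b] at h5
    exact h5
  have hab := key 1
  rw [map_one, one_mul, one_mul] at hab
  have ha0 : a ≠ 0 := by
    rintro rfl
    rw [zero_smul] at ha
    apply hx
    apply h.bij.1
    rw [ha, h.zero]
  apply RingEquiv.ext
  intro t
  have h3 := key t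
  rw [← hab] at h3
  exact mul_right_cancel₀ ha0 h3

variable {G : Type*} [Group G] {L : Subgroup G} {X : Subgroup (SpecialLinearGroup K E)}
  {Φ : HForm K E} {π : X →* L}

/-- a linear similitude acts as an element of the group of isometries -/
theorem linear {p : ℕ} [Fact p.Prime] (hpK : ¬ p ∣ Nat.card K)
    (hlin : ∀ j : ℕ, (∀ c : K, Φ.θ c = c ^ (ringChar K ^ j)) → ¬ p ∣ ringChar K ^ j + 1)
    (hE : 1 ≤ finrank K E)
    (hX2 : X.relIndex Φ.Iso ∣ 2) (hV : ∀ F, Φ.SD F → VF F ⊓ Φ.Iso ≤ X) (hL : Lines Φ)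
    (hk : π.ker.map X.subtype ≤ Subgroup.center (SpecialLinearGroup K E))
    (hπ : Function.Surjective π) {r : G} {g : E → E} (h : ActX Φ π r (RingEquiv.refl K) g)
    {m : ℕ} (hr : r ^ (p ^ m) = 1) :
    ∃ s ∈ L, ∃ c ∈ Subgroup.centralizer (L : Set G), r = s * c := by
  have hp : p.Prime := Fact.out
  have hp2 : Odd p := odd_of_lin hp hpK Φ.θ hlin
  have hper := h.per hk hV hL hr
  let T : End K E := { toFun := g, map_add' := h.1.add, map_smul' := h.1.smul }
  have hTn : ∀ (n : ℕ) (v : E), (T ^ n) v = g^[n] v := by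
    intro n v
    rw [Module.End.pow_apply]
    rfl
  obtain ⟨ν, hν⟩ := LinearMap.exists_eq_smul_id_of_forall_notLinearIndependent (f := T ^ (p ^ m)) (by
    intro v hv
    rw [LinearIndependent.pair_iff] at hv
    obtain ⟨c, hc⟩ := hper v
    have h3 := (hv c (-1) (by rw [hTn, hc, neg_one_smul, add_neg_cancel])).2
    exact one_ne_zero (neg_eq_zero.mp h3))
  obtain ⟨c, hc⟩ := h.2.1
  obtain ⟨κ, j, hκ, hκj⟩ := exists_norm Φ hp2 hE (T := T) h.1.bij (c := c) hc hν
  have hdet : LinearMap.det (κ • T) = 1 :=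
    det_iso_pow Φ hp hpK hlin (T := κ • T) hκ hκj
  let s : SpecialLinearGroup K E := mkSL _ hdet
  have hs : ∀ v, s v = κ • g v := fun v => rfl
  have hsT : toEnd s = κ • T := rfl
  have hsI : s ∈ Φ.Iso := hκ
  have hsj : s ^ (p ^ j) = 1 := by
    apply toEnd_injective
    rw [BN.toEnd_pow, hsT, hκj, toEnd_one]
  have hsX : s ∈ X := mem_of_relIndex_dvd_two hX2 hsI (hp2.pow (n := j)) hsj
  have key : ∀ x : X, r * (π x : G) * r⁻¹ = π ⟨s, hsX⟩ * π x * (π ⟨s, hsX⟩ : G)⁻¹ := by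
    intro x
    obtain ⟨y, hy, hxy⟩ := h.2.2 x
    have h3 : s * x = y * s := by
      refine SpecialLinearGroup.ext _ _ fun v => ?_
      change s (x.1 v) = y.1 (s v)
      rw [hs, hs, hy v, sl_smul]
    have h4 : y = ⟨s, hsX⟩ * x * (⟨s, hsX⟩ : X)⁻¹ := by
      apply Subtype.ext
      change y.1 = s * x.1 * s⁻¹
      rw [h3, mul_inv_cancel_right]
    rw [hxy, h4, map_mul, map_mul, map_inv]
    rfl
  obtain ⟨s', hs'⟩ : ∃ s' : X, s' = ⟨s, hsX⟩ := ⟨_, rfl⟩
  rw [← hs'] at key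
  refine ⟨π s', (π s').2, (π s' : G)⁻¹ * r, ?_, by group⟩
  rw [Subgroup.mem_centralizer_iff]
  intro x hx
  obtain ⟨x₀, hx₀⟩ := hπ ⟨x, hx⟩
  have h3 := key x₀
  rw [hx₀] at h3
  have h4 : x = (π s' : G)⁻¹ * (r * x * r⁻¹) * π s' := by
    change r * x * r⁻¹ = π s' * x * (π s' : G)⁻¹ at h3
    rw [h3]
    group
  calc x * ((π s' : G)⁻¹ * r) = (π s' : G)⁻¹ * (r * x * r⁻¹) * π s' * ((π s' : G)⁻¹ * r) := by
        rw [← h4]
    _ = (π s' : G)⁻¹ * r * x := by group

end Vale.Agent.P180.R2.H471.Is
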