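import Vale.Agent.P180.R2.H259.Loc.QdR
import Vale.Agent.P180.R2.H854.TP

set_option linter.all false

/-!
P180: orthogonal groups in characteristic two: Levi pairs of diagonalisable `p`-groups.
-/

namespace Vale.Agent.P180.R2.H471.Oq

open Module Vale.Agent.P180.R2.H799 Vale.Agent.P180.R2.H799.BN Vale.Agent.P180.R2.H854
  Vale.Agent.P180.R2.H259.Loc

universe v

/-- the selfdual flags whose isotropic members are totally singular -/
def CQ {K E : Type*} [Field K] [AddCommGroup E] [Module K E] (Φ : HForm K E) (Q : E → K)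
    (F : Flag K E) : Prop :=
  ∃ N, 0 < N ∧ F N = ⊤ ∧ (∀ i ≤ N, Φ.perp (F i) = F (N - i)) ∧
    ∀ i, 2 * i ≤ N → ∀ x ∈ F i, Q x = 0

section

variable {K : Type*} {E : Type v} [Field K] [AddCommGroup E] [Module K E] {Φ : HForm K E}
  {Q : E → K} (hQ : QF Φ Q)

include hQ in
/-- the span of pairwise orthogonal singular vectors is totally singular -/
theorem sing_span {ι : Type*} {b : ι → E} {S : Set ι} (h0 : ∀ l ∈ S, Q (b l) = 0)
    (hB : ∀ l ∈ S, ∀ m ∈ S, Φ.B (b l) (b m) = 0) : ∀ x ∈ Submodule.span K (b '' S), Q x = 0 := by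
  have hle : Submodule.span K (b '' S) ≤ Φ.perp (Submodule.span K (b '' S)) := by
    rw [Submodule.span_le]
    rintro _ ⟨l, hl, rfl⟩ y hy
    have hle : Submodule.span K (b '' S) ≤ Φ.perp (Submodule.span K {b l}) := by
      rw [Submodule.span_le]
      rintro _ ⟨m, hm, rfl⟩
      rw [SetLike.mem_coe, Φ.mem_perp']
      intro z hz
      obtain ⟨c, rfl⟩ := Submodule.mem_span_singleton.mp hz
      rw [Φ.smul_left, hB l hl m hm, mul_zero]
    exact (Φ.mem_perp'.mp (hle hy)) (b l) (Submodule.mem_span_singleton_self _)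
  intro x hx
  induction hx using Submodule.span_induction with
  | mem x hx =>
    obtain ⟨l, hl, rfl⟩ := hx
    exact h0 l hl
  | zero => exact hQ.zero
  | add x y hx hy hx' hy' => rw [hQ.add, hx', hy', hle hx y hy]; ring
  | smul c x _ hx => rw [hQ.smul, hx, mul_zero]

include hQ in
/-- an isometry of the polar form which preserves `Q` on a basis preserves `Q` -/
theorem mem_IsoQ_of_basis {ι : Type*} (b : Basis ι K E) {l : SpecialLinearGroup K E}
    (hl : l ∈ Φ.Iso) (h : ∀ m, Q (l (b m)) = Q (b m)) : l ∈ IsoQ Q := by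
  intro x
  have hx : x ∈ Submodule.span K (Set.range b) := by rw [b.span_eq]; trivial
  have ea : ∀ x y : E, l (x + y) = l x + l y := fun x y => map_add l.1 x y
  have es : ∀ (a : K) (x : E), l (a • x) = a • l x := fun a x => map_smul l.1 a x
  induction hx using Submodule.span_induction with
  | mem x hx =>
    obtain ⟨m, rfl⟩ := hx
    exact h m
  | zero =>
    have e : l (0 : E) = 0 := map_zero l.1
    rw [e]
  | add x y _ _ hx hy => rw [ea, hQ.add, hQ.add, hx, hy, hl]
  | smul c x _ hx => rw [es, hQ.smul, hQ.smul, hx]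

variable [FiniteDimensional K E] [Finite K]

include hQ in
/-- The block diagonal part of an isometry with respect to a selfdual basis. -/
theorem dg_mem_IsoQ {ι : Type*} {b : Basis ι K E} {α : ι → ℕ} {F : Flag K E}
    (hb : Adapted b α F) {N : ℕ} (hN : F N = ⊤) (hF : ∀ i ≤ N, Φ.perp (F i) = F (N - i))
    (hS : ∀ i, 2 * i ≤ N → ∀ x ∈ F i, Q x = 0)
    (hB : ∀ l m, α l + α m + 1 ≠ N → Φ.B (b l) (b m) = 0)
    (hb0 : ∀ l, 2 * α l + 1 ≠ N → Q (b l) = 0)
    {l g : SpecialLinearGroup K E} (hg : g ∈ IsoQ Q) (hgF : g ∈ PF F)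
    (e : toEnd l = dg b α (toEnd g)) : l ∈ IsoQ Q := by
  classical
  have hα : ∀ l, α l < N := fun l => hb.self_mem_iff.mp (by rw [hN]; trivial)
  refine mem_IsoQ_of_basis hQ b (Φ.dg_mem_Iso hb hN hF hB (hQ.le hg) hgF e) fun m => ?_
  have hlow : g (b m) - l (b m) ∈ F (α m) := by
    have h1 := sub_dg_mem_Jr hb (mem_PF_iff.mp hgF) (α m) (b m)
      (hb.self_mem_iff.mpr (Nat.lt_succ_self _))
    rw [← e] at h1
    exact h1
  have hsp : l (b m) ∈ Submodule.span K (b '' {j | α j = α m}) := by
    rw [Basis.mem_span_image]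
    intro j hj
    have h1 : b.repr (l (b m)) j ≠ 0 := Finsupp.mem_support_iff.mp hj
    have h2 : b.repr (l (b m)) j = b.repr (dg b α (toEnd g) (b m)) j := by
      rw [← e]
      rfl
    rw [h2, repr_dg] at h1
    split_ifs at h1 with h3
    · exact h3
    · exact absurd rfl h1
  by_cases hm : 2 * α m + 1 = N
  · have h1 : l (b m) ∈ F (α m + 1) := by
      rw [hb (α m + 1)]
      refine Submodule.span_mono (Set.image_mono fun j hj => ?_) hsp
      exact Nat.lt_succ_of_le (le_of_eq hj)
    have h2 : Φ.B (l (b m)) (g (b m) - l (b m)) = 0 := by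
      have h3 : l (b m) ∈ Φ.perp (F (α m)) := by
        rw [hF _ (hα m).le]
        have : N - α m = α m + 1 := by omega
        rw [this]
        exact h1
      exact h3 _ hlow
    have h4 : Q (g (b m) - l (b m)) = 0 := hS _ (by omega) _ hlow
    have h5 : g (b m) = l (b m) + (g (b m) - l (b m)) := by abel
    have h6 := hg (b m)
    rw [h5, hQ.add, h2, h4, add_zero, add_zero] at h6
    exact h6
  · rw [hb0 m hm]
    refine sing_span hQ (b := b) (S := {j | α j = α m}) (fun j hj => ?_) (fun j hj k hk => ?_) _ hsp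
    · have hj' : α j = α m := hj
      exact hb0 j (by rw [hj']; exact hm)
    · have hj' : α j = α m := hj
      have hk' : α k = α m := hk
      exact hB j k (by rw [hj', hk']; omega)

include hQ in
/-- the isotropic members of the flag of a singular basis are singular -/
theorem sing_of_basis {ι : Type*} {b : Basis ι K E} {α : ι → ℕ} {F : Flag K E}
    (hb : Adapted b α F) {N : ℕ}
    (hB : ∀ l m, α l + α m + 1 ≠ N → Φ.B (b l) (b m) = 0)
    (hb0 : ∀ l, 2 * α l + 1 ≠ N → Q (b l) = 0) :
    ∀ i, 2 * i ≤ N → ∀ x ∈ F i, Q x = 0 := by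
  intro i hi x hx
  rw [hb i] at hx
  refine sing_span hQ (b := b) (S := {j | α j < i}) (fun j hj => ?_) (fun j hj k hk => ?_) _ hx
  · have hj' : α j < i := hj
    exact hb0 j (by omega)
  · have hj' : α j < i := hj
    have hk' : α k < i := hk
    exact hB j k (by omega)

include hQ in
/-- The diagonal isometries of order `p` preserve `Q`. -/
theorem Zd_le_IsoQ {ι : Type*} [Fintype ι] {p : ℕ} [Fact p.Prime]
    {b : Basis ι K E} {α : ι → ℕ} {F : Flag K E} (hb : Adapted b α F) {N : ℕ} (hN : F N = ⊤)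
    (hB : ∀ l m, α l + α m + 1 ≠ N → Φ.B (b l) (b m) = 0)
    (hb0 : ∀ l, 2 * α l + 1 ≠ N → Q (b l) = 0) : Zd p b α ⊓ Φ.Iso ≤ IsoQ Q := by
  classical
  rintro z ⟨⟨c, hc, hz⟩, hzI⟩
  refine mem_IsoQ_of_basis hQ b hzI fun m => ?_
  have hzm : z (b m) = c (α m) • b m := hz m
  rw [hzm, hQ.smul]
  by_cases hm : 2 * α m + 1 = N
  · -- a vector of the middle level not orthogonal to `b m`
    obtain ⟨l, hl⟩ : ∃ l, Φ.B (b m) (b l) ≠ 0 := by
      by_contra hcon
      push Not at hcon
      apply b.ne_zero m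
      apply Φ.nondeg
      intro y
      have hy : y ∈ Submodule.span K (Set.range b) := by rw [b.span_eq]; trivial
      induction hy using Submodule.span_induction with
      | mem x hx =>
        obtain ⟨l, rfl⟩ := hx
        exact hcon l
      | zero => exact Φ.zero_right _
      | add x y _ _ hx hy => rw [Φ.add_right, hx, hy, add_zero]
      | smul a x _ hx => rw [Φ.smul_right, hx, mul_zero]
    have hlm : α m + α l + 1 = N := by
      by_contra h
      exact hl (hB m l h)
    have hal : α l = α m := by omega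
    have h1 := hzI (b m) (b l)
    have hzl : z (b l) = c (α l) • b l := hz l
    rw [hzm, hzl, hal, Φ.smul_left, hQ.smul_r, ← mul_assoc] at h1
    have h2 : c (α m) * c (α m) = 1 := mul_right_cancel₀ hl (by rw [h1, one_mul])
    rw [sq, h2, one_mul]
  · rw [hb0 m hm, mul_zero]

end

end Vale.Agent.P180.R2.H471.Oq
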