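import Vale.Agent.P180.R2.H471.Oq1
import Vale.Agent.P180.R2.H471.Hd3

set_option linter.all false

/-!
P180: quadratic forms in characteristic two: homogeneous bases with Gram matrix and values in a
fixed finite set.
-/

namespace Vale.Agent.P180.R2.H471.Oq

open Module Vale.Agent.P180.R2.H854 Vale.Agent.P180.R2.H259.Loc Vale.Agent.P180.R2.H471.Hd

variable {K E Λ : Type*} [Field K] [AddCommGroup E] [Module K E] {Φ : HForm K E}
  {q : E → K} (hq : QF Φ q)

/-- representatives modulo `t + t ^ 2` -/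
theorem exists_a0 [Finite K] (h2 : (2 : K) = 0) :
    ∃ a0 : K, ∀ a : K, ∃ t : K, a + t + t ^ 2 = 0 ∨ a + t + t ^ 2 = a0 := by
  classical
  have hdd : ∀ a : K, a + a = 0 := fun a => by
    have : a + a = 2 * a := by ring
    rw [this, h2, zero_mul]
  let f : K →+ K := AddMonoidHom.mk' (fun t => t + t ^ 2) fun s t => by
    have : (s + t) ^ 2 = s ^ 2 + t ^ 2 + 2 * (s * t) := by ring
    rw [this, h2, zero_mul, add_zero]
    ring
  have hf : ∀ t, f t = t + t ^ 2 := fun t => rfl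
  have hker : (f.ker : Set K) = {0, 1} := by
    ext t
    rw [SetLike.mem_coe, AddMonoidHom.mem_ker, hf]
    constructor
    · intro h
      have h1 : t * (1 + t) = 0 := by rw [← h]; ring
      rcases mul_eq_zero.mp h1 with h1 | h1
      · left; exact h1
      · right
        have h3 : t = 1 + (1 + t) + (-2) := by ring
        have h4 : (-2 : K) = 0 := by rw [h2, neg_zero]
        rw [h4, h1] at h3
        simpa using h3
    · rintro (h | h)
      · rw [h]; ring
      · have h' : t = 1 := h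
        rw [h', one_pow]
        exact hdd 1
  have hc : Nat.card f.ker = 2 := by
    have h1 : Nat.card f.ker = Set.ncard (f.ker : Set K) := rfl
    rw [h1, hker, Set.ncard_pair zero_ne_one]
  have hi : f.range.index = 2 := by
    have h1 := f.ker.card_mul_index
    have h3 := f.range.card_mul_index
    rw [AddSubgroup.index_ker, hc] at h1
    have h4 : 0 < Nat.card f.range := Nat.card_pos
    have h5 : Nat.card f.range * f.range.index = Nat.card f.range * 2 := by
      rw [h3, ← h1, mul_comm]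
    exact Nat.eq_of_mul_eq_mul_left h4 h5
  obtain ⟨a0, ha0⟩ : ∃ a0, a0 ∉ f.range := by
    by_contra hcon
    push Not at hcon
    have h1 : f.range = ⊤ := by
      rw [eq_top_iff]
      exact fun x _ => hcon x
    rw [h1, AddSubgroup.index_top] at hi
    omega
  refine ⟨a0, fun a => ?_⟩
  by_cases ha : a ∈ f.range
  · obtain ⟨t, ht⟩ := ha
    refine ⟨t, Or.inl ?_⟩
    rw [← ht, hf]
    have : t + t ^ 2 + t + t ^ 2 = (t + t ^ 2) + (t + t ^ 2) := by ring
    rw [this, hdd]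
  · have h1 : a + a0 ∈ f.range := by
      rw [AddSubgroup.add_mem_iff_of_index_two hi]
      tauto
    obtain ⟨t, ht⟩ := h1
    refine ⟨t, Or.inr ?_⟩
    rw [hf] at ht
    rw [add_assoc, ht, ← add_assoc, hdd, zero_add]

include hq in
/-- The induction. -/
theorem exists_gramQ (𝒢 : Grad Φ Λ) (hK : Finite K) (hE : FiniteDimensional K E) {a0 : K}
    (ha0 : ∀ a : K, ∃ t : K, a + t + t ^ 2 = 0 ∨ a + t + t ^ 2 = a0)
    (hsing : ∀ l, 𝒢.s l ≠ l → ∀ x, 𝒢.π l x = x → q x = 0) (hss : ∀ l, 𝒢.s (𝒢.s l) = l) :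
    ∀ (n : ℕ) (U : Submodule K E), finrank K U = n → (∀ l, ∀ x ∈ U, 𝒢.π l x ∈ U) →
      (∀ x ∈ U, (∀ y ∈ U, Φ.B x y = 0) → x = 0) →
      ∃ (k : ℕ) (v : Fin k → E) (lab : Fin k → Λ), (∀ i, 𝒢.π (lab i) (v i) = v i) ∧
        LinearIndependent K v ∧ Submodule.span K (Set.range v) = U ∧
        (∀ i j, Φ.B (v i) (v j) ∈ ({0, 1} : Set K)) ∧
        ∀ i, q (v i) ∈ ({0, 1, a0} : Set K) := by
  have h2 : (2 : K) = 0 := hq.two
  have hsq : ∀ a : K, a ≠ 0 → ∃ c : K, c ≠ 0 ∧ c ^ 2 * a = 1 := by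
    intro a ha
    haveI : CharP K 2 := CharTwo.of_one_ne_zero_of_two_eq_zero one_ne_zero h2
    obtain ⟨c, hc⟩ := (FiniteField.isSquare_of_char_two (by
      exact (CharP.eq K (ringChar.charP K) inferInstance)) a⁻¹)
    refine ⟨c, ?_, ?_⟩
    · rintro rfl
      rw [mul_zero] at hc
      exact inv_ne_zero ha hc
    · rw [sq, ← hc, inv_mul_cancel₀ ha]
  intro n
  induction n using Nat.strong_induction_on with
  | _ n ih =>
  intro U hUn hUπ hUnd
  by_cases hU : U = ⊥
  · refine ⟨0, Fin.elim0, Fin.elim0, fun i => i.elim0, ?_, ?_, fun i => i.elim0, fun i => i.elim0⟩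
    · exact linearIndependent_empty_type
    · rw [hU, Set.range_eq_empty, Submodule.span_empty]
  -- a hyperbolic pair
  obtain ⟨z, hzU, hz0⟩ := Submodule.exists_mem_ne_zero_of_ne_bot hU
  obtain ⟨l, hl⟩ : ∃ l, 𝒢.π l z ≠ 0 := by
    by_contra hcon
    push Not at hcon
    exact hz0 (𝒢.sep z hcon)
  obtain ⟨x, hxU, hxl, hx0, hxq⟩ : ∃ x ∈ U, 𝒢.π l x = x ∧ x ≠ 0 ∧ q x ∈ ({0, 1} : Set K) := by
    by_cases h0 : q (𝒢.π l z) = 0
    · exact ⟨_, hUπ l z hzU, 𝒢.idem l z, hl, Or.inl h0⟩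
    · obtain ⟨c, hc, hcc⟩ := hsq _ h0
      refine ⟨c • 𝒢.π l z, U.smul_mem _ (hUπ l z hzU), ?_, smul_ne_zero hc hl, Or.inr ?_⟩
      · rw [map_smul, 𝒢.idem]
      · change q _ = 1
        rw [hq.smul, hcc]
  obtain ⟨w, hwU, hw⟩ : ∃ w ∈ U, Φ.B x w ≠ 0 := by
    by_contra hcon
    push Not at hcon
    exact hx0 (hUnd x hxU hcon)
  have hw' : Φ.B x (𝒢.π (𝒢.s l) w) = Φ.B x w := by rw [← 𝒢.adj, hxl]
  obtain ⟨y0, hy0U, hy0l, hxy0⟩ : ∃ y0 ∈ U, 𝒢.π (𝒢.s l) y0 = y0 ∧ Φ.B x y0 = 1 := by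
    refine ⟨(Φ.B x w)⁻¹ • 𝒢.π (𝒢.s l) w, U.smul_mem _ (hUπ _ _ hwU), ?_, ?_⟩
    · rw [map_smul, 𝒢.idem]
    · rw [hq.smul_r, hw', inv_mul_cancel₀ hw]
  have hxx : Φ.B x x = 0 := hq.alt x
  obtain ⟨y, hyU, hyl, hxy, hyq⟩ : ∃ y ∈ U, 𝒢.π (𝒢.s l) y = y ∧ Φ.B x y = 1 ∧
      q y ∈ ({0, 1, a0} : Set K) := by
    by_cases hsl : 𝒢.s l = l
    · obtain ⟨t, ht⟩ : ∃ t : K, q y0 + t + t ^ 2 * q x ∈ ({0, 1, a0} : Set K) := by
        rcases hxq with h0 | h0
        · refine ⟨q y0, ?_⟩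
          have h0' : q x = 0 := h0
          left
          rw [h0', mul_zero, add_zero]
          have : q y0 + q y0 = 2 * q y0 := by ring
          rw [this, h2, zero_mul]
        · obtain ⟨t, ht⟩ := ha0 (q y0)
          have h0' : q x = 1 := h0
          refine ⟨t, ?_⟩
          rw [h0', mul_one]
          rcases ht with ht | ht
          · left; exact ht
          · right; right; exact ht
      refine ⟨y0 + t • x, U.add_mem hy0U (U.smul_mem _ hxU), ?_, ?_, ?_⟩
      · rw [map_add, map_smul, hy0l, hsl, hxl]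
      · rw [Φ.add_right, hq.smul_r, hxx, mul_zero, add_zero, hxy0]
      · have e : q (y0 + t • x) = q y0 + t + t ^ 2 * q x := by
          rw [hq.add, hq.smul, hq.smul_r, hq.sym, hxy0]
          ring
        rw [e]
        exact ht
    · refine ⟨y0, hy0U, hy0l, hxy0, Or.inl ?_⟩
      refine hsing (𝒢.s l) ?_ _ hy0l
      rw [hss]
      exact fun h => hsl h.symm
  have hyx : Φ.B y x = 1 := by rw [hq.sym, hxy]
  have hyy : Φ.B y y = 0 := hq.alt y
  set U' : Submodule K E := U ⊓ Φ.perp (Submodule.span K {x, y}) with hU'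
  have hmem : ∀ u, u ∈ U' ↔ u ∈ U ∧ Φ.B u x = 0 ∧ Φ.B u y = 0 := by
    intro u
    rw [hU', Submodule.mem_inf, Φ.mem_perp]
    constructor
    · rintro ⟨h1, h2⟩
      exact ⟨h1, h2 x (Submodule.subset_span (by simp)), h2 y (Submodule.subset_span (by simp))⟩
    · rintro ⟨h1, h2, h2'⟩
      refine ⟨h1, fun z hz => ?_⟩
      obtain ⟨r, s, rfl⟩ := Submodule.mem_span_pair.mp hz
      rw [Φ.add_right, Φ.smul_right, Φ.smul_right, h2, h2', mul_zero, mul_zero, add_zero]
  have hlt : finrank K U' < n := by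
    rw [← hUn]
    apply Submodule.finrank_lt_finrank_of_lt
    refine lt_of_le_of_ne inf_le_left fun h => ?_
    have h1 : x ∈ U' := by rw [h]; exact hxU
    have h2 := ((hmem x).mp h1).2.2
    rw [hxy] at h2
    exact one_ne_zero h2
  have hdec : ∀ u ∈ U, u - (Φ.B u y) • x - (Φ.B u x) • y ∈ U' := by
    intro u hu
    rw [hmem]
    refine ⟨U.sub_mem (U.sub_mem hu (U.smul_mem _ hxU)) (U.smul_mem _ hyU), ?_, ?_⟩
    · rw [Φ.sub_left, Φ.sub_left, Φ.smul_left, Φ.smul_left, hxx, hyx, mul_zero, sub_zero,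
        mul_one, sub_self]
    · rw [Φ.sub_left, Φ.sub_left, Φ.smul_left, Φ.smul_left, hxy, hyy, mul_zero, sub_zero,
        mul_one, sub_self]
  obtain ⟨k, v, lab, h1, h2', h3, h4, h5'⟩ := ih _ hlt U' rfl
    (by
      intro m u hu
      rw [hmem] at hu ⊢
      refine ⟨hUπ m u hu.1, ?_, ?_⟩
      · rw [𝒢.adj]
        rcases 𝒢.hom hxl (m := 𝒢.s m) with h | h
        · rw [h, hu.2.1]
        · rw [h, Φ.zero_right]
      · rw [𝒢.adj]
        rcases 𝒢.hom hyl (m := 𝒢.s m) with h | h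
        · rw [h, hu.2.2]
        · rw [h, Φ.zero_right])
    (by
      intro u hu hu0
      apply hUnd u ((hmem u).mp hu).1
      intro w hw
      have h5 := hu0 _ (hdec w hw)
      rw [Φ.sub_right, Φ.sub_right, Φ.smul_right, Φ.smul_right, ((hmem u).mp hu).2.1,
        ((hmem u).mp hu).2.2, mul_zero, mul_zero, sub_zero, sub_zero] at h5
      exact h5)
  have hvU : ∀ i, v i ∈ U' := fun i => by rw [← h3]; exact Submodule.subset_span ⟨i, rfl⟩
  have hvx : ∀ i, Φ.B (v i) x = 0 := fun i => ((hmem _).mp (hvU i)).2.1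
  have hvy : ∀ i, Φ.B (v i) y = 0 := fun i => ((hmem _).mp (hvU i)).2.2
  have hxv : ∀ i, Φ.B x (v i) = 0 := fun i => Φ.eq_zero_comm (hvx i)
  have hyv : ∀ i, Φ.B y (v i) = 0 := fun i => Φ.eq_zero_comm (hvy i)
  have hyn : y ∉ U' := by
    intro h
    have := ((hmem y).mp h).2.1
    rw [hyx] at this
    exact one_ne_zero this
  have hsp : Submodule.span K (Set.range (Fin.cons y v : Fin (k + 1) → E)) =
      Submodule.span K {y} ⊔ U' := by
    rw [Fin.range_cons, Submodule.span_insert, h3]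
  refine ⟨k + 1 + 1, Fin.cons x (Fin.cons y v), Fin.cons l (Fin.cons (𝒢.s l) lab),
    ?_, ?_, ?_, ?_, ?_⟩
  · intro i
    refine Fin.cases ?_ (fun i => ?_) i
    · exact hxl
    · refine Fin.cases ?_ (fun i => ?_) i
      · exact hyl
      · exact h1 i
  · rw [linearIndependent_finCons, linearIndependent_finCons]
    refine ⟨⟨h2', by rwa [h3]⟩, fun h => ?_⟩
    rw [hsp, Submodule.mem_sup] at h
    obtain ⟨a, ha, b, hb, hab⟩ := h
    obtain ⟨r, rfl⟩ := Submodule.mem_span_singleton.mp ha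
    have h5 : Φ.B x y = 0 := by
      rw [← hab, Φ.add_left, Φ.smul_left, hyy, ((hmem b).mp hb).2.2, mul_zero, add_zero]
    rw [hxy] at h5
    exact one_ne_zero h5
  · rw [Fin.range_cons, Submodule.span_insert, hsp]
    apply le_antisymm
    · refine sup_le ?_ (sup_le ?_ inf_le_left)
      · rw [Submodule.span_singleton_le_iff_mem]
        exact hxU
      · rw [Submodule.span_singleton_le_iff_mem]
        exact hyU
    · intro u hu
      rw [Submodule.mem_sup]
      refine ⟨_, Submodule.smul_mem _ (Φ.B u y) (Submodule.mem_span_singleton_self x),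
        (Φ.B u x) • y + (u - (Φ.B u y) • x - (Φ.B u x) • y), ?_, by abel⟩
      exact Submodule.add_mem_sup (Submodule.smul_mem _ _
        (Submodule.mem_span_singleton_self y)) (hdec u hu)
  · intro i j
    refine Fin.cases ?_ (fun i => ?_) i <;> refine Fin.cases ?_ (fun j => ?_) j
    · rw [Fin.cons_zero, hxx]; simp
    · rw [Fin.cons_zero, Fin.cons_succ]
      refine Fin.cases ?_ (fun j => ?_) j
      · rw [Fin.cons_zero, hxy]; simp
      · rw [Fin.cons_succ, hxv]; simp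
    · rw [Fin.cons_zero, Fin.cons_succ]
      refine Fin.cases ?_ (fun i => ?_) i
      · rw [Fin.cons_zero, hyx]; simp
      · rw [Fin.cons_succ, hvx]; simp
    · rw [Fin.cons_succ, Fin.cons_succ]
      refine Fin.cases ?_ (fun i => ?_) i <;> refine Fin.cases ?_ (fun j => ?_) j
      · rw [Fin.cons_zero, hyy]; simp
      · rw [Fin.cons_zero, Fin.cons_succ, hyv]; simp
      · rw [Fin.cons_zero, Fin.cons_succ, hvy]; simp
      · exact h4 i j
  · intro i
    refine Fin.cases ?_ (fun i => ?_) i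
    · rcases hxq with h | h
      · left; exact h
      · right; left; exact h
    · refine Fin.cases ?_ (fun i => ?_) i
      · exact hyq
      · exact h5' i

end Vale.Agent.P180.R2.H471.Oq
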