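import Vale.Agent.P180.R2.H854.TSys
import Vale.Agent.P180.R2.H954.Hf7

set_option linter.all false

/-!
P180: the rank function on the parabolic system of a family of flags.
-/

namespace Vale.Agent.P180.R2.H471.Oq

open Module Vale.Agent.P180.R2.H799 Vale.Agent.P180.R2.H854 Vale.Agent.P180.R2.H954.Hc

variable {K E : Type} [Field K] [AddCommGroup E] [Module K E] [FiniteDimensional K E]

section rank

variable (C : Flag K E → Prop) (X : Subgroup (SpecialLinearGroup K E))

/-- the possible numbers of missing members -/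
def rkSetC (Y : Subgroup X) : Set ℕ :=
  {k | ∃ F : Flag K E, C F ∧ (VF F).subgroupOf X = Y ∧ k = finrank K E + 1 - F.mem.ncard}

/-- The rank of a member of the parabolic system of `X`. -/
noncomputable def rkC (Y : Subgroup X) : ℕ := sInf (rkSetC C X Y)

variable {C X}

theorem rkC_le (Y : Subgroup X) : rkC C X Y ≤ finrank K E + 1 := by
  rcases (rkSetC C X Y).eq_empty_or_nonempty with h | ⟨k, hk⟩
  · unfold rkC
    rw [h, Nat.sInf_empty]
    exact Nat.zero_le _
  · have h1 : rkC C X Y ≤ k := Nat.sInf_le hk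
    obtain ⟨F, -, -, hk'⟩ := hk
    omega

/-- The rank is strictly decreasing. -/
theorem rkC_lt [Finite K] (hgeo : FlagGeo X C)
    {Z Y : Subgroup X} (hZ : ∃ F : Flag K E, C F ∧ (VF F).subgroupOf X = Z)
    (hY : ∃ F : Flag K E, C F ∧ (VF F).subgroupOf X = Y) (hlt : Z < Y) :
    rkC C X Y < rkC C X Z := by
  classical
  have hdec : ∀ (F H : Flag K E) (M : ℕ) (m0 : 0 < M), H M = ⊤ → C F → C H →
      VF (starN F H M m0) ⊓ X ≤ (VF F ⊓ X) ⊔ ((PF F ⊓ VF H) ⊓ X) := by
    intro F H M m0 hM hF hH
    rw [← star_VF_aux F H hM m0]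
    obtain ⟨ι, _, b, α, β, hbF, hbH, hX⟩ := hgeo.basis F hF H hH
    exact dec_of_dg hbF hX inf_le_left fun l g hg e => dg_PF_VF hbF hbH hg e
  have hnZ : (rkSetC C X Z).Nonempty := by
    obtain ⟨F, h1, h2⟩ := hZ
    exact ⟨_, F, h1, h2, rfl⟩
  have hnY : (rkSetC C X Y).Nonempty := by
    obtain ⟨F, h1, h2⟩ := hY
    exact ⟨_, F, h1, h2, rfl⟩
  obtain ⟨F, hF, hFZ, hFk⟩ := Nat.sInf_mem hnZ
  obtain ⟨H, hH, hHY, hHk⟩ := Nat.sInf_mem hnY
  change rkC C X Z = _ at hFk
  change rkC C X Y = _ at hHk
  have hmaxH : ∀ H' : Flag K E, C H' → (VF H').subgroupOf X = Y →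
      H'.mem.ncard ≤ H.mem.ncard := by
    intro H' h1 h2
    have h3 : rkC C X Y ≤ finrank K E + 1 - H'.mem.ncard := Nat.sInf_le ⟨H', h1, h2, rfl⟩
    rw [hHk] at h3
    have h4 := ncard_mem_le H'
    have h5 := ncard_mem_le H
    omega
  have hmap : ∀ S : Subgroup (SpecialLinearGroup K E), (S.subgroupOf X).map X.subtype = S ⊓ X :=
    fun S => Subgroup.subgroupOf_map_subtype S X
  have hFX : VF F ⊓ X = Z.map X.subtype := by rw [← hFZ, hmap]
  have hHX : VF H ⊓ X = Y.map X.subtype := by rw [← hHY, hmap]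
  have hVW : VF F ⊓ X ≤ VF H ⊓ X := by
    rw [hFX, hHX]
    exact Subgroup.map_mono hlt.le
  have hVWne : VF F ⊓ X ≠ VF H ⊓ X := by
    intro h
    rw [hFX, hHX] at h
    exact hlt.ne (Subgroup.map_injective X.subtype_injective h)
  obtain ⟨N, h0, hN, hFN⟩ := hgeo.star H hH F hF
  obtain ⟨M, m0, hM, hHM⟩ := hgeo.star F hF H hH
  -- the product `H F`
  have hT2 : (VF (starN H F N h0)).subgroupOf X = Y := by
    apply Subgroup.map_injective X.subtype_injective
    rw [hmap, ← hHX]
    apply le_antisymm
    · refine (hdec H F N h0 hN hH hF).trans (sup_le le_rfl ?_)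
      rintro g ⟨⟨-, hg⟩, hgX⟩
      exact hVW ⟨hg, hgX⟩
    · exact inf_le_inf_right _ (VF_le_star hN h0)
  have h2 := hmaxH _ hFN hT2
  -- the number of members
  have h3 := ncard_starN F H hN hM h0 m0
  have h4 : F.mem ⊆ (starN F H M m0).mem := (VF_le_iff _ _).mp (VF_le_star hM m0)
  have h5 : F.mem.ncard ≤ (starN F H M m0).mem.ncard := Set.ncard_le_ncard h4 (mem_finite _)
  have h6 : F.mem.ncard ≠ H.mem.ncard := by
    intro h
    have h7 : F.mem = (starN F H M m0).mem := by
      apply Set.eq_of_subset_of_ncard_le h4 _ (mem_finite _)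
      omega
    have h8 : VF F = VF (starN F H M m0) := (VF_eq_iff _ _).mpr h7
    have h9 : PF F ⊓ VF H ≤ VF F := by
      rw [h8, ← star_VF_aux F H hM m0]
      exact le_sup_right
    -- the normaliser of `V` in `W`
    apply hVWne
    set V : Subgroup (SpecialLinearGroup K E) := VF F ⊓ X with hV
    set W : Subgroup (SpecialLinearGroup K E) := VF H ⊓ X with hW
    have hNW : Subgroup.normalizer (V : Set (SpecialLinearGroup K E)) ⊓ W ≤ V := by
      rintro g ⟨hg, hgW⟩
      have h10 : g ∈ PF F := hgeo.norm F hF ⟨hg, hgW.2⟩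
      exact ⟨h9 ⟨h10, hgW.1⟩, hgW.2⟩
    have hfG : Finite (SpecialLinearGroup K E) := by
      have hfinE : Finite E := Module.finite_of_finite K
      refine Finite.of_injective (fun g : SpecialLinearGroup K E => (fun x : E => g x)) ?_
      intro g h hgh
      ext x
      exact congrFun hgh x
    -- `W` is nilpotent
    have hnil : Group.IsNilpotent W := by
      have hrp : (ringChar K).Prime := by
        rcases CharP.char_is_prime_or_zero K (ringChar K) with h | h
        · exact h
        · exfalso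
          have g1 : CharZero K := by
            have := ringChar.charP K
            rw [h] at this
            exact CharP.charP_to_charZero K
          exact (not_finite K).elim
      have hf : Fact (ringChar K).Prime := ⟨hrp⟩
      have hpg : IsPGroup (ringChar K) W := by
        have := Fintype.ofFinite K
        obtain ⟨n, -, hn⟩ := FiniteField.card K (ringChar K)
        have h10 : Nat.card W ∣ (ringChar K) ^ ((n : ℕ) * finrank K (Jr H)) := by
          rw [pow_mul, ← hn, ← Nat.card_eq_fintype_card, ← card_VF]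
          exact Subgroup.card_dvd_of_le inf_le_left
        obtain ⟨m, -, hm⟩ := (Nat.dvd_prime_pow hrp).mp h10
        exact IsPGroup.of_card hm
      exact hpg.isNilpotent
    by_contra hne
    have hlt' : V.subgroupOf W < ⊤ := by
      rw [lt_top_iff_ne_top, Ne, Subgroup.subgroupOf_eq_top]
      intro hle
      exact hne (le_antisymm hVW hle)
    have h11 := Group.normalizerCondition_of_isNilpotent (G := W) _ hlt'
    obtain ⟨x, hx, hxV⟩ := SetLike.exists_of_lt h11
    apply hxV
    rw [Subgroup.mem_subgroupOf]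
    apply hNW
    refine ⟨Subgroup.mem_normalizer_iff.mpr ?_, x.2⟩
    rw [Subgroup.mem_normalizer_iff] at hx
    intro g
    constructor
    · intro hg
      exact (hx ⟨g, hVW hg⟩).mp hg
    · intro hg
      have h12 : g ∈ W := by
        have h13 := W.mul_mem (W.mul_mem (W.inv_mem x.2) (hVW hg)) x.2
        have h14 : (x : SpecialLinearGroup K E)⁻¹ * (x * g * (x : SpecialLinearGroup K E)⁻¹) * x =
            g := by group
        rwa [h14] at h13
      exact (hx ⟨g, h12⟩).mpr hg
  rw [hFk, hHk]
  have h7 := ncard_mem_le F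
  have h8 := ncard_mem_le H
  omega

end rank

end Vale.Agent.P180.R2.H471.Oq
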