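import Vale.Agent.P180.R2.H471.Oq6
import Vale.Agent.P180.R2.H471.Hd5
import Vale.Agent.P180.R2.H799.BZ1

set_option linter.all false

/-!
P180: small parabolic systems of families of flags.
-/

namespace Vale.Agent.P180.R2.H471.Oq

open Module Vale.Agent.P180 Vale.Agent.P180.R2.H799 Vale.Agent.P180.R2.H799.BN
  Vale.Agent.P180.R2.H854 Vale.Agent.P180.R2.H954.Hc Vale.Agent.P180.R2.H471.Hc
  Vale.Agent.P180.R2.H471.Hd

variable {K E : Type} [Field K] [AddCommGroup E] [Module K E] [FiniteDimensional K E] [Finite K]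
  {C : Flag K E → Prop} {X : Subgroup (SpecialLinearGroup K E)}

theorem normalizer_C (hgeo : FlagGeo X C) {F : Flag K E} (hF : C F) :
    Subgroup.normalizer (((VF F).subgroupOf X : Subgroup X) : Set X) = (PF F).subgroupOf X := by
  rw [normalizer_subgroupOf_eq (by rw [normalizer_VF]; exact hgeo.norm F hF), normalizer_VF]

/-- **The parabolic system of a family of flags is small.** -/
theorem smallSys_C {p : ℕ} (hp : p.Prime) (hpK : ¬ p ∣ Nat.card K) (hgeo : FlagGeo X C)
    (h0 : C (flag0 K E)) {m : ℕ} (hm1 : finrank K E + 2 ≤ m)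
    (hdc : ∀ F, C F → Nat.card (DoubleCoset.Quotient (((PF F).subgroupOf X : Subgroup X) : Set X)
      ((PF F).subgroupOf X : Subgroup X)) ≤ m) :
    SmallSys m (hgeo.sys p hp hpK) := by
  classical
  have hfG : Finite (SpecialLinearGroup K E) := BN.finite_sl
  refine ⟨?_, ⟨fun V => finrank K E + 1 - rkC C X V, ?_⟩, ?_⟩
  · have h1 := hgeo.mem_sys_car p hp hpK h0
    rwa [VF_flag0, Subgroup.bot_subgroupOf] at h1
  · intro V hV'
    obtain ⟨F, hF, rfl⟩ := hgeo.exists_of_mem_sys_car p hp hpK hV'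
    refine ⟨?_, fun W hW hlt => ?_⟩
    · change finrank K E + 1 - rkC C X _ ≤ m
      omega
    · obtain ⟨H, hH, rfl⟩ := hgeo.exists_of_mem_sys_car p hp hpK hW
      have h1 := rkC_lt hgeo ⟨F, hF, rfl⟩ ⟨H, hH, rfl⟩ hlt
      have h2 := rkC_le (C := C) ((VF F).subgroupOf X)
      change finrank K E + 1 - rkC C X ((VF F).subgroupOf X) <
        finrank K E + 1 - rkC C X ((VF H).subgroupOf X)
      omega
  · intro V hV'
    obtain ⟨F, hF, rfl⟩ := hgeo.exists_of_mem_sys_car p hp hpK hV'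
    rw [normalizer_C hgeo hF]
    exact hdc F hF

end Vale.Agent.P180.R2.H471.Oq
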