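import Vale.Agent.P180.R2.H471.Oq1
import Vale.Agent.P180.R2.H799.CB4

set_option linter.all false

/-!
P180: selfdual decompositions under groups of isometries of a quadratic form in characteristic two.
-/

namespace Vale.Agent.P180.R2.H471.Oq

open Module Vale.Agent.P180 Vale.Agent.P180.R2.H799 Vale.Agent.P180.R2.H854
  Vale.Agent.P180.R2.H954.Hc Vale.Agent.P180.R2.H259.Loc Vale.Agent.P180.R2.H799.CB

variable {K E : Type} [Field K] [AddCommGroup E] [Module K E] {Φ : HForm K E} {q : E → K}
  (hq : QF Φ q)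

include hq in
theorem q_sum {ι : Type*} (s : Finset ι) (f : ι → E)
    (h : ∀ i ∈ s, ∀ j ∈ s, Φ.B (f i) (f j) = 0) : q (∑ i ∈ s, f i) = ∑ i ∈ s, q (f i) := by
  classical
  induction s using Finset.induction_on with
  | empty => rw [Finset.sum_empty, Finset.sum_empty, hq.zero]
  | insert i s hi ih =>
    rw [Finset.sum_insert hi, Finset.sum_insert hi, hq.add,
      ih fun a ha b hb => h a (Finset.mem_insert_of_mem ha) b (Finset.mem_insert_of_mem hb)]
    have h1 : Φ.B (f i) (∑ j ∈ s, f j) = 0 := by
      have h2 : ∀ t ⊆ s, Φ.B (f i) (∑ j ∈ t, f j) = 0 := by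
        intro t
        induction t using Finset.induction_on with
        | empty => intro _; rw [Finset.sum_empty, Φ.zero_right]
        | insert j t hj ih2 =>
          intro ht
          rw [Finset.sum_insert hj, Φ.add_right, ih2 ((Finset.subset_insert _ _).trans ht),
            h i (Finset.mem_insert_self _ _) j
              (Finset.mem_insert_of_mem (ht (Finset.mem_insert_self _ _))), add_zero]
      exact h2 s le_rfl
    rw [h1, add_zero]

variable [FiniteDimensional K E] [Finite K] {Q : Subgroup (SpecialLinearGroup K E)}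
  (D : SDec Φ Q)

theorem e_orth {i j : Fin D.r} (h : j ≠ Fin.rev i) (x y : E) :
    Φ.B (D.e i x) (D.e j y) = 0 := by
  rw [Φ.adj_right, D.adj_e, ← End.mul_apply, D.orth _ _ h.symm, LinearMap.zero_apply,
    Φ.zero_right]

/-- a summand which is not selfdual has no fixed vectors -/
theorem fixed_zero (hc : (Nat.card Q : K) ≠ 0) {i : Fin D.r} (hi : Fin.rev i ≠ i) {x : E}
    (hx : D.e i x = x) (hfix : ∀ g ∈ Q, toEnd g x = x) : x = 0 := by
  classical
  have hfG : Finite (SpecialLinearGroup K E) := SDec.finite_sl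
  have := Fintype.ofFinite Q
  by_contra hx0
  set S : End K E := ∑ g : Q, toEnd (g : SpecialLinearGroup K E) with hS
  have hSx : ∀ z, S z = ∑ g : Q, toEnd (g : SpecialLinearGroup K E) z := fun z => by
    rw [hS, LinearMap.sum_apply]
  have hgS : ∀ g ∈ Q, ∀ z, toEnd g (S z) = S z := by
    intro g hg z
    rw [hSx, map_sum]
    refine Fintype.sum_equiv (Equiv.mulLeft (⟨g, hg⟩ : Q)) _ _ fun h => ?_
    rw [← End.mul_apply, ← toEnd_mul]
    rfl
  have hSg : ∀ g ∈ Q, ∀ z, S (toEnd g z) = S z := by
    intro g hg z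
    rw [hSx, hSx]
    refine Fintype.sum_equiv (Equiv.mulRight (⟨g, hg⟩ : Q)) _ _ fun h => ?_
    rw [← End.mul_apply, ← toEnd_mul]
    rfl
  have hSfix : ∀ z, (∀ g ∈ Q, toEnd g z = z) → S z = (Nat.card Q : K) • z := by
    intro z hz
    have h1 : ∀ g : Q, toEnd (g : SpecialLinearGroup K E) z = z := fun g => hz g.1 g.2
    rw [hSx, Finset.sum_congr rfl (g := fun _ => z) (fun g _ => h1 g), Finset.sum_const,
      Finset.card_univ, ← Nat.card_eq_fintype_card, Nat.cast_smul_eq_nsmul]
  -- the fixed vectors are in the summand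
  obtain ⟨φ, hφ⟩ : ∃ φ : E →ₗ[K] K, φ x ≠ 0 := by
    by_contra hcon
    push Not at hcon
    exact hx0 ((Module.forall_dual_apply_eq_zero_iff K x).mp hcon)
  have hfe : ∀ y, (∀ g ∈ Q, toEnd g y = y) → D.e i y = y := by
    intro y hy
    set a : End K E := (φ.smulRight y) * S with ha
    have hax : ∀ z, a z = φ (S z) • y := fun z => rfl
    have h1 := D.comm a (fun g hg => by
      apply LinearMap.ext
      intro z
      change a (toEnd g z) = toEnd g (a z)
      rw [hax, hax, hSg g hg, map_smul, hy g hg]) i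
    have h2 := congrArg (fun f : End K E => f x) h1
    change a (D.e i x) = D.e i (a x) at h2
    rw [hx, hax, hSfix x hfix, map_smul, map_smul, smul_eq_mul] at h2
    have h3 : (Nat.card Q : K) * φ x ≠ 0 := mul_ne_zero hc hφ
    exact (smul_right_injective E h3 h2).symm
  obtain ⟨z, hz⟩ : ∃ z, Φ.B x z ≠ 0 := by
    by_contra hcon
    push Not at hcon
    exact hx0 (Φ.nondeg x hcon)
  have h1 : Φ.B x (S z) = (Nat.card Q : K) * Φ.B x z := by
    have h2 : ∀ s : Finset Q, Φ.B x (∑ g ∈ s, toEnd (g : SpecialLinearGroup K E) z) =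
        (s.card : K) * Φ.B x z := by
      intro s
      induction s using Finset.induction_on with
      | empty => rw [Finset.sum_empty, Φ.zero_right, Finset.card_empty, Nat.cast_zero, zero_mul]
      | insert g s hg ih =>
        have h3 : Φ.B x (toEnd (g : SpecialLinearGroup K E) z) = Φ.B x z := by
          have h4 := D.le g.2 x z
          have h5 : (g : SpecialLinearGroup K E) x = x := hfix g g.2
          rw [h5] at h4
          exact h4
        rw [Finset.sum_insert hg, Φ.add_right, ih, h3, Finset.card_insert_of_notMem hg]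
        push_cast
        ring
    rw [hSx, h2, Finset.card_univ, ← Nat.card_eq_fintype_card]
  have h2 : Φ.B x (S z) = 0 := by
    rw [← hx, ← hfe (S z) fun g hg => hgS g hg z]
    exact e_orth D hi.symm _ _
  rw [h1] at h2
  exact mul_ne_zero hc hz h2

include hq in
/-- the summands which are not selfdual are singular -/
theorem summand_sing (hQq : Q ≤ IsoQ q) (hodd : Odd (Nat.card Q))
    (hab : ∀ x ∈ Q, ∀ y ∈ Q, x * y = y * x) {i : Fin D.r} (hi : Fin.rev i ≠ i) (x : E) :
    q (D.e i x) = 0 := by
  classical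
  have hfG : Finite (SpecialLinearGroup K E) := SDec.finite_sl
  have := Fintype.ofFinite Q
  have hc1 : (Nat.card Q : K) = 1 := by
    obtain ⟨k, hk⟩ := hodd
    rw [hk]
    push_cast
    rw [hq.two, zero_mul, zero_add]
  set u := D.e i x with hu
  have hee : D.e i u = u := by rw [hu, ← End.mul_apply, D.idem]
  have hge : ∀ g ∈ Q, D.e i (toEnd g u) = toEnd g u := by
    intro g hg
    have h1 : toEnd g * D.e i = D.e i * toEnd g := (SDec.Q_le (D := D) hab hg).1 i
    rw [← End.mul_apply, ← h1, End.mul_apply, hee]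
  set s : E := ∑ g : Q, toEnd (g : SpecialLinearGroup K E) u with hs
  have h1 : s = 0 := by
    refine fixed_zero D (by rw [hc1]; exact one_ne_zero) hi ?_ fun g hg => ?_
    · rw [hs, map_sum]
      exact Finset.sum_congr rfl fun g _ => hge g g.2
    · rw [hs, map_sum]
      refine Fintype.sum_equiv (Equiv.mulLeft (⟨g, hg⟩ : Q)) _ _ fun h => ?_
      rw [← End.mul_apply, ← toEnd_mul]
      rfl
  have h2 : q s = (Nat.card Q : K) * q u := by
    rw [hs, q_sum hq _ _ fun g _ h _ => by
      rw [← hge g g.2, ← hge h h.2]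
      exact e_orth D hi.symm _ _]
    have h3 : ∀ g : Q, q (toEnd (g : SpecialLinearGroup K E) u) = q u := fun g => hQq g.2 u
    rw [Finset.sum_congr rfl (g := fun _ => q u) (fun g _ => h3 g), Finset.sum_const,
      Finset.card_univ, ← Nat.card_eq_fintype_card, nsmul_eq_mul]
  rw [h1, hq.zero, hc1, one_mul] at h2
  exact h2.symm

include hq in
theorem mem_IsoQ_of_dec {l : SpecialLinearGroup K E} (hl : l ∈ Φ.Iso)
    (h : ∀ i x, q (l (D.e i x)) = q (D.e i x)) : l ∈ IsoQ q := by
  classical
  let T : E →+ K := AddMonoidHom.mk' (fun x => q (l x) - q x) fun x y => by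
    have e : l (x + y) = l x + l y := map_add l.1 x y
    have h1 : Φ.B (l x) (l y) = Φ.B x y := hl x y
    rw [e, hq.add, hq.add, h1]
    ring
  intro x
  have h1 : x = ∑ i, D.e i x := by
    have := congrArg (fun f : End K E => f x) D.sum
    simpa [LinearMap.sum_apply] using this.symm
  have h2 : T x = 0 := by
    rw [h1, map_sum]
    refine Finset.sum_eq_zero fun i _ => ?_
    change q (l (D.e i x)) - q (D.e i x) = 0
    rw [h, sub_self]
  exact sub_eq_zero.mp h2

include hq in
/-- the isotropic members of the flag are singular -/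
theorem flag_sing (hs : ∀ i : Fin D.r, Fin.rev i ≠ i → ∀ x, q (D.e i x) = 0) {j : ℕ}
    (hj : 2 * j ≤ D.r) {x : E} (hx : x ∈ D.flag j) : q x = 0 := by
  classical
  rw [Dec.mem_flag'] at hx
  have h1 : x = ∑ i ∈ Finset.univ.filter (fun i : Fin D.r => i.1 < j), D.e i x := by
    have h2 := congrArg (fun f : End K E => f x) D.sum
    have h3 : ∑ i, D.e i x = x := by simpa [LinearMap.sum_apply] using h2
    rw [Finset.sum_filter_of_ne]
    · exact h3.symm
    · intro i _ hne
      by_contra hcon
      exact hne (hx i (by omega))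
  rw [h1, q_sum hq]
  · refine Finset.sum_eq_zero fun i hi => hs i ?_ x
    have hi' := (Finset.mem_filter.mp hi).2
    intro h
    have h2 := congrArg Fin.val h
    rw [Fin.val_rev] at h2
    omega
  · intro i hi k hk
    have hi' := (Finset.mem_filter.mp hi).2
    have hk' := (Finset.mem_filter.mp hk).2
    refine e_orth D (fun h => ?_) _ _
    have h2 := congrArg Fin.val h
    rw [Fin.val_rev] at h2
    omega

include hq in
/-- the flag of the decomposition -/
theorem cq_flag (hs : ∀ i : Fin D.r, Fin.rev i ≠ i → ∀ x, q (D.e i x) = 0) :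
    CQ Φ q D.flag := by
  classical
  rcases Nat.eq_zero_or_pos D.r with h0 | hpos
  · have hemp : IsEmpty (Fin D.r) := by rw [h0]; infer_instance
    have h1 : (1 : End K E) = 0 := by
      rw [← D.sum, Finset.univ_eq_empty, Finset.sum_empty]
    have h2 : ∀ x : E, x = 0 := fun x => congrArg (fun a : End K E => a x) h1
    have h3 : ∀ W W' : Submodule K E, W = W' := by
      intro W W'
      ext x
      rw [h2 x]
      exact ⟨fun _ => W'.zero_mem, fun _ => W.zero_mem⟩
    exact ⟨1, Nat.one_pos, h3 _ _, fun i _ => h3 _ _, fun i _ x _ => by rw [h2 x, hq.zero]⟩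
  · refine ⟨D.r, hpos, ?_, fun i hi => ?_, fun i hi x hx => flag_sing hq D hs hi hx⟩
    · rw [eq_top_iff]
      intro x _
      rw [Dec.mem_flag']
      intro l hl
      exact absurd l.2 (by omega)
    · apply le_antisymm
      · intro x hx
        rw [Dec.mem_flag']
        intro l hl
        apply Φ.nondeg
        intro y
        rw [Φ.adj_right, D.adj_e]
        refine hx _ ?_
        refine D.flag.mono ?_ (Dec.e_mem_flag (D := D.toDec) (Fin.rev l) y)
        rw [Fin.val_rev]
        have := l.2
        omega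
      · intro x hx y hy
        rw [Dec.mem_flag (D := D.toDec)] at hy
        rw [Dec.mem_flag'] at hx
        rw [← hy, ← Φ.adj_left, SDec.adj_es, Dec.es, LinearMap.sum_apply]
        have h1 : ∑ l ∈ (D.below i).image Fin.rev, D.e l x = 0 := by
          refine Finset.sum_eq_zero fun l hl => hx l ?_
          obtain ⟨m, hm, rfl⟩ := Finset.mem_image.mp hl
          rw [Dec.mem_below] at hm
          rw [Fin.val_rev]
          omega
        rw [h1, Φ.zero_left]

include hq in
/-- **Levi decomposition.** -/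
theorem exists_leviQ (hs : ∀ i : Fin D.r, Fin.rev i ≠ i → ∀ x, q (D.e i x) = 0)
    {g : SpecialLinearGroup K E} (hg : g ∈ PF D.flag) (hgI : g ∈ IsoQ q) :
    ∃ l ∈ D.L, ∃ u ∈ VF D.flag, l ∈ IsoQ q ∧ u ∈ IsoQ q ∧ g = l * u := by
  obtain ⟨l, hl, u, hu, huI, rfl⟩ := SDec.exists_levi (D := D) hg (hq.le hgI)
  have hlQ : l ∈ IsoQ q := by
    refine mem_IsoQ_of_dec hq D hl.2 fun i x => ?_
    have hle : toEnd l * D.e i = D.e i * toEnd l := hl.1 i
    have hle' : ∀ i y, l (D.e i y) = D.e i (l y) := fun i y =>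
      congrArg (fun f : End K E => f y) (hl.1 i)
    by_cases hi : Fin.rev i = i
    · have hi' : 2 * i.1 + 1 = D.r := by
        have h2 := congrArg Fin.val hi
        rw [Fin.val_rev] at h2
        have := i.2
        omega
      set y := D.e i x with hy
      have hyF : y ∈ D.flag (i.1 + 1) := Dec.e_mem_flag (D := D.toDec) i x
      have hw : u y - y ∈ D.flag i.1 := (Dec.mem_VF_iff.mp hu) i.1 y hyF
      have hlw : l (u y - y) ∈ D.flag i.1 := SDec.L_le_PF hl _ _ hw
      have h1 := hgI y
      have e1 : (l * u) y = l y + l (u y - y) := by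
        have e2 : l (u y - y) = l (u y) - l y := map_sub l.1 _ _
        rw [e2, mul_apply']
        abel
      have h3 : Φ.B (l y) (l (u y - y)) = 0 := by
        have h4 : Φ.B (l y) (l (u y - y)) = Φ.B y (u y - y) := hl.2 _ _
        rw [h4, hy, Φ.adj_right, D.adj_e, hi, Dec.mem_flag'.mp hw i le_rfl, Φ.zero_right]
      rw [e1, hq.add, h3, flag_sing hq D hs (by omega) hlw, add_zero, add_zero] at h1
      exact h1
    · rw [hle', hs i hi, hs i hi]
  refine ⟨l, hl, u, hu, hlQ, ?_, rfl⟩
  have h4 := (IsoQ q).mul_mem ((IsoQ q).inv_mem hlQ) hgI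
  rwa [inv_mul_cancel_left] at h4

include hq in
theorem AA_le_IsoQ (hs : ∀ i : Fin D.r, Fin.rev i ≠ i → ∀ x, q (D.e i x) = 0) (i : Fin D.r) :
    AA D i ≤ IsoQ q := by
  intro g hg
  by_cases hi : Fin.rev i = i
  · rw [hg.2 hi]
    exact (IsoQ q).one_mem
  refine mem_IsoQ_of_dec hq D hg.1.1.2 fun j x => ?_
  have hle' : g (D.e j x) = D.e j (g x) := congrArg (fun f : End K E => f x) (hg.1.1.1 j)
  by_cases hj : j = i ∨ j = Fin.rev i
  · have hj' : Fin.rev j ≠ j := by
      rcases hj with rfl | rfl
      · exact hi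
      · rw [Fin.rev_rev]; exact Ne.symm hi
    rw [hle', hs j hj', hs j hj']
  · push Not at hj
    have h1 : toEnd g * D.e j = D.e j := hg.1.2.1 j hj.1 hj.2
    have h2 : g (D.e j x) = D.e j x := congrArg (fun f : End K E => f x) h1
    rw [h2]

end Vale.Agent.P180.R2.H471.Oq
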