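import Vale.Agent.P180.R2.H799.CA3

/-!
P180: Levi subgroups with perfect factors and a central `p`-subgroup lift to central extensions of
order prime to `p`.
-/

set_option linter.all false

open scoped commutatorElement

namespace Vale.Agent.P180.R2.H471.Os

open Vale.Agent.P180 Vale.Agent.P180.R2.H799 Vale.Agent.P180.R2.H799.CA
  Vale.Agent.P180.R2.H259.Cen

/-- As `LevSubP`, with one more factor `Z`, a `p`-subgroup of the centre of `M`. -/
def LevSubR (p m : ℕ) {S : Type} [Group S] (V M Q : Subgroup S) : Prop :=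
  V ⊓ M = ⊥ ∧ V ⊔ M = Subgroup.normalizer (V : Set S) ∧ Q ≤ M ∧
  Subgroup.centralizer (Q : Set S) ≤ M ∧
  ∃ (r : ℕ) (A : Fin r → Subgroup S) (B Z : Subgroup S), r + 1 ≤ m ∧
    (∀ j, A j ≤ M ∧ M ≤ Subgroup.normalizer (A j : Set S) ∧ CycLev Q (A j) ∧ ⁅A j, A j⁆ = A j) ∧
    (∀ i j, i ≠ j → A i ≤ Subgroup.centralizer (A j : Set S)) ∧
    (∀ j, B ≤ Subgroup.centralizer (A j : Set S)) ∧
    (B ≤ M ∧ M ≤ Subgroup.normalizer (B : Set S) ∧ B ≤ Subgroup.centralizer (Q : Set S) ∧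
      B ⊓ Q = ⊥) ∧
    (∀ g ∈ M, ∀ q ∈ Q, g * q * g⁻¹ ∈ (⨆ j, A j) ⊔ Q) ∧
    (Z ≤ M ∧ M ≤ Subgroup.centralizer (Z : Set S) ∧ IsPGroup p Z) ∧
    (B ⊔ (Z ⊔ ⨆ j, A j)).relIndex M ≤ m

section

variable {S' S : Type} [Group S'] [Group S] [Finite S'] {f : S' →* S}

/-- **Levi subgroups with perfect factors and a central `p`-subgroup lift** to central extensions
of order prime to `p`. -/
theorem levSubR_lift (hf : Function.Surjective f) (hk : f.ker ≤ Subgroup.center S') {p m : ℕ}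
    [Fact p.Prime] (hpk : ¬ p ∣ Nat.card f.ker) {V M Q : Subgroup S}
    (hcV : (Nat.card V).Coprime (Nat.card f.ker)) {Q' : Subgroup S'} (hQ' : IsPGroup p Q')
    (hQ : Q'.map f = Q) (h : LevSubR p m V M Q) : LevSub m (liftV f V) (M.comap f) Q' := by
  obtain ⟨h1, h2, h3, h4, r, A, B, Z, hr, hA, hAA, hBA, ⟨hBM, hMB, hBQ, hBQ'⟩, hMQ,
    ⟨hZM, hMZ, hZp⟩, hidx⟩ := h
  have hcZ : (Nat.card Z).Coprime (Nat.card f.ker) := by
    have hfS : Finite S := Finite.of_surjective f hf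
    obtain ⟨l, hl⟩ := IsPGroup.iff_card.mp hZp
    rw [hl]
    exact Nat.Coprime.pow_left l ((Nat.Prime.coprime_iff_not_dvd Fact.out).mpr hpk)
  have hpel : ∀ x ∈ Q', ∃ i, x ^ p ^ i = 1 := by
    intro x hx
    obtain ⟨i, hi⟩ := hQ' ⟨x, hx⟩
    exact ⟨i, congrArg Subtype.val hi⟩
  have hone : ∀ x ∈ Q', f x = 1 → x = 1 := by
    intro x hx hx1
    obtain ⟨i, hi⟩ := hpel x hx
    exact eq_one_of_pelt hpk hi hx1
  have hfQ : ∀ x ∈ Q', f x ∈ Q := fun x hx => by rw [← hQ]; exact ⟨x, hx, rfl⟩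
  have hkB : f.ker ≤ B.comap f := by
    intro z hz
    rw [Subgroup.mem_comap, MonoidHom.mem_ker.mp hz]
    exact B.one_mem
  let D : Fin r → Subgroup S' := fun j => ⁅(A j).comap f, (A j).comap f⁆
  have hDA : ∀ j, D j ≤ (A j).comap f := fun j => Subgroup.commutator_le.mpr fun a ha b hb => by
    rw [commutatorElement_def]
    exact Subgroup.mul_mem _ (Subgroup.mul_mem _ (Subgroup.mul_mem _ ha hb)
      (Subgroup.inv_mem _ ha)) (Subgroup.inv_mem _ hb)
  have hDmap : ∀ j, (D j).map f = A j := by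
    intro j
    change (⁅(A j).comap f, (A j).comap f⁆).map f = A j
    rw [Subgroup.map_commutator, Subgroup.map_comap_eq_self_of_surjective hf, (hA j).2.2.2]
  have hcomm : ∀ x : S', ∀ j, f x ∈ Subgroup.centralizer (A j : Set S) →
      x ∈ Subgroup.centralizer (D j : Set S') := by
    intro x j hx
    rw [Subgroup.mem_centralizer_iff]
    intro a ha
    refine (comm_of_mod (H := (A j).comap f) (fun a ha => hk ?_) a ha).symm
    rw [MonoidHom.mem_ker, map_mul, map_mul, map_mul, map_inv, map_inv,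
      ← Subgroup.mem_centralizer_iff.mp hx (f a) ha]
    group
  have hnc : ∀ {H : Subgroup S}, M ≤ Subgroup.normalizer (H : Set S) →
      M.comap f ≤ Subgroup.normalizer ((H.comap f : Subgroup S') : Set S') := by
    intro H hH g hg
    rw [Subgroup.mem_normalizer_iff]
    intro x
    rw [Subgroup.mem_comap, Subgroup.mem_comap, map_mul, map_mul, map_inv]
    exact Subgroup.mem_normalizer_iff.mp (hH hg) (f x)
  let Dx : Fin (r + 1) → Subgroup S' := Fin.cases (motive := fun _ => Subgroup S') (B.comap f) D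
  have hDx0 : B.comap f ≤ ⨆ j, Dx j := le_iSup Dx 0
  have hDxs : (⨆ j, D j) ≤ ⨆ j, Dx j := iSup_le fun j => le_iSup Dx j.succ
  refine ⟨?_, ?_, ?_, ?_, r + 1, Dx, liftV f Z, hr, ?_, ?_, ?_, ?_, ?_, ?_⟩
  · rw [eq_bot_iff]
    rintro x ⟨hx, hxM⟩
    have h5 : f x ∈ V ⊓ M := ⟨((mem_liftV hf hk hcV).mp hx).1, hxM⟩
    rw [h1, Subgroup.mem_bot] at h5
    exact Subgroup.mem_bot.mpr (ker_inf_liftV hf hk hcV hx h5)
  · rw [normalizer_liftV hf hk hcV, ← h2]
    have h6 : f.ker ≤ M.comap f := by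
      intro z hz
      rw [Subgroup.mem_comap, MonoidHom.mem_ker.mp hz]
      exact Subgroup.one_mem _
    have h5 : f.ker ≤ liftV f V ⊔ M.comap f := h6.trans le_sup_right
    rw [← sup_of_le_left h5, ← Subgroup.comap_map_eq, Subgroup.map_sup, map_liftV hf hk hcV,
      Subgroup.map_comap_eq_self_of_surjective hf]
  · intro x hx
    exact h3 (hfQ x hx)
  · intro x hx
    refine h4 ?_
    rw [Subgroup.mem_centralizer_iff] at hx ⊢
    intro y hy
    rw [← hQ] at hy
    obtain ⟨y, hy, rfl⟩ := hy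
    rw [← map_mul, ← map_mul, hx y hy]
  · intro j
    refine Fin.cases ?_ (fun j => ?_) j
    · refine ⟨fun x hx => hBM hx, hnc hMB, Q', le_rfl, Subgroup.le_normalizer, ?_, ?_, 1,
        Q'.one_mem, fun y hy => ⟨0, by rw [zpow_zero, mul_one]; exact hy⟩⟩
      · intro q hq
        rw [Subgroup.mem_centralizer_iff]
        intro b hb
        obtain ⟨i, hi⟩ := hpel q hq
        exact (comm_of_pelt hk hpk hi
          (Subgroup.mem_centralizer_iff.mp (hBQ hb) (f q) (hfQ q hq))).symm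
      · rw [eq_bot_iff]
        rintro x ⟨hx, hxB⟩
        have h5 : f x ∈ B ⊓ Q := ⟨hxB, hfQ x hx⟩
        rw [hBQ', Subgroup.mem_bot] at h5
        exact Subgroup.mem_bot.mpr (hone x hx h5)
    · obtain ⟨hj1, hj2, ⟨N, hN1, hN2, hN3, hN4, x₀, hx₀, hN5⟩, hj4⟩ := hA j
      refine ⟨fun x hx => hj1 (hDA j hx), le_normalizer_commutator (hnc hj2), Q' ⊓ N.comap f,
        inf_le_left, ?_, ?_, ?_, ?_⟩
      · intro g hg
        rw [Subgroup.mem_normalizer_iff]
        intro x
        have h5 := Subgroup.mem_normalizer_iff.mp (hN2 (hfQ g hg)) (f x)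
        constructor
        · rintro ⟨ha, hb⟩
          refine ⟨Q'.mul_mem (Q'.mul_mem hg ha) (Q'.inv_mem hg), ?_⟩
          change f (g * x * g⁻¹) ∈ N
          rw [map_mul, map_mul, map_inv]
          exact h5.mp hb
        · rintro ⟨ha, hb⟩
          refine ⟨?_, ?_⟩
          · have h6 : x = g⁻¹ * (g * x * g⁻¹) * g := by group
            rw [h6]
            exact Q'.mul_mem (Q'.mul_mem (Q'.inv_mem hg) ha) hg
          · change f x ∈ N
            apply h5.mpr
            rw [← map_inv, ← map_mul, ← map_mul]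
            exact hb
      · rintro x ⟨-, hx⟩
        exact hcomm x j (hN3 hx)
      · rw [eq_bot_iff]
        rintro x ⟨⟨hx, hxN⟩, hxD⟩
        have h5 : f x ∈ N ⊓ A j := ⟨hxN, hDA j hxD⟩
        rw [hN4, Subgroup.mem_bot] at h5
        exact Subgroup.mem_bot.mpr (hone x hx h5)
      · rw [← hQ] at hx₀
        obtain ⟨x, hx, rfl⟩ := hx₀
        refine ⟨x, hx, fun y hy => ?_⟩
        obtain ⟨i, hi⟩ := hN5 (f y) (hfQ y hy)
        refine ⟨i, Q'.mul_mem hy (Q'.zpow_mem hx i), ?_⟩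
        change f (y * x ^ i) ∈ N
        rw [map_mul, map_zpow]
        exact hi
  · intro i j
    refine Fin.cases ?_ (fun i => ?_) i
    · refine Fin.cases ?_ (fun j => ?_) j
      · intro h; exact absurd rfl h
      · intro _ x hx
        exact hcomm x j (hBA j hx)
    · refine Fin.cases ?_ (fun j => ?_) j
      · intro _ x hx
        change x ∈ Subgroup.centralizer ((B.comap f : Subgroup S') : Set S')
        rw [Subgroup.mem_centralizer_iff]
        intro b hb
        exact (Subgroup.mem_centralizer_iff.mp (hcomm b i (hBA i hb)) x hx).symm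
      · intro hij x hx
        refine hcomm x j (hAA i j (fun h => hij (by rw [h])) ?_)
        exact hDA i hx
  · intro g hg q hq
    have h5 := hMQ (f g) hg (f q) (hfQ q hq)
    have h6 : (⨆ j, A j) ⊔ Q = ((⨆ j, D j) ⊔ Q').map f := by
      rw [Subgroup.map_sup, Subgroup.map_iSup, hQ, iSup_congr hDmap]
    rw [h6] at h5
    obtain ⟨y, hy, hye⟩ := h5
    have h7 : y⁻¹ * (g * q * g⁻¹) ∈ f.ker := by
      rw [MonoidHom.mem_ker, map_mul, map_inv, hye, map_mul, map_mul, map_inv, inv_mul_cancel]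
    have h8 : g * q * g⁻¹ = y * (y⁻¹ * (g * q * g⁻¹)) := by group
    rw [h8]
    exact Subgroup.mul_mem _ (sup_le_sup_right hDxs Q' hy) (Subgroup.mem_sup_left (hDx0 (hkB h7)))
  · intro z hz
    exact hZM ((mem_liftV hf hk hcZ).mp hz).1
  · intro g hg
    rw [Subgroup.mem_centralizer_iff]
    intro z hz
    have h5 := (mem_liftV hf hk hcZ).mp hz
    have hfS : Finite S := Finite.of_surjective f hf
    obtain ⟨l, hl⟩ := IsPGroup.iff_card.mp hZp
    rw [hl] at h5
    exact comm_of_pelt hk hpk h5.2 (Subgroup.mem_centralizer_iff.mp (hMZ hg) (f z) h5.1)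
  · have h5 : (B ⊔ (Z ⊔ ⨆ j, A j)).comap f ≤ liftV f Z ⊔ ⨆ j, Dx j := by
      intro x hx
      have h6 : B ⊔ (Z ⊔ ⨆ j, A j) = (B.comap f ⊔ (liftV f Z ⊔ ⨆ j, D j)).map f := by
        rw [Subgroup.map_sup, Subgroup.map_sup, Subgroup.map_iSup, iSup_congr hDmap,
          map_liftV hf hk hcZ, Subgroup.map_comap_eq_self_of_surjective hf]
      rw [Subgroup.mem_comap, h6] at hx
      obtain ⟨y, hy, hye⟩ := hx
      have h7 : y⁻¹ * x ∈ f.ker := by
        rw [MonoidHom.mem_ker, map_mul, map_inv, hye, inv_mul_cancel]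
      have h8 : x = y * (y⁻¹ * x) := by group
      rw [h8]
      refine Subgroup.mul_mem _ ?_ (Subgroup.mem_sup_right (hDx0 (hkB h7)))
      exact (sup_le (hDx0.trans le_sup_right) (sup_le_sup_left hDxs _)) hy
    refine (Subgroup.relIndex_le_of_le_left h5 Subgroup.index_ne_zero_of_finite).trans ?_
    rw [Subgroup.relIndex_comap, Subgroup.map_comap_eq_self_of_surjective hf]
    exact hidx

end

/-- As `LevPair`, with Levi subgroups as in `LevSubR`, and the groups of the system have order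
prime to `z`. -/
def LevZR (p m z : ℕ) (L : Type) [Group L] (A : Subgroup L) : Prop :=
  ∃ (S : Type) (_ : Group S) (_ : Finite S) (𝒮 : ParSys p S) (π : S →* L),
    SmallSys m 𝒮 ∧ Function.Surjective π ∧ ¬ p ∣ Nat.card (Subgroup.center S) ∧
    (∀ V ∈ 𝒮.car, (Nat.card V).Coprime z) ∧
    (∀ x, π x ∈ Subgroup.center L → x ∈ Subgroup.center S) ∧
    ∀ Q : Subgroup S, IsPGroup p Q → Q.map π ≤ A → ∃ V ∈ 𝒮.car, ∃ M : Subgroup S, LevSubR p m V M Q

/-- **Central extensions of order prime to `p`** of the pairs `LevZR`. -/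
theorem levPairR_lift {p m : ℕ} [hp : Fact p.Prime] {L L' : Type} [Group L] [Group L'] [Finite L]
    {f : L →* L'} (hf : Function.Surjective f) (hk : f.ker ≤ Subgroup.center L)
    (hpk : ¬ p ∣ Nat.card f.ker) {A : Subgroup L} (h : LevZR p m (Nat.card f.ker) L' (A.map f)) :
    LevPair p m L A := by
  obtain ⟨S, _, _, 𝒮, π, hS, hπ, hpZ, hV, hc, hQ⟩ := h
  have hfs := pS_surj (π := π) hf
  have hks := pS_ker (π := π) hk
  have hck := card_pS_ker (π := π) (f := f)
  have hcV : ∀ V ∈ 𝒮.car, (Nat.card V).Coprime (Nat.card (pS π f).ker) := by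
    intro V hV'
    rw [hck]
    exact hV V hV'
  have hpk' : ¬ p ∣ Nat.card (pS π f).ker := by rw [hck]; exact hpk
  refine ⟨Fib π f, inferInstance, inferInstance, liftSys 𝒮 hfs hks hcV, pL π f,
    smallSys_lift 𝒮 hfs hks hcV hS, pL_surj hπ, ?_, ?_, ?_⟩
  · intro h
    rcases hp.out.dvd_mul.mp (h.trans (card_center_dvd hf)) with h1 | h1
    · exact hpZ h1
    · exact hpk h1
  · intro x hx
    refine mem_center_Fib (hc _ ?_) hx
    have h1 : π x.1.1 = f x.1.2 := x.2
    rw [h1, Subgroup.mem_center_iff]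
    intro l
    obtain ⟨l, rfl⟩ := hf l
    have h2 := Subgroup.mem_center_iff.mp hx l
    have h3 : l * x.1.2 = x.1.2 * l := h2
    rw [← map_mul, ← map_mul, h3]
  · intro Q' hQ' hQA
    have hQp : IsPGroup p (Q'.map (pS π f)) := hQ'.map _
    have hQm : (Q'.map (pS π f)).map π ≤ A.map f := by
      rintro _ ⟨_, ⟨x, hx, rfl⟩, rfl⟩
      have h1 : π (pS π f x) = f (pL π f x) := x.2
      rw [h1]
      exact ⟨_, hQA ⟨x, hx, rfl⟩, rfl⟩
    obtain ⟨V, hV', M, hM⟩ := hQ _ hQp hQm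
    exact ⟨liftV (pS π f) V, ⟨V, hV', rfl⟩, M.comap (pS π f),
      levSubR_lift hfs hks hpk' (hcV V hV') hQ' rfl hM⟩

end Vale.Agent.P180.R2.H471.Os
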