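import Vale.Agent.P180.R2.H799.CB4

/-!
P180: the Levi subgroup of a commutative `p`-subgroup of an isometry group, `p` a divisor of
`|K| - 1`: the `p`-part of the scalars, and the elements which are scalar of order prime to `p` on
the summands on which the `p`-group acts.
-/

set_option linter.all false

namespace Vale.Agent.P180.R2.H471.Os

open Module Vale.Agent.P180 Vale.Agent.P180.R2.H799 Vale.Agent.P180.R2.H854
  Vale.Agent.P180.R2.H954.Hc Vale.Agent.P180.R2.H799.CB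

variable {K E : Type} [Field K] [AddCommGroup E] [Module K E] [FiniteDimensional K E]
  [Finite K] {Φ : HForm K E} {Q : Subgroup (SpecialLinearGroup K E)}

variable (D : SDec Φ Q)

/-- the scalars of order dividing `N` -/
def ZZ (N : ℕ) : Subgroup (SpecialLinearGroup K E) where
  carrier := {z | z ∈ D.Z ∧ z ^ N = 1}
  one_mem' := ⟨D.Z.one_mem, one_pow N⟩
  mul_mem' := by
    rintro a b ⟨ha, ha'⟩ ⟨hb, hb'⟩
    have h1 : Commute a b := SDec.Z_comm ha (SDec.Z_le hb)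
    exact ⟨D.Z.mul_mem ha hb, by rw [h1.mul_pow, ha', hb', one_mul]⟩
  inv_mem' := by
    rintro a ⟨ha, ha'⟩
    exact ⟨D.Z.inv_mem ha, by rw [inv_pow, ha', inv_one]⟩

/-- the elements of the Levi subgroup which are scalar of order dividing `n` on each summand which
is not selfdual -/
def BP (n : ℕ) : Subgroup (SpecialLinearGroup K E) where
  carrier := {g | g ∈ D.L ∧
    ∀ i, Fin.rev i ≠ i → ∃ c : K, toEnd g * D.e i = c • D.e i ∧ c ^ n = 1}
  one_mem' := ⟨D.L.one_mem, fun i _ => ⟨1, by rw [toEnd_one, one_mul, one_smul], one_pow n⟩⟩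
  mul_mem' := by
    rintro g h ⟨hg, hg'⟩ ⟨hh, hh'⟩
    refine ⟨D.L.mul_mem hg hh, fun i hi => ?_⟩
    obtain ⟨c, hc, hc'⟩ := hg' i hi
    obtain ⟨d, hd, hd'⟩ := hh' i hi
    exact ⟨d * c, by rw [toEnd_mul, mul_assoc, hd, mul_smul_comm, hc, smul_smul],
      by rw [mul_pow, hc', hd', one_mul]⟩
  inv_mem' := by
    rintro g ⟨hg, hg'⟩
    refine ⟨D.L.inv_mem hg, fun i hi => ?_⟩
    obtain ⟨c, hc, hc'⟩ := hg' i hi
    have hc0 : c ≠ 0 := by
      rintro rfl
      rw [zero_smul] at hc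
      apply D.ne i
      calc D.e i = toEnd g⁻¹ * (toEnd g * D.e i) := by
            rw [← mul_assoc, Dec.toEnd_inv_mul, one_mul]
        _ = 0 := by rw [hc, mul_zero]
    refine ⟨c⁻¹, ?_, by rw [inv_pow, hc', inv_one]⟩
    have h1 : toEnd g⁻¹ * (toEnd g * D.e i) = c • (toEnd g⁻¹ * D.e i) := by
      rw [hc, mul_smul_comm]
    rw [← mul_assoc, Dec.toEnd_inv_mul, one_mul] at h1
    rw [h1, smul_smul, inv_mul_cancel₀ hc0, one_smul]
    rw [← h1]

variable {D}

theorem BP_le {n : ℕ} : BP D n ≤ BB D := fun g hg =>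
  ⟨hg.1, fun i hi => by
    obtain ⟨c, hc, -⟩ := hg.2 i hi
    exact ⟨c, hc⟩⟩

theorem BP_conj {n : ℕ} {g h : SpecialLinearGroup K E} (hg : g ∈ D.L) (hh : h ∈ BP D n) :
    g * h * g⁻¹ ∈ BP D n := by
  refine ⟨D.L.mul_mem (D.L.mul_mem hg hh.1) (D.L.inv_mem hg), fun i hi => ?_⟩
  obtain ⟨c, hc, hc'⟩ := hh.2 i hi
  have h1 : toEnd g⁻¹ * D.e i = D.e i * toEnd g⁻¹ := (D.L.inv_mem hg).1 i
  refine ⟨c, ?_, hc'⟩
  calc toEnd (g * h * g⁻¹) * D.e i = toEnd g * (toEnd h * (toEnd g⁻¹ * D.e i)) := by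
        rw [toEnd_mul, toEnd_mul]; simp only [mul_assoc]
    _ = toEnd g * (toEnd h * D.e i) * toEnd g⁻¹ := by rw [h1]; simp only [mul_assoc]
    _ = c • (toEnd g * D.e i * toEnd g⁻¹) := by
        rw [hc, mul_smul_comm, smul_mul_assoc]
    _ = c • D.e i := by
        have h2 : toEnd g * D.e i = D.e i * toEnd g := hg.1 i
        rw [h2, mul_assoc, Dec.toEnd_mul_inv, mul_one]

/-- `BP` intersects the `p`-group `Q` trivially. -/
theorem BP_inf {p n : ℕ} (hp : p.Prime) (hn : ¬ p ∣ n) {g : SpecialLinearGroup K E}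
    (hg : g ∈ BP D n) (hq : g ∈ Q) {m : ℕ} (hm : g ^ p ^ m = 1) : g = 1 := by
  apply toEnd_injective
  rw [toEnd_one]
  apply Dec.ext_e (D := D.toDec)
  intro l
  rw [one_mul]
  by_cases hl : Fin.rev l = l
  · exact D.triv l hl g hq
  · obtain ⟨c, hc, hc'⟩ := hg.2 l hl
    have h1 := pow_mul_e hc (p ^ m)
    rw [hm, toEnd_one, one_mul] at h1
    have h2 : (c ^ p ^ m - 1) • D.e l = 0 := by rw [sub_smul, one_smul, ← h1, sub_self]
    have h3 : c ^ p ^ m = 1 := sub_eq_zero.mp ((smul_eq_zero.mp h2).resolve_right (D.ne l))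
    have h6 := Nat.dvd_gcd (orderOf_dvd_of_pow_eq_one h3) (orderOf_dvd_of_pow_eq_one hc')
    have h7 : Nat.Coprime (p ^ m) n :=
      Nat.Coprime.pow_left m ((Nat.Prime.coprime_iff_not_dvd hp).mpr hn)
    rw [Nat.Coprime.gcd_eq_one h7] at h6
    have h9 : c = 1 := orderOf_eq_one_iff.mp (Nat.dvd_one.mp h6)
    rw [hc, h9, one_smul]

/-- The scalars are products of elements of `ZZ` and `BP`. -/
theorem Z_le_sup {N n : ℕ} (hcop : N.Coprime n) (hN : N * n = Nat.card K - 1) :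
    D.Z ≤ ZZ D N ⊔ BP D n := by
  intro z hz
  have hzN : z ^ (N * n) = 1 := by
    obtain ⟨c, hc⟩ := Dec.mem_Z hz.1
    apply toEnd_injective
    rw [toEnd_one]
    apply Dec.ext_e (D := D.toDec)
    intro l
    have h1 : toEnd z * D.e l = ((c l : Kˣ) : K) • D.e l := by rw [hc]; exact Dec.sc_mul_e _ l
    have h2 : (c l) ^ (N * n) = 1 := by
      rw [hN, ← Nat.card_units]
      exact pow_card_eq_one'
    rw [pow_mul_e h1, one_mul, ← Units.val_pow_eq_pow_val, h2, Units.val_one, one_smul]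
  have hb : (1 : ℤ) = N * N.gcdA n + n * N.gcdB n := by
    have h1 := Nat.gcd_eq_gcd_ab N n
    rw [hcop.gcd_eq_one] at h1
    exact_mod_cast h1
  have h1 : z = z ^ ((n : ℤ) * N.gcdB n) * z ^ ((N : ℤ) * N.gcdA n) := by
    rw [← zpow_add, add_comm, ← hb, zpow_one]
  have hZ : ∀ i : ℤ, z ^ i ∈ D.Z := fun i => D.Z.zpow_mem hz i
  have h2 : z ^ ((n : ℤ) * N.gcdB n) ∈ ZZ D N := by
    refine ⟨hZ _, ?_⟩
    rw [← zpow_natCast, ← zpow_mul, show (n : ℤ) * N.gcdB n * (N : ℤ) =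
      ((N * n : ℕ) : ℤ) * N.gcdB n by push_cast; ring, zpow_mul, zpow_natCast, hzN, one_zpow]
  have h3 : z ^ ((N : ℤ) * N.gcdA n) ∈ BP D n := by
    refine ⟨SDec.Z_le (hZ _), fun i _ => ?_⟩
    obtain ⟨c, hc⟩ := Dec.mem_Z (hZ ((N : ℤ) * N.gcdA n)).1
    have h4 : toEnd (z ^ ((N : ℤ) * N.gcdA n)) * D.e i = ((c i : Kˣ) : K) • D.e i := by
      rw [hc]; exact Dec.sc_mul_e _ i
    refine ⟨c i, h4, ?_⟩
    have h5 : (z ^ ((N : ℤ) * N.gcdA n)) ^ n = 1 := by
      rw [← zpow_natCast, ← zpow_mul, show (N : ℤ) * N.gcdA n * (n : ℤ) =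
        ((N * n : ℕ) : ℤ) * N.gcdA n by push_cast; ring, zpow_mul, zpow_natCast, hzN, one_zpow]
    have h6 := pow_mul_e h4 n
    rw [h5, toEnd_one, one_mul] at h6
    have h7 : (((c i : Kˣ) : K) ^ n - 1) • D.e i = 0 := by
      rw [sub_smul, one_smul, ← h6, sub_self]
    exact sub_eq_zero.mp ((smul_eq_zero.mp h7).resolve_right (D.ne i))
  rw [h1]
  exact Subgroup.mul_mem_sup h2 h3

/-- The index in the Levi subgroup. -/
theorem relIndexP_le {N n : ℕ} (hcop : N.Coprime n) (hN : N * n = Nat.card K - 1) :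
    (BP D n ⊔ (ZZ D N ⊔ ⨆ i, AA D i)).relIndex D.L ≤ finrank K E ^ finrank K E := by
  have hfinG : Finite (SpecialLinearGroup K E) := SDec.finite_sl
  have h1 : D.Z ⊔ ⨆ i, D.A i ≤ BP D n ⊔ (ZZ D N ⊔ ⨆ i, AA D i) := by
    refine sup_le ?_ (iSup_le fun i => ?_)
    · refine (Z_le_sup hcop hN).trans (sup_le ?_ le_sup_left)
      exact le_sup_left.trans le_sup_right
    · by_cases hi : Fin.rev i = i
      · intro x hx
        refine Subgroup.mem_sup_left ⟨hx.1, fun j hj => ⟨1, ?_, one_pow n⟩⟩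
        have hji : j ≠ i := by rintro rfl; exact hj hi
        rw [one_smul]
        exact hx.2.1 j hji (by rw [hi]; exact hji)
      · refine le_trans (fun x hx => ?_) (le_trans (le_iSup (AA D) i)
          (le_sup_right.trans le_sup_right))
        exact ⟨hx, fun h => absurd h hi⟩
  exact (Subgroup.relIndex_le_of_le_left h1 Subgroup.index_ne_zero_of_finite).trans
    (SDec.relIndex_le.trans Dec.prod_n_le)

/-- Commutators of elements of the Levi subgroup with elements of `Q`. -/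
theorem comm_mem_AA (hab : ∀ x ∈ Q, ∀ y ∈ Q, x * y = y * x) {g q : SpecialLinearGroup K E}
    (hg : g ∈ D.L) (hq : q ∈ Q) : g * q * g⁻¹ * q⁻¹ ∈ ⨆ i, AA D i := by
  -- the elements which are trivial on the selfdual summand
  let T : Subgroup (SpecialLinearGroup K E) :=
    { carrier := {g | ∀ i : Fin D.r, Fin.rev i = i → toEnd g * D.e i = D.e i}
      one_mem' := fun i _ => by rw [toEnd_one, one_mul]
      mul_mem' := by
        intro g h hg hh i hi
        rw [toEnd_mul, mul_assoc, hh i hi, hg i hi]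
      inv_mem' := by
        intro g hg i hi
        conv_lhs => rw [← hg i hi]
        rw [← mul_assoc, Dec.toEnd_inv_mul, one_mul] }
  have hqL := SDec.Q_le hab hq (D := D)
  have hcL : g * q * g⁻¹ * q⁻¹ ∈ D.L :=
    D.L.mul_mem (D.L.mul_mem (D.L.mul_mem hg hqL) (D.L.inv_mem hg)) (D.L.inv_mem hqL)
  have hcT : g * q * g⁻¹ * q⁻¹ ∈ T := by
    intro i hi
    have h1 : toEnd q * D.e i = D.e i := D.triv i hi q hq
    have h2 : toEnd q⁻¹ * D.e i = D.e i := D.triv i hi q⁻¹ (Q.inv_mem hq)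
    have h3 : toEnd g⁻¹ * D.e i = D.e i * toEnd g⁻¹ := (D.L.inv_mem hg).1 i
    calc toEnd (g * q * g⁻¹ * q⁻¹) * D.e i
        = toEnd g * (toEnd q * (toEnd g⁻¹ * (toEnd q⁻¹ * D.e i))) := by
          rw [toEnd_mul, toEnd_mul, toEnd_mul]; simp only [mul_assoc]
      _ = toEnd g * (toEnd q * D.e i) * toEnd g⁻¹ := by rw [h2, h3]; simp only [mul_assoc]
      _ = D.e i := by
          have h4 : toEnd g * D.e i = D.e i * toEnd g := hg.1 i
          rw [h1, h4, mul_assoc, Dec.toEnd_mul_inv, mul_one]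
  have hdt : ∀ i, D.dt {i} (g * q * g⁻¹ * q⁻¹) = 1 := by
    intro i
    have hgi := (D.L.inv_mem hg)
    have hqi := (D.L.inv_mem hqL)
    rw [Dec.dt_mul (D.L.mul_mem (D.L.mul_mem hg hqL) hgi).1 hqi.1,
      Dec.dt_mul (D.L.mul_mem hg hqL).1 hgi.1, Dec.dt_mul hg.1 hqL.1]
    have e1 : D.dt {i} g * D.dt {i} g⁻¹ = 1 := by
      rw [← Dec.dt_mul hg.1 hgi.1, mul_inv_cancel, Dec.dt_one]
    have e2 : D.dt {i} q * D.dt {i} q⁻¹ = 1 := by
      rw [← Dec.dt_mul hqL.1 hqi.1, mul_inv_cancel, Dec.dt_one]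
    calc D.dt {i} g * D.dt {i} q * D.dt {i} g⁻¹ * D.dt {i} q⁻¹
        = (D.dt {i} g * D.dt {i} g⁻¹) * (D.dt {i} q * D.dt {i} q⁻¹) := by ring
      _ = 1 := by rw [e1, e2, one_mul]
  have h1 := SDec.mem_iSup_inf (D := D) hcL hdt T (by
      intro i h' j hj
      rw [toEnd_mkSL]
      by_cases hji : j ∈ ({i, Fin.rev i} : Finset (Fin D.r))
      · rw [Dec.cp_mul_e_of_mem hji]
        exact hcT j hj
      · exact Dec.cp_mul_e_of_notMem hji _)
  have h2 : (⨆ i, (D.A i ⊓ T)) ≤ ⨆ i, AA D i := by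
    refine iSup_mono fun i => ?_
    rintro x ⟨hx, hxT⟩
    refine ⟨hx, fun hi => ?_⟩
    apply toEnd_injective
    rw [toEnd_one]
    apply Dec.ext_e (D := D.toDec)
    intro l
    rw [one_mul]
    by_cases hl : l = i
    · rw [hl]; exact hxT i hi
    · exact hx.2.1 l hl (by rw [hi]; exact hl)
  exact h2 h1

/-- The scalars of odd order in subgroups of index at most two. -/
theorem mem_of_odd {G : Type*} [Group G] {X I : Subgroup G} (hX2 : X.relIndex I ∣ 2) {g : G}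
    (hg : g ∈ I) {n : ℕ} (hn : Odd n) (h : g ^ n = 1) : g ∈ X := by
  rcases (Nat.dvd_prime Nat.prime_two).mp hX2 with h2 | h2
  · exact Subgroup.relIndex_eq_one.mp h2 hg
  · have h1 : (X.subgroupOf I).index = 2 := h2
    have h3 : (⟨g, hg⟩ : I) ^ n ∈ X.subgroupOf I := by
      have h4 : (⟨g, hg⟩ : I) ^ n = 1 := Subtype.ext h
      rw [h4]
      exact Subgroup.one_mem _
    obtain ⟨k, rfl⟩ := hn
    have h4 : (⟨g, hg⟩ : I) ^ 2 ∈ X.subgroupOf I := Subgroup.sq_mem_of_index_two h1 _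
    rw [pow_succ, pow_mul, Subgroup.mul_mem_cancel_left _ (Subgroup.pow_mem _ h4 k)] at h3
    exact h3

end Vale.Agent.P180.R2.H471.Os
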