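import Vale.Agent.P180.R2.H471.Oq9
import Vale.Agent.P180.R2.H471.Os1
import Vale.Agent.P180.R2.H471.Os2

/-!
P180: the Levi subgroups of the orthogonal groups in characteristic two, for the linear primes.
-/

set_option linter.all false

namespace Vale.Agent.P180.R2.H471.Os

open Module Vale.Agent.P180 Vale.Agent.P180.R2.H799 Vale.Agent.P180.R2.H854
  Vale.Agent.P180.R2.H954.Hc Vale.Agent.P180.R2.H799.CA Vale.Agent.P180.R2.H854.TD
  Vale.Agent.P180.R2.H471.Hd Vale.Agent.P180.R2.H471.Hc Vale.Agent.P180.R2.H799.CB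
  Vale.Agent.P180.R2.H259.Loc Vale.Agent.P180.R2.H471.Oq

variable {K E : Type} [Field K] [AddCommGroup E] [Module K E] [FiniteDimensional K E]
  [Finite K]

/-- **The Levi subgroup of a commutative `p`-subgroup.** -/
theorem levSubR_Q {p : ℕ} (hp : p.Prime) (hp2 : Odd p) {Φ : HForm K E} {q : E → K}
    (hq : QF Φ q) {X : Subgroup (SpecialLinearGroup K E)} (hXq : X ≤ IsoQ q)
    (hX2 : X.relIndex (IsoQ q) ∣ 2)
    (hV : ∀ F : Flag K E, CQ Φ q F → VF F ⊓ IsoQ q ≤ X)
    (hN : ∀ F : Flag K E, CQ Φ q F →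
      Subgroup.normalizer (((VF F).subgroupOf X : Subgroup X) : Set X) = (PF F).subgroupOf X)
    (hK : ¬ p ∣ Nat.card K) (hK3 : 3 < Nat.card K)
    (hlin : ∀ j : ℕ, (∀ c, Φ.θ c = c ^ (ringChar K ^ j)) → ¬ p ∣ ringChar K ^ j + 1)
    {Q : Subgroup X} (hQ : IsPGroup p Q) (hab : ∀ x ∈ Q, ∀ y ∈ Q, x * y = y * x)
    {m : ℕ} (hm : lvM (finrank K E) ≤ m) :
    ∃ F : Flag K E, CQ Φ q F ∧ ∃ M : Subgroup X, LevSubR p m ((VF F).subgroupOf X) M Q := by
  classical
  have hfinG : Finite (SpecialLinearGroup K E) := SDec.finite_sl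
  have hpF : Fact p.Prime := ⟨hp⟩
  have hXI : X ≤ Φ.Iso := hXq.trans hq.le
  have hm1 : finrank K E + 2 ≤ m :=
    ((le_max_left _ _).trans (le_max_right _ _)).trans hm
  have hm2 : finrank K E ^ finrank K E ≤ m :=
    ((le_max_right _ _).trans (le_max_right _ _)).trans hm
  -- the subgroup of the special linear group
  set Q' : Subgroup (SpecialLinearGroup K E) := Q.map X.subtype with hQ'
  have hQ'p : IsPGroup p Q' := hQ.map _
  have hQ'X : Q' ≤ X := by
    rintro _ ⟨x, -, rfl⟩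
    exact x.2
  have hQQ' : ∀ x ∈ Q, (x : SpecialLinearGroup K E) ∈ Q' := fun x hx => ⟨x, hx, rfl⟩
  have hQ'Q : ∀ x : X, (x : SpecialLinearGroup K E) ∈ Q' → x ∈ Q := by
    rintro x ⟨y, hy, hyx⟩
    rwa [← (Subtype.ext hyx : y = x)]
  have hab' : ∀ x ∈ Q', ∀ y ∈ Q', x * y = y * x := by
    rintro _ ⟨x, hx, rfl⟩ _ ⟨y, hy, rfl⟩
    exact congrArg Subtype.val (hab x hx y hy)
  obtain ⟨l, hl⟩ := IsPGroup.iff_card.mp hQ'p
  have hcop : (Nat.card K).Coprime (Nat.card Q') := by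
    rw [hl]
    exact (Nat.Coprime.pow_left l ((Nat.Prime.coprime_iff_not_dvd hp).mpr hK)).symm
  -- the `p`-part of `|K| - 1`
  obtain ⟨a, n, hpn, hNn⟩ : ∃ a n : ℕ, ¬ p ∣ n ∧ p ^ a * n = Nat.card K - 1 := by
    obtain ⟨a, n, h1, h2⟩ := Nat.exists_eq_pow_mul_and_not_dvd (n := Nat.card K - 1) (by omega) p
      hp.ne_one
    exact ⟨a, n, h1, h2.symm⟩
  have hcopn : (p ^ a).Coprime n :=
    Nat.Coprime.pow_left a ((Nat.Prime.coprime_iff_not_dvd hp).mpr hpn)
  obtain ⟨D₀, hD1, hD2⟩ := exists_sdec Φ hp hQ'p hcop (hQ'X.trans hXI) hab' hlin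
  let D : SDec Φ Q' := { D₀ with adj_e := hD1, triv := hD2, le := hQ'X.trans hXI }
  have hr : D.r ≤ finrank K E := Dec.r_le
  have hs : ∀ i : Fin D.r, Fin.rev i ≠ i → ∀ x, q (D.e i x) = 0 := fun i hi x =>
    summand_sing hq D (hQ'X.trans hXq) (by rw [hl]; exact hp2.pow) hab' hi x
  have hcq : CQ Φ q D.flag := cq_flag hq D hs
  have hAAp : ∀ i, ⁅AA D i, AA D i⁆ = AA D i := AA_perfect hK3
  have hAAL : ∀ i, AA D i ≤ D.L := fun i => (AA_le i).trans (SDec.A_le_L i)
  have hAAX : ∀ i, AA D i ≤ X := fun i =>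
    perfect_le_of_relIndex hX2 (AA_le_IsoQ hq D hs i) (hAAp i)
  have hZX : ZZ D (p ^ a) ≤ X := fun z hz => by
    refine mem_of_odd hX2 (mem_IsoQ_of_dec hq D (SDec.Z_le hz.1).2 fun i x => ?_) hp2.pow hz.2
    have hle' : ∀ y, z (D.e i y) = D.e i (z y) := fun y =>
      congrArg (fun f : End K E => f y) ((SDec.Z_le hz.1).1 i)
    by_cases hi : Fin.rev i = i
    · obtain ⟨c, hc⟩ := Dec.mem_Z hz.1.1
      have h1 : toEnd z * D.e i = ((c i : Kˣ) : K) • D.e i := by rw [hc]; exact Dec.sc_mul_e _ i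
      have h2 : ∀ y, z (D.e i y) = ((c i : Kˣ) : K) • D.e i y := fun y =>
        congrArg (fun f : End K E => f y) h1
      obtain ⟨x0, hx0⟩ : ∃ x0, D.e i x0 ≠ 0 := by
        by_contra h
        push Not at h
        exact D.ne i (LinearMap.ext h)
      obtain ⟨y, hy⟩ : ∃ y, Φ.B (D.e i x0) y ≠ 0 := by
        by_contra h
        push Not at h
        exact hx0 (Φ.nondeg _ h)
      have e1 : Φ.B (D.e i x0) y = Φ.B (D.e i x0) (D.e i y) := by
        have e0 : D.e i (D.e i x0) = D.e i x0 := by rw [← End.mul_apply, D.idem]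
        conv_lhs => rw [← e0, Φ.adj_right, D.adj_e, hi]
      have e2 : Φ.B (z (D.e i x0)) (z (D.e i y)) = Φ.B (D.e i x0) (D.e i y) :=
        (SDec.Z_le hz.1).2 _ _
      rw [h2, h2, Φ.smul_left, Φ.smul_right, hq.th, ← e1] at e2
      have e3 : (((c i : Kˣ) : K) ^ 2 - 1) * Φ.B (D.e i x0) y = 0 := by linear_combination e2
      have e4 : ((c i : Kˣ) : K) ^ 2 = 1 := sub_eq_zero.mp ((mul_eq_zero.mp e3).resolve_right hy)
      rw [h2, hq.smul, e4, one_mul]
    · rw [hle', hs i hi, hs i hi]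
  have hsub : ∀ {H : Subgroup (SpecialLinearGroup K E)}, H ≤ X → (H.subgroupOf X).map X.subtype = H :=
    fun h => Subgroup.map_subgroupOf_eq_of_le h
  have hcent : ∀ g : X, g ∈ Subgroup.centralizer (Q : Set X) →
      (g : SpecialLinearGroup K E) ∈ Subgroup.centralizer (Q' : Set (SpecialLinearGroup K E)) := by
    intro g hg
    rw [Subgroup.mem_centralizer_iff] at hg ⊢
    rintro _ ⟨x, hx, rfl⟩
    exact congrArg Subtype.val (hg x hx)
  have hsup : ∀ x : X, (x : SpecialLinearGroup K E) ∈ (⨆ i, AA D i) →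
      x ∈ ⨆ i, (AA D i).subgroupOf X := by
    intro x h1
    have h2 : (⨆ i, AA D i) = (⨆ i, (AA D i).subgroupOf X).map X.subtype := by
      rw [Subgroup.map_iSup]
      exact iSup_congr fun i => (hsub (hAAX i)).symm
    rw [h2] at h1
    obtain ⟨y, hy, hyx⟩ := h1
    rwa [← (Subtype.ext hyx : y = x)]
  refine ⟨D.flag, hcq, D.L.subgroupOf X, ?_, ?_, ?_, ?_, D.r,
    fun i => (AA D i).subgroupOf X, (BP D n).subgroupOf X, (ZZ D (p ^ a)).subgroupOf X,
    by omega, ?_, ?_, ?_, ⟨?_, ?_, ?_, ?_⟩, ?_, ⟨?_, ?_, ?_⟩, ?_⟩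
  · rw [eq_bot_iff]
    rintro x ⟨hx, hxL⟩
    have hxL' : (x : SpecialLinearGroup K E) ∈ D.L := hxL
    have h1 : (x : SpecialLinearGroup K E) ∈ VF D.flag ⊓ D.toDec.L := ⟨hx, hxL'.1⟩
    rw [Dec.VF_inf_L, Subgroup.mem_bot] at h1
    exact Subgroup.mem_bot.mpr (Subtype.ext h1)
  · rw [hN _ hcq]
    apply le_antisymm
    · exact sup_le (fun x hx => VF_le_PF _ hx) fun x hx => SDec.L_le_PF hx
    · intro x hx
      obtain ⟨g, hg, u, hu, hgI, huI, hxe⟩ := exists_leviQ hq D hs hx (hXq x.2)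
      have huX : u ∈ X := hV _ hcq ⟨hu, huI⟩
      have hgX : g ∈ X := by
        have h1 : g = (x : SpecialLinearGroup K E) * u⁻¹ := by
          change g = X.subtype x * u⁻¹
          rw [hxe, mul_inv_cancel_right]
        rw [h1]
        exact X.mul_mem x.2 (X.inv_mem huX)
      have h2 : x = (⟨g, hgX⟩ : X) * ⟨u, huX⟩ := Subtype.ext hxe
      rw [h2]
      exact Subgroup.mul_mem _ (Subgroup.mem_sup_right hg) (Subgroup.mem_sup_left hu)
  · exact fun x hx => SDec.Q_le hab' (hQQ' x hx)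
  · exact fun g hg => SDec.cent_le (hXI g.2) (hcent g hg)
  · intro j
    refine ⟨fun x hx => hAAL j hx, ?_, ?_, ?_⟩
    · intro g hg
      rw [Subgroup.mem_normalizer_iff]
      have key : ∀ g x : X, (g : SpecialLinearGroup K E) ∈ D.L → x ∈ (AA D j).subgroupOf X →
          g * x * g⁻¹ ∈ (AA D j).subgroupOf X := fun g x hg hx => AA_conj hg hx
      intro x
      refine ⟨key g x hg, fun hx => ?_⟩
      have h1 := key g⁻¹ _ (D.L.inv_mem hg) hx
      have h2 : g⁻¹ * (g * x * g⁻¹) * g⁻¹⁻¹ = x := by group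
      rwa [h2] at h1
    · obtain ⟨N, h1, h2, h3, h4, x₀, hx₀, h5⟩ := cycLev_AA (D := D) hab' j
      refine ⟨N.subgroupOf X, fun x hx => hQ'Q x (h1 hx), ?_, ?_, ?_, ?_⟩
      · intro g hg
        rw [Subgroup.mem_normalizer_iff]
        intro x
        exact Subgroup.mem_normalizer_iff.mp (h2 (hQQ' g hg)) x
      · intro n hn
        rw [Subgroup.mem_centralizer_iff]
        intro a ha
        exact Subtype.ext (Subgroup.mem_centralizer_iff.mp (h3 hn) a ha)
      · rw [eq_bot_iff]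
        rintro x ⟨hx, hxA⟩
        have h6 : (x : SpecialLinearGroup K E) ∈ N ⊓ AA D j := ⟨hx, hxA⟩
        rw [h4, Subgroup.mem_bot] at h6
        exact Subgroup.mem_bot.mpr (Subtype.ext h6)
      · obtain ⟨x₁, hx₁, rfl⟩ := hx₀
        refine ⟨x₁, hx₁, fun y hy => ?_⟩
        obtain ⟨i, hi⟩ := h5 y (hQQ' y hy)
        exact ⟨i, hi⟩
    · apply Subgroup.map_injective X.subtype_injective
      rw [Subgroup.map_commutator, hsub (hAAX j), hAAp j]
  · intro i j hij x hx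
    rw [Subgroup.mem_centralizer_iff]
    intro y hy
    exact Subtype.ext (SDec.A_comm hij.symm (AA_le j hy) (AA_le i hx))
  · intro j x hx
    rw [Subgroup.mem_centralizer_iff]
    intro y hy
    exact Subtype.ext (BB_comm (BP_le hx) hy).symm
  · exact fun x hx => hx.1
  · intro g hg
    rw [Subgroup.mem_normalizer_iff]
    have key : ∀ g x : X, (g : SpecialLinearGroup K E) ∈ D.L → x ∈ (BP D n).subgroupOf X →
        g * x * g⁻¹ ∈ (BP D n).subgroupOf X := fun g x hg hx => BP_conj hg hx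
    intro x
    refine ⟨key g x hg, fun hx => ?_⟩
    have h1 := key g⁻¹ _ (D.L.inv_mem hg) hx
    have h2 : g⁻¹ * (g * x * g⁻¹) * g⁻¹⁻¹ = x := by group
    rwa [h2] at h1
  · intro b hb
    rw [Subgroup.mem_centralizer_iff]
    intro q hq
    exact Subtype.ext (BB_cent hab' (BP_le hb) (hQQ' q hq)).symm
  · rw [eq_bot_iff]
    rintro x ⟨hx, hxQ⟩
    obtain ⟨i, hi⟩ := hQ ⟨x, hxQ⟩
    have h1 : (x : SpecialLinearGroup K E) ^ p ^ i = 1 :=
      congrArg (fun w : Q => (w.1 : SpecialLinearGroup K E)) hi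
    exact Subgroup.mem_bot.mpr (Subtype.ext (BP_inf hp hpn hx (hQQ' x hxQ) h1))
  · intro g hg q hq
    have h1 : g * q * g⁻¹ = g * q * g⁻¹ * q⁻¹ * q := by group
    rw [h1]
    exact Subgroup.mul_mem_sup (hsup _ (comm_mem_AA hab' hg (hQQ' q hq))) hq
  · exact fun x hx => SDec.Z_le hx.1
  · intro g hg
    rw [Subgroup.mem_centralizer_iff]
    intro z hz
    exact Subtype.ext (SDec.Z_comm hz.1 hg)
  · rintro ⟨z, hz⟩
    exact ⟨a, Subtype.ext (Subtype.ext hz.2)⟩
  · set C : Subgroup (SpecialLinearGroup K E) := ZZ D (p ^ a) ⊔ ⨆ i, AA D i with hC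
    have hCX : C ≤ X := sup_le hZX (iSup_le hAAX)
    have h1 : (BP D n ⊔ C) ⊓ (D.L ⊓ X) ≤ (BP D n ⊓ X) ⊔ C := by
      rintro x ⟨hx, -, hxX⟩
      obtain ⟨b, hb, a, ha, rfl⟩ := mem_sup_comm (A := BP D n) (B := C) (by
        intro b hb a ha
        have h2 : C ≤ Subgroup.centralizer {b} := by
          refine sup_le (fun z hz => ?_) (iSup_le fun i a ha => ?_)
          · rw [Subgroup.mem_centralizer_singleton_iff]
            exact SDec.Z_comm hz.1 hb.1
          · rw [Subgroup.mem_centralizer_singleton_iff]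
            exact (BB_comm (BP_le hb) ha).symm
        exact (Subgroup.mem_centralizer_singleton_iff.mp (h2 ha)).symm) hx
      have haX : a ∈ X := hCX ha
      have hbX : b ∈ X := by
        have h2 : b = b * a * a⁻¹ := by group
        rw [h2]
        exact X.mul_mem hxX (X.inv_mem haX)
      exact Subgroup.mul_mem_sup ⟨hb, hbX⟩ ha
    have h2 : ((BP D n).subgroupOf X ⊔ ((ZZ D (p ^ a)).subgroupOf X ⊔
        ⨆ i, (AA D i).subgroupOf X)).relIndex (D.L.subgroupOf X) =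
        ((BP D n ⊓ X) ⊔ C).relIndex (D.L ⊓ X) := by
      rw [← Subgroup.relIndex_map_map_of_injective _ _ X.subtype_injective, Subgroup.map_sup,
        Subgroup.map_sup, Subgroup.map_iSup, map_subgroupOf', map_subgroupOf', map_subgroupOf',
        inf_eq_left.mpr hZX, iSup_congr fun i => hsub (hAAX i)]
    rw [h2]
    refine (Subgroup.relIndex_le_of_le_left h1 Subgroup.index_ne_zero_of_finite).trans ?_
    rw [Subgroup.inf_relIndex_right]
    refine (Subgroup.relIndex_le_of_le_right inf_le_left Subgroup.index_ne_zero_of_finite).trans ?_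
    exact (relIndexP_le hcopn hNn).trans hm2

end Vale.Agent.P180.R2.H471.Os
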